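import Mathlib

/-!
# Leaf algebra for S0270 (Kurosh for division rings): finite-dimensional division algebras

`Z` a field of characteristic zero, `E` a finite dimensional division `Z`-algebra (not necessarily
central unless stated).

* `regTrace`: the regular trace, cyclic and nondegenerate.
* `Split`: `B = C_B(ξ) ⊕ [ξ, B]`, the projection `pi`, and `Tr (B₀ * pi c) = Tr (B₀ * c)` for `B₀`
  in the centralizer.
* `Der`: derivations of `E` over `Z` are inner.
* `Bimod`: `E` central: a sub-bimodule of `Y → E` is `E ⊗ U`; a proper one is killed by a nonzero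
  `α : Y → Z`.
* faithful action of `E ⊗ Eᵒᵖ`.
-/

set_option autoImplicit false

namespace Crest.Agent.Lib.Kurosh.DivAlg

open scoped BigOperators
open Module

section Trace

variable (Z E : Type*) [Field Z] [Ring E] [Algebra Z E]

/-- The regular trace `x ↦ tr (L_x)`. -/
noncomputable def regTrace : E →ₗ[Z] Z :=
  (LinearMap.trace Z E) ∘ₗ (Algebra.lmul Z E).toLinearMap

variable {Z E}

theorem regTrace_apply (x : E) : regTrace Z E x = LinearMap.trace Z E (Algebra.lmul Z E x) := rfl

theorem regTrace_mul_comm (a b : E) : regTrace Z E (a * b) = regTrace Z E (b * a) := by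
  simp only [regTrace_apply, map_mul]
  exact LinearMap.trace_mul_comm _ _ _

theorem regTrace_one [FiniteDimensional Z E] : regTrace Z E 1 = (finrank Z E : Z) := by
  rw [regTrace_apply, map_one]
  exact LinearMap.trace_one Z E

/-- `Tr (B₀ [ξ,a]) = 0` if `B₀` commutes with `ξ`. -/
theorem regTrace_mul_commutator (xi b a : E) (h : b * xi = xi * b) :
    regTrace Z E (b * (xi * a - a * xi)) = 0 := by
  have h1 : b * (xi * a - a * xi) = (xi * b) * a - b * (a * xi) := by
    rw [mul_sub, ← mul_assoc, h]
  rw [h1, map_sub, sub_eq_zero, mul_assoc xi b a, regTrace_mul_comm xi (b * a), mul_assoc]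

end Trace

section DivisionAlgebra

set_option linter.unusedSectionVars false

variable {Z E : Type*} [Field Z] [CharZero Z] [DivisionRing E] [Algebra Z E]
  [FiniteDimensional Z E]

theorem finrank_ne_zero_Z : (finrank Z E : Z) ≠ 0 := by
  have : 0 < finrank Z E := finrank_pos
  exact_mod_cast this.ne'

/-- Nondegeneracy in the form `Tr (x * x⁻¹) = dim ≠ 0`. -/
theorem regTrace_mul_inv {x : E} (hx : x ≠ 0) : regTrace Z E (x * x⁻¹) ≠ 0 := by
  rw [mul_inv_cancel₀ hx, regTrace_one]
  exact finrank_ne_zero_Z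

/-- The trace form on `E`. -/
noncomputable def traceForm (Z E : Type*) [Field Z] [DivisionRing E] [Algebra Z E] :
    LinearMap.BilinForm Z E :=
  LinearMap.mk₂ Z (fun x y => regTrace Z E (x * y))
    (fun a b c => by rw [add_mul, map_add])
    (fun r a b => by rw [smul_mul_assoc, map_smul])
    (fun a b c => by rw [mul_add, map_add])
    (fun r a b => by rw [mul_smul_comm, map_smul])

@[simp] theorem traceForm_apply (x y : E) : traceForm Z E x y = regTrace Z E (x * y) := rfl

theorem traceForm_isSymm : (traceForm Z E).IsSymm := by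
  refine ⟨fun x y => ?_⟩
  simp only [traceForm_apply]
  exact regTrace_mul_comm _ _

theorem traceForm_nondegenerate : (traceForm Z E).Nondegenerate := by
  have h : ∀ x : E, (∀ y, traceForm Z E x y = 0) → x = 0 := by
    intro x hx
    by_contra hne
    exact regTrace_mul_inv (Z := Z) hne (hx x⁻¹)
  refine ⟨h, ?_⟩
  intro y hy
  refine h y (fun x => ?_)
  rw [traceForm_apply, regTrace_mul_comm]
  exact hy x

/-! ### Lemma Split -/

/-- `ad ξ`. -/
noncomputable def ad (Z : Type*) {E : Type*} [Field Z] [Ring E] [Algebra Z E] (xi : E) :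
    E →ₗ[Z] E :=
  LinearMap.mulLeft Z xi - LinearMap.mulRight Z xi

@[simp] theorem ad_apply (xi a : E) : ad Z xi a = xi * a - a * xi := rfl

/-- The centralizer of `ξ`, as a `Z`-submodule. -/
noncomputable def cent (Z : Type*) {E : Type*} [Field Z] [Ring E] [Algebra Z E] (xi : E) :
    Submodule Z E := LinearMap.ker (ad Z xi)

theorem mem_cent {xi a : E} : a ∈ cent Z xi ↔ a * xi = xi * a := by
  rw [cent, LinearMap.mem_ker, ad_apply, sub_eq_zero, eq_comm]

/-- Range of `ad ξ`. -/
noncomputable def comm (Z : Type*) {E : Type*} [Field Z] [Ring E] [Algebra Z E] (xi : E) :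
    Submodule Z E := LinearMap.range (ad Z xi)

theorem inv_mem_cent {xi c : E} (h : c ∈ cent Z xi) : c⁻¹ ∈ cent Z xi := by
  rw [mem_cent] at h ⊢
  by_cases hc : c = 0
  · simp [hc]
  · rw [inv_mul_eq_iff_eq_mul₀ hc, ← mul_assoc, h, mul_assoc, mul_inv_cancel₀ hc, mul_one]

theorem disjoint_cent_comm (xi : E) : Disjoint (cent Z xi) (comm Z xi) := by
  rw [Submodule.disjoint_def]
  intro c hc hc'
  by_contra hne
  obtain ⟨a, rfl⟩ := hc'
  have hinv := inv_mem_cent hc
  rw [mem_cent] at hinv
  have := regTrace_mul_commutator (Z := Z) xi (ad Z xi a)⁻¹ a hinv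
  apply regTrace_mul_inv (Z := Z) hne
  rw [regTrace_mul_comm]
  exact this

/-- **Lemma Split**: `B = C_B(ξ) ⊕ [ξ,B]`. -/
theorem isCompl_cent_comm (xi : E) : IsCompl (cent Z xi) (comm Z xi) := by
  rw [Submodule.isCompl_iff_disjoint _ _ (by
    have := LinearMap.finrank_range_add_finrank_ker (ad Z xi)
    rw [cent, comm]
    omega)]
  exact disjoint_cent_comm xi

/-- The projection `π : B → C_B(ξ)` along `[ξ,B]`. -/
noncomputable def pi (xi : E) : E →ₗ[Z] cent Z xi :=
  Submodule.projectionOnto _ _ (isCompl_cent_comm xi)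

theorem pi_apply_of_mem {xi c : E} (h : c ∈ cent Z xi) : ((pi (Z := Z) xi c : cent Z xi) : E) = c := by
  rw [pi, Submodule.projectionOnto_apply_of_mem_left (isCompl_cent_comm xi) h]

theorem pi_apply_comm {xi : E} (a : E) : pi (Z := Z) xi (xi * a - a * xi) = 0 := by
  rw [pi, Submodule.projectionOnto_apply_eq_zero_iff (isCompl_cent_comm xi)]
  exact ⟨a, rfl⟩

/-- Every `c` is `π c + [ξ, a]`. -/
theorem exists_sub_pi_eq (xi c : E) : ∃ a, c - (pi (Z := Z) xi c : E) = xi * a - a * xi := by
  have h : c - (pi (Z := Z) xi c : E) ∈ comm Z xi := by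
    rw [← Submodule.projectionOnto_apply_eq_zero_iff (isCompl_cent_comm (Z := Z) xi), map_sub]
    have := pi_apply_of_mem (Z := Z) (xi := xi) (pi (Z := Z) xi c).2
    rw [sub_eq_zero]
    exact Subtype.ext this.symm
  obtain ⟨a, ha⟩ := h
  exact ⟨a, by rw [← ha]; rfl⟩

/-- `Tr (B₀ π c) = Tr (B₀ c)` for `B₀` in the centralizer. -/
theorem regTrace_mul_pi {xi b : E} (hb : b ∈ cent Z xi) (c : E) :
    regTrace Z E (b * (pi (Z := Z) xi c : E)) = regTrace Z E (b * c) := by
  obtain ⟨a, ha⟩ := exists_sub_pi_eq (Z := Z) xi c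
  have h1 : c = (pi (Z := Z) xi c : E) + (xi * a - a * xi) := by rw [← ha]; abel
  have h2 := regTrace_mul_commutator (Z := Z) xi b a ((mem_cent).1 hb)
  conv_rhs => rw [h1, mul_add, map_add, h2, add_zero]

/-! ### Lemma Der -/

/-- **Lemma Der**: every `Z`-derivation of `E` is inner. -/
theorem derivation_inner (δ : E →ₗ[Z] E) (hδ : ∀ a b, δ (a * b) = δ a * b + a * δ b) :
    ∃ u : E, ∀ a, δ a = u * a - a * u := by
  classical
  let ι := Module.Free.ChooseBasisIndex Z E
  have : Fintype ι := Module.Free.ChooseBasisIndex.fintype Z E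
  let b : Basis ι Z E := Module.Free.chooseBasis Z E
  have hB := traceForm_nondegenerate (Z := Z) (E := E)
  let b' : Basis ι Z E := (traceForm Z E).dualBasis hB b
  -- pairing relations
  have hpair : ∀ i j, regTrace Z E (b' i * b j) = if j = i then 1 else 0 := fun i j => by
    have := (traceForm Z E).apply_dualBasis_left hB b i j
    simpa using this
  -- expansions
  have hexp : ∀ x : E, x = ∑ i, regTrace Z E (x * b i) • b' i := fun x => by
    conv_lhs => rw [← b'.sum_repr x]
    refine Finset.sum_congr rfl (fun i _ => ?_)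
    rw [LinearMap.BilinForm.dualBasis_repr_apply]
    rfl
  have hexp' : ∀ x : E, x = ∑ i, regTrace Z E (b' i * x) • b i := fun x => by
    conv_lhs => rw [← b.sum_repr x]
    refine Finset.sum_congr rfl (fun i _ => ?_)
    congr 1
    have : regTrace Z E (b' i * x) = ∑ j, b.repr x j * regTrace Z E (b' i * b j) := by
      conv_lhs => rw [← b.sum_repr x]
      rw [Finset.mul_sum, map_sum]
      refine Finset.sum_congr rfl (fun j _ => ?_)
      rw [mul_smul_comm, map_smul, smul_eq_mul]
    rw [this]
    simp [hpair]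
  -- the Casimir identity, for every bilinear map
  have hcas : ∀ (Φ : E →ₗ[Z] E →ₗ[Z] E) (a : E),
      ∑ i, Φ (a * b i) (b' i) = ∑ i, Φ (b i) (b' i * a) := by
    intro Φ a
    have h1 : ∀ i, Φ (a * b i) (b' i) = ∑ j, regTrace Z E (b' j * (a * b i)) • Φ (b j) (b' i) := by
      intro i
      conv_lhs => rw [hexp' (a * b i)]
      rw [map_sum, LinearMap.sum_apply]
      refine Finset.sum_congr rfl (fun j _ => ?_)
      rw [map_smul, LinearMap.smul_apply]
    have h2 : ∀ j, Φ (b j) (b' j * a) = ∑ i, regTrace Z E (b' j * a * b i) • Φ (b j) (b' i) := by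
      intro j
      conv_lhs => rw [hexp (b' j * a)]
      rw [map_sum]
      refine Finset.sum_congr rfl (fun i _ => ?_)
      rw [map_smul]
    simp_rw [h1, h2]
    rw [Finset.sum_comm]
    refine Finset.sum_congr rfl (fun j _ => Finset.sum_congr rfl (fun i _ => ?_))
    rw [mul_assoc]
  -- Casimir element
  let w : E := ∑ i, b i * b' i
  let v : E := ∑ i, δ (b i) * b' i
  have hw_central : ∀ a, a * w = w * a := by
    intro a
    have := hcas (LinearMap.mul Z E) a
    simp only [LinearMap.mul_apply'] at this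
    rw [Finset.mul_sum, Finset.sum_mul]
    calc ∑ i, a * (b i * b' i) = ∑ i, a * b i * b' i :=
          Finset.sum_congr rfl (fun i _ => by rw [mul_assoc])
      _ = ∑ i, b i * (b' i * a) := this
      _ = ∑ i, b i * b' i * a := Finset.sum_congr rfl (fun i _ => by rw [mul_assoc])
  have hw_trace : regTrace Z E w = (finrank Z E : Z) := by
    simp only [w, map_sum]
    have : ∀ i, regTrace Z E (b i * b' i) = 1 := fun i => by
      rw [regTrace_mul_comm, hpair]; simp
    simp only [this, Finset.sum_const, Finset.card_univ, nsmul_eq_mul, mul_one]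
    rw [finrank_eq_card_basis b]
  have hw_ne : w ≠ 0 := by
    intro h
    rw [h, map_zero] at hw_trace
    exact finrank_ne_zero_Z (Z := Z) (E := E) hw_trace.symm
  have hkey : ∀ a, δ a * w = v * a - a * v := by
    intro a
    have := hcas ((LinearMap.mul Z E).comp δ) a
    simp only [LinearMap.comp_apply, LinearMap.mul_apply'] at this
    have h1 : ∑ i, δ (a * b i) * b' i = δ a * w + a * v := by
      simp only [hδ, add_mul, Finset.sum_add_distrib, w, v, Finset.mul_sum, mul_assoc]
    have h2 : ∑ i, δ (b i) * (b' i * a) = v * a := by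
      simp only [v, Finset.sum_mul, mul_assoc]
    rw [h1, h2] at this
    rw [← this]; abel
  refine ⟨v * w⁻¹, fun a => ?_⟩
  have hwinv : a * w⁻¹ = w⁻¹ * a := by
    rw [eq_inv_mul_iff_mul_eq₀ hw_ne, ← mul_assoc, ← hw_central, mul_assoc, mul_inv_cancel₀ hw_ne,
      mul_one]
  calc δ a = δ a * w * w⁻¹ := by rw [mul_assoc, mul_inv_cancel₀ hw_ne, mul_one]
    _ = (v * a - a * v) * w⁻¹ := by rw [hkey]
    _ = v * (a * w⁻¹) - a * v * w⁻¹ := by rw [sub_mul, mul_assoc]
    _ = v * w⁻¹ * a - a * (v * w⁻¹) := by rw [hwinv, mul_assoc, mul_assoc]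

end DivisionAlgebra

/-! ### Central division algebras: faithful action of `E ⊗ Eᵒᵖ`, bimodules -/

section Central

set_option linter.unusedSectionVars false

variable {Z E : Type*} [Field Z] [DivisionRing E] [Algebra Z E] [Algebra.IsCentral Z E]

theorem exists_algebraMap_of_forall_comm {a : E} (h : ∀ c, a * c = c * a) :
    ∃ z : Z, a = algebraMap Z E z := by
  have h1 : a ∈ Subalgebra.center Z E := by
    rw [Subalgebra.mem_center_iff]
    exact fun c => (h c).symm
  have h2 := Algebra.IsCentral.out (K := Z) (D := E) h1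
  rw [Algebra.mem_bot] at h2
  obtain ⟨z, hz⟩ := h2
  exact ⟨z, hz.symm⟩

/-- Faithfulness of `E ⊗ Eᵒᵖ`, right factors independent. -/
theorem eq_zero_of_forall_sum_mul_mul_eq_zero {ι : Type*} [DecidableEq ι] {b : ι → E}
    (hb : LinearIndependent Z b) (s : Finset ι) (a : ι → E)
    (h : ∀ y, ∑ i ∈ s, a i * y * b i = 0) : ∀ i ∈ s, a i = 0 := by
  induction' hn : s.card using Nat.strong_induction_on with n ih generalizing s a
  intro i0 hi0
  by_contra hne
  let a' : ι → E := fun i => (a i0)⁻¹ * a i
  have h1 : ∀ y, ∑ i ∈ s, a' i * y * b i = 0 := fun y => by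
    have := congrArg (fun t => (a i0)⁻¹ * t) (h y)
    simp only [Finset.mul_sum, mul_zero] at this
    simpa [a', mul_assoc] using this
  have h0 : a' i0 = 1 := inv_mul_cancel₀ hne
  have h2 : ∀ c y, ∑ i ∈ s.erase i0, (a' i * c - c * a' i) * y * b i = 0 := fun c y => by
    have h3 : ∑ i ∈ s, (a' i * c - c * a' i) * y * b i = 0 := by
      have e1 := h1 (c * y)
      have e2 := congrArg (fun t => c * t) (h1 y)
      simp only [Finset.mul_sum, mul_zero] at e2
      have : ∀ i ∈ s, (a' i * c - c * a' i) * y * b i =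
          a' i * (c * y) * b i - c * (a' i * y * b i) := fun i _ => by
        noncomm_ring
      rw [Finset.sum_congr rfl this, Finset.sum_sub_distrib, e1, e2, sub_zero]
    rw [← Finset.add_sum_erase s _ hi0, h0] at h3
    simpa using h3
  have hcard : (s.erase i0).card < n := by
    rw [← hn]; exact Finset.card_erase_lt_of_mem hi0
  have h4 : ∀ c, ∀ i ∈ s.erase i0, a' i * c - c * a' i = 0 := fun c =>
    ih _ hcard (s.erase i0) (fun i => a' i * c - c * a' i) (h2 c) rfl
  have h5 : ∀ i ∈ s.erase i0, ∃ z : Z, a' i = algebraMap Z E z := fun i hi =>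
    exists_algebraMap_of_forall_comm (fun c => sub_eq_zero.1 (h4 c i hi))
  choose! z hz using h5
  -- specialise `y = 1`
  have h6 := h1 1
  rw [← Finset.add_sum_erase s _ hi0, h0] at h6
  let z' : ι → Z := fun i => if i = i0 then 1 else z i
  have h7 : ∑ i ∈ s, z' i • b i = 0 := by
    rw [← Finset.add_sum_erase s _ hi0]
    simp only [z', if_true, one_smul]
    have : ∀ i ∈ s.erase i0, (if i = i0 then (1 : Z) else z i) • b i = a' i * 1 * b i := by
      intro i hi
      rw [if_neg (Finset.ne_of_mem_erase hi), hz i hi, mul_one, Algebra.smul_def]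
    rw [Finset.sum_congr rfl this]
    simpa using h6
  have h8 := (linearIndependent_iff'.1 hb) s z' h7 i0 hi0
  simp [z'] at h8

/-- Faithfulness of `E ⊗ Eᵒᵖ`, left factors independent. -/
theorem eq_zero_of_forall_sum_mul_mul_eq_zero' {ι : Type*} [DecidableEq ι] {a : ι → E}
    (ha : LinearIndependent Z a) (s : Finset ι) (b : ι → E)
    (h : ∀ y, ∑ i ∈ s, a i * y * b i = 0) : ∀ i ∈ s, b i = 0 := by
  induction' hn : s.card using Nat.strong_induction_on with n ih generalizing s b
  intro i0 hi0
  by_contra hne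
  let b' : ι → E := fun i => b i * (b i0)⁻¹
  have h1 : ∀ y, ∑ i ∈ s, a i * y * b' i = 0 := fun y => by
    have := congrArg (fun t => t * (b i0)⁻¹) (h y)
    simp only [Finset.sum_mul, zero_mul] at this
    simpa [b', mul_assoc] using this
  have h0 : b' i0 = 1 := mul_inv_cancel₀ hne
  have h2 : ∀ c y, ∑ i ∈ s.erase i0, a i * y * (b' i * c - c * b' i) = 0 := fun c y => by
    have h3 : ∑ i ∈ s, a i * y * (b' i * c - c * b' i) = 0 := by
      have e1 := h1 (y * c)
      have e2 := congrArg (fun t => t * c) (h1 y)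
      simp only [Finset.sum_mul, zero_mul] at e2
      have : ∀ i ∈ s, a i * y * (b' i * c - c * b' i) =
          a i * y * b' i * c - a i * (y * c) * b' i := fun i _ => by
        noncomm_ring
      rw [Finset.sum_congr rfl this, Finset.sum_sub_distrib, e1, e2, sub_zero]
    rw [← Finset.add_sum_erase s _ hi0, h0] at h3
    simpa using h3
  have hcard : (s.erase i0).card < n := by
    rw [← hn]; exact Finset.card_erase_lt_of_mem hi0
  have h4 : ∀ c, ∀ i ∈ s.erase i0, b' i * c - c * b' i = 0 := fun c =>
    ih _ hcard (s.erase i0) (fun i => b' i * c - c * b' i) (h2 c) rfl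
  have h5 : ∀ i ∈ s.erase i0, ∃ z : Z, b' i = algebraMap Z E z := fun i hi =>
    exists_algebraMap_of_forall_comm (fun c => sub_eq_zero.1 (h4 c i hi))
  choose! z hz using h5
  have h6 := h1 1
  rw [← Finset.add_sum_erase s _ hi0, h0] at h6
  let z' : ι → Z := fun i => if i = i0 then 1 else z i
  have h7 : ∑ i ∈ s, z' i • a i = 0 := by
    rw [← Finset.add_sum_erase s _ hi0]
    simp only [z', if_true, one_smul]
    have : ∀ i ∈ s.erase i0, (if i = i0 then (1 : Z) else z i) • a i = a i * 1 * b' i := by
      intro i hi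
      rw [if_neg (Finset.ne_of_mem_erase hi), hz i hi, mul_one, Algebra.smul_def,
        Algebra.commutes]
    rw [Finset.sum_congr rfl this]
    simpa using h6
  have h8 := (linearIndependent_iff'.1 ha) s z' h7 i0 hi0
  simp [z'] at h8

/-! ### Lemma Bimod -/

/-- Embedding of `Y → Z` in `Y → E`. -/
def emb {Y : Type*} (u : Y → Z) : Y → E := fun y => algebraMap Z E (u y)

/-- Minimal support: a nonzero element of a sub-bimodule dominates a nonzero element with
coefficients in `Z`. -/
theorem exists_emb_mem {Y : Type*} [Fintype Y] [DecidableEq Y] (M : Submodule Z (Y → E))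
    (hL : ∀ (a : E) x, x ∈ M → (fun y => a * x y) ∈ M)
    (hR : ∀ (a : E) x, x ∈ M → (fun y => x y * a) ∈ M) (x : Y → E) (hx : x ∈ M) (hx0 : x ≠ 0) :
    ∃ u : Y → Z, u ≠ 0 ∧ emb u ∈ M ∧ ∀ y, x y = 0 → u y = 0 := by
  classical
  induction' hn : (Finset.univ.filter fun y => x y ≠ 0).card using Nat.strong_induction_on
    with n ih generalizing x
  obtain ⟨y0, hy0⟩ : ∃ y0, x y0 ≠ 0 := by
    by_contra h
    push Not at h
    exact hx0 (funext h)
  let x1 : Y → E := fun y => (x y0)⁻¹ * x y
  have hx1 : x1 ∈ M := hL _ _ hx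
  have hx1y0 : x1 y0 = 1 := inv_mul_cancel₀ hy0
  have hsupp : ∀ y, x y = 0 → x1 y = 0 := fun y h => by simp [x1, h]
  by_cases hcomm : ∀ c y, c * x1 y = x1 y * c
  · -- all coordinates central
    have h5 : ∀ y, ∃ z : Z, x1 y = algebraMap Z E z := fun y =>
      exists_algebraMap_of_forall_comm (fun c => (hcomm c y).symm)
    choose u hu using h5
    refine ⟨u, ?_, ?_, ?_⟩
    · intro h0
      have := hu y0
      rw [hx1y0, h0] at this
      simp at this
    · have : emb u = x1 := funext fun y => (hu y).symm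
      rw [this]; exact hx1
    · intro y hy
      have := hu y
      rw [hsupp y hy] at this
      exact (map_eq_zero_iff _ (algebraMap Z E).injective).1 this.symm
  · push Not at hcomm
    obtain ⟨c, y1, hy1⟩ := hcomm
    let x2 : Y → E := (fun y => c * x1 y) - (fun y => x1 y * c)
    have hx2 : x2 ∈ M := M.sub_mem (hL _ _ hx1) (hR _ _ hx1)
    have hx20 : x2 ≠ 0 := by
      intro h
      have := congrFun h y1
      simp only [x2, Pi.sub_apply, Pi.zero_apply] at this
      exact hy1 (sub_eq_zero.1 this)
    have hsupp2 : ∀ y, x y = 0 → x2 y = 0 := fun y h => by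
      simp [x2, hsupp y h]
    have hy02 : x2 y0 = 0 := by simp [x2, hx1y0]
    have hcard : (Finset.univ.filter fun y => x2 y ≠ 0).card < n := by
      rw [← hn]
      apply Finset.card_lt_card
      rw [Finset.ssubset_iff_of_subset]
      · exact ⟨y0, by simpa using hy0, by simpa using hy02⟩
      · intro y hy
        simp only [Finset.mem_filter, Finset.mem_univ, true_and] at hy ⊢
        exact fun h => hy (hsupp2 y h)
    obtain ⟨u, hu0, hu1, hu2⟩ := ih _ hcard x2 hx2 hx20 rfl
    exact ⟨u, hu0, hu1, fun y hy => hu2 y (hsupp2 y hy)⟩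

/-- **Lemma Bimod**, dual form: a proper sub-bimodule of `Y → E` is killed by a nonzero
`α : Y → Z`. -/
theorem bimod_killed {Y : Type*} [Fintype Y] [DecidableEq Y] (M : Submodule Z (Y → E))
    (hL : ∀ (a : E) x, x ∈ M → (fun y => a * x y) ∈ M)
    (hR : ∀ (a : E) x, x ∈ M → (fun y => x y * a) ∈ M) (hM : M ≠ ⊤) :
    ∃ α : Y → Z, α ≠ 0 ∧ ∀ x ∈ M, ∑ y, algebraMap Z E (α y) * x y = 0 := by
  classical
  -- the subspace `U = M ∩ Z^Y`
  let emL : (Y → Z) →ₗ[Z] (Y → E) :=
    { toFun := emb
      map_add' := fun u v => by funext y; simp [emb]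
      map_smul' := fun r u => by funext y; simp [emb, Algebra.smul_def] }
  let U : Submodule Z (Y → Z) := M.comap emL
  have hU : U ≠ ⊤ := by
    intro h
    apply hM
    rw [eq_top_iff]
    intro x _
    have : x = ∑ y, (fun t => x y * emb (Pi.single y (1 : Z)) t) := by
      funext t
      simp only [Finset.sum_apply]
      rw [Finset.sum_eq_single t]
      · simp [emb]
      · intro b _ hb
        simp [emb, Pi.single_eq_of_ne hb.symm]
      · simp
    rw [this]
    refine M.sum_mem (fun y _ => hL _ _ ?_)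
    have : Pi.single y (1 : Z) ∈ U := by rw [h]; trivial
    exact this
  obtain ⟨f, hf0, hf⟩ := Submodule.exists_le_ker_of_lt_top U (lt_top_iff_ne_top.2 hU)
  let α : Y → Z := fun y => f (Pi.single y 1)
  have hf_apply : ∀ u : Y → Z, f u = ∑ y, α y * u y := fun u => by
    rw [LinearMap.pi_apply_eq_sum_univ f u]
    simp only [smul_eq_mul, α]
    refine Finset.sum_congr rfl (fun y _ => ?_)
    have : (fun j => if y = j then (1 : Z) else 0) = Pi.single y 1 := by
      funext j; simp [Pi.single_apply, eq_comm]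
    rw [this, mul_comm]
  refine ⟨α, ?_, ?_⟩
  · intro h0
    apply hf0
    ext u
    simp [hf_apply, h0]
  · intro x hx
    induction' hn : (Finset.univ.filter fun y => x y ≠ 0).card using Nat.strong_induction_on
      with n ih generalizing x
    by_cases hx0 : x = 0
    · simp [hx0]
    obtain ⟨u, hu0, hu1, hu2⟩ := exists_emb_mem M hL hR x hx hx0
    obtain ⟨y0, hy0⟩ : ∃ y0, u y0 ≠ 0 := by
      by_contra h
      push Not at h
      exact hu0 (funext h)
    have hxy0 : x y0 ≠ 0 := fun h => hy0 (hu2 _ h)
    let a : E := x y0 * algebraMap Z E (u y0)⁻¹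
    let x' : Y → E := x - (fun y => a * emb u y)
    have hx' : x' ∈ M := M.sub_mem hx (hL _ _ hu1)
    have hx'y0 : x' y0 = 0 := by
      simp only [x', Pi.sub_apply, a, emb, mul_assoc, ← map_mul, inv_mul_cancel₀ hy0, map_one,
        mul_one, sub_self]
    have hsupp : ∀ y, x y = 0 → x' y = 0 := fun y h => by
      simp [x', h, hu2 y h, emb]
    have hcard : (Finset.univ.filter fun y => x' y ≠ 0).card < n := by
      rw [← hn]
      apply Finset.card_lt_card
      rw [Finset.ssubset_iff_of_subset]
      · exact ⟨y0, by simpa using hxy0, by simpa using hx'y0⟩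
      · intro y hy
        simp only [Finset.mem_filter, Finset.mem_univ, true_and] at hy ⊢
        exact fun h => hy (hsupp y h)
    have h1 := ih _ hcard x' hx' rfl
    have h2 : ∑ y, α y * u y = 0 := by
      rw [← hf_apply]
      exact hf hu1
    have h3 : ∑ y, algebraMap Z E (α y) * emb u y = 0 := by
      simp only [emb, ← map_mul, ← map_sum, h2, map_zero]
    have hx_eq : ∀ y, x y = x' y + a * emb u y := fun y => by simp [x']
    simp only [hx_eq, mul_add, Finset.sum_add_distrib, h1, zero_add]
    calc ∑ y, algebraMap Z E (α y) * (a * emb u y)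
        = ∑ y, a * (algebraMap Z E (α y) * emb u y) :=
          Finset.sum_congr rfl fun y _ => by
            have hc : algebraMap Z E (α y) * a = a * algebraMap Z E (α y) := Algebra.commutes _ _
            rw [← mul_assoc, hc, mul_assoc]
      _ = 0 := by rw [← Finset.mul_sum, h3, mul_zero]

end Central

end Crest.Agent.Lib.Kurosh.DivAlg
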