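import Crest.Agent.Lib.Kurosh.SkewLaurentFilt

/-!
# The level-up substitution, abstract core (S0270, blueprint section 1)

Everything here is over an abstract `SL S σ`.

* `solve τ H a`: the unique family `D : NCS R Y → SL S σ` with a uniform lower bound and
  `D f = H f + ∑ y, τ y * D (dl y f)` (with `val (τ y) ≥ 1`).  All of `value`, `dir`, `dir2` are of
  this form, so all identities among them are proved by uniqueness, with no convergence argument.
* `Base`: the data `ρ : R → SL S σ`, `τ : Y → SL S σ`.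
* `psi`: the ring hom `NCS R Y →+* NCS (SL S σ) Y'`, `C r ↦ C (ρ r)`,
  `X y ↦ C (τ y) + ∑ t, C (x t y) * X t`, built from `NCSeries.subst`.
-/

set_option autoImplicit false

namespace Crest.Agent.Lib.Kurosh
namespace PsiCore

open NCSeries

section Solve

variable {S : Type*} [Ring S] {σ : RingAut S}
variable {Y : Type*} [Fintype Y] {R : Type*}

lemma lB_sum {ι : Type*} (s : Finset ι) (F : ι → SL S σ) {a : ℤ} (h : ∀ i ∈ s, (F i).LB a) :
    (∑ i ∈ s, F i).LB a := by
  intro n hn
  rw [SL.coeff_sum]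
  exact Finset.sum_eq_zero fun i hi => h i hi n hn

lemma eq_zero_of_LB_all {g : SL S σ} {a : ℤ} (h : ∀ n : ℕ, g.LB (a + n)) : g = 0 := by
  apply SL.ext
  funext i
  refine h (i - a + 1).toNat i ?_
  have := Int.self_le_toNat (i - a + 1)
  omega

/-- The approximations of `solve`. -/
noncomputable def solveN (τ : Y → SL S σ) (H : NCSeries Y R → SL S σ) : ℕ → NCSeries Y R → SL S σ
  | 0, _ => 0
  | n + 1, f => H f + ∑ y, τ y * solveN τ H n (dl y f)

variable {τ : Y → SL S σ} {H : NCSeries Y R → SL S σ} {a : ℤ}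

lemma solveN_succ (n : ℕ) (f : NCSeries Y R) :
    solveN τ H (n + 1) f = H f + ∑ y, τ y * solveN τ H n (dl y f) := rfl

lemma solveN_LB (hτ : ∀ y, (τ y).LB 1) (hH : ∀ f, (H f).LB a) (n : ℕ) (f : NCSeries Y R) :
    (solveN τ H n f).LB a := by
  induction n generalizing f with
  | zero => exact SL.lB_zero a
  | succ n ih =>
    refine SL.LB.add (hH f) (lB_sum _ _ fun y _ => ?_)
    exact ((hτ y).mul (ih (dl y f))).mono (by omega)

lemma solveN_succ_sub (hτ : ∀ y, (τ y).LB 1) (hH : ∀ f, (H f).LB a) (n : ℕ) (f : NCSeries Y R) :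
    (solveN τ H (n + 1) f - solveN τ H n f).LB (a + n) := by
  induction n generalizing f with
  | zero =>
    have e : solveN τ H (0 + 1) f - solveN τ H 0 f = H f := by
      simp [solveN]
    rw [e]
    simpa using hH f
  | succ n ih =>
    have e : solveN τ H (n + 1 + 1) f - solveN τ H (n + 1) f =
        ∑ y, τ y * (solveN τ H (n + 1) (dl y f) - solveN τ H n (dl y f)) := by
      rw [solveN_succ (n + 1), solveN_succ n]
      simp only [mul_sub, Finset.sum_sub_distrib]
      abel
    rw [e]
    refine lB_sum _ _ fun y _ => ?_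
    refine ((hτ y).mul (ih (dl y f))).mono ?_
    push_cast
    omega

lemma solveN_coeff_eq (hτ : ∀ y, (τ y).LB 1) (hH : ∀ f, (H f).LB a) {i : ℤ} {n n' : ℕ}
    (hn : i < a + n) (hn' : n ≤ n') (f : NCSeries Y R) :
    (solveN τ H n' f).coeff i = (solveN τ H n f).coeff i := by
  induction n', hn' using Nat.le_induction with
  | base => rfl
  | succ n' hn' ih =>
    rw [← ih]
    have := solveN_succ_sub hτ hH n' f i (by
      have : (n : ℤ) ≤ n' := by exact_mod_cast hn'
      omega)
    rw [SL.coeff_sub] at this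
    exact sub_eq_zero.mp this

open Classical in
/-- The solution of the recursion `D f = H f + ∑ y, τ y * D (dl y f)`. -/
noncomputable def solve (τ : Y → SL S σ) (H : NCSeries Y R → SL S σ) (a : ℤ)
    (hτ : ∀ y, (τ y).LB 1) (hH : ∀ f, (H f).LB a) (f : NCSeries Y R) : SL S σ :=
  ⟨fun i => (solveN τ H (i - a + 1).toNat f).coeff i, a, fun i hi => solveN_LB hτ hH _ f i hi⟩

section

variable (hτ : ∀ y, (τ y).LB 1) (hH : ∀ f, (H f).LB a)

lemma solve_LB (f : NCSeries Y R) : (solve τ H a hτ hH f).LB a :=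
  fun i hi => solveN_LB hτ hH _ f i hi

lemma solve_sub_solveN (n : ℕ) (f : NCSeries Y R) :
    (solve τ H a hτ hH f - solveN τ H n f).LB (a + n) := by
  intro i hi
  rw [SL.coeff_sub, sub_eq_zero]
  show (solveN τ H (i - a + 1).toNat f).coeff i = _
  by_cases h : i < a
  · rw [solveN_LB hτ hH _ f i h, solveN_LB hτ hH _ f i h]
  · have h1 : i < a + ((i - a + 1).toNat : ℤ) := by
      have := Int.self_le_toNat (i - a + 1)
      omega
    have h2 : (i - a + 1).toNat ≤ n := by
      omega
    exact (solveN_coeff_eq hτ hH h1 h2 f).symm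

/-- The recursion. -/
theorem solve_rec (f : NCSeries Y R) :
    solve τ H a hτ hH f = H f + ∑ y, τ y * solve τ H a hτ hH (dl y f) := by
  rw [← sub_eq_zero]
  refine eq_zero_of_LB_all (a := a) fun n => ?_
  have e : solve τ H a hτ hH f - (H f + ∑ y, τ y * solve τ H a hτ hH (dl y f)) =
      (solve τ H a hτ hH f - solveN τ H (n + 1) f) -
        ∑ y, τ y * (solve τ H a hτ hH (dl y f) - solveN τ H n (dl y f)) := by
    rw [solveN_succ]
    simp only [mul_sub, Finset.sum_sub_distrib]
    abel
  rw [e]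
  refine SL.LB.sub ((solve_sub_solveN hτ hH (n + 1) f).mono ?_) (lB_sum _ _ fun y _ => ?_)
  · push_cast; omega
  · exact ((hτ y).mul (solve_sub_solveN hτ hH n (dl y f))).mono (by omega)

end

/-- Uniqueness, in the homogeneous form. -/
theorem eq_zero_of_rec {τ' : Y → SL S σ} (hτ' : ∀ y, (τ' y).LB 1) {Δ : NCSeries Y R → SL S σ} {c : ℤ}
    (hc : ∀ f, (Δ f).LB c) (hrec : ∀ f, Δ f = ∑ y, τ' y * Δ (dl y f)) (f : NCSeries Y R) :
    Δ f = 0 := by
  refine eq_zero_of_LB_all (a := c) fun n => ?_
  induction n generalizing f with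
  | zero => simpa using hc f
  | succ n ih =>
    rw [hrec f]
    refine lB_sum _ _ fun y _ => ?_
    refine ((hτ' y).mul (ih (dl y f))).mono ?_
    push_cast
    omega

/-- Uniqueness of the solution. -/
theorem eq_solve (hτ : ∀ y, (τ y).LB 1) (hH : ∀ f, (H f).LB a) {D : NCSeries Y R → SL S σ} {c : ℤ}
    (hc : ∀ f, (D f).LB c) (hrec : ∀ f, D f = H f + ∑ y, τ y * D (dl y f)) (f : NCSeries Y R) :
    D f = solve τ H a hτ hH f := by
  rw [← sub_eq_zero]
  refine eq_zero_of_rec (τ' := τ) (R := R) hτ (Δ := fun g => D g - solve τ H a hτ hH g)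
    (c := min c a) (fun g => ?_) (fun g => ?_) f
  · exact SL.LB.sub ((hc g).mono (min_le_left _ _)) ((solve_LB hτ hH g).mono (min_le_right _ _))
  · show D g - solve τ H a hτ hH g = _
    rw [hrec g, solve_rec hτ hH g]
    simp only [mul_sub, Finset.sum_sub_distrib]
    abel

/-- Two solutions with uniform bounds agree. -/
theorem rec_unique (hτ : ∀ y, (τ y).LB 1) {D D' : NCSeries Y R → SL S σ} {c c' : ℤ}
    (hc : ∀ f, (D f).LB c) (hc' : ∀ f, (D' f).LB c')
    (hrec : ∀ f, D f = H f + ∑ y, τ y * D (dl y f))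
    (hrec' : ∀ f, D' f = H f + ∑ y, τ y * D' (dl y f)) (f : NCSeries Y R) : D f = D' f := by
  rw [← sub_eq_zero]
  refine eq_zero_of_rec (τ' := τ) (R := R) hτ (Δ := fun g => D g - D' g)
    (c := min c c') (fun g => ?_) (fun g => ?_) f
  · exact SL.LB.sub ((hc g).mono (min_le_left _ _)) ((hc' g).mono (min_le_right _ _))
  · show D g - D' g = _
    rw [hrec g, hrec' g]
    simp only [mul_sub, Finset.sum_sub_distrib]
    abel

end Solve

/-! ### Base data, `value`, directional derivatives -/

section Base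

/-- The level-up base data over `SL S σ`: `ρ : R → O`, `τ : Y → val ≥ 1`, commuting. -/
structure Base (R : Type*) [Ring R] (S : Type*) [Ring S] (σ : RingAut S) (Y : Type*) where
  ρ : R →+* SL S σ
  hρ : ∀ r, (ρ r).LB 0
  τ : Y → SL S σ
  hτ : ∀ y, (τ y).LB 1
  commτ : ∀ r y, ρ r * τ y = τ y * ρ r

/-- A family with a uniform lower bound. -/
def Bounded {R S : Type*} [Ring S] {σ : RingAut S} {Y : Type*} (D : NCSeries Y R → SL S σ) : Prop :=
  ∃ c, ∀ f, (D f).LB c

/-- A finite direction is bounded below. -/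
lemma exists_LB_fintype {S : Type*} [Ring S] {σ : RingAut S} {Y : Type*} [Finite Y]
    (x : Y → SL S σ) : ∃ a : ℤ, ∀ y, (x y).LB a := by
  classical
  choose a ha using fun y => (x y).exists_LB
  obtain ⟨c, hc⟩ := (Set.finite_range a).bddBelow
  exact ⟨c, fun y => (ha y).mono (hc ⟨y, rfl⟩)⟩

namespace Base

variable {R : Type*} [Ring R] {S : Type*} [Ring S] {σ : RingAut S} {Y : Type*} [Fintype Y]
variable (B : Base R S σ Y)

/-- `value f = f(τ)`. -/
noncomputable def value (f : NCS R Y) : SL S σ :=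
  solve B.τ (fun g => B.ρ (coeff [] g)) 0 B.hτ (fun g => B.hρ _) f

lemma value_LB (f : NCS R Y) : (B.value f).LB 0 := solve_LB _ _ f

lemma value_bounded : Bounded B.value := ⟨0, B.value_LB⟩

lemma value_rec (f : NCS R Y) :
    B.value f = B.ρ (coeff [] f) + ∑ y, B.τ y * B.value (dl y f) := solve_rec _ _ f

theorem exists_step (G : NCS R Y → SL S σ) (hG : Bounded G) (x : Y → SL S σ) :
    ∃ D : NCS R Y → SL S σ, Bounded D ∧
      ∀ f, D f = (∑ y, x y * G (dl y f)) + ∑ y, B.τ y * D (dl y f) := by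
  obtain ⟨c, hc⟩ := hG
  obtain ⟨a, ha⟩ := exists_LB_fintype x
  have hH : ∀ f, (∑ y, x y * G (dl y f)).LB (a + c) :=
    fun f => lB_sum _ _ fun y _ => (ha y).mul (hc _)
  exact ⟨solve B.τ _ (a + c) B.hτ hH, ⟨a + c, solve_LB _ _⟩, solve_rec _ _⟩

/-- The linear step: `D f = ∑ y, x y * G (dl y f) + ∑ y, τ y * D (dl y f)`. -/
noncomputable def step (G : NCS R Y → SL S σ) (hG : Bounded G) (x : Y → SL S σ) :
    NCS R Y → SL S σ :=
  (B.exists_step G hG x).choose

lemma step_bounded (G : NCS R Y → SL S σ) (hG : Bounded G) (x : Y → SL S σ) :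
    Bounded (B.step G hG x) :=
  (B.exists_step G hG x).choose_spec.1

lemma step_rec (G : NCS R Y → SL S σ) (hG : Bounded G) (x : Y → SL S σ) (f : NCS R Y) :
    B.step G hG x f = (∑ y, x y * G (dl y f)) + ∑ y, B.τ y * B.step G hG x (dl y f) :=
  (B.exists_step G hG x).choose_spec.2 f

theorem step_unique (G : NCS R Y → SL S σ) (hG : Bounded G) (x : Y → SL S σ)
    {D : NCS R Y → SL S σ} (hD : Bounded D)
    (hrec : ∀ f, D f = (∑ y, x y * G (dl y f)) + ∑ y, B.τ y * D (dl y f)) (f : NCS R Y) :
    D f = B.step G hG x f := by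
  obtain ⟨c, hc⟩ := hD
  obtain ⟨c', hc'⟩ := B.step_bounded G hG x
  exact rec_unique B.hτ hc hc' hrec (B.step_rec G hG x) f

/-- Iterated directional derivative: `dirF [] = value`, `dirF (x :: xs) = step (dirF xs) x`. -/
noncomputable def dirF : List (Y → SL S σ) → {D : NCS R Y → SL S σ // Bounded D}
  | [] => ⟨B.value, B.value_bounded⟩
  | x :: xs => ⟨B.step (dirF xs).1 (dirF xs).2 x, B.step_bounded _ _ _⟩

/-- Iterated directional derivative of `f` at `τ` along the list of directions `xs`
(positions strictly increasing along the word). -/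
noncomputable def dirW (xs : List (Y → SL S σ)) (f : NCS R Y) : SL S σ := (B.dirF xs).1 f

@[simp] lemma dirW_nil (f : NCS R Y) : B.dirW [] f = B.value f := rfl

lemma dirW_bounded (xs : List (Y → SL S σ)) : Bounded (B.dirW (R := R) xs) := (B.dirF xs).2

lemma dirW_rec (x : Y → SL S σ) (xs : List (Y → SL S σ)) (f : NCS R Y) :
    B.dirW (x :: xs) f =
      (∑ y, x y * B.dirW xs (dl y f)) + ∑ y, B.τ y * B.dirW (x :: xs) (dl y f) :=
  B.step_rec _ (B.dirW_bounded xs) x f

theorem dirW_unique (x : Y → SL S σ) (xs : List (Y → SL S σ))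
    {D : NCS R Y → SL S σ} (hD : Bounded D)
    (hrec : ∀ f, D f = (∑ y, x y * B.dirW xs (dl y f)) + ∑ y, B.τ y * D (dl y f)) (f : NCS R Y) :
    D f = B.dirW (x :: xs) f :=
  B.step_unique _ (B.dirW_bounded xs) x hD hrec f

/-- The directional derivative `Df(τ)[x]`. -/
noncomputable abbrev dir (x : Y → SL S σ) (f : NCS R Y) : SL S σ := B.dirW [x] f

/-- The ordered second derivative `D²f(τ)[x,x']`: `x` at an earlier position than `x'`. -/
noncomputable abbrev dir2 (x x' : Y → SL S σ) (f : NCS R Y) : SL S σ := B.dirW [x, x'] f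

lemma dir_rec (x : Y → SL S σ) (f : NCS R Y) :
    B.dir x f = (∑ y, x y * B.value (dl y f)) + ∑ y, B.τ y * B.dir x (dl y f) :=
  B.dirW_rec x [] f

lemma dir2_rec (x x' : Y → SL S σ) (f : NCS R Y) :
    B.dir2 x x' f = (∑ y, x y * B.dir x' (dl y f)) + ∑ y, B.τ y * B.dir2 x x' (dl y f) :=
  B.dirW_rec x [x'] f

/-! #### Bounds -/

lemma bounded_add {D D' : NCS R Y → SL S σ} (h : Bounded D) (h' : Bounded D') :
    Bounded (fun f => D f + D' f) := by
  obtain ⟨c, hc⟩ := h
  obtain ⟨c', hc'⟩ := h'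
  exact ⟨min c c', fun f =>
    SL.LB.add ((hc f).mono (min_le_left _ _)) ((hc' f).mono (min_le_right _ _))⟩

lemma bounded_sub {D D' : NCS R Y → SL S σ} (h : Bounded D) (h' : Bounded D') :
    Bounded (fun f => D f - D' f) := by
  obtain ⟨c, hc⟩ := h
  obtain ⟨c', hc'⟩ := h'
  exact ⟨min c c', fun f =>
    SL.LB.sub ((hc f).mono (min_le_left _ _)) ((hc' f).mono (min_le_right _ _))⟩

lemma bounded_mul_left (z : SL S σ) {D : NCS R Y → SL S σ} (h : Bounded D) :
    Bounded (fun f => z * D f) := by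
  obtain ⟨c, hc⟩ := h
  obtain ⟨a, ha⟩ := z.exists_LB
  exact ⟨a + c, fun f => ha.mul (hc f)⟩

lemma bounded_mul_right (z : SL S σ) {D : NCS R Y → SL S σ} (h : Bounded D) :
    Bounded (fun f => D f * z) := by
  obtain ⟨c, hc⟩ := h
  obtain ⟨a, ha⟩ := z.exists_LB
  exact ⟨c + a, fun f => (hc f).mul ha⟩

/-- A uniform bound for `dirW`. -/
theorem dirW_LB_uniform {a : ℤ} (xs : List (Y → SL S σ)) (hxs : ∀ x ∈ xs, ∀ y, (x y).LB a)
    (f : NCS R Y) : (B.dirW xs f).LB (xs.length * a) := by
  induction xs generalizing f with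
  | nil => simpa using B.value_LB f
  | cons x xs ih =>
    have hih : ∀ f : NCS R Y, (B.dirW xs f).LB (xs.length * a) :=
      ih fun x' hx' => hxs x' (List.mem_cons_of_mem _ hx')
    have hH : ∀ f : NCS R Y, (∑ y, x y * B.dirW xs (dl y f)).LB (((x :: xs).length : ℤ) * a) := by
      intro f
      refine lB_sum _ _ fun y _ => ?_
      have := (hxs x (List.mem_cons_self ..) y).mul (hih (dl y f))
      refine this.mono ?_
      simp only [List.length_cons]
      push_cast
      linarith
    have e := eq_solve (H := fun f => ∑ y, x y * B.dirW xs (dl y f)) (D := B.dirW (x :: xs))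
      (c := (B.dirW_bounded (x :: xs)).choose)
      B.hτ hH (B.dirW_bounded (x :: xs)).choose_spec (B.dirW_rec x xs) f
    rw [e]
    exact solve_LB _ _ _

/-- `value` on series of high order. -/
theorem value_LB_order {N : ℕ} {f : NCS R Y} (hf : f ∈ ordGE Y R N) : (B.value f).LB N := by
  induction N generalizing f with
  | zero => simpa using B.value_LB f
  | succ N ih =>
    rw [B.value_rec]
    have h0 : coeff [] f = 0 := hf [] (by simp)
    rw [h0, map_zero, zero_add]
    refine lB_sum _ _ fun y _ => ?_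
    have h1 : dl y f ∈ ordGE Y R N := fun w hw => hf (y :: w) (by simpa using hw)
    refine ((B.hτ y).mul (ih h1)).mono ?_
    push_cast
    omega

/-- `dirW` on series of high order: for directions of val `≥ a`, and `f` of order `≥ N`, the
derivative has val `≥ |xs| a + (N - |xs|)`. -/
theorem dirW_LB_order {a : ℤ} (xs : List (Y → SL S σ)) (hxs : ∀ x ∈ xs, ∀ y, (x y).LB a)
    {N : ℕ} {f : NCS R Y} (hf : f ∈ ordGE Y R N) :
    (B.dirW xs f).LB (xs.length * a + ((N - xs.length : ℕ) : ℤ)) := by
  induction xs generalizing N f with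
  | nil => simpa using B.value_LB_order hf
  | cons x xs ih =>
    have hih := fun {N : ℕ} {f : NCS R Y} (hf : f ∈ ordGE Y R N) =>
      ih (fun x' hx' => hxs x' (List.mem_cons_of_mem _ hx')) (N := N) (f := f) hf
    induction N generalizing f with
    | zero =>
      simpa using B.dirW_LB_uniform (x :: xs) hxs f
    | succ N ihN =>
      rw [B.dirW_rec]
      have h1 : ∀ y, dl y f ∈ ordGE Y R N := fun y w hw => hf (y :: w) (by simpa using hw)
      simp only [List.length_cons]
      refine SL.LB.add (lB_sum _ _ fun y _ => ?_) (lB_sum _ _ fun y _ => ?_)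
      · refine ((hxs x (List.mem_cons_self ..) y).mul (hih (h1 y))).mono ?_
        have e1 : N + 1 - (xs.length + 1) = N - xs.length := by omega
        rw [e1]
        push_cast
        apply le_of_eq
        ring
      · have := ihN (h1 y)
        simp only [List.length_cons] at this
        refine ((B.hτ y).mul this).mono ?_
        generalize ((xs.length + 1 : ℕ) : ℤ) * a = A
        omega
end Base

end Base

/-! ### The substitution `psi` -/

section Lin

variable {A : Type*} [Ring A] {Y' : Type*} [Fintype Y']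

/-- The series `C a + ∑ t, C (c t) * X t`. -/
noncomputable def lin (a : A) (c : Y' → A) : NCS A Y' := C a + ∑ t, C (c t) * X t

lemma coeff_lin_nil (a : A) (c : Y' → A) : coeff [] (lin a c) = a := by
  simp [lin, coeff_mul_nil]

lemma coeff_lin_mul_nil (a : A) (c : Y' → A) (g : NCS A Y') :
    coeff [] (lin a c * g) = a * coeff [] g := by
  rw [coeff_mul_nil, coeff_lin_nil]

lemma coeff_lin_mul_cons (a : A) (c : Y' → A) (t : Y') (w : List Y') (g : NCS A Y') :
    coeff (t :: w) (lin a c * g) = a * coeff (t :: w) g + c t * coeff w g := by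
  classical
  simp only [lin, add_mul, coeff_add, C_mul_coeff, Finset.sum_mul, coeff_sum, mul_assoc,
    coeff_X_mul_cons]
  congr 1
  rw [Finset.sum_eq_single t]
  · simp
  · intro b _ hb
    rw [if_neg (Ne.symm hb), mul_zero]
  · intro h
    exact absurd (Finset.mem_univ t) h

lemma map_lin {A' : Type*} [Ring A'] (κ : A →+* A') (a : A) (c : Y' → A) :
    NCSeries.map κ (lin a c) = lin (κ a) (fun t => κ (c t)) := by
  ext w
  cases w with
  | nil => simp only [coeff_map, coeff_lin_nil]
  | cons t w =>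
    have h1 : ∀ (b : A) (d : Y' → A), coeff (t :: w) (lin b d) = b * coeff (t :: w) (1 : NCS A Y') +
        d t * coeff w (1 : NCS A Y') := by
      intro b d
      have := coeff_lin_mul_cons b d t w (1 : NCS A Y')
      rwa [mul_one] at this
    have h2 : ∀ (b : A') (d : Y' → A'), coeff (t :: w) (lin b d) = b * coeff (t :: w) (1 : NCS A' Y') +
        d t * coeff w (1 : NCS A' Y') := by
      intro b d
      have := coeff_lin_mul_cons b d t w (1 : NCS A' Y')
      rwa [mul_one] at this
    rw [coeff_map, h1, h2, coeff_one_cons, coeff_one_cons]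
    cases w with
    | nil => simp
    | cons u w => simp

lemma C_comm_lin {r a : A} {c : Y' → A} (h1 : r * a = a * r) (h2 : ∀ t, r * c t = c t * r) :
    (C r : NCS A Y') * lin a c = lin a c * C r := by
  simp only [lin, mul_add, add_mul, Finset.mul_sum, Finset.sum_mul]
  congr 1
  · rw [← C_mul, ← C_mul, h1]
  · refine Finset.sum_congr rfl fun t _ => ?_
    rw [← mul_assoc, ← C_mul, h2, C_mul, mul_assoc, mul_assoc, C_comm_X]

end Lin

lemma dl_C_mul {Y A : Type*} [Ring A] (y : Y) (a : A) (g : NCS A Y) :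
    dl y (C a * g) = C a * dl y g := by
  ext w
  simp [C_mul_coeff]

lemma dl_mul' {Y A : Type*} [Ring A] (y : Y) (f g : NCS A Y) :
    dl y (f * g) = C (coeff [] f) * dl y g + dl y f * g := by
  ext w
  rw [dl_mul]
  simp [C_mul_coeff]

section Psi

namespace Base

variable {R : Type*} [Ring R] {S : Type*} [Ring S] {σ : RingAut S} {Y : Type*} [Fintype Y]
variable (B : Base R S σ Y)
variable {Y' : Type*} [Fintype Y']

/-- Direction data: letters `t : Y'`, each with a direction of val `≥ 0` commuting with `ρ`. -/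
structure IsDirs (x : Y' → Y → SL S σ) : Prop where
  hx : ∀ t y, (x t y).LB 0
  comm : ∀ r t y, B.ρ r * x t y = x t y * B.ρ r

/-- `ρ` with values in `O`. -/
noncomputable def ρO : R →+* (SL.O : Subring (SL S σ)) := B.ρ.codRestrict _ B.hρ

/-- `τ` with values in `O`. -/
noncomputable def τO (y : Y) : (SL.O : Subring (SL S σ)) :=
  ⟨B.τ y, (B.hτ y).mono (by norm_num)⟩

variable {B}
variable {x : Y' → Y → SL S σ} (hx : B.IsDirs x)

/-- The letter image, with coefficients in `O`. -/
noncomputable def phiO (y : Y) : NCS (SL.O : Subring (SL S σ)) Y' :=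
  lin (B.τO y) (fun t => (⟨x t y, hx.hx t y⟩ : (SL.O : Subring (SL S σ))))

lemma substData :
    SubstData ((SL.filtO (S := S) (σ := σ)).ncs Y') ((CHom).comp B.ρO) (phiO hx) := by
  constructor
  · intro y w
    cases w with
    | nil =>
      rw [phiO, coeff_lin_nil]
      exact (B.hτ y).mono (by norm_num)
    | cons a w =>
      have : 1 - (a :: w).length = 0 := by simp
      rw [this]
      exact (SL.filtO (S := S) (σ := σ)).mem_zero _
  · intro r y
    refine C_comm_lin ?_ ?_
    · exact Subtype.ext (B.commτ r y)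
    · intro t
      exact Subtype.ext (hx.comm r t y)

/-- The substitution, with coefficients in `O`. -/
noncomputable def psiO : NCS R Y →+* NCS (SL.O : Subring (SL S σ)) Y' :=
  subst (substData hx)

/-- The level-up substitution. -/
noncomputable def psi : NCS R Y →+* NCS (SL S σ) Y' :=
  (NCSeries.map (SL.O : Subring (SL S σ)).subtype).comp (psiO hx)

lemma map_phiO (y : Y) :
    NCSeries.map (SL.O : Subring (SL S σ)).subtype (phiO hx y) = lin (B.τ y) (fun t => x t y) :=
  map_lin _ _ _

@[simp] lemma psi_C (r : R) : psi hx (C r : NCS R Y) = C (B.ρ r) := by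
  show NCSeries.map (SL.O : Subring (SL S σ)).subtype (psiO hx (C r)) = _
  rw [psiO, subst_C]
  ext w
  cases w <;> rfl

@[simp] lemma psi_X (y : Y) : psi hx (X y : NCS R Y) = lin (B.τ y) (fun t => x t y) := by
  show NCSeries.map (SL.O : Subring (SL S σ)).subtype (psiO hx (X y)) = _
  rw [psiO, subst_X, map_phiO]

lemma psi_rec (f : NCS R Y) :
    psi hx f = C (B.ρ (coeff [] f)) + ∑ y, lin (B.τ y) (fun t => x t y) * psi hx (dl y f) := by
  show NCSeries.map (SL.O : Subring (SL S σ)).subtype (psiO hx f) = _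
  rw [psiO, subst_eq (substData hx) f, map_add, map_sum]
  congr 1
  · ext w
    cases w <;> rfl
  · refine Finset.sum_congr rfl fun y _ => ?_
    rw [map_mul, map_phiO]
    rfl

lemma coeff_psi_LB (w : List Y') (f : NCS R Y) : (coeff w (psi hx f)).LB 0 :=
  (coeff w (psiO hx f)).2

lemma coeff_psi_nil_rec (f : NCS R Y) :
    coeff [] (psi hx f) = B.ρ (coeff [] f) + ∑ y, B.τ y * coeff [] (psi hx (dl y f)) := by
  conv_lhs => rw [psi_rec hx f]
  rw [coeff_add, coeff_C_nil, coeff_sum]
  congr 1
  exact Finset.sum_congr rfl fun y _ => coeff_lin_mul_nil _ _ _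

lemma coeff_psi_cons_rec (t : Y') (w : List Y') (f : NCS R Y) :
    coeff (t :: w) (psi hx f) =
      (∑ y, x t y * coeff w (psi hx (dl y f))) + ∑ y, B.τ y * coeff (t :: w) (psi hx (dl y f)) := by
  conv_lhs => rw [psi_rec hx f]
  rw [coeff_add, coeff_C_cons, zero_add, coeff_sum, add_comm, ← Finset.sum_add_distrib]
  refine Finset.sum_congr rfl fun y _ => ?_
  rw [coeff_lin_mul_cons, add_comm]

/-- The coefficients of `psi`. -/
theorem coeff_psi (w : List Y') (f : NCS R Y) :
    coeff w (psi hx f) = B.dirW (w.map x) f := by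
  induction w generalizing f with
  | nil =>
    exact rec_unique B.hτ (coeff_psi_LB hx []) B.value_LB (coeff_psi_nil_rec hx) B.value_rec f
  | cons t w ih =>
    refine B.dirW_unique (x t) (w.map x) ⟨0, coeff_psi_LB hx (t :: w)⟩ (fun g => ?_) f
    rw [coeff_psi_cons_rec]
    simp only [ih]

theorem coeff_nil_psi (f : NCS R Y) : coeff [] (psi hx f) = B.value f := coeff_psi hx [] f

theorem coeff_single_psi (t : Y') (f : NCS R Y) : coeff [t] (psi hx f) = B.dir (x t) f :=
  coeff_psi hx [t] f

theorem coeff_pair_psi (t t' : Y') (f : NCS R Y) :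
    coeff [t, t'] (psi hx f) = B.dir2 (x t) (x t') f :=
  coeff_psi hx [t, t'] f

/-- The val estimate. -/
theorem coeff_psi_LB_order (w : List Y') {N : ℕ} {f : NCS R Y} (hf : f ∈ ordGE Y R N) :
    (coeff w (psi hx f)).LB ((N - w.length : ℕ) : ℤ) := by
  rw [coeff_psi]
  have := B.dirW_LB_order (a := 0) (w.map x) (fun x' hx' y => by
    obtain ⟨t, _, rfl⟩ := List.mem_map.1 hx'
    exact hx.hx t y) hf
  simpa using this

/-- The val estimate when all directions have val `≥ a`. -/
theorem coeff_psi_LB_order' {a : ℤ} (ha : ∀ t y, (x t y).LB a) (w : List Y') {N : ℕ} {f : NCS R Y}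
    (hf : f ∈ ordGE Y R N) :
    (coeff w (psi hx f)).LB (w.length * a + ((N - w.length : ℕ) : ℤ)) := by
  rw [coeff_psi]
  have := B.dirW_LB_order (a := a) (w.map x) (fun x' hx' y => by
    obtain ⟨t, _, rfl⟩ := List.mem_map.1 hx'
    exact ha t y) hf
  simpa using this

end Base

namespace Base

variable {R : Type*} [Ring R] {S : Type*} [Ring S] {σ : RingAut S} {Y : Type*} [Fintype Y]
variable (B : Base R S σ Y)

/-- The evaluation at `τ`, as a ring hom. -/
noncomputable def valueHom : NCS R Y →+* SL S σ :=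
  (constHom).comp (psi (B := B) (Y' := Empty) (x := fun t _ => t.elim)
    ⟨fun t => t.elim, fun _ t => t.elim⟩)

@[simp] lemma valueHom_apply (f : NCS R Y) : B.valueHom f = B.value f :=
  coeff_nil_psi _ f

@[simp] lemma value_add (f g : NCS R Y) : B.value (f + g) = B.value f + B.value g := by
  simp only [← valueHom_apply, map_add]

@[simp] lemma value_sub (f g : NCS R Y) : B.value (f - g) = B.value f - B.value g := by
  simp only [← valueHom_apply, map_sub]

@[simp] lemma value_mul (f g : NCS R Y) : B.value (f * g) = B.value f * B.value g := by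
  simp only [← valueHom_apply, map_mul]

@[simp] lemma value_C (r : R) : B.value (C r : NCS R Y) = B.ρ r := by
  rw [← valueHom_apply]
  show coeff [] (psi _ (C r : NCS R Y)) = _
  rw [psi_C]
  rfl

@[simp] lemma value_X (y : Y) : B.value (X y : NCS R Y) = B.τ y := by
  rw [← valueHom_apply]
  show coeff [] (psi _ (X y : NCS R Y)) = _
  rw [psi_X, coeff_lin_nil]

@[simp] lemma value_one : B.value (1 : NCS R Y) = 1 := by
  simp only [← valueHom_apply, map_one]

variable {x x' : Y → SL S σ}

/-! #### Linearity in the directions -/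

theorem dirW_head_add (x x' : Y → SL S σ) (xs : List (Y → SL S σ)) (f : NCS R Y) :
    B.dirW ((fun y => x y + x' y) :: xs) f = B.dirW (x :: xs) f + B.dirW (x' :: xs) f := by
  symm
  refine B.dirW_unique _ xs (bounded_add (B.dirW_bounded _) (B.dirW_bounded _)) (fun g => ?_) f
  rw [B.dirW_rec x, B.dirW_rec x']
  simp only [add_mul, mul_add, Finset.sum_add_distrib]
  abel

theorem dirW_head_mul (z : SL S σ) (hz : ∀ g : SL S σ, z * g = g * z) (x : Y → SL S σ)
    (xs : List (Y → SL S σ)) (f : NCS R Y) :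
    B.dirW ((fun y => z * x y) :: xs) f = z * B.dirW (x :: xs) f := by
  symm
  refine B.dirW_unique _ xs (bounded_mul_left z (B.dirW_bounded _)) (fun g => ?_) f
  rw [B.dirW_rec x]
  simp only [mul_add, Finset.mul_sum, mul_assoc]
  congr 1
  refine Finset.sum_congr rfl fun y _ => ?_
  rw [← mul_assoc, hz, mul_assoc]

theorem dirW_tail_add (x : Y → SL S σ) {xs xs' xs'' : List (Y → SL S σ)}
    (h : ∀ f : NCS R Y, B.dirW xs f = B.dirW xs' f + B.dirW xs'' f) (f : NCS R Y) :
    B.dirW (x :: xs) f = B.dirW (x :: xs') f + B.dirW (x :: xs'') f := by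
  symm
  refine B.dirW_unique _ xs (bounded_add (B.dirW_bounded _) (B.dirW_bounded _)) (fun g => ?_) f
  rw [B.dirW_rec x xs', B.dirW_rec x xs'']
  simp only [h, mul_add, Finset.sum_add_distrib]
  abel

theorem dirW_tail_mul (x : Y → SL S σ) {xs xs' : List (Y → SL S σ)} (z : SL S σ)
    (hz : ∀ g : SL S σ, z * g = g * z)
    (h : ∀ f : NCS R Y, B.dirW xs f = z * B.dirW xs' f) (f : NCS R Y) :
    B.dirW (x :: xs) f = z * B.dirW (x :: xs') f := by
  symm
  refine B.dirW_unique _ xs (bounded_mul_left z (B.dirW_bounded _)) (fun g => ?_) f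
  rw [B.dirW_rec x xs']
  simp only [h, mul_add, Finset.mul_sum]
  congr 1
  · refine Finset.sum_congr rfl fun y _ => ?_
    rw [← mul_assoc, ← mul_assoc, hz]
  · refine Finset.sum_congr rfl fun y _ => ?_
    rw [← mul_assoc, ← mul_assoc, hz]

theorem dir_add (x x' : Y → SL S σ) (f : NCS R Y) :
    B.dir (fun y => x y + x' y) f = B.dir x f + B.dir x' f := B.dirW_head_add x x' [] f

theorem dir_mul_left (z : SL S σ) (hz : ∀ g : SL S σ, z * g = g * z) (x : Y → SL S σ)
    (f : NCS R Y) : B.dir (fun y => z * x y) f = z * B.dir x f :=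
  B.dirW_head_mul z hz x [] f

theorem dir2_add_left (x x' u : Y → SL S σ) (f : NCS R Y) :
    B.dir2 (fun y => x y + x' y) u f = B.dir2 x u f + B.dir2 x' u f := B.dirW_head_add x x' [u] f

theorem dir2_add_right (x u u' : Y → SL S σ) (f : NCS R Y) :
    B.dir2 x (fun y => u y + u' y) f = B.dir2 x u f + B.dir2 x u' f :=
  B.dirW_tail_add x (fun g => B.dir_add u u' g) f

theorem dir2_mul_left (z : SL S σ) (hz : ∀ g : SL S σ, z * g = g * z) (x u : Y → SL S σ)
    (f : NCS R Y) : B.dir2 (fun y => z * x y) u f = z * B.dir2 x u f :=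
  B.dirW_head_mul z hz x [u] f

theorem dir2_mul_right (z : SL S σ) (hz : ∀ g : SL S σ, z * g = g * z) (x u : Y → SL S σ)
    (f : NCS R Y) : B.dir2 x (fun y => z * u y) f = z * B.dir2 x u f :=
  B.dirW_tail_mul x z hz (fun g => B.dir_mul_left z hz u g) f

lemma dirW_add_f (xs : List (Y → SL S σ)) (f g : NCS R Y) :
    B.dirW xs (f + g) = B.dirW xs f + B.dirW xs g := by
  induction xs generalizing f g with
  | nil => simp
  | cons x xs ih =>
    obtain ⟨c, hc⟩ := B.dirW_bounded (R := R) (x :: xs)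
    refine eq_of_sub_eq_zero ?_
    -- homogeneous recursion in `(f, g)` packaged through a pair is avoided by the scalar trick:
    -- fix `g` and consider all `g' = dl`-descendants simultaneously through words
    have key : ∀ n : ℕ, ∀ f g : NCS R Y,
        (B.dirW (x :: xs) (f + g) - (B.dirW (x :: xs) f + B.dirW (x :: xs) g)).LB (c + n) := by
      intro n
      induction n with
      | zero =>
        intro f g
        simpa using SL.LB.sub (hc _) (SL.LB.add (hc _) (hc _))
      | succ n ihn =>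
        intro f g
        have e : B.dirW (x :: xs) (f + g) - (B.dirW (x :: xs) f + B.dirW (x :: xs) g) =
            ∑ y, B.τ y * (B.dirW (x :: xs) (dl y f + dl y g) -
              (B.dirW (x :: xs) (dl y f) + B.dirW (x :: xs) (dl y g))) := by
          rw [B.dirW_rec x xs (f + g), B.dirW_rec x xs f, B.dirW_rec x xs g]
          simp only [dl_add, ih, mul_add, mul_sub, Finset.sum_add_distrib, Finset.sum_sub_distrib]
          abel
        rw [e]
        refine lB_sum _ _ fun y _ => ?_
        refine ((B.hτ y).mul (ihn _ _)).mono ?_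
        push_cast
        omega
    exact eq_zero_of_LB_all (a := c) fun n => key n f g

/-! #### The derivation identities -/

/-- Derivation identity: `Df(τ)[Inn c] = [f(τ), c]`. -/
theorem dir_inn (c : SL S σ) (hc : ∀ r, B.ρ r * c = c * B.ρ r) (f : NCS R Y) :
    B.dir (fun y => B.τ y * c - c * B.τ y) f = B.value f * c - c * B.value f := by
  symm
  refine B.dirW_unique _ [] (D := fun f => B.value f * c - c * B.value f)
    (bounded_sub (bounded_mul_right c B.value_bounded) (bounded_mul_left c B.value_bounded))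
    (fun g => ?_) f
  simp only [dirW_nil]
  conv_lhs => rw [B.value_rec g]
  simp only [add_mul, mul_add, sub_mul, mul_sub, Finset.sum_mul, Finset.mul_sum,
    Finset.sum_sub_distrib, hc, mul_assoc]
  abel

/-- The second-order derivation identity. -/
theorem dir2_inn (x : Y → SL S σ) (c : SL S σ) (f : NCS R Y)
    (hc : ∀ r, B.ρ r * c = c * B.ρ r) :
    B.dir2 (fun y => B.τ y * c - c * B.τ y) x f + B.dir2 x (fun y => B.τ y * c - c * B.τ y) f +
      B.dir (fun y => x y * c - c * x y) f = B.dir x f * c - c * B.dir x f := by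
  have hb : Bounded (fun f : NCS R Y => B.dir x f * c - c * B.dir x f) :=
    bounded_sub (bounded_mul_right c (B.dirW_bounded _)) (bounded_mul_left c (B.dirW_bounded _))
  have hb' : Bounded (fun f : NCS R Y => B.dir2 (fun y => B.τ y * c - c * B.τ y) x f +
      B.dir2 x (fun y => B.τ y * c - c * B.τ y) f + B.dir (fun y => x y * c - c * x y) f) :=
    bounded_add (bounded_add (B.dirW_bounded _) (B.dirW_bounded _)) (B.dirW_bounded _)
  obtain ⟨c1, hc1⟩ := hb
  obtain ⟨c2, hc2⟩ := hb'
  refine rec_unique (H := fun f => (∑ y, (B.τ y * c - c * B.τ y) * B.dir x (dl y f)) +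
      (∑ y, x y * B.dir (fun y => B.τ y * c - c * B.τ y) (dl y f)) +
      ∑ y, (x y * c - c * x y) * B.value (dl y f)) B.hτ hc2 hc1 (fun g => ?_) (fun g => ?_) f
  · rw [B.dir2_rec (fun y => B.τ y * c - c * B.τ y) x g,
      B.dir2_rec x (fun y => B.τ y * c - c * B.τ y) g, B.dir_rec (fun y => x y * c - c * x y) g]
    simp only [mul_add, Finset.mul_sum, Finset.sum_add_distrib]
    abel
  · conv_lhs => rw [B.dir_rec x g]
    simp only [B.dir_inn c hc, add_mul, mul_add, sub_mul, mul_sub, Finset.sum_mul, Finset.mul_sum,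
      Finset.sum_sub_distrib, mul_assoc, Finset.sum_add_distrib]
    abel

/-- The Euler operator: multiply the coefficient of `w` by `|w|`. -/
def eu (f : NCS R Y) : NCS R Y := fun w => w.length • f w

omit [Fintype Y] in
lemma dl_eu (y : Y) (f : NCS R Y) : dl y (eu f) = eu (dl y f) + dl y f := by
  funext w
  show (y :: w).length • f (y :: w) = w.length • f (y :: w) + f (y :: w)
  rw [List.length_cons, succ_nsmul]

omit [Fintype Y] in
lemma coeff_eu_nil (f : NCS R Y) : coeff [] (eu f) = 0 := by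
  show ([] : List Y).length • f [] = 0
  simp

/-- Euler's identity: `Df(τ)[τ] = (Σ_D D f_D)(τ)`. -/
theorem dir_tau (f : NCS R Y) : B.dir B.τ f = B.value (eu f) := by
  symm
  refine B.dirW_unique _ [] (D := fun f => B.value (eu f)) ⟨0, fun f => B.value_LB _⟩ (fun g => ?_) f
  simp only [dirW_nil]
  rw [B.value_rec (eu g), coeff_eu_nil, map_zero, zero_add]
  simp only [dl_eu, value_add, mul_add, Finset.sum_add_distrib]
  abel

/-! #### Leibniz -/

/-- `C a` pulls out of `dirW`. -/
theorem dirW_C_mul (xs : List (Y → SL S σ)) (hx : ∀ x' ∈ xs, ∀ r y, B.ρ r * x' y = x' y * B.ρ r)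
    (a : R) (g : NCS R Y) : B.dirW xs (C a * g) = B.ρ a * B.dirW xs g := by
  induction xs generalizing g with
  | nil => simp
  | cons x xs ih =>
    have hih := ih fun x' hx' => hx x' (List.mem_cons_of_mem _ hx')
    have hxx := hx x (List.mem_cons_self ..)
    obtain ⟨c, hc⟩ := B.dirW_bounded (R := R) (x :: xs)
    obtain ⟨c', hc'⟩ := bounded_mul_left (B.ρ a) (B.dirW_bounded (R := R) (x :: xs))
    refine rec_unique (H := fun g => ∑ y, x y * (B.ρ a * B.dirW xs (dl y g))) B.hτ
      (D := fun g => B.dirW (x :: xs) (C a * g)) (D' := fun g => B.ρ a * B.dirW (x :: xs) g)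
      (fun g => hc _) hc' (fun g => ?_) (fun g => ?_) g
    · show B.dirW (x :: xs) (C a * g) = _
      rw [B.dirW_rec]
      simp only [dl_C_mul, hih]
    · show B.ρ a * B.dirW (x :: xs) g = _
      rw [B.dirW_rec]
      simp only [mul_add, Finset.mul_sum]
      congr 1
      · refine Finset.sum_congr rfl fun y _ => ?_
        rw [← mul_assoc, hxx, mul_assoc]
      · refine Finset.sum_congr rfl fun y _ => ?_
        rw [← mul_assoc, B.commτ, mul_assoc]

/-- Leibniz rule for `dir`. -/
theorem dir_mul (x : Y → SL S σ) (hx : ∀ r y, B.ρ r * x y = x y * B.ρ r) (f g : NCS R Y) :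
    B.dir x (f * g) = B.value f * B.dir x g + B.dir x f * B.value g := by
  rw [← sub_eq_zero]
  obtain ⟨c1, hc1⟩ := B.dirW_bounded (R := R) [x]
  obtain ⟨c2, hc2⟩ := bounded_mul_right (B.value g) (B.dirW_bounded (R := R) [x])
  obtain ⟨c3, hc3⟩ := bounded_mul_right (B.dir x g) B.value_bounded
  refine eq_zero_of_rec B.hτ
    (Δ := fun f => B.dir x (f * g) - (B.value f * B.dir x g + B.dir x f * B.value g))
    (c := min c1 (min c3 c2)) (fun f => ?_) (fun f => ?_) f
  · refine SL.LB.sub ((hc1 _).mono (min_le_left _ _)) (SL.LB.add ?_ ?_)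
    · exact (hc3 f).mono ((min_le_right _ _).trans (min_le_left _ _))
    · exact (hc2 f).mono ((min_le_right _ _).trans (min_le_right _ _))
  · have hC : ∀ y, B.dir x (C (coeff [] f) * dl y g) = B.ρ (coeff [] f) * B.dir x (dl y g) :=
      fun y => B.dirW_C_mul [x] (by simpa using hx) _ _
    have h1 : B.dir x (f * g) = (∑ y, x y * (B.ρ (coeff [] f) * B.value (dl y g) +
        B.value (dl y f) * B.value g)) +
        ∑ y, B.τ y * (B.ρ (coeff [] f) * B.dir x (dl y g) + B.dir x (dl y f * g)) := by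
      rw [B.dir_rec]
      simp only [dl_mul', value_add, value_mul, value_C, dirW_add_f, hC]
    have h2 : B.value f * B.dir x g = B.ρ (coeff [] f) * B.dir x g +
        ∑ y, B.τ y * (B.value (dl y f) * B.dir x g) := by
      conv_lhs => rw [B.value_rec f]
      simp only [add_mul, Finset.sum_mul, mul_assoc]
    have h3 : B.ρ (coeff [] f) * B.dir x g = (∑ y, x y * (B.ρ (coeff [] f) * B.value (dl y g))) +
        ∑ y, B.τ y * (B.ρ (coeff [] f) * B.dir x (dl y g)) := by
      conv_lhs => rw [B.dir_rec x g]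
      simp only [mul_add, Finset.mul_sum]
      congr 1
      · refine Finset.sum_congr rfl fun y _ => ?_
        rw [← mul_assoc, hx, mul_assoc]
      · refine Finset.sum_congr rfl fun y _ => ?_
        rw [← mul_assoc, B.commτ, mul_assoc]
    have h4 : B.dir x f * B.value g = (∑ y, x y * (B.value (dl y f) * B.value g)) +
        ∑ y, B.τ y * (B.dir x (dl y f) * B.value g) := by
      conv_lhs => rw [B.dir_rec x f]
      simp only [add_mul, Finset.sum_mul, mul_assoc]
    show B.dir x (f * g) - (B.value f * B.dir x g + B.dir x f * B.value g) = _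
    rw [h2, h3, h4, h1]
    simp only [mul_add, mul_sub, Finset.sum_add_distrib, Finset.sum_sub_distrib]
    abel

/-- Leibniz rule for `dir2`. -/
theorem dir2_mul (x u : Y → SL S σ) (hx : ∀ r y, B.ρ r * x y = x y * B.ρ r)
    (hu : ∀ r y, B.ρ r * u y = u y * B.ρ r) (f g : NCS R Y) :
    B.dir2 x u (f * g) =
      B.value f * B.dir2 x u g + B.dir x f * B.dir u g + B.dir2 x u f * B.value g := by
  rw [← sub_eq_zero]
  obtain ⟨c1, hc1⟩ := B.dirW_bounded (R := R) [x, u]
  obtain ⟨c2, hc2⟩ := bounded_mul_right (B.value g) (B.dirW_bounded (R := R) [x, u])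
  obtain ⟨c3, hc3⟩ := bounded_mul_right (B.dir2 x u g) B.value_bounded
  obtain ⟨c4, hc4⟩ := bounded_mul_right (B.dir u g) (B.dirW_bounded (R := R) [x])
  refine eq_zero_of_rec B.hτ
    (Δ := fun f => B.dir2 x u (f * g) -
      (B.value f * B.dir2 x u g + B.dir x f * B.dir u g + B.dir2 x u f * B.value g))
    (c := min c1 (min (min c3 c4) c2)) (fun f => ?_) (fun f => ?_) f
  · refine SL.LB.sub ((hc1 _).mono (min_le_left _ _)) (SL.LB.add (SL.LB.add ?_ ?_) ?_)
    · exact (hc3 f).mono ((min_le_right _ _).trans ((min_le_left _ _).trans (min_le_left _ _)))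
    · exact (hc4 f).mono ((min_le_right _ _).trans ((min_le_left _ _).trans (min_le_right _ _)))
    · exact (hc2 f).mono ((min_le_right _ _).trans (min_le_right _ _))
  · have hxu : ∀ x' ∈ [x, u], ∀ r y, B.ρ r * x' y = x' y * B.ρ r := by
      intro x' hx'
      simp only [List.mem_cons, List.not_mem_nil, or_false] at hx'
      rcases hx' with rfl | rfl
      · exact hx
      · exact hu
    have hC : ∀ y, B.dir2 x u (C (coeff [] f) * dl y g) =
        B.ρ (coeff [] f) * B.dir2 x u (dl y g) :=
      fun y => B.dirW_C_mul [x, u] hxu _ _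
    have hCu : ∀ y, B.dir u (C (coeff [] f) * dl y g) = B.ρ (coeff [] f) * B.dir u (dl y g) :=
      fun y => B.dirW_C_mul [u] (by simpa using hu) _ _
    have hL : ∀ y, B.dir u (dl y f * g) =
        B.value (dl y f) * B.dir u g + B.dir u (dl y f) * B.value g :=
      fun y => B.dir_mul u hu _ _
    have h1 : B.dir2 x u (f * g) = (∑ y, x y * (B.ρ (coeff [] f) * B.dir u (dl y g) +
        (B.value (dl y f) * B.dir u g + B.dir u (dl y f) * B.value g))) +
        ∑ y, B.τ y * (B.ρ (coeff [] f) * B.dir2 x u (dl y g) + B.dir2 x u (dl y f * g)) := by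
      rw [B.dir2_rec]
      simp only [dl_mul', dirW_add_f, hC, hCu, hL]
    have h2 : B.value f * B.dir2 x u g = B.ρ (coeff [] f) * B.dir2 x u g +
        ∑ y, B.τ y * (B.value (dl y f) * B.dir2 x u g) := by
      conv_lhs => rw [B.value_rec f]
      simp only [add_mul, Finset.sum_mul, mul_assoc]
    have h3 : B.ρ (coeff [] f) * B.dir2 x u g =
        (∑ y, x y * (B.ρ (coeff [] f) * B.dir u (dl y g))) +
        ∑ y, B.τ y * (B.ρ (coeff [] f) * B.dir2 x u (dl y g)) := by
      conv_lhs => rw [B.dir2_rec x u g]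
      simp only [mul_add, Finset.mul_sum]
      congr 1
      · refine Finset.sum_congr rfl fun y _ => ?_
        rw [← mul_assoc, hx, mul_assoc]
      · refine Finset.sum_congr rfl fun y _ => ?_
        rw [← mul_assoc, B.commτ, mul_assoc]
    have h4 : B.dir x f * B.dir u g = (∑ y, x y * (B.value (dl y f) * B.dir u g)) +
        ∑ y, B.τ y * (B.dir x (dl y f) * B.dir u g) := by
      conv_lhs => rw [B.dir_rec x f]
      simp only [add_mul, Finset.sum_mul, mul_assoc]
    have h5 : B.dir2 x u f * B.value g = (∑ y, x y * (B.dir u (dl y f) * B.value g)) +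
        ∑ y, B.τ y * (B.dir2 x u (dl y f) * B.value g) := by
      conv_lhs => rw [B.dir2_rec x u f]
      simp only [add_mul, Finset.sum_mul, mul_assoc]
    show B.dir2 x u (f * g) -
      (B.value f * B.dir2 x u g + B.dir x f * B.dir u g + B.dir2 x u f * B.value g) = _
    rw [h2, h3, h4, h5, h1]
    simp only [mul_add, mul_sub, Finset.sum_add_distrib, Finset.sum_sub_distrib]
    abel

end Base

end Psi

/-! ### Transport along additive maps -/

section Transport

/-- Coefficientwise application of a function. -/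
def tmap {Y R R' : Type*} (lam : R → R') (f : NCSeries Y R) : NCSeries Y R' := fun w => lam (f w)

@[simp] lemma coeff_tmap {Y R R' : Type*} (lam : R → R') (f : NCSeries Y R) (w : List Y) :
    coeff w (tmap lam f) = lam (coeff w f) := rfl

@[simp] lemma dl_tmap {Y R R' : Type*} (lam : R → R') (y : Y) (f : NCSeries Y R) :
    dl y (tmap lam f) = tmap lam (dl y f) := rfl

variable {R : Type*} [Ring R] {S : Type*} [Ring S] {σ : RingAut S} {Y : Type*} [Fintype Y]
variable {R' : Type*} [Ring R'] {S' : Type*} [Ring S'] {σ' : RingAut S'}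

/-- `Λ` is compatible with the bases. -/
structure IsTransport (B : Base R S σ Y) (B' : Base R' S' σ' Y) (Λ : SL S σ →+ SL S' σ')
    (lam : R → R') : Prop where
  lb : ∀ (g : SL S σ) (a : ℤ), g.LB a → (Λ g).LB a
  ρ : ∀ r, Λ (B.ρ r) = B'.ρ (lam r)
  τ : ∀ y g, Λ (B.τ y * g) = B'.τ y * Λ g

variable {B : Base R S σ Y} {B' : Base R' S' σ' Y} {Λ : SL S σ →+ SL S' σ'} {lam : R → R'}

theorem IsTransport.value (h : IsTransport B B' Λ lam) (f : NCS R Y) :
    Λ (B.value f) = B'.value (tmap lam f) := by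
  rw [← sub_eq_zero]
  refine eq_zero_of_rec B'.hτ (Δ := fun f => Λ (B.value f) - B'.value (tmap lam f))
    (c := 0) (fun f => ?_) (fun f => ?_) f
  · exact SL.LB.sub (h.lb _ _ (B.value_LB f)) (B'.value_LB _)
  · show Λ (B.value f) - B'.value (tmap lam f) = _
    rw [B.value_rec f, B'.value_rec (tmap lam f), map_add, h.ρ, map_sum]
    simp only [h.τ, coeff_tmap, dl_tmap, mul_sub, Finset.sum_sub_distrib]
    abel

theorem IsTransport.dirW (h : IsTransport B B' Λ lam) {xs : List (Y → SL S σ)}
    {xs' : List (Y → SL S' σ')}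
    (hxs : List.Forall₂ (fun x x' => ∀ y g, Λ (x y * g) = x' y * Λ g) xs xs') (f : NCS R Y) :
    Λ (B.dirW xs f) = B'.dirW xs' (tmap lam f) := by
  induction hxs generalizing f with
  | nil => exact h.value f
  | @cons x x' xs xs' hx _ ih =>
    rw [← sub_eq_zero]
    obtain ⟨c, hc⟩ := B.dirW_bounded (R := R) (x :: xs)
    obtain ⟨c', hc'⟩ := B'.dirW_bounded (R := R') (x' :: xs')
    refine eq_zero_of_rec B'.hτ
      (Δ := fun f => Λ (B.dirW (x :: xs) f) - B'.dirW (x' :: xs') (tmap lam f))
      (c := min c c') (fun f => ?_) (fun f => ?_) f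
    · exact SL.LB.sub ((h.lb _ _ (hc f)).mono (min_le_left _ _)) ((hc' _).mono (min_le_right _ _))
    · show Λ (B.dirW (x :: xs) f) - B'.dirW (x' :: xs') (tmap lam f) = _
      rw [B.dirW_rec x xs f, B'.dirW_rec x' xs' (tmap lam f), map_add, map_sum, map_sum]
      simp only [h.τ, hx, ih, dl_tmap, mul_sub, Finset.sum_sub_distrib]
      abel

theorem IsTransport.coeff_psi (h : IsTransport B B' Λ lam) {Y' : Type*} [Fintype Y']
    {x : Y' → Y → SL S σ} {x' : Y' → Y → SL S' σ'} (hx : B.IsDirs x) (hx' : B'.IsDirs x')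
    (hxx : ∀ t y g, Λ (x t y * g) = x' t y * Λ g) (w : List Y') (f : NCS R Y) :
    Λ (coeff w (Base.psi hx f)) = coeff w (Base.psi hx' (tmap lam f)) := by
  rw [Base.coeff_psi, Base.coeff_psi]
  refine h.dirW ?_ f
  induction w with
  | nil => exact List.Forall₂.nil
  | cons t w ih => exact List.Forall₂.cons (hxx t) ih

/-- Functoriality of `psi` for ring homs. -/
theorem map_psi {Y' : Type*} [Fintype Y'] (φ : R →+* R') (Φ : SL S σ →+* SL S' σ')
    (hlb : ∀ (g : SL S σ) (a : ℤ), g.LB a → (Φ g).LB a)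
    (hρ : ∀ r, Φ (B.ρ r) = B'.ρ (φ r)) (hτ : ∀ y, Φ (B.τ y) = B'.τ y)
    {x : Y' → Y → SL S σ} {x' : Y' → Y → SL S' σ'} (hx : B.IsDirs x) (hx' : B'.IsDirs x')
    (hxx : ∀ t y, Φ (x t y) = x' t y) (f : NCS R Y) :
    NCSeries.map Φ (Base.psi hx f) = Base.psi hx' (NCSeries.map φ f) := by
  have hT : IsTransport B B' (Φ : SL S σ →+ SL S' σ') φ :=
    ⟨hlb, hρ, fun y g => by simp [hτ]⟩
  ext1 w
  exact hT.coeff_psi hx hx' (fun t y g => by simp [hxx]) w f

end Transport

/-! ### Explicit coefficient formulas for monomial bases -/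

section Words

variable {Y : Type*} [Fintype Y]

open Classical in
/-- The words of length `n`. -/
noncomputable def wordsLen : ℕ → Finset (List Y)
  | 0 => {[]}
  | n + 1 => (Finset.univ ×ˢ wordsLen n).image fun p : Y × List Y => p.1 :: p.2

theorem mem_wordsLen {n : ℕ} {w : List Y} : w ∈ wordsLen n ↔ w.length = n := by
  induction n generalizing w with
  | zero => simp [wordsLen]
  | succ n ih =>
    simp only [wordsLen, Finset.mem_image, Finset.mem_product, Finset.mem_univ, true_and, ih,
      Prod.exists]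
    constructor
    · rintro ⟨a, b, hb, rfl⟩
      simp [hb]
    · intro h
      cases w with
      | nil => simp at h
      | cons a b => exact ⟨a, b, by simpa using h, rfl⟩

theorem sum_wordsLen_succ {A : Type*} [AddCommMonoid A] (n : ℕ) (F : List Y → A) :
    ∑ w ∈ wordsLen (n + 1), F w = ∑ y, ∑ w ∈ wordsLen n, F (y :: w) := by
  classical
  rw [wordsLen, Finset.sum_image, Finset.sum_product]
  rintro ⟨a, b⟩ _ ⟨c, d⟩ _ h
  simp only [List.cons.injEq] at h
  exact Prod.ext h.1 h.2

@[simp] theorem sum_wordsLen_zero {A : Type*} [AddCommMonoid A] (F : List Y → A) :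
    ∑ w ∈ wordsLen 0, F w = F [] := by
  simp [wordsLen]

end Words

section Explicit

variable {R : Type*} [Ring R] {S : Type*} [Ring S] {σ : RingAut S} {Y : Type*} [Fintype Y]

/-- `l(w) = ∏_i σ^i (b (w i))`. -/
def lw (σ : RingAut S) (b : Y → S) : List Y → S
  | [] => 1
  | y :: w => b y * σ (lw σ b w)

/-- `∑_{w = u y v} l(u) σ^{|u|} (xx y) σ^{|u|+j} (l v)`. -/
noncomputable def dw (σ : RingAut S) (b xx : Y → S) (j : ℤ) : List Y → S
  | [] => 0
  | y :: v => xx y * (σ ^ j) (lw σ b v) + b y * σ (dw σ b xx j v)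

/-- The analogous second-order coefficient for two directions `xx ϖ^j`, `xx' ϖ^j'`. -/
noncomputable def dw2 (σ : RingAut S) (b xx xx' : Y → S) (j j' : ℤ) : List Y → S
  | [] => 0
  | y :: v => xx y * (σ ^ j) (dw σ b xx' j' v) + b y * σ (dw2 σ b xx xx' j j' v)

/-- A monomial base: `τ y = b y ϖ`, `ρ r = C (ι r)` with `ι` landing in the `σ`-fixed part. -/
structure IsMonBase (B : Base R S σ Y) (b : Y → S) (ι : R →+* S) : Prop where
  τ : ∀ y, B.τ y = SL.mon (b y) 1
  ρ : ∀ r, B.ρ r = SL.C (ι r)
  fix : ∀ r, σ (ι r) = ι r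

variable {B : Base R S σ Y} {b : Y → S} {ι : R →+* S} (h : IsMonBase B b ι)
include h

lemma IsMonBase.zpow_fix (k : ℤ) (r : R) : (σ ^ k) (ι r) = ι r := by
  have h1 : ∀ n : ℕ, (σ ^ n) (ι r) = ι r := by
    intro n
    induction n with
    | zero => rfl
    | succ n ih =>
      rw [pow_succ']
      show σ ((σ ^ n) (ι r)) = _
      rw [ih, h.fix]
  have h2 : ∀ n : ℕ, (σ⁻¹ ^ n) (ι r) = ι r := by
    intro n
    induction n with
    | zero => rfl
    | succ n ih =>
      rw [pow_succ']
      show σ⁻¹ ((σ⁻¹ ^ n) (ι r)) = _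
      rw [ih]
      apply σ.injective
      show σ (σ.symm (ι r)) = _
      rw [RingEquiv.apply_symm_apply, h.fix]
  obtain ⟨n, rfl | rfl⟩ := k.eq_nat_or_neg
  · simpa using h1 n
  · simpa using h2 n

theorem IsMonBase.coeff_value (D : ℕ) (f : NCS R Y) :
    (B.value f).coeff D = ∑ w ∈ wordsLen D, lw σ b w * ι (coeff w f) := by
  induction D generalizing f with
  | zero =>
    rw [B.value_rec, SL.coeff_add, SL.coeff_sum, h.ρ]
    have : ∀ y, (B.τ y * B.value (dl y f)).coeff 0 = 0 := by
      intro y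
      rw [h.τ, SL.coeff_mon_mul, B.value_LB _ _ (by norm_num), map_zero, mul_zero]
    simp [this, lw, SL.C_apply]
  | succ D ih =>
    rw [B.value_rec, SL.coeff_add, SL.coeff_sum, h.ρ, sum_wordsLen_succ]
    have h0 : (SL.C (ι (coeff [] f)) : SL S σ).coeff ((D + 1 : ℕ) : ℤ) = 0 := by
      rw [SL.C_apply, SL.coeff_mon, if_neg (by omega)]
    rw [h0, zero_add]
    refine Finset.sum_congr rfl fun y _ => ?_
    rw [h.τ, SL.coeff_mon_mul]
    have e : (((D + 1 : ℕ) : ℤ) - 1) = (D : ℤ) := by push_cast; ring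
    rw [e, ih, zpow_one, map_sum, Finset.mul_sum]
    refine Finset.sum_congr rfl fun w _ => ?_
    rw [map_mul, h.fix, ← mul_assoc]
    rfl

omit h in
/-- A bound for `dirW` with an individually bounded head. -/
theorem dirW_cons_LB {B : Base R S σ Y} {x : Y → SL S σ} {xs : List (Y → SL S σ)} {a c : ℤ}
    (hx : ∀ y, (x y).LB a) (hG : ∀ f : NCS R Y, (B.dirW xs f).LB c) (f : NCS R Y) :
    (B.dirW (x :: xs) f).LB (a + c) := by
  have hH : ∀ f : NCS R Y, (∑ y, x y * B.dirW xs (dl y f)).LB (a + c) :=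
    fun f => lB_sum _ _ fun y _ => (hx y).mul (hG _)
  have e := eq_solve (H := fun f => ∑ y, x y * B.dirW xs (dl y f)) (D := B.dirW (x :: xs))
    (c := (B.dirW_bounded (x :: xs)).choose)
    B.hτ hH (B.dirW_bounded (x :: xs)).choose_spec (B.dirW_rec x xs) f
  rw [e]
  exact solve_LB _ _ _

theorem IsMonBase.dir_LB {xx : Y → S} {j : ℤ} (f : NCS R Y) :
    (B.dir (fun y => SL.mon (xx y) j) f).LB j := by
  have := dirW_cons_LB (B := B) (x := fun y => SL.mon (xx y) j) (xs := []) (a := j) (c := 0)
    (fun y => SL.lB_mon _ _) (fun f => B.value_LB f) f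
  simpa using this

/-- The coefficient formula for a monomial direction. -/
theorem IsMonBase.coeff_dir (xx : Y → S) (j : ℤ) (n : ℕ) (f : NCS R Y) :
    (B.dir (fun y => SL.mon (xx y) j) f).coeff (j + n) =
      ∑ w ∈ wordsLen (n + 1), dw σ b xx j w * ι (coeff w f) := by
  induction n generalizing f with
  | zero =>
    rw [B.dir_rec, SL.coeff_add, SL.coeff_sum, SL.coeff_sum, sum_wordsLen_succ]
    have h2 : ∀ y, (B.τ y * B.dir (fun y => SL.mon (xx y) j) (dl y f)).coeff (j + (0 : ℕ)) = 0 := by
      intro y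
      rw [h.τ, SL.coeff_mon_mul, h.dir_LB _ _ (by push_cast; omega), map_zero, mul_zero]
    simp only [h2, Finset.sum_const_zero, add_zero]
    refine Finset.sum_congr rfl fun y _ => ?_
    rw [SL.coeff_mon_mul]
    have e : j + ((0 : ℕ) : ℤ) - j = ((0 : ℕ) : ℤ) := by push_cast; ring
    rw [e, h.coeff_value 0 (dl y f)]
    simp only [sum_wordsLen_zero]
    rw [map_mul, h.zpow_fix]
    simp only [dw, lw, coeff_dl, map_zero, mul_zero, add_zero, map_one, mul_one, one_mul]
  | succ n ih =>
    rw [B.dir_rec, SL.coeff_add, SL.coeff_sum, SL.coeff_sum, sum_wordsLen_succ,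
      ← Finset.sum_add_distrib]
    refine Finset.sum_congr rfl fun y _ => ?_
    rw [SL.coeff_mon_mul, h.τ, SL.coeff_mon_mul]
    have e1 : j + ((n + 1 : ℕ) : ℤ) - j = ((n + 1 : ℕ) : ℤ) := by push_cast; ring
    have e2 : j + ((n + 1 : ℕ) : ℤ) - 1 = j + (n : ℤ) := by push_cast; ring
    rw [e1, e2, h.coeff_value (n + 1) (dl y f), ih (dl y f), zpow_one, map_sum, map_sum,
      Finset.mul_sum, Finset.mul_sum, ← Finset.sum_add_distrib]
    refine Finset.sum_congr rfl fun w _ => ?_
    rw [map_mul, map_mul, h.zpow_fix, h.fix]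
    simp only [dw, coeff_dl]
    simp only [add_mul, mul_assoc]

theorem IsMonBase.dir2_LB {xx xx' : Y → S} {j j' : ℤ} (f : NCS R Y) :
    (B.dir2 (fun y => SL.mon (xx y) j) (fun y => SL.mon (xx' y) j') f).LB (j + j') :=
  dirW_cons_LB (fun y => SL.lB_mon _ _) (fun f => h.dir_LB f) f

/-- The coefficient formula for two monomial directions. -/
theorem IsMonBase.coeff_dir2 (xx xx' : Y → S) (j j' : ℤ) (n : ℕ) (f : NCS R Y) :
    (B.dir2 (fun y => SL.mon (xx y) j) (fun y => SL.mon (xx' y) j') f).coeff (j + j' + n) =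
      ∑ w ∈ wordsLen (n + 2), dw2 σ b xx xx' j j' w * ι (coeff w f) := by
  induction n generalizing f with
  | zero =>
    rw [B.dir2_rec, SL.coeff_add, SL.coeff_sum, SL.coeff_sum, sum_wordsLen_succ]
    have h2 : ∀ y, (B.τ y * B.dir2 (fun y => SL.mon (xx y) j) (fun y => SL.mon (xx' y) j')
        (dl y f)).coeff (j + j' + (0 : ℕ)) = 0 := by
      intro y
      rw [h.τ, SL.coeff_mon_mul, h.dir2_LB _ _ (by push_cast; omega), map_zero, mul_zero]
    simp only [h2, Finset.sum_const_zero, add_zero]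
    refine Finset.sum_congr rfl fun y _ => ?_
    rw [SL.coeff_mon_mul]
    have e : j + j' + ((0 : ℕ) : ℤ) - j = j' + ((0 : ℕ) : ℤ) := by push_cast; ring
    rw [e, h.coeff_dir xx' j' 0 (dl y f), map_sum, Finset.mul_sum]
    refine Finset.sum_congr rfl fun w _ => ?_
    rw [map_mul, h.zpow_fix]
    simp only [dw2, coeff_dl]
    have hw : w.length = 1 := mem_wordsLen.1 ‹_›
    obtain ⟨a, rfl⟩ := List.length_eq_one_iff.1 hw
    simp only [dw2, map_zero, mul_zero, add_zero]
    simp [dw, mul_assoc]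
  | succ n ih =>
    rw [B.dir2_rec, SL.coeff_add, SL.coeff_sum, SL.coeff_sum, sum_wordsLen_succ,
      ← Finset.sum_add_distrib]
    refine Finset.sum_congr rfl fun y _ => ?_
    rw [SL.coeff_mon_mul, h.τ, SL.coeff_mon_mul]
    have e1 : j + j' + ((n + 1 : ℕ) : ℤ) - j = j' + ((n + 1 : ℕ) : ℤ) := by push_cast; ring
    have e2 : j + j' + ((n + 1 : ℕ) : ℤ) - 1 = j + j' + (n : ℤ) := by push_cast; ring
    rw [e1, e2, h.coeff_dir xx' j' (n + 1) (dl y f), ih (dl y f), zpow_one, map_sum, map_sum,
      Finset.mul_sum, Finset.mul_sum, ← Finset.sum_add_distrib]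
    refine Finset.sum_congr rfl fun w _ => ?_
    rw [map_mul, map_mul, h.zpow_fix, h.fix]
    simp only [dw2, coeff_dl]
    simp only [add_mul, mul_assoc]

end Explicit

end PsiCore
end Crest.Agent.Lib.Kurosh
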