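import Crest.Agent.Lib.Kurosh.Step1
import Crest.Agent.Lib.Kurosh.PsiCore
import Crest.Agent.Lib.Kurosh.DivAlg

/-!
# Lemma `W' ≠ 0` and the valuation of `ξ` (blueprint Section 3, Step 1), abstract part

* `constTr l`: for `l : S →+ M` cyclic and `σ`-invariant, `x ↦ l (x.coeff 0)` is a cyclic additive map
  on `SL S σ`, zero on `val ≥ 1`.
* `comm_of_conj`: if `U h U⁻¹ = C ξ + g`, `g(0) = 0`, `ξ = h(0)`, and the linear coefficient of `g` at
  `t` vanishes then the linear coefficient of `h` at `t` is a commutator with `ξ`.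
* `comm_all`: the set of directions whose image is a commutator with `ξ` is a subspace.
* `dir_tau_not_comm`: Euler + trace: `Df(τ)[τ]` is not a commutator with `ξ = f(τ)`.
* `lamTr` : `R_L → L0`, `x ↦ tr (λ x)`, cyclic and invariant.
* `value_lead`: the leading coefficient of `f(τ)` at the generic base does not vanish.
-/

set_option autoImplicit false

namespace Crest.Agent.Lib.Kurosh.AStepW

open SL NCSeries PsiCore
open scoped TensorProduct

section ConstTr

variable {S : Type*} [Ring S] {σ : RingAut S} {M : Type*} [AddCommGroup M]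

/-- The coefficient of `ϖ^0`, as an additive map. -/
noncomputable def coeff0 : SL S σ →+ S where
  toFun x := x.coeff 0
  map_zero' := rfl
  map_add' _ _ := rfl

/-- The additive map `x ↦ l (x.coeff 0)`. -/
noncomputable def constTr (l : S →+ M) : SL S σ →+ M := l.comp coeff0

@[simp] lemma constTr_apply (l : S →+ M) (x : SL S σ) : constTr l x = l (x.coeff 0) := rfl

lemma inv_zpow (l : S →+ M) (hinv : ∀ a, l (σ a) = l a) (k : ℤ) (a : S) : l ((σ ^ k) a) = l a := by
  have h1 : ∀ (n : ℕ) (a : S), l ((σ ^ n) a) = l a := by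
    intro n a
    induction n with
    | zero => rfl
    | succ n ih =>
      rw [pow_succ']
      show l (σ ((σ ^ n) a)) = _
      rw [hinv, ih]
  have h2 : ∀ (n : ℕ) (a : S), l ((σ⁻¹ ^ n) a) = l a := by
    intro n a
    induction n with
    | zero => rfl
    | succ n ih =>
      rw [pow_succ']
      show l (σ⁻¹ ((σ⁻¹ ^ n) a)) = _
      have : l (σ⁻¹ ((σ⁻¹ ^ n) a)) = l (σ (σ⁻¹ ((σ⁻¹ ^ n) a))) := (hinv _).symm
      rw [this]
      have h3 : σ (σ⁻¹ ((σ⁻¹ ^ n) a)) = (σ⁻¹ ^ n) a := by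
        show σ (σ.symm _) = _
        rw [RingEquiv.apply_symm_apply]
      rw [h3, ih]
  obtain ⟨n, rfl | rfl⟩ := k.eq_nat_or_neg
  · simpa using h1 n a
  · simpa using h2 n a

/-- `constTr` is cyclic. -/
theorem constTr_cyc (l : S →+ M) (hcyc : ∀ a b, l (a * b) = l (b * a)) (hinv : ∀ a, l (σ a) = l a)
    (x y : SL S σ) : constTr l (x * y) = constTr l (y * x) := by
  obtain ⟨a, ha⟩ := x.exists_LB
  obtain ⟨b, hb⟩ := y.exists_LB
  rw [constTr_apply, constTr_apply, coeff_mul ha hb, coeff_mul hb ha, map_sum, map_sum]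
  refine Finset.sum_bij' (fun i _ => -i) (fun i _ => -i) ?_ ?_ ?_ ?_ ?_
  · intro i hi
    rw [Finset.mem_Icc] at hi ⊢
    omega
  · intro i hi
    rw [Finset.mem_Icc] at hi ⊢
    omega
  · intro i _
    simp
  · intro i _
    simp
  · intro i _
    have e1 : (0 : ℤ) - i = -i := by ring
    have e2 : (0 : ℤ) - -i = i := by ring
    rw [e1, e2]
    -- `l (x_i σ^i y_{-i}) = l (y_{-i} σ^{-i} x_i)`
    rw [hcyc]
    have e3 : (σ ^ i) (y.coeff (-i) * (σ ^ (-i)) (x.coeff i)) = (σ ^ i) (y.coeff (-i)) * x.coeff i := by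
      rw [map_mul]
      congr 1
      show ((σ ^ i) * (σ ^ (-i))) (x.coeff i) = _
      rw [zpow_neg, mul_inv_cancel]
      rfl
    rw [← inv_zpow l hinv i (y.coeff (-i) * (σ ^ (-i)) (x.coeff i)), e3]

theorem constTr_of_LB (l : S →+ M) {x : SL S σ} (hx : x.LB 1) : constTr l x = 0 := by
  rw [constTr_apply, hx 0 (by norm_num), map_zero]

end ConstTr

section Conj

variable {T : Type*} [Ring T] {Y' : Type*}

/-- If `U h U' = C ξ + g` with `g(0) = 0` and `ξ = h(0)`, then linear coefficients of `h` where `g`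
vanishes are commutators with `ξ`. -/
theorem comm_of_conj {U U' h g : NCS T Y'} {ξ : T} (h2 : U' * U = 1)
    (h1 : U * U' = 1)
    (hconj : U * h * U' = NCSeries.C ξ + g) (hh0 : coeff [] h = ξ) (hg0 : coeff [] g = 0) (t : Y')
    (hgt : coeff [t] g = 0) : ∃ a, coeff [t] h = ξ * a - a * ξ := by
  have hrel : U * h = (NCSeries.C ξ + g) * U := by
    rw [← hconj, mul_assoc, h2, mul_one]
  have hnil := congrArg (coeff []) hrel
  rw [coeff_mul_nil, coeff_mul_nil, hh0, NCSeries.coeff_add, coeff_C_nil, hg0, add_zero] at hnil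
  have h01 : coeff [] U' * coeff [] U = 1 := by
    have := congrArg (coeff []) h2
    rwa [coeff_mul_nil, coeff_one_nil] at this
  have h02 : coeff [] U * coeff [] U' = 1 := by
    have := congrArg (coeff []) h1
    rwa [coeff_mul_nil, coeff_one_nil] at this
  -- `u0'` commutes with `ξ`
  have hcomm : coeff [] U' * ξ = ξ * coeff [] U' := by
    calc coeff [] U' * ξ = coeff [] U' * (ξ * (coeff [] U * coeff [] U')) := by rw [h02, mul_one]
      _ = coeff [] U' * (ξ * coeff [] U) * coeff [] U' := by simp only [mul_assoc]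
      _ = coeff [] U' * (coeff [] U * ξ) * coeff [] U' := by rw [hnil]
      _ = (coeff [] U' * coeff [] U) * (ξ * coeff [] U') := by simp only [mul_assoc]
      _ = ξ * coeff [] U' := by rw [h01, one_mul]
  have hs := congrArg (coeff [t]) hrel
  rw [NCSeries.coeff_mul, NCSeries.coeff_mul] at hs
  simp only [List.length_cons, List.length_nil, Finset.sum_range_succ, Finset.range_zero,
    Finset.sum_empty, zero_add, List.take_zero, List.drop_zero, List.take_succ_cons,
    List.drop_succ_cons, List.take_nil, List.drop_nil, NCSeries.coeff_add, coeff_C_nil, hg0, hh0, add_zero,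
    hgt] at hs
  have hC : coeff [t] (NCSeries.C ξ : NCS T Y') = 0 := coeff_C_cons _ _ _
  rw [hC] at hs
  simp only [zero_mul, add_zero] at hs
  refine ⟨coeff [] U' * coeff [t] U, ?_⟩
  have hu : coeff [] U * coeff [t] h = ξ * coeff [t] U - coeff [t] U * ξ := by
    rw [eq_sub_iff_add_eq, hs]
  calc coeff [t] h = coeff [] U' * (coeff [] U * coeff [t] h) := by
        rw [← mul_assoc, h01, one_mul]
    _ = coeff [] U' * (ξ * coeff [t] U - coeff [t] U * ξ) := by rw [hu]
    _ = (coeff [] U' * ξ) * coeff [t] U - coeff [] U' * coeff [t] U * ξ := by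
        rw [mul_sub]; simp only [mul_assoc]
    _ = ξ * (coeff [] U' * coeff [t] U) - coeff [] U' * coeff [t] U * ξ := by
        rw [hcomm]; simp only [mul_assoc]

end Conj

section Span

variable {𝕜 V T : Type*} [Field 𝕜] [AddCommGroup V] [Module 𝕜 V] [Ring T] [Algebra 𝕜 T]

/-- The directions whose image is a commutator with `ξ` form a subspace. -/
theorem comm_all (D : V →ₗ[𝕜] T) (ξ : T) {ι : Type*} (X : ι → V) (I : Submodule 𝕜 V)
    (hc : Submodule.span 𝕜 (Set.range X) ⊔ I = ⊤) (hX : ∀ t, ∃ a, D (X t) = ξ * a - a * ξ)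
    (hI : ∀ v ∈ I, ∃ a, D v = ξ * a - a * ξ) (v : V) : ∃ a, D v = ξ * a - a * ξ := by
  let K : Submodule 𝕜 V :=
    { carrier := {v | ∃ a, D v = ξ * a - a * ξ}
      add_mem' := by
        rintro x y ⟨a, ha⟩ ⟨b, hb⟩
        exact ⟨a + b, by rw [map_add, ha, hb, mul_add, add_mul]; abel⟩
      zero_mem' := ⟨0, by simp⟩
      smul_mem' := by
        rintro c x ⟨a, ha⟩
        refine ⟨c • a, ?_⟩
        rw [map_smul, ha, smul_sub, mul_smul_comm, smul_mul_assoc] }
  have h1 : Submodule.span 𝕜 (Set.range X) ≤ K := by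
    rw [Submodule.span_le]
    rintro _ ⟨t, rfl⟩
    exact hX t
  have h2 : I ≤ K := hI
  have h3 : (⊤ : Submodule 𝕜 V) ≤ K := by
    rw [← hc]
    exact sup_le h1 h2
  exact h3 (Submodule.mem_top (x := v))

end Span

section Euler

variable {R : Type*} [Ring R] {S : Type*} [DivisionRing S] {σ : RingAut S} {Y : Type*} [Fintype Y]
  {M : Type*} [AddCommGroup M]

/-- **Lemma `W' ≠ 0`, core.**  `Df(τ)[τ]` is not a commutator with `ξ = f(τ)`. -/
theorem dir_tau_not_comm (B : Base R S σ Y) (l : S →+ M) (hcyc : ∀ a b, l (a * b) = l (b * a))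
    (hinv : ∀ a, l (σ a) = l a) (f : NCS R Y) (d0 : ℕ) (hd0 : f ∈ ordGE Y R d0)
    (hv : val (B.value f) = d0) (hne : B.value f ≠ 0) (h1 : d0 • l 1 ≠ 0) {x : SL S σ}
    (heq : B.dir B.τ f = B.value f * x - x * B.value f) : False := by
  set ξ := B.value f with hξ
  set g : NCS R Y := Base.eu f - d0 • f with hg
  have hgo : g ∈ ordGE Y R (d0 + 1) := by
    intro w hw
    show (Base.eu f - d0 • f) w = 0
    have e1 : (Base.eu f - d0 • f) w = w.length • f w - d0 • f w := rfl
    rw [e1]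
    rcases Nat.lt_or_ge w.length d0 with h | h
    · have : f w = 0 := hd0 w h
      simp [this]
    · have : w.length = d0 := by omega
      rw [this, sub_self]
  have hη : (B.value g).LB (val ξ + 1) := by
    rw [hv]
    have := B.value_LB_order hgo
    push_cast at this
    exact this
  have hsum : d0 • ξ + B.value g = ξ * x - x * ξ := by
    rw [← heq, Base.dir_tau]
    have e2 : Base.eu f = d0 • f + g := by rw [hg]; abel
    have e3 : B.value (d0 • f + g) = d0 • B.value f + B.value g := by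
      simp only [← Base.valueHom_apply, map_add, map_nsmul]
    rw [e2, e3]
  refine Step1.not_comm_of_lead (constTr l) (⊥ : AddSubgroup M) (constTr_cyc l hcyc hinv)
    (fun z hz => ?_) d0 ?_ hne hη hsum
  · rw [constTr_of_LB l hz]
    exact zero_mem _
  · rw [AddSubgroup.mem_bot, constTr_apply]
    exact h1

end Euler

section RLpart

open RatExt

variable (Z : Type*) [Field Z] (Y : Type*) (m : ℕ) {A : Type*} [Ring A] [Algebra Z A]

/-- The trace `R_L → L0`, `x ↦ tr (λ x)`. -/
noncomputable def lamTr (f : A →ₗ[Z] Z) : RL Z Y m A →+ L0 Z Y m where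
  toFun x := tr Z Y m (lam Z Y m f x)
  map_zero' := by simp [tr]
  map_add' x y := by rw [map_add, tr_add]

lemma lamTr_apply (f : A →ₗ[Z] Z) (x : RL Z Y m A) : lamTr Z Y m f x = tr Z Y m (lam Z Y m f x) := rfl

theorem lam_cyc (f : A →ₗ[Z] Z) (hf : ∀ a b, f (a * b) = f (b * a)) (x y : RL Z Y m A) :
    lam Z Y m f (x * y) = lam Z Y m f (y * x) := by
  induction x using TensorProduct.induction_on with
  | zero => simp
  | add a b ha hb => simp only [add_mul, mul_add, map_add, ha, hb]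
  | tmul c r =>
    induction y using TensorProduct.induction_on with
    | zero => simp
    | add a b ha hb => simp only [add_mul, mul_add, map_add, ha, hb]
    | tmul c' r' =>
      simp only [Algebra.TensorProduct.tmul_mul_tmul, lam_tmul]
      rw [hf, mul_comm c c']

theorem lamTr_cyc (f : A →ₗ[Z] Z) (hf : ∀ a b, f (a * b) = f (b * a)) (x y : RL Z Y m A) :
    lamTr Z Y m f (x * y) = lamTr Z Y m f (y * x) := by
  rw [lamTr_apply, lamTr_apply, lam_cyc Z Y m f hf]

theorem tr_s [NeZero m] (x : L0 Z Y m) : tr Z Y m (s Z Y m x) = tr Z Y m x := by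
  have h : tr Z Y m (s Z Y m x) = s Z Y m (tr Z Y m x) := by
    unfold tr
    rw [map_sum]
    refine Finset.sum_congr rfl fun r _ => ?_
    rw [← AlgEquiv.mul_apply, ← AlgEquiv.mul_apply, ← pow_succ, ← pow_succ']
  rw [h, s_tr]

theorem lamTr_inv [NeZero m] (f : A →ₗ[Z] Z) (x : RL Z Y m A) :
    lamTr Z Y m f (sR Z Y m A x) = lamTr Z Y m f x := by
  rw [lamTr_apply, lamTr_apply, lam_sR, tr_s]

theorem lamTr_one [NeZero m] (f : A →ₗ[Z] Z) :
    lamTr Z Y m f 1 = (m : L0 Z Y m) * algebraMap Z (L0 Z Y m) (f 1) := by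
  have h1 : lam Z Y m f (1 : RL Z Y m A) = algebraMap Z (L0 Z Y m) (f 1) := by
    have : (1 : RL Z Y m A) = (1 : L0 Z Y m) ⊗ₜ[Z] (1 : A) := rfl
    rw [this, lam_tmul, Algebra.smul_def, mul_one]
  rw [lamTr_apply, h1, tr_of_mem]
  rw [mem_Z0]
  exact (s Z Y m).commutes _

theorem nsmul_lamTr_one_ne [CharZero Z] [NeZero m] (f : A →ₗ[Z] Z) (hf1 : f 1 ≠ 0) {d : ℕ} (hd : d ≠ 0) :
    d • lamTr Z Y m f 1 ≠ 0 := by
  have : CharZero (L0 Z Y m) := charZero_of_injective_algebraMap (algebraMap Z (L0 Z Y m)).injective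
  rw [lamTr_one, nsmul_eq_mul]
  refine mul_ne_zero (Nat.cast_ne_zero.2 hd) (mul_ne_zero (Nat.cast_ne_zero.2 (NeZero.ne m)) ?_)
  exact fun h => hf1 ((map_eq_zero_iff _ (algebraMap Z (L0 Z Y m)).injective).1 h)

/-! ### The leading term of `f(τ)` at the generic base -/

/-- The generic base in `R_L`. -/
noncomputable def genB (A : Type*) [Ring A] [Algebra Z A] (y : Y) : RL Z Y m A :=
  iotaL Z Y m A (T Z Y m 0 y)

theorem lw_genB (w : List Y) :
    PsiCore.lw (sR Z Y m A) (genB Z Y m A) w = iotaL Z Y m A (Mono.lw Z Y m w) := by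
  have key : ∀ (w : List Y) (r : ZMod m), (s Z Y m) (algebraMap (Pol Z Y m) (L0 Z Y m) (Mono.pw Z Y m r w))
      = algebraMap (Pol Z Y m) (L0 Z Y m) (Mono.pw Z Y m (r + 1) w) := by
    intro w r
    rw [s_algebraMap, Mono.sPol_pw]
  induction w with
  | nil =>
    simp only [PsiCore.lw, Mono.lw, Mono.pw_nil, map_one]
  | cons y w ih =>
    simp only [PsiCore.lw]
    rw [ih, sR_iotaL, genB, ← map_mul]
    congr 1
    simp only [Mono.lw, Mono.pw_cons, map_mul]
    rw [key, zero_add]
    rfl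

variable {Z Y m}

theorem coeff_value_generic [Fintype Y] {B : Base A (RL Z Y m A) (sR Z Y m A) Y}
    (hB : IsMonBase B (genB Z Y m A) (iota Z Y m A : A →+* RL Z Y m A)) (D : ℕ) (f : NCS A Y) :
    (B.value f).coeff D = ∑ w ∈ wordsLen (Y := Y) D, (Mono.lw Z Y m w) ⊗ₜ[Z] (coeff w f) := by
  rw [hB.coeff_value]
  refine Finset.sum_congr rfl fun w _ => ?_
  rw [lw_genB]
  show (Mono.lw Z Y m w) ⊗ₜ[Z] (1 : A) * (1 : L0 Z Y m) ⊗ₜ[Z] (coeff w f) = _
  simp

theorem coeff_value_generic_ne [Fintype Y] [NeZero m] {B : Base A (RL Z Y m A) (sR Z Y m A) Y}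
    (hB : IsMonBase B (genB Z Y m A) (iota Z Y m A : A →+* RL Z Y m A)) (f : NCS A Y) {w0 : List Y}
    (hm : w0.length ≤ m) (hw0 : coeff w0 f ≠ 0) : (B.value f).coeff w0.length ≠ 0 := by
  classical
  rw [coeff_value_generic hB]
  intro h
  have h2 : ∑ v ∈ (wordsLen (Y := Y) w0.length).subtype (fun v : List Y => v.length = w0.length),
      (Mono.lw Z Y m (v : List Y)) ⊗ₜ[Z] (coeff (v : List Y) f) = 0 := by
    rw [← h]
    exact Finset.sum_subtype_of_mem (fun v : List Y => (Mono.lw Z Y m v) ⊗ₜ[Z] (coeff v f))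
      (fun v hv => mem_wordsLen.1 hv)
  refine hw0 (Step1.eq_zero_of_sum_lw_tmul Z Y m w0.length hm _ (fun v => coeff (v : List Y) f) h2
    ⟨w0, rfl⟩ ?_)
  rw [Finset.mem_subtype]
  exact mem_wordsLen.2 rfl

/-- There is a smallest length with a nonzero coefficient. -/
theorem exists_order (f : NCS A Y) (h0 : coeff [] f = 0) (hm : f ∉ ordGE Y A m) :
    ∃ w0 : List Y, 0 < w0.length ∧ w0.length < m ∧ coeff w0 f ≠ 0 ∧ f ∈ ordGE Y A w0.length := by
  classical
  have hex : ∃ n, ∃ w : List Y, w.length = n ∧ coeff w f ≠ 0 := by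
    by_contra hcon
    push Not at hcon
    exact hm fun w _ => hcon _ w rfl
  obtain ⟨w0, hw0, hne⟩ := Nat.find_spec hex
  have hmin : ∀ w : List Y, w.length < w0.length → coeff w f = 0 := by
    intro w hw
    by_contra hc
    have := Nat.find_min' hex ⟨w, rfl, hc⟩
    omega
  refine ⟨w0, ?_, ?_, hne, hmin⟩
  · rcases w0 with _ | ⟨a, w0⟩
    · exact absurd h0 hne
    · simp
  · by_contra hc
    exact hm fun w hw => hmin w (by omega)

/-- **The valuation of `f(τ)` at the generic base.** -/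
theorem value_generic [Fintype Y] [NeZero m] {B : Base A (RL Z Y m A) (sR Z Y m A) Y}
    (hB : IsMonBase B (genB Z Y m A) (iota Z Y m A : A →+* RL Z Y m A)) (f : NCS A Y)
    (h0 : coeff [] f = 0) (hm : f ∉ ordGE Y A m) :
    ∃ d0 : ℕ, 0 < d0 ∧ d0 < m ∧ f ∈ ordGE Y A d0 ∧ B.value f ≠ 0 ∧ SL.val (B.value f) = d0 := by
  obtain ⟨w0, h1, h2, h3, h4⟩ := exists_order f h0 hm
  have hne := coeff_value_generic_ne hB f (le_of_lt h2) h3
  refine ⟨w0.length, h1, h2, h4, ?_, val_eq_of hne ?_⟩
  · intro h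
    rw [h] at hne
    exact hne rfl
  · exact_mod_cast B.value_LB_order h4

end RLpart

section Main

open RatExt

variable {Z : Type*} [Field Z] [CharZero Z] {Y : Type*} [Fintype Y] {m : ℕ} [NeZero m]
  {A : Type*} [DivisionRing A] [Algebra Z A] [FiniteDimensional Z A]

/-- **Lemma `W' ≠ 0`, main form.**  At the generic base, if `f(0) = 0` and `f ∉ ordGE m` then
`Df(τ)[τ]` is not a commutator with `f(τ)`. -/
theorem dir_tau_not_comm_generic {B : Base A (RL Z Y m A) (sR Z Y m A) Y}
    (hB : IsMonBase B (genB Z Y m A) (iota Z Y m A : A →+* RL Z Y m A)) (f : NCS A Y)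
    (h0 : coeff [] f = 0) (hm : f ∉ ordGE Y A m) {x : SL (RL Z Y m A) (sR Z Y m A)}
    (heq : B.dir B.τ f = B.value f * x - x * B.value f) : False := by
  obtain ⟨d0, h1, h2, h3, h4, h5⟩ := value_generic hB f h0 hm
  have hone : DivAlg.regTrace Z A 1 ≠ 0 := by
    rw [DivAlg.regTrace_one]
    exact Nat.cast_ne_zero.2 Module.finrank_pos.ne'
  exact dir_tau_not_comm B (lamTr Z Y m (DivAlg.regTrace Z A))
    (lamTr_cyc Z Y m _ (DivAlg.regTrace_mul_comm (Z := Z) (E := A))) (lamTr_inv Z Y m _) f d0 h3 h5 h4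
    (nsmul_lamTr_one_ne Z Y m _ hone h1.ne') heq

end Main

section Clock

variable {R : Type*} [Ring R] {S : Type*} [Ring S] {σ : RingAut S} {Y : Type*} [Fintype Y]

/-- **The valuation of `f(τ)` at the clock base.**  (No `DecidableEq` on `Y` is needed in the
statement.) If `f = κ z + …`, `f(0) = 0`, `b z = 1`, then `f(τ)` has valuation `1`. -/
theorem value_clock [DecidableEq Y] {B : Base R S σ Y} {b : Y → S} {ι : R →+* S} (hB : IsMonBase B b ι)
    (f : NCS R Y) (z : Y) (κ : R) (h0 : coeff [] f = 0) (hz : coeff [z] f = κ)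
    (hp : ∀ p, p ≠ z → coeff [p] f = 0) (hbz : b z = 1) (hκ : ι κ ≠ 0) :
    B.value f ≠ 0 ∧ SL.val (B.value f) = 1 := by
  have hord : f ∈ ordGE Y R 1 := by
    intro w hw
    have : w = [] := List.length_eq_zero_iff.mp (by omega)
    rw [this]
    exact h0
  have hc : (B.value f).coeff 1 = ι κ := by
    have := hB.coeff_value 1 f
    rw [show ((1 : ℕ) : ℤ) = 1 from rfl, sum_wordsLen_succ] at this
    rw [this, Finset.sum_eq_single z]
    · simp only [sum_wordsLen_zero, PsiCore.lw, map_one, hbz, one_mul]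
      rw [hz]
    · intro p _ hpz
      simp only [sum_wordsLen_zero]
      rw [hp p hpz]
      simp
    · intro h
      exact absurd (Finset.mem_univ z) h
  have hne : (B.value f).coeff 1 ≠ 0 := by rw [hc]; exact hκ
  refine ⟨?_, val_eq_of hne ?_⟩
  · intro h
    rw [h] at hne
    exact hne rfl
  · exact_mod_cast B.value_LB_order hord

end Clock

end Crest.Agent.Lib.Kurosh.AStepW
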