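import Crest.Agent.Lib.Kurosh.StageDefs
import Crest.Agent.Lib.Kurosh.AStepW

/-!
# `aStep_W_ne`, `levelStep_W_ne`, `value_val_generic`, `value_val_clock` in the form of `Skeleton.lean`
-/

set_option autoImplicit false

namespace Crest.Agent.Lib.Kurosh.AStepLevel

open NCSeries Module AStepW

variable {Y : Type} [Fintype Y] [DecidableEq Y]
variable {Z : Type} [Field Z] [CharZero Z] {m : ℕ} [Fact m.Prime]

omit [CharZero Z] in
/-- At the generic base the abstract base is a monomial base at `genB`. -/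
theorem isMonBase_generic {A : Type} [Ring A] [Algebra Z A] (d : LevelData Z Y m)
    (hd : d.b = genericBase Z Y m) :
    PsiCore.IsMonBase (baseOf A d.b) (genB Z Y m A) (RatExt.iota Z Y m A : A →+* RL Z Y m A) := by
  have h := isMonBase (R := A) d.b
  have e : (fun y => algebraMap (L0 Z Y m) (RL Z Y m A) (d.b y)) = genB Z Y m A := by
    funext y
    rw [hd]
    rfl
  rw [e] at h
  exact h

/-- The directional derivative as a `Zp`-linear map. -/
noncomputable def dirLin {A : Type} [Ring A] [Algebra Z A] (d : LevelData Z Y m) (f : NCS A Y) :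
    (Y → CC Z Y m) →ₗ[Zp Z Y m] Tilde Z Y m A where
  toFun x := dirB A d.b x f
  map_add' x x' := dirB_add d.b x x' f
  map_smul' z x := dirB_smul (R := A) d.b z x f

variable {A : Type} [DivisionRing A] [Algebra Z A] [FiniteDimensional Z A]

/-- The core of `W' ≠ 0`, with the conjugation given by a unit pair. -/
theorem W_ne_core (d : LevelData Z Y m) (hd : d.b = genericBase Z Y m) (f : NCS A Y)
    (f0 : coeff [] f = 0) (hm : f ∉ ordGE Y A m)
    {U U' g : NCS (Tilde Z Y m A) (Fin d.n)} (h2 : U' * U = 1) (h1 : U * U' = 1)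
    (hconj : U * psi d A f * U' = C (value d A f) + g) (hg0 : coeff [] g = 0)
    (hgt : ∀ t, coeff [t] g = 0) : False := by
  have hX : ∀ t, ∃ a, dirLin d f (d.X t) = value d A f * a - a * value d A f := by
    intro t
    have := AStepW.comm_of_conj h2 h1 hconj rfl hg0 t (hgt t)
    obtain ⟨a, ha⟩ := this
    exact ⟨a, by rw [← ha, coeff_single_psi]; rfl⟩
  have hI : ∀ v ∈ LinearMap.range (Inn d.b), ∃ a, dirLin d f v = value d A f * a - a * value d A f := by
    rintro v ⟨c, rfl⟩
    refine ⟨Cmap Z Y m A c, ?_⟩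
    rw [value_eq]
    exact dirB_Inn A d.b c f
  obtain ⟨a, ha⟩ := AStepW.comm_all (dirLin d f) (value d A f) d.X (LinearMap.range (Inn d.b))
    d.hcompl.sup_eq_top hX hI (tauOf d.b)
  refine AStepW.dir_tau_not_comm_generic (isMonBase_generic d hd) f f0 hm (x := a) ?_
  rw [value_eq] at ha
  exact ha

/-- **Step 1: `W' ≠ 0`.** -/
theorem aStep_W_ne' (d : LevelData Z Y m) (hd : d.b = genericBase Z Y m) (c : AConf Z Y)
    (hm : c.f ∉ ordGE Y c.A m) {c' : AConf (Zp Z Y m) (Fin d.n)} (st : AStep d c c') : c'.W ≠ ⊥ := by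
  intro hW
  have hlin : ∀ t, coeff [t] c'.f = 0 := by
    intro t
    have h : coeff [t] c'.f ∈ c'.W := Submodule.subset_span ⟨t, rfl⟩
    rw [hW] at h
    exact (Submodule.mem_bot _).1 h
  have hconj := st.conj
  rw [st.hξ] at hconj
  refine W_ne_core d hd c.f c.f0 hm st.U'U st.UU' hconj ?_ ?_
  · rw [coeff_map, c'.f0, map_zero]
  · intro t
    rw [coeff_map, hlin t, map_zero]

/-- **`W' ≠ 0` for a `K`-configuration.** -/
theorem levelStep_W_ne (d : LevelData Z Y m) (hd : d.b = genericBase Z Y m) (c : KConf Z Y)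
    (hm : c.g ∉ ordGE Y c.K m) {c' : KConf (Zp Z Y m) (Fin d.n)} (st : LevelStep d c c') : c'.W ≠ ⊥ := by
  intro hW
  have hlin : ∀ t, coeff [t] c'.g = 0 := by
    intro t
    have h : coeff [t] c'.g ∈ c'.W := Submodule.subset_span ⟨t, rfl⟩
    rw [hW] at h
    exact (Submodule.mem_bot _).1 h
  have hconj := st.conj
  rw [st.hξ] at hconj
  refine W_ne_core d hd c.g c.g0 hm st.U'U st.UU' hconj ?_ ?_
  · rw [coeff_map, c'.g0, map_zero]
  · intro t
    rw [coeff_map, hlin t, map_zero]

/-- **The value at the generic base.** -/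
theorem value_val_generic' {R : Type} [Ring R] [Algebra Z R] (d : LevelData Z Y m)
    (hd : d.b = genericBase Z Y m) (f : NCS R Y) (f0 : coeff [] f = 0) (hm : f ∉ ordGE Y R m) :
    value d R f ≠ 0 ∧ ¬ ((m : ℤ) ∣ SL.val (value d R f)) := by
  obtain ⟨d0, h1, h2, -, h4, h5⟩ := AStepW.value_generic (isMonBase_generic d hd) f f0 hm
  have e : value d R f = (baseOf R d.b).value f := value_eq d R f
  have h4' : value d R f ≠ 0 := by rw [e]; exact h4
  have h5' : SL.val (value d R f) = d0 := by rw [e]; exact h5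
  refine ⟨h4', ?_⟩
  rw [h5']
  intro h
  have := Int.natCast_dvd_natCast.1 h
  exact absurd (Nat.le_of_dvd h1 this) (by omega)

end Crest.Agent.Lib.Kurosh.AStepLevel
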