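import Crest.Agent.Lib.Kurosh.CanonU

/-!
# S0270, blueprint 6.2: approximation in the model field `K0((ϖ))`

`FxSub s` is the field of series with `s`-fixed coefficients (the model `K0((ϖ))`).
For a subfield `R` of it, `apx R` is the subfield of `L` of constants approximable by `R`.

* `exists_step`: the approximation step of Theorem B: if `F ≤ apx R` etc., then the new datum `A`
  has `r ∈ R` with `r ≡ A` modulo `ϖ`.
* `approx_of_root`: Newton's method: a separable root with a first approximation in `R` is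
  approximable by `R`.
-/

set_option autoImplicit false

namespace Crest.Agent.Lib.Kurosh.CanonU

open SL Finset

variable {L : Type*} [Field L] {s : RingAut L}

/-- The fixed subfield. -/
def fixF (s : RingAut L) : Subfield L where
  carrier := {x | s x = x}
  mul_mem' {a b} ha hb := by
    simp only [Set.mem_ofPred_eq] at ha hb ⊢
    rw [map_mul, ha, hb]
  one_mem' := map_one s
  add_mem' {a b} ha hb := by
    simp only [Set.mem_ofPred_eq] at ha hb ⊢
    rw [map_add, ha, hb]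
  zero_mem' := map_zero s
  neg_mem' {a} ha := by
    simp only [Set.mem_ofPred_eq] at ha ⊢
    rw [map_neg, ha]
  inv_mem' a ha := by
    simp only [Set.mem_ofPred_eq] at ha ⊢
    rw [map_inv₀, ha]

@[simp] lemma mem_fixF {a : L} : a ∈ fixF s ↔ s a = a := Iff.rfl

lemma stable_fixF : Stable (fixF s) s where
  fwd x hx := by
    simp only [mem_fixF] at hx ⊢
    rw [hx]; exact hx
  bwd x hx := by
    simp only [mem_fixF] at hx ⊢
    have : s⁻¹ x = x := by
      conv_lhs => rw [← hx]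
      show (s⁻¹ * s) x = x
      rw [inv_mul_cancel]; rfl
    rw [this]; exact hx

lemma IsFix.inv {x : SL L s} (hx : IsFix x) : IsFix x⁻¹ :=
  InSub.inv (F := fixF s) stable_fixF hx

/-- The subring of series with fixed coefficients. -/
def FxSub (s : RingAut L) : Subring (SL L s) where
  carrier := {x | IsFix x}
  mul_mem' ha hb := IsFix.mul ha hb
  one_mem' := isFix_one
  add_mem' ha hb := IsFix.add ha hb
  zero_mem' := isFix_zero
  neg_mem' ha := IsFix.neg ha

lemma mem_FxSub {x : SL L s} : x ∈ FxSub s ↔ IsFix x := Iff.rfl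

noncomputable instance instFieldFx : Field (FxSub s) :=
  { (inferInstance : Ring (FxSub s)) with
    mul_comm := fun a b => Subtype.ext (IsFix.mul_comm a.2 b.2)
    inv := fun a => ⟨a.1⁻¹, IsFix.inv a.2⟩
    exists_pair_ne := ⟨0, 1, by
      intro h
      have := congrArg (fun f : FxSub s => f.1.coeff 0) h
      simp [coeff_one] at this⟩
    mul_inv_cancel := fun a ha => by
      apply Subtype.ext
      show a.1 * a.1⁻¹ = 1
      exact mul_inv_cancel₀ (fun h => ha (Subtype.ext h))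
    inv_zero := by
      apply Subtype.ext
      show (0 : SL L s)⁻¹ = 0
      exact inv_zero
    nnqsmul := _
    qsmul := _ }

@[simp] lemma fx_inv_val (a : FxSub s) : (a⁻¹).1 = a.1⁻¹ := rfl

/-- Constants in the model field. -/
noncomputable def cstF : fixF s →+* FxSub s where
  toFun a := ⟨C (a : L), isFix_C a.2⟩
  map_one' := by
    apply Subtype.ext
    simp
  map_mul' a b := by
    apply Subtype.ext
    simp
  map_zero' := by
    apply Subtype.ext
    simp
  map_add' a b := by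
    apply Subtype.ext
    simp

@[simp] lemma cstF_val (a : fixF s) : (cstF a : FxSub s).1 = C (a : L) := rfl

/-! ### Approximation -/

/-- The constant `a` is approximable by `R`. -/
def Approx (R : Subfield (FxSub s)) (a : L) : Prop :=
  ∀ N : ℤ, ∃ r ∈ R, (r.1 - C a).LB N

lemma Approx.pos {R : Subfield (FxSub s)} {a : L} (h : ∀ N : ℤ, 1 ≤ N → ∃ r ∈ R, (r.1 - C a).LB N) :
    Approx R a := by
  intro N
  obtain ⟨r, hr, hh⟩ := h (max N 1) (le_max_right _ _)
  exact ⟨r, hr, LB.mono hh (le_max_left _ _)⟩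

lemma lB_C (a : L) : (C a : SL L s).LB 0 := lB_mon a 0

lemma LB0_of_close {x : SL L s} {a : L} {N : ℤ} (hN : 0 ≤ N) (h : (x - C a).LB N) : x.LB 0 := by
  have h1 : ((x - C a) + C a).LB 0 := LB.add (LB.mono h hN) (lB_C a)
  simpa using h1

lemma coeff0_of_close {x : SL L s} {a : L} {N : ℤ} (hN : 1 ≤ N) (h : (x - C a).LB N) :
    x.coeff 0 = a := by
  have := h 0 (by omega)
  rw [coeff_sub, sub_eq_zero, C_apply, coeff_mon_self] at this
  exact this

/-- The approximable constants form a subfield of `L`. -/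
def apx (R : Subfield (FxSub s)) : Subfield L where
  carrier := {a | Approx R a}
  mul_mem' {a b} ha hb := by
    refine Approx.pos fun N hN => ?_
    obtain ⟨r, hr, h1⟩ := ha N
    obtain ⟨r', hr', h2⟩ := hb N
    refine ⟨r * r', R.mul_mem hr hr', ?_⟩
    have e : (r * r').1 - C (a * b) = (r.1 - C a) * r'.1 + C a * (r'.1 - C b) := by
      show r.1 * r'.1 - _ = _
      rw [map_mul]
      noncomm_ring
    rw [e]
    refine LB.add ?_ ?_
    · simpa using LB.mul h1 (LB0_of_close (by omega) h2)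
    · simpa using LB.mul (lB_C a) h2
  one_mem' := fun N => ⟨1, R.one_mem, by
    show ((1 : SL L s) - C 1).LB N
    rw [map_one, sub_self]
    exact lB_zero _⟩
  add_mem' {a b} ha hb := by
    intro N
    obtain ⟨r, hr, h1⟩ := ha N
    obtain ⟨r', hr', h2⟩ := hb N
    refine ⟨r + r', R.add_mem hr hr', ?_⟩
    have e : (r + r').1 - C (a + b) = (r.1 - C a) + (r'.1 - C b) := by
      show r.1 + r'.1 - _ = _
      rw [map_add]
      abel
    rw [e]
    exact LB.add h1 h2
  zero_mem' := fun N => ⟨0, R.zero_mem, by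
    show ((0 : SL L s) - C 0).LB N
    rw [map_zero, sub_self]
    exact lB_zero _⟩
  neg_mem' {a} ha := by
    intro N
    obtain ⟨r, hr, h1⟩ := ha N
    refine ⟨-r, R.neg_mem hr, ?_⟩
    have e : (-r).1 - C (-a) = -(r.1 - C a) := by
      show -r.1 - _ = _
      rw [map_neg]
      abel
    rw [e]
    exact LB.neg h1
  inv_mem' a ha := by
    by_cases ha0 : a = 0
    · subst ha0
      simp only [inv_zero]
      exact fun N => ⟨0, R.zero_mem, by
        show ((0 : SL L s) - C 0).LB N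
        rw [map_zero, sub_self]
        exact lB_zero _⟩
    refine Approx.pos fun N hN => ?_
    obtain ⟨r, hr, h1⟩ := ha N
    refine ⟨r⁻¹, R.inv_mem hr, ?_⟩
    have h0 : r.1.LB 0 := LB0_of_close (by omega) h1
    have hc : r.1.coeff 0 = a := coeff0_of_close hN h1
    have hne : r.1 ≠ 0 := by
      intro h
      rw [h] at hc
      exact ha0 (by simpa using hc.symm)
    have hinv := (coeff_inv_of_LB h0 (by rw [hc]; exact ha0)).1
    have hCa : (C a : SL L s) ≠ 0 := by
      intro h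
      exact ha0 (C_injective (h.trans (map_zero _).symm))
    have e : (r⁻¹).1 - C a⁻¹ = r.1⁻¹ * (C a - r.1) * C a⁻¹ := by
      have e1 : (C a : SL L s) * C a⁻¹ = 1 := by
        rw [← map_mul, mul_inv_cancel₀ ha0, map_one]
      show r.1⁻¹ - _ = _
      rw [mul_sub, sub_mul, mul_assoc r.1⁻¹, e1, mul_one, inv_mul_cancel₀ hne, one_mul]
    rw [e]
    have := LB.mul (LB.mul (by simpa using hinv : r.1⁻¹.LB 0) (LB_symm h1)) (lB_C a⁻¹)
    simpa using this

@[simp] lemma mem_apx {R : Subfield (FxSub s)} {a : L} : a ∈ apx R ↔ Approx R a := Iff.rfl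

lemma apx_le_fixF (R : Subfield (FxSub s)) : apx R ≤ fixF s := by
  intro a ha
  obtain ⟨r, _, h⟩ := ha 1
  have e := coeff0_of_close (le_refl _) h
  rw [mem_fixF, ← e]
  exact r.2 0

lemma approx_of_mem {R : Subfield (FxSub s)} {a : fixF s} (h : cstF a ∈ R) : Approx R a :=
  fun N => ⟨cstF a, h, by
    rw [cstF_val, sub_self]
    exact lB_zero _⟩

/-! ### Powers -/

lemma Norm1.pow_LB {ρ : SL L s} (h : Norm1 ρ) (n : ℕ) : (ρ ^ n).LB n := by
  induction n with
  | zero => simpa using lB_one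
  | succ n ih =>
    rw [pow_succ]
    have := LB.mul ih h.lb
    push_cast
    exact this

lemma Norm1.pow_lead {ρ : SL L s} (h : Norm1 ρ) (n : ℕ) : (ρ ^ n).coeff n = 1 := by
  induction n with
  | zero => simp [coeff_one]
  | succ n ih =>
    rw [pow_succ]
    push_cast
    rw [coeff_mul_add (h.pow_LB n) h.lb, ih, h.lead, map_one, mul_one]

lemma Norm1.pow_sub_mon {ρ : SL L s} (h : Norm1 ρ) (n : ℕ) : (ρ ^ n - mon 1 n).LB ((n : ℤ) + 1) := by
  intro i hi
  rw [coeff_sub, coeff_mon]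
  by_cases hin : i = n
  · rw [if_pos hin, hin, h.pow_lead, sub_self]
  · rw [if_neg hin, (h.pow_LB n) i (by omega), sub_zero]

lemma pow_sub_pow_LB {ρ ρ' : SL L s} (h : Norm1 ρ) (h' : Norm1 ρ') {D : ℤ} (hD : (ρ - ρ').LB D)
    (n : ℕ) : (ρ ^ n - ρ' ^ n).LB ((n : ℤ) + D - 1) := by
  induction n with
  | zero => simpa using lB_zero _
  | succ n ih =>
    have e : ρ ^ (n + 1) - ρ' ^ (n + 1) = (ρ ^ n - ρ' ^ n) * ρ + ρ' ^ n * (ρ - ρ') := by
      rw [pow_succ, pow_succ]
      noncomm_ring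
    rw [e]
    refine LB.add ?_ ?_
    · have := LB.mul ih h.lb
      convert this using 1
      push_cast
      ring
    · have := LB.mul (h'.pow_LB n) hD
      refine LB.mono this ?_
      push_cast
      omega

/-! ### The approximation step -/

/-- Peeling: a series with coefficients in `F ≤ apx R` is approximated by `R`, using `ρ ∈ R`
close to `ρF`, in the range allowed by the closeness of `ρ` and `ρF`. -/
lemma exists_peel {R : Subfield (FxSub s)} {F : Subfield L} (hFs : Stable F s)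
    (hF : F ≤ apx R) {ρ : FxSub s} (hρ : ρ ∈ R) {ρF : SL L s} (hρ1 : Norm1 ρ.1) (hρF1 : Norm1 ρF)
    (hρF : InSub F ρF) {D : ℤ} (hD : (ρ.1 - ρF).LB D) (n : ℕ) (hn : (n : ℤ) ≤ D - 1) :
    ∀ (a : ℕ) (y : SL L s), InSub F y → y.LB a → ∃ r ∈ R, (r.1 - y).LB ((a : ℤ) + n) := by
  induction n with
  | zero =>
    intro a y _ hy
    refine ⟨0, R.zero_mem, ?_⟩
    have : (-y).LB a := LB.neg hy
    simpa using this
  | succ n ih =>
    intro a y hyF hy
    have hn' : (n : ℤ) ≤ D - 1 := by push_cast at hn; omega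
    set β := y.coeff a with hβ
    have hβF : β ∈ F := hyF _
    set y' := y - C β * ρF ^ a with hy'
    have hpowF : ∀ k : ℕ, InSub F (ρF ^ k) := by
      intro k
      induction k with
      | zero => simpa using inSub_one F
      | succ k ih2 => rw [pow_succ]; exact ih2.mul hFs hρF
    have hy'F : InSub F y' := hyF.sub ((inSub_mon F hβF 0).mul hFs (hpowF a))
    have hy'LB : y'.LB (((a + 1 : ℕ) : ℤ)) := by
      intro i hi
      rw [hy', coeff_sub, coeff_C_mul]
      by_cases hia : i = a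
      · rw [hia, hρF1.pow_lead, mul_one, hβ, sub_self]
      · have h1 : (i : ℤ) < a := by push_cast at hi; omega
        rw [hy i h1, (hρF1.pow_LB a) i h1, mul_zero, sub_zero]
    obtain ⟨r1, hr1, h1⟩ := ih hn' (a + 1) y' hy'F hy'LB
    obtain ⟨r2, hr2, h2⟩ := hF hβF ((n : ℤ) + 1)
    refine ⟨r1 + r2 * ρ ^ a, R.add_mem hr1 (R.mul_mem hr2 (R.pow_mem hρ a)), ?_⟩
    have e : (r1 + r2 * ρ ^ a).1 - y =
        (r1.1 - y') + ((r2.1 - C β) * ρ.1 ^ a + C β * (ρ.1 ^ a - ρF ^ a)) := by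
      have : (r1 + r2 * ρ ^ a).1 = r1.1 + r2.1 * ρ.1 ^ a := rfl
      rw [this, hy']
      noncomm_ring
    rw [e]
    have hbound : (a : ℤ) + ((n + 1 : ℕ) : ℤ) = ((a + 1 : ℕ) : ℤ) + n := by
      push_cast; ring
    rw [hbound]
    refine LB.add h1 (LB.add ?_ ?_)
    · have := LB.mul h2 (hρ1.pow_LB a)
      refine LB.mono this ?_
      push_cast
      omega
    · have := LB.mul (lB_C β) (pow_sub_pow_LB hρ1 hρF1 hD a)
      refine LB.mono this ?_
      push_cast at hn ⊢
      omega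

/-- The approximation step of Theorem B. -/
theorem exists_step {R : Subfield (FxSub s)} {F : Subfield L} (hFs : Stable F s)
    (hF : F ≤ apx R) {ρ w : FxSub s} (hρ : ρ ∈ R) (hw : w ∈ R) {ρF yF : SL L s} {A : L}
    (hρF1 : Norm1 ρF) (hρF : InSub F ρF) (D j : ℕ) (hD2 : 2 ≤ D) (hD : (ρ.1 - ρF).LB D)
    (hyF : InSub F yF) (hyLB : yF.LB ((j : ℤ) + 1))
    (hwA : (w.1 - yF - mon A ((j + D - 1 : ℕ) : ℤ)).LB ((j + D : ℕ) : ℤ)) :
    ∃ r ∈ R, (r.1 - C A).LB 1 := by
  have hρ1 : Norm1 ρ.1 := by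
    have hcoeff : ∀ i : ℤ, i < 2 → ρ.1.coeff i = ρF.coeff i := fun i hi =>
      coeff_eq_of_sub_LB hD (by omega)
    refine ⟨fun i hi => ?_, ?_⟩
    · rw [hcoeff i (by omega)]; exact hρF1.lb i hi
    · rw [hcoeff 1 (by norm_num)]; exact hρF1.lead
  obtain ⟨r1, hr1, h1⟩ := exists_peel hFs hF hρ hρ1 hρF1 hρF hD (D - 1)
    (by have : ((D - 1 : ℕ) : ℤ) = (D : ℤ) - 1 := by omega
        omega) (j + 1) yF hyF (by push_cast; exact hyLB)
  set J := j + D - 1 with hJ
  have hJ' : (J : ℤ) + 1 = ((j + D : ℕ) : ℤ) := by omega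
  have hbd : ((j + 1 : ℕ) : ℤ) + ((D - 1 : ℕ) : ℤ) = ((j + D : ℕ) : ℤ) := by omega
  rw [hbd] at h1
  have hρJ : (ρ ^ J).1 = ρ.1 ^ J := rfl
  have hne : ρ.1 ^ J ≠ 0 := by
    intro h
    have := hρ1.pow_lead J
    rw [h] at this
    simp at this
  have hpowinv : (ρ.1 ^ J)⁻¹.LB (-(J : ℤ)) :=
    (coeff_inv_of_LB (hρ1.pow_LB J) (by rw [hρ1.pow_lead]; exact one_ne_zero)).1
  refine ⟨(w - r1) * (ρ ^ J)⁻¹, R.mul_mem (R.sub_mem hw hr1) (R.inv_mem (R.pow_mem hρ J)), ?_⟩
  have hE : (w.1 - r1.1 - mon A J).LB ((j + D : ℕ) : ℤ) := by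
    have e : w.1 - r1.1 - mon A J = (w.1 - yF - mon A J) - (r1.1 - yF) := by abel
    rw [e]
    exact LB.sub hwA h1
  have e : ((w - r1) * (ρ ^ J)⁻¹).1 - C A =
      (w.1 - r1.1 - mon A J) * (ρ.1 ^ J)⁻¹ + C A * ((mon 1 J - ρ.1 ^ J) * (ρ.1 ^ J)⁻¹) := by
    have e1 : ((w - r1) * (ρ ^ J)⁻¹).1 = (w.1 - r1.1) * (ρ.1 ^ J)⁻¹ := rfl
    have e2 : (mon A J : SL L s) = C A * mon 1 J := by
      rw [C_mul_mon, mul_one]
    rw [e1]
    have e3 : (mon 1 (J : ℤ) - ρ.1 ^ J) * (ρ.1 ^ J)⁻¹ = mon 1 (J : ℤ) * (ρ.1 ^ J)⁻¹ - 1 := by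
      rw [sub_mul, mul_inv_cancel₀ hne]
    rw [e3, sub_mul, sub_mul, mul_sub, e2, mul_one]
    noncomm_ring
  rw [e]
  refine LB.add ?_ ?_
  · have := LB.mul hE hpowinv
    refine LB.mono this ?_
    omega
  · have h3 := LB.mul (LB_symm (hρ1.pow_sub_mon J)) hpowinv
    have h4 := LB.mul (lB_C (s := s) A) h3
    refine LB.mono h4 ?_
    omega

/-! ### Newton -/

/-- The subring of integral elements of the model field. -/
def OFx (s : RingAut L) : Subring (FxSub s) where
  carrier := {x | x.1.LB 0}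
  mul_mem' {a b} ha hb := by
    have := LB.mul ha hb
    simpa using this
  one_mem' := lB_one
  add_mem' {a b} ha hb := LB.add ha hb
  zero_mem' := lB_zero 0
  neg_mem' {a} ha := LB.neg ha

/-- Constants as integral elements. -/
noncomputable def cstO : fixF s →+* OFx s :=
  (cstF (s := s)).codRestrict (OFx s) fun a => lB_C (a : L)

@[simp] lemma cstO_val (a : fixF s) : ((cstO a : OFx s) : FxSub s) = cstF a := rfl

lemma eval₂_mem {Z K : Type*} [CommSemiring Z] [Field K] (S : Subfield K) (g : Z →+* K)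
    (hg : ∀ z, g z ∈ S) (P : Polynomial Z) {x : K} (hx : x ∈ S) : P.eval₂ g x ∈ S := by
  rw [Polynomial.eval₂_eq_sum_range]
  exact S.sum_mem fun i _ => S.mul_mem (hg _) (S.pow_mem hx i)

/-- One Newton step. -/
lemma newton_step {Z : Type*} [Field Z] (ι : Z →+* fixF s) (R : Subfield (FxSub s))
    (hZ : ∀ z, cstF (ι z) ∈ R) (P : Polynomial Z) {a : fixF s} (ha : P.eval₂ ι a = 0)
    (hsep : P.derivative.eval₂ ι a ≠ 0) {r : FxSub s} (hr : r ∈ R) {k : ℤ} (hk : 1 ≤ k)
    (h : (r.1 - C (a : L)).LB k) : ∃ r' ∈ R, (r'.1 - C (a : L)).LB (k + 1) := by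
  classical
  -- everything takes place in the commutative ring `OFx s`
  set φ : Z →+* OFx s := cstO.comp ι with hφ
  set α : OFx s := cstO a with hα
  have hLB0 : r.1.LB 0 := LB0_of_close (by omega) h
  set ρ : OFx s := ⟨r, hLB0⟩ with hρ
  set y : OFx s := ρ - α with hy
  have hyval : y.1.1 = r.1 - C (a : L) := rfl
  set f : Polynomial (OFx s) := P.map φ with hf
  have hfα : f.eval α = 0 := by
    rw [hf, Polynomial.eval_map, hα, hφ, ← Polynomial.hom_eval₂, ha, map_zero]
  have hρe : α + y = ρ := by rw [hy]; abel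
  obtain ⟨κ, hκ⟩ := f.binomExpansion α y
  obtain ⟨κ', hκ'⟩ := Polynomial.evalSubFactor f.derivative ρ α
  rw [hρe, hfα, zero_add] at hκ
  set c : OFx s := f.derivative.eval α with hc
  have hcval : c = cstO (P.derivative.eval₂ ι a) := by
    rw [hc, hf, Polynomial.derivative_map, Polynomial.eval_map, hα, hφ, ← Polynomial.hom_eval₂]
  set F' : OFx s := f.derivative.eval ρ with hF'
  have hF'e : F' = c + y * κ' := by
    have h1 : F' - c = κ' * y := hκ'
    linear_combination h1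
  set F : OFx s := f.eval ρ with hF
  -- membership in `R`
  have hmem : ∀ Q : Polynomial Z, ((Q.map φ).eval ρ : OFx s).1 ∈ R := by
    intro Q
    have e : ((Q.map φ).eval ρ : OFx s).1 = Q.eval₂ ((OFx s).subtype.comp φ) r := by
      rw [Polynomial.eval_map]
      have := Polynomial.hom_eval₂ Q φ (OFx s).subtype ρ
      simpa using this
    rw [e]
    exact eval₂_mem R _ (fun z => hZ z) Q hr
  have hFmem : F.1 ∈ R := hmem P
  have hF'mem : F'.1 ∈ R := by
    have := hmem P.derivative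
    rwa [← Polynomial.derivative_map] at this
  -- `F'` has valuation zero
  have hF'co : F'.1.1.coeff 0 = ((P.derivative.eval₂ ι a : fixF s) : L) := by
    rw [hF'e, hcval]
    have e : (cstO (P.derivative.eval₂ ι a) + y * κ' : OFx s).1.1 =
        C ((P.derivative.eval₂ ι a : fixF s) : L) + y.1.1 * κ'.1.1 := rfl
    rw [e, coeff_add, C_apply, coeff_mon_self]
    have h2 : (y.1.1 * κ'.1.1).LB (k + 0) := LB.mul (by rw [hyval]; exact h) κ'.2
    rw [h2 0 (by omega), add_zero]
  have hne0 : ((P.derivative.eval₂ ι a : fixF s) : L) ≠ 0 := by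
    intro h0
    exact hsep (Subtype.ext h0)
  have hF'LB : F'.1.1.LB 0 := F'.2
  have hF'inv : F'.1.1⁻¹.LB 0 := by
    have := (coeff_inv_of_LB hF'LB (by rw [hF'co]; exact hne0)).1
    simpa using this
  have hF'ne : F'.1.1 ≠ 0 := by
    intro h0
    rw [h0] at hF'co
    exact hne0 (by simpa using hF'co.symm)
  -- the Newton iterate
  refine ⟨r - F.1 * (F'.1)⁻¹, R.sub_mem hr (R.mul_mem hFmem (R.inv_mem hF'mem)), ?_⟩
  -- algebra in the commutative ring
  have halg : y * F' - F = y * y * (κ' - κ) := by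
    rw [hκ, hF'e]
    ring
  have halg' : y.1.1 * F'.1.1 - F.1.1 = y.1.1 * y.1.1 * (κ'.1.1 - κ.1.1) :=
    congrArg (fun x : OFx s => x.1.1) halg
  have e : (r - F.1 * (F'.1)⁻¹).1 - C (a : L) = (y.1.1 * F'.1.1 - F.1.1) * F'.1.1⁻¹ := by
    have e1 : (r - F.1 * (F'.1)⁻¹).1 = r.1 - F.1.1 * F'.1.1⁻¹ := rfl
    rw [e1, sub_mul, mul_assoc, mul_inv_cancel₀ hF'ne, mul_one, hyval]
    abel
  rw [e, halg']
  have hyLB : y.1.1.LB k := by rw [hyval]; exact h
  have h3 : (y.1.1 * y.1.1 * (κ'.1.1 - κ.1.1) * F'.1.1⁻¹).LB (k + k + 0 + 0) :=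
    LB.mul (LB.mul (LB.mul hyLB hyLB) (LB.sub κ'.2 κ.2)) hF'inv
  refine LB.mono h3 ?_
  omega

/-- Newton's method: a root with a first approximation in `R` is approximable. -/
theorem approx_of_root {Z : Type*} [Field Z] (ι : Z →+* fixF s) (R : Subfield (FxSub s))
    (hZ : ∀ z, cstF (ι z) ∈ R) (P : Polynomial Z) {a : fixF s} (ha : P.eval₂ ι a = 0)
    (hsep : P.derivative.eval₂ ι a ≠ 0) {r0 : FxSub s} (hr : r0 ∈ R)
    (h0 : (r0.1 - C (a : L)).LB 1) : Approx R (a : L) := by
  have key : ∀ n : ℕ, ∃ r ∈ R, (r.1 - C (a : L)).LB ((n : ℤ) + 1) := by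
    intro n
    induction n with
    | zero => exact ⟨r0, hr, by simpa using h0⟩
    | succ n ih =>
      obtain ⟨r, hr', h⟩ := ih
      obtain ⟨r', hr'', h'⟩ := newton_step ι R hZ P ha hsep hr' (by omega) h
      exact ⟨r', hr'', by push_cast; exact h'⟩
  refine Approx.pos fun N hN => ?_
  obtain ⟨r, hr', h⟩ := key N.toNat
  exact ⟨r, hr', LB.mono h (by omega)⟩

end Crest.Agent.Lib.Kurosh.CanonU
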