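import Mathlib

/-!
# Capelli-type alternating polynomials over division rings

`cap z w = ∑_σ sign σ · ∏_i (z (σ i) * w i)` (ordered product).

* `map_cap`: ring homs commute with `cap`.
* `cap_eq_zero_of_finrank_lt`: over a division ring `D`, finite dimensional over its centre, `cap`
  vanishes when `k > finrank`.
* `sandwich`, `cap_ne_zero`: conversely, for `k` centre-independent `z` there are `w` (from any
  spanning set) with `cap z w ≠ 0`.
-/

set_option autoImplicit false

namespace Crest.Agent.Lib.Kurosh.Capelli

open Equiv.Perm

/-- The Capelli-type element. -/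
noncomputable def cap {R : Type*} [Ring R] {k : ℕ} (z w : Fin k → R) : R :=
  ∑ σ : Equiv.Perm (Fin k),
    ((Equiv.Perm.sign σ : ℤ) : R) * (List.ofFn fun i => z (σ i) * w i).prod

theorem map_cap {R S : Type*} [Ring R] [Ring S] (f : R →+* S) {k : ℕ} (z w : Fin k → R) :
    f (cap z w) = cap (fun i => f (z i)) (fun i => f (w i)) := by
  unfold cap
  rw [map_sum]
  refine Finset.sum_congr rfl fun σ _ => ?_
  rw [map_mul, map_intCast, map_list_prod]
  congr 2
  simp [List.map_ofFn, Function.comp_def]

section Vanish

variable {D : Type*} [DivisionRing D]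

/-- `cap` vanishes for more vectors than the dimension over the centre. -/
theorem cap_eq_zero_of_finrank_lt [FiniteDimensional (Subring.center D) D] {k : ℕ}
    (hk : Module.finrank (Subring.center D) D < k) (z w : Fin k → D) : cap z w = 0 := by
  classical
  let m : MultilinearMap (Subring.center D) (fun _ : Fin k => D) D :=
    (MultilinearMap.mkPiAlgebraFin (Subring.center D) k D).compLinearMap
      (fun i => LinearMap.mulRight (Subring.center D) (w i))
  have hm : ∀ v : Fin k → D, m v = (List.ofFn fun i => v i * w i).prod := by
    intro v
    simp [m, MultilinearMap.compLinearMap_apply, MultilinearMap.mkPiAlgebraFin_apply]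
  have hdep : ¬ LinearIndependent (Subring.center D) z := by
    intro h
    have := h.fintype_card_le_finrank
    simp at this
    omega
  have h0 := (m.alternatization).map_linearDependent z hdep
  rw [MultilinearMap.alternatization_apply] at h0
  have : cap z w = ∑ σ : Equiv.Perm (Fin k), Equiv.Perm.sign σ • (m.domDomCongr σ) z := by
    unfold cap
    refine Finset.sum_congr rfl fun σ _ => ?_
    rw [MultilinearMap.domDomCongr_apply, hm, Units.smul_def, zsmul_eq_mul]
  rw [this, h0]

end Vanish

section Sandwich

variable {E : Type*} [DivisionRing E]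

theorem smul_center_def (g : Subring.center E) (x : E) : g • x = (g : E) * x := rfl

/-- Sandwich lemma: if the `b i` are independent over the centre and `∑ b i * y * a i = 0` for all
`y`, then all `a i` vanish. -/
theorem sandwich {ι : Type*} (b : ι → E) (hb : LinearIndependent (Subring.center E) b) :
    ∀ (s : Finset ι) (a : ι → E), (∀ y : E, ∑ i ∈ s, b i * y * a i = 0) → ∀ i ∈ s, a i = 0 := by
  classical
  intro s
  induction s using Finset.strongInduction with
  | H s ih =>
    intro a h
    by_contra hne
    push Not at hne
    obtain ⟨i0, hi0, hai0⟩ := hne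
    -- normalise `a i0 = 1`
    set a' : ι → E := fun i => a i * (a i0)⁻¹ with ha'
    have ha'0 : a' i0 = 1 := by simp [ha', hai0]
    have h' : ∀ y : E, ∑ i ∈ s, b i * y * a' i = 0 := by
      intro y
      have := congrArg (· * (a i0)⁻¹) (h y)
      simp only [Finset.sum_mul, zero_mul] at this
      simpa [ha', mul_assoc] using this
    -- commutators
    have hcomm : ∀ t : E, ∀ i ∈ s.erase i0, t * a' i - a' i * t = 0 := by
      intro t
      let c : ι → E := fun i => t * a' i - a' i * t
      have hc : ∀ y : E, ∑ i ∈ s.erase i0, b i * y * c i = 0 := by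
        intro y
        have h1 := h' (y * t)
        have h2 := congrArg (· * t) (h' y)
        simp only [Finset.sum_mul, zero_mul] at h2
        have h3 : ∑ i ∈ s, b i * y * c i = 0 := by
          have : ∑ i ∈ s, b i * y * c i =
              ∑ i ∈ s, b i * (y * t) * a' i - ∑ i ∈ s, b i * y * a' i * t := by
            rw [← Finset.sum_sub_distrib]
            refine Finset.sum_congr rfl fun i _ => ?_
            simp only [c]
            noncomm_ring
          rw [this, h1, h2, sub_zero]
        rw [← Finset.add_sum_erase s _ hi0] at h3
        have hc0 : c i0 = 0 := by simp [c, ha'0]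
        simpa [hc0] using h3
      have := ih (s.erase i0) (Finset.erase_ssubset hi0) c hc
      intro i hi
      exact this i hi
    -- central
    have hcentral : ∀ i ∈ s, a' i ∈ Subring.center E := by
      intro i hi
      rw [Subring.mem_center_iff]
      intro g
      by_cases hii : i = i0
      · subst hii; simp [ha'0]
      · have := hcomm g i (Finset.mem_erase.2 ⟨hii, hi⟩)
        exact sub_eq_zero.1 this
    -- linear relation
    let g : ι → Subring.center E := fun i =>
      if hi : i ∈ s then ⟨a' i, hcentral i hi⟩ else 0
    have hrel : ∑ i ∈ s, g i • b i = 0 := by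
      have := h' 1
      rw [← this]
      refine Finset.sum_congr rfl fun i hi => ?_
      rw [smul_center_def]
      simp only [g, dif_pos hi, mul_one]
      exact (Subring.mem_center_iff.1 (hcentral i hi) (b i)).symm
    have hg0 := (linearIndependent_iff'.1 hb) s g hrel i0 hi0
    have : (g i0 : E) = 1 := by simp [g, dif_pos hi0, ha'0]
    rw [hg0] at this
    simp at this

/-- Spanning-set version of the sandwich lemma. -/
theorem sandwich_of_span {ι : Type*} (b : ι → E) (hb : LinearIndependent (Subring.center E) b)
    (S : Set E) (hS : Submodule.span (Subring.center E) S = ⊤)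
    (s : Finset ι) (a : ι → E) (h : ∀ y ∈ S, ∑ i ∈ s, b i * y * a i = 0) :
    ∀ i ∈ s, a i = 0 := by
  refine sandwich b hb s a fun y => ?_
  have hy : y ∈ Submodule.span (Subring.center E) S := by rw [hS]; trivial
  induction hy using Submodule.span_induction with
  | mem x hx => exact h x hx
  | zero => simp
  | add x y _ _ hx hy =>
    simp only [mul_add, add_mul, Finset.sum_add_distrib, hx, hy, add_zero]
  | smul c x _ hx =>
    have : ∀ i, b i * (c • x) * a i = (c : E) * (b i * x * a i) := by
      intro i
      rw [smul_center_def]
      have hc := Subring.mem_center_iff.1 c.2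
      rw [← mul_assoc, ← mul_assoc, ← mul_assoc, hc (b i)]
    simp only [this, ← Finset.mul_sum, hx, mul_zero]

/-- Capelli non-vanishing. -/
theorem cap_ne_zero (S : Set E) (hS : Submodule.span (Subring.center E) S = ⊤) :
    ∀ (k : ℕ) (z : Fin k → E), LinearIndependent (Subring.center E) z →
      ∃ w : Fin k → E, (∀ i, w i ∈ S) ∧ cap z w ≠ 0 := by
  classical
  intro k
  induction k with
  | zero =>
    intro z _
    refine ⟨fun i => i.elim0, fun i => i.elim0, ?_⟩
    simp [cap]
  | succ k ih =>
    intro z hz
    have hz' : LinearIndependent (Subring.center E) (fun i : Fin k => z i.succ) :=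
      hz.comp _ (Fin.succ_injective k)
    obtain ⟨w', hw', hne⟩ := ih _ hz'
    -- expansion along position zero
    let B : Fin (k + 1) → E := fun p =>
      ∑ e : Equiv.Perm (Fin k),
        ((Equiv.Perm.sign (Equiv.Perm.decomposeFin.symm (p, e)) : ℤ) : E) *
          (List.ofFn fun i : Fin k =>
            z (Equiv.swap 0 p (e i).succ) * w' i).prod
    have hexp : ∀ y : E, cap z (Fin.cons y w') = ∑ p, z p * y * B p := by
      intro y
      unfold cap
      rw [Finset.univ_perm_fin_succ, ← Finset.univ_product_univ]
      simp only [Finset.sum_map, Equiv.toEmbedding_apply, Finset.sum_product]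
      refine Finset.sum_congr rfl fun p _ => ?_
      simp only [B, Finset.mul_sum]
      refine Finset.sum_congr rfl fun e _ => ?_
      rw [List.ofFn_succ, List.prod_cons]
      simp only [Equiv.Perm.decomposeFin_symm_apply_zero, Equiv.Perm.decomposeFin_symm_apply_succ,
        Fin.cons_zero, Fin.cons_succ]
      have hcomm : ∀ x : E, (((Equiv.Perm.sign (Equiv.Perm.decomposeFin.symm (p, e)) : ℤ)) : E) * x
          = x * ((Equiv.Perm.sign (Equiv.Perm.decomposeFin.symm (p, e)) : ℤ) : E) := fun x =>
        (Int.cast_commute _ x)
      rw [hcomm (z p * y * _), hcomm (List.prod _), mul_assoc]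
    by_contra hcon
    push Not at hcon
    have hall : ∀ y ∈ S, ∑ p ∈ Finset.univ, z p * y * B p = 0 := by
      intro y hy
      rw [← hexp]
      refine hcon _ ?_
      intro i
      refine Fin.cases ?_ (fun j => ?_) i
      · simpa using hy
      · simpa using hw' j
    have hB0 := sandwich_of_span z hz S hS Finset.univ B hall 0 (Finset.mem_univ _)
    apply hne
    have : cap (fun i : Fin k => z i.succ) w' = B 0 := by
      simp only [B, cap]
      refine Finset.sum_congr rfl fun e _ => ?_
      rw [Equiv.Perm.decomposeFin.symm_sign]
      simp
    rw [this, hB0]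

end Sandwich

end Crest.Agent.Lib.Kurosh.Capelli
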