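import Mathlib
import Crest.Agent.Lib.Kurosh.Capelli

/-!
# Abstract assembly for S0270 (Section 7 of BLUEPRINT.md)

A `StageSystem` is an abstract family of stages `S`, with a division ring `E S` finite dimensional over
its centre, a ring `G S` (in the application: noncommutative power series over `E S`), constants
`C : E S →+* G S` (central constants are central), a constant-term map `ct : G S →+* E S`,
and two elements `Φ S i` of `G S` whose constant terms generate `E S` over its centre.

A `Move S S'` consists of compatible ring homs `ι : E S →+* E S'`, `Ψ : G S →+* G S'` and the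
*reduction* property: a word polynomial with central coefficients which vanishes at `(q', ι z)`
vanishes at `(q, z)`.

`assembly`: if every element `b` of `G S` can be frozen by a move (its image is conjugate to a
constant) with the dimension over the centre strictly increasing, then the S0270 division ring
exists.
-/

set_option autoImplicit false

namespace Crest.Agent.Lib.Kurosh.AssemblyAbs

open Crest.Agent.Lib.Kurosh.Capelli

universe u

/-- Names of central coefficients. -/
abbrev Names := ℕ × ℕ

/-- Letters of the universal term algebra: two variables and the names of the coefficients. -/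
abbrev Letters := Fin 2 ⊕ Names

/-- The universal term algebra. -/
abbrev T := FreeAlgebra ℤ Letters

/-- Abstract system of stages. -/
structure StageSystem where
  Stage : Type u
  E : Stage → Type
  [divE : ∀ S, DivisionRing (E S)]
  [charE : ∀ S, CharZero (E S)]
  [fdE : ∀ S, FiniteDimensional (Subring.center (E S)) (E S)]
  G : Stage → Type
  [ringG : ∀ S, Ring (G S)]
  C : ∀ S, E S →+* G S
  ct : ∀ S, G S →+* E S
  ct_C : ∀ S e, ct S (C S e) = e
  C_central : ∀ S (z : E S), z ∈ Subring.center (E S) → ∀ g, C S z * g = g * C S z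
  Φ : ∀ S, Fin 2 → G S
  gen : ∀ S, Algebra.adjoin (Subring.center (E S)) (Set.range fun i => ct S (Φ S i)) = ⊤

attribute [instance] StageSystem.divE StageSystem.charE StageSystem.fdE StageSystem.ringG

variable (Sys : StageSystem.{u})

namespace StageSystem

/-- The constant terms. -/
def q (S : Sys.Stage) (i : Fin 2) : Sys.E S := Sys.ct S (Sys.Φ S i)

/-- Evaluation of terms in `E S`: variables at `q`, names at `v`. -/
noncomputable def ev (S : Sys.Stage) (v : Names → Subring.center (Sys.E S)) : T →ₐ[ℤ] Sys.E S :=
  FreeAlgebra.lift ℤ (Sum.elim (Sys.q S) (fun n => (v n : Sys.E S)))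

/-- Generic evaluation of terms in `G S`: variables at `Φ`, names at constants `C (v n)`. -/
noncomputable def genT (S : Sys.Stage) (v : Names → Subring.center (Sys.E S)) : T →ₐ[ℤ] Sys.G S :=
  FreeAlgebra.lift ℤ (Sum.elim (Sys.Φ S) (fun n => Sys.C S (v n)))

theorem ct_genT (S : Sys.Stage) (v : Names → Subring.center (Sys.E S)) (a : T) :
    Sys.ct S (Sys.genT S v a) = Sys.ev S v a := by
  have : ((Sys.ct S).toIntAlgHom.comp (Sys.genT S v)) = Sys.ev S v := by
    apply FreeAlgebra.hom_ext
    funext x
    cases x with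
    | inl i => simp [genT, ev, q]
    | inr n => simp [genT, ev, Sys.ct_C]
  exact DFunLike.congr_fun this a

end StageSystem

/-- A move between two stages. -/
structure Move (S S' : Sys.Stage) where
  ι : Sys.E S →+* Sys.E S'
  Ψ : Sys.G S →+* Sys.G S'
  Ψ_C : ∀ e, Ψ (Sys.C S e) = Sys.C S' (ι e)
  Ψ_Φ : ∀ i, Ψ (Sys.Φ S i) = Sys.Φ S' i
  ι_center : ∀ z ∈ Subring.center (Sys.E S), ι z ∈ Subring.center (Sys.E S')
  reduction : ∀ (v : Names → Subring.center (Sys.E S)) (v' : Names → Subring.center (Sys.E S'))
    (_ : ∀ n, (v' n : Sys.E S') = ι (v n)) (a : T), Sys.ev S' v' a = 0 → Sys.ev S v a = 0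

variable {Sys} in
/-- Composition of moves. -/
def Move.comp {S S' S'' : Sys.Stage} (m₂ : Move Sys S' S'') (m₁ : Move Sys S S') :
    Move Sys S S'' where
  ι := m₂.ι.comp m₁.ι
  Ψ := m₂.Ψ.comp m₁.Ψ
  Ψ_C e := by simp [m₁.Ψ_C, m₂.Ψ_C]
  Ψ_Φ i := by simp [m₁.Ψ_Φ, m₂.Ψ_Φ]
  ι_center z hz := m₂.ι_center _ (m₁.ι_center z hz)
  reduction v v'' hv a h := by
    refine m₁.reduction v (fun n => ⟨m₁.ι (v n), m₁.ι_center _ (v n).2⟩) (fun _ => rfl) a ?_
    exact m₂.reduction _ v'' (fun n => hv n) a h

variable {Sys} in
/-- The identity move. -/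
def Move.id (S : Sys.Stage) : Move Sys S S where
  ι := RingHom.id _
  Ψ := RingHom.id _
  Ψ_C _ := rfl
  Ψ_Φ _ := rfl
  ι_center _ hz := hz
  reduction v v' hv a h := by
    have : v' = v := funext fun n => Subtype.ext (hv n)
    rwa [this] at h

/-- Reduction from a graph subring (residue map). -/
theorem reduction_of_graph {S S' : Sys.Stage} (ι : Sys.E S →+* Sys.E S')
    (R : Subring (Sys.E S' × Sys.E S))
    (hq : ∀ i, (Sys.q S' i, Sys.q S i) ∈ R)
    (hz : ∀ z ∈ Subring.center (Sys.E S), (ι z, z) ∈ R)
    (hfun : ∀ x, ((0 : Sys.E S'), x) ∈ R → x = 0)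
    (v : Names → Subring.center (Sys.E S)) (v' : Names → Subring.center (Sys.E S'))
    (hv : ∀ n, (v' n : Sys.E S') = ι (v n)) (a : T)
    (h : Sys.ev S' v' a = 0) : Sys.ev S v a = 0 := by
  have key : ∀ a : T, (Sys.ev S' v' a, Sys.ev S v a) ∈ R := by
    intro a
    induction a using FreeAlgebra.induction with
    | grade0 r =>
      have h1 := intCast_mem R r
      have e : ((r : Sys.E S' × Sys.E S)) = ((r : Sys.E S'), (r : Sys.E S)) := by
        ext <;> simp
      rw [e] at h1
      simpa [AlgHom.commutes] using h1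
    | grade1 x =>
      cases x with
      | inl i => simpa [StageSystem.ev] using hq i
      | inr n =>
        have := hz (v n) (v n).2
        simpa [StageSystem.ev, hv] using this
    | mul a b ha hb =>
      have := R.mul_mem ha hb
      simpa [map_mul] using this
    | add a b ha hb =>
      have := R.add_mem ha hb
      simpa [map_add] using this
  have := key a
  rw [h] at this
  exact hfun _ this

/-- The freeze hypothesis. -/
def Freezes : Prop :=
  ∀ (S : Sys.Stage) (b : Sys.G S), ∃ (S' : Sys.Stage) (m : Move Sys S S'),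
    Module.finrank (Subring.center (Sys.E S)) (Sys.E S) <
      Module.finrank (Subring.center (Sys.E S')) (Sys.E S') ∧
    ∃ (U U' : Sys.G S') (μ : Sys.E S'), U * U' = 1 ∧ U' * U = 1 ∧
      U * m.Ψ b * U' = Sys.C S' μ

/-! ### Low terms -/

/-- Letters allowed at stage `n`: variables and names `(t,i)` with `t < n`. -/
def LowLetter (n : ℕ) : Letters → Prop
  | Sum.inl _ => True
  | Sum.inr x => x.1 < n

theorem LowLetter.mono {n m : ℕ} (h : n ≤ m) {x : Letters} (hx : LowLetter n x) :
    LowLetter m x := by
  cases x with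
  | inl i => trivial
  | inr y => exact lt_of_lt_of_le hx h

/-- Terms that only use letters allowed at stage `n`. -/
def Tn (n : ℕ) : Subalgebra ℤ T :=
  Algebra.adjoin ℤ (FreeAlgebra.ι ℤ '' {x | LowLetter n x})

theorem Tn_mono {n m : ℕ} (h : n ≤ m) : Tn n ≤ Tn m :=
  Algebra.adjoin_mono (Set.image_mono fun _ hx => LowLetter.mono h hx)

theorem exists_Tn (a : T) : ∃ n, a ∈ Tn n := by
  induction a using FreeAlgebra.induction with
  | grade0 r => exact ⟨0, (Tn 0).algebraMap_mem r⟩
  | grade1 x =>
    cases x with
    | inl i => exact ⟨0, Algebra.subset_adjoin ⟨Sum.inl i, trivial, rfl⟩⟩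
    | inr y =>
      refine ⟨y.1 + 1, Algebra.subset_adjoin ⟨Sum.inr y, ?_, rfl⟩⟩
      exact Nat.lt_succ_self _
  | mul a b ha hb =>
    obtain ⟨n, hn⟩ := ha
    obtain ⟨m, hm⟩ := hb
    exact ⟨max n m, (Tn (max n m)).mul_mem (Tn_mono (le_max_left _ _) hn)
      (Tn_mono (le_max_right _ _) hm)⟩
  | add a b ha hb =>
    obtain ⟨n, hn⟩ := ha
    obtain ⟨m, hm⟩ := hb
    exact ⟨max n m, (Tn (max n m)).add_mem (Tn_mono (le_max_left _ _) hn)
      (Tn_mono (le_max_right _ _) hm)⟩

/-- Two algebra homs from `T` which agree on low letters agree on low terms. -/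
theorem eq_on_Tn {A : Type*} [Ring A] (f g : T →ₐ[ℤ] A) (n : ℕ)
    (h : ∀ x, LowLetter n x → f (FreeAlgebra.ι ℤ x) = g (FreeAlgebra.ι ℤ x)) {a : T}
    (ha : a ∈ Tn n) : f a = g a := by
  have : Tn n ≤ AlgHom.equalizer f g := by
    unfold Tn
    rw [Algebra.adjoin_le_iff]
    rintro _ ⟨x, hx, rfl⟩
    exact h x hx
  exact this ha

/-! ### The tower -/

/-- A state: a stage together with the values of the names. -/
abbrev State : Type u := Σ S : Sys.Stage, (Names → Subring.center (Sys.E S))

variable {Sys}

/-- The image of a central element under a move. -/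
def Move.ιc {S S' : Sys.Stage} (m : Move Sys S S') (z : Subring.center (Sys.E S)) :
    Subring.center (Sys.E S') := ⟨m.ι z, m.ι_center z z.2⟩

/-- New values of names after step `n`, with `P` the new polynomial. -/
noncomputable def newVal {S S' : Sys.Stage} (n : ℕ) (m : Move Sys S S')
    (v : Names → Subring.center (Sys.E S))
    (P : Polynomial (Subring.center (Sys.E S'))) : Names → Subring.center (Sys.E S') :=
  fun x =>
    if x.1 < n then m.ιc (v x)
    else if x.1 = n then
      (match x.2 with
        | 0 => (P.coeff 0)⁻¹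
        | j + 1 => P.coeff j)
    else 0

/-- What one step of the tower achieves, for the term `a`, at index `n`. -/
def StepFacts (n : ℕ) (a : T) (st st' : State Sys) : Prop :=
  ∃ m : Move Sys st.1 st'.1,
    Module.finrank (Subring.center (Sys.E st.1)) (Sys.E st.1) <
      Module.finrank (Subring.center (Sys.E st'.1)) (Sys.E st'.1) ∧
    ∃ (U U' : Sys.G st'.1) (μ : Sys.E st'.1), U * U' = 1 ∧ U' * U = 1 ∧
      U * m.Ψ (Sys.genT st.1 st.2 a) * U' = Sys.C st'.1 μ ∧
      st'.2 = newVal n m st.2 (minpoly (Subring.center (Sys.E st'.1)) μ)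

theorem exists_step (hF : Freezes Sys) (n : ℕ) (a : T) (st : State Sys) :
    ∃ st', StepFacts n a st st' := by
  obtain ⟨S', m, hdim, U, U', μ, h1, h2, h3⟩ := hF st.1 (Sys.genT st.1 st.2 a)
  exact ⟨⟨S', newVal n m st.2 (minpoly _ μ)⟩, m, hdim, U, U', μ, h1, h2, h3, rfl⟩

section Tower

variable (hF : Freezes Sys) (init : Sys.Stage) (sched : ℕ → T)

/-- The tower of states. -/
noncomputable def tower : ℕ → State Sys
  | 0 => ⟨init, fun _ => 0⟩
  | n + 1 => Classical.choose (exists_step hF n (sched n) (tower n))

theorem tower_spec (n : ℕ) :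
    StepFacts n (sched n) (tower hF init sched n) (tower hF init sched (n + 1)) :=
  Classical.choose_spec (exists_step hF n (sched n) (tower hF init sched n))

/-- Stage-`n` evaluation. -/
noncomputable def evn (n : ℕ) : T →ₐ[ℤ] Sys.E (tower hF init sched n).1 :=
  Sys.ev (tower hF init sched n).1 (tower hF init sched n).2

/-- Stage-`n` generic evaluation. -/
noncomputable def genn (n : ℕ) : T →ₐ[ℤ] Sys.G (tower hF init sched n).1 :=
  Sys.genT (tower hF init sched n).1 (tower hF init sched n).2

theorem ct_genn (n : ℕ) (a : T) :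
    Sys.ct _ (genn hF init sched n a) = evn hF init sched n a :=
  Sys.ct_genT _ _ a

variable {hF init sched}

/-- Ψ commutes with generic evaluation on low terms. -/
theorem Psi_genT {S S' : Sys.Stage} (m : Move Sys S S') (n : ℕ)
    (v : Names → Subring.center (Sys.E S)) (P : Polynomial (Subring.center (Sys.E S')))
    {a : T} (ha : a ∈ Tn n) :
    m.Ψ (Sys.genT S v a) = Sys.genT S' (newVal n m v P) a := by
  let f : T →ₐ[ℤ] Sys.G S' := (m.Ψ.toIntAlgHom).comp (Sys.genT S v)
  have := eq_on_Tn f (Sys.genT S' (newVal n m v P)) n ?_ ha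
  · exact this
  · intro x hx
    cases x with
    | inl i => simp [f, StageSystem.genT, m.Ψ_Φ]
    | inr y =>
      have hy : y.1 < n := hx
      simp [f, StageSystem.genT, m.Ψ_C, newVal, hy, Move.ιc]

/-- Reduction in the tower. -/
theorem reduction_step {S S' : Sys.Stage} (m : Move Sys S S') (n : ℕ)
    (v : Names → Subring.center (Sys.E S)) (P : Polynomial (Subring.center (Sys.E S')))
    {a : T} (ha : a ∈ Tn n) (h : Sys.ev S' (newVal n m v P) a = 0) : Sys.ev S v a = 0 := by
  have e : Sys.ev S' (newVal n m v P) a = Sys.ev S' (fun x => m.ιc (v x)) a := by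
    refine eq_on_Tn _ _ n ?_ ha
    intro x hx
    cases x with
    | inl i => simp [StageSystem.ev]
    | inr y =>
      have hy : y.1 < n := hx
      simp [StageSystem.ev, newVal, hy]
  rw [e] at h
  exact m.reduction v _ (fun _ => rfl) a h

theorem evn_succ_eq_zero {n : ℕ} {a : T} (ha : a ∈ Tn n)
    (h : evn hF init sched (n + 1) a = 0) : evn hF init sched n a = 0 := by
  obtain ⟨m, -, U, U', μ, -, -, -, hv⟩ := tower_spec hF init sched n
  unfold evn at h ⊢
  rw [hv] at h
  exact reduction_step m n _ _ ha h

theorem genn_succ_eq_zero {n : ℕ} {a : T} (ha : a ∈ Tn n)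
    (h : genn hF init sched n a = 0) : genn hF init sched (n + 1) a = 0 := by
  obtain ⟨m, -, U, U', μ, -, -, -, hv⟩ := tower_spec hF init sched n
  unfold genn at h ⊢
  rw [hv, ← Psi_genT m n _ _ ha, h, map_zero]

/-- Downward vanishing: kernels shrink. -/
theorem evn_down {n k : ℕ} {a : T} (ha : a ∈ Tn n) (h : evn hF init sched (n + k) a = 0) :
    evn hF init sched n a = 0 := by
  induction k with
  | zero => simpa using h
  | succ k ih =>
    apply ih
    have : a ∈ Tn (n + k) := Tn_mono (Nat.le_add_right _ _) ha
    exact evn_succ_eq_zero this h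

/-- Generic identities persist. -/
theorem genn_up {n k : ℕ} {a : T} (ha : a ∈ Tn n) (h : genn hF init sched n a = 0) :
    genn hF init sched (n + k) a = 0 := by
  induction k with
  | zero => simpa using h
  | succ k ih =>
    have : a ∈ Tn (n + k) := Tn_mono (Nat.le_add_right _ _) ha
    exact genn_succ_eq_zero this ih

theorem finrank_lt_succ (n : ℕ) :
    Module.finrank (Subring.center (Sys.E (tower hF init sched n).1)) (Sys.E (tower hF init sched n).1) <
      Module.finrank (Subring.center (Sys.E (tower hF init sched (n + 1)).1))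
        (Sys.E (tower hF init sched (n + 1)).1) := by
  obtain ⟨m, h, -⟩ := tower_spec hF init sched n
  exact h

theorem le_finrank (n : ℕ) :
    n ≤ Module.finrank (Subring.center (Sys.E (tower hF init sched n).1))
      (Sys.E (tower hF init sched n).1) := by
  induction n with
  | zero => exact Nat.zero_le _
  | succ n ih =>
    have := finrank_lt_succ (hF := hF) (init := init) (sched := sched) n
    omega

/-! ### The quotient -/

variable (hF init sched)

/-- Eventual equality in the tower. -/
def con : RingCon T where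
  r a b := ∀ᶠ n in Filter.atTop, evn hF init sched n a = evn hF init sched n b
  iseqv :=
    { refl := fun _ => Filter.Eventually.of_forall fun _ => rfl
      symm := fun h => h.mono fun _ h => h.symm
      trans := fun h₁ h₂ => by
        filter_upwards [h₁, h₂] with n h₁ h₂
        exact h₁.trans h₂ }
  mul' := fun {a b c d} h₁ h₂ => by
    filter_upwards [h₁, h₂] with n h₁ h₂
    rw [map_mul, map_mul, h₁, h₂]
  add' := fun {a b c d} h₁ h₂ => by
    filter_upwards [h₁, h₂] with n h₁ h₂
    rw [map_add, map_add, h₁, h₂]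

/-- The quotient map. -/
noncomputable def pi : T →+* (con hF init sched).Quotient := (con hF init sched).mk'

variable {hF init sched}

theorem pi_eq {a b : T} : pi hF init sched a = pi hF init sched b ↔
    ∀ᶠ n in Filter.atTop, evn hF init sched n a = evn hF init sched n b :=
  RingCon.eq (con hF init sched)

theorem pi_surjective : Function.Surjective (pi hF init sched) := by
  intro x
  induction x using Quotient.inductionOn' with
  | h a => exact ⟨a, rfl⟩

theorem pi_eq_zero {a : T} : pi hF init sched a = 0 ↔
    ∀ᶠ n in Filter.atTop, evn hF init sched n a = 0 := by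
  rw [← map_zero (pi hF init sched), pi_eq]
  simp

theorem pi_eq_zero_of_genn {n : ℕ} {a : T} (ha : a ∈ Tn n) (h : genn hF init sched n a = 0) :
    pi hF init sched a = 0 := by
  rw [pi_eq_zero, Filter.eventually_atTop]
  refine ⟨n, fun m hm => ?_⟩
  obtain ⟨k, rfl⟩ := Nat.exists_eq_add_of_le hm
  rw [← ct_genn, genn_up ha h, map_zero]

/-- Nonzero classes are eventually nonzero. -/
theorem eventually_ne_of_pi_ne {a : T} (h : pi hF init sched a ≠ 0) :
    ∀ᶠ n in Filter.atTop, evn hF init sched n a ≠ 0 := by
  obtain ⟨n0, hn0⟩ := exists_Tn a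
  rw [Ne, pi_eq_zero, Filter.not_eventually, Filter.frequently_atTop] at h
  obtain ⟨n, hn, hne⟩ := h n0
  rw [Filter.eventually_atTop]
  refine ⟨n, fun m hm hm0 => ?_⟩
  obtain ⟨k, rfl⟩ := Nat.exists_eq_add_of_le hm
  exact hne (evn_down (Tn_mono hn hn0) hm0)

/-- The quotient has no zero divisors. -/
theorem pi_mul_eq_zero {a b : T} (h : pi hF init sched a * pi hF init sched b = 0) :
    pi hF init sched a = 0 ∨ pi hF init sched b = 0 := by
  by_contra hcon
  rw [not_or] at hcon
  rw [← map_mul, pi_eq_zero] at h
  have h1 := eventually_ne_of_pi_ne hcon.1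
  have h2 := eventually_ne_of_pi_ne hcon.2
  obtain ⟨n, hn1, hn2, hn3⟩ := (h1.and (h2.and h)).exists
  rw [map_mul] at hn3
  exact (mul_ne_zero hn1 hn2) hn3

theorem pi_nontrivial : pi hF init sched 1 ≠ pi hF init sched 0 := by
  rw [map_zero, Ne, pi_eq_zero]
  intro h
  obtain ⟨n, hn⟩ := h.exists
  rw [map_one] at hn
  exact one_ne_zero hn

/-- A name as an element of the term algebra. -/
noncomputable def nm (y : Names) : T := FreeAlgebra.ι ℤ (Sum.inr y)

theorem nm_mem_Tn {n : ℕ} {y : Names} (h : y.1 < n) : nm y ∈ Tn n :=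
  Algebra.subset_adjoin ⟨Sum.inr y, h, rfl⟩

theorem evn_nm_mem_center (n : ℕ) (y : Names) :
    evn hF init sched n (nm y) ∈ Subring.center (Sys.E (tower hF init sched n).1) := by
  have : evn hF init sched n (nm y) = (((tower hF init sched n).2 y : _) : Sys.E _) := by
    simp [evn, nm, StageSystem.ev]
  rw [this]
  exact ((tower hF init sched n).2 y).2

/-- Names are central in the quotient. -/
theorem nm_central (y : Names) (x : (con hF init sched).Quotient) :
    pi hF init sched (nm y) * x = x * pi hF init sched (nm y) := by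
  obtain ⟨a, rfl⟩ := pi_surjective x
  rw [← map_mul, ← map_mul, pi_eq]
  refine Filter.Eventually.of_forall fun n => ?_
  rw [map_mul, map_mul]
  exact (Subring.mem_center_iff.1 (evn_nm_mem_center n y) _).symm

/-- Algebra of conjugation by a unit with central constants. -/
theorem sum_conj_eq_zero {S : Sys.Stage} (g U U' : Sys.G S) (μ : Sys.E S) (hU : U * U' = 1)
    (hU' : U' * U = 1) (hg : U * g * U' = Sys.C S μ) (P : Polynomial (Subring.center (Sys.E S)))
    (hP : Polynomial.aeval μ P = 0) :
    ∑ j ∈ Finset.range (P.natDegree + 1), Sys.C S (P.coeff j) * g ^ j = 0 := by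
  have hg' : g = U' * Sys.C S μ * U := by
    rw [← hg]
    calc g = (U' * U) * g * (U' * U) := by rw [hU']; simp
      _ = U' * (U * g * U') * U := by noncomm_ring
  have hpow : ∀ j : ℕ, g ^ j = U' * Sys.C S (μ ^ j) * U := by
    intro j
    induction j with
    | zero => simp [hU']
    | succ j ih =>
      rw [pow_succ, ih, map_pow, map_pow]
      rw [hg']
      calc U' * Sys.C S μ ^ j * U * (U' * Sys.C S μ * U)
          = U' * Sys.C S μ ^ j * (U * U') * Sys.C S μ * U := by noncomm_ring
        _ = U' * Sys.C S μ ^ (j + 1) * U := by rw [hU]; simp [pow_succ, mul_assoc]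
  have hterm : ∀ j, Sys.C S (P.coeff j) * g ^ j = U' * Sys.C S (P.coeff j • μ ^ j) * U := by
    intro j
    rw [hpow j]
    calc Sys.C S (P.coeff j) * (U' * Sys.C S (μ ^ j) * U)
        = (Sys.C S (P.coeff j) * U') * Sys.C S (μ ^ j) * U := by simp only [mul_assoc]
      _ = (U' * Sys.C S (P.coeff j)) * Sys.C S (μ ^ j) * U := by
          rw [Sys.C_central S _ (P.coeff j).2 U']
      _ = U' * (Sys.C S (P.coeff j) * Sys.C S (μ ^ j)) * U := by simp only [mul_assoc]
      _ = U' * Sys.C S (P.coeff j • μ ^ j) * U := by rw [← map_mul]; rfl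
  rw [Finset.sum_congr rfl fun j _ => hterm j, ← Finset.sum_mul, ← Finset.mul_sum, ← map_sum,
    ← Polynomial.aeval_eq_sum_range, hP]
  simp

/-- The result of handling a nonzero class: a monic central relation with invertible constant
coefficient. -/
theorem exists_relation (hsched : ∀ (a : T) (N : ℕ), ∃ n, N ≤ n ∧ sched n = a) {a : T}
    (h : pi hF init sched a ≠ 0) :
    ∃ (deg : ℕ) (c : ℕ → T) (d : T), 0 < deg ∧
      (∀ j, ∀ x, pi hF init sched (c j) * x = x * pi hF init sched (c j)) ∧
      (∀ x, pi hF init sched d * x = x * pi hF init sched d) ∧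
      pi hF init sched (c deg) = 1 ∧
      pi hF init sched d * pi hF init sched (c 0) = 1 ∧
      ∑ j ∈ Finset.range (deg + 1), pi hF init sched (c j) * pi hF init sched a ^ j = 0 := by
  classical
  obtain ⟨n0, hn0⟩ := exists_Tn a
  obtain ⟨n, hn, hna⟩ := hsched a n0
  have haT : a ∈ Tn n := Tn_mono hn hn0
  have haT' : a ∈ Tn (n + 1) := Tn_mono (Nat.le_succ n) haT
  obtain ⟨m, -, U, U', μ, hU, hU', hUg, hv⟩ := tower_spec hF init sched n
  rw [hna] at hUg
  set P := minpoly (Subring.center (Sys.E (tower hF init sched (n + 1)).1)) μ with hP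
  have hg : m.Ψ (Sys.genT _ (tower hF init sched n).2 a) = genn hF init sched (n + 1) a := by
    unfold genn
    rw [hv]
    exact Psi_genT m n _ _ haT
  rw [hg] at hUg
  have hμ : μ ≠ 0 := by
    rintro rfl
    rw [map_zero] at hUg
    apply h
    refine pi_eq_zero_of_genn haT' ?_
    calc genn hF init sched (n + 1) a
        = (U' * U) * genn hF init sched (n + 1) a * (U' * U) := by rw [hU']; simp
      _ = U' * (U * genn hF init sched (n + 1) a * U') * U := by noncomm_ring
      _ = 0 := by rw [hUg]; simp
  have hint : IsIntegral (Subring.center (Sys.E (tower hF init sched (n + 1)).1)) μ :=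
    Algebra.IsIntegral.isIntegral μ
  have hmonic : P.Monic := minpoly.monic hint
  have hdeg : 0 < P.natDegree := minpoly.natDegree_pos hint
  have hc0 : P.coeff 0 ≠ 0 := minpoly.coeff_zero_ne_zero hint hμ
  have hroot : Polynomial.aeval μ P = 0 := minpoly.aeval _ _
  -- values of the new names
  have hval_coeff : ∀ j, (tower hF init sched (n + 1)).2 (n, j + 1) = P.coeff j := by
    intro j
    rw [hv]
    simp [newVal, hP]
  have hval_inv : (tower hF init sched (n + 1)).2 (n, 0) = (P.coeff 0)⁻¹ := by
    rw [hv]
    simp [newVal, hP]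
  have hgen_nm : ∀ y, genn hF init sched (n + 1) (nm y) =
      Sys.C (tower hF init sched (n + 1)).1 ((tower hF init sched (n + 1)).2 y) := by
    intro y
    simp [genn, nm, StageSystem.genT]
  refine ⟨P.natDegree, fun j => nm (n, j + 1), nm (n, 0), hdeg, fun j x => nm_central _ x,
    fun x => nm_central _ x, ?_, ?_, ?_⟩
  · -- leading coefficient
    rw [← sub_eq_zero, ← map_one (pi hF init sched), ← map_sub]
    refine pi_eq_zero_of_genn (n := n + 1) ?_ ?_
    · exact (Tn (n + 1)).sub_mem (nm_mem_Tn (Nat.lt_succ_self n)) (Tn (n + 1)).one_mem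
    · rw [map_sub, map_one, hgen_nm, hval_coeff, hmonic.coeff_natDegree]
      simp
  · -- inverse of the constant coefficient
    rw [← map_mul, ← sub_eq_zero, ← map_one (pi hF init sched), ← map_sub]
    refine pi_eq_zero_of_genn (n := n + 1) ?_ ?_
    · exact (Tn (n + 1)).sub_mem
        ((Tn (n + 1)).mul_mem (nm_mem_Tn (Nat.lt_succ_self n)) (nm_mem_Tn (Nat.lt_succ_self n)))
        (Tn (n + 1)).one_mem
    · rw [map_sub, map_one, map_mul, hgen_nm, hgen_nm, hval_inv, hval_coeff, ← map_mul,
        ← Subring.coe_mul, inv_mul_cancel₀ hc0]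
      simp
  · -- the relation
    have := sum_conj_eq_zero (genn hF init sched (n + 1) a) U U' μ hU hU' hUg P hroot
    simp only [← map_pow, ← map_mul, ← map_sum]
    refine pi_eq_zero_of_genn (n := n + 1) ?_ ?_
    · refine Subalgebra.sum_mem _ fun j _ => ?_
      exact (Tn (n + 1)).mul_mem (nm_mem_Tn (Nat.lt_succ_self n)) ((Tn (n + 1)).pow_mem haT' j)
    · rw [map_sum]
      rw [← this]
      refine Finset.sum_congr rfl fun j _ => ?_
      rw [map_mul, map_pow, hgen_nm, hval_coeff]

theorem neg_calc {R : Type*} [Ring R] (x d S : R) (hd : d * x = x * d) :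
    x * (-d * S) = -(d * (x * S)) := by
  rw [neg_mul, mul_neg, ← mul_assoc, ← mul_assoc, ← hd]

theorem neg_calc2 {R : Type*} [Ring R] (d c : R) (h : d * c = 1) : -(d * -c) = 1 := by
  rw [mul_neg, neg_neg, h]

/-- Every class is zero or a unit. -/
theorem isUnit_or_zero (hsched : ∀ (a : T) (N : ℕ), ∃ n, N ≤ n ∧ sched n = a)
    (x : (con hF init sched).Quotient) : IsUnit x ∨ x = 0 := by
  obtain ⟨a, rfl⟩ := pi_surjective x
  by_cases h : pi hF init sched a = 0
  · exact Or.inr h
  · left
    obtain ⟨deg, c, d, hdeg, hc, hd, -, hdc, hrel⟩ := exists_relation hsched h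
    set x := pi hF init sched a with hx
    let y := -(pi hF init sched d) *
      ∑ j ∈ Finset.range deg, pi hF init sched (c (j + 1)) * x ^ j
    have hsum : ∑ j ∈ Finset.range deg, pi hF init sched (c (j + 1)) * x ^ (j + 1) =
        - pi hF init sched (c 0) := by
      rw [Finset.sum_range_succ'] at hrel
      simp only [pow_zero, mul_one] at hrel
      exact eq_neg_of_add_eq_zero_left hrel
    have hxS : x * ∑ j ∈ Finset.range deg, pi hF init sched (c (j + 1)) * x ^ j =
        ∑ j ∈ Finset.range deg, pi hF init sched (c (j + 1)) * x ^ (j + 1) := by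
      rw [Finset.mul_sum]
      refine Finset.sum_congr rfl fun j _ => ?_
      rw [← mul_assoc, ← hc (j + 1) x, mul_assoc, pow_succ']
    have hxy : x * y = 1 := by
      have e1 : x * y = -(pi hF init sched d *
          (x * ∑ j ∈ Finset.range deg, pi hF init sched (c (j + 1)) * x ^ j)) := by
        exact neg_calc _ _ _ (hd x)
      rw [e1, hxS, hsum]
      exact neg_calc2 _ _ hdc
    have hyx : y * x = 1 := by
      obtain ⟨b, hb⟩ := pi_surjective y
      have h0 : x * (y * x - 1) = 0 := by
        rw [mul_sub, ← mul_assoc, hxy]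
        simp
      have : pi hF init sched a * pi hF init sched (b * a - 1) = 0 := by
        rw [map_sub, map_mul, map_one, hb]
        exact h0
      rcases pi_mul_eq_zero this with h1 | h1
      · exact absurd h1 h
      · rw [map_sub, map_mul, map_one, hb, sub_eq_zero] at h1
        exact h1
    exact ⟨⟨x, y, hxy, hyx⟩, rfl⟩

end Tower

/-! ### Conclusion in a generic division ring -/

section Conclude

variable {D : Type} [DivisionRing D]

theorem conclude_generation (π : T →+* D) (hπ : Function.Surjective π)
    (hcent : ∀ y x, π (nm y) * x = x * π (nm y)) :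
    ∃ x y : D, Algebra.adjoin (Subring.center D) ({x, y} : Set D) = ⊤ := by
  refine ⟨π (FreeAlgebra.ι ℤ (Sum.inl 0)), π (FreeAlgebra.ι ℤ (Sum.inl 1)), ?_⟩
  rw [eq_top_iff]
  intro z _
  obtain ⟨a, rfl⟩ := hπ z
  induction a using FreeAlgebra.induction with
  | grade0 r =>
    have : π (algebraMap ℤ T r) = ((r : ℤ) : D) := by simp
    rw [this]
    exact intCast_mem _ r
  | grade1 x =>
    cases x with
    | inl i =>
      apply Algebra.subset_adjoin
      fin_cases i
      · left; rfl
      · right; rfl
    | inr y =>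
      have hc : π (nm y) ∈ Subring.center D :=
        Subring.mem_center_iff.2 fun g => (hcent y g).symm
      exact Subalgebra.algebraMap_mem _ (⟨_, hc⟩ : Subring.center D)
  | mul a b ha hb =>
    rw [map_mul]
    exact Subalgebra.mul_mem _ (ha (Algebra.mem_top)) (hb (Algebra.mem_top))
  | add a b ha hb =>
    rw [map_add]
    exact Subalgebra.add_mem _ (ha (Algebra.mem_top)) (hb (Algebra.mem_top))

theorem conclude_algebraic
    (hrel : ∀ x : D, x ≠ 0 → ∃ (deg : ℕ) (c : ℕ → D), c deg = 1 ∧ (∀ j y, c j * y = y * c j) ∧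
      ∑ j ∈ Finset.range (deg + 1), c j * x ^ j = 0) :
    Algebra.IsAlgebraic (Subring.center D) D := by
  classical
  refine ⟨fun x => ?_⟩
  by_cases hx : x = 0
  · subst hx
    exact isAlgebraic_zero
  obtain ⟨deg, c, hdeg, hc, hsum⟩ := hrel x hx
  have hcc : ∀ j, c j ∈ Subring.center D := fun j =>
    Subring.mem_center_iff.2 fun g => (hc j g).symm
  let Q : Polynomial (Subring.center D) :=
    ∑ j ∈ Finset.range (deg + 1), Polynomial.monomial j (⟨c j, hcc j⟩ : Subring.center D)
  refine ⟨Q, ?_, ?_⟩
  · intro h0
    have : Q.coeff deg = 1 := by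
      simp only [Q, Polynomial.finsetSum_coeff, Polynomial.coeff_monomial]
      rw [Finset.sum_eq_single deg]
      · simp only [if_true]
        exact Subtype.ext hdeg
      · intro b _ hb
        rw [if_neg hb]
      · intro h
        exact absurd (Finset.mem_range.2 (Nat.lt_succ_self deg)) h
    rw [h0, Polynomial.coeff_zero] at this
    exact zero_ne_one this
  · simp only [Q, map_sum, Polynomial.aeval_monomial]
    exact hsum

end Conclude

theorem countable_T : Countable T := by
  have h1 : Countable (FreeMonoid Letters) := inferInstanceAs (Countable (List Letters))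
  have h2 : Countable (MonoidAlgebra ℤ (FreeMonoid Letters)) :=
    (MonoidAlgebra.coeffEquiv (R := ℤ) (M := FreeMonoid Letters)).injective.countable
  exact (FreeAlgebra.equivMonoidAlgebraFreeMonoid (R := ℤ) (X := Letters)).injective.countable

theorem cap_mem {A : Subalgebra ℤ T} {k : ℕ} (z w : Fin k → T) (hz : ∀ i, z i ∈ A)
    (hw : ∀ i, w i ∈ A) : cap z w ∈ A := by
  unfold cap
  refine Subalgebra.sum_mem _ fun σ _ => ?_
  refine A.mul_mem (intCast_mem A _) ?_
  refine Subalgebra.list_prod_mem _ ?_
  intro x hx
  obtain ⟨i, rfl⟩ := (List.mem_ofFn' _ _).1 hx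
  exact A.mul_mem (hz _) (hw _)

/-- Spanning set in a stage: values of low terms. -/
theorem span_low_eq_top (hF : Freezes Sys) (init : Sys.Stage) (sched : ℕ → T) (n : ℕ) :
    Submodule.span (Subring.center (Sys.E (tower hF init sched n).1))
      (evn hF init sched n '' (Tn 0 : Set T)) = ⊤ := by
  have hgen := Sys.gen (tower hF init sched n).1
  have h1 := congrArg Subalgebra.toSubmodule hgen
  rw [Algebra.adjoin_eq_span, Algebra.top_toSubmodule] at h1
  rw [eq_top_iff, ← h1]
  apply Submodule.span_mono
  let M : Submonoid (Sys.E (tower hF init sched n).1) :=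
    ((Tn 0).toSubmonoid).map (evn hF init sched n).toMonoidHom
  have hM : Submonoid.closure
      (Set.range fun i => Sys.ct (tower hF init sched n).1 (Sys.Φ (tower hF init sched n).1 i)) ≤ M := by
    rw [Submonoid.closure_le]
    rintro _ ⟨i, rfl⟩
    refine ⟨FreeAlgebra.ι ℤ (Sum.inl i), ?_, ?_⟩
    · exact Algebra.subset_adjoin ⟨Sum.inl i, trivial, rfl⟩
    · simp [evn, StageSystem.ev, StageSystem.q]
  intro x hx
  obtain ⟨a, ha, rfl⟩ := hM hx
  exact ⟨a, ha, rfl⟩

/-- `k` independent low values, when the dimension is at least `k`. -/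
theorem exists_low_independent (hF : Freezes Sys) (init : Sys.Stage) (sched : ℕ → T) (n k : ℕ)
    (hk : k ≤ Module.finrank (Subring.center (Sys.E (tower hF init sched n).1))
      (Sys.E (tower hF init sched n).1)) :
    ∃ z : Fin k → Sys.E (tower hF init sched n).1,
      LinearIndependent (Subring.center (Sys.E (tower hF init sched n).1)) z ∧
      ∀ i, z i ∈ evn hF init sched n '' (Tn 0 : Set T) := by
  classical
  set S := evn hF init sched n '' (Tn 0 : Set T) with hS
  obtain ⟨b, hbS, hbspan, hbli⟩ :=
    exists_linearIndependent (Subring.center (Sys.E (tower hF init sched n).1)) S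
  rw [span_low_eq_top hF init sched n] at hbspan
  let B := Module.Basis.mk hbli (by rw [Subtype.range_coe]; exact hbspan.ge)
  have : Finite b := Module.Finite.finite_basis B
  let _ : Fintype b := Fintype.ofFinite b
  have hcard : Fintype.card (Fin k) ≤ Fintype.card b := by
    rw [Fintype.card_fin, ← Module.finrank_eq_card_basis B]
    exact hk
  obtain ⟨f⟩ := Function.Embedding.nonempty_of_card_le hcard
  refine ⟨fun i => (f i : Sys.E _), hbli.comp f f.injective, fun i => hbS (f i).2⟩

/-- **Assembly**: a system where everything can be frozen yields the S0270 division ring. -/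
theorem assembly (hF : Freezes Sys) (init : Sys.Stage) :
    ∃ (D : Type) (_ : DivisionRing D), Countable D ∧ CharZero D ∧
      Algebra.IsAlgebraic (Subring.center D) D ∧
      (∃ x y : D, Algebra.adjoin (Subring.center D) ({x, y} : Set D) = ⊤) ∧
      ¬ FiniteDimensional (Subring.center D) D := by
  classical
  have hcT : Countable T := countable_T
  obtain ⟨e, he⟩ := exists_surjective_nat T
  let sched : ℕ → T := fun n => e (Nat.unpair n).1
  have hsched : ∀ (a : T) (N : ℕ), ∃ n, N ≤ n ∧ sched n = a := by
    intro a N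
    obtain ⟨j, rfl⟩ := he a
    refine ⟨Nat.pair j N, Nat.right_le_pair j N, ?_⟩
    simp [sched]
  have hnt : Nontrivial (con hF init sched).Quotient :=
    ⟨⟨_, _, pi_nontrivial (hF := hF) (init := init) (sched := sched)⟩⟩
  let inst : DivisionRing (con hF init sched).Quotient :=
    DivisionRing.ofIsUnitOrEqZero (isUnit_or_zero hsched)
  refine ⟨(con hF init sched).Quotient, inst, ?_, ?_, ?_, ?_, ?_⟩
  · exact (pi_surjective (hF := hF) (init := init) (sched := sched)).countable
  · refine charZero_of_inj_zero fun n hn => ?_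
    have h1 : pi hF init sched (n : T) = 0 := by rw [map_natCast]; exact hn
    rw [pi_eq_zero] at h1
    obtain ⟨m, hm⟩ := h1.exists
    rw [map_natCast] at hm
    exact Nat.cast_eq_zero.1 hm
  · refine conclude_algebraic fun x hx => ?_
    obtain ⟨a, rfl⟩ := pi_surjective x
    obtain ⟨deg, c, d, -, hc, -, hdeg, -, hrel⟩ := exists_relation hsched hx
    exact ⟨deg, fun j => pi hF init sched (c j), hdeg, fun j y => hc j y, hrel⟩
  · exact conclude_generation (pi hF init sched) pi_surjective fun y x => nm_central y x
  · intro hfd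
    set k := Module.finrank (Subring.center (con hF init sched).Quotient)
      (con hF init sched).Quotient + 1 with hk
    have hkn : k ≤ Module.finrank (Subring.center (Sys.E (tower hF init sched k).1))
        (Sys.E (tower hF init sched k).1) := le_finrank k
    obtain ⟨z, hzli, hzS⟩ := exists_low_independent hF init sched k k hkn
    obtain ⟨w, hwS, hne⟩ := cap_ne_zero _ (span_low_eq_top hF init sched k) k z hzli
    choose z' hz'T hz' using hzS
    choose w' hw'T hw' using hwS
    have hA : cap z' w' ∈ Tn 0 := cap_mem z' w' hz'T hw'T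
    have hpi : pi hF init sched (cap z' w') = 0 := by
      rw [map_cap]
      exact cap_eq_zero_of_finrank_lt (by omega) _ _
    rw [pi_eq_zero, Filter.eventually_atTop] at hpi
    obtain ⟨N, hN⟩ := hpi
    have h1 := hN (k + N) (Nat.le_add_left _ _)
    have h2 : evn hF init sched k (cap z' w') = 0 :=
      evn_down (Tn_mono (Nat.zero_le k) hA) h1
    apply hne
    have h3 := map_cap (evn hF init sched k).toRingHom z' w'
    simp only [AlgHom.toRingHom_eq_coe, RingHom.coe_coe] at h3
    rw [h2] at h3
    rw [h3]
    congr 1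
    · funext i; exact (hz' i).symm
    · funext i; exact (hw' i).symm

end Crest.Agent.Lib.Kurosh.AssemblyAbs
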