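import Mathlib

/-!
# Rational extension (S0270, blueprint section 1)

`L0 Z Y m = Z(T_{r,y} : r ∈ ZMod m, y ∈ Y)` with the shift automorphism `s`, fixed field `Z0`, trace
`tr = ∑_r s^r`; for a finite dimensional division `Z`-algebra `R`, the ring `RL = L0 ⊗[Z] R` is a
division ring (specialization argument), with the automorphism `sR = s ⊗ 1`.
-/

set_option autoImplicit false

open scoped TensorProduct

namespace Crest.Agent.Lib.Kurosh.RatExt

section Field

variable (Z : Type*) [Field Z] (Y : Type*) (m : ℕ)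

/-- The polynomial ring `Z[T_{r,y}]`. -/
abbrev Pol := MvPolynomial (ZMod m × Y) Z

/-- The rational function field `L0 = Z(T_{r,y})`. -/
abbrev L0 := FractionRing (Pol Z Y m)

/-- The variable `T_{r,y}` of `L0`. -/
noncomputable def T (r : ZMod m) (y : Y) : L0 Z Y m :=
  algebraMap (Pol Z Y m) (L0 Z Y m) (MvPolynomial.X (r, y))

/-- The shift on indices. -/
def shiftIdx : ZMod m × Y ≃ ZMod m × Y := (Equiv.addRight (1 : ZMod m)).prodCongr (Equiv.refl Y)

/-- The shift on polynomials. -/
noncomputable def sPol : Pol Z Y m ≃ₐ[Z] Pol Z Y m :=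
  MvPolynomial.renameEquiv Z (shiftIdx Y m)

/-- The shift automorphism `s : T_{r,y} ↦ T_{r+1,y}` of `L0`. -/
noncomputable def s : L0 Z Y m ≃ₐ[Z] L0 Z Y m :=
  IsFractionRing.algEquivOfAlgEquiv (sPol Z Y m)

@[simp] lemma s_algebraMap (p : Pol Z Y m) :
    s Z Y m (algebraMap _ _ p) = algebraMap _ _ (sPol Z Y m p) := by
  simp [s]

@[simp] lemma s_T (r : ZMod m) (y : Y) : s Z Y m (T Z Y m r y) = T Z Y m (r + 1) y := by
  simp [T, sPol, shiftIdx]

lemma T_injective {r r' : ZMod m} {y y' : Y} (h : T Z Y m r y = T Z Y m r' y') :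
    r = r' ∧ y = y' := by
  have h1 := IsFractionRing.injective (Pol Z Y m) (L0 Z Y m) h
  have h2 := MvPolynomial.X_injective h1
  exact Prod.ext_iff.mp h2

/-- `Z`-algebra homomorphisms out of `L0` are determined by the images of the `T_{r,y}`. -/
lemma ringHom_ext_L0 {L : Type*} [Field L] [Algebra Z L] {f g : L0 Z Y m →ₐ[Z] L}
    (h : ∀ r y, f (T Z Y m r y) = g (T Z Y m r y)) : f = g := by
  apply AlgHom.coe_ringHom_injective
  apply IsLocalization.ringHom_ext (nonZeroDivisors (Pol Z Y m))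
  apply MvPolynomial.ringHom_ext
  · intro c
    have hc : algebraMap (Pol Z Y m) (L0 Z Y m) (MvPolynomial.C c) = algebraMap Z (L0 Z Y m) c := by
      rw [IsScalarTower.algebraMap_apply Z (Pol Z Y m) (L0 Z Y m) c]
      rfl
    simp [hc]
  · rintro ⟨r, y⟩
    exact h r y

lemma s_pow_T (k : ℕ) (r : ZMod m) (y : Y) :
    (s Z Y m ^ k) (T Z Y m r y) = T Z Y m (r + k) y := by
  induction k generalizing r with
  | zero => simp
  | succ k ih =>
    rw [pow_succ, AlgEquiv.mul_apply, s_T, ih]
    congr 1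
    push_cast
    ring

lemma s_pow_m [NeZero m] : s Z Y m ^ m = 1 := by
  apply AlgEquiv.coe_toAlgHom_injective
  apply ringHom_ext_L0
  intro r y
  simp [s_pow_T]

lemma orderOf_s [NeZero m] [Nonempty Y] : orderOf (s Z Y m) = m := by
  obtain ⟨y⟩ := ‹Nonempty Y›
  apply (orderOf_eq_iff (Nat.pos_of_ne_zero (NeZero.ne m))).2
  refine ⟨s_pow_m Z Y m, fun k hk hk0 h => ?_⟩
  have h1 := congrArg (fun φ : L0 Z Y m ≃ₐ[Z] L0 Z Y m => φ (T Z Y m 0 y)) h
  simp only [s_pow_T, AlgEquiv.one_apply] at h1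
  have h2 := (T_injective Z Y m h1).1
  have h3 : ((k : ℕ) : ZMod m) = 0 := by simpa using h2
  rw [ZMod.natCast_eq_zero_iff] at h3
  exact absurd (Nat.le_of_dvd hk0 h3) (not_le.mpr hk)

/-- The fixed field `Z0` of the shift. -/
noncomputable def Z0 : Subfield (L0 Z Y m) :=
  FixedPoints.subfield (Subgroup.zpowers (s Z Y m)) (L0 Z Y m)

lemma mem_Z0 {x : L0 Z Y m} : x ∈ Z0 Z Y m ↔ s Z Y m x = x := by
  constructor
  · intro h
    have : ∀ g : Subgroup.zpowers (s Z Y m), g • x = x := h
    exact this ⟨s Z Y m, Subgroup.mem_zpowers _⟩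
  · intro h
    have : ∀ g : Subgroup.zpowers (s Z Y m), g • x = x := ?_
    · exact this
    rintro ⟨g, hg⟩
    obtain ⟨k, rfl⟩ := Subgroup.mem_zpowers_iff.1 hg
    have h0 : ∀ n : ℕ, (s Z Y m ^ n) x = x := by
      intro n
      induction n with
      | zero => simp
      | succ n ih => rw [pow_succ, AlgEquiv.mul_apply, h, ih]
    have h1 : ∀ n : ℕ, ((s Z Y m ^ n)⁻¹) x = x := by
      intro n
      have := h0 n
      change ((s Z Y m ^ n).symm) x = x
      rw [AlgEquiv.symm_apply_eq, this]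
    change (s Z Y m ^ k) x = x
    cases k with
    | ofNat n => simpa using h0 n
    | negSucc n =>
      rw [zpow_negSucc]
      exact h1 (n + 1)

/-- Artin: `[L0 : Z0] = m`. -/
theorem finrank_Z0 [NeZero m] [Nonempty Y] : Module.finrank (Z0 Z Y m) (L0 Z Y m) = m := by
  classical
  have hfin : IsOfFinOrder (s Z Y m) := isOfFinOrder_iff_pow_eq_one.2
      ⟨m, Nat.pos_of_ne_zero (NeZero.ne m), s_pow_m Z Y m⟩
  letI : Fintype (Subgroup.zpowers (s Z Y m)) := Fintype.ofEquiv _ (finEquivZPowers hfin)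
  have := FixedPoints.finrank_eq_card (Subgroup.zpowers (s Z Y m)) (L0 Z Y m)
  rw [Fintype.card_eq_nat_card, Nat.card_zpowers, orderOf_s] at this
  exact this

instance finiteDimensional_Z0 [NeZero m] :
    FiniteDimensional (Z0 Z Y m) (L0 Z Y m) := by
  classical
  have hfin : IsOfFinOrder (s Z Y m) := isOfFinOrder_iff_pow_eq_one.2
      ⟨m, Nat.pos_of_ne_zero (NeZero.ne m), s_pow_m Z Y m⟩
  letI : Fintype (Subgroup.zpowers (s Z Y m)) := Fintype.ofEquiv _ (finEquivZPowers hfin)
  have := FixedPoints.finrank_eq_card (Subgroup.zpowers (s Z Y m)) (L0 Z Y m)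
  apply Module.finite_of_finrank_pos
  show 0 < Module.finrank (FixedPoints.subfield (Subgroup.zpowers (s Z Y m)) (L0 Z Y m)) (L0 Z Y m)
  rw [this]
  exact Fintype.card_pos

/-- The trace `tr = ∑_{r<m} s^r`. -/
noncomputable def tr (x : L0 Z Y m) : L0 Z Y m :=
  ∑ r ∈ Finset.range m, (s Z Y m ^ r) x

lemma s_tr [NeZero m] (x : L0 Z Y m) : s Z Y m (tr Z Y m x) = tr Z Y m x := by
  unfold tr
  rw [map_sum]
  have h1 : ∀ r, s Z Y m ((s Z Y m ^ r) x) = (s Z Y m ^ (r + 1)) x := by
    intro r
    rw [pow_succ', AlgEquiv.mul_apply]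
  simp only [h1]
  have h2 := Finset.sum_range_succ' (fun r => (s Z Y m ^ r) x) m
  have h3 := Finset.sum_range_succ (fun r => (s Z Y m ^ r) x) m
  rw [h3] at h2
  simp only [s_pow_m, pow_zero, AlgEquiv.one_apply] at h2
  exact (add_right_cancel h2).symm

lemma tr_mem [NeZero m] (x : L0 Z Y m) : tr Z Y m x ∈ Z0 Z Y m :=
  (mem_Z0 Z Y m).2 (s_tr Z Y m x)

lemma s_pow_of_mem {x : L0 Z Y m} (hx : x ∈ Z0 Z Y m) (r : ℕ) : (s Z Y m ^ r) x = x := by
  induction r with
  | zero => simp
  | succ n ih => rw [pow_succ, AlgEquiv.mul_apply, (mem_Z0 Z Y m).1 hx, ih]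

/-- `tr` is `Z0`-linear. -/
lemma tr_mul_of_mem {c x : L0 Z Y m} (hc : c ∈ Z0 Z Y m) :
    tr Z Y m (c * x) = c * tr Z Y m x := by
  unfold tr
  rw [Finset.mul_sum]
  refine Finset.sum_congr rfl fun r _ => ?_
  rw [map_mul, s_pow_of_mem Z Y m hc]

lemma tr_add (x y : L0 Z Y m) : tr Z Y m (x + y) = tr Z Y m x + tr Z Y m y := by
  unfold tr
  rw [← Finset.sum_add_distrib]
  exact Finset.sum_congr rfl fun r _ => map_add _ _ _

lemma tr_of_mem {c : L0 Z Y m} (hc : c ∈ Z0 Z Y m) : tr Z Y m c = (m : L0 Z Y m) * c := by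
  unfold tr
  rw [Finset.sum_congr rfl fun r _ => s_pow_of_mem Z Y m hc r]
  simp

/-- The trace as a `Z0`-linear map. -/
noncomputable def trLin [NeZero m] : L0 Z Y m →ₗ[Z0 Z Y m] Z0 Z Y m where
  toFun x := ⟨tr Z Y m x, tr_mem Z Y m x⟩
  map_add' x y := Subtype.ext (tr_add Z Y m x y)
  map_smul' c x := Subtype.ext (by
    change tr Z Y m ((c : L0 Z Y m) * x) = (c : L0 Z Y m) * tr Z Y m x
    exact tr_mul_of_mem Z Y m c.2)

@[simp] lemma trLin_coe [NeZero m] (x : L0 Z Y m) :
    ((trLin Z Y m x : Z0 Z Y m) : L0 Z Y m) = tr Z Y m x := rfl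

end Field

/-! ### `R_L` for an arbitrary `Z`-algebra ring `R` -/

section Tensor

variable (Z : Type*) [Field Z] (Y : Type*) (m : ℕ)
variable (R : Type*) [Ring R] [Algebra Z R]

/-- `R_L = L0 ⊗[Z] R`. -/
abbrev RL := L0 Z Y m ⊗[Z] R

/-- The inclusion `R → R_L`. -/
noncomputable def iota : R →ₐ[Z] RL Z Y m R := Algebra.TensorProduct.includeRight

/-- The inclusion `L0 → R_L`. -/
noncomputable def iotaL : L0 Z Y m →ₐ[Z] RL Z Y m R := Algebra.TensorProduct.includeLeft

lemma iota_commute (c : L0 Z Y m) (r : R) :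
    iotaL Z Y m R c * iota Z Y m R r = iota Z Y m R r * iotaL Z Y m R c := by
  simp [iotaL, iota]

lemma iotaL_eq_algebraMap (c : L0 Z Y m) :
    iotaL Z Y m R c = algebraMap (L0 Z Y m) (RL Z Y m R) c := rfl

lemma iota_injective : Function.Injective (iota Z Y m R) := by
  have h : Function.Injective (Algebra.linearMap Z (L0 Z Y m)) :=
    (algebraMap Z (L0 Z Y m)).injective
  have h2 := Module.Flat.rTensor_preserves_injective_linearMap (M := R) _ h
  intro a b hab
  apply (TensorProduct.lid Z R).symm.injective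
  apply h2
  simpa [iota] using hab

lemma iotaL_injective [Nontrivial R] : Function.Injective (iotaL Z Y m R) := by
  have hne : (1 : RL Z Y m R) ≠ 0 := by
    intro h
    have h1 : (1 : R) = 0 := by
      apply iota_injective Z Y m R
      simpa [iota] using h
    exact one_ne_zero h1
  haveI : Nontrivial (RL Z Y m R) := ⟨⟨1, 0, hne⟩⟩
  exact RingHom.injective ((iotaL Z Y m R).toRingHom)

/-- The automorphism `s ⊗ 1` of `R_L`, as a `Z`-algebra automorphism. -/
noncomputable def sRAlg : RL Z Y m R ≃ₐ[Z] RL Z Y m R :=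
  Algebra.TensorProduct.congr (s Z Y m) AlgEquiv.refl

/-- The automorphism `s ⊗ 1` of `R_L`, as a `RingAut`. -/
noncomputable def sR : RingAut (RL Z Y m R) := (sRAlg Z Y m R).toRingEquiv

@[simp] lemma sR_tmul (c : L0 Z Y m) (r : R) :
    sR Z Y m R (c ⊗ₜ r) = (s Z Y m c) ⊗ₜ r := by
  simp [sR, sRAlg]

@[simp] lemma sR_iota (r : R) : sR Z Y m R (iota Z Y m R r) = iota Z Y m R r := by
  simp [iota]

@[simp] lemma sR_iotaL (c : L0 Z Y m) :
    sR Z Y m R (iotaL Z Y m R c) = iotaL Z Y m R (s Z Y m c) := by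
  simp [iotaL]

lemma sR_smul (c : L0 Z Y m) (x : RL Z Y m R) :
    sR Z Y m R (c • x) = (s Z Y m c) • sR Z Y m R x := by
  induction x using TensorProduct.induction_on with
  | zero => simp
  | tmul d r => simp [TensorProduct.smul_tmul']
  | add x y hx hy => simp [smul_add, map_add, hx, hy]

/-- The `L0`-basis of `R_L` from a `Z`-basis of `R`. -/
noncomputable def basisRL {ι : Type*} (b : Module.Basis ι Z R) :
    Module.Basis ι (L0 Z Y m) (RL Z Y m R) :=
  Algebra.TensorProduct.basis (L0 Z Y m) b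

lemma basisRL_apply {ι : Type*} (b : Module.Basis ι Z R) (i : ι) :
    basisRL Z Y m R b i = iota Z Y m R (b i) := by
  simp [basisRL, iota]

/-- `s ⊗ 1` acts on coordinates by `s`. -/
lemma repr_sR {ι : Type*} [Fintype ι] (b : Module.Basis ι Z R) (x : RL Z Y m R) (i : ι) :
    (basisRL Z Y m R b).repr (sR Z Y m R x) i = s Z Y m ((basisRL Z Y m R b).repr x i) := by
  classical
  conv_lhs => rw [← (basisRL Z Y m R b).sum_repr x]
  rw [map_sum, map_sum, Finsupp.coe_finsetSum, Finset.sum_apply]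
  have h : ∀ j, sR Z Y m R (((basisRL Z Y m R b).repr x j) • basisRL Z Y m R b j) =
      (s Z Y m ((basisRL Z Y m R b).repr x j)) • basisRL Z Y m R b j := by
    intro j
    rw [sR_smul, basisRL_apply, sR_iota]
  simp only [h, map_smul, Module.Basis.repr_self, Finsupp.smul_apply, Finsupp.single_apply,
    smul_eq_mul, mul_ite, mul_one, mul_zero, Finset.sum_ite_eq', Finset.mem_univ, if_true]

/-- `x ∈ R_L` is fixed by `s ⊗ 1` iff its coordinates are in `Z0`. -/
lemma sR_fixed_iff {ι : Type*} [Fintype ι] (b : Module.Basis ι Z R) (x : RL Z Y m R) :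
    sR Z Y m R x = x ↔ ∀ i, (basisRL Z Y m R b).repr x i ∈ Z0 Z Y m := by
  constructor
  · intro h i
    rw [mem_Z0, ← repr_sR, h]
  · intro h
    apply (basisRL Z Y m R b).repr.injective
    ext i
    rw [repr_sR, (mem_Z0 Z Y m).1 (h i)]

lemma sR_pow_tmul (k : ℕ) (c : L0 Z Y m) (r : R) :
    (sR Z Y m R ^ k) (c ⊗ₜ r) = ((s Z Y m ^ k) c) ⊗ₜ r := by
  induction k with
  | zero => rfl
  | succ k ih =>
    rw [pow_succ']
    change sR Z Y m R ((sR Z Y m R ^ k) (c ⊗ₜ r)) = _
    rw [ih, sR_tmul, pow_succ', AlgEquiv.mul_apply]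

lemma sR_pow_m [NeZero m] : sR Z Y m R ^ m = 1 := by
  apply RingEquiv.ext
  intro x
  change (sR Z Y m R ^ m) x = x
  induction x using TensorProduct.induction_on with
  | zero => exact map_zero _
  | add a b ha hb => rw [map_add, ha, hb]
  | tmul c r => rw [sR_pow_tmul, s_pow_m]; rfl

/-- Functoriality of `R_L` for `Z`-algebra maps. -/
noncomputable def mapRL {A E : Type*} [Ring A] [Algebra Z A]
    [Ring E] [Algebra Z E] (f : A →ₐ[Z] E) :
    RL Z Y m A →ₐ[Z] RL Z Y m E :=
  Algebra.TensorProduct.map (AlgHom.id Z (L0 Z Y m)) f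

section MapRL

variable {A E : Type*} [Ring A] [Algebra Z A] [Ring E] [Algebra Z E] (f : A →ₐ[Z] E)

@[simp] lemma mapRL_tmul (c : L0 Z Y m) (a : A) :
    mapRL Z Y m f (c ⊗ₜ a) = c ⊗ₜ f a := by
  simp [mapRL]

lemma mapRL_injective (hf : Function.Injective f) : Function.Injective (mapRL Z Y m f) :=
  Module.Flat.lTensor_preserves_injective_linearMap (M := L0 Z Y m) f.toLinearMap hf

lemma mapRL_sR (x : RL Z Y m A) :
    mapRL Z Y m f (sR Z Y m A x) = sR Z Y m E (mapRL Z Y m f x) := by
  induction x using TensorProduct.induction_on with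
  | zero => simp
  | add a b ha hb => simp [ha, hb]
  | tmul c r => simp

lemma mapRL_smul (c : L0 Z Y m) (x : RL Z Y m A) :
    mapRL Z Y m f (c • x) = c • mapRL Z Y m f x := by
  induction x using TensorProduct.induction_on with
  | zero => simp
  | add a b ha hb => simp [smul_add, ha, hb]
  | tmul d r => simp [TensorProduct.smul_tmul']

lemma mapRL_iota (r : A) : mapRL Z Y m f (iota Z Y m A r) = iota Z Y m E (f r) := by
  simp [iota]

lemma mapRL_iotaL (c : L0 Z Y m) : mapRL Z Y m f (iotaL Z Y m A c) = iotaL Z Y m E c := by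
  simp [iotaL]

/-- The image of a central map stays central. -/
lemma mapRL_central (hf : ∀ a b, f a * b = b * f a) (x : RL Z Y m A) (y : RL Z Y m E) :
    mapRL Z Y m f x * y = y * mapRL Z Y m f x := by
  induction x using TensorProduct.induction_on with
  | zero => simp
  | add a b ha hb => simp [add_mul, mul_add, ha, hb]
  | tmul c a =>
    induction y using TensorProduct.induction_on with
    | zero => simp
    | add u v hu hv => simp only [mul_add, add_mul, hu, hv]
    | tmul d b =>
      rw [mapRL_tmul, Algebra.TensorProduct.tmul_mul_tmul, Algebra.TensorProduct.tmul_mul_tmul,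
        mul_comm c d, hf a b]

end MapRL


/-- Functoriality of `R_L` for `Z`-linear maps (coefficientwise, `L0`-linear). -/
noncomputable def mapLin {A E : Type*} [Ring A] [Algebra Z A] [Ring E] [Algebra Z E]
    (f : A →ₗ[Z] E) : RL Z Y m A →ₗ[L0 Z Y m] RL Z Y m E :=
  LinearMap.baseChange (L0 Z Y m) f

section MapLin

variable {A E : Type*} [Ring A] [Algebra Z A] [Ring E] [Algebra Z E] (f : A →ₗ[Z] E)

@[simp] lemma mapLin_tmul (c : L0 Z Y m) (a : A) :
    mapLin Z Y m f (c ⊗ₜ a) = c ⊗ₜ f a := by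
  simp [mapLin]

lemma mapLin_sR (x : RL Z Y m A) :
    mapLin Z Y m f (sR Z Y m A x) = sR Z Y m E (mapLin Z Y m f x) := by
  induction x using TensorProduct.induction_on with
  | zero => simp
  | add a b ha hb => simp only [map_add, ha, hb]
  | tmul c r => simp

end MapLin

/-- A `Z`-linear functional `R → Z` extended to an `L0`-linear functional `R_L → L0`. -/
noncomputable def lam {A : Type*} [Ring A] [Algebra Z A] (f : A →ₗ[Z] Z) :
    RL Z Y m A →ₗ[L0 Z Y m] L0 Z Y m :=
  (TensorProduct.AlgebraTensorModule.rid Z (L0 Z Y m) (L0 Z Y m)).toLinearMap ∘ₗ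
    LinearMap.baseChange (L0 Z Y m) f

section Lam

variable {A : Type*} [Ring A] [Algebra Z A] (f : A →ₗ[Z] Z)

@[simp] lemma lam_tmul (c : L0 Z Y m) (a : A) :
    lam Z Y m f (c ⊗ₜ a) = f a • c := by
  simp [lam]

lemma lam_sR (x : RL Z Y m A) :
    lam Z Y m f (sR Z Y m A x) = s Z Y m (lam Z Y m f x) := by
  induction x using TensorProduct.induction_on with
  | zero => simp
  | add a b ha hb => simp only [map_add, ha, hb]
  | tmul c r => simp

lemma lam_iotaL_mul (c : L0 Z Y m) (x : RL Z Y m A) :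
    lam Z Y m f (iotaL Z Y m A c * x) = c * lam Z Y m f x := by
  rw [iotaL_eq_algebraMap, ← Algebra.smul_def, map_smul, smul_eq_mul]

lemma lam_mul_iotaL (c : L0 Z Y m) (x : RL Z Y m A) :
    lam Z Y m f (x * iotaL Z Y m A c) = c * lam Z Y m f x := by
  rw [iotaL_eq_algebraMap, ← Algebra.commutes, ← Algebra.smul_def, map_smul, smul_eq_mul]

end Lam

end Tensor

/-! ### `R_L` is a division ring for `R` f.d. division -/

section TensorDiv

variable (Z : Type*) [Field Z] [Infinite Z] (Y : Type*) (m : ℕ)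
variable (R : Type*) [DivisionRing R] [Algebra Z R] [FiniteDimensional Z R]

/-- The inclusion of the polynomial tensor. -/
noncomputable def iotaPol : Pol Z Y m ⊗[Z] R →ₐ[Z] RL Z Y m R :=
  Algebra.TensorProduct.map (IsScalarTower.toAlgHom Z (Pol Z Y m) (L0 Z Y m)) (AlgHom.id Z R)

lemma iotaPol_injective : Function.Injective (iotaPol Z Y m R) := by
  have h : Function.Injective ((IsScalarTower.toAlgHom Z (Pol Z Y m) (L0 Z Y m)).toLinearMap) :=
    IsFractionRing.injective (Pol Z Y m) (L0 Z Y m)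
  have := Module.Flat.rTensor_preserves_injective_linearMap (M := R) _ h
  exact this

/-- Specialization `T ↦ t`. -/
noncomputable def evalPol (t : ZMod m × Y → Z) : Pol Z Y m ⊗[Z] R →ₐ[Z] R :=
  (Algebra.TensorProduct.lid Z R).toAlgHom.comp
    (Algebra.TensorProduct.map (MvPolynomial.aeval t) (AlgHom.id Z R))

lemma evalPol_tmul (t : ZMod m × Y → Z) (p : Pol Z Y m) (r : R) :
    evalPol Z Y m R t (p ⊗ₜ r) = (MvPolynomial.eval t p) • r := by
  simp [evalPol, MvPolynomial.aeval_eq_eval] 

/-- Two nonzero elements of `Z[T] ⊗ R` have a common specialization at which both are nonzero. -/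
lemma exists_eval_ne {a b : Pol Z Y m ⊗[Z] R} (ha : a ≠ 0) (hb : b ≠ 0) :
    ∃ t, evalPol Z Y m R t a ≠ 0 ∧ evalPol Z Y m R t b ≠ 0 := by
  classical
  let B0 := Module.finBasis Z R
  let B := Algebra.TensorProduct.basis (Pol Z Y m) B0
  have key : ∀ (x : Pol Z Y m ⊗[Z] R) t, evalPol Z Y m R t x =
      ∑ i, (MvPolynomial.eval t (B.repr x i)) • B0 i := by
    intro x t
    conv_lhs => rw [← B.sum_repr x]
    rw [map_sum]
    refine Finset.sum_congr rfl fun i _ => ?_
    rw [Algebra.TensorProduct.basis_apply, TensorProduct.smul_tmul', smul_eq_mul, mul_one,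
      evalPol_tmul]
  obtain ⟨i, hi⟩ : ∃ i, B.repr a i ≠ 0 := by
    by_contra h
    push Not at h
    exact ha (B.repr.map_eq_zero_iff.1 (Finsupp.ext h))
  obtain ⟨j, hj⟩ : ∃ j, B.repr b j ≠ 0 := by
    by_contra h
    push Not at h
    exact hb (B.repr.map_eq_zero_iff.1 (Finsupp.ext h))
  have hprod : B.repr a i * B.repr b j ≠ 0 := mul_ne_zero hi hj
  obtain ⟨t, ht⟩ : ∃ t, MvPolynomial.eval t (B.repr a i * B.repr b j) ≠ 0 := by
    by_contra h
    push Not at h
    exact hprod (MvPolynomial.funext (fun t => by simpa using h t))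
  rw [map_mul] at ht
  refine ⟨t, ?_, ?_⟩
  · intro h0
    rw [key] at h0
    have := (Fintype.linearIndependent_iff.1 B0.linearIndependent) _ h0 i
    exact ht (by rw [this, zero_mul])
  · intro h0
    rw [key] at h0
    have := (Fintype.linearIndependent_iff.1 B0.linearIndependent) _ h0 j
    exact ht (by rw [this, mul_zero])

/-- Clearing denominators in `L0 ⊗ R`. -/
lemma exists_clear (x : RL Z Y m R) : ∃ g : Pol Z Y m, g ≠ 0 ∧ ∃ x' : Pol Z Y m ⊗[Z] R,
    iotaPol Z Y m R x' = (algebraMap (Pol Z Y m) (L0 Z Y m) g) • x := by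
  induction x using TensorProduct.induction_on with
  | zero => exact ⟨1, one_ne_zero, 0, by simp⟩
  | tmul c r =>
    obtain ⟨⟨p, q⟩, hpq⟩ := IsLocalization.surj (nonZeroDivisors (Pol Z Y m)) c
    refine ⟨q, nonZeroDivisors.ne_zero q.2, p ⊗ₜ r, ?_⟩
    simp only [iotaPol, Algebra.TensorProduct.map_tmul, AlgHom.id_apply,
      TensorProduct.smul_tmul', smul_eq_mul]
    congr 1
    rw [mul_comm]
    exact hpq.symm
  | add x y hx hy =>
    obtain ⟨g, hg, x', hx'⟩ := hx
    obtain ⟨h, hh, y', hy'⟩ := hy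
    refine ⟨g * h, mul_ne_zero hg hh, (h ⊗ₜ (1 : R)) * x' + (g ⊗ₜ (1 : R)) * y', ?_⟩
    have hι : ∀ p : Pol Z Y m, iotaPol Z Y m R (p ⊗ₜ (1 : R)) =
        (algebraMap (Pol Z Y m) (L0 Z Y m) p) • (1 : RL Z Y m R) := by
      intro p
      simp only [iotaPol, Algebra.TensorProduct.map_tmul, AlgHom.id_apply,
        Algebra.TensorProduct.one_def, TensorProduct.smul_tmul', smul_eq_mul, mul_one]
      rfl
    rw [map_add, map_mul, map_mul, hx', hy', hι, hι, smul_mul_assoc, one_mul, smul_mul_assoc,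
      one_mul, smul_add, map_mul, mul_smul, mul_smul,
      smul_comm (algebraMap (Pol Z Y m) (L0 Z Y m) h) (algebraMap (Pol Z Y m) (L0 Z Y m) g) x]

instance instNoZeroDivisorsRL : NoZeroDivisors (RL Z Y m R) := by
  refine ⟨fun {x y} hxy => ?_⟩
  by_contra hne
  push Not at hne
  obtain ⟨hx, hy⟩ := hne
  obtain ⟨g, hg, x', hx'⟩ := exists_clear Z Y m R x
  obtain ⟨h, hh, y', hy'⟩ := exists_clear Z Y m R y
  have hg' : algebraMap (Pol Z Y m) (L0 Z Y m) g ≠ 0 := by
    simpa using hg
  have hh' : algebraMap (Pol Z Y m) (L0 Z Y m) h ≠ 0 := by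
    simpa using hh
  have hx0 : x' ≠ 0 := by
    rintro rfl
    rw [map_zero] at hx'
    exact (smul_ne_zero hg' hx) hx'.symm
  have hy0 : y' ≠ 0 := by
    rintro rfl
    rw [map_zero] at hy'
    exact (smul_ne_zero hh' hy) hy'.symm
  have hprod : x' * y' = 0 := by
    apply iotaPol_injective Z Y m R
    rw [map_mul, hx', hy', map_zero, smul_mul_smul_comm, hxy, smul_zero]
  obtain ⟨t, h1, h2⟩ := exists_eval_ne Z Y m R hx0 hy0
  have := congrArg (evalPol Z Y m R t) hprod
  rw [map_mul, map_zero] at this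
  exact (mul_ne_zero h1 h2) this

instance instFiniteRL : FiniteDimensional (L0 Z Y m) (RL Z Y m R) :=
  Module.Finite.base_change Z (L0 Z Y m) R

lemma finrank_RL : Module.finrank (L0 Z Y m) (RL Z Y m R) = Module.finrank Z R :=
  Module.finrank_baseChange

instance instNontrivialRL : Nontrivial (RL Z Y m R) := by
  apply Module.nontrivial_of_finrank_pos (R := L0 Z Y m)
  rw [finrank_RL]
  exact Module.finrank_pos

lemma exists_mul_eq_one {x : RL Z Y m R} (hx : x ≠ 0) : ∃ y, x * y = 1 := by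
  have hinj : Function.Injective (LinearMap.mulLeft (L0 Z Y m) x) := by
    intro a b hab
    have h : x * a = x * b := hab
    exact mul_left_cancel₀ hx h
  obtain ⟨y, hy⟩ := LinearMap.injective_iff_surjective.mp hinj 1
  exact ⟨y, hy⟩

/-- `R_L` is a division ring. -/
noncomputable instance instDivisionRingRL : DivisionRing (RL Z Y m R) :=
  { (inferInstance : Ring (RL Z Y m R)), instNontrivialRL Z Y m R with
    inv := fun x => by
      classical
      exact if h : x = 0 then 0 else Classical.choose (exists_mul_eq_one Z Y m R h)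
    mul_inv_cancel := fun x hx => by
      classical
      simp only [dif_neg hx]
      exact Classical.choose_spec (exists_mul_eq_one Z Y m R hx)
    inv_zero := by
      classical
      simp
    nnqsmul := _
    qsmul := _ }

end TensorDiv

/-! ### `σ`-semilinear Artin independence -/

section Artin

variable {Z : Type*} [Field Z] {Y : Type*} {m : ℕ}

/-- Fixed elements of `s^d` are in `Z0` for `d` coprime to `m`. -/
lemma mem_Z0_of_pow_fixed [NeZero m] {d : ℕ} (hd : Nat.Coprime d m) {x : L0 Z Y m}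
    (hx : (s Z Y m ^ d) x = x) : x ∈ Z0 Z Y m := by
  rw [mem_Z0]
  have hpow : ∀ k : ℕ, (s Z Y m ^ (d * k)) x = x := by
    intro k
    induction k with
    | zero => simp
    | succ k ih =>
      rw [Nat.mul_succ, pow_add, AlgEquiv.mul_apply, hx, ih]
  have hm1 : s Z Y m ^ m = 1 := s_pow_m Z Y m
  by_cases h1 : 1 < m
  · obtain ⟨k, -, hk⟩ := Nat.exists_mul_mod_eq_one_of_coprime hd h1
    have h2 : s Z Y m ^ (d * k) = s Z Y m := by
      rw [pow_eq_pow_mod (d * k) hm1, hk, pow_one]
    have h3 := hpow k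
    rwa [h2] at h3
  · have hm : m = 1 := by
      have : m ≠ 0 := NeZero.ne m
      omega
    subst hm
    have : s Z Y 1 = 1 := by simpa using hm1
    rw [this]; rfl

/-- `σ`-semilinear Artin independence: if `τ` is additive on the `L0`-space `V` with
`τ (l • v) = s^d (l) • τ v` with `d` coprime to `m`, then `Z0`-independent fixed vectors of `τ` are
`L0`-independent. -/
theorem artin_independent [NeZero m] {V : Type*} [AddCommGroup V] [Module (L0 Z Y m) V]
    (τ : V →+ V) {d : ℕ} (hd : Nat.Coprime d m)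
    (hτ : ∀ (l : L0 Z Y m) (v : V), τ (l • v) = (s Z Y m ^ d) l • τ v)
    {ι : Type*} (v : ι → V) (hfix : ∀ i, τ (v i) = v i)
    (hindep : LinearIndependent (Z0 Z Y m) v) : LinearIndependent (L0 Z Y m) v := by
  classical
  rw [linearIndependent_iff']
  -- strong induction on the size of the support
  have key : ∀ (n : ℕ) (t : Finset ι) (g : ι → L0 Z Y m), t.card = n →
      ∑ i ∈ t, g i • v i = 0 → ∀ i ∈ t, g i = 0 := by
    intro n
    induction n using Nat.strong_induction_on with
    | _ n ih =>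
      intro t g ht hsum i0 hi0
      by_contra hne
      -- normalise `g i0 = 1`
      set g' : ι → L0 Z Y m := fun i => (g i0)⁻¹ * g i with hg'
      have hg'0 : g' i0 = 1 := by simp [hg', hne]
      have hsum' : ∑ i ∈ t, g' i • v i = 0 := by
        have : ∑ i ∈ t, g' i • v i = (g i0)⁻¹ • ∑ i ∈ t, g i • v i := by
          rw [Finset.smul_sum]
          exact Finset.sum_congr rfl fun i _ => by simp [hg', mul_smul]
        rw [this, hsum, smul_zero]
      have hτsum : ∑ i ∈ t, ((s Z Y m ^ d) (g' i)) • v i = 0 := by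
        have h0 : τ (∑ i ∈ t, g' i • v i) = 0 := by rw [hsum', map_zero]
        rw [map_sum] at h0
        rw [← h0]
        exact Finset.sum_congr rfl fun i _ => by rw [hτ, hfix]
      -- the difference has smaller support
      have hdiff : ∑ i ∈ t.erase i0, ((s Z Y m ^ d) (g' i) - g' i) • v i = 0 := by
        have h1 : ∑ i ∈ t, ((s Z Y m ^ d) (g' i) - g' i) • v i = 0 := by
          simp only [sub_smul, Finset.sum_sub_distrib, hτsum, hsum', sub_zero]
        rw [← Finset.add_sum_erase t _ hi0] at h1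
        simpa [hg'0] using h1
      have hcard : (t.erase i0).card < n := by
        rw [← ht]; exact Finset.card_erase_lt_of_mem hi0
      have hfixed : ∀ i ∈ t, (s Z Y m ^ d) (g' i) = g' i := by
        intro i hi
        by_cases hii : i = i0
        · subst hii; simp [hg'0]
        · have := ih _ hcard (t.erase i0) (fun i => (s Z Y m ^ d) (g' i) - g' i) rfl hdiff i
            (Finset.mem_erase.2 ⟨hii, hi⟩)
          exact sub_eq_zero.1 this
      have hmem : ∀ i ∈ t, g' i ∈ Z0 Z Y m := fun i hi => mem_Z0_of_pow_fixed hd (hfixed i hi)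
      -- now a `Z0`-relation
      have hlin := linearIndependent_iff'.1 hindep t
        (fun i => if h : i ∈ t then ⟨g' i, hmem i h⟩ else 0) (by
          rw [← hsum']
          refine Finset.sum_congr rfl fun i hi => ?_
          simp only [dif_pos hi]
          rfl) i0 hi0
      have : (1 : L0 Z Y m) = 0 := by
        have h2 := congrArg (Subtype.val) hlin
        simpa [dif_pos hi0, hg'0] using h2
      exact one_ne_zero this
  intro t g hsum i hi
  exact key _ t g rfl hsum i hi

end Artin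

end Crest.Agent.Lib.Kurosh.RatExt
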