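import Mathlib
import Crest.Agent.Lib.Kurosh.RatExt

/-!
# S0270, blueprint 6.2: independence of squarefree monomials over `Z0`, and trace duality

* `supMon S`: the monomial `∏_{p ∈ S} X_p`.
* `supMon_indep`: monomials with distinct supports inside a window whose translates are disjoint
  are `Z0`-independent (block specialization; the specialized matrix is the inclusion matrix of the
  supports, which has trivial kernel).
* `exists_dual_tr`: for a `Z0`-independent family in `L0` there is `x` with `tr (x * M i₀) = m`,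
  `tr (x * M i) = 0` for `i ≠ i₀`.
-/

set_option autoImplicit false

open scoped TensorProduct

namespace Crest.Agent.Lib.Kurosh.BlockIndep

open RatExt

variable (Z : Type*) [Field Z] (Y : Type*) (m : ℕ)

/-- The squarefree monomial with support `S`. -/
noncomputable def supMon (S : Finset (ZMod m × Y)) : Pol Z Y m := ∏ p ∈ S, MvPolynomial.X p

lemma sPol_pow_X (k : ℕ) (r : ZMod m) (y : Y) :
    (sPol Z Y m ^ k) (MvPolynomial.X (r, y)) = MvPolynomial.X (r + (k : ZMod m), y) := by
  induction k generalizing r with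
  | zero => simp
  | succ k ih =>
    rw [pow_succ]
    show (sPol Z Y m ^ k) (sPol Z Y m (MvPolynomial.X (r, y))) = _
    have : sPol Z Y m (MvPolynomial.X (r, y)) = MvPolynomial.X (r + 1, y) := by
      simp [sPol, shiftIdx]
    rw [this, ih]
    congr 2
    push_cast
    ring

lemma s_pow_algebraMap (k : ℕ) (p : Pol Z Y m) :
    (s Z Y m ^ k) (algebraMap (Pol Z Y m) (L0 Z Y m) p) =
      algebraMap (Pol Z Y m) (L0 Z Y m) ((sPol Z Y m ^ k) p) := by
  induction k generalizing p with
  | zero => simp
  | succ k ih =>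
    rw [pow_succ]
    show (s Z Y m ^ k) (s Z Y m (algebraMap _ _ p)) = _
    rw [s_algebraMap, ih]
    rfl

/-- **Independence of monomials.** `Sf` are distinct finite supports; `r` are shifts such that the
translates of the positions `A` are disjoint. -/
theorem supMon_indep [NeZero m] {ι : Type*} [Fintype ι] (Sf : ι → Finset (ZMod m × Y))
    (hinj : Function.Injective Sf) (r : ι → ℕ) (A : Finset (ZMod m))
    (hA : ∀ i, ∀ p ∈ Sf i, p.1 ∈ A)
    (hdisj : ∀ i i' a a', a ∈ A → a' ∈ A →
      ((r i : ZMod m) + a = (r i' : ZMod m) + a') → i = i' ∧ a = a') :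
    LinearIndependent (Z0 Z Y m) (fun i => algebraMap (Pol Z Y m) (L0 Z Y m) (supMon Z Y m (Sf i))) := by
  classical
  -- the specialization point
  let t : ZMod m × Y → Z := fun p =>
    if ∃ i, ∃ a, (a, p.2) ∈ Sf i ∧ p.1 = (r i : ZMod m) + a then 1 else 0
  have ht : ∀ i a y, a ∈ A → t ((r i : ZMod m) + a, y) = if (a, y) ∈ Sf i then 1 else 0 := by
    intro i a y ha
    simp only [t]
    by_cases h : (a, y) ∈ Sf i
    · rw [if_pos h, if_pos]
      exact ⟨i, a, h, rfl⟩
    · rw [if_neg h, if_neg]
      rintro ⟨i', a', h1, h2⟩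
      obtain ⟨rfl, rfl⟩ := hdisj i i' a a' ha (hA i' _ h1) h2
      exact h h1
  let P : Matrix ι ι (Pol Z Y m) := fun i k => (sPol Z Y m ^ (r i)) (supMon Z Y m (Sf k))
  have hentry : ∀ i k, MvPolynomial.eval t (P i k) = if Sf k ⊆ Sf i then 1 else 0 := by
    intro i k
    simp only [P, supMon, map_prod, AlgEquiv.coe_pow]
    have h1 : ∀ p ∈ Sf k, MvPolynomial.eval t ((sPol Z Y m ^ (r i)) (MvPolynomial.X p)) =
        if p ∈ Sf i then 1 else 0 := by
      rintro ⟨a, y⟩ hp
      rw [sPol_pow_X, MvPolynomial.eval_X, add_comm, ht i a y (hA k _ hp)]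
    have h2 : ∏ p ∈ Sf k, MvPolynomial.eval t (((sPol Z Y m) ^ (r i)) (MvPolynomial.X p)) =
        ∏ p ∈ Sf k, (if p ∈ Sf i then (1 : Z) else 0) := Finset.prod_congr rfl h1
    have h3 : ∀ n : ℕ, ∀ x, (⇑(sPol Z Y m))^[n] x = ((sPol Z Y m) ^ n) x := by
      intro n x
      rw [← AlgEquiv.coe_pow]
    simp only [h3]
    rw [h2]
    by_cases hsub : Sf k ⊆ Sf i
    · rw [if_pos hsub]
      exact Finset.prod_eq_one fun p hp => if_pos (hsub hp)
    · rw [if_neg hsub]
      obtain ⟨p, hp, hp'⟩ := Finset.not_subset.mp hsub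
      exact Finset.prod_eq_zero hp (if_neg hp')
  -- the specialized matrix has nonzero determinant
  let Q : Matrix ι ι Z := (MvPolynomial.eval t).mapMatrix P
  have hQ : Q.det ≠ 0 := by
    intro h0
    obtain ⟨v, hv, hv0⟩ := Matrix.exists_mulVec_eq_zero_iff.mpr h0
    -- a minimal support with nonzero coefficient
    have hne : (Finset.univ.filter fun i => v i ≠ 0).Nonempty := by
      obtain ⟨i, hi⟩ := Function.ne_iff.mp hv
      exact ⟨i, by simpa using hi⟩
    obtain ⟨i0, hi0, hmin⟩ := Finset.exists_min_image _ (fun i => (Sf i).card) hne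
    have hi0' : v i0 ≠ 0 := by simpa using hi0
    have e := congrFun hv0 i0
    rw [Matrix.mulVec, dotProduct, Pi.zero_apply] at e
    have e2 : ∀ k, Q i0 k * v k = if k = i0 then v i0 else 0 := by
      intro k
      have hQ' : Q i0 k = if Sf k ⊆ Sf i0 then 1 else 0 := hentry i0 k
      rw [hQ']
      by_cases hk : k = i0
      · subst hk
        simp
      · rw [if_neg hk]
        by_cases hsub : Sf k ⊆ Sf i0
        · rw [if_pos hsub, one_mul]
          by_contra hvk
          have hmem : k ∈ Finset.univ.filter fun i => v i ≠ 0 := by simpa using hvk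
          have h1 := hmin k hmem
          have h2 : Sf k = Sf i0 := Finset.eq_of_subset_of_card_le hsub h1
          exact hk (hinj h2)
        · rw [if_neg hsub, zero_mul]
    rw [Finset.sum_congr rfl (fun k _ => e2 k), Finset.sum_ite_eq' Finset.univ i0] at e
    simp only [Finset.mem_univ, if_true] at e
    exact hi0' e
  have hdetP : P.det ≠ 0 := by
    intro h0
    have h1 := RingHom.map_det (MvPolynomial.eval t) P
    rw [h0, map_zero] at h1
    exact hQ h1.symm
  let R : Matrix ι ι (L0 Z Y m) := (algebraMap (Pol Z Y m) (L0 Z Y m)).mapMatrix P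
  have hdetR : R.det ≠ 0 := by
    have h1 := RingHom.map_det (algebraMap (Pol Z Y m) (L0 Z Y m)) P
    have h2 : R.det = algebraMap (Pol Z Y m) (L0 Z Y m) P.det := h1.symm
    rw [h2]
    intro h3
    exact hdetP (IsFractionRing.injective (Pol Z Y m) (L0 Z Y m) (by rw [h3, map_zero]))
  rw [Fintype.linearIndependent_iff]
  intro lam hsum v0
  have hmul : R.mulVec (fun v => ((lam v : Z0 Z Y m) : L0 Z Y m)) = 0 := by
    ext u
    have h1 := congrArg (s Z Y m ^ (r u)) hsum
    rw [map_sum, map_zero] at h1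
    rw [Pi.zero_apply, ← h1, Matrix.mulVec, dotProduct]
    refine Finset.sum_congr rfl fun v _ => ?_
    have hsm : (lam v • algebraMap (Pol Z Y m) (L0 Z Y m) (supMon Z Y m (Sf v))) =
        (lam v : L0 Z Y m) * algebraMap (Pol Z Y m) (L0 Z Y m) (supMon Z Y m (Sf v)) := rfl
    rw [hsm, map_mul, s_pow_of_mem Z Y m (lam v).2, s_pow_algebraMap, mul_comm]
    rfl
  have h2 := Matrix.eq_zero_of_mulVec_eq_zero hdetR hmul
  have h3 := congrFun h2 v0
  exact Subtype.ext h3

/-- **Independence of monomials**, general exponents: distinct supports inside a window whose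
translates are disjoint. -/
theorem mon_indep [NeZero m] {ι : Type*} [Fintype ι] (e : ι → (ZMod m × Y →₀ ℕ))
    (hinj : Function.Injective fun i => (e i).support) (r : ι → ℕ) (A : Finset (ZMod m))
    (hA : ∀ i, ∀ p ∈ (e i).support, p.1 ∈ A)
    (hdisj : ∀ i i' a a', a ∈ A → a' ∈ A →
      ((r i : ZMod m) + a = (r i' : ZMod m) + a') → i = i' ∧ a = a') :
    LinearIndependent (Z0 Z Y m)
      (fun i => algebraMap (Pol Z Y m) (L0 Z Y m) (MvPolynomial.monomial (e i) (1 : Z))) := by
  classical
  let t : ZMod m × Y → Z := fun p =>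
    if ∃ i, ∃ a, (a, p.2) ∈ (e i).support ∧ p.1 = (r i : ZMod m) + a then 1 else 0
  have ht : ∀ i a y, a ∈ A → t ((r i : ZMod m) + a, y) = if (a, y) ∈ (e i).support then 1 else 0 := by
    intro i a y ha
    simp only [t]
    by_cases h : (a, y) ∈ (e i).support
    · rw [if_pos h, if_pos]
      exact ⟨i, a, h, rfl⟩
    · rw [if_neg h, if_neg]
      rintro ⟨i', a', h1, h2⟩
      obtain ⟨rfl, rfl⟩ := hdisj i i' a a' ha (hA i' _ h1) h2
      exact h h1
  let P : Matrix ι ι (Pol Z Y m) := fun i k =>
    (sPol Z Y m ^ (r i)) (MvPolynomial.monomial (e k) (1 : Z))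
  have hentry : ∀ i k, MvPolynomial.eval t (P i k) = if (e k).support ⊆ (e i).support then 1 else 0 := by
    intro i k
    have h0 : P i k = ∏ p ∈ (e k).support, (MvPolynomial.X (p.1 + ((r i : ℕ) : ZMod m), p.2) : Pol Z Y m) ^ (e k p) := by
      simp only [P]
      rw [MvPolynomial.monomial_eq, Finsupp.prod, map_mul, map_prod]
      have hC : (sPol Z Y m ^ (r i)) (MvPolynomial.C (1 : Z)) = 1 := by
        rw [map_one, map_one]
      rw [hC, one_mul]
      refine Finset.prod_congr rfl fun p _ => ?_
      rw [map_pow]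
      obtain ⟨a, y⟩ := p
      rw [sPol_pow_X]
    rw [h0, map_prod]
    have h1 : ∀ p ∈ (e k).support, MvPolynomial.eval t
        ((MvPolynomial.X (p.1 + ((r i : ℕ) : ZMod m), p.2) : Pol Z Y m) ^ (e k p)) =
        if p ∈ (e i).support then 1 else 0 := by
      rintro ⟨a, y⟩ hp
      rw [map_pow, MvPolynomial.eval_X]
      simp only
      rw [add_comm, ht i a y (hA k _ hp)]
      have hne : e k (a, y) ≠ 0 := Finsupp.mem_support_iff.mp hp
      split_ifs
      · simp
      · exact zero_pow hne
    rw [Finset.prod_congr rfl h1]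
    by_cases hsub : (e k).support ⊆ (e i).support
    · rw [if_pos hsub]
      exact Finset.prod_eq_one fun p hp => if_pos (hsub hp)
    · rw [if_neg hsub]
      obtain ⟨p, hp, hp'⟩ := Finset.not_subset.mp hsub
      exact Finset.prod_eq_zero hp (if_neg hp')
  let Q : Matrix ι ι Z := (MvPolynomial.eval t).mapMatrix P
  have hQ : Q.det ≠ 0 := by
    intro h0
    obtain ⟨v, hv, hv0⟩ := Matrix.exists_mulVec_eq_zero_iff.mpr h0
    have hne : (Finset.univ.filter fun i => v i ≠ 0).Nonempty := by
      obtain ⟨i, hi⟩ := Function.ne_iff.mp hv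
      exact ⟨i, by simpa using hi⟩
    obtain ⟨i0, hi0, hmin⟩ := Finset.exists_min_image _ (fun i => (e i).support.card) hne
    have hi0' : v i0 ≠ 0 := by simpa using hi0
    have e0 := congrFun hv0 i0
    rw [Matrix.mulVec, dotProduct, Pi.zero_apply] at e0
    have e2 : ∀ k, Q i0 k * v k = if k = i0 then v i0 else 0 := by
      intro k
      have hQ' : Q i0 k = if (e k).support ⊆ (e i0).support then 1 else 0 := hentry i0 k
      rw [hQ']
      by_cases hk : k = i0
      · subst hk
        simp
      · rw [if_neg hk]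
        by_cases hsub : (e k).support ⊆ (e i0).support
        · rw [if_pos hsub, one_mul]
          by_contra hvk
          have hmem : k ∈ Finset.univ.filter fun i => v i ≠ 0 := by simpa using hvk
          have h1 := hmin k hmem
          have h2 : (e k).support = (e i0).support := Finset.eq_of_subset_of_card_le hsub h1
          exact hk (hinj h2)
        · rw [if_neg hsub, zero_mul]
    rw [Finset.sum_congr rfl (fun k _ => e2 k), Finset.sum_ite_eq' Finset.univ i0] at e0
    simp only [Finset.mem_univ, if_true] at e0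
    exact hi0' e0
  have hdetP : P.det ≠ 0 := by
    intro h0
    have h1 := RingHom.map_det (MvPolynomial.eval t) P
    rw [h0, map_zero] at h1
    exact hQ h1.symm
  let R : Matrix ι ι (L0 Z Y m) := (algebraMap (Pol Z Y m) (L0 Z Y m)).mapMatrix P
  have hdetR : R.det ≠ 0 := by
    have h1 := RingHom.map_det (algebraMap (Pol Z Y m) (L0 Z Y m)) P
    have h2 : R.det = algebraMap (Pol Z Y m) (L0 Z Y m) P.det := h1.symm
    rw [h2]
    intro h3
    exact hdetP (IsFractionRing.injective (Pol Z Y m) (L0 Z Y m) (by rw [h3, map_zero]))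
  rw [Fintype.linearIndependent_iff]
  intro lam hsum v0
  have hmul : R.mulVec (fun v => ((lam v : Z0 Z Y m) : L0 Z Y m)) = 0 := by
    ext u
    have h1 := congrArg (s Z Y m ^ (r u)) hsum
    rw [map_sum, map_zero] at h1
    rw [Pi.zero_apply, ← h1, Matrix.mulVec, dotProduct]
    refine Finset.sum_congr rfl fun v _ => ?_
    have hsm : (lam v • algebraMap (Pol Z Y m) (L0 Z Y m) (MvPolynomial.monomial (e v) (1 : Z))) =
        (lam v : L0 Z Y m) * algebraMap (Pol Z Y m) (L0 Z Y m) (MvPolynomial.monomial (e v) (1 : Z)) := rfl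
    rw [hsm, map_mul, s_pow_of_mem Z Y m (lam v).2, s_pow_algebraMap, mul_comm]
    rfl
  have h2 := Matrix.eq_zero_of_mulVec_eq_zero hdetR hmul
  have h3 := congrFun h2 v0
  exact Subtype.ext h3

/-! ### Trace duality -/

/-- Duality for an independent family under a nondegenerate pairing. -/
theorem exists_dual_abs {F V : Type*} [Field F] [AddCommGroup V] [Module F V] [FiniteDimensional F V]
    (B : V →ₗ[F] V →ₗ[F] F) (hB : ∀ x, B x = 0 → x = 0) {ι : Type*} [DecidableEq ι]
    (M : ι → V) (hM : LinearIndependent F M) (i0 : ι) (c : F) :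
    ∃ x : V, ∀ i, B x (M i) = if i = i0 then c else 0 := by
  classical
  have hinj : Function.Injective B := by
    rw [← LinearMap.ker_eq_bot, LinearMap.ker_eq_bot']
    exact hB
  have hsurj : Function.Surjective B := by
    refine (LinearMap.injective_iff_surjective_of_finrank_eq_finrank ?_).mp hinj
    exact (Subspace.dual_finrank_eq).symm
  obtain ⟨h, hh⟩ := LinearMap.exists_leftInverse_of_injective (Finsupp.linearCombination F M)
    (LinearMap.ker_eq_bot.mpr hM)
  let g : V →ₗ[F] F := c • ((Finsupp.lapply i0).comp h)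
  obtain ⟨x, hx⟩ := hsurj g
  refine ⟨x, fun i => ?_⟩
  rw [hx]
  have h1 : h (M i) = Finsupp.single i 1 := by
    have := LinearMap.congr_fun hh (Finsupp.single i 1)
    simpa using this
  simp only [g, LinearMap.smul_apply, LinearMap.comp_apply, h1, Finsupp.lapply_apply, smul_eq_mul]
  by_cases hi : i = i0
  · subst hi; simp
  · rw [if_neg hi, Finsupp.single_eq_of_ne (by tauto)]; simp

set_option synthInstance.maxHeartbeats 400000 in
/-- Trace duality in `L0`: for a `Z0`-independent family `M` there is `x` with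
`tr (x * M i) = m δ_{i,i₀}`. -/
theorem exists_dual_tr [CharZero Z] [NeZero m] [Nonempty Y] {ι : Type*} [DecidableEq ι]
    (M : ι → L0 Z Y m) (hM : LinearIndependent (Z0 Z Y m) M) (i0 : ι) :
    ∃ x : L0 Z Y m, ∀ i, tr Z Y m (x * M i) = if i = i0 then (m : L0 Z Y m) else 0 := by
  classical
  have hm0 : (m : L0 Z Y m) ≠ 0 := by
    have h : (m : L0 Z Y m) = algebraMap Z (L0 Z Y m) (m : Z) := by simp
    rw [h]
    intro h0
    have h1 : (m : Z) = 0 := (map_eq_zero_iff _ (algebraMap Z (L0 Z Y m)).injective).mp h0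
    exact (NeZero.ne m) (by exact_mod_cast h1)
  let B : L0 Z Y m →ₗ[Z0 Z Y m] L0 Z Y m →ₗ[Z0 Z Y m] Z0 Z Y m :=
    LinearMap.mk₂ (Z0 Z Y m) (fun x y => trLin Z Y m (x * y))
      (by intro a b c; rw [add_mul, map_add])
      (by
        intro c a b
        rw [smul_mul_assoc, map_smul])
      (by intro a b c; rw [mul_add, map_add])
      (by
        intro c a b
        rw [mul_smul_comm, map_smul])
  have hB : ∀ x, B x = 0 → x = 0 := by
    intro x hx
    by_contra hx0
    have h1 := LinearMap.congr_fun hx x⁻¹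
    have h2 : ((B x x⁻¹ : Z0 Z Y m) : L0 Z Y m) = tr Z Y m (x * x⁻¹) := by
      show ((trLin Z Y m (x * x⁻¹) : Z0 Z Y m) : L0 Z Y m) = _
      rw [trLin_coe]
    rw [h1, mul_inv_cancel₀ hx0, tr_of_mem Z Y m (Subfield.one_mem _), mul_one] at h2
    exact hm0 (h2.symm.trans (by simp))
  obtain ⟨x, hx⟩ := exists_dual_abs B hB M hM i0 ((m : ℕ) : Z0 Z Y m)
  refine ⟨x, fun i => ?_⟩
  have h2 : ((B x (M i) : Z0 Z Y m) : L0 Z Y m) = tr Z Y m (x * M i) := by
    show ((trLin Z Y m (x * M i) : Z0 Z Y m) : L0 Z Y m) = _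
    rw [trLin_coe]
  rw [← h2, hx i]
  split_ifs <;> simp

end Crest.Agent.Lib.Kurosh.BlockIndep
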