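import Crest.Agent.Lib.Kurosh.SkewLaurent

/-!
# S0270, blueprint 6.2: canonical conjugation into `K0((ϖ))`

`L` is a field and `s : RingAut L` has `s ^ m = 1` with `(m : L) ≠ 0`.
`IsFix x`: all coefficients of `x : SL L s` are `s`-fixed (so `x ∈ K0((ϖ))`).

* `pr`, `tr`, `solve`: `s (solve n) - solve n = n - pr n`.
* `proj`: the coefficientwise projection `π_ϖ`, linear over `IsFix` series, killing commutators.
* `centralizer`: an element commuting with `ζ = ϖ + …`, `IsFix ζ`, is `IsFix`.
* `canonU m ξ`: for `ξ = ϖ + O(ϖ²)`, the canonical `u ≡ 1 mod ϖ` with `u ξ u⁻¹` fixed.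
  It depends only on truncations of `ξ` and has coefficients in every `s`-stable subfield
  containing the coefficients of `ξ`.
-/

set_option autoImplicit false

namespace Crest.Agent.Lib.Kurosh.CanonU

open SL Finset

variable {L : Type*} [Field L] {s : RingAut L}

/-! ### Basic facts on `LB` -/

lemma LB.sum {ι : Type*} (t : Finset ι) (f : ι → SL L s) {a : ℤ} (h : ∀ i ∈ t, (f i).LB a) :
    (∑ i ∈ t, f i).LB a := by
  classical
  induction t using Finset.induction_on with
  | empty => simpa using lB_zero a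
  | insert i t hi ih =>
    rw [Finset.sum_insert hi]
    exact (h i (Finset.mem_insert_self _ _)).add (ih fun j hj => h j (Finset.mem_insert_of_mem hj))

lemma coeff_eq_of_sub_LB {f g : SL L s} {a i : ℤ} (h : (f - g).LB a) (hi : i < a) :
    f.coeff i = g.coeff i := by
  have := h i hi
  rw [coeff_sub, sub_eq_zero] at this
  exact this

lemma sub_LB_of_coeff_eq {f g : SL L s} {a : ℤ} (h : ∀ i, i < a → f.coeff i = g.coeff i) :
    (f - g).LB a := by
  intro i hi
  rw [coeff_sub, h i hi, sub_self]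

lemma LB_symm {f g : SL L s} {a : ℤ} (h : (f - g).LB a) : (g - f).LB a := by
  have := LB.neg h
  rwa [neg_sub] at this

lemma LB_trans {f g k : SL L s} {a : ℤ} (h : (f - g).LB a) (h' : (g - k).LB a) :
    (f - k).LB a := by
  have := LB.add h h'
  rwa [sub_add_sub_cancel] at this

lemma coeff_inv_of_LB {f : SL L s} {a : ℤ} (hf : f.LB a) (h0 : f.coeff a ≠ 0) :
    f⁻¹.LB (-a) ∧ f.coeff a * (s ^ a) (f⁻¹.coeff (-a)) = 1 := by
  have hne : f ≠ 0 := by
    rintro rfl
    exact h0 rfl
  have hval : SL.val f = a := val_eq_of h0 hf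
  have hLB : f⁻¹.LB (-a) := by
    have hinv : f⁻¹ = invSeries f (SL.val f) :=
      (eq_inv_of_mul_eq_one_right (mul_invSeries hne)).symm
    rw [hinv, hval]
    exact lB_invSeries f a
  refine ⟨hLB, ?_⟩
  have h1 : f * f⁻¹ = 1 := mul_inv_cancel₀ hne
  have := coeff_mul_add hf hLB
  rw [h1] at this
  have h2 : a + -a = 0 := by ring
  rw [h2, coeff_one, if_pos rfl] at this
  exact this.symm

/-- `v ≡ 1` modulo `ϖ`. -/
def OneP (v : SL L s) : Prop := (v - 1).LB 1

lemma OneP.LB0 {v : SL L s} (hv : OneP v) : v.LB 0 := by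
  have h1 : (v - 1 + 1).LB 0 := LB.add (LB.mono hv (by norm_num)) lB_one
  simpa using h1

lemma OneP.coeff0 {v : SL L s} (hv : OneP v) : v.coeff 0 = 1 := by
  have := hv 0 (by norm_num)
  rw [coeff_sub, coeff_one, if_pos rfl, sub_eq_zero] at this
  exact this

lemma OneP.ne_zero {v : SL L s} (hv : OneP v) : v ≠ 0 := by
  rintro rfl
  have := hv.coeff0
  simp at this

lemma OneP.inv_LB0 {v : SL L s} (hv : OneP v) : v⁻¹.LB 0 := by
  have := (coeff_inv_of_LB hv.LB0 (by rw [hv.coeff0]; exact one_ne_zero)).1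
  simpa using this

lemma OneP.inv {v : SL L s} (hv : OneP v) : OneP v⁻¹ := by
  have h1 : v⁻¹ - 1 = v⁻¹ * (1 - v) := by
    rw [mul_sub, mul_one, inv_mul_cancel₀ hv.ne_zero]
  unfold OneP
  rw [h1]
  have h2 : (1 - v).LB 1 := LB_symm hv
  simpa using LB.mul hv.inv_LB0 h2

lemma OneP.mul {v w : SL L s} (hv : OneP v) (hw : OneP w) : OneP (v * w) := by
  have h1 : v * w - 1 = (v - 1) * w + (w - 1) := by noncomm_ring
  unfold OneP
  rw [h1]
  refine LB.add ?_ hw
  simpa using LB.mul hv hw.LB0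

lemma oneP_one : OneP (1 : SL L s) := by
  unfold OneP
  rw [sub_self]
  exact lB_zero _

/-- Conjugation. -/
noncomputable def conj (v x : SL L s) : SL L s := v * x * v⁻¹

lemma conj_LB {v x : SL L s} (hv : OneP v) {a : ℤ} (hx : x.LB a) : (conj v x).LB a := by
  have := LB.mul (LB.mul hv.LB0 hx) hv.inv_LB0
  simpa [conj] using this

lemma conj_sub (v x y : SL L s) : conj v (x - y) = conj v x - conj v y := by
  simp only [conj]; noncomm_ring

lemma inv_sub_inv_LB {v w : SL L s} (hv : OneP v) (hw : OneP w) {c : ℤ} (h : (v - w).LB c) :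
    (v⁻¹ - w⁻¹).LB c := by
  have e : v⁻¹ - w⁻¹ = v⁻¹ * (w - v) * w⁻¹ := by
    rw [mul_sub, sub_mul, mul_assoc, mul_inv_cancel₀ hw.ne_zero, inv_mul_cancel₀ hv.ne_zero]
    simp
  rw [e]
  have := LB.mul (LB.mul hv.inv_LB0 (LB_symm h)) hw.inv_LB0
  simpa using this

/-- Two conjugators which are close give close conjugates. -/
lemma conj_congr {v w x : SL L s} (hv : OneP v) (hw : OneP w) {c e : ℤ} (h : (v - w).LB c)
    (hx : x.LB e) : (conj v x - conj w x).LB (c + e) := by
  have e1 : conj v x - conj w x = (v - w) * x * v⁻¹ + w * x * (v⁻¹ - w⁻¹) := by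
    simp only [conj]; noncomm_ring
  rw [e1]
  refine LB.add ?_ ?_
  · simpa using LB.mul (LB.mul h hx) hv.inv_LB0
  · have := LB.mul (LB.mul hw.LB0 hx) (inv_sub_inv_LB hv hw h)
    have e2 : 0 + e + c = c + e := by ring
    rwa [e2] at this

/-! ### `s`-fixed elements and series -/

lemma zpow_fixed {a : L} (ha : s a = a) (i : ℤ) : (s ^ i) a = a := by
  have hinv : s⁻¹ a = a := by
    conv_lhs => rw [← ha]
    show (s⁻¹ * s) a = a
    rw [inv_mul_cancel]; rfl
  induction i using Int.induction_on with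
  | zero => simp
  | succ k ih => rw [zpow_add_one, RingAut.mul_apply, ha, ih]
  | pred k ih => rw [zpow_sub_one, RingAut.mul_apply, hinv, ih]

/-- All coefficients `s`-fixed. -/
def IsFix (x : SL L s) : Prop := ∀ i, s (x.coeff i) = x.coeff i

lemma IsFix.coeff_mul {f g : SL L s} (hg : IsFix g) {a b : ℤ} (ha : f.LB a) (hb : g.LB b) (n : ℤ) :
    (f * g).coeff n = ∑ i ∈ Finset.Icc a (n - b), f.coeff i * g.coeff (n - i) := by
  rw [SL.coeff_mul ha hb]
  refine Finset.sum_congr rfl fun i _ => ?_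
  rw [zpow_fixed (hg _)]

lemma isFix_zero : IsFix (0 : SL L s) := fun i => by simp

lemma isFix_one : IsFix (1 : SL L s) := fun i => by
  rw [coeff_one]; split_ifs <;> simp

lemma IsFix.add {f g : SL L s} (hf : IsFix f) (hg : IsFix g) : IsFix (f + g) := fun i => by
  rw [coeff_add, map_add, hf, hg]

lemma IsFix.neg {f : SL L s} (hf : IsFix f) : IsFix (-f) := fun i => by
  rw [coeff_neg, map_neg, hf]

lemma IsFix.sub {f g : SL L s} (hf : IsFix f) (hg : IsFix g) : IsFix (f - g) := fun i => by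
  rw [coeff_sub, map_sub, hf, hg]

lemma IsFix.mul {f g : SL L s} (hf : IsFix f) (hg : IsFix g) : IsFix (f * g) := fun n => by
  obtain ⟨a, ha⟩ := f.exists_LB
  obtain ⟨b, hb⟩ := g.exists_LB
  rw [hg.coeff_mul ha hb, map_sum]
  refine Finset.sum_congr rfl fun i _ => ?_
  rw [map_mul, hf, hg]

lemma IsFix.mul_comm {f g : SL L s} (hf : IsFix f) (hg : IsFix g) : f * g = g * f := by
  obtain ⟨a, ha⟩ := f.exists_LB
  obtain ⟨b, hb⟩ := g.exists_LB
  apply SL.ext
  funext n
  rw [hg.coeff_mul ha hb, hf.coeff_mul hb ha]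
  refine Finset.sum_nbij' (fun i => n - i) (fun i => n - i) ?_ ?_ ?_ ?_ ?_
  · intro i hi
    simp only [Finset.mem_Icc] at hi ⊢
    omega
  · intro i hi
    simp only [Finset.mem_Icc] at hi ⊢
    omega
  · intro i _
    ring
  · intro i _
    ring
  · intro i _
    rw [sub_sub_cancel, _root_.mul_comm]

lemma isFix_mon {a : L} (ha : s a = a) (i : ℤ) : IsFix (mon a i : SL L s) := fun n => by
  rw [coeff_mon]; split_ifs
  · exact ha
  · simp

lemma isFix_C {a : L} (ha : s a = a) : IsFix (C a : SL L s) := isFix_mon ha 0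

lemma IsFix.pow {f : SL L s} (hf : IsFix f) (n : ℕ) : IsFix (f ^ n) := by
  induction n with
  | zero => simpa using isFix_one
  | succ n ih => rw [pow_succ]; exact ih.mul hf

lemma IsFix.sum {ι : Type*} (t : Finset ι) (f : ι → SL L s) (h : ∀ i ∈ t, IsFix (f i)) :
    IsFix (∑ i ∈ t, f i) := by
  classical
  induction t using Finset.induction_on with
  | empty => simpa using isFix_zero
  | insert i t hi ih =>
    rw [Finset.sum_insert hi]
    exact (h i (Finset.mem_insert_self _ _)).add (ih fun j hj => h j (Finset.mem_insert_of_mem hj))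

/-! ### Coefficients in a stable subfield -/

/-- All coefficients in the subfield `F`. -/
def InSub (F : Subfield L) (x : SL L s) : Prop := ∀ i, x.coeff i ∈ F

/-- `F` is stable under `s` and its inverse. -/
structure Stable (F : Subfield L) (s : RingAut L) : Prop where
  fwd : ∀ x ∈ F, s x ∈ F
  bwd : ∀ x ∈ F, s⁻¹ x ∈ F

lemma Stable.zpow {F : Subfield L} (h : Stable F s) (i : ℤ) {x : L} (hx : x ∈ F) :
    (s ^ i) x ∈ F := by
  induction i using Int.induction_on generalizing x with
  | zero => simpa using hx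
  | succ k ih =>
    rw [zpow_add_one, RingAut.mul_apply]
    exact ih (h.fwd _ hx)
  | pred k ih =>
    rw [zpow_sub_one, RingAut.mul_apply]
    exact ih (h.bwd _ hx)

lemma inSub_zero (F : Subfield L) : InSub F (0 : SL L s) := fun i => by simp [F.zero_mem]

lemma inSub_one (F : Subfield L) : InSub F (1 : SL L s) := fun i => by
  rw [coeff_one]; split_ifs
  · exact F.one_mem
  · exact F.zero_mem

lemma inSub_mon (F : Subfield L) {a : L} (ha : a ∈ F) (i : ℤ) : InSub F (mon a i : SL L s) :=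
  fun n => by
    rw [coeff_mon]; split_ifs
    · exact ha
    · exact F.zero_mem

lemma InSub.add {F : Subfield L} {f g : SL L s} (hf : InSub F f) (hg : InSub F g) :
    InSub F (f + g) := fun i => by
  rw [coeff_add]; exact F.add_mem (hf i) (hg i)

lemma InSub.neg {F : Subfield L} {f : SL L s} (hf : InSub F f) : InSub F (-f) := fun i => by
  rw [coeff_neg]; exact F.neg_mem (hf i)

lemma InSub.sub {F : Subfield L} {f g : SL L s} (hf : InSub F f) (hg : InSub F g) :
    InSub F (f - g) := fun i => by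
  rw [coeff_sub]; exact F.sub_mem (hf i) (hg i)

lemma InSub.mul {F : Subfield L} (hF : Stable F s) {f g : SL L s} (hf : InSub F f)
    (hg : InSub F g) : InSub F (f * g) := fun n => by
  obtain ⟨a, ha⟩ := f.exists_LB
  obtain ⟨b, hb⟩ := g.exists_LB
  rw [SL.coeff_mul ha hb]
  exact F.sum_mem fun i _ => F.mul_mem (hf i) (hF.zpow i (hg _))

lemma InSub.inv {F : Subfield L} (hF : Stable F s) {f : SL L s} (hf : InSub F f) :
    InSub F f⁻¹ := by
  by_cases hne : f = 0
  · subst hne
    rw [inv_zero]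
    exact inSub_zero F
  set a := SL.val f with ha
  have hLB : f.LB a := lB_val f
  have h0 : f.coeff a ≠ 0 := coeff_val_ne hne
  obtain ⟨hg, _⟩ := coeff_inv_of_LB hLB h0
  set g := f⁻¹ with hgdef
  have hfg : f * g = 1 := mul_inv_cancel₀ hne
  have key : ∀ k : ℕ, g.coeff (-a + k) ∈ F := by
    intro k
    induction k using Nat.strong_induction_on with
    | _ k ih =>
      have e := SL.coeff_mul hLB hg (k : ℤ)
      rw [hfg] at e
      have hmem : a ∈ Finset.Icc a ((k : ℤ) - -a) := by
        simp only [Finset.mem_Icc, le_refl, true_and]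
        omega
      rw [← Finset.add_sum_erase _ _ hmem] at e
      have hrest : ∑ i ∈ (Finset.Icc a ((k : ℤ) - -a)).erase a,
          f.coeff i * (s ^ i) (g.coeff ((k : ℤ) - i)) ∈ F := by
        refine F.sum_mem fun i hi => F.mul_mem (hf i) (hF.zpow i ?_)
        simp only [Finset.mem_erase, Finset.mem_Icc] at hi
        obtain ⟨h1, h2, h3⟩ := hi
        have hpos : 0 ≤ (k : ℤ) + a - i := by omega
        obtain ⟨t, ht⟩ := Int.eq_ofNat_of_zero_le hpos
        have hlt : t < k := by omega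
        have := ih t hlt
        convert this using 2
        omega
      have hone : (1 : SL L s).coeff (k : ℤ) ∈ F := inSub_one F _
      have e2 : f.coeff a * (s ^ a) (g.coeff ((k : ℤ) - a)) ∈ F := by
        have : f.coeff a * (s ^ a) (g.coeff ((k : ℤ) - a)) =
            (1 : SL L s).coeff (k : ℤ) -
              ∑ i ∈ (Finset.Icc a ((k : ℤ) - -a)).erase a,
                f.coeff i * (s ^ i) (g.coeff ((k : ℤ) - i)) := by
          rw [e]; ring
        rw [this]
        exact F.sub_mem hone hrest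
      have e3 : (s ^ a) (g.coeff ((k : ℤ) - a)) ∈ F := by
        have : (s ^ a) (g.coeff ((k : ℤ) - a)) =
            (f.coeff a)⁻¹ * (f.coeff a * (s ^ a) (g.coeff ((k : ℤ) - a))) := by
          field_simp
        rw [this]
        exact F.mul_mem (F.inv_mem (hf _)) e2
      have e4 := hF.zpow (-a) e3
      have e5 : (s ^ (-a)) ((s ^ a) (g.coeff ((k : ℤ) - a))) = g.coeff ((k : ℤ) - a) := by
        rw [← RingAut.mul_apply, ← zpow_add]
        simp
      rw [e5] at e4
      convert e4 using 2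
      ring
  intro i
  by_cases hi : -a ≤ i
  · obtain ⟨t, ht⟩ := Int.eq_ofNat_of_zero_le (by omega : 0 ≤ i + a)
    have := key t
    convert this using 2
    omega
  · rw [hg i (by omega)]
    exact F.zero_mem

lemma InSub.mono {F F' : Subfield L} (h : F ≤ F') {f : SL L s} (hf : InSub F f) : InSub F' f :=
  fun i => h (hf i)


/-! ### Trace and additive Hilbert 90 -/

/-- `s ^ m = 1`, `m ≠ 0` in `L`. -/
structure Cyc (s : RingAut L) (m : ℕ) : Prop where
  pow : s ^ m = 1
  ne : (m : L) ≠ 0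

/-- The trace `∑_{r<m} s^r`. -/
noncomputable def tr (s : RingAut L) (m : ℕ) (a : L) : L := ∑ r ∈ range m, (s ^ r) a

/-- The projection `tr / m` to the fixed field. -/
noncomputable def pr (s : RingAut L) (m : ℕ) (a : L) : L := tr s m a / m

variable {m : ℕ}

lemma tr_add (a b : L) : tr s m (a + b) = tr s m a + tr s m b := by
  simp [tr, Finset.sum_add_distrib]

lemma tr_sub (a b : L) : tr s m (a - b) = tr s m a - tr s m b := by
  simp [tr, Finset.sum_sub_distrib]

lemma pow_succ_apply' (r : ℕ) (a : L) : (s ^ (r + 1)) a = s ((s ^ r) a) := by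
  rw [pow_succ']; rfl

lemma pow_succ_apply (r : ℕ) (a : L) : (s ^ (r + 1)) a = (s ^ r) (s a) := by
  rw [pow_succ]; rfl

lemma pow_fixed {a : L} (ha : s a = a) (r : ℕ) : (s ^ r) a = a := by
  induction r with
  | zero => rfl
  | succ r ih => rw [pow_succ_apply, ha, ih]

lemma sum_shift (h : Cyc s m) (a : L) : ∑ r ∈ range m, (s ^ (r + 1)) a = tr s m a := by
  have h1 := Finset.sum_range_succ (fun r => (s ^ r) a) m
  have h2 := Finset.sum_range_succ' (fun r => (s ^ r) a) m
  simp only [h.pow] at h1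
  rw [h1] at h2
  have e0 : (s ^ 0) a = a := rfl
  have e1 : (1 : RingAut L) a = a := rfl
  rw [e1, e0] at h2
  unfold tr
  exact (add_right_cancel h2).symm

lemma tr_s (h : Cyc s m) (a : L) : tr s m (s a) = tr s m a := by
  rw [← sum_shift h a]
  unfold tr
  exact Finset.sum_congr rfl fun r _ => (pow_succ_apply r a).symm

lemma s_tr (h : Cyc s m) (a : L) : s (tr s m a) = tr s m a := by
  have e : s (tr s m a) = ∑ r ∈ range m, (s ^ (r + 1)) a := by
    unfold tr
    rw [map_sum]
    exact Finset.sum_congr rfl fun r _ => (pow_succ_apply' r a).symm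
  rw [e, sum_shift h a]

lemma tr_sinv (h : Cyc s m) (a : L) : tr s m (s⁻¹ a) = tr s m a := by
  have e : s (s⁻¹ a) = a := by
    show (s * s⁻¹) a = a
    rw [mul_inv_cancel]; rfl
  conv_rhs => rw [← e]
  rw [tr_s h]

lemma tr_zpow (h : Cyc s m) (i : ℤ) (a : L) : tr s m ((s ^ i) a) = tr s m a := by
  induction i using Int.induction_on generalizing a with
  | zero => simp
  | succ k ih => rw [zpow_add_one, RingAut.mul_apply, ih, tr_s h]
  | pred k ih => rw [zpow_sub_one, RingAut.mul_apply, ih, tr_sinv h]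

lemma tr_mul_fixed {c : L} (hc : s c = c) (a : L) : tr s m (c * a) = c * tr s m a := by
  unfold tr
  rw [Finset.mul_sum]
  refine Finset.sum_congr rfl fun r _ => ?_
  rw [map_mul, pow_fixed hc]

lemma tr_fixed {c : L} (hc : s c = c) : tr s m c = m * c := by
  unfold tr
  rw [Finset.sum_congr rfl fun r _ => pow_fixed hc r]
  simp

lemma pr_add (a b : L) : pr s m (a + b) = pr s m a + pr s m b := by
  simp [pr, tr_add, add_div]

lemma pr_sub (a b : L) : pr s m (a - b) = pr s m a - pr s m b := by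
  simp [pr, tr_sub, sub_div]

lemma pr_neg (a : L) : pr s m (-a) = -pr s m a := by
  have := pr_sub (s := s) (m := m) 0 a
  have h0 : pr s m 0 = 0 := by simp [pr, tr]
  rw [h0, zero_sub, zero_sub] at this
  exact this

lemma pr_zero : pr s m 0 = 0 := by simp [pr, tr]

lemma pr_sum {ι : Type*} (t : Finset ι) (f : ι → L) :
    pr s m (∑ i ∈ t, f i) = ∑ i ∈ t, pr s m (f i) := by
  classical
  induction t using Finset.induction_on with
  | empty => simp [pr_zero]
  | insert i t hi ih => rw [Finset.sum_insert hi, Finset.sum_insert hi, pr_add, ih]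

lemma s_pr (h : Cyc s m) (a : L) : s (pr s m a) = pr s m a := by
  unfold pr
  rw [map_div₀, s_tr h, map_natCast]

lemma pr_zpow (h : Cyc s m) (i : ℤ) (a : L) : pr s m ((s ^ i) a) = pr s m a := by
  unfold pr
  rw [tr_zpow h]

lemma pr_mul_fixed {c : L} (hc : s c = c) (a : L) : pr s m (c * a) = c * pr s m a := by
  unfold pr
  rw [tr_mul_fixed hc, mul_div_assoc]

lemma pr_fixed (h : Cyc s m) {c : L} (hc : s c = c) : pr s m c = c := by
  unfold pr
  rw [tr_fixed hc]
  field_simp [h.ne]

lemma pr_pr (h : Cyc s m) (a : L) : pr s m (pr s m a) = pr s m a := pr_fixed h (s_pr h a)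

lemma Stable.tr {F : Subfield L} (hF : Stable F s) {a : L} (ha : a ∈ F) : tr s m a ∈ F := by
  unfold CanonU.tr
  refine F.sum_mem fun r _ => ?_
  have := hF.zpow (r : ℤ) ha
  simpa using this

lemma Stable.pr {F : Subfield L} (hF : Stable F s) {a : L} (ha : a ∈ F) : pr s m a ∈ F := by
  unfold CanonU.pr
  refine F.div_mem (hF.tr ha) ?_
  exact natCast_mem F m

/-- The additive Hilbert 90 solution. -/
noncomputable def solve (s : RingAut L) (m : ℕ) (n : L) : L :=
  (∑ r ∈ range m, (r : L) * (s ^ r) (n - pr s m n)) / m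

lemma s_solve (h : Cyc s m) (n : L) : s (solve s m n) - solve s m n = n - pr s m n := by
  set c := n - pr s m n with hc
  have htr : tr s m c = 0 := by
    rw [hc, tr_sub, tr_fixed (s_pr h n)]
    unfold pr
    field_simp [h.ne]
    ring
  have h1 := Finset.sum_range_succ (fun r => (r : L) * (s ^ r) c) m
  have h2 := Finset.sum_range_succ' (fun r => (r : L) * (s ^ r) c) m
  simp only [h.pow] at h1
  rw [h1] at h2
  have e1 : (1 : RingAut L) c = c := rfl
  rw [e1] at h2
  have e0 : (((0 : ℕ) : L)) * (s ^ 0) c = 0 := by simp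
  rw [e0, add_zero] at h2
  have h3 : ∑ r ∈ range m, (((r + 1 : ℕ) : L)) * (s ^ (r + 1)) c
      = s (∑ r ∈ range m, (r : L) * (s ^ r) c) + tr s m c := by
    rw [map_sum, ← sum_shift h c, ← Finset.sum_add_distrib]
    refine Finset.sum_congr rfl fun r _ => ?_
    rw [map_mul, map_natCast, ← pow_succ_apply' r c]
    push_cast
    ring
  rw [htr, add_zero] at h3
  rw [h3] at h2
  unfold solve
  rw [← hc, map_div₀, map_natCast]
  rw [← h2]
  field_simp [h.ne]
  ring

lemma Stable.solve {F : Subfield L} (hF : Stable F s) {n : L} (hn : n ∈ F) : solve s m n ∈ F := by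
  unfold CanonU.solve
  refine F.div_mem (F.sum_mem fun r _ => F.mul_mem (natCast_mem F r) ?_) (natCast_mem F m)
  have := hF.zpow (r : ℤ) (F.sub_mem hn (hF.pr (m := m) hn))
  simpa using this

/-! ### The projection `π_ϖ` -/

/-- Coefficientwise projection to the fixed field. -/
noncomputable def proj (s : RingAut L) (m : ℕ) (x : SL L s) : SL L s :=
  ⟨fun i => pr s m (x.coeff i), by
    obtain ⟨a, ha⟩ := x.exists_LB
    exact ⟨a, fun i hi => by rw [ha i hi, pr_zero]⟩⟩

@[simp] lemma coeff_proj (x : SL L s) (i : ℤ) : (proj s m x).coeff i = pr s m (x.coeff i) := rfl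

lemma proj_add (x y : SL L s) : proj s m (x + y) = proj s m x + proj s m y := by
  apply SL.ext; funext i; simp [pr_add]

lemma proj_sub (x y : SL L s) : proj s m (x - y) = proj s m x - proj s m y := by
  apply SL.ext; funext i; simp [pr_sub]

lemma proj_zero : proj s m (0 : SL L s) = 0 := by
  apply SL.ext; funext i; simp [pr_zero]

lemma proj_sum {ι : Type*} (t : Finset ι) (f : ι → SL L s) :
    proj s m (∑ i ∈ t, f i) = ∑ i ∈ t, proj s m (f i) := by
  classical
  induction t using Finset.induction_on with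
  | empty => simp [proj_zero]
  | insert i t hi ih => rw [Finset.sum_insert hi, Finset.sum_insert hi, proj_add, ih]

lemma LB.proj {x : SL L s} {a : ℤ} (h : x.LB a) : (proj s m x).LB a := fun i hi => by
  rw [coeff_proj, h i hi, pr_zero]

lemma isFix_proj (h : Cyc s m) (x : SL L s) : IsFix (proj s m x) := fun i => by
  rw [coeff_proj, s_pr h]

lemma proj_of_isFix (h : Cyc s m) {x : SL L s} (hx : IsFix x) : proj s m x = x := by
  apply SL.ext; funext i
  rw [coeff_proj, pr_fixed h (hx i)]

lemma proj_mul_left (h : Cyc s m) {a : SL L s} (ha : IsFix a) (x : SL L s) :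
    proj s m (a * x) = a * proj s m x := by
  apply SL.ext; funext n
  obtain ⟨p, hp⟩ := a.exists_LB
  obtain ⟨q, hq⟩ := x.exists_LB
  have hq' : (proj s m x).LB q := LB.proj hq
  rw [coeff_proj, SL.coeff_mul hp hq, (isFix_proj h x).coeff_mul hp hq', pr_sum]
  refine Finset.sum_congr rfl fun i _ => ?_
  rw [pr_mul_fixed (ha i), pr_zpow h, coeff_proj]

lemma proj_mul_right (h : Cyc s m) {a : SL L s} (ha : IsFix a) (x : SL L s) :
    proj s m (x * a) = proj s m x * a := by
  apply SL.ext; funext n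
  obtain ⟨p, hp⟩ := a.exists_LB
  obtain ⟨q, hq⟩ := x.exists_LB
  have hq' : (proj s m x).LB q := LB.proj hq
  rw [coeff_proj, ha.coeff_mul hq hp, ha.coeff_mul hq' hp, pr_sum]
  refine Finset.sum_congr rfl fun i _ => ?_
  rw [_root_.mul_comm, pr_mul_fixed (ha _), coeff_proj, _root_.mul_comm]

lemma proj_comm (h : Cyc s m) {a : SL L s} (ha : IsFix a) (x : SL L s) :
    proj s m (a * x - x * a) = 0 := by
  rw [proj_sub, proj_mul_left h ha, proj_mul_right h ha,
    ha.mul_comm (isFix_proj h x), sub_self]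

lemma InSub.proj {F : Subfield L} (hF : Stable F s) {x : SL L s} (hx : InSub F x) :
    InSub F (proj s m x) := fun i => by
  rw [coeff_proj]; exact hF.pr (hx i)

/-! ### `ξ = ϖ + O(ϖ²)` and the centraliser -/

/-- `ξ = ϖ + O(ϖ²)`. -/
structure Norm1 (ξ : SL L s) : Prop where
  lb : ξ.LB 1
  lead : ξ.coeff 1 = 1

lemma Norm1.sub_LB {ξ : SL L s} (h : Norm1 ξ) : (ξ - mon 1 1).LB 2 := by
  intro i hi
  rw [coeff_sub, coeff_mon]
  by_cases h1 : i = 1
  · rw [if_pos h1, h1, h.lead, sub_self]
  · rw [if_neg h1, h.lb i (by omega), sub_zero]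

lemma norm1_of_sub_LB {ξ : SL L s} (h : (ξ - mon 1 1).LB 2) : Norm1 ξ := by
  have e : ξ = (ξ - mon 1 1) + mon 1 1 := by abel
  constructor
  · rw [e]
    exact LB.add (LB.mono h (by norm_num)) (lB_mon 1 1)
  · have := h 1 (by norm_num)
    rw [coeff_sub, coeff_mon, if_pos rfl, sub_eq_zero] at this
    exact this

/-- An element commuting with `ζ = ϖ + …` (`ζ` with fixed coefficients) has fixed coefficients. -/
theorem isFix_of_comm (h : Cyc s m) {ζ x : SL L s} (hζ : Norm1 ζ) (hfix : IsFix ζ)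
    (hc : ζ * x = x * ζ) : IsFix x := by
  set y := x - proj s m x with hy
  have hcy : ζ * y = y * ζ := by
    have hp : ζ * proj s m x = proj s m x * ζ := hfix.mul_comm (isFix_proj h x)
    rw [hy, mul_sub, sub_mul, hc, hp]
  have hy0 : y = 0 := by
    by_contra hne
    set v := SL.val y with hv
    have hLB : y.LB v := lB_val y
    have hcv : y.coeff v ≠ 0 := coeff_val_ne hne
    -- compare coefficients at `v + 1`
    have e1 : (ζ * y).coeff (1 + v) = s (y.coeff v) := by
      rw [coeff_mul_add hζ.lb hLB, hζ.lead, one_mul, zpow_one]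
    have e2 : (y * ζ).coeff (v + 1) = y.coeff v := by
      rw [coeff_mul_add hLB hζ.lb, hζ.lead, map_one, mul_one]
    rw [hcy, add_comm, e2] at e1
    have hfx : s (y.coeff v) = y.coeff v := e1.symm
    have hpr : pr s m (y.coeff v) = 0 := by
      rw [hy, coeff_sub, pr_sub, coeff_proj, pr_pr h, sub_self]
    rw [pr_fixed h hfx] at hpr
    exact hcv hpr
  intro i
  have : x = proj s m x := sub_eq_zero.mp hy0
  rw [this]
  exact isFix_proj h x i

/-! ### The recursion -/

lemma conj_mul (a b x : SL L s) : conj (a * b) x = conj a (conj b x) := by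
  simp only [conj, mul_inv_rev]
  noncomm_ring

lemma oneP_one_add_mon (b : L) (k : ℕ) : OneP (1 + mon b ((k : ℤ) + 1) : SL L s) := by
  unfold OneP
  rw [add_sub_cancel_left]
  exact LB.mono (lB_mon _ _) (by omega)

/-- One correction step. -/
lemma step_conj {ζ : SL L s} (hζ : Norm1 ζ) (k : ℕ) (b : L) :
    (conj (1 + mon b ((k : ℤ) + 1)) ζ - ζ - mon (b - s b) ((k : ℤ) + 2)).LB ((k : ℤ) + 3) := by
  set e : SL L s := mon b ((k : ℤ) + 1) with he
  set M : SL L s := mon (b - s b) ((k : ℤ) + 2) with hM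
  have hu : OneP (1 + e) := oneP_one_add_mon b k
  have hne : (1 + e) ≠ 0 := hu.ne_zero
  have e1 : conj (1 + e) ζ - ζ = (e * ζ - ζ * e) * (1 + e)⁻¹ := by
    have e2 : ζ * (1 + e) * (1 + e)⁻¹ = ζ := by
      rw [mul_assoc, mul_inv_cancel₀ hne, mul_one]
    calc conj (1 + e) ζ - ζ = (1 + e) * ζ * (1 + e)⁻¹ - ζ * (1 + e) * (1 + e)⁻¹ := by
          rw [e2]; rfl
      _ = (e * ζ - ζ * e) * (1 + e)⁻¹ := by noncomm_ring
  have e3 : e * ζ - ζ * e - M = e * (ζ - mon 1 1) - (ζ - mon 1 1) * e := by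
    have e4 : e * mon 1 1 = mon b ((k : ℤ) + 2) := by
      rw [he, mon_mul_mon, map_one, mul_one]
      have : (k : ℤ) + 1 + 1 = (k : ℤ) + 2 := by ring
      rw [this]
    have e5 : (mon 1 1 : SL L s) * e = mon (s b) ((k : ℤ) + 2) := by
      rw [he, mon_mul_mon, one_mul, zpow_one]
      have : 1 + ((k : ℤ) + 1) = (k : ℤ) + 2 := by ring
      rw [this]
    have e6 : M = mon b ((k : ℤ) + 2) - mon (s b) ((k : ℤ) + 2) := by
      rw [hM]
      apply SL.ext; funext n
      simp only [coeff_mon, coeff_sub]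
      split_ifs <;> simp
    rw [e6, mul_sub, sub_mul, e4, e5]
    abel
  have hLBe : e.LB ((k : ℤ) + 1) := lB_mon _ _
  have h3 : (e * ζ - ζ * e - M).LB ((k : ℤ) + 3) := by
    rw [e3]
    refine LB.sub ?_ ?_
    · have := LB.mul hLBe hζ.sub_LB
      convert this using 1
      ring
    · have := LB.mul hζ.sub_LB hLBe
      convert this using 1
      ring
  have e7 : conj (1 + e) ζ - ζ - M = (e * ζ - ζ * e - M) * (1 + e)⁻¹ + M * ((1 + e)⁻¹ - 1) := by
    rw [e1]
    noncomm_ring
  rw [e7]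
  refine LB.add ?_ ?_
  · simpa using LB.mul h3 hu.inv_LB0
  · have := LB.mul (lB_mon (b - s b) ((k : ℤ) + 2) : (M).LB _) hu.inv
    convert this using 1
    ring


/-- The recursion for `u`. -/
noncomputable def vv (m : ℕ) (ξ : SL L s) : ℕ → SL L s
  | 0 => 1
  | k + 1 => (1 + mon (solve s m ((conj (vv m ξ k) ξ).coeff ((k : ℤ) + 2))) ((k : ℤ) + 1)) * vv m ξ k

lemma vv_oneP (ξ : SL L s) (k : ℕ) : OneP (vv m ξ k) := by
  induction k with
  | zero => exact oneP_one
  | succ k ih => exact (oneP_one_add_mon _ k).mul ih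

lemma vv_succ_sub (ξ : SL L s) (k : ℕ) : (vv m ξ (k + 1) - vv m ξ k).LB ((k : ℤ) + 1) := by
  have e : vv m ξ (k + 1) - vv m ξ k
      = mon (solve s m ((conj (vv m ξ k) ξ).coeff ((k : ℤ) + 2))) ((k : ℤ) + 1) * vv m ξ k := by
    show (1 + _) * vv m ξ k - vv m ξ k = _
    noncomm_ring
  rw [e]
  simpa using LB.mul (lB_mon _ _) (vv_oneP (m := m) ξ k).LB0

lemma vv_sub_vv (ξ : SL L s) {k K : ℕ} (h : k ≤ K) : (vv m ξ K - vv m ξ k).LB ((k : ℤ) + 1) := by
  induction K, h using Nat.le_induction with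
  | base => rw [sub_self]; exact lB_zero _
  | succ K hK ih =>
    refine LB_trans (LB.mono (vv_succ_sub ξ K) ?_) ih
    have : (k : ℤ) ≤ K := by exact_mod_cast hK
    omega

/-- The limit `u` of the recursion. -/
noncomputable def canonU (m : ℕ) (ξ : SL L s) : SL L s :=
  ⟨fun i => (vv m ξ i.toNat).coeff i, ⟨0, fun i hi => by
    have : i.toNat = 0 := by omega
    rw [this]
    exact (oneP_one (s := s)).LB0 i hi⟩⟩

lemma coeff_canonU (ξ : SL L s) (i : ℤ) :
    (canonU m ξ).coeff i = (vv m ξ i.toNat).coeff i := rfl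

lemma canonU_sub_vv (ξ : SL L s) (k : ℕ) : (canonU m ξ - vv m ξ k).LB ((k : ℤ) + 1) := by
  intro i hi
  rw [coeff_sub, coeff_canonU, sub_eq_zero]
  have hk : i.toNat ≤ k := by omega
  have hh := vv_sub_vv (m := m) ξ hk
  have := coeff_eq_of_sub_LB hh (i := i) (by omega)
  exact this.symm

lemma canonU_oneP (ξ : SL L s) : OneP (canonU m ξ) := by
  have := canonU_sub_vv (m := m) ξ 0
  simpa [OneP, vv] using this

/-- The conjugate at stage `k`. -/
noncomputable def zeta (m : ℕ) (ξ : SL L s) (k : ℕ) : SL L s := conj (vv m ξ k) ξ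

lemma zeta_succ (ξ : SL L s) (k : ℕ) :
    zeta m ξ (k + 1) =
      conj (1 + mon (solve s m ((zeta m ξ k).coeff ((k : ℤ) + 2))) ((k : ℤ) + 1)) (zeta m ξ k) := by
  show conj ((1 + _) * vv m ξ k) ξ = _
  rw [conj_mul]
  rfl

/-- The invariant of the recursion. -/
lemma zeta_invariant (h : Cyc s m) {ξ : SL L s} (hξ : Norm1 ξ) (k : ℕ) :
    Norm1 (zeta m ξ k) ∧ ∀ i : ℤ, i ≤ (k : ℤ) + 1 → s ((zeta m ξ k).coeff i) = (zeta m ξ k).coeff i := by
  induction k with
  | zero =>
    have e : zeta m ξ 0 = ξ := by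
      simp [zeta, vv, conj]
    rw [e]
    refine ⟨hξ, fun i hi => ?_⟩
    by_cases h1 : i = 1
    · rw [h1, hξ.lead, map_one]
    · rw [hξ.lb i (by push_cast at hi; omega), map_zero]
  | succ k ih =>
    obtain ⟨h1, h2⟩ := ih
    set n := (zeta m ξ k).coeff ((k : ℤ) + 2) with hn
    set b := solve s m n with hb
    have hst := step_conj h1 k b
    have hz : zeta m ξ (k + 1) = conj (1 + mon b ((k : ℤ) + 1)) (zeta m ξ k) := zeta_succ ξ k
    rw [← hz] at hst
    have hcoeff : ∀ i : ℤ, i < (k : ℤ) + 3 → (zeta m ξ (k + 1)).coeff i =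
        (zeta m ξ k).coeff i + (mon (b - s b) ((k : ℤ) + 2) : SL L s).coeff i := by
      intro i hi
      have := hst i hi
      rw [coeff_sub, coeff_sub, sub_sub, sub_eq_zero] at this
      exact this
    have hlow : ∀ i : ℤ, i ≤ (k : ℤ) + 1 → (zeta m ξ (k + 1)).coeff i = (zeta m ξ k).coeff i := by
      intro i hi
      rw [hcoeff i (by omega), coeff_mon, if_neg (by omega), add_zero]
    have htop : (zeta m ξ (k + 1)).coeff ((k : ℤ) + 2) = pr s m n := by
      rw [hcoeff _ (by omega), coeff_mon, if_pos rfl, ← hn]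
      have := s_solve h n
      rw [← hb] at this
      linear_combination -this
    refine ⟨⟨?_, ?_⟩, ?_⟩
    · intro i hi
      rw [hlow i (by omega)]
      exact h1.lb i hi
    · rw [hlow 1 (by omega)]
      exact h1.lead
    · intro i hi
      by_cases hik : i ≤ (k : ℤ) + 1
      · rw [hlow i hik]
        exact h2 i hik
      · have : i = (k : ℤ) + 2 := by push_cast at hi; omega
        rw [this, htop, s_pr h]

/-- `u ξ u⁻¹` agrees with the stage `k` conjugate up to `k+1`. -/
lemma canonU_conj_sub (ξ : SL L s) {ξ' : SL L s} (hξ : ξ'.LB 1) (k : ℕ) :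
    (conj (canonU m ξ) ξ' - conj (vv m ξ k) ξ').LB ((k : ℤ) + 2) := by
  have := conj_congr (canonU_oneP (m := m) ξ) (vv_oneP (m := m) ξ k) (canonU_sub_vv (m := m) ξ k) hξ
  convert this using 1
  ring

/-- `u ξ u⁻¹` has fixed coefficients. -/
theorem canonU_conj_isFix (h : Cyc s m) {ξ : SL L s} (hξ : Norm1 ξ) :
    IsFix (conj (canonU m ξ) ξ) := by
  intro i
  set k := i.toNat with hk
  have h1 := canonU_conj_sub (m := m) ξ hξ.lb k
  have h2 := (zeta_invariant h hξ k).2 i (by omega)
  have h3 : (conj (canonU m ξ) ξ).coeff i = (zeta m ξ k).coeff i :=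
    coeff_eq_of_sub_LB h1 (by omega)
  rw [h3]
  exact h2

theorem canonU_conj_norm1 (h : Cyc s m) {ξ : SL L s} (hξ : Norm1 ξ) :
    Norm1 (conj (canonU m ξ) ξ) := by
  have h1 := canonU_conj_sub (m := m) ξ hξ.lb 0
  have h2 := (zeta_invariant h hξ 0).1
  have h3 : ∀ i : ℤ, i < 2 → (conj (canonU m ξ) ξ).coeff i = (zeta m ξ 0).coeff i := fun i hi =>
    coeff_eq_of_sub_LB h1 (by simpa using hi)
  refine ⟨fun i hi => ?_, ?_⟩
  · rw [h3 i (by omega)]
    exact h2.lb i hi
  · rw [h3 1 (by norm_num)]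
    exact h2.lead

/-- Truncation compatibility of the recursion. -/
lemma vv_congr (h : Cyc s m) {ξ ξ' : SL L s} (hξ : Norm1 ξ) (hξ' : Norm1 ξ') {D : ℤ}
    (hD : (ξ - ξ').LB D) (k : ℕ) : (vv m ξ k - vv m ξ' k).LB (D - 1) := by
  induction k with
  | zero => simpa [vv] using lB_zero (D - 1)
  | succ k ih =>
    have hv := vv_oneP (m := m) ξ k
    have hv' := vv_oneP (m := m) ξ' k
    -- closeness of the conjugates
    have hz : (conj (vv m ξ k) ξ - conj (vv m ξ' k) ξ').LB D := by
      have e : conj (vv m ξ k) ξ - conj (vv m ξ' k) ξ' =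
          conj (vv m ξ k) (ξ - ξ') + (conj (vv m ξ k) ξ' - conj (vv m ξ' k) ξ') := by
        rw [conj_sub]; abel
      rw [e]
      refine LB.add (conj_LB hv hD) ?_
      have := conj_congr hv hv' ih hξ'.lb
      convert this using 1
      ring
    set b := solve s m ((conj (vv m ξ k) ξ).coeff ((k : ℤ) + 2)) with hb
    set b' := solve s m ((conj (vv m ξ' k) ξ').coeff ((k : ℤ) + 2)) with hb'
    have e1 : vv m ξ (k + 1) = (1 + mon b ((k : ℤ) + 1)) * vv m ξ k := rfl
    have e2 : vv m ξ' (k + 1) = (1 + mon b' ((k : ℤ) + 1)) * vv m ξ' k := rfl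
    rw [e1, e2]
    by_cases hk : (k : ℤ) + 2 < D
    · have hbb : b = b' := by
        rw [hb, hb', coeff_eq_of_sub_LB hz hk]
      rw [hbb, ← mul_sub]
      simpa using LB.mul (oneP_one_add_mon b' k).LB0 ih
    · have e3 : (1 + mon b ((k : ℤ) + 1)) * vv m ξ k - (1 + mon b' ((k : ℤ) + 1)) * vv m ξ' k =
          (vv m ξ k - vv m ξ' k) + (mon b ((k : ℤ) + 1) * vv m ξ k - mon b' ((k : ℤ) + 1) * vv m ξ' k) := by
        noncomm_ring
      rw [e3]
      refine LB.add ih (LB.sub ?_ ?_)
      · have := LB.mul (lB_mon b ((k : ℤ) + 1) : (mon b ((k : ℤ) + 1) : SL L s).LB _) hv.LB0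
        exact LB.mono this (by omega)
      · have := LB.mul (lB_mon b' ((k : ℤ) + 1) : (mon b' ((k : ℤ) + 1) : SL L s).LB _) hv'.LB0
        exact LB.mono this (by omega)

/-- Truncation compatibility of `u`. -/
theorem canonU_congr (h : Cyc s m) {ξ ξ' : SL L s} (hξ : Norm1 ξ) (hξ' : Norm1 ξ') {D : ℤ}
    (hD : (ξ - ξ').LB D) : (canonU m ξ - canonU m ξ').LB (D - 1) := by
  set k := D.toNat with hk
  have h1 : (canonU m ξ - vv m ξ k).LB (D - 1) := LB.mono (canonU_sub_vv ξ k) (by omega)
  have h2 : (canonU m ξ' - vv m ξ' k).LB (D - 1) := LB.mono (canonU_sub_vv ξ' k) (by omega)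
  exact LB_trans (LB_trans h1 (vv_congr h hξ hξ' hD k)) (LB_symm h2)

/-- Coefficients of `vv` stay in a stable subfield. -/
lemma vv_inSub {F : Subfield L} (hF : Stable F s) {ξ : SL L s} (hξ : InSub F ξ) (k : ℕ) :
    InSub F (vv m ξ k) := by
  induction k with
  | zero => exact inSub_one F
  | succ k ih =>
    have hconj : InSub F (conj (vv m ξ k) ξ) := (ih.mul hF hξ).mul hF (ih.inv hF)
    refine InSub.mul hF ?_ ih
    refine (inSub_one F).add (inSub_mon F (hF.solve (hconj _)) _)

theorem canonU_inSub {F : Subfield L} (hF : Stable F s) {ξ : SL L s} (hξ : InSub F ξ) :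
    InSub F (canonU m ξ) := fun i => by
  rw [coeff_canonU]
  exact vv_inSub hF hξ _ i

/-- The Hensel projection along `ξ` becomes `proj` after conjugating with `u`. -/
theorem proj_conj_of_split (h : Cyc s m) {ξ u c p a : SL L s} (hu : OneP u)
    (hζ : Norm1 (conj u ξ)) (hfix : IsFix (conj u ξ))
    (hp : ξ * p = p * ξ) (ha : ξ * a - a * ξ = c - p) :
    conj u p = proj s m (conj u c) := by
  have hne : u ≠ 0 := hu.ne_zero
  have hmul : ∀ x y : SL L s, conj u (x * y) = conj u x * conj u y := by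
    intro x y
    simp only [conj]
    have : u⁻¹ * u = 1 := inv_mul_cancel₀ hne
    calc u * (x * y) * u⁻¹ = u * x * (u⁻¹ * u) * y * u⁻¹ := by rw [this]; noncomm_ring
      _ = _ := by noncomm_ring
  have hc1 : conj u ξ * conj u p = conj u p * conj u ξ := by
    rw [← hmul, ← hmul, hp]
  have hfp : IsFix (conj u p) := isFix_of_comm h hζ hfix hc1
  have e : conj u c = conj u p + (conj u ξ * conj u a - conj u a * conj u ξ) := by
    rw [← hmul, ← hmul, ← conj_sub, ha, conj_sub]
    abel
  rw [e, proj_add, proj_comm h hfix, add_zero, proj_of_isFix h hfp]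

end Crest.Agent.Lib.Kurosh.CanonU
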