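import Mathlib

/-!
# The centraliser of an element in a division ring is a division ring

`Subring.centralizer {ξ}` carries a `DivisionRing` structure compatible with its `Ring` structure
(as a scoped-free instance), and an algebra structure over any central base field.
-/

set_option autoImplicit false

namespace Crest.Agent.Lib.Kurosh.CentDiv

variable {D : Type*} [DivisionRing D] (ξ : D)

lemma inv_mem_centralizer {x : D} (hx : x ∈ Subring.centralizer ({ξ} : Set D)) :
    x⁻¹ ∈ Subring.centralizer ({ξ} : Set D) := by
  rw [Subring.mem_centralizer_iff] at hx ⊢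
  intro g hg
  have e : x * g = g * x := (hx g hg).symm
  by_cases hx0 : x = 0
  · simp [hx0]
  calc g * x⁻¹ = x⁻¹ * (x * g) * x⁻¹ := by
        rw [← mul_assoc, inv_mul_cancel₀ hx0, one_mul]
    _ = x⁻¹ * (g * x) * x⁻¹ := by rw [e]
    _ = x⁻¹ * g := by rw [mul_assoc, mul_assoc, mul_inv_cancel₀ hx0, mul_one]

/-- The division ring structure on a centraliser. -/
noncomputable instance instDivisionRingCentralizer :
    DivisionRing (Subring.centralizer ({ξ} : Set D)) :=
  { (inferInstance : Ring (Subring.centralizer ({ξ} : Set D))) with
    inv := fun x => ⟨(x : D)⁻¹, inv_mem_centralizer ξ x.2⟩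
    exists_pair_ne := ⟨0, 1, fun h => zero_ne_one (congrArg Subtype.val h)⟩
    mul_inv_cancel := fun x hx => Subtype.ext (mul_inv_cancel₀ (fun h => hx (Subtype.ext h)))
    inv_zero := Subtype.ext inv_zero
    nnqsmul := _
    qsmul := _ }

@[simp] lemma coe_inv (x : Subring.centralizer ({ξ} : Set D)) :
    ((x⁻¹ : Subring.centralizer ({ξ} : Set D)) : D) = (x : D)⁻¹ := rfl

variable (R : Type*) [Field R] [Algebra R D]

/-- Base-field elements lie in the centraliser. -/
lemma algebraMap_mem_centralizer (r : R) :
    algebraMap R D r ∈ Subring.centralizer ({ξ} : Set D) := by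
  rw [Subring.mem_centralizer_iff]
  intro g _
  exact (Algebra.commutes r g).symm

/-- The algebra structure of the centraliser over a central field. -/
noncomputable instance instAlgebraCentralizer :
    Algebra R (Subring.centralizer ({ξ} : Set D)) :=
  RingHom.toAlgebra' ((algebraMap R D).codRestrict (Subring.centralizer ({ξ} : Set D))
      (algebraMap_mem_centralizer ξ R))
    (fun r x => Subtype.ext (Algebra.commutes r (x : D)))

lemma coe_algebraMap (r : R) :
    ((algebraMap R (Subring.centralizer ({ξ} : Set D)) r : Subring.centralizer ({ξ} : Set D)) : D) =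
      algebraMap R D r := rfl

lemma coe_smul (r : R) (x : Subring.centralizer ({ξ} : Set D)) :
    ((r • x : Subring.centralizer ({ξ} : Set D)) : D) = r • (x : D) := by
  rw [Algebra.smul_def, Algebra.smul_def]
  rfl

/-- The inclusion as an algebra homomorphism. -/
noncomputable def incl : Subring.centralizer ({ξ} : Set D) →ₐ[R] D where
  toRingHom := (Subring.centralizer ({ξ} : Set D)).subtype
  commutes' := fun _ => rfl

lemma incl_apply (x : Subring.centralizer ({ξ} : Set D)) : incl ξ R x = (x : D) := rfl

/-- The range of the inclusion is the set of elements commuting with `ξ`. -/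
lemma mem_range_incl (x : D) : x ∈ (incl ξ R).range ↔ x * ξ = ξ * x := by
  constructor
  · rintro ⟨y, rfl⟩
    have := (Subring.mem_centralizer_iff.mp y.2) ξ rfl
    exact this.symm
  · intro h
    refine ⟨⟨x, ?_⟩, rfl⟩
    rw [Subring.mem_centralizer_iff]
    rintro g rfl
    exact h.symm

end Crest.Agent.Lib.Kurosh.CentDiv
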