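import Crest.Agent.Lib.Kurosh.NonComm
import Crest.Agent.Lib.Kurosh.RatExt

/-!
# S0270, blueprint Section 3, Step 2: the `R_L`-level residue statements

(N1): the norm `N = a s(a) ⋯ s^(m-1)(a)` of the generic `a = ∑_y T_{0,y} ⊗ f_y` is not in
`L0 ⊗ K` when `x^m ∉ K`, `x = f_{y0}`.

The functional test: an element of `K.baseChange` is killed by `lam φ` for all `φ` vanishing on `K`.
-/

set_option autoImplicit false

open scoped TensorProduct

set_option linter.unusedSectionVars false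

namespace Crest.Agent.Lib.Kurosh.NonComm

open RatExt Finset

section Test

variable (Z : Type*) [Field Z] (Y : Type*) (m : ℕ)
variable {A : Type*} [Ring A] [Algebra Z A]

/-- `lam φ` kills `K.baseChange` when `φ` vanishes on `K`. -/
lemma lam_eq_zero_of_mem_baseChange {K : Submodule Z A} (φ : A →ₗ[Z] Z) (hφ : ∀ k ∈ K, φ k = 0)
    {x : RL Z Y m A} (hx : x ∈ K.baseChange (L0 Z Y m)) : lam Z Y m φ x = 0 := by
  rw [Submodule.baseChange_eq_span, Submodule.mem_span] at hx
  have := hx (LinearMap.ker (lam Z Y m φ)) (by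
    rintro _ ⟨k, hk, rfl⟩
    simp only [TensorProduct.mk_apply, SetLike.mem_coe, LinearMap.mem_ker, lam_tmul]
    rw [hφ k hk, zero_smul])
  simpa using this

/-- Separation: `x ∉ K` is detected by a functional vanishing on `K`. -/
lemma exists_functional {K : Submodule Z A} {x : A} (hx : x ∉ K) :
    ∃ φ : A →ₗ[Z] Z, (∀ k ∈ K, φ k = 0) ∧ φ x ≠ 0 := by
  obtain ⟨φ, h1, h2⟩ := Submodule.exists_dual_map_eq_bot_of_notMem hx inferInstance
  refine ⟨φ, fun k hk => ?_, h1⟩
  have : φ k ∈ K.map φ := Submodule.mem_map_of_mem hk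
  rw [h2] at this
  simpa using this

end Test

section N1

variable (Z : Type*) [Field Z] [Infinite Z] (Y : Type*) [Fintype Y] (m : ℕ)
variable (A : Type*) [DivisionRing A] [Algebra Z A] [FiniteDimensional Z A]

/-- The generic element `a = ∑_y T_{r,y} ⊗ f_y`. -/
noncomputable def genElt (f : Y → A) (r : ZMod m) : RL Z Y m A :=
  ∑ y, T Z Y m r y ⊗ₜ[Z] f y

/-- Polynomial version. -/
noncomputable def genPol (f : Y → A) (r : ZMod m) : Pol Z Y m ⊗[Z] A :=
  ∑ y, (MvPolynomial.X (r, y)) ⊗ₜ[Z] f y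

/-- Polynomial norm. -/
noncomputable def normPol (f : Y → A) : ℕ → Pol Z Y m ⊗[Z] A
  | 0 => 1
  | k + 1 => normPol f k * genPol Z Y m A f (k : ZMod m)

lemma sR_pow_genElt (f : Y → A) (k : ℕ) (r : ZMod m) :
    (sR Z Y m A ^ k) (genElt Z Y m A f r) = genElt Z Y m A f (r + k) := by
  simp only [genElt, map_sum, sR_pow_tmul, s_pow_T]

lemma sR_zpow_genElt (f : Y → A) (k : ℕ) (r : ZMod m) :
    (sR Z Y m A ^ (k : ℤ)) (genElt Z Y m A f r) = genElt Z Y m A f (r + k) := by
  rw [zpow_natCast, sR_pow_genElt]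

lemma iotaPol_genPol (f : Y → A) (r : ZMod m) :
    iotaPol Z Y m A (genPol Z Y m A f r) = genElt Z Y m A f r := by
  simp [genPol, genElt, iotaPol, T]

lemma iotaPol_normPol (f : Y → A) (k : ℕ) :
    iotaPol Z Y m A (normPol Z Y m A f k)
      = normProd (sR Z Y m A) (genElt Z Y m A f 0) k := by
  induction k with
  | zero => simp [normPol]
  | succ k ih =>
    rw [normPol, map_mul, ih, iotaPol_genPol, normProd_succ, sR_zpow_genElt, zero_add]

/-- Evaluation at `T_{r,y} = δ_{y,y0}`. -/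
lemma evalPol_normPol [DecidableEq Y] (f : Y → A) (y0 : Y) (k : ℕ) :
    evalPol Z Y m A (fun p => if p.2 = y0 then 1 else 0) (normPol Z Y m A f k) = (f y0) ^ k := by
  induction k with
  | zero => simp [normPol]
  | succ k ih =>
    rw [normPol, map_mul, ih, pow_succ]
    congr 1
    simp only [genPol, map_sum, evalPol_tmul, MvPolynomial.eval_X]
    simp

/-- Coefficientwise functional on `Pol ⊗ A`. -/
noncomputable def lamPol (φ : A →ₗ[Z] Z) : Pol Z Y m ⊗[Z] A →ₗ[Z] Pol Z Y m :=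
  (TensorProduct.rid Z (Pol Z Y m)).toLinearMap ∘ₗ TensorProduct.map LinearMap.id φ

@[simp] lemma lamPol_tmul (φ : A →ₗ[Z] Z) (p : Pol Z Y m) (a : A) :
    lamPol Z Y m A φ (p ⊗ₜ a) = φ a • p := by
  simp [lamPol]

lemma lam_iotaPol (φ : A →ₗ[Z] Z) (q : Pol Z Y m ⊗[Z] A) :
    lam Z Y m φ (iotaPol Z Y m A q)
      = algebraMap (Pol Z Y m) (L0 Z Y m) (lamPol Z Y m A φ q) := by
  induction q using TensorProduct.induction_on with
  | zero => simp
  | add a b ha hb => simp only [map_add, ha, hb]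
  | tmul p a =>
    have h : iotaPol Z Y m A (p ⊗ₜ a)
        = (IsScalarTower.toAlgHom Z (Pol Z Y m) (L0 Z Y m) p) ⊗ₜ[Z] a := by
      simp [iotaPol]
    rw [h, lam_tmul, lamPol_tmul, ← IsScalarTower.toAlgHom_apply Z, map_smul]

lemma eval_lamPol (φ : A →ₗ[Z] Z) (t : ZMod m × Y → Z) (q : Pol Z Y m ⊗[Z] A) :
    MvPolynomial.eval t (lamPol Z Y m A φ q) = φ (evalPol Z Y m A t q) := by
  induction q using TensorProduct.induction_on with
  | zero => simp
  | add a b ha hb => simp only [map_add, ha, hb]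
  | tmul p a =>
    rw [lamPol_tmul, evalPol_tmul, map_smul φ, smul_eq_mul, MvPolynomial.smul_eval, mul_comm]

/-- **(N1)** If `x = f y0` has `x^k ∉ K`, then the polynomial norm is not in `L0 ⊗ K`. -/
theorem normProd_not_mem [DecidableEq Y] {K : Submodule Z A} (f : Y → A) (y0 : Y) (k : ℕ)
    (hx : (f y0) ^ k ∉ K) :
    normProd (sR Z Y m A) (genElt Z Y m A f 0) k ∉ K.baseChange (L0 Z Y m) := by
  intro hmem
  obtain ⟨φ, hφ, hne⟩ := exists_functional Z hx
  have h1 := lam_eq_zero_of_mem_baseChange Z Y m φ hφ hmem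
  rw [← iotaPol_normPol, lam_iotaPol] at h1
  have h2 : lamPol Z Y m A φ (normPol Z Y m A f k) = 0 :=
    (map_eq_zero_iff _ (IsFractionRing.injective (Pol Z Y m) (L0 Z Y m))).mp h1
  have h3 := eval_lamPol Z Y m A φ (fun p => if p.2 = y0 then 1 else 0) (normPol Z Y m A f k)
  rw [h2, evalPol_normPol, map_zero] at h3
  exact hne h3.symm

/-- (N1) choice of the prime: if `x ∉ K` (a subring closed under inverses), then all primes but at
most one have `x^p ∉ K`. -/
theorem exists_prime_pow_not_mem {A : Type*} [DivisionRing A] (K : Subring A)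
    (hinv : ∀ k ∈ K, k⁻¹ ∈ K) {x : A} (hx : x ∉ K) (M : ℕ) :
    ∃ p : ℕ, p.Prime ∧ M ≤ p ∧ x ^ p ∉ K := by
  have hx0 : x ≠ 0 := fun h => hx (h ▸ K.zero_mem)
  obtain ⟨p, hpM, hp⟩ := Nat.exists_infinite_primes M
  obtain ⟨q, hqM, hq⟩ := Nat.exists_infinite_primes (p + 1)
  by_cases h1 : x ^ p ∈ K
  · refine ⟨q, hq, by omega, fun h2 => hx ?_⟩
    have hcop : Nat.Coprime p q := (Nat.coprime_primes hp hq).mpr (by omega)
    have hz : ∀ (k : A), k ∈ K → ∀ n : ℤ, k ^ n ∈ K := by
      intro k hk n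
      obtain ⟨l, rfl | rfl⟩ := n.eq_nat_or_neg
      · simpa using K.pow_mem hk l
      · simpa using hinv _ (K.pow_mem hk l)
    have hb := Nat.gcd_eq_gcd_ab p q
    rw [hcop] at hb
    have e : x = (x ^ p) ^ (Nat.gcdA p q) * (x ^ q) ^ (Nat.gcdB p q) := by
      rw [← zpow_natCast x p, ← zpow_natCast x q, ← zpow_mul, ← zpow_mul, ← zpow_add₀ hx0, ← hb]
      simp
    rw [e]
    exact K.mul_mem (hz _ h1 _) (hz _ h2 _)
  · exact ⟨p, hp, hpM, h1⟩

end N1

/-! ### (N2b): clock monomials -/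

section Clock

variable (Z : Type*) [Field Z] {Y : Type*} [DecidableEq Y] (m : ℕ)

open MvPolynomial in
/-- The clock monomial: `∏_i X_{r+i,w_i}` over the letters `w_i ≠ z`. -/
noncomputable def cw (z : Y) : ZMod m → List Y → Pol Z Y m
  | _, [] => 1
  | r, y :: v => (if y = z then 1 else X (r, y)) * cw z (r + 1) v

/-- Exponent vector of the clock monomial. -/
noncomputable def cwE (z : Y) : ZMod m → List Y → (ZMod m × Y →₀ ℕ)
  | _, [] => 0
  | r, y :: v => (if y = z then 0 else Finsupp.single (r, y) 1) + cwE z (r + 1) v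

open MvPolynomial in
lemma cw_eq_monomial (z : Y) (r : ZMod m) (w : List Y) :
    cw Z m z r w = monomial (cwE m z r w) (1 : Z) := by
  induction w generalizing r with
  | nil => simp [cw, cwE]
  | cons y v ih =>
    rw [cw, cwE, ih]
    by_cases h : y = z
    · simp [h]
    · simp only [h, if_false]
      rw [X, monomial_mul, one_mul]

lemma sPol_cw (z : Y) (r : ZMod m) (w : List Y) :
    sPol Z Y m (cw Z m z r w) = cw Z m z (r + 1) w := by
  induction w generalizing r with
  | nil => simp [cw]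
  | cons y v ih =>
    rw [cw, cw, map_mul, ih]
    congr 1
    by_cases h : y = z
    · simp [h]
    · simp [h, sPol, shiftIdx]

lemma s_pow_cw (z : Y) (k : ℕ) (r : ZMod m) (w : List Y) :
    (s Z Y m ^ k) (algebraMap (Pol Z Y m) (L0 Z Y m) (cw Z m z r w))
      = algebraMap (Pol Z Y m) (L0 Z Y m) (cw Z m z (r + k) w) := by
  induction k generalizing r with
  | zero => simp
  | succ k ih =>
    rw [pow_succ, AlgEquiv.mul_apply, s_algebraMap, sPol_cw, ih]
    congr 2
    push_cast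
    ring

lemma cwE_apply_ne_zero_iff (z : Y) (r : ZMod m) (w : List Y) (q : ZMod m) (y : Y) :
    cwE m z r w (q, y) ≠ 0 ↔ ∃ (i : ℕ) (h : i < w.length), w[i] = y ∧ y ≠ z ∧ r + (i : ZMod m) = q := by
  induction w generalizing r with
  | nil => simp [cwE]
  | cons a v ih =>
    rw [cwE, Finsupp.add_apply, ne_eq, Nat.add_eq_zero_iff, not_and_or, or_comm, ← ne_eq, ← ne_eq]
    rw [ih]
    constructor
    · rintro (⟨i, hi, h1, h2, h3⟩ | h)
      · refine ⟨i + 1, by simp; omega, by simpa using h1, h2, ?_⟩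
        rw [← h3]; push_cast; ring
      · by_cases ha : a = z
        · simp [ha] at h
        · simp only [ha, if_false, Finsupp.single_apply] at h
          have : (r, a) = (q, y) := by
            by_contra hne
            simp [hne] at h
          obtain ⟨rfl, rfl⟩ := Prod.mk.inj this
          exact ⟨0, by simp, rfl, ha, by simp⟩
    · rintro ⟨i, hi, h1, h2, h3⟩
      cases i with
      | zero =>
        right
        simp only [List.getElem_cons_zero] at h1
        subst h1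
        simp only [Nat.cast_zero, add_zero] at h3
        subst h3
        simp [h2]
      | succ i =>
        left
        refine ⟨i, by simpa using hi, by simpa using h1, h2, ?_⟩
        rw [← h3]; push_cast; ring

/-- Normal words: powers of `z`, or words not ending in `z`. -/
def NormalW (z : Y) (w : List Y) : Prop := (∀ a ∈ w, a = z) ∨ w.getLast? ≠ some z

lemma exists_last {z : Y} {w : List Y} (h : NormalW z w) (hp : ¬ ∀ a ∈ w, a = z) :
    ∃ (hl : w.length - 1 < w.length), w[w.length - 1] ≠ z := by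
  rcases h with h | h
  · exact absurd h hp
  · have hne : w ≠ [] := by
      rintro rfl
      exact hp (by simp)
    have hlen : 0 < w.length := List.length_pos_iff.mpr hne
    refine ⟨by omega, fun he => h ?_⟩
    rw [List.getLast?_eq_getElem?, List.getElem?_eq_getElem (by omega), he]

/-- Key rigidity: exponent vectors of shifted normal words. -/
theorem cwE_rigid [NeZero m] {z : Y} {w w0 : List Y} {D : ℕ} (hw : w.length = D)
    (hw0 : w0.length = D) (hn : NormalW z w) (hn0 : NormalW z w0) (hm : 2 * D < m)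
    {k : ℕ} (hk : k < m) (h : cwE m z (k : ZMod m) w = cwE m z (0 : ZMod m) w0) : w = w0 := by
  have hcast : ∀ {a b : ℕ}, a < m → b < m → (a : ZMod m) = (b : ZMod m) → a = b := by
    intro a b ha hb hab
    rw [ZMod.natCast_eq_natCast_iff'] at hab
    rwa [Nat.mod_eq_of_lt ha, Nat.mod_eq_of_lt hb] at hab
  -- purity is preserved
  have hsup : ∀ (i : ℕ) (hi : i < D), (∃ y, y ≠ z ∧ w0[i]'(by omega) = y) →
      ∃ (i' : ℕ) (h' : i' < D), w[i']'(by omega) = w0[i]'(by omega) ∧ (k : ZMod m) + i' = i := by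
    rintro i hi ⟨y, hy, hy'⟩
    have h1 : cwE m z (0 : ZMod m) w0 (i, y) ≠ 0 := by
      rw [cwE_apply_ne_zero_iff]
      exact ⟨i, by omega, hy', hy, by simp⟩
    rw [← h, cwE_apply_ne_zero_iff] at h1
    obtain ⟨i', hi', h2, _, h3⟩ := h1
    exact ⟨i', by omega, by rw [h2, hy'], h3⟩
  have hsup' : ∀ (i : ℕ) (hi : i < D), (∃ y, y ≠ z ∧ w[i]'(by omega) = y) →
      ∃ (i' : ℕ) (h' : i' < D), w0[i']'(by omega) = w[i]'(by omega) ∧ (i' : ZMod m) = (k : ZMod m) + i := by
    rintro i hi ⟨y, hy, hy'⟩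
    have h1 : cwE m z (k : ZMod m) w ((k : ZMod m) + i, y) ≠ 0 := by
      rw [cwE_apply_ne_zero_iff]
      exact ⟨i, by omega, hy', hy, rfl⟩
    rw [h, cwE_apply_ne_zero_iff] at h1
    obtain ⟨i', hi', h2, _, h3⟩ := h1
    refine ⟨i', by omega, by rw [h2, hy'], ?_⟩
    rw [← h3]
    simp
  by_cases hp0 : ∀ a ∈ w0, a = z
  · -- `w0` is pure, then so is `w`
    have hp : ∀ a ∈ w, a = z := by
      intro a ha
      by_contra hne
      obtain ⟨i, hi, rfl⟩ := List.getElem_of_mem ha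
      obtain ⟨i', hi', h2, -⟩ := hsup' i (by omega) ⟨_, hne, rfl⟩
      exact hne (by rw [← h2]; exact hp0 _ (List.getElem_mem _))
    apply List.ext_getElem (by omega)
    intro i h1 h2
    rw [hp _ (List.getElem_mem _), hp0 _ (List.getElem_mem _)]
  · -- `w0` is not pure
    obtain ⟨hl0, hne0⟩ := exists_last hn0 hp0
    have hDpos : 0 < D := by omega
    have hD0 : D - 1 < D := by omega
    have e0 : w0.length - 1 = D - 1 := by omega
    simp only [e0] at hne0
    obtain ⟨i1, hi1, h1, h1'⟩ := hsup (D - 1) hD0 ⟨_, hne0, rfl⟩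
    have hp : ¬ ∀ a ∈ w, a = z := by
      intro hp
      exact hne0 (by rw [← h1]; exact hp _ (List.getElem_mem _))
    obtain ⟨hl, hne⟩ := exists_last hn hp
    have e1 : w.length - 1 = D - 1 := by omega
    simp only [e1] at hne
    obtain ⟨i2, hi2, h2, h2'⟩ := hsup' (D - 1) hD0 ⟨_, hne, rfl⟩
    -- arithmetic: `k = 0`
    have hk0 : k = 0 := by
      have h3 : ((k + i1 : ℕ) : ZMod m) = ((D - 1 : ℕ) : ZMod m) := by
        push_cast
        exact_mod_cast h1'
      have h4 : ((i2 : ℕ) : ZMod m) = ((k + (D - 1) : ℕ) : ZMod m) := by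
        push_cast
        exact_mod_cast h2'
      have hkD : k + i1 = D - 1 := by
        rw [ZMod.natCast_eq_natCast_iff'] at h3
        rw [Nat.mod_eq_of_lt (show D - 1 < m by omega)] at h3
        by_cases hlt : k + i1 < m
        · rwa [Nat.mod_eq_of_lt hlt] at h3
        · rw [Nat.mod_eq_sub_mod (by omega), Nat.mod_eq_of_lt (by omega)] at h3
          omega
      have := hcast (by omega) (by omega) h4
      omega
    subst hk0
    apply List.ext_getElem (by omega)
    intro i hi hi'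
    have hiD : i < D := by omega
    by_cases hz : w0[i] = z
    · by_cases hz' : w[i] = z
      · rw [hz, hz']
      · obtain ⟨i', hi'', h5, h6⟩ := hsup' i hiD ⟨_, hz', rfl⟩
        simp only [Nat.cast_zero, zero_add] at h6
        have := hcast (by omega) (by omega) h6
        subst this
        rw [← h5, hz] at hz'
        exact absurd rfl hz'
    · obtain ⟨i', hi'', h5, h6⟩ := hsup i hiD ⟨_, hz, rfl⟩
      simp only [Nat.cast_zero, zero_add] at h6
      have := hcast (by omega) (by omega) h6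
      subst this
      exact h5

/-- The traces of clock monomials of normal words of length `D` are `Z`-independent (`m > 2D`). -/
theorem tr_cw_indep [CharZero Z] [NeZero m] (z : Y) (S : Finset (List Y)) (D : ℕ)
    (hS : ∀ w ∈ S, w.length = D ∧ NormalW z w) (hm : 2 * D < m) (c : List Y → Z)
    (h : ∑ w ∈ S, c w • tr Z Y m (algebraMap (Pol Z Y m) (L0 Z Y m) (cw Z m z 0 w)) = 0) :
    ∀ w ∈ S, c w = 0 := by
  classical
  intro w0 hw0
  have h1 : algebraMap (Pol Z Y m) (L0 Z Y m)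
      (∑ w ∈ S, c w • ∑ r ∈ range m, cw Z m z (r : ZMod m) w) = 0 := by
    rw [← h, map_sum]
    refine sum_congr rfl fun w _ => ?_
    rw [← IsScalarTower.toAlgHom_apply Z, map_smul, IsScalarTower.toAlgHom_apply, map_sum]
    congr 1
    unfold tr
    refine sum_congr rfl fun r _ => ?_
    rw [s_pow_cw, zero_add]
  have h2 : (∑ w ∈ S, c w • ∑ r ∈ range m, cw Z m z (r : ZMod m) w) = 0 :=
    (map_eq_zero_iff _ (IsFractionRing.injective (Pol Z Y m) (L0 Z Y m))).mp h1
  have h3 := congrArg (MvPolynomial.coeff (cwE m z (0 : ZMod m) w0)) h2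
  rw [MvPolynomial.coeff_sum, MvPolynomial.coeff_zero] at h3
  have h4 : ∀ w ∈ S, MvPolynomial.coeff (cwE m z (0 : ZMod m) w0)
      (c w • ∑ r ∈ range m, cw Z m z (r : ZMod m) w)
      = if w = w0 then c w0 * (∑ r ∈ range m,
          if cwE m z (r : ZMod m) w0 = cwE m z (0 : ZMod m) w0 then (1 : Z) else 0) else 0 := by
    intro w hw
    rw [MvPolynomial.coeff_smul, MvPolynomial.coeff_sum, smul_eq_mul]
    by_cases hww : w = w0
    · subst hww
      rw [if_pos rfl]
      congr 1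
      refine sum_congr rfl fun r _ => ?_
      rw [cw_eq_monomial, MvPolynomial.coeff_monomial]
    · rw [if_neg hww]
      have : ∀ r ∈ range m, MvPolynomial.coeff (cwE m z (0 : ZMod m) w0)
          (cw Z m z (r : ZMod m) w) = 0 := by
        intro r hr
        rw [cw_eq_monomial, MvPolynomial.coeff_monomial, if_neg]
        intro he
        exact hww (cwE_rigid m (hS w hw).1 (hS w0 hw0).1 (hS w hw).2 (hS w0 hw0).2 hm
          (mem_range.mp hr) he)
      rw [sum_eq_zero this, mul_zero]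
  rw [sum_congr rfl h4, sum_ite_eq' S w0, if_pos hw0] at h3
  have h5 : (∑ r ∈ range m,
      if cwE m z (r : ZMod m) w0 = cwE m z (0 : ZMod m) w0 then (1 : Z) else 0) ≠ 0 := by
    rw [← Finset.natCast_card_filter]
    have hm0 : 0 < m := Nat.pos_of_ne_zero (NeZero.ne m)
    have : 0 < (filter (fun r : ℕ => cwE m z (r : ZMod m) w0 = cwE m z (0 : ZMod m) w0)
        (range m)).card := by
      apply Finset.card_pos.mpr
      exact ⟨0, by simp [hm0]⟩
    exact_mod_cast this.ne'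
  exact (mul_eq_zero.mp h3).resolve_right h5

end Clock

section N2bTop

variable (Z : Type*) [Field Z] [CharZero Z] {Y : Type*} [DecidableEq Y] (m : ℕ) [NeZero m]
variable {A : Type*} [DivisionRing A] [Algebra Z A] [FiniteDimensional Z A]

/-- `l = ∑_{w ∈ S} l(w) ⊗ η_w`: the coefficient of the degree-`D` part of `ξ` (clock base). -/
noncomputable def clockL (z : Y) (S : Finset (List Y)) (η : List Y → A) : RL Z Y m A :=
  ∑ w ∈ S, algebraMap (Pol Z Y m) (L0 Z Y m) (cw Z m z 0 w) ⊗ₜ[Z] η w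

lemma sum_sR_pow_clockL (z : Y) (S : Finset (List Y)) (η : List Y → A) :
    ∑ r ∈ range m, (sR Z Y m A ^ r) (clockL Z m z S η)
      = ∑ w ∈ S, tr Z Y m (algebraMap (Pol Z Y m) (L0 Z Y m) (cw Z m z 0 w)) ⊗ₜ[Z] η w := by
  unfold clockL tr
  simp only [map_sum, sR_pow_tmul]
  rw [sum_comm]
  refine sum_congr rfl fun w _ => ?_
  rw [TensorProduct.sum_tmul]

/-- The trace of `l` is not in `L0 ⊗ K` as soon as some `η_w ∉ K`. -/
theorem sum_sR_pow_clockL_not_mem {K : Submodule Z A} (z : Y) (S : Finset (List Y)) (D : ℕ)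
    (hS : ∀ w ∈ S, w.length = D ∧ NormalW z w) (hm : 2 * D < m) (η : List Y → A)
    {w0 : List Y} (hw0 : w0 ∈ S) (hη : η w0 ∉ K) :
    ∑ r ∈ range m, (sR Z Y m A ^ r) (clockL Z m z S η) ∉ K.baseChange (L0 Z Y m) := by
  intro hmem
  obtain ⟨φ, hφ, hne⟩ := exists_functional Z hη
  have h1 := lam_eq_zero_of_mem_baseChange Z Y m φ hφ hmem
  rw [sum_sR_pow_clockL, map_sum] at h1
  simp only [lam_tmul] at h1
  exact hne (tr_cw_indep Z m z S D hS hm (fun w => φ (η w)) h1 w0 hw0)

/-- `ϖ^m` is central in `SL (RL) sR`. -/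
lemma ϖz_central [Infinite Z] (x : SL (RL Z Y m A) (sR Z Y m A)) :
    (SL.ϖz (m : ℤ) : SL (RL Z Y m A) (sR Z Y m A)) * x = x * SL.ϖz (m : ℤ) := by
  apply SL.ext
  funext n
  rw [SL.coeff_ϖz_mul, SL.coeff_mul_ϖz, zpow_natCast, sR_pow_m]
  rfl

/-- **(N2b)** `ξ = ξ_K + l ϖ^D + E₀`, where `l = ∑_w l(w) ⊗ η_w` over normal words of length `D`,
some `η_{w0} ∉ K`, `ξ_K` conjugate by a principal unit `u` to `θ = ϖ + ...` with coefficients in
`K0 ⊂ L0 ⊗ K` (central, `s`-fixed). If `𝒵` is a subring of `SL` containing `ξ, ξ⁻¹, ϖ^m, C K0`, then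
`𝒵` has an element of order `≥ 0` with residue outside `K0`. -/
theorem N2b [Infinite Z] {K : Submodule Z A} (K0 : Subring (RL Z Y m A))
    (hK0 : ∀ k ∈ K0, k ∈ K.baseChange (L0 Z Y m))
    (hfix : ∀ k ∈ K0, sR Z Y m A k = k) (hcen : ∀ k ∈ K0, ∀ x, k * x = x * k)
    {θ ξK E₀ u : SL (RL Z Y m A) (sR Z Y m A)}
    (hθ : ∀ i, θ.coeff i ∈ K0) (hθLB : θ.LB 1) (hθ1 : θ.coeff 1 = 1)
    (hu : u.LB 0) (hu0 : u.coeff 0 = 1) (hconj : u * ξK * u⁻¹ = θ)
    (z : Y) (S : Finset (List Y)) {D : ℕ} (hD : 2 ≤ D)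
    (hS : ∀ w ∈ S, w.length = D ∧ NormalW z w) (hm : 2 * D < m) (η : List Y → A)
    {w0 : List Y} (hw0 : w0 ∈ S) (hη : η w0 ∉ K)
    (hE₀ : E₀.LB ((D : ℤ) + 1))
    {𝒵 : Subring (SL (RL Z Y m A) (sR Z Y m A))}
    (hC : ∀ k ∈ K0, SL.C k ∈ 𝒵)
    (hξ : ξK + SL.mon (clockL Z m z S η) (D : ℤ) + E₀ ∈ 𝒵)
    (hinv : (ξK + SL.mon (clockL Z m z S η) (D : ℤ) + E₀)⁻¹ ∈ 𝒵)
    (hϖ : (SL.ϖz (m : ℤ) : SL (RL Z Y m A) (sR Z Y m A)) ∈ 𝒵) :
    ∃ c ∈ 𝒵, c.LB 0 ∧ c.coeff 0 ∉ K0 := by
  classical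
  set σ := sR Z Y m A with hσ
  set l := clockL Z m z S η with hl
  have hmpos : 0 < m := Nat.pos_of_ne_zero (NeZero.ne m)
  have hmne : ((m : ℕ) : RL Z Y m A) ≠ 0 := by
    have h1 : ((m : ℕ) : RL Z Y m A) = algebraMap Z (RL Z Y m A) ((m : ℕ) : Z) :=
      (map_natCast _ _).symm
    rw [h1]
    intro h0
    have h2 := (map_eq_zero_iff _ (algebraMap Z (RL Z Y m A)).injective).mp h0
    exact hmpos.ne' (by exact_mod_cast h2)
  set t := ∑ r ∈ range m, (σ ^ r) l with ht
  obtain ⟨b, hb⟩ := exists_delta_inv' (σ := σ) m hmne l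
  set a := ((m : ℕ) : RL Z Y m A)⁻¹ * t with ha
  have hσt : σ t = t := by
    rw [ht, map_sum]
    have h1 : ∀ r, σ ((σ ^ r) l) = (σ ^ (r + 1)) l := by
      intro r
      rw [pow_succ']
      rfl
    simp only [h1]
    have h2 := Finset.sum_range_succ' (fun r => (σ ^ r) l) m
    have h3 := Finset.sum_range_succ (fun r => (σ ^ r) l) m
    rw [h3] at h2
    have h4 : (σ ^ m) l = (σ ^ 0) l := by
      rw [hσ, sR_pow_m, pow_zero]
    rw [h4] at h2
    exact (add_right_cancel h2).symm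
  have hσa : σ a = a := by
    rw [ha, map_mul, map_inv₀, map_natCast, hσt]
  obtain ⟨w, E', hw, hw0', hE', hconj'⟩ :=
    conj_form hθLB hθ1 hu hu0 hconj (by exact_mod_cast hD : (2 : ℤ) ≤ (D : ℤ)) hE₀ hb
  have hma : ((m : ℕ) : RL Z Y m A) * a = t := by
    rw [ha, ← mul_assoc, mul_inv_cancel₀ hmne, one_mul]
  refine exists_residue_not_mem hfix hcen hθ hθLB hθ1 hσa hD hE' hC hw hw0' hξ hinv hconj' hmpos hϖ
    (ϖz_central Z m) ?_
  rw [hma]
  intro htK
  exact sum_sR_pow_clockL_not_mem Z m z S D hS hm η hw0 hη (hK0 _ htK)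

end N2bTop

end Crest.Agent.Lib.Kurosh.NonComm
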