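import Crest.Agent.Lib.Kurosh.BlockIndep
import Crest.Agent.Lib.Kurosh.NonCommL

/-!
# S0270, blueprint 6.2: the clock monomials `M(u,v) = s^{-|u|} l(u) · l(v)`

Exponent vector `pairE u v`; the supports determine `(u,v)` among pairs of total length `D - 1`
with `v` empty or not ending in `z` (`m ≥ 2 D`).  So the `M(u,v)` are `Z0`-independent when `m` is
large, and there is a dual element `x`.
-/

set_option autoImplicit false

open scoped TensorProduct

namespace Crest.Agent.Lib.Kurosh.TheoremB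

open RatExt NonComm

variable {Z : Type*} [Field Z] {Y : Type*} [DecidableEq Y] {m : ℕ}

/-- The exponent vector of `M(u,v)`. -/
noncomputable def pairE (m : ℕ) (z : Y) (u v : List Y) : ZMod m × Y →₀ ℕ :=
  cwE m z (-((u.length : ℕ) : ZMod m)) u + cwE m z 0 v

lemma mem_support_pairE (z : Y) (u v : List Y) (q : ZMod m) (y : Y) :
    (q, y) ∈ (pairE m z u v).support ↔
      cwE m z (-((u.length : ℕ) : ZMod m)) u (q, y) ≠ 0 ∨ cwE m z 0 v (q, y) ≠ 0 := by
  rw [Finsupp.mem_support_iff, pairE, Finsupp.add_apply, ne_eq, Nat.add_eq_zero_iff, not_and_or]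

lemma natCast_inj_of_lt [NeZero m] {a b : ℕ} (ha : a < m) (hb : b < m)
    (h : (a : ZMod m) = (b : ZMod m)) : a = b := by
  have h1 := (ZMod.natCast_eq_natCast_iff' _ _ m).1 h
  rwa [Nat.mod_eq_of_lt ha, Nat.mod_eq_of_lt hb] at h1

/-- A word is determined by the support of its clock monomial, given its length. -/
lemma cwE_side_eq [NeZero m] {z : Y} {r : ZMod m} {a b : List Y} (hab : a.length = b.length)
    (hm : a.length ≤ m)
    (h : ∀ q y, cwE m z r a (q, y) ≠ 0 ↔ cwE m z r b (q, y) ≠ 0) : a = b := by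
  refine List.ext_getElem hab fun i h1 h2 => ?_
  by_contra hne
  by_cases ha : a[i] = z
  · have hb : b[i] ≠ z := fun hb => hne (by rw [ha, hb])
    have h3 : cwE m z r b (r + (i : ZMod m), b[i]) ≠ 0 :=
      (cwE_apply_ne_zero_iff m z r b _ _).mpr ⟨i, h2, rfl, hb, rfl⟩
    obtain ⟨i', hi', e1, e2, e3⟩ := (cwE_apply_ne_zero_iff m z r a _ _).mp ((h _ _).mpr h3)
    have e4 : i' = i := natCast_inj_of_lt (by omega) (by omega) (add_left_cancel e3)
    subst e4
    exact hne e1
  · have h3 : cwE m z r a (r + (i : ZMod m), a[i]) ≠ 0 :=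
      (cwE_apply_ne_zero_iff m z r a _ _).mpr ⟨i, h1, rfl, ha, rfl⟩
    obtain ⟨i', hi', e1, e2, e3⟩ := (cwE_apply_ne_zero_iff m z r b _ _).mp ((h _ _).mp h3)
    have e4 : i' = i := natCast_inj_of_lt (by omega) (by omega) (add_left_cancel e3)
    subst e4
    exact hne e1.symm

/-- Positions on the `u`-side and on the `v`-side never coincide. -/
lemma sides_disjoint [NeZero m] {k i i' : ℕ} (hi : i < k) (hsum : k + i' < m)
    (h : -((k : ℕ) : ZMod m) + (i : ZMod m) = (i' : ZMod m)) : False := by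
  have h1 : ((k - i + i' : ℕ) : ZMod m) = 0 := by
    have e : ((k - i + i' : ℕ) : ZMod m) = (k : ZMod m) - (i : ZMod m) + (i' : ZMod m) := by
      rw [Nat.cast_add, Nat.cast_sub hi.le]
    rw [e, ← h]
    ring
  rw [ZMod.natCast_eq_zero_iff] at h1
  have := Nat.le_of_dvd (by omega) h1
  omega

/-- The `v`-length is determined. -/
lemma vlen_le [NeZero m] {z : Y} {v v' : List Y} (hv : v.getLast? ≠ some z)
    (hne : v ≠ []) (hm : v.length ≤ m) (hm' : v'.length ≤ m)
    (h : ∀ q y, cwE m z 0 v (q, y) ≠ 0 → cwE m z 0 v' (q, y) ≠ 0) : v.length ≤ v'.length := by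
  have hpos : 0 < v.length := List.length_pos_iff.mpr hne
  set n := v.length - 1 with hn
  have hnlt : n < v.length := by omega
  have hlast : v[n] ≠ z := by
    intro he
    apply hv
    rw [List.getLast?_eq_getElem?, List.getElem?_eq_getElem hnlt, he]
  have h3 : cwE m z 0 v ((0 : ZMod m) + (n : ZMod m), v[n]) ≠ 0 :=
    (cwE_apply_ne_zero_iff m z 0 v _ _).mpr ⟨n, hnlt, rfl, hlast, rfl⟩
  obtain ⟨i', hi', _, _, e3⟩ := (cwE_apply_ne_zero_iff m z 0 v' _ _).mp (h _ _ h3)
  have e4 : i' = n := natCast_inj_of_lt (by omega) (by omega) (add_left_cancel e3)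
  omega

/-- **Rigidity**: the support of `M(u,v)` determines `(u,v)`. -/
theorem pairE_support_inj [NeZero m] {z : Y} {D : ℕ} (hm : 2 * D ≤ m) {u v u' v' : List Y}
    (h1 : u.length + v.length + 1 = D) (h2 : u'.length + v'.length + 1 = D)
    (hv : v = [] ∨ v.getLast? ≠ some z) (hv' : v' = [] ∨ v'.getLast? ≠ some z)
    (h : (pairE m z u v).support = (pairE m z u' v').support) : u = u' ∧ v = v' := by
  have hmem : ∀ q y, (cwE m z (-((u.length : ℕ) : ZMod m)) u (q, y) ≠ 0 ∨ cwE m z 0 v (q, y) ≠ 0) ↔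
      (cwE m z (-((u'.length : ℕ) : ZMod m)) u' (q, y) ≠ 0 ∨ cwE m z 0 v' (q, y) ≠ 0) := by
    intro q y
    rw [← mem_support_pairE, ← mem_support_pairE, h]
  -- the sides are separated
  have hsep : ∀ {a b c : List Y}, a.length + c.length < m → ∀ q y,
      cwE m z (-((a.length : ℕ) : ZMod m)) a (q, y) ≠ 0 → cwE m z 0 c (q, y) ≠ 0 → False := by
    intro a b c hsum q y h3 h4
    obtain ⟨i, hi, _, _, e3⟩ := (cwE_apply_ne_zero_iff m z _ a _ _).mp h3
    obtain ⟨i', hi', _, _, e3'⟩ := (cwE_apply_ne_zero_iff m z 0 c _ _).mp h4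
    rw [zero_add] at e3'
    exact sides_disjoint hi (by omega) (e3.trans e3'.symm)
  have hmD : 0 < D := by omega
  -- the `v` sides agree
  have hvv : ∀ q y, cwE m z 0 v (q, y) ≠ 0 ↔ cwE m z 0 v' (q, y) ≠ 0 := by
    intro q y
    constructor
    · intro h3
      rcases (hmem q y).mp (Or.inr h3) with h4 | h4
      · exact (hsep (a := u') (b := u') (by omega) q y h4 h3).elim
      · exact h4
    · intro h3
      rcases (hmem q y).mpr (Or.inr h3) with h4 | h4
      · exact (hsep (a := u) (b := u) (by omega) q y h4 h3).elim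
      · exact h4
  have hlen : v.length = v'.length := by
    apply le_antisymm
    · rcases hv with rfl | hv0
      · simp
      · by_cases hne : v = []
        · simp [hne]
        · exact vlen_le hv0 hne (by omega) (by omega) fun q y => (hvv q y).mp
    · rcases hv' with rfl | hv0
      · simp
      · by_cases hne : v' = []
        · simp [hne]
        · exact vlen_le hv0 hne (by omega) (by omega) fun q y => (hvv q y).mpr
  have hvfinal : v = v' := cwE_side_eq hlen (by omega) hvv
  subst hvfinal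
  have hulen : u.length = u'.length := by omega
  refine ⟨?_, rfl⟩
  -- the `u` sides agree
  have huu : ∀ q y, cwE m z (-((u.length : ℕ) : ZMod m)) u (q, y) ≠ 0 ↔
      cwE m z (-((u.length : ℕ) : ZMod m)) u' (q, y) ≠ 0 := by
    intro q y
    have e : -((u.length : ℕ) : ZMod m) = -((u'.length : ℕ) : ZMod m) := by rw [hulen]
    constructor
    · intro h3
      rcases (hmem q y).mp (Or.inl h3) with h4 | h4
      · rwa [e]
      · exact (hsep (a := u) (b := u) (by omega) q y h3 h4).elim
    · intro h3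
      rw [e] at h3
      rcases (hmem q y).mpr (Or.inl h3) with h4 | h4
      · exact h4
      · exact (hsep (a := u') (b := u') (by omega) q y h3 h4).elim
  exact cwE_side_eq hulen (by omega) huu

/-- Independence of the `M(u,v)`. -/
theorem pairs_indep [NeZero m] (z : Y) (S : Finset (List Y × List Y)) {D : ℕ} (hD : 1 ≤ D)
    (hS : ∀ q ∈ S, q.1.length + q.2.length + 1 = D ∧ (q.2 = [] ∨ q.2.getLast? ≠ some z))
    (hm : S.card * (2 * D) ≤ m) :
    LinearIndependent (Z0 Z Y m)
      (fun q : S => algebraMap (Pol Z Y m) (L0 Z Y m)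
        (MvPolynomial.monomial (pairE m z q.1.1 q.1.2) (1 : Z))) := by
  classical
  let e : S ≃ Fin S.card := S.equivFin
  let r : S → ℕ := fun i => (e i : ℕ) * (2 * D)
  let A : Finset (ZMod m) := (Finset.range (2 * D)).image fun n : ℕ => (n : ZMod m) - (D : ZMod m)
  have hlt : ∀ (i : S) (n : ℕ), n < 2 * D → r i + n < m := by
    intro i n hn
    have h1 : (e i : ℕ) + 1 ≤ S.card := (e i).2
    have h2 : ((e i : ℕ) + 1) * (2 * D) ≤ S.card * (2 * D) := Nat.mul_le_mul_right _ h1
    have : r i + n < ((e i : ℕ) + 1) * (2 * D) := by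
      simp only [r]
      nlinarith
    omega
  have hm2 : ∀ _ : S, 2 * D ≤ m := by
    intro i
    have h1 := hlt i 0 (by omega)
    have h2 : 1 ≤ S.card := Finset.card_pos.mpr ⟨i.1, i.2⟩
    calc 2 * D = 1 * (2 * D) := by ring
      _ ≤ S.card * (2 * D) := Nat.mul_le_mul_right _ h2
      _ ≤ m := hm
  refine BlockIndep.mon_indep Z Y m _ ?_ r A ?_ ?_
  · -- injectivity
    intro i i' h
    have h' : (pairE m z i.1.1 i.1.2).support = (pairE m z i'.1.1 i'.1.2).support := h
    obtain ⟨e1, e2⟩ := pairE_support_inj (hm2 i) (hS _ i.2).1 (hS _ i'.2).1 (hS _ i.2).2 (hS _ i'.2).2 h'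
    exact Subtype.ext (Prod.ext e1 e2)
  · -- positions
    rintro i ⟨q, y⟩ hp
    have hlen := (hS _ i.2).1
    simp only [Finset.mem_image, Finset.mem_range, A]
    rcases (mem_support_pairE z _ _ q y).mp hp with h3 | h3
    · obtain ⟨t, ht, _, _, e3⟩ := (cwE_apply_ne_zero_iff m z _ _ _ _).mp h3
      refine ⟨D - i.1.1.length + t, by omega, ?_⟩
      show _ = q
      rw [← e3, Nat.cast_add, Nat.cast_sub (by omega)]
      ring
    · obtain ⟨t, ht, _, _, e3⟩ := (cwE_apply_ne_zero_iff m z _ _ _ _).mp h3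
      refine ⟨D + t, by omega, ?_⟩
      show _ = q
      rw [← e3, Nat.cast_add]
      ring
  · -- disjointness
    intro i i' a a' ha ha' h
    simp only [Finset.mem_image, Finset.mem_range, A] at ha ha'
    obtain ⟨n, hn, rfl⟩ := ha
    obtain ⟨n', hn', rfl⟩ := ha'
    have h1 : ((r i + n : ℕ) : ZMod m) = ((r i' + n' : ℕ) : ZMod m) := by
      push_cast
      have := h
      linear_combination this
    have h2 : r i + n = r i' + n' := natCast_inj_of_lt (hlt i n hn) (hlt i' n' hn') h1
    have hpos : 0 < 2 * D := by omega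
    have h3 : (r i + n) / (2 * D) = (e i : ℕ) := by
      simp only [r]
      rw [Nat.add_comm, Nat.add_mul_div_right _ _ hpos, Nat.div_eq_of_lt hn, zero_add]
    have h4 : (r i' + n') / (2 * D) = (e i' : ℕ) := by
      simp only [r]
      rw [Nat.add_comm, Nat.add_mul_div_right _ _ hpos, Nat.div_eq_of_lt hn', zero_add]
    have h5 : (e i : ℕ) = e i' := by rw [← h3, ← h4, h2]
    have h6 : i = i' := e.injective (Fin.ext h5)
    subst h6
    have h7 : n = n' := by omega
    exact ⟨rfl, by rw [h7]⟩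

end Crest.Agent.Lib.Kurosh.TheoremB
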