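import Mathlib
import Crest.Agent.Lib.Kurosh.RatExt

/-!
# `L0 ⊗ K` is a field when `K` is a finite field extension of `Z` (S0270)

The instance is compatible with `RatExt.instDivisionRingRL` and with the tensor product ring structure
(both hold by `with_reducible_and_instances rfl`), so that `KPrime` (which works on `SL L s`, `L` a field)
applies to `Tilde K = SL (RL K) (sR K)`.
-/

set_option autoImplicit false

open scoped TensorProduct

namespace Crest.Agent.Lib.Kurosh.RatExt

variable {Z : Type*} [Field Z] [Infinite Z] {Y : Type*} {m : ℕ} {K : Type*} [Field K] [Algebra Z K]
  [FiniteDimensional Z K]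

noncomputable instance instFieldRL : Field (RL Z Y m K) :=
  { instDivisionRingRL Z Y m K with
    mul_comm := mul_comm }

example : (instFieldRL (Z := Z) (Y := Y) (m := m) (K := K)).toDivisionRing =
    instDivisionRingRL Z Y m K := by
  with_reducible_and_instances rfl

example : (instFieldRL (Z := Z) (Y := Y) (m := m) (K := K)).toCommRing =
    (inferInstance : CommRing (RL Z Y m K)) := by
  with_reducible_and_instances rfl

end Crest.Agent.Lib.Kurosh.RatExt
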