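import Crest.Agent.Lib.Kurosh.NonCommK
import Crest.Agent.Lib.Kurosh.CanonU
import Crest.Agent.Lib.Kurosh.PsiCore

/-!
# S0270, Step 2 (N2b): canonical conjugation of the central truncation

All coefficients of `ξ` below order `D` are central in `S`: the truncation lives in `SL (center S)`,
where `CanonU` applies.
-/

set_option autoImplicit false
set_option linter.unusedSectionVars false

open scoped TensorProduct

namespace Crest.Agent.Lib.Kurosh.NonComm

open SL Finset

section Canon

variable {S : Type*} [DivisionRing S] {σ : RingAut S}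

/-- Restriction of `σ` to the centre. -/
noncomputable def cAut (σ : RingAut S) : RingAut (Subring.center S) := Subring.centerCongr σ

lemma cAut_coe (σ : RingAut S) (x : Subring.center S) : ((cAut σ x : Subring.center S) : S) = σ x := rfl

lemma cAut_pow (σ : RingAut S) (n : ℕ) (x : Subring.center S) :
    (((cAut σ) ^ n) x : Subring.center S).1 = (σ ^ n) x.1 := by
  induction n generalizing x with
  | zero => rfl
  | succ n ih =>
    rw [pow_succ', pow_succ']
    change (cAut σ ((cAut σ ^ n) x)).1 = σ ((σ ^ n) x.1)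
    rw [cAut_coe, ih]

/-- The embedding of the centre is equivariant. -/
lemma subtype_equivariant (σ : RingAut S) (x : Subring.center S) :
    (Subring.center S).subtype (cAut σ x) = σ ((Subring.center S).subtype x) := rfl

/-- The map `SL (center S) → SL S`. -/
noncomputable def cMap (σ : RingAut S) : SL (Subring.center S) (cAut σ) →+* SL S σ :=
  SL.map (Subring.center S).subtype (subtype_equivariant σ)

lemma coeff_cMap (σ : RingAut S) (f : SL (Subring.center S) (cAut σ)) (i : ℤ) :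
    (cMap σ f).coeff i = (f.coeff i : S) := by
  exact coeff_map _ _ f i

/-- Truncation of a series with central low coefficients. -/
noncomputable def truncC (ξ : SL S σ) (D : ℤ) (hLB : ∃ N, ξ.LB N)
    (hc : ∀ n, n < D → ξ.coeff n ∈ Subring.center S) : SL (Subring.center S) (cAut σ) := by
  classical
  exact ⟨fun n => if h : n < D then ⟨ξ.coeff n, hc n h⟩ else 0, by
    obtain ⟨N, hN⟩ := hLB
    refine ⟨N, fun i hi => ?_⟩
    by_cases h : i < D
    · rw [dif_pos h]
      apply Subtype.ext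
      exact hN i hi
    · rw [dif_neg h]⟩

/-- **Canonical data for the central truncation.** -/
theorem canon_data {m : ℕ} (hσ : σ ^ m = 1) (hm : (m : S) ≠ 0) {ξ : SL S σ} {D : ℤ} (hD : 2 ≤ D)
    (hLB : ξ.LB 1) (h1 : ξ.coeff 1 = 1) (hc : ∀ n, n < D → ξ.coeff n ∈ Subring.center S) :
    ∃ u θ ξK : SL S σ, u.LB 0 ∧ u.coeff 0 = 1 ∧ u * ξK * u⁻¹ = θ ∧
      (∀ i, σ (θ.coeff i) = θ.coeff i ∧ ∀ x, θ.coeff i * x = x * θ.coeff i) ∧
      θ.LB 1 ∧ θ.coeff 1 = 1 ∧ (∀ n, n < D → ξK.coeff n = ξ.coeff n) ∧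
      (∀ n, D ≤ n → ξK.coeff n = 0) := by
  classical
  set x : SL (Subring.center S) (cAut σ) := truncC ξ D ⟨1, hLB⟩ hc with hx
  have hxc : ∀ n, (x.coeff n : S) = if n < D then ξ.coeff n else 0 := by
    intro n
    change ((if h : n < D then (⟨ξ.coeff n, hc n h⟩ : Subring.center S) else 0 : Subring.center S) : S)
      = _
    by_cases h : n < D
    · simp [h]
    · simp [h]
  have hcyc : CanonU.Cyc (cAut σ) m := by
    refine ⟨?_, ?_⟩
    · apply RingEquiv.ext
      intro y
      apply Subtype.ext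
      have := cAut_pow σ m y
      rw [this, hσ]
      rfl
    · intro h0
      apply hm
      have := congrArg (fun y : Subring.center S => (y : S)) h0
      simpa using this
  have hnorm : CanonU.Norm1 x := by
    refine ⟨fun i hi => ?_, ?_⟩
    · apply Subtype.ext
      rw [hxc]
      split_ifs
      · exact hLB i hi
      · rfl
    · apply Subtype.ext
      rw [hxc, if_pos (by omega), h1]
      rfl
  set u0 := CanonU.canonU m x with hu0
  have hu0P : CanonU.OneP u0 := CanonU.canonU_oneP x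
  set θ0 := CanonU.conj u0 x with hθ0
  have hfix : CanonU.IsFix θ0 := CanonU.canonU_conj_isFix hcyc hnorm
  have hn1 : CanonU.Norm1 θ0 := CanonU.canonU_conj_norm1 hcyc hnorm
  refine ⟨cMap σ u0, cMap σ θ0, cMap σ x, ?_, ?_, ?_, ?_, ?_, ?_, ?_, ?_⟩
  · intro i hi
    rw [coeff_cMap, hu0P.LB0 i hi]
    rfl
  · rw [coeff_cMap, hu0P.coeff0]
    rfl
  · rw [hθ0, CanonU.conj, map_mul, map_mul, map_inv₀]
  · intro i
    rw [coeff_cMap]
    refine ⟨?_, fun y => ?_⟩
    · have := congrArg (fun y : Subring.center S => (y : S)) (hfix i)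
      exact this
    · exact ((Subring.mem_center_iff.mp (θ0.coeff i).2) y).symm
  · intro i hi
    rw [coeff_cMap, hn1.lb i hi]
    rfl
  · rw [coeff_cMap, hn1.lead]
    rfl
  · intro n hn
    rw [coeff_cMap, hxc, if_pos hn]
  · intro n hn
    rw [coeff_cMap, hxc, if_neg (by omega)]

end Canon

section Core

open RatExt PsiCore NCSeries

variable (Z : Type*) [Field Z] [CharZero Z] [Infinite Z] {Y : Type*} [Fintype Y] [DecidableEq Y]
variable (m : ℕ) [NeZero m] {A : Type*} [DivisionRing A] [Algebra Z A] [FiniteDimensional Z A]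

/-- The clock base in `R_L`. -/
noncomputable def clockB (A : Type*) [DivisionRing A] [Algebra Z A] [FiniteDimensional Z A]
    (z : Y) (y : Y) : RL Z Y m A :=
  iotaL Z Y m A (if y = z then 1 else T Z Y m 0 y)

/-- The generic base in `R_L`. -/
noncomputable def genericB (A : Type*) [DivisionRing A] [Algebra Z A] [FiniteDimensional Z A]
    (y : Y) : RL Z Y m A :=
  iotaL Z Y m A (T Z Y m 0 y)

lemma lw_clockB (z : Y) (w : List Y) :
    lw (sR Z Y m A) (clockB Z m A z) w
      = iotaL Z Y m A (algebraMap (Pol Z Y m) (L0 Z Y m) (cw Z m z 0 w)) := by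
  induction w with
  | nil => simp [lw, cw]
  | cons y v ih =>
    rw [lw, ih, sR_iotaL, s_algebraMap, sPol_cw, cw, map_mul, map_mul, clockB, zero_add]
    congr 2
    by_cases h : y = z
    · simp [h]
    · simp [h, T]

lemma iota_mul_tmul (a : A) (c : L0 Z Y m) (b : A) :
    iota Z Y m A a * (c ⊗ₜ[Z] b) = c ⊗ₜ[Z] (a * b) := by
  simp [iota, Algebra.TensorProduct.tmul_mul_tmul]

lemma iotaL_mul_iota (c : L0 Z Y m) (b : A) :
    iotaL Z Y m A c * iota Z Y m A b = c ⊗ₜ[Z] b := by
  simp [iota, iotaL, Algebra.TensorProduct.tmul_mul_tmul]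

/-- Pure tensors with central right factor are central. -/
lemma tmul_central {a : A} (ha : ∀ b, a * b = b * a) (c : L0 Z Y m) (x : RL Z Y m A) :
    (c ⊗ₜ[Z] a) * x = x * (c ⊗ₜ[Z] a) := by
  induction x using TensorProduct.induction_on with
  | zero => simp
  | add x y hx hy => rw [mul_add, add_mul, hx, hy]
  | tmul d b =>
    simp only [Algebra.TensorProduct.tmul_mul_tmul]
    rw [mul_comm c d, ha b]

lemma C_central_of_K0 {k : RL Z Y m A} (hk : k ∈ K0Sub Z Y m A)
    (x : SL (RL Z Y m A) (sR Z Y m A)) : (SL.C k) * x = x * SL.C k := by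
  apply SL.ext
  funext n
  rw [coeff_C_mul, SL.coeff_mul_C, hk.2, zpow_apply_of_fixed hk.1]

variable (B : Base A (RL Z Y m A) (sR Z Y m A) Y)

/-- **(N1) core.** -/
theorem n1_core (hB : IsMonBase B (genericB Z m A) (iota Z Y m A)) (f : NCS A Y)
    (hf0 : coeff [] f = 0) (y0 : Y) (hx : ∃ a, (coeff [y0] f) ^ m * a ≠ a * (coeff [y0] f) ^ m) :
    (B.value f ^ m * ϖz (-(m : ℤ))).LB 0 ∧
      (B.value f ^ m * ϖz (-(m : ℤ))).coeff 0 ∉ K0Sub Z Y m A := by
  have hf1 : f ∈ ordGE Y A 1 := by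
    intro w hw
    have : w = [] := List.length_eq_zero_iff.mp (by simpa using hw)
    rw [this]
    exact hf0
  have hLB : (B.value f).LB 1 := by
    simpa using B.value_LB_order hf1
  refine ⟨lB_pow_mul_ϖz hLB m, ?_⟩
  rw [coeff_pow_mul_ϖz hLB]
  have h1 : (B.value f).coeff 1 = genElt Z Y m A (fun y => coeff [y] f) 0 := by
    have h2 := hB.coeff_value 1 f
    rw [sum_wordsLen_succ] at h2
    simp only [sum_wordsLen_zero, lw, map_one, mul_one, Nat.cast_one] at h2
    rw [h2, genElt]
    refine sum_congr rfl fun y _ => ?_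
    rw [genericB, RingHom.coe_coe, iotaL_mul_iota]
  rw [h1]
  exact normProd_not_mem_K0 Z Y m A (fun y => coeff [y] f) y0 m hx

/-- **(N2b) core.** `f` in normal form at `z` with linear part `κ z`, `κ` central with inverse `κ'`;
`D` is the least length of a word with non-central coefficient, `2 D < m`. If a subring `𝒵` of
`SL (R_L)`, closed under inverses, contains `f(τ)` (clock base) and all central elements, then it
has an element of order `≥ 0` with residue outside `K0Sub`. -/
theorem n2b_core (z : Y) (hB : IsMonBase B (clockB Z m A z) (iota Z Y m A)) (f : NCS A Y)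
    (hf0 : coeff [] f = 0) (κ κ' : A) (hκκ' : κ' * κ = 1) (hκc : ∀ a, κ * a = a * κ)
    (hz : coeff [z] f = κ) (hp : ∀ p, p ≠ z → coeff [p] f = 0)
    (hNF : ∀ w, w.getLast? = some z → (∃ p ∈ w, p ≠ z) → coeff w f = 0)
    (D : ℕ) (hD1 : ∀ w : List Y, w.length < D → ∀ a, coeff w f * a = a * coeff w f)
    {w0 : List Y} (hw0 : w0.length = D) (hw0a : ∃ a, coeff w0 f * a ≠ a * coeff w0 f)
    (hm : 2 * D < m)
    {𝒵 : Subring (SL (RL Z Y m A) (sR Z Y m A))}
    (hcent : ∀ t : SL (RL Z Y m A) (sR Z Y m A), (∀ g, t * g = g * t) → t ∈ 𝒵)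
    (hinv : ∀ x ∈ 𝒵, x⁻¹ ∈ 𝒵) (hξ : B.value f ∈ 𝒵) :
    ∃ c ∈ 𝒵, c.LB 0 ∧ c.coeff 0 ∉ K0Sub Z Y m A := by
  classical
  -- `D ≥ 2`
  have hD2 : 2 ≤ D := by
    by_contra hlt
    obtain ⟨a, ha⟩ := hw0a
    apply ha
    have hlen : w0.length < 2 := by omega
    match w0, hlen with
    | [], _ => rw [hf0]; simp
    | [y], _ =>
      by_cases hy : y = z
      · rw [hy, hz]; exact hκc a
      · rw [hp y hy]; simp
  have hκ'c : ∀ a, κ' * a = a * κ' := by
    intro a
    have hκ0 : κ ≠ 0 := by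
      rintro rfl
      simp at hκκ'
    have hκ' : κ' = κ⁻¹ := by
      exact eq_inv_of_mul_eq_one_left hκκ'
    rw [hκ']
    exact Commute.inv_left₀ (show Commute κ a from hκc a)
  have hκ1 : κ * κ' = 1 := by rw [hκc, hκκ']
  set η : List Y → A := fun w => κ' * coeff w f with hη
  -- the normalised element
  set ξ' : SL (RL Z Y m A) (sR Z Y m A) := SL.C (iota Z Y m A κ') * B.value f with hξ'
  have hcoeff : ∀ n : ℕ, ξ'.coeff n = ∑ w ∈ wordsLen n,
      (algebraMap (Pol Z Y m) (L0 Z Y m) (cw Z m z 0 w)) ⊗ₜ[Z] η w := by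
    intro n
    rw [hξ', coeff_C_mul, hB.coeff_value, Finset.mul_sum]
    refine sum_congr rfl fun w _ => ?_
    rw [lw_clockB, RingHom.coe_coe, iotaL_mul_iota, iota_mul_tmul]
  have hf1 : f ∈ ordGE Y A 1 := by
    intro w hw
    have : w = [] := List.length_eq_zero_iff.mp (by simpa using hw)
    rw [this]
    exact hf0
  have hvLB : (B.value f).LB 1 := by
    simpa using B.value_LB_order hf1
  have hξ'LB : ξ'.LB 1 := by
    have := (lB_mon (σ := sR Z Y m A) (iota Z Y m A κ') 0).mul hvLB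
    rw [zero_add] at this
    exact this
  have hξ'1 : ξ'.coeff 1 = 1 := by
    have h2 := hcoeff 1
    rw [sum_wordsLen_succ] at h2
    simp only [sum_wordsLen_zero, Nat.cast_one] at h2
    rw [h2, Finset.sum_eq_single z]
    · simp only [hη, hz, hκκ', cw, if_true, mul_one, map_one]
      rfl
    · intro p _ hpz
      simp only [hη, hp p hpz, mul_zero, TensorProduct.tmul_zero]
    · intro h
      exact absurd (Finset.mem_univ z) h
  have hκ'cent : (iota Z Y m A κ') ∈ K0Sub Z Y m A := by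
    refine ⟨sR_iota Z Y m A κ', fun x => ?_⟩
    have h1 : iota Z Y m A κ' = (1 : L0 Z Y m) ⊗ₜ[Z] κ' := rfl
    rw [h1]
    exact tmul_central Z m hκ'c 1 x
  -- central low coefficients
  have hξ'c : ∀ n : ℤ, n < D → ξ'.coeff n ∈ Subring.center (RL Z Y m A) := by
    intro n hn
    by_cases hn0 : n < 0
    · rw [hξ'LB n (by omega)]
      exact Subring.zero_mem _
    · obtain ⟨k, rfl⟩ : ∃ k : ℕ, n = k := ⟨n.toNat, by omega⟩
      rw [hcoeff k]
      refine Subring.sum_mem _ fun w hw => ?_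
      rw [Subring.mem_center_iff]
      intro g
      refine (tmul_central Z m (fun b => ?_) _ g).symm
      have hlen : w.length < D := by
        rw [mem_wordsLen.mp hw]
        exact_mod_cast hn
      rw [hη]
      change κ' * coeff w f * b = b * (κ' * coeff w f)
      rw [mul_assoc, hD1 w hlen b, ← mul_assoc, hκ'c b, mul_assoc]
  have hmne : ((m : ℕ) : RL Z Y m A) ≠ 0 := by
    have h1 : ((m : ℕ) : RL Z Y m A) = algebraMap Z (RL Z Y m A) ((m : ℕ) : Z) :=
      (map_natCast _ _).symm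
    rw [h1]
    intro h0
    have h2 := (map_eq_zero_iff _ (algebraMap Z (RL Z Y m A)).injective).mp h0
    exact (NeZero.ne m) (by exact_mod_cast h2)
  obtain ⟨u, θ, ξK, hu, hu0, hconj, hθ, hθLB, hθ1, hlow, hhigh⟩ :=
    canon_data (m := m) (sR_pow_m Z Y m A) hmne (D := (D : ℤ)) (by exact_mod_cast hD2) hξ'LB hξ'1 hξ'c
  -- the word set
  let S : Finset (List Y) := (wordsLen D).filter (NormalW z)
  have hS : ∀ w ∈ S, w.length = D ∧ NormalW z w := fun w hw =>
    ⟨mem_wordsLen.mp (Finset.mem_filter.mp hw).1, (Finset.mem_filter.mp hw).2⟩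
  have hnon : ∀ w, ¬ NormalW z w → coeff w f = 0 := by
    intro w hw
    rw [NormalW, not_or] at hw
    push Not at hw
    obtain ⟨⟨p, hp1, hp2⟩, h2⟩ := hw
    exact hNF w h2 ⟨p, hp1, hp2⟩
  have hw0N : NormalW z w0 := by
    by_contra h
    obtain ⟨a, ha⟩ := hw0a
    rw [hnon w0 h] at ha
    simp at ha
  have hw0S : w0 ∈ S := Finset.mem_filter.mpr ⟨mem_wordsLen.mpr hw0, hw0N⟩
  have hη0 : ∃ a, η w0 * a ≠ a * η w0 := by
    obtain ⟨a, ha⟩ := hw0a
    refine ⟨a, fun h => ha ?_⟩
    have e : coeff w0 f = κ * η w0 := by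
      simp only [hη]
      rw [← mul_assoc, hκ1, one_mul]
    rw [e, mul_assoc, h, ← mul_assoc, hκc a, mul_assoc]
  have hl : ξ'.coeff D = clockL Z m z S η := by
    rw [hcoeff D, clockL, Finset.sum_filter]
    refine sum_congr rfl fun w _ => ?_
    by_cases h : NormalW z w
    · rw [if_pos h]
    · rw [if_neg h]
      simp only [hη, hnon w h, mul_zero, TensorProduct.tmul_zero]
  -- the error term
  set E₀ := ξ' - ξK - SL.mon (clockL Z m z S η) (D : ℤ) with hE₀
  have hE₀LB : E₀.LB ((D : ℤ) + 1) := by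
    intro i hi
    rw [hE₀, SL.coeff_sub, SL.coeff_sub, coeff_mon]
    by_cases h : i < D
    · rw [if_neg (by omega), hlow i h]
      simp
    · have hi' : i = D := by omega
      rw [if_pos hi', hhigh i (by omega), hi', hl]
      simp
  have hsum : ξK + SL.mon (clockL Z m z S η) (D : ℤ) + E₀ = ξ' := by
    rw [hE₀]; abel
  have hξ'𝒵 : ξ' ∈ 𝒵 := by
    refine 𝒵.mul_mem (hcent _ fun g => ?_) hξ
    exact C_central_of_K0 Z m hκ'cent g
  refine N2b_K0 Z m hθ hθLB hθ1 hu hu0 hconj z S hD2 hS hm η hw0S hη0 hE₀LB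
    (fun k hk => hcent _ fun g => C_central_of_K0 Z m hk g) ?_ ?_ ?_
  · rw [hsum]; exact hξ'𝒵
  · rw [hsum]; exact hinv _ hξ'𝒵
  · exact hcent _ (ϖz_central Z m)

end Core

end Crest.Agent.Lib.Kurosh.NonComm
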