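import Crest.Agent.Lib.Kurosh.PsiCore
import Crest.Agent.Lib.Kurosh.ApproxR

/-!
# S0270, blueprint 6.2: the abstract computation in Theorem B

`L` is a field with an automorphism `s`, `s ^ m = 1`; `B` is a monomial base `τ y = b y ϖ`,
`ρ r = C (ι r)`, with `b z = 1`.  `g` is a series with linear part `z`.

`step_abs`: if `g'` is a truncation of `g` with coefficients in a stable subfield `FL`,
with `pr FL ≤ F0 ≤ apx R`, and `R` contains the ratios of the relevant `π^b (Dg[x])`, then
`R` contains `r ≡ pr c` modulo `ϖ`, with `c` the leading coefficient of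
`Dg[x]` modulo the truncation.
-/

set_option autoImplicit false

namespace Crest.Agent.Lib.Kurosh.TheoremB

open SL NCSeries PsiCore CanonU

variable {K L : Type*} [Field K] [Field L] {s : RingAut L} {m : ℕ} {Y : Type*} [Fintype Y]

/-- Series with linear part exactly `z`. -/
structure NF (g : NCS K Y) (z : Y) : Prop where
  nil : coeff [] g = 0
  zz : coeff [z] g = 1
  pp : ∀ p, p ≠ z → coeff [p] g = 0

variable {B : Base K L s Y} {b : Y → L} {ι : K →+* L} {z : Y}

lemma coeff_value_one (hB : IsMonBase B b ι) (g : NCS K Y) :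
    (B.value g).coeff 1 = ∑ y, b y * ι (coeff [y] g) := by
  have := hB.coeff_value 1 g
  rw [sum_wordsLen_succ] at this
  push_cast at this
  rw [this]
  refine Finset.sum_congr rfl fun y _ => ?_
  simp [lw]

lemma value_norm1 (hB : IsMonBase B b ι) (hbz : b z = 1) {g : NCS K Y} (hg : NF g z) :
    Norm1 (B.value g) := by
  classical
  refine ⟨?_, ?_⟩
  · intro i hi
    by_cases h0 : i = 0
    · subst h0
      have := hB.coeff_value 0 g
      simp only [sum_wordsLen_zero, hg.nil, map_zero, mul_zero] at this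
      simpa using this
    · exact B.value_LB g i (by omega)
  · rw [coeff_value_one hB, Finset.sum_eq_single z]
    · rw [hbz, hg.zz, map_one, mul_one]
    · intro y _ hy
      rw [hg.pp y hy, map_zero, mul_zero]
    · intro h
      exact absurd (Finset.mem_univ z) h

/-- The coefficient of a monomial direction at its leading position. -/
lemma dir_coeff_lead (hB : IsMonBase B b ι) {g : NCS K Y} [DecidableEq Y] (hg : NF g z) (xx : Y → L) (j : ℤ) :
    (B.dir (fun y => mon (xx y) j) g).coeff j = xx z := by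
  have := hB.coeff_dir xx j 0 g
  rw [sum_wordsLen_succ] at this
  simp only [sum_wordsLen_zero, Nat.cast_zero, add_zero] at this
  rw [this, Finset.sum_eq_single z]
  · simp [dw, lw, hg.zz]
  · intro y _ hy
    rw [hg.pp y hy, map_zero, mul_zero]
  · intro h
    exact absurd (Finset.mem_univ z) h

/-- `conj` does not change leading terms. -/
lemma conj_sub_self {u h : SL L s} (hu : OneP u) {e : ℤ} (hh : h.LB e) :
    (conj u h - h).LB (e + 1) := by
  have h1 := conj_congr hu oneP_one hu hh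
  have e1 : conj (1 : SL L s) h = h := by simp [conj]
  rw [e1] at h1
  convert h1 using 1
  ring

lemma proj_conj_coeff_lead {u h : SL L s} (hu : OneP u) {e : ℤ} (hh : h.LB e) :
    (proj s m (conj u h)).LB e ∧ (proj s m (conj u h)).coeff e = pr s m (h.coeff e) := by
  refine ⟨LB.proj (conj_LB hu hh), ?_⟩
  rw [coeff_proj, coeff_eq_of_sub_LB (conj_sub_self hu hh) (by omega)]

/-- Closeness of `π^b`-images. -/
lemma pb_close {u u' h h' : SL L s} (hu : OneP u) (hu' : OneP u') {c e : ℤ} (huu : (u - u').LB c)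
    (hh : (h - h').LB (e + c)) (hh' : h'.LB e) :
    (proj s m (conj u h) - proj s m (conj u' h')).LB (e + c) := by
  rw [← proj_sub]
  refine LB.proj ?_
  have e1 : conj u h - conj u' h' = conj u (h - h') + (conj u h' - conj u' h') := by
    rw [conj_sub]; abel
  rw [e1]
  refine LB.add (conj_LB hu hh) ?_
  have := conj_congr hu hu' huu hh'
  convert this using 1
  ring

lemma pr_one (h : Cyc s m) : pr s m (1 : L) = 1 := pr_fixed h (map_one s)

/-- `InSub` of products etc. -/
lemma conj_inSub {F : Subfield L} (hF : Stable F s) {u x : SL L s} (hu : InSub F u)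
    (hx : InSub F x) : InSub F (conj u x) :=
  (hu.mul hF hx).mul hF (hu.inv hF)

lemma lw_mem {F : Subfield L} (hF : Stable F s) (hb : ∀ y, b y ∈ F) (w : List Y) :
    lw s b w ∈ F := by
  induction w with
  | nil => exact F.one_mem
  | cons y w ih => exact F.mul_mem (hb y) (hF.fwd _ ih)

lemma dw_mem {F : Subfield L} (hF : Stable F s) (hb : ∀ y, b y ∈ F) {xx : Y → L}
    (hxx : ∀ y, xx y ∈ F) (j : ℤ) (w : List Y) : dw s b xx j w ∈ F := by
  induction w with
  | nil => exact F.zero_mem
  | cons y w ih =>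
    exact F.add_mem (F.mul_mem (hxx y) (hF.zpow j (lw_mem hF hb w)))
      (F.mul_mem (hb y) (hF.fwd _ ih))

lemma value_inSub (hB : IsMonBase B b ι) {F : Subfield L} (hF : Stable F s) (hb : ∀ y, b y ∈ F)
    {g : NCS K Y} (hg : ∀ w, ι (coeff w g) ∈ F) : InSub F (B.value g) := by
  intro i
  by_cases hi : 0 ≤ i
  · obtain ⟨n, rfl⟩ := Int.eq_ofNat_of_zero_le hi
    rw [hB.coeff_value]
    exact F.sum_mem fun w _ => F.mul_mem (lw_mem hF hb w) (hg w)
  · rw [B.value_LB g i (by omega)]
    exact F.zero_mem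

lemma dir_inSub (hB : IsMonBase B b ι) {F : Subfield L} (hF : Stable F s) (hb : ∀ y, b y ∈ F)
    {g : NCS K Y} (hg : ∀ w, ι (coeff w g) ∈ F) {xx : Y → L} (hxx : ∀ y, xx y ∈ F) (j : ℤ) :
    InSub F (B.dir (fun y => mon (xx y) j) g) := by
  intro i
  by_cases hi : j ≤ i
  · obtain ⟨n, hn⟩ := Int.eq_ofNat_of_zero_le (by omega : 0 ≤ i - j)
    have : i = j + n := by omega
    rw [this, hB.coeff_dir]
    exact F.sum_mem fun w _ => F.mul_mem (dw_mem hF hb hxx j w) (hg w)
  · rw [hB.dir_LB g i (by omega)]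
    exact F.zero_mem

/-- The monomial direction along `z`. -/
def ez [DecidableEq Y] (z : Y) : Y → L := fun y => if y = z then 1 else 0

lemma ez_mem [DecidableEq Y] (F : Subfield L) (z y : Y) : (ez z y : L) ∈ F := by
  unfold ez
  split_ifs
  · exact F.one_mem
  · exact F.zero_mem

/-- The `π^b`-image of a direction. -/
noncomputable def Vb (h : Cyc s m) (B : Base K L s Y) (g : NCS K Y) (x : Y → SL L s) : FxSub s :=
  ⟨proj s m (conj (canonU m (B.value g)) (B.dir x g)), isFix_proj h _⟩

/-- The main abstract step. -/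
theorem step_abs [DecidableEq Y] (h : Cyc s m) (hB : IsMonBase B b ι) (hbz : b z = 1) {g g' : NCS K Y}
    (hg : NF g z) (hg' : NF g' z) {D : ℕ} (hD : 2 ≤ D) (hclose : g - g' ∈ ordGE Y K D)
    {FL F0 : Subfield L} (hFL : Stable FL s) (hF0 : Stable F0 s)
    (hFLF0 : ∀ a ∈ FL, pr s m a ∈ F0) (hb : ∀ y, b y ∈ FL) (hι : ∀ w, ι (coeff w g') ∈ FL)
    {xx : Y → L} (hxxz : xx z = 0) (hxxF : ∀ y, xx y ∈ FL) (j : ℕ)
    {R : Subfield (FxSub s)} (hF0R : F0 ≤ apx R)
    (hR1 : Vb h B g (fun y => mon (ez z y) 1) / Vb h B g (fun y => mon (ez z y) 0) ∈ R)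
    (hR2 : Vb h B g (fun y => mon (xx y) j) / Vb h B g (fun y => mon (ez z y) 0) ∈ R) :
    ∃ r ∈ R, (r.1 - SL.C (pr s m (∑ w ∈ wordsLen D, dw s b xx j w * ι (coeff w (g - g'))))).LB 1 := by
  classical
  have hD1 : 1 ≤ D := by omega
  -- the two conjugators
  set ξ := B.value g with hξ
  set ξ' := B.value g' with hξ'
  have hξ1 : Norm1 ξ := value_norm1 hB hbz hg
  have hξ1' : Norm1 ξ' := value_norm1 hB hbz hg'
  have hξξ : (ξ - ξ').LB D := by
    rw [hξ, hξ', ← B.value_sub]
    exact B.value_LB_order hclose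
  set u := canonU m ξ with hu
  set u' := canonU m ξ' with hu'
  have huO : OneP u := canonU_oneP ξ
  have huO' : OneP u' := canonU_oneP ξ'
  have huu : (u - u').LB ((D : ℤ) - 1) := canonU_congr h hξ1 hξ1' hξξ
  have hu'F : InSub FL u' :=
    canonU_inSub hFL (value_inSub hB hFL hb hι)
  -- closeness of directions
  have hdir : ∀ (xx' : Y → L) (j' : ℤ), (B.dir (fun y => mon (xx' y) j') g -
      B.dir (fun y => mon (xx' y) j') g').LB (j' + ((D : ℤ) - 1)) := by
    intro xx' j'
    have e : g = g' + (g - g') := by abel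
    have e1 : B.dir (fun y => mon (xx' y) j') g =
        B.dir (fun y => mon (xx' y) j') g' + B.dir (fun y => mon (xx' y) j') (g - g') := by
      conv_lhs => rw [e]
      exact B.dirW_add_f _ _ _
    rw [e1, add_sub_cancel_left]
    have := B.dirW_LB_order [fun y => mon (xx' y) j'] (a := j') (by
      intro x hx y
      simp only [List.mem_singleton] at hx
      subst hx
      exact lB_mon _ _) hclose
    simp only [List.length_singleton, Nat.cast_one, one_mul] at this
    have e2 : ((D - 1 : ℕ) : ℤ) = (D : ℤ) - 1 := by omega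
    rwa [e2] at this
  -- the images along `z`
  let v : ℤ → SL L s := fun i => proj s m (conj u (B.dir (fun y => mon (ez z y) i) g))
  let v' : ℤ → SL L s := fun i => proj s m (conj u' (B.dir (fun y => mon (ez z y) i) g'))
  have hvlead : ∀ i, (v i).LB i ∧ (v i).coeff i = 1 := by
    intro i
    have h1 := proj_conj_coeff_lead (m := m) huO (hB.dir_LB (xx := ez z) (j := i) g)
    refine ⟨h1.1, ?_⟩
    show (proj s m (conj u (B.dir (fun y => mon (ez z y) i) g))).coeff i = 1
    rw [h1.2, dir_coeff_lead hB hg]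
    simp [ez, pr_one h]
  have hvlead' : ∀ i, (v' i).LB i ∧ (v' i).coeff i = 1 := by
    intro i
    have h1 := proj_conj_coeff_lead (m := m) huO' (hB.dir_LB (xx := ez z) (j := i) g')
    refine ⟨h1.1, ?_⟩
    show (proj s m (conj u' (B.dir (fun y => mon (ez z y) i) g'))).coeff i = 1
    rw [h1.2, dir_coeff_lead hB hg']
    simp [ez, pr_one h]
  have hvclose : ∀ i, (v i - v' i).LB (i + ((D : ℤ) - 1)) := fun i =>
    pb_close huO huO' huu (hdir _ i) (hB.dir_LB _)
  have hv'F : ∀ i, InSub F0 (v' i) := by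
    intro i k
    exact hFLF0 _ (conj_inSub hFL hu'F
      (dir_inSub hB hFL hb hι (fun y => ez_mem FL z y) i) k)
  -- `v 0 ≡ 1`
  have oneP_of : ∀ x : SL L s, x.LB 0 → x.coeff 0 = 1 → OneP x := by
    intro x hx hc i hi
    rw [SL.coeff_sub, SL.coeff_one]
    by_cases h0 : i = 0
    · rw [if_pos h0, h0, hc, sub_self]
    · rw [if_neg h0, hx i (by omega), sub_zero]
  have hv0 : OneP (v 0) := oneP_of _ (hvlead 0).1 (hvlead 0).2
  have hv0' : OneP (v' 0) := oneP_of _ (hvlead' 0).1 (hvlead' 0).2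
  -- the ratios
  set ρ : FxSub s := Vb h B g (fun y => mon (ez z y) 1) / Vb h B g (fun y => mon (ez z y) 0) with hρ
  have hρval : ρ.1 = v 1 * (v 0)⁻¹ := by
    rw [hρ, div_eq_mul_inv]
    rfl
  set ρF : SL L s := v' 1 * (v' 0)⁻¹ with hρF
  have hρF1 : Norm1 ρF := by
    apply norm1_of_sub_LB
    have hv1 : Norm1 (v' 1) := ⟨(hvlead' 1).1, (hvlead' 1).2⟩
    have e : ρF - mon 1 1 = (v' 1 - mon 1 1) * (v' 0)⁻¹ + mon 1 1 * ((v' 0)⁻¹ - 1) := by
      rw [hρF]; noncomm_ring
    rw [e]
    refine LB.add ?_ ?_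
    · simpa using LB.mul hv1.sub_LB hv0'.inv_LB0
    · have := LB.mul (lB_mon (σ := s) (1 : L) 1) hv0'.inv
      simpa using this
  have hρFsub : InSub F0 ρF := (hv'F 1).mul hF0 ((hv'F 0).inv hF0)
  have hρclose : (ρ.1 - ρF).LB D := by
    rw [hρval, hρF]
    have e : v 1 * (v 0)⁻¹ - v' 1 * (v' 0)⁻¹ =
        (v 1 - v' 1) * (v 0)⁻¹ + v' 1 * ((v 0)⁻¹ - (v' 0)⁻¹) := by noncomm_ring
    rw [e]
    refine LB.add ?_ ?_
    · have := LB.mul (hvclose 1) hv0.inv_LB0
      refine LB.mono this ?_
      omega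
    · have h1 := inv_sub_inv_LB hv0 hv0' (by simpa using hvclose 0)
      have := LB.mul (hvlead' 1).1 h1
      refine LB.mono this ?_
      omega
  -- the target direction
  set X : Y → SL L s := fun y => mon (xx y) (j : ℤ) with hX
  have hdirXLB : ∀ {f : NCS K Y}, NF f z → (B.dir X f).LB ((j : ℤ) + 1) := by
    intro f hf i hi
    by_cases hij : i = j
    · rw [hij, hX, dir_coeff_lead hB hf, hxxz]
    · exact hB.dir_LB f i (by omega)
  set J : ℕ := j + D - 1 with hJ
  have hJz : (J : ℤ) = (j : ℤ) + ((D : ℤ) - 1) := by omega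
  set c : L := ∑ w ∈ wordsLen D, dw s b xx j w * ι (coeff w (g - g')) with hc
  -- the leading difference
  have hδ : (B.dir X g - B.dir X g' - mon c J).LB ((J : ℤ) + 1) := by
    have e : g = g' + (g - g') := by abel
    have e1 : B.dir X g = B.dir X g' + B.dir X (g - g') := by
      conv_lhs => rw [e]
      exact B.dirW_add_f _ _ _
    rw [e1, add_sub_cancel_left]
    have hLBJ : (B.dir X (g - g')).LB (J : ℤ) := by
      have h1 := hdir xx j
      have h2 : B.dir (fun y => mon (xx y) (j : ℤ)) g - B.dir (fun y => mon (xx y) (j : ℤ)) g' =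
          B.dir X (g - g') := by
        show B.dir X g - B.dir X g' = _
        rw [e1, add_sub_cancel_left]
      rw [h2] at h1
      rwa [hJz]
    intro i hi
    by_cases hiJ : i = J
    · rw [SL.coeff_sub, hiJ, coeff_mon, if_pos rfl, sub_eq_zero]
      have h3 := hB.coeff_dir xx (j : ℤ) (D - 1) (g - g')
      have e2 : (j : ℤ) + ((D - 1 : ℕ) : ℤ) = (J : ℤ) := by omega
      have e3 : D - 1 + 1 = D := by omega
      rw [e2, e3] at h3
      rw [hc, ← h3]
    · rw [SL.coeff_sub, hLBJ i (by omega), coeff_mon, if_neg hiJ, sub_zero]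
  -- the images of the target direction
  set W1 : SL L s := proj s m (conj u (B.dir X g)) with hW1
  set W1' : SL L s := proj s m (conj u' (B.dir X g')) with hW1'
  have hW1'LB : W1'.LB ((j : ℤ) + 1) := LB.proj (conj_LB huO' (hdirXLB hg'))
  have hW1F : InSub F0 W1' := by
    intro k
    exact hFLF0 _ (conj_inSub hFL hu'F (dir_inSub hB hFL hb hι hxxF (j : ℤ)) k)
  have hMon : ∀ (a : L) (i : ℤ), proj s m (mon a i : SL L s) = mon (pr s m a) i := by
    intro a i
    apply SL.ext; funext n
    rw [coeff_proj, coeff_mon, coeff_mon]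
    split_ifs
    · rfl
    · exact pr_zero
  have hWclose : (W1 - W1' - mon (pr s m c) J).LB ((J : ℤ) + 1) := by
    rw [hW1, hW1', ← hMon, ← proj_sub, ← proj_sub]
    refine LB.proj ?_
    have e : conj u (B.dir X g) - conj u' (B.dir X g') - mon c J =
        conj u (B.dir X g - B.dir X g' - mon c J) +
          (conj u (B.dir X g') - conj u' (B.dir X g')) + (conj u (mon c J) - mon c J) := by
      rw [conj_sub, conj_sub]; abel
    rw [e]
    refine LB.add (LB.add (conj_LB huO hδ) ?_) (conj_sub_self huO (lB_mon _ _))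
    have := conj_congr huO huO' huu (hdirXLB hg')
    refine LB.mono this ?_
    omega
  -- the application of `exists_step`
  set wR : FxSub s := Vb h B g (fun y => mon (xx y) j) / Vb h B g (fun y => mon (ez z y) 0) with hwR
  have hwval : wR.1 = W1 * (v 0)⁻¹ := by
    rw [hwR, div_eq_mul_inv]
    rfl
  have hyF : InSub F0 (W1' * (v' 0)⁻¹) := hW1F.mul hF0 ((hv'F 0).inv hF0)
  have hyLB : (W1' * (v' 0)⁻¹).LB ((j : ℤ) + 1) := by
    simpa using LB.mul hW1'LB hv0'.inv_LB0
  have hwA : (wR.1 - W1' * (v' 0)⁻¹ - mon (pr s m c) ((j + D - 1 : ℕ) : ℤ)).LB ((j + D : ℕ) : ℤ) := by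
    rw [hwval]
    have e : W1 * (v 0)⁻¹ - W1' * (v' 0)⁻¹ - mon (pr s m c) ((j + D - 1 : ℕ) : ℤ) =
        (W1 - W1' - mon (pr s m c) J) * (v 0)⁻¹ + mon (pr s m c) J * ((v 0)⁻¹ - 1) +
          W1' * ((v 0)⁻¹ - (v' 0)⁻¹) := by
      rw [hJ]
      noncomm_ring
    rw [e]
    have e3 : (((j + D : ℕ) : ℤ)) = (J : ℤ) + 1 := by omega
    rw [e3]
    refine LB.add (LB.add ?_ ?_) ?_
    · simpa using LB.mul hWclose hv0.inv_LB0
    · exact LB.mul (lB_mon _ _) hv0.inv
    · have h1 := inv_sub_inv_LB hv0 hv0' (by simpa using hvclose 0)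
      have := LB.mul hW1'LB h1
      refine LB.mono this ?_
      omega
  exact exists_step hF0 hF0R hR1 hR2 hρF1 hρFsub D j hD hρclose hyF hyLB hwA

end Crest.Agent.Lib.Kurosh.TheoremB
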