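import Crest.Agent.Lib.Kurosh.ClockDual
import Crest.Agent.Lib.Kurosh.NonCommC
import Crest.Agent.Lib.Kurosh.TheoremBAbs
import Crest.Agent.Lib.Kurosh.FieldRL

/-!
# S0270, blueprint 6.2: the leading coefficient of `π^b Dg[x ϖ^0 at p]`

`pr_clock_dual`: there is `x ∈ L0` such that the projection of the leading coefficient of the
direction `x` at the letter `p` is exactly the prescribed coefficient of `g`.
-/

set_option autoImplicit false

open scoped TensorProduct

namespace Crest.Agent.Lib.Kurosh.TheoremB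

open RatExt NonComm PsiCore CanonU Finset

section Abstract

variable {L : Type*} [Field L] {s : RingAut L} {Y : Type*} [Fintype Y] [DecidableEq Y]

/-- All the splittings `u p v`, `|u| + |v| + 1 = D`. -/
noncomputable def Pairs (Y : Type*) [Fintype Y] [DecidableEq Y] (D : ℕ) : Finset (List Y × List Y) :=
  (range D).biUnion fun k => wordsLen k ×ˢ wordsLen (D - 1 - k)

lemma mem_Pairs {D : ℕ} {q : List Y × List Y} :
    q ∈ Pairs Y D ↔ q.1.length + q.2.length + 1 = D := by
  simp only [Pairs, mem_biUnion, mem_range, mem_product, mem_wordsLen]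
  constructor
  · rintro ⟨k, hk, h1, h2⟩
    omega
  · intro h
    exact ⟨q.1.length, by omega, rfl, by omega⟩

lemma sum_Pairs {M : Type*} [AddCommMonoid M] (f : List Y × List Y → M) (D : ℕ) :
    ∑ q ∈ Pairs Y D, f q =
      ∑ k ∈ range D, ∑ u ∈ wordsLen k, ∑ v ∈ wordsLen (D - 1 - k), f (u, v) := by
  unfold Pairs
  rw [Finset.sum_biUnion]
  · refine Finset.sum_congr rfl fun k _ => ?_
    rw [Finset.sum_product]
  · intro k _ k' _ hkk
    rw [Function.onFun, Finset.disjoint_left]
    intro q hq hq'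
    simp only [mem_product, mem_wordsLen] at hq hq'
    exact hkk (hq.1.symm.trans hq'.1)

/-- The term `l(u) s^{|u|}(a) s^{|u|}(l v)`. -/
noncomputable def At (s : RingAut L) (b : Y → L) (a : L) (u v : List Y) : L :=
  lw s b u * (s ^ u.length) a * (s ^ u.length) (lw s b v)

lemma At_cons (b : Y → L) (a : L) (y : Y) (u v : List Y) :
    At s b a (y :: u) v = b y * s (At s b a u v) := by
  simp only [At, lw, List.length_cons, map_mul]
  rw [pow_succ_apply', pow_succ_apply']
  ring

/-- Expansion of the sum of `dw` over words of length `D`. -/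
theorem sum_dw_eq (b : Y → L) (p : Y) (a : L) (D : ℕ) (C : List Y → L)
    (hC : ∀ w, s (C w) = C w) :
    ∑ w ∈ wordsLen D, dw s b (fun y => if y = p then a else 0) 0 w * C w =
      ∑ q ∈ Pairs Y D, At s b a q.1 q.2 * C (q.1 ++ p :: q.2) := by
  rw [sum_Pairs]
  induction D generalizing C with
  | zero => simp [dw]
  | succ D ih =>
    rw [sum_wordsLen_succ, Finset.sum_range_succ']
    -- the `k = 0` term and the others
    have e0 : ∑ u ∈ wordsLen 0, ∑ v ∈ wordsLen (D + 1 - 1 - 0), At s b a u v * C (u ++ p :: v) =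
        ∑ v ∈ wordsLen D, a * lw s b v * C (p :: v) := by
      rw [sum_wordsLen_zero]
      have : D + 1 - 1 - 0 = D := by omega
      rw [this]
      refine Finset.sum_congr rfl fun v _ => ?_
      simp [At, lw]
    rw [e0]
    have e1 : ∀ k ∈ range D, ∑ u ∈ wordsLen (k + 1), ∑ v ∈ wordsLen (D + 1 - 1 - (k + 1)),
        At s b a u v * C (u ++ p :: v) =
        ∑ y, b y * s (∑ u ∈ wordsLen k, ∑ v ∈ wordsLen (D - 1 - k),
          At s b a u v * C (y :: (u ++ p :: v))) := by
      intro k _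
      rw [sum_wordsLen_succ]
      have : D + 1 - 1 - (k + 1) = D - 1 - k := by omega
      rw [this]
      refine Finset.sum_congr rfl fun y _ => ?_
      rw [map_sum, Finset.mul_sum]
      refine Finset.sum_congr rfl fun u _ => ?_
      rw [map_sum, Finset.mul_sum]
      refine Finset.sum_congr rfl fun v _ => ?_
      rw [At_cons, map_mul, hC, List.cons_append]
      ring
    rw [Finset.sum_congr rfl e1]
    have e2 : ∀ y, ∑ k ∈ range D, b y * s (∑ u ∈ wordsLen k, ∑ v ∈ wordsLen (D - 1 - k),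
          At s b a u v * C (y :: (u ++ p :: v))) =
        b y * s (∑ w ∈ wordsLen D, dw s b (fun y => if y = p then a else 0) 0 w * C (y :: w)) := by
      intro y
      rw [ih (fun w => C (y :: w)) (fun w => hC _), map_sum, Finset.mul_sum]
    have e3 : ∀ y, ∑ w ∈ wordsLen D, dw s b (fun y => if y = p then a else 0) 0 (y :: w) * C (y :: w) =
        ∑ w ∈ wordsLen D, (if y = p then a else 0) * lw s b w * C (y :: w) +
        b y * s (∑ w ∈ wordsLen D, dw s b (fun y => if y = p then a else 0) 0 w * C (y :: w)) := by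
      intro y
      rw [map_sum, Finset.mul_sum, ← Finset.sum_add_distrib]
      refine Finset.sum_congr rfl fun w _ => ?_
      simp only [dw, zpow_zero, map_mul, hC]
      have : (1 : RingAut L) (lw s b w) = lw s b w := rfl
      rw [this]
      ring
    have e4 : ∑ y, ∑ w ∈ wordsLen D, (if y = p then a else 0) * lw s b w * C (y :: w) =
        ∑ w ∈ wordsLen D, a * lw s b w * C (p :: w) := by
      rw [Finset.sum_eq_single p]
      · simp
      · intro y _ hy
        simp [hy]
      · intro h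
        exact absurd (Finset.mem_univ p) h
    rw [Finset.sum_congr rfl fun y _ => e3 y, Finset.sum_add_distrib, e4, add_comm]
    congr 1
    rw [Finset.sum_comm]
    exact Finset.sum_congr rfl fun y _ => (e2 y).symm

end Abstract

section Concrete

variable {Z : Type*} [Field Z] [CharZero Z] {Y : Type*} [Fintype Y] [DecidableEq Y] {m : ℕ} [NeZero m]
variable {K : Type*} [Field K] [Algebra Z K] [FiniteDimensional Z K]

omit [FiniteDimensional Z K] in
lemma _root_.Crest.Agent.Lib.Kurosh.CanonU.pr_mul_fixed_right {L : Type*} [Field L] {s : RingAut L} {m : ℕ} {c : L}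
    (hc : s c = c) (a : L) : pr s m (a * c) = pr s m a * c := by
  rw [mul_comm, pr_mul_fixed hc, mul_comm]

/-- `s ⊗ 1` has order dividing `m`, and `m ≠ 0`. -/
theorem cyc_sR : Cyc (sR Z Y m K) m where
  pow := sR_pow_m Z Y m K
  ne := by
    have h : ((m : ℕ) : RL Z Y m K) = algebraMap Z (RL Z Y m K) (m : Z) := by simp
    rw [h]
    intro h0
    have hinj : Function.Injective (algebraMap Z (RL Z Y m K)) := (algebraMap Z (RL Z Y m K)).injective
    have h1 : (m : Z) = 0 := hinj (by rw [h0, map_zero])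
    exact (NeZero.ne m) (by exact_mod_cast h1)

lemma sR_pow_iotaL (k : ℕ) (c : L0 Z Y m) :
    (sR Z Y m K ^ k) (iotaL Z Y m K c) = iotaL Z Y m K ((s Z Y m ^ k) c) := by
  simp only [iotaL, Algebra.TensorProduct.includeLeft_apply]
  exact sR_pow_tmul Z Y m K k c 1

lemma pr_iotaL (c : L0 Z Y m) :
    pr (sR Z Y m K) m (iotaL Z Y m K c) = iotaL Z Y m K (RatExt.tr Z Y m c) / (m : RL Z Y m K) := by
  unfold pr CanonU.tr RatExt.tr
  rw [map_sum]
  congr 1
  exact Finset.sum_congr rfl fun r _ => sR_pow_iotaL r c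

/-- The monomial `M(u,v)` in `L0`. -/
noncomputable def Mpair (Z : Type*) [Field Z] {Y : Type*} [DecidableEq Y] (m : ℕ) (z : Y)
    (u v : List Y) : L0 Z Y m :=
  algebraMap (Pol Z Y m) (L0 Z Y m) (MvPolynomial.monomial (pairE m z u v) (1 : Z))

lemma Mpair_eq (z : Y) (u v : List Y) :
    Mpair Z m z u v = algebraMap (Pol Z Y m) (L0 Z Y m) (cw Z m z (-((u.length : ℕ) : ZMod m)) u) *
      algebraMap (Pol Z Y m) (L0 Z Y m) (cw Z m z 0 v) := by
  unfold Mpair pairE
  rw [← map_mul, cw_eq_monomial, cw_eq_monomial, MvPolynomial.monomial_mul, one_mul]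

lemma At_clock (z : Y) (x : L0 Z Y m) (u v : List Y) :
    At (sR Z Y m K) (clockB Z m K z) (iotaL Z Y m K x) u v =
      (sR Z Y m K ^ u.length) (iotaL Z Y m K (x * Mpair Z m z u v)) := by
  unfold At
  rw [lw_clockB, lw_clockB, Mpair_eq, map_mul, map_mul, map_mul, map_mul]
  have e1 : (sR Z Y m K ^ u.length) (iotaL Z Y m K (algebraMap (Pol Z Y m) (L0 Z Y m)
      (cw Z m z (-((u.length : ℕ) : ZMod m)) u))) =
      iotaL Z Y m K (algebraMap (Pol Z Y m) (L0 Z Y m) (cw Z m z 0 u)) := by
    rw [sR_pow_iotaL, s_pow_cw]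
    congr 3
    ring
  rw [e1]
  ring

lemma pr_At_clock (z : Y) (x : L0 Z Y m) (u v : List Y) :
    pr (sR Z Y m K) m (At (sR Z Y m K) (clockB Z m K z) (iotaL Z Y m K x) u v) =
      iotaL Z Y m K (RatExt.tr Z Y m (x * Mpair Z m z u v)) / (m : RL Z Y m K) := by
  rw [At_clock]
  have := pr_zpow (cyc_sR (Z := Z) (Y := Y) (m := m) (K := K)) (u.length : ℤ)
    (iotaL Z Y m K (x * Mpair Z m z u v))
  rw [zpow_natCast] at this
  rw [this, pr_iotaL]

/-- **The duality.** For a splitting `(u0, v0)` there is `x` such that the projection of the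
leading coefficient of `Dg[x at p]` is the coefficient of `u0 p v0`. -/
theorem pr_clock_dual (z p : Y) {D : ℕ} (hD : 1 ≤ D) (hm : (Pairs Y D).card * (2 * D) ≤ m)
    {u0 v0 : List Y} (h0 : u0.length + v0.length + 1 = D) (hv0 : v0 = [] ∨ v0.getLast? ≠ some z) :
    ∃ x : L0 Z Y m, ∀ C : List Y → RL Z Y m K, (∀ w, sR Z Y m K (C w) = C w) →
      (∀ u v, v ≠ [] → v.getLast? = some z → C (u ++ p :: v) = 0) →
      pr (sR Z Y m K) m (∑ w ∈ wordsLen D,
        dw (sR Z Y m K) (clockB Z m K z) (fun y => if y = p then iotaL Z Y m K x else 0) 0 w * C w) =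
        C (u0 ++ p :: v0) := by
  classical
  haveI : Nonempty Y := ⟨z⟩
  -- the normal pairs
  let S : Finset (List Y × List Y) :=
    (Pairs Y D).filter fun q => q.2 = [] ∨ q.2.getLast? ≠ some z
  have hS : ∀ q ∈ S, q.1.length + q.2.length + 1 = D ∧ (q.2 = [] ∨ q.2.getLast? ≠ some z) := by
    intro q hq
    have := Finset.mem_filter.mp hq
    exact ⟨mem_Pairs.mp this.1, this.2⟩
  have hcard : S.card * (2 * D) ≤ m :=
    (Nat.mul_le_mul_right _ (Finset.card_filter_le _ _)).trans hm
  have hind := pairs_indep (Z := Z) (m := m) z S hD hS hcard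
  have hq0 : (u0, v0) ∈ S := Finset.mem_filter.mpr ⟨mem_Pairs.mpr h0, hv0⟩
  obtain ⟨x, hx⟩ := BlockIndep.exists_dual_tr Z Y m _ hind ⟨(u0, v0), hq0⟩
  refine ⟨x, fun C hC hvan => ?_⟩
  rw [sum_dw_eq _ p _ D C hC, pr_sum, Finset.sum_eq_single (u0, v0)]
  · rw [pr_mul_fixed_right (hC _), pr_At_clock]
    have h1 := hx ⟨(u0, v0), hq0⟩
    rw [if_pos rfl] at h1
    have h2 : RatExt.tr Z Y m (x * Mpair Z m z u0 v0) = (m : L0 Z Y m) := h1
    rw [h2, map_natCast, div_self (cyc_sR (Z := Z) (Y := Y) (m := m) (K := K)).ne, one_mul]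
  · intro q hq hne
    by_cases hqS : q ∈ S
    · rw [pr_mul_fixed_right (hC _), pr_At_clock]
      have h1 := hx ⟨q, hqS⟩
      rw [if_neg (fun h => hne (congrArg Subtype.val h))] at h1
      have h2 : RatExt.tr Z Y m (x * Mpair Z m z q.1 q.2) = 0 := h1
      rw [h2, map_zero, zero_div, zero_mul]
    · have hq' : ¬ (q.2 = [] ∨ q.2.getLast? ≠ some z) := fun h =>
        hqS (Finset.mem_filter.mpr ⟨hq, h⟩)
      push Not at hq'
      rw [hvan q.1 q.2 hq'.1 hq'.2, mul_zero, pr_zero]
  · intro h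
    exact absurd (mem_Pairs.mpr h0) h

end Concrete

end Crest.Agent.Lib.Kurosh.TheoremB
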