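import Crest.Agent.Lib.Kurosh.SeriesComp

/-!
# S0270: the small `compo` lemmas of `Pipeline.lean`, stated for `SeriesComp.sumPow` (helper63)

`Skeleton.compo φ g` unfolds to `SeriesComp.sumPow φ g`, so each of these closes the corresponding
target of `Pipeline.lean` by a one-liner (term mode, definitional unfolding).
-/

set_option autoImplicit false

namespace Crest.Agent.Lib.Kurosh.CompoLemmas

open NCSeries SeriesComp
open scoped PowerSeries

variable {Y : Type}

/-- If `U` is a two-sided inverse of `U'` then the constant term of `U` is a unit, and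
`coeff [] (U * g * U') = 0` gives `coeff [] g = 0`. -/
theorem coeff_nil_of_conj {R : Type} [Ring R] (g U U' : NCS R Y) (h1 : U * U' = 1) (h2 : U' * U = 1)
    (hg : coeff [] (U * g * U') = 0) : coeff [] g = 0 := by
  have e1 : coeff [] U * coeff [] U' = 1 := by
    rw [← coeff_mul_nil, h1, coeff_one_nil]
  have e2 : coeff [] U' * coeff [] U = 1 := by
    rw [← coeff_mul_nil, h2, coeff_one_nil]
  rw [coeff_mul_nil, coeff_mul_nil] at hg
  calc coeff [] g = (coeff [] U' * coeff [] U) * coeff [] g * (coeff [] U' * coeff [] U) := by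
        rw [e2, one_mul, mul_one]
    _ = coeff [] U' * (coeff [] U * coeff [] g * coeff [] U') * coeff [] U := by
        simp only [mul_assoc]
    _ = 0 := by rw [hg, mul_zero, zero_mul]

/-- Conjugation by a unit whose coefficients commute with the `φ n`. -/
theorem compo_conj {R : Type} [Ring R] (φ : ℕ → R) (g U U' : NCS R Y) (h1 : U * U' = 1)
    (h2 : U' * U = 1) (hg : coeff [] (U * g * U') = 0)
    (hU : ∀ n w, φ n * coeff w U = coeff w U * φ n) :
    U * sumPow φ g * U' = sumPow φ (U * g * U') :=
  (conj_sumPow (coeff_nil_of_conj g U U' h1 h2 hg) φ h1 h2 hU).2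

theorem map_compo {R R' : Type} [Ring R] [Ring R'] (j : R →+* R') (φ : ℕ → R) (g : NCS R Y) :
    map j (sumPow φ g) = sumPow (fun n => j (φ n)) (map j g) :=
  map_sumPow j φ g

/-- `sumPow` with zero constant coefficient: a left multiplication reads off the coefficients. -/
theorem exists_compo_inverse {K : Type} [Field K] (F : ℕ → K) (hF0 : F 0 = 0) (hF1 : F 1 ≠ 0)
    (f : NCS K Y) (hf : coeff [] f = 0) :
    ∃ G : NCS K Y, coeff [] G = 0 ∧ sumPow F G = f := by
  classical
  let P : K⟦X⟧ := PowerSeries.mk fun n => (F 1)⁻¹ * F n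
  have hP0 : PowerSeries.constantCoeff P = 0 := by
    have : PowerSeries.coeff 0 P = 0 := by simp [P, hF0]
    simpa using this
  have hP1 : PowerSeries.coeff 1 P = 1 := by
    simp [P, hF1]
  let f' : NCS K Y := C (F 1)⁻¹ * f
  have hf' : coeff [] f' = 0 := by
    simp [f', coeff_mul_nil, hf]
  refine ⟨solve P f', solve_nil P hf', ?_⟩
  have h := evalP_solve P hP0 hP1 hf'
  have e : sumPow F (solve P f') = C (F 1) * evalP P (solve P f') := by
    unfold evalP
    rw [C_mul_sumPow]
    congr 1
    funext n
    simp [P, hF1]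
  rw [e, h]
  simp only [f', ← mul_assoc]
  rw [← C_mul, mul_inv_cancel₀ hF1]
  simp

/-- The constant shift of a series in `map j G`. -/
theorem add_C_map_compo_eq {R K : Type} [Ring R] [Field K] (j : K →+* R) (β : R)
    (F : ℕ → K) (hF0 : F 0 = 0) (G : NCS K Y) :
    C β + map j (sumPow F G) = sumPow (fun n => if n = 0 then β else j (F n)) (map j G) := by
  rw [map_sumPow]
  ext w
  rw [coeff_add, coeff_sumPow_def, coeff_sumPow_def, Finset.sum_range_succ', Finset.sum_range_succ']
  simp only [Nat.succ_ne_zero, if_false, if_true, pow_zero, hF0, map_zero, zero_mul, add_zero]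
  have : coeff w (C β : NCS R Y) = β * coeff w (1 : NCS R Y) := by
    cases w <;> simp
  rw [this, add_comm]

end Crest.Agent.Lib.Kurosh.CompoLemmas
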