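import Mathlib

/-!
# Splitting off the centraliser in a finite-dimensional division algebra (S0270, blueprint 5(d))

`D` f.d. division algebra over a field `F` of characteristic zero, `ξ ∈ D`. Every `c ∈ D` is
`p + [ξ, A]` with `p` commuting with `ξ`: the inner derivation `ad ξ` is semisimple.
-/

set_option autoImplicit false

namespace Crest.Agent.Lib.Kurosh.DivSplit

open Polynomial Module

variable {F D : Type*} [Field F] [DivisionRing D] [Algebra F D]

theorem aeval_mulLeft (ξ : D) (p : F[X]) :
    aeval (LinearMap.mulLeft F ξ) p = LinearMap.mulLeft F (aeval ξ p) := by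
  have h : (LinearMap.mulLeft F ξ : End F D) = Algebra.lmul F D ξ := rfl
  rw [h, Polynomial.aeval_algHom_apply]
  rfl

theorem aeval_mulRight (ξ : D) (p : F[X]) :
    aeval (LinearMap.mulRight F ξ) p = LinearMap.mulRight F (aeval ξ p) := by
  induction p using Polynomial.induction_on with
  | C a =>
    ext x
    simp [Algebra.commutes, Algebra.smul_def]
  | add p q hp hq =>
    ext x
    simp [hp, hq, mul_add]
  | monomial n a h =>
    rw [pow_succ, ← mul_assoc, map_mul, h, aeval_X, map_mul (aeval ξ) (C a * X ^ n) X, aeval_X]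
    have hc : aeval ξ (C a * X ^ n) * ξ = ξ * aeval ξ (C a * X ^ n) := by
      have h2 := congrArg (aeval ξ) (mul_comm (C a * X ^ n : F[X]) X)
      rwa [map_mul, map_mul (aeval ξ) X, aeval_X] at h2
    ext x
    simp only [Module.End.mul_apply, LinearMap.mulRight_apply]
    rw [hc, mul_assoc]

variable [FiniteDimensional F D]

theorem isSemisimple_mulLeft (ξ : D) : End.IsSemisimple (LinearMap.mulLeft F ξ : End F D) := by
  have hξ : IsIntegral F ξ := IsIntegral.of_finite F ξ
  have hq : Squarefree (minpoly F ξ) := (minpoly.irreducible hξ).squarefree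
  refine End.isSemisimple_of_squarefree_aeval_eq_zero hq ?_
  rw [aeval_mulLeft, minpoly.aeval]
  ext x
  simp

theorem isSemisimple_mulRight (ξ : D) : End.IsSemisimple (LinearMap.mulRight F ξ : End F D) := by
  have hξ : IsIntegral F ξ := IsIntegral.of_finite F ξ
  have hq : Squarefree (minpoly F ξ) := (minpoly.irreducible hξ).squarefree
  refine End.isSemisimple_of_squarefree_aeval_eq_zero hq ?_
  rw [aeval_mulRight, minpoly.aeval]
  ext x
  simp

/-- `ad ξ` is semisimple. -/
theorem isSemisimple_ad [CharZero F] (ξ : D) :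
    End.IsSemisimple (LinearMap.mulLeft F ξ - LinearMap.mulRight F ξ : End F D) := by
  have hcomm : Commute (LinearMap.mulLeft F ξ : End F D) (LinearMap.mulRight F ξ) :=
    LinearMap.commute_mulLeft_right ξ ξ
  exact End.IsSemisimple.sub_of_commute hcomm (isSemisimple_mulLeft ξ) (isSemisimple_mulRight ξ)

/-- **Splitting**: every `c` is `p + [ξ, A]` with `p` in the centraliser of `ξ`. -/
theorem exists_split (F : Type*) {D : Type*} [Field F] [DivisionRing D] [Algebra F D] [FiniteDimensional F D] [CharZero F]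
    (ξ c : D) :
    ∃ p A : D, ξ * p = p * ξ ∧ c = p + (ξ * A - A * ξ) := by
  set f : End F D := LinearMap.mulLeft F ξ - LinearMap.mulRight F ξ with hf
  have hfa : ∀ x, f x = ξ * x - x * ξ := fun x => rfl
  have hss : End.IsSemisimple f := isSemisimple_ad ξ
  have hinv : LinearMap.ker f ∈ f.invtSubmodule := by
    intro x hx
    simp only [Submodule.mem_comap, LinearMap.mem_ker] at hx ⊢
    rw [hx, map_zero]
  obtain ⟨q, hq, hcompl⟩ := (Module.End.isSemisimple_iff).mp hss _ hinv
  -- `f` is bijective on `q`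
  let fq : q →ₗ[F] q := f.restrict (fun x hx => hq hx)
  have hinj : Function.Injective fq := by
    rw [← LinearMap.ker_eq_bot, LinearMap.ker_eq_bot']
    rintro ⟨x, hx⟩ h0
    have h1 : f x = 0 := congrArg Subtype.val h0
    have h2 : x ∈ LinearMap.ker f ⊓ q := ⟨h1, hx⟩
    rw [hcompl.inf_eq_bot] at h2
    exact Subtype.ext ((Submodule.mem_bot F).mp h2)
  have hsurj : Function.Surjective fq := LinearMap.injective_iff_surjective.mp hinj
  have hc : c ∈ LinearMap.ker f ⊔ q := by rw [hcompl.sup_eq_top]; trivial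
  obtain ⟨p, hp, y, hy, rfl⟩ := Submodule.mem_sup.mp hc
  obtain ⟨⟨A, hA⟩, hAy⟩ := hsurj ⟨y, hy⟩
  have h3 : f A = y := congrArg Subtype.val hAy
  refine ⟨p, A, ?_, ?_⟩
  · have := LinearMap.mem_ker.mp hp
    rw [hfa] at this
    exact sub_eq_zero.mp this
  · rw [← hfa, h3]

end Crest.Agent.Lib.Kurosh.DivSplit
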