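import Mathlib

/-!
# S0270, Lemma C1 (field combinatorics)

`K / Z` finite field extension, char 0, `W ⊆ K` a `Z`-subspace containing `w0 ≠ 0`, `w1` with
`Z(w1/w0) = K`, and `W ^ k0 = ⊤`. For `k0 - 1 ≤ k ≤ m - 1` (with `m` large) there is a
function `A : ZMod m → W` such that the elements `w * ∏_{i<k} A (r + i)` (`w ∈ W`, `r : ZMod m`)
span `K` over `Z`.
-/

set_option autoImplicit false

namespace Crest.Agent.Lib.Kurosh.FieldC1

open Module

variable {Z K : Type*} [Field Z] [Field K] [Algebra Z K]

/-- Scaling a spanning set by a nonzero element keeps it spanning. -/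
theorem span_mul_top (κ : K) (hκ : κ ≠ 0) {ι : Type*} (v : ι → K)
    (h : Submodule.span Z (Set.range v) = ⊤) :
    Submodule.span Z (Set.range fun i => κ * v i) = ⊤ := by
  have hsurj : Function.Surjective (LinearMap.mulLeft Z κ) := by
    intro y
    exact ⟨κ⁻¹ * y, by simp [hκ]⟩
  have h2 := congrArg (Submodule.map (LinearMap.mulLeft Z κ)) h
  rw [Submodule.map_span, Submodule.map_top, LinearMap.range_eq_top.2 hsurj] at h2
  rw [← h2, ← Set.range_comp]
  rfl

/-- Product over `range m` of shifted indices is the product over `ZMod m`. -/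
theorem prod_range_shift {m : ℕ} [NeZero m] (A : ZMod m → K) (r : ZMod m) :
    ∏ i ∈ Finset.range m, A (r + (i : ZMod m)) = ∏ x, A x := by
  have h1 : ∏ x, A x = ∏ x, A (r + x) :=
    (Equiv.prod_comp (Equiv.addLeft r) A).symm
  rw [h1]
  refine Finset.prod_bij (fun i _ => (i : ZMod m)) (by simp) ?_ ?_ (by simp)
  · intro a ha b hb hab
    have := (ZMod.natCast_eq_natCast_iff' a b m).1 hab
    rwa [Nat.mod_eq_of_lt (Finset.mem_range.1 ha), Nat.mod_eq_of_lt (Finset.mem_range.1 hb)] at this
  · intro b _
    refine ⟨b.val, Finset.mem_range.2 (ZMod.val_lt b), ?_⟩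
    simp

/-- Cast of a small natural number to `ZMod m` has that `val`. -/
theorem val_cast_of_lt {m : ℕ} {a : ℕ} (h : a < m) : ((a : ZMod m)).val = a :=
  ZMod.val_cast_of_lt h

section small

variable (W : Submodule Z K)

/-- The small case: `W ^ (k+1) = ⊤`, `m` large enough to put all tuples of basis vectors on disjoint
blocks. -/
theorem small_case [FiniteDimensional Z K] (w0 : K) (hw0 : w0 ∈ W) (m k : ℕ) [NeZero m]
    (hm : (finrank Z W) ^ k * k ≤ m) (hpow : W ^ (k + 1) = ⊤) :
    ∃ A : ZMod m → K, (∀ i, A i ∈ W) ∧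
      Submodule.span Z {x | ∃ w ∈ W, ∃ r : ZMod m, x = w * ∏ i ∈ Finset.range k, A (r + (i : ZMod m))} = ⊤ := by
  classical
  set d := finrank Z W with hd
  let b := Module.finBasis Z W
  let bb : Fin d → K := fun i => (b i : K)
  have hspan : Submodule.span Z (Set.range bb) = W := by
    have h2 := congrArg (Submodule.map W.subtype) b.span_eq
    rw [Submodule.map_span, Submodule.map_top, Submodule.range_subtype, ← Set.range_comp] at h2
    exact h2
  -- position of the (tuple, index)
  let e : (Fin k → Fin d) ≃ Fin (d ^ k) := finFunctionFinEquiv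
  let pos : (Fin k → Fin d) × Fin k → ℕ := fun p => (finProdFinEquiv (e p.1, p.2) : Fin (d ^ k * k)).val
  have hpos_lt : ∀ p, pos p < m := fun p =>
    lt_of_lt_of_le (finProdFinEquiv (e p.1, p.2) : Fin (d ^ k * k)).isLt hm
  have hpos_inj : Function.Injective pos := by
    intro p q hpq
    have h1 : (finProdFinEquiv (e p.1, p.2) : Fin (d ^ k * k)) = finProdFinEquiv (e q.1, q.2) :=
      Fin.ext hpq
    have h2 := finProdFinEquiv.injective h1
    have h3 : e p.1 = e q.1 := (Prod.ext_iff.1 h2).1
    have h4 : p.2 = q.2 := (Prod.ext_iff.1 h2).2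
    exact Prod.ext (e.injective h3) h4
  let ι : (Fin k → Fin d) × Fin k → ZMod m := fun p => (pos p : ZMod m)
  have hι : Function.Injective ι := by
    intro p q hpq
    have h1 := (ZMod.natCast_eq_natCast_iff' (pos p) (pos q) m).1 hpq
    rw [Nat.mod_eq_of_lt (hpos_lt p), Nat.mod_eq_of_lt (hpos_lt q)] at h1
    exact hpos_inj h1
  let A : ZMod m → K := Function.extend ι (fun p => bb (p.1 p.2)) (fun _ => w0)
  refine ⟨A, ?_, ?_⟩
  · intro x
    by_cases hx : ∃ p, ι p = x
    · obtain ⟨p, rfl⟩ := hx
      have : A (ι p) = bb (p.1 p.2) := hι.extend_apply _ _ _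
      rw [this]
      exact (b _).2
    · have : A x = w0 := Function.extend_apply' _ _ _ hx
      rw [this]
      exact hw0
  · -- W^(k+1) = span (range bb)^(k+1)
    have hpow' : (Submodule.span Z (Set.range bb)) ^ (k + 1) = ⊤ := by rw [hspan]; exact hpow
    rw [eq_top_iff, ← hpow', Submodule.span_pow, Submodule.span_le]
    intro x hx
    rw [Set.mem_pow] at hx
    obtain ⟨f, rfl⟩ := hx
    rw [List.prod_ofFn, Fin.prod_univ_succ]
    have hf : ∀ i, ∃ j, bb j = (f i : K) := fun i => (f i).2
    choose g hg using hf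
    apply Submodule.subset_span
    let t : Fin k → Fin d := fun i => g i.succ
    refine ⟨(f 0 : K), ?_, ((e t : ℕ) * k : ℕ), ?_⟩
    · rw [← hg 0]
      exact (b _).2
    · congr 1
      rw [Finset.prod_range]
      refine Finset.prod_congr rfl ?_
      intro i _
      have hcast : (((e t : ℕ) * k : ℕ) : ZMod m) + ((i : ℕ) : ZMod m) = ι (t, i) := by
        show _ = ((pos (t, i) : ℕ) : ZMod m)
        have : pos (t, i) = (i : ℕ) + k * (e t : ℕ) := rfl
        rw [this]
        push_cast
        ring
      rw [hcast]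
      have : A (ι (t, i)) = bb (t i) := hι.extend_apply _ _ _
      rw [this]
      exact (hg i.succ).symm

end small

section middle

variable (W : Submodule Z K)

theorem span_powers_eq_top [FiniteDimensional Z K] (u : K) (hu : IntermediateField.adjoin Z {u} = ⊤) :
    Submodule.span Z (Set.range fun c : Fin (finrank Z K) => u ^ (c : ℕ)) = ⊤ := by
  have hint : IsIntegral Z u := Algebra.IsIntegral.isIntegral u
  have hdeg : (minpoly Z u).natDegree = finrank Z K := by
    rw [← IntermediateField.adjoin.finrank hint, hu, IntermediateField.finrank_top']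
  have hli : LinearIndependent Z fun i : Fin (minpoly Z u).natDegree => u ^ (i : ℕ) :=
    linearIndependent_pow u
  have hli' : LinearIndependent Z fun c : Fin (finrank Z K) => u ^ (c : ℕ) := by
    have := hli
    rw [hdeg] at this
    exact this
  apply hli'.span_eq_top_of_card_eq_finrank'
  simp

theorem middle_case [FiniteDimensional Z K] (w0 w1 : K) (hw0 : w0 ∈ W) (hw1 : w1 ∈ W)
    (h0 : w0 ≠ 0) (hu : IntermediateField.adjoin Z {w1 / w0} = ⊤) (m k : ℕ) [NeZero m]
    (hk1 : finrank Z K ≤ k + 1) (hk2 : k + finrank Z K ≤ m + 1) :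
    ∃ A : ZMod m → K, (∀ i, A i ∈ W) ∧
      Submodule.span Z {x | ∃ w ∈ W, ∃ r : ZMod m, x = w * ∏ i ∈ Finset.range k, A (r + (i : ZMod m))} = ⊤ := by
  classical
  set e := finrank Z K with he
  have hepos : 0 < e := Module.finrank_pos
  let A : ZMod m → K := fun x => if k ≤ x.val ∧ x.val + 1 < k + e then w1 else w0
  refine ⟨A, ?_, ?_⟩
  · intro x
    by_cases h : k ≤ x.val ∧ x.val + 1 < k + e
    · simp only [A, if_pos h]; exact hw1
    · simp only [A, if_neg h]; exact hw0
  · set u := w1 / w0 with hudef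
    have hw1u : w1 = u * w0 := by rw [hudef]; field_simp
    have hkey : ∀ c : Fin e, w0 ^ (k + 1) * u ^ (c : ℕ) =
        w0 * ∏ i ∈ Finset.range k, A (((c : ℕ) : ZMod m) + (i : ZMod m)) := by
      intro c
      have hc : (c : ℕ) < e := c.2
      have hck : (c : ℕ) ≤ k := by omega
      have hsplit : k = (k - c) + c := by omega
      have hval : ∀ i, i < k → (((c : ℕ) : ZMod m) + (i : ZMod m)).val = c + i := by
        intro i hi
        have : ((c : ℕ) : ZMod m) + (i : ZMod m) = (((c : ℕ) + i : ℕ) : ZMod m) := by push_cast; rfl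
        rw [this]
        exact val_cast_of_lt (by omega)
      have hA : ∀ i, i < k → A (((c : ℕ) : ZMod m) + (i : ZMod m)) = if k ≤ c + i then w1 else w0 := by
        intro i hi
        simp only [A, hval i hi]
        have : (c : ℕ) + i + 1 < k + e := by omega
        simp [this]
      have hprod : ∏ i ∈ Finset.range k, A (((c : ℕ) : ZMod m) + (i : ZMod m)) =
          w0 ^ (k - c) * w1 ^ (c : ℕ) := by
        rw [Finset.prod_congr rfl (fun i hi => hA i (Finset.mem_range.1 hi))]
        have hadd := Finset.prod_range_add (fun i => if k ≤ (c : ℕ) + i then w1 else w0) (k - c) c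
        rw [← hsplit] at hadd
        rw [hadd]
        have h1 : ∏ x ∈ Finset.range (k - c), (if k ≤ (c : ℕ) + x then w1 else w0) = w0 ^ (k - c) := by
          rw [Finset.prod_congr rfl (g := fun _ => w0)]
          · simp
          · intro x hx
            have := Finset.mem_range.1 hx
            rw [if_neg (by omega)]
        have h2 : ∏ x ∈ Finset.range (c : ℕ), (if k ≤ (c : ℕ) + (k - c + x) then w1 else w0) = w1 ^ (c : ℕ) := by
          rw [Finset.prod_congr rfl (g := fun _ => w1)]
          · simp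
          · intro x hx
            rw [if_pos (by omega)]
        rw [h1, h2]
      rw [hprod, hw1u, mul_pow]
      have : k + 1 = 1 + (k - c) + c := by omega
      rw [this, pow_add, pow_add]
      ring
    have htop := span_mul_top (Z := Z) (w0 ^ (k + 1)) (pow_ne_zero _ h0) _ (span_powers_eq_top u hu)
    rw [eq_top_iff, ← htop]
    apply Submodule.span_mono
    rintro _ ⟨c, rfl⟩
    exact ⟨w0, hw0, ((c : ℕ) : ZMod m), hkey c⟩

end middle

section cauchy

/-- Cauchy-type independence: `1 / (1 + c_t u)`, `t < e = [K:Z]`, span `K`. -/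
theorem span_cauchy [CharZero Z] [FiniteDimensional Z K] (u : K)
    (hu : IntermediateField.adjoin Z {u} = ⊤)
    (hne : ∀ t : Fin (finrank Z K), (1 : K) + ((t : ℕ) + 1 : ℕ) * u ≠ 0) :
    Submodule.span Z (Set.range fun t : Fin (finrank Z K) => ((1 : K) + ((t : ℕ) + 1 : ℕ) * u)⁻¹) = ⊤ := by
  classical
  set e := finrank Z K with he
  have hint : IsIntegral Z u := Algebra.IsIntegral.isIntegral u
  have hdeg : (minpoly Z u).natDegree = e := by
    rw [← IntermediateField.adjoin.finrank hint, hu, IntermediateField.finrank_top']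
  have hli : LinearIndependent Z (fun t : Fin e => ((1 : K) + ((t : ℕ) + 1 : ℕ) * u)⁻¹) := by
    rw [Fintype.linearIndependent_iff]
    intro lam hsum t0
    -- the polynomial Q
    let c : Fin e → Z := fun t => (((t : ℕ) + 1 : ℕ) : Z)
    have hc0 : ∀ t, c t ≠ 0 := fun t => Nat.cast_ne_zero.2 (Nat.succ_ne_zero _)
    have hcinj : ∀ s t, c s = c t → s = t := by
      intro s t h
      have h' : ((s : ℕ) + 1 : ℕ) = (((t : ℕ) + 1 : ℕ)) := Nat.cast_injective h
      exact Fin.ext (by omega)
    let fac : Fin e → Polynomial Z := fun s => 1 + Polynomial.C (c s) * Polynomial.X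
    let Q : Polynomial Z := ∑ t : Fin e, Polynomial.C (lam t) * ∏ s ∈ Finset.univ.erase t, fac s
    have haeval_fac : ∀ s : Fin e, Polynomial.aeval u (fac s) = (1 : K) + (((s : ℕ) + 1 : ℕ) : K) * u := by
      intro s
      simp [fac, c]
    have hQu : Polynomial.aeval u Q = 0 := by
      have hD : ∀ t : Fin e, (∏ s ∈ Finset.univ.erase t, ((1 : K) + (((s : ℕ) + 1 : ℕ) : K) * u)) =
          (∏ s : Fin e, ((1 : K) + (((s : ℕ) + 1 : ℕ) : K) * u)) * ((1 : K) + (((t : ℕ) + 1 : ℕ) : K) * u)⁻¹ := by
        intro t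
        rw [eq_mul_inv_iff_mul_eq₀ (hne t), mul_comm]
        exact Finset.mul_prod_erase Finset.univ (fun s : Fin e => (1 : K) + (((s : ℕ) + 1 : ℕ) : K) * u) (Finset.mem_univ t)
      simp only [Q, map_sum, map_mul, Polynomial.aeval_C, map_prod, haeval_fac]
      have h2 : ∀ t : Fin e, (algebraMap Z K (lam t)) * ∏ s ∈ Finset.univ.erase t, ((1 : K) + (((s : ℕ) + 1 : ℕ) : K) * u) =
          (∏ s : Fin e, ((1 : K) + (((s : ℕ) + 1 : ℕ) : K) * u)) * (lam t • ((1 : K) + (((t : ℕ) + 1 : ℕ) : K) * u)⁻¹) := by
        intro t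
        rw [hD t, Algebra.smul_def]
        ring
      rw [Finset.sum_congr rfl (fun t _ => h2 t), ← Finset.mul_sum, hsum, mul_zero]
    have hdegQ : Q.natDegree < e := by
      have he0 : 0 < e := Module.finrank_pos
      have : Q.natDegree ≤ e - 1 := by
        apply Polynomial.natDegree_sum_le_of_forall_le
        intro t _
        refine le_trans (Polynomial.natDegree_C_mul_le _ _) ?_
        refine le_trans (Polynomial.natDegree_prod_le _ _) ?_
        have h1 : ∀ s ∈ Finset.univ.erase t, (fac s).natDegree ≤ 1 := by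
          intro s _
          simp only [fac]
          refine le_trans (Polynomial.natDegree_add_le _ _) ?_
          simp only [Polynomial.natDegree_one, zero_le, sup_of_le_right]
          exact (Polynomial.natDegree_C_mul_le _ _).trans Polynomial.natDegree_X_le
        refine le_trans (Finset.sum_le_card_nsmul _ _ 1 h1) ?_
        simp [Finset.card_erase_of_mem]
      omega
    have hQ0 : Q = 0 := by
      by_contra hQ
      have h1 := minpoly.degree_le_of_ne_zero Z u hQ hQu
      have h2 := Polynomial.natDegree_le_natDegree h1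
      omega
    -- evaluate at -1/c t0
    have hev := congrArg (Polynomial.eval (-(c t0)⁻¹)) hQ0
    simp only [Q, Polynomial.eval_finsetSum, Polynomial.eval_mul, Polynomial.eval_C,
      Polynomial.eval_prod, Polynomial.eval_zero] at hev
    rw [Finset.sum_eq_single t0] at hev
    · have hnz : ∏ s ∈ Finset.univ.erase t0, Polynomial.eval (-(c t0)⁻¹) (fac s) ≠ 0 := by
        rw [Finset.prod_ne_zero_iff]
        intro s hs hzero
        have hst : s ≠ t0 := Finset.ne_of_mem_erase hs
        simp only [fac, Polynomial.eval_add, Polynomial.eval_one, Polynomial.eval_mul,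
          Polynomial.eval_C, Polynomial.eval_X] at hzero
        have h3 : c s = c t0 := by
          have := hc0 t0
          field_simp at hzero
          linear_combination (-1 : Z) * hzero
        exact hst (hcinj _ _ h3)
      exact (mul_eq_zero.1 hev).resolve_right hnz
    · intro t _ ht
      rw [Finset.prod_eq_zero (i := t0) (Finset.mem_erase.2 ⟨ht.symm, Finset.mem_univ _⟩)]
      · simp
      · simp only [fac, Polynomial.eval_add, Polynomial.eval_one, Polynomial.eval_mul,
          Polynomial.eval_C, Polynomial.eval_X]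
        have := hc0 t0
        field_simp
        ring
    · simp
  exact hli.span_eq_top_of_card_eq_finrank' (by simp [he])

end cauchy

section complement

variable (W : Submodule Z K)

/-- The complementary case: intervals of length `k = m - k'`, `k' ≥ 1` small. -/
theorem complement_case [CharZero Z] [FiniteDimensional Z K] (w0 w1 : K) (hw0 : w0 ∈ W) (hw1 : w1 ∈ W)
    (h0 : w0 ≠ 0) (hu : IntermediateField.adjoin Z {w1 / w0} = ⊤) (m k k' : ℕ) [NeZero m]
    (hk' : 1 ≤ k') (hkk : k + k' = m) (hek : finrank Z K * k' ≤ m) (he2 : 2 ≤ finrank Z K) :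
    ∃ A : ZMod m → K, (∀ i, A i ∈ W) ∧
      Submodule.span Z {x | ∃ w ∈ W, ∃ r : ZMod m, x = w * ∏ i ∈ Finset.range k, A (r + (i : ZMod m))} = ⊤ := by
  classical
  set e := finrank Z K with he
  set u := w1 / w0 with hudef
  have hw1u : w1 = u * w0 := by rw [hudef]; field_simp
  haveI : CharZero K := charZero_of_injective_algebraMap (algebraMap Z K).injective
  -- u is not in the base field
  have hune : ∀ t : ℕ, (1 : K) + ((t + 1 : ℕ) : K) * u ≠ 0 := by
    intro t hzero
    have hmem : u ∈ (⊥ : IntermediateField Z K) := by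
      have hu2 : u = algebraMap Z K (-(((t + 1 : ℕ) : Z)⁻¹)) := by
        have ht : ((t + 1 : ℕ) : K) ≠ 0 := Nat.cast_ne_zero.2 (Nat.succ_ne_zero t)
        rw [map_neg, map_inv₀, map_natCast]
        field_simp
        linear_combination hzero
      rw [hu2]
      exact IntermediateField.algebraMap_mem _ _
    have hbot : IntermediateField.adjoin Z {u} = ⊥ := by
      rw [IntermediateField.adjoin_simple_eq_bot_iff]
      exact IntermediateField.mem_bot.1 hmem
    rw [hu] at hbot
    have : finrank Z (⊤ : IntermediateField Z K) = finrank Z (⊥ : IntermediateField Z K) := by rw [hbot]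
    rw [IntermediateField.finrank_top', IntermediateField.finrank_bot] at this
    omega
  let A : ZMod m → K := fun x =>
    if x.val % k' = 0 ∧ x.val / k' < e then w0 + ((x.val / k' + 1 : ℕ) : K) * w1 else w0
  have hAW : ∀ i, A i ∈ W := by
    intro x
    by_cases h : x.val % k' = 0 ∧ x.val / k' < e
    · simp only [A, if_pos h]
      refine W.add_mem hw0 ?_
      have : ((x.val / k' + 1 : ℕ) : K) * w1 = ((x.val / k' + 1 : ℕ)) • w1 := by simp
      rw [this]
      exact W.nsmul_mem hw1 _
    · simp only [A, if_neg h]; exact hw0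
  refine ⟨A, hAW, ?_⟩
  have hAne : ∀ i, A i ≠ 0 := by
    intro x
    by_cases h : x.val % k' = 0 ∧ x.val / k' < e
    · simp only [A, if_pos h]
      rw [hw1u]
      have : w0 + ((x.val / k' + 1 : ℕ) : K) * (u * w0) = w0 * (1 + ((x.val / k' + 1 : ℕ) : K) * u) := by ring
      rw [this]
      exact mul_ne_zero h0 (hune _)
    · simp only [A, if_neg h]; exact h0
  set P := ∏ x, A x with hP
  have hPne : P ≠ 0 := Finset.prod_ne_zero_iff.2 (fun x _ => hAne x)
  -- value on a block
  have hblock : ∀ t : Fin e, ∏ j ∈ Finset.range k', A (((((t : ℕ) * k' + j : ℕ)) : ZMod m)) =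
      w0 ^ k' * (1 + (((t : ℕ) + 1 : ℕ) : K) * u) := by
    intro t
    have hA : ∀ j ∈ Finset.range k', A (((((t : ℕ) * k' + j : ℕ)) : ZMod m)) =
        if j = 0 then w0 * (1 + (((t : ℕ) + 1 : ℕ) : K) * u) else w0 := by
      intro j hj
      have hj' : j < k' := Finset.mem_range.1 hj
      have hlt : (t : ℕ) * k' + j < m := by
        have h1 : (t : ℕ) + 1 ≤ e := t.2
        have h2 : ((t : ℕ) + 1) * k' ≤ e * k' := Nat.mul_le_mul_right _ h1
        nlinarith
      have hv : (((((t : ℕ) * k' + j : ℕ)) : ZMod m)).val = (t : ℕ) * k' + j := val_cast_of_lt hlt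
      simp only [A, hv]
      have hmod : ((t : ℕ) * k' + j) % k' = j := by
        rw [Nat.add_comm, Nat.add_mul_mod_self_right]
        exact Nat.mod_eq_of_lt hj'
      have hdiv : ((t : ℕ) * k' + j) / k' = t := by
        rw [Nat.add_comm, Nat.add_mul_div_right _ _ (by omega), Nat.div_eq_of_lt hj']
        simp
      rw [hmod, hdiv]
      by_cases hj0 : j = 0
      · subst hj0
        simp only [true_and, t.2, if_true]
        rw [hw1u]
        ring
      · simp [hj0]
    rw [Finset.prod_congr rfl hA]
    obtain ⟨k'', rfl⟩ : ∃ k'', k' = k'' + 1 := ⟨k' - 1, by omega⟩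
    rw [Finset.prod_range_succ']
    simp only [Nat.add_eq_zero_iff, one_ne_zero, and_false, if_false, if_true, Finset.prod_const,
      Finset.card_range]
    ring
  -- value on the interval
  have hkey : ∀ t : Fin e, (P * w0 / w0 ^ k') * ((1 : K) + (((t : ℕ) + 1 : ℕ) : K) * u)⁻¹ =
      w0 * ∏ i ∈ Finset.range k, A ((((t : ℕ) * k' + k' : ℕ) : ZMod m) + (i : ZMod m)) := by
    intro t
    have hall := prod_range_shift A (((t : ℕ) * k' + k' : ℕ) : ZMod m)
    have hsplit := Finset.prod_range_add (fun i => A ((((t : ℕ) * k' + k' : ℕ) : ZMod m) + (i : ZMod m))) k k'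
    rw [hkk] at hsplit
    rw [hall] at hsplit
    have hsecond : ∏ j ∈ Finset.range k', A ((((t : ℕ) * k' + k' : ℕ) : ZMod m) + (((k + j : ℕ)) : ZMod m)) =
        w0 ^ k' * (1 + (((t : ℕ) + 1 : ℕ) : K) * u) := by
      rw [← hblock t]
      refine Finset.prod_congr rfl ?_
      intro j _
      congr 1
      have hmz : ((k : ZMod m) + (k' : ZMod m)) = 0 := by
        have h : ((k + k' : ℕ) : ZMod m) = ((m : ℕ) : ZMod m) := by rw [hkk]
        rw [ZMod.natCast_self] at h
        push_cast at h
        exact h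
      push_cast
      linear_combination hmz
    rw [hsecond] at hsplit
    have h1 : (1 : K) + (((t : ℕ) + 1 : ℕ) : K) * u ≠ 0 := hune t
    have h2 : w0 ^ k' ≠ 0 := pow_ne_zero _ h0
    rw [hP, hsplit]
    field_simp
  have hspan := span_cauchy (Z := Z) u hu (fun t => hune t)
  have hκ : P * w0 / w0 ^ k' ≠ 0 := div_ne_zero (mul_ne_zero hPne h0) (pow_ne_zero _ h0)
  have htop := span_mul_top (Z := Z) (P * w0 / w0 ^ k') hκ _ hspan
  rw [eq_top_iff, ← htop]
  apply Submodule.span_mono
  rintro _ ⟨t, rfl⟩
  exact ⟨w0, hw0, _, hkey t⟩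

end complement

/-- **Lemma C1.** -/
theorem C1 [CharZero Z] [FiniteDimensional Z K] (W : Submodule Z K) (w0 w1 : K)
    (hw0 : w0 ∈ W) (hw1 : w1 ∈ W) (h0 : w0 ≠ 0) (hu : IntermediateField.adjoin Z {w1 / w0} = ⊤)
    (k0 : ℕ) (hk0 : W ^ k0 = ⊤) (m : ℕ) [NeZero m]
    (hm : (finrank Z K) ^ (finrank Z K + 1) ≤ m) (k : ℕ) (hk0k : k0 ≤ k + 1) (hkm : k + 1 ≤ m) :
    ∃ A : ZMod m → K, (∀ i, A i ∈ W) ∧
      Submodule.span Z {x | ∃ w ∈ W, ∃ r : ZMod m, x = w * ∏ i ∈ Finset.range k, A (r + (i : ZMod m))} = ⊤ := by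
  classical
  set e := finrank Z K with he
  have hepos : 0 < e := Module.finrank_pos
  by_cases hsmall : k + 2 ≤ e
  · -- small case
    have hd : finrank Z W ≤ e := Submodule.finrank_le W
    have hpow : W ^ (k + 1) = ⊤ := by
      obtain ⟨j, hj⟩ := Nat.exists_eq_add_of_le hk0k
      rw [hj, pow_add, hk0]
      -- ⊤ * W^j = ⊤ since W^j ≠ 0
      rw [eq_top_iff]
      intro y _
      have hne : w0 ^ j ≠ 0 := pow_ne_zero _ h0
      have hmem : w0 ^ j ∈ W ^ j := Submodule.pow_mem_pow W hw0 j
      have : y = (y / w0 ^ j) * w0 ^ j := by field_simp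
      rw [this]
      exact Submodule.mul_mem_mul Submodule.mem_top hmem
    refine small_case W w0 hw0 m k ?_ hpow
    have h1 : finrank Z W ^ k ≤ e ^ k := Nat.pow_le_pow_left hd k
    have h2 : e ^ k ≤ e ^ e := Nat.pow_le_pow_right hepos (by omega)
    have h3 : k ≤ e := by omega
    calc finrank Z W ^ k * k ≤ e ^ e * e := Nat.mul_le_mul (h1.trans h2) h3
      _ = e ^ (e + 1) := by rw [pow_succ]
      _ ≤ m := hm
  · by_cases hmid : k + e ≤ m + 1
    · exact middle_case W w0 w1 hw0 hw1 h0 hu m k (by omega) hmid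
    · -- complement
      have he3 : 2 ≤ e := by omega
      refine complement_case W w0 w1 hw0 hw1 h0 hu m k (m - k) (by omega) (by omega) ?_ he3
      have h1 : m - k ≤ e := by omega
      have h2 : e * e ≤ e ^ (e + 1) := by
        calc e * e = e ^ 2 := by ring
          _ ≤ e ^ (e + 1) := Nat.pow_le_pow_right hepos (by omega)
      calc e * (m - k) ≤ e * e := Nat.mul_le_mul_left _ h1
        _ ≤ m := h2.trans hm

end Crest.Agent.Lib.Kurosh.FieldC1
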