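import Mathlib

/-!
# Lemma GoodPair for S0270

`F` an infinite field, `ω a` finitely many bilinear forms on a finite dimensional space, every
nonzero combination of rank `≥ 3ρ` (`ρ` the number of forms). Then there are independent `v, w`
with `ω a v w = 0` and `x ↦ (ω a v x, ω a w x)` onto `F^{2ρ}`.

The proof goes through the maximal rank lemma `map_ker_le_range`: in a linear family of linear maps
over an infinite field, at a point `v₀` of maximal rank, `A v₁ (ker A v₀) ⊆ range (A v₀)`.
-/

set_option autoImplicit false

namespace Crest.Agent.Lib.Kurosh.GoodPair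

open Module Polynomial

variable {F : Type*} [Field F]

section Perturb

/-- An infinite field: `1 + t C` is invertible for some `t ≠ 0`. -/
theorem exists_det_one_add_smul_ne_zero [Infinite F] {ι : Type*} [Fintype ι] [DecidableEq ι]
    (C : Matrix ι ι F) : ∃ t : F, t ≠ 0 ∧ (1 + t • C).det ≠ 0 := by
  let P : F[X] := Matrix.det ((1 : Matrix ι ι F[X]) + (X : F[X]) • C.map Polynomial.C)
  have hPt : ∀ t : F, P.eval t = (1 + t • C).det := by
    intro t
    have h1 : P.eval t = (Polynomial.evalRingHom t) P := rfl
    rw [h1, RingHom.map_det]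
    congr 1
    ext i j
    simp [Matrix.one_apply, apply_ite, Matrix.add_apply]
    ring
  have hP0 : P.eval 0 = 1 := by
    rw [hPt, zero_smul, add_zero, Matrix.det_one]
  have hP : P ≠ 0 := by
    intro h
    rw [h] at hP0
    simp at hP0
  have hXP : (X : F[X]) * P ≠ 0 := mul_ne_zero X_ne_zero hP
  by_contra hcon
  push Not at hcon
  apply hXP
  apply Polynomial.funext
  intro r
  simp only [eval_mul, eval_X, eval_zero]
  by_cases hr : r = 0
  · simp [hr]
  · rw [hPt, hcon r hr, mul_zero]

/-- **Maximal rank lemma.** -/
theorem map_ker_le_range [Infinite F] {V U W : Type*} [AddCommGroup V] [Module F V]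
    [AddCommGroup U] [Module F U] [AddCommGroup W] [Module F W] [FiniteDimensional F W]
    (A : V →ₗ[F] U →ₗ[F] W) (v0 : V)
    (hmax : ∀ v, finrank F (LinearMap.range (A v)) ≤ finrank F (LinearMap.range (A v0)))
    (v1 : V) (x : U) (hx : A v0 x = 0) : A v1 x ∈ LinearMap.range (A v0) := by
  classical
  by_contra hy
  set y := A v1 x with hydef
  set R := LinearMap.range (A v0) with hR
  let r := finrank F R
  let eb : Basis (Fin r) F R := finBasis F R
  -- lifts
  have hlift : ∀ i : Fin r, ∃ u : U, A v0 u = (eb i : W) := fun i => (eb i).2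
  choose u hu using hlift
  let e : Fin r → W := fun i => (eb i : W)
  have hspan : Submodule.span F (Set.range e) = R := by
    have h1 : Set.range e = R.subtype '' Set.range eb := by
      ext w; simp [e]
    rw [h1, Submodule.span_image, eb.span_eq, Submodule.map_top, Submodule.range_subtype]
  have heli : LinearIndependent F e :=
    eb.linearIndependent.map' R.subtype R.ker_subtype
  let g : Option (Fin r) → W := fun o => Option.casesOn' o y e
  have hg : LinearIndependent F g := heli.option (by rw [hspan]; exact hy)
  -- functionals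
  let T : (Option (Fin r) → F) →ₗ[F] W := Fintype.linearCombination F g
  have hT : LinearMap.ker T = ⊥ := by
    rw [LinearMap.ker_eq_bot']
    intro c hc
    funext i
    exact (Fintype.linearIndependent_iff.1 hg) c (by simpa [T, Fintype.linearCombination_apply] using hc) i
  obtain ⟨φ, hφ⟩ := LinearMap.exists_leftInverse_of_injective T hT
  have hφg : ∀ o, φ (g o) = Pi.single o 1 := fun o => by
    have := LinearMap.congr_fun hφ (Pi.single o 1)
    simpa [T, Fintype.linearCombination_apply_single] using this
  -- the perturbation matrix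
  let C : Matrix (Option (Fin r)) (Option (Fin r)) F := fun i j =>
    match i with
    | some k => φ (A v1 (u k)) j
    | none => 0
  obtain ⟨t, ht, hdet⟩ := exists_det_one_add_smul_ne_zero C
  have hrows := Matrix.linearIndependent_rows_of_det_ne_zero hdet
  -- the family in the range of `A (v0 + t v1)`
  let B := A (v0 + t • v1)
  let g' : Option (Fin r) → W := fun o =>
    match o with
    | some k => B (u k)
    | none => y
  have hg'1 : ∀ k : Fin r, g' (some k) = e k + t • A v1 (u k) := fun k => by
    simp [g', B, hu, e]
  have hg'mem : ∀ o, g' o ∈ LinearMap.range B := by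
    intro o
    cases o with
    | none =>
      refine ⟨t⁻¹ • x, ?_⟩
      simp only [g', B, map_add, map_smul, LinearMap.add_apply, LinearMap.smul_apply, hx, zero_add]
      rw [smul_smul, inv_mul_cancel₀ ht, one_smul]
    | some k => exact ⟨u k, rfl⟩
  have hrow : (fun o => φ (g' o)) = fun o => (1 + t • C) o := by
    funext o
    cases o with
    | none =>
      funext j
      have := hφg none
      simp only [g, Option.casesOn'_none] at this
      simp only [g', this, Matrix.add_apply, Matrix.smul_apply, C, smul_zero, add_zero]
      simp [Matrix.one_apply, Pi.single_apply, eq_comm]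
    | some k =>
      funext j
      have := hφg (some k)
      simp only [g, Option.casesOn'_some] at this
      rw [hg'1, map_add, map_smul, this]
      simp [Matrix.add_apply, Matrix.smul_apply, C, Matrix.one_apply, Pi.single_apply, eq_comm]
  have hg'li : LinearIndependent F g' := by
    apply LinearIndependent.of_comp φ
    have : ⇑φ ∘ g' = fun o => (1 + t • C) o := hrow
    rw [this]
    exact hrows
  -- contradiction with maximality
  have hle : finrank F (Submodule.span F (Set.range g')) ≤ finrank F (LinearMap.range B) :=
    Submodule.finrank_mono (Submodule.span_le.2 (by rintro _ ⟨o, rfl⟩; exact hg'mem o))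
  rw [finrank_span_eq_card hg'li] at hle
  have h3 := hmax (v0 + t • v1)
  simp only [Fintype.card_option, Fintype.card_fin] at hle
  have h4 : finrank F (LinearMap.range B) ≤ r := h3
  omega

end Perturb

section Rank

/-- Rank under composition. -/
theorem finrank_range_le_comp_add_ker {A B C : Type*} [AddCommGroup A] [Module F A]
    [AddCommGroup B] [Module F B] [AddCommGroup C] [Module F C] [FiniteDimensional F B]
    (g : A →ₗ[F] B) (h : B →ₗ[F] C) :
    finrank F (LinearMap.range g) ≤
      finrank F (LinearMap.range (h ∘ₗ g)) + finrank F (LinearMap.ker h) := by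
  let h' : LinearMap.range g →ₗ[F] C := h.domRestrict (LinearMap.range g)
  have h1 := LinearMap.finrank_range_add_finrank_ker h'
  have h2 : LinearMap.range h' = LinearMap.range (h ∘ₗ g) := by
    ext c
    constructor
    · rintro ⟨⟨_, a, rfl⟩, rfl⟩
      exact ⟨a, rfl⟩
    · rintro ⟨a, rfl⟩
      exact ⟨⟨g a, a, rfl⟩, rfl⟩
  have h3 : finrank F (LinearMap.ker h') ≤ finrank F (LinearMap.ker h) := by
    let i : LinearMap.ker h' →ₗ[F] LinearMap.ker h :=
      { toFun := fun z => ⟨(z : LinearMap.range g), by
          have := z.2
          rw [LinearMap.mem_ker] at this ⊢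
          exact this⟩
        map_add' := fun _ _ => rfl
        map_smul' := fun _ _ => rfl }
    refine LinearMap.finrank_le_finrank_of_injective (f := i) ?_
    intro a b hab
    apply Subtype.ext
    apply Subtype.ext
    exact congrArg (fun z : LinearMap.ker h => (z : B)) hab
  rw [h2] at h1
  omega

/-- Rank under restriction to a subspace. -/
theorem finrank_range_le_domRestrict {A B : Type*} [AddCommGroup A] [Module F A]
    [FiniteDimensional F A] [AddCommGroup B] [Module F B] (g : A →ₗ[F] B) (P : Submodule F A) :
    finrank F (LinearMap.range g) + finrank F P ≤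
      finrank F (LinearMap.range (g.domRestrict P)) + finrank F A := by
  have h1 := LinearMap.finrank_range_add_finrank_ker g
  have h2 := LinearMap.finrank_range_add_finrank_ker (g.domRestrict P)
  have h3 : finrank F (LinearMap.ker (g.domRestrict P)) ≤ finrank F (LinearMap.ker g) := by
    let i : LinearMap.ker (g.domRestrict P) →ₗ[F] LinearMap.ker g :=
      { toFun := fun z => ⟨((z : P) : A), by
          have := z.2
          rw [LinearMap.mem_ker] at this ⊢
          exact this⟩
        map_add' := fun _ _ => rfl
        map_smul' := fun _ _ => rfl }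
    refine LinearMap.finrank_le_finrank_of_injective (f := i) ?_
    intro a b hab
    apply Subtype.ext
    apply Subtype.ext
    exact congrArg (fun z : LinearMap.ker g => (z : A)) hab
  omega

/-- Rank of a bilinear form restricted to a pair of subspaces. -/
theorem rank_domRestrict₁₂ {V : Type*} [AddCommGroup V] [Module F V] [FiniteDimensional F V]
    (B : V →ₗ[F] V →ₗ[F] F) (P : Submodule F V) :
    finrank F (LinearMap.range B) + 2 * finrank F P ≤
      finrank F (LinearMap.range (B.domRestrict₁₂ P P)) + 2 * finrank F V := by
  -- step 1: restrict the first slot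
  have h1 := finrank_range_le_domRestrict B P
  -- step 2: restrict the second slot
  let res : (V →ₗ[F] F) →ₗ[F] (P →ₗ[F] F) := P.subtype.dualMap
  have h2 := finrank_range_le_comp_add_ker (B.domRestrict P) res
  have h3 : res ∘ₗ (B.domRestrict P) = B.domRestrict₁₂ P P := by
    ext a b
    rfl
  rw [h3] at h2
  have h4 : finrank F (LinearMap.ker res) + finrank F P = finrank F V := by
    have h5 : LinearMap.ker res = P.dualAnnihilator := by
      ext f
      simp [res, LinearMap.mem_ker, Submodule.mem_dualAnnihilator, LinearMap.ext_iff]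
    rw [h5, add_comm]
    exact Subspace.finrank_add_finrank_dualAnnihilator_eq P
  omega

end Rank

section Main

set_option linter.unusedSectionVars false

variable {ι : Type*} [Fintype ι] [DecidableEq ι]

/-- The combination `∑ c a • ω a`. -/
def comb {V U : Type*} [AddCommGroup V] [Module F V] [AddCommGroup U] [Module F U]
    (ω : ι → V →ₗ[F] U →ₗ[F] F) (c : ι → F) : V →ₗ[F] U →ₗ[F] F := ∑ a, c a • ω a

theorem comb_apply {V U : Type*} [AddCommGroup V] [Module F V] [AddCommGroup U] [Module F U]
    (ω : ι → V →ₗ[F] U →ₗ[F] F) (c : ι → F) (v : V) (x : U) :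
    comb ω c v x = ∑ a, c a * ω a v x := by
  simp [comb, LinearMap.sum_apply]

/-- The family `v ↦ (x ↦ (ω a v x)_a)`. -/
def family {V U : Type*} [AddCommGroup V] [Module F V] [AddCommGroup U] [Module F U]
    (ω : ι → V →ₗ[F] U →ₗ[F] F) : V →ₗ[F] U →ₗ[F] (ι → F) :=
  LinearMap.mk₂ F (fun v x a => ω a v x)
    (fun v v' x => by funext a; simp)
    (fun c v x => by funext a; simp)
    (fun v x x' => by funext a; simp)
    (fun c v x => by funext a; simp)

@[simp] theorem family_apply {V U : Type*} [AddCommGroup V] [Module F V] [AddCommGroup U]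
    [Module F U] (ω : ι → V →ₗ[F] U →ₗ[F] F) (v : V) (x : U) (a : ι) :
    family ω v x a = ω a v x := rfl

/-- Step 1: a nonzero combination of rank `≥ ρ` for all nonzero `c` gives one `v` with
`x ↦ (ω a v x)_a` onto. -/
theorem exists_surjective [Infinite F] {V U : Type*} [AddCommGroup V] [Module F V]
    [AddCommGroup U] [Module F U] [FiniteDimensional F U]
    (ω : ι → V →ₗ[F] U →ₗ[F] F)
    (hrank : ∀ c : ι → F, c ≠ 0 → Fintype.card ι ≤ finrank F (LinearMap.range (comb ω c))) :
    ∃ v, Function.Surjective (family ω v) := by
  classical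
  -- maximal rank point
  let f : V → ℕ := fun v => finrank F (LinearMap.range (family ω v))
  have hbd : ∀ v, f v ≤ finrank F (ι → F) := fun v => Submodule.finrank_le _
  obtain ⟨v0, hv0⟩ : ∃ v0, ∀ v, f v ≤ f v0 := by
    by_contra hcon
    push Not at hcon
    have : ∀ n : ℕ, ∃ v, n ≤ f v := by
      intro n
      induction n with
      | zero => exact ⟨0, Nat.zero_le _⟩
      | succ n ih =>
        obtain ⟨v, hv⟩ := ih
        obtain ⟨w, hw⟩ := hcon v
        exact ⟨w, by omega⟩
    obtain ⟨v, hv⟩ := this (finrank F (ι → F) + 1)
    have := hbd v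
    omega
  refine ⟨v0, ?_⟩
  rw [← LinearMap.range_eq_top]
  by_contra hne
  obtain ⟨φ, hφ0, hφ⟩ := Submodule.exists_le_ker_of_lt_top _ (lt_top_iff_ne_top.2 hne)
  let c : ι → F := fun a => φ (Pi.single a 1)
  have hφ_apply : ∀ u : ι → F, φ u = ∑ a, c a * u a := fun u => by
    rw [LinearMap.pi_apply_eq_sum_univ φ u]
    simp only [smul_eq_mul, c]
    refine Finset.sum_congr rfl (fun a _ => ?_)
    have : (fun j => if a = j then (1 : F) else 0) = Pi.single a 1 := by
      funext j; simp [Pi.single_apply, eq_comm]
    rw [this, mul_comm]
  have hc : c ≠ 0 := by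
    intro h0
    apply hφ0
    ext u
    simp [hφ_apply, h0]
  have hrk := hrank c hc
  -- the kernel
  let K := LinearMap.ker (family ω v0)
  have hkill : ∀ v1, ∀ x ∈ K, comb ω c v1 x = 0 := by
    intro v1 x hx
    have h1 := map_ker_le_range (family ω) v0 hv0 v1 x hx
    have h2 := hφ h1
    rw [LinearMap.mem_ker, hφ_apply] at h2
    rw [comb_apply]
    simpa using h2
  have hrange_le : LinearMap.range (comb ω c) ≤ K.dualAnnihilator := by
    rintro _ ⟨v1, rfl⟩
    rw [Submodule.mem_dualAnnihilator]
    exact fun x hx => hkill v1 x hx
  have h3 := Submodule.finrank_mono hrange_le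
  have h4 := Subspace.finrank_add_finrank_dualAnnihilator_eq K
  have h5 := LinearMap.finrank_range_add_finrank_ker (family ω v0)
  have h6 : finrank F (LinearMap.range (family ω v0)) < Fintype.card ι := by
    have := Submodule.finrank_lt hne
    simpa using this
  have h8 : finrank F (LinearMap.ker (family ω v0)) = finrank F K := rfl
  have h9 : finrank F K.dualAnnihilator = finrank F (LinearMap.range (family ω v0)) := by
    rw [← h8] at h4
    linarith
  exact absurd (hrk.trans (h3.trans h9.le)) (not_le.2 h6)

/-- **Lemma GoodPair.** -/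
theorem goodPair [Infinite F] {V : Type*} [AddCommGroup V] [Module F V] [FiniteDimensional F V]
    (h2 : 2 ≤ finrank F V) (ω : ι → V →ₗ[F] V →ₗ[F] F)
    (hrank : ∀ c : ι → F, c ≠ 0 → 3 * Fintype.card ι ≤ finrank F (LinearMap.range (comb ω c))) :
    ∃ v w : V, (∀ a, ω a v w = 0) ∧
      (Function.Surjective fun x : V => ((fun a => ω a v x, fun a => ω a w x) : (ι → F) × (ι → F))) ∧
      LinearIndependent F ![v, w] := by
  classical
  by_cases hι : IsEmpty ι
  · -- no forms
    let b := finBasis F V
    let i0 : Fin (finrank F V) := ⟨0, by omega⟩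
    let i1 : Fin (finrank F V) := ⟨1, by omega⟩
    refine ⟨b i0, b i1, fun a => (hι.false a).elim, ?_, ?_⟩
    · intro _
      exact ⟨0, by ext a <;> exact (hι.false a).elim⟩
    · have : ![b i0, b i1] = b ∘ ![i0, i1] := by
        funext j; fin_cases j <;> rfl
      rw [this]
      refine b.linearIndependent.comp _ ?_
      intro j j' hj
      fin_cases j <;> fin_cases j' <;> simp_all [i0, i1, Fin.ext_iff]
  have hne : Nonempty ι := not_isEmpty_iff.1 hι
  have hρ : 0 < Fintype.card ι := Fintype.card_pos
  -- first vector
  obtain ⟨v, hv⟩ := exists_surjective ω (fun c hc => by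
    have := hrank c hc
    omega)
  let V1 : Submodule F V := LinearMap.ker (family ω v)
  have hV1 : finrank F V1 + Fintype.card ι = finrank F V := by
    have := LinearMap.finrank_range_add_finrank_ker (family ω v)
    rw [LinearMap.range_eq_top.2 hv] at this
    simp only [finrank_top, finrank_fintype_fun_eq_card] at this
    have h8 : finrank F (LinearMap.ker (family ω v)) = finrank F V1 := rfl
    omega
  let ω1 : ι → V1 →ₗ[F] V1 →ₗ[F] F := fun a => (ω a).domRestrict₁₂ V1 V1
  have hcomb1 : ∀ c : ι → F, comb ω1 c = (comb ω c).domRestrict₁₂ V1 V1 := by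
    intro c
    ext x y
    rw [comb_apply]
    change _ = comb ω c (x : V) (y : V)
    rw [comb_apply]
    rfl
  obtain ⟨w', hw'⟩ := exists_surjective ω1 (fun c hc => by
    have h := hrank c hc
    rw [hcomb1]
    have := rank_domRestrict₁₂ (comb ω c) V1
    omega)
  let w : V := w'
  have hw1 : ∀ a, ω a v w = 0 := by
    intro a
    have := w'.2
    rw [LinearMap.mem_ker] at this
    exact congrFun this a
  refine ⟨v, w, hw1, ?_, ?_⟩
  · rintro ⟨c, d⟩
    obtain ⟨x0, hx0⟩ := hv c
    obtain ⟨x1, hx1⟩ := hw' (d - fun a => ω a w x0)
    refine ⟨x0 + x1, ?_⟩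
    have hx1mem : ∀ a, ω a v x1 = 0 := by
      intro a
      have := x1.2
      rw [LinearMap.mem_ker] at this
      exact congrFun this a
    have hx1' : ∀ a, ω a w x1 = d a - ω a w x0 := fun a => congrFun hx1 a
    ext a
    · have : ω a v x0 = c a := congrFun hx0 a
      simp [hx1mem, this]
    · simp [hx1']
  · -- independence
    obtain ⟨a0⟩ := hne
    rw [LinearIndependent.pair_iff]
    intro s t hst
    -- `t = 0`
    have ht : t = 0 := by
      by_contra ht
      have hw : w = (-(s / t)) • v := by
        have h1 : t • w = (-s) • v := by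
          rw [neg_smul]
          exact eq_neg_of_add_eq_zero_right hst
        calc w = t⁻¹ • (t • w) := by rw [smul_smul, inv_mul_cancel₀ ht, one_smul]
          _ = (-(s / t)) • v := by rw [h1, smul_smul]; congr 1; field_simp
      -- on `V1` the map of `w` vanishes
      have hz : ∀ x : V1, family ω1 w' x = 0 := by
        intro x
        funext a
        have hx := x.2
        rw [LinearMap.mem_ker] at hx
        have hxa : ω a v x = 0 := congrFun hx a
        change ω a w x = 0
        rw [hw]
        simp [hxa]
      obtain ⟨x, hx⟩ := hw' (Pi.single a0 1)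
      rw [hz x] at hx
      have := congrFun hx a0
      simp at this
    subst ht
    refine ⟨?_, rfl⟩
    simp only [zero_smul, add_zero] at hst
    by_contra hs
    have hv0 : v = 0 := (smul_eq_zero.1 hst).resolve_left hs
    obtain ⟨x, hx⟩ := hv (Pi.single a0 1)
    have := congrFun hx a0
    rw [hv0] at this
    simp at this

end Main

end Crest.Agent.Lib.Kurosh.GoodPair
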