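import Mathlib

/-!
# Noncommutative power series `A⟪Y⟫`

`NCSeries Y A` is the ring of formal power series in noncommuting variables `Y` over an arbitrary
(possibly noncommutative) coefficient ring `A`; the variables commute with the coefficients.
Carrier: functions `List Y → A`.  The product is defined by recursion on the first letter:
`(f * g) [] = f [] * g []` and `(f * g) (a :: w) = f [] * g (a :: w) + (∂ₐ f * g) w`,
where `(∂ₐ f) w = f (a :: w)` is the left transduction.
-/

set_option autoImplicit false

namespace Crest.Agent.Lib.Kurosh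

universe u v

/-- Noncommutative power series. -/
def NCSeries (Y : Type u) (A : Type v) : Type (max u v) := List Y → A

namespace NCSeries

variable {Y : Type u} {A : Type v}

/-- The coefficient of a word. -/
def coeff (w : List Y) (f : NCSeries Y A) : A := f w

@[ext] theorem ext {f g : NCSeries Y A} (h : ∀ w, coeff w f = coeff w g) : f = g := funext h

/-- Left transduction by a letter. -/
def dl (a : Y) (f : NCSeries Y A) : NCSeries Y A := fun w => f (a :: w)

@[simp] theorem coeff_dl (a : Y) (f : NCSeries Y A) (w : List Y) :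
    coeff w (dl a f) = coeff (a :: w) f := rfl

section Add

instance [AddCommGroup A] : AddCommGroup (NCSeries Y A) :=
  inferInstanceAs (AddCommGroup (List Y → A))

variable [AddCommGroup A]

@[simp] theorem coeff_zero (w : List Y) : coeff w (0 : NCSeries Y A) = 0 := rfl
@[simp] theorem coeff_add (w : List Y) (f g : NCSeries Y A) :
    coeff w (f + g) = coeff w f + coeff w g := rfl
@[simp] theorem coeff_sub (w : List Y) (f g : NCSeries Y A) :
    coeff w (f - g) = coeff w f - coeff w g := rfl
@[simp] theorem coeff_neg (w : List Y) (f : NCSeries Y A) :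
    coeff w (-f) = -coeff w f := rfl
@[simp] theorem coeff_nsmul (w : List Y) (n : ℕ) (f : NCSeries Y A) :
    coeff w (n • f) = n • coeff w f := rfl
@[simp] theorem coeff_zsmul (w : List Y) (n : ℤ) (f : NCSeries Y A) :
    coeff w (n • f) = n • coeff w f := rfl

@[simp] theorem dl_zero (a : Y) : dl a (0 : NCSeries Y A) = 0 := rfl
@[simp] theorem dl_add (a : Y) (f g : NCSeries Y A) : dl a (f + g) = dl a f + dl a g := rfl
@[simp] theorem dl_sub (a : Y) (f g : NCSeries Y A) : dl a (f - g) = dl a f - dl a g := rfl
@[simp] theorem dl_neg (a : Y) (f : NCSeries Y A) : dl a (-f) = -dl a f := rfl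

/-- The additive map `coeff w`. -/
def coeffHom (w : List Y) : NCSeries Y A →+ A where
  toFun := coeff w
  map_zero' := rfl
  map_add' _ _ := rfl

@[simp] theorem coeff_sum {ι : Type*} (s : Finset ι) (F : ι → NCSeries Y A) (w : List Y) :
    coeff w (∑ i ∈ s, F i) = ∑ i ∈ s, coeff w (F i) :=
  map_sum (coeffHom w) F s

end Add

section Mul

variable [Ring A]

/-- Left multiplication of a series by a coefficient. -/
def smulL (c : A) (f : NCSeries Y A) : NCSeries Y A := fun w => c * f w

/-- The product. -/
def mulAux (g : NCSeries Y A) : List Y → NCSeries Y A → A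
  | [], f => f [] * g []
  | a :: w, f => f [] * g (a :: w) + mulAux g w (dl a f)

instance : Mul (NCSeries Y A) := ⟨fun f g w => mulAux g w f⟩

theorem coeff_mul_nil (f g : NCSeries Y A) : coeff [] (f * g) = coeff [] f * coeff [] g := rfl

theorem coeff_mul_cons (a : Y) (w : List Y) (f g : NCSeries Y A) :
    coeff (a :: w) (f * g) = coeff [] f * coeff (a :: w) g + coeff w (dl a f * g) := rfl

theorem dl_mul (a : Y) (f g : NCSeries Y A) :
    dl a (f * g) = smulL (coeff [] f) (dl a g) + dl a f * g := rfl

@[simp] theorem coeff_smulL (c : A) (f : NCSeries Y A) (w : List Y) :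
    coeff w (smulL c f) = c * coeff w f := rfl

theorem smulL_add (c : A) (f g : NCSeries Y A) : smulL c (f + g) = smulL c f + smulL c g := by
  ext w; simp [mul_add]

theorem add_smulL (c d : A) (f : NCSeries Y A) : smulL (c + d) f = smulL c f + smulL d f := by
  ext w; simp [add_mul]

theorem smulL_smulL (c d : A) (f : NCSeries Y A) : smulL c (smulL d f) = smulL (c * d) f := by
  ext w; simp [mul_assoc]

protected theorem add_mul' (f g h : NCSeries Y A) : (f + g) * h = f * h + g * h := by
  ext w
  induction w generalizing f g with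
  | nil => simp [coeff_mul_nil, add_mul]
  | cons a w ih =>
    simp only [coeff_mul_cons, coeff_add, add_mul, dl_add]
    rw [ih, coeff_add]
    abel

protected theorem mul_add' (f g h : NCSeries Y A) : f * (g + h) = f * g + f * h := by
  ext w
  induction w generalizing f with
  | nil => simp [coeff_mul_nil, mul_add]
  | cons a w ih =>
    simp only [coeff_mul_cons, coeff_add, mul_add]
    rw [ih, coeff_add]
    abel

protected theorem zero_mul' (f : NCSeries Y A) : (0 : NCSeries Y A) * f = 0 := by
  ext w
  induction w with
  | nil => simp [coeff_mul_nil]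
  | cons a w ih => simp [coeff_mul_cons, ih]

protected theorem mul_zero' (f : NCSeries Y A) : f * (0 : NCSeries Y A) = 0 := by
  ext w
  induction w generalizing f with
  | nil => simp [coeff_mul_nil]
  | cons a w ih => simp [coeff_mul_cons, ih]

theorem smulL_mul (c : A) (f g : NCSeries Y A) : smulL c f * g = smulL c (f * g) := by
  ext w
  induction w generalizing f with
  | nil => simp [coeff_mul_nil, mul_assoc]
  | cons a w ih =>
    have : dl a (smulL c f) = smulL c (dl a f) := rfl
    simp only [coeff_mul_cons, coeff_smulL, this, ih, mul_add, mul_assoc]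

protected theorem mul_assoc' (f g h : NCSeries Y A) : f * g * h = f * (g * h) := by
  ext w
  induction w generalizing f g with
  | nil => simp [coeff_mul_nil, mul_assoc]
  | cons a w ih =>
    rw [coeff_mul_cons, coeff_mul_cons, dl_mul, NCSeries.add_mul', smulL_mul, coeff_add,
      coeff_smulL, ih, coeff_mul_nil, coeff_mul_cons]
    simp only [mul_add, mul_assoc, add_assoc]

/-- The constant series. -/
def C (c : A) : NCSeries Y A
  | [] => c
  | _ :: _ => 0

@[simp] theorem coeff_C_nil (c : A) : coeff [] (C c : NCSeries Y A) = c := rfl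
@[simp] theorem coeff_C_cons (c : A) (a : Y) (w : List Y) :
    coeff (a :: w) (C c : NCSeries Y A) = 0 := rfl
@[simp] theorem dl_C (a : Y) (c : A) : dl a (C c : NCSeries Y A) = 0 := rfl

instance : One (NCSeries Y A) := ⟨C 1⟩

@[simp] theorem coeff_one_nil : coeff [] (1 : NCSeries Y A) = 1 := rfl
@[simp] theorem coeff_one_cons (a : Y) (w : List Y) : coeff (a :: w) (1 : NCSeries Y A) = 0 := rfl
@[simp] theorem dl_one (a : Y) : dl a (1 : NCSeries Y A) = 0 := rfl

protected theorem one_mul' (f : NCSeries Y A) : (1 : NCSeries Y A) * f = f := by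
  ext w
  cases w with
  | nil => simp [coeff_mul_nil]
  | cons a w => simp [coeff_mul_cons, NCSeries.zero_mul']

theorem mul_C (f : NCSeries Y A) (c : A) (w : List Y) :
    coeff w (f * C c) = coeff w f * c := by
  induction w generalizing f with
  | nil => simp [coeff_mul_nil]
  | cons a w ih => simp [coeff_mul_cons, ih]

protected theorem mul_one' (f : NCSeries Y A) : f * (1 : NCSeries Y A) = f := by
  ext w
  exact (mul_C f 1 w).trans (mul_one _)

instance : Ring (NCSeries Y A) :=
  { (inferInstance : AddCommGroup (NCSeries Y A)) with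
    mul := (· * ·)
    one := 1
    left_distrib := NCSeries.mul_add'
    right_distrib := NCSeries.add_mul'
    zero_mul := NCSeries.zero_mul'
    mul_zero := NCSeries.mul_zero'
    mul_assoc := NCSeries.mul_assoc'
    one_mul := NCSeries.one_mul'
    mul_one := NCSeries.mul_one' }

end Mul

section RingAPI

variable [Ring A]

@[simp] theorem C_zero : (C (0 : A) : NCSeries Y A) = 0 := by
  ext w; cases w <;> rfl

@[simp] theorem C_one : (C (1 : A) : NCSeries Y A) = 1 := rfl

theorem C_add (a b : A) : (C (a + b) : NCSeries Y A) = C a + C b := by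
  ext w; cases w <;> simp

theorem C_mul_coeff (a : A) (f : NCSeries Y A) (w : List Y) :
    coeff w (C a * f) = a * coeff w f := by
  cases w with
  | nil => rfl
  | cons b w =>
    show a * coeff (b :: w) f + coeff w (dl b (C a) * f) = _
    simp [dl_C, zero_mul]

theorem coeff_mul_C (f : NCSeries Y A) (c : A) (w : List Y) :
    coeff w (f * C c) = coeff w f * c := mul_C f c w

theorem C_mul (a b : A) : (C (a * b) : NCSeries Y A) = C a * C b := by
  ext w
  rw [C_mul_coeff]
  cases w <;> simp

/-- The constant embedding as a ring hom. -/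
def CHom : A →+* NCSeries Y A where
  toFun := C
  map_one' := C_one
  map_mul' := C_mul
  map_zero' := C_zero
  map_add' := C_add

@[simp] theorem CHom_apply (a : A) : (CHom a : NCSeries Y A) = C a := rfl

/-- The constant-term ring hom. -/
def constHom : NCSeries Y A →+* A where
  toFun := coeff []
  map_one' := rfl
  map_mul' := coeff_mul_nil
  map_zero' := rfl
  map_add' _ _ := rfl

@[simp] theorem constHom_apply (f : NCSeries Y A) : constHom f = coeff [] f := rfl

theorem coeff_natCast_nil (n : ℕ) : coeff [] (n : NCSeries Y A) = n :=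
  map_natCast (constHom (Y := Y) (A := A)) n

open Classical in
/-- The variable `y`. -/
noncomputable def X (y : Y) : NCSeries Y A := fun w => if w = [y] then 1 else 0

open Classical in
theorem coeff_X (y : Y) (w : List Y) :
    coeff w (X y : NCSeries Y A) = if w = [y] then 1 else 0 := rfl

@[simp] theorem coeff_X_nil (y : Y) : coeff [] (X y : NCSeries Y A) = 0 := by
  simp [coeff_X]

@[simp] theorem coeff_X_self (y : Y) : coeff [y] (X y : NCSeries Y A) = 1 := by
  simp [coeff_X]

open Classical in
theorem dl_X (a y : Y) : dl a (X y : NCSeries Y A) = if a = y then 1 else 0 := by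
  ext w
  rw [coeff_dl, coeff_X]
  by_cases h : a = y
  · subst h
    cases w with
    | nil => simp
    | cons b w => simp
  · simp [h]

/-- Product with a variable on the left. -/
theorem coeff_X_mul_nil (y : Y) (f : NCSeries Y A) : coeff [] (X y * f) = 0 := by
  simp [coeff_mul_nil]

open Classical in
theorem coeff_X_mul_cons (y a : Y) (w : List Y) (f : NCSeries Y A) :
    coeff (a :: w) (X y * f) = if a = y then coeff w f else 0 := by
  rw [coeff_mul_cons, dl_X]
  split_ifs with h <;> simp

/-- The coefficient of a product as a sum over the splittings of the word. -/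
theorem coeff_mul (w : List Y) (f g : NCSeries Y A) :
    coeff w (f * g) = ∑ i ∈ Finset.range (w.length + 1),
      coeff (w.take i) f * coeff (w.drop i) g := by
  induction w generalizing f with
  | nil => simp [coeff_mul_nil]
  | cons a w ih =>
    rw [coeff_mul_cons, ih, List.length_cons, Finset.sum_range_succ' _ (w.length + 1)]
    simp only [List.take_succ_cons, List.drop_succ_cons, List.take_zero, List.drop_zero, coeff_dl]
    rw [add_comm]

theorem C_comm_X (a : A) (y : Y) : (C a : NCSeries Y A) * X y = X y * C a := by
  ext w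
  rw [C_mul_coeff, coeff_mul_C, coeff_X]
  split_ifs <;> simp

/-- Additive subgroup of series of order at least `n`. -/
def ordGE (Y A) [Ring A] (n : ℕ) : AddSubgroup (NCSeries Y A) where
  carrier := {f | ∀ w : List Y, w.length < n → coeff w f = 0}
  zero_mem' := fun _ _ => rfl
  add_mem' := fun {f g} hf hg w hw => by simp [hf w hw, hg w hw]
  neg_mem' := fun {f} hf w hw => by simp [hf w hw]

theorem mem_ordGE {n : ℕ} {f : NCSeries Y A} :
    f ∈ ordGE Y A n ↔ ∀ w : List Y, w.length < n → coeff w f = 0 := Iff.rfl

theorem mul_mem_ordGE {a b : ℕ} {f g : NCSeries Y A} (hf : f ∈ ordGE Y A a)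
    (hg : g ∈ ordGE Y A b) : f * g ∈ ordGE Y A (a + b) := by
  intro w hw
  rw [coeff_mul]
  refine Finset.sum_eq_zero fun i hi => ?_
  have hi' : i ≤ w.length := Nat.lt_succ_iff.mp (Finset.mem_range.mp hi)
  by_cases h : i < a
  · rw [hf (w.take i) (by simp; omega), zero_mul]
  · rw [hg (w.drop i) (by simp; omega), mul_zero]

theorem ordGE_mono {a b : ℕ} (h : a ≤ b) : ordGE Y A b ≤ ordGE Y A a :=
  fun _ hf w hw => hf w (lt_of_lt_of_le hw h)

theorem X_mem_ordGE (y : Y) : (X y : NCSeries Y A) ∈ ordGE Y A 1 := by
  intro w hw
  have : w = [] := List.length_eq_zero_iff.mp (by omega)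
  subst this
  simp

/-- Order-bounded series form a two-sided ideal: left multiplication. -/
theorem mul_mem_ordGE_right {n : ℕ} (f : NCSeries Y A) {g : NCSeries Y A}
    (hg : g ∈ ordGE Y A n) : f * g ∈ ordGE Y A n := by
  simpa using mul_mem_ordGE (a := 0) (f := f) (fun w hw => absurd hw (Nat.not_lt_zero _)) hg

theorem mul_mem_ordGE_left {n : ℕ} {f : NCSeries Y A} (hf : f ∈ ordGE Y A n)
    (g : NCSeries Y A) : f * g ∈ ordGE Y A n := by
  simpa using mul_mem_ordGE (b := 0) (g := g) hf (fun w hw => absurd hw (Nat.not_lt_zero _))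

theorem pow_mem_ordGE {f : NCSeries Y A} (hf : f ∈ ordGE Y A 1) (k : ℕ) :
    f ^ k ∈ ordGE Y A k := by
  induction k with
  | zero => simp [ordGE]
  | succ k ih =>
    rw [pow_succ]
    exact mul_mem_ordGE ih hf

/-- A series with all coefficients zero below every order is zero. -/
theorem eq_zero_of_forall_ordGE {f : NCSeries Y A} (h : ∀ n, f ∈ ordGE Y A n) : f = 0 := by
  ext w
  exact h (w.length + 1) w (Nat.lt_succ_self _)

/-- Geometric series of a series with zero constant term. -/
def star (n : NCSeries Y A) : NCSeries Y A :=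
  fun w => ∑ k ∈ Finset.range (w.length + 1), coeff w (n ^ k)

theorem coeff_star_of_le {n : NCSeries Y A} (hn : n ∈ ordGE Y A 1) (w : List Y) {K : ℕ}
    (hK : w.length + 1 ≤ K) : coeff w (star n) = ∑ k ∈ Finset.range K, coeff w (n ^ k) := by
  show ∑ k ∈ Finset.range (w.length + 1), coeff w (n ^ k) = _
  refine Finset.sum_subset (Finset.range_subset_range.mpr hK) fun k _ hk => ?_
  have : w.length < k := by
    have := Finset.mem_range.not.mp hk
    omega
  exact pow_mem_ordGE hn k w this

theorem one_sub_mul_star {n : NCSeries Y A} (hn : n ∈ ordGE Y A 1) :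
    (1 - n) * star n = 1 := by
  have hK : ∀ K : ℕ, (1 - n) * (∑ k ∈ Finset.range K, n ^ k) = 1 - n ^ K := by
    intro K
    induction K with
    | zero => simp
    | succ K ih =>
      rw [Finset.sum_range_succ, mul_add, ih, pow_succ']
      noncomm_ring
  ext w
  set K := w.length + 1 with hKdef
  have hstar : ∀ v : List Y, v.length ≤ w.length →
      coeff v (star n) = coeff v (∑ k ∈ Finset.range K, n ^ k) := by
    intro v hv
    rw [coeff_star_of_le hn v (K := K) (by omega), coeff_sum]
  have h1 : coeff w ((1 - n) * star n) = coeff w ((1 - n) * ∑ k ∈ Finset.range K, n ^ k) := by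
    rw [coeff_mul, coeff_mul]
    refine Finset.sum_congr rfl fun i _ => ?_
    rw [hstar (w.drop i) (by simp)]
  rw [h1, hK K, coeff_sub, pow_mem_ordGE hn K w (by omega), sub_zero]

theorem star_mul_one_sub {n : NCSeries Y A} (hn : n ∈ ordGE Y A 1) :
    star n * (1 - n) = 1 := by
  have hK : ∀ K : ℕ, (∑ k ∈ Finset.range K, n ^ k) * (1 - n) = 1 - n ^ K := by
    intro K
    induction K with
    | zero => simp
    | succ K ih =>
      rw [Finset.sum_range_succ, add_mul, ih, pow_succ]
      noncomm_ring
  ext w
  set K := w.length + 1 with hKdef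
  have hstar : ∀ v : List Y, v.length ≤ w.length →
      coeff v (star n) = coeff v (∑ k ∈ Finset.range K, n ^ k) := by
    intro v hv
    rw [coeff_star_of_le hn v (K := K) (by omega), coeff_sum]
  have h1 : coeff w (star n * (1 - n)) = coeff w ((∑ k ∈ Finset.range K, n ^ k) * (1 - n)) := by
    rw [coeff_mul, coeff_mul]
    refine Finset.sum_congr rfl fun i _ => ?_
    have : i ≤ w.length := Nat.lt_succ_iff.mp (Finset.mem_range.mp ‹_›)
    rw [hstar (w.take i) (by simp)]
  rw [h1, hK K, coeff_sub, pow_mem_ordGE hn K w (by omega), sub_zero]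

/-- A series whose constant term is a unit is a unit. -/
theorem isUnit_of_isUnit_coeff_nil {f : NCSeries Y A} (hf : IsUnit (coeff [] f)) : IsUnit f := by
  obtain ⟨c, hc⟩ := hf
  -- `f = C c * (1 - n)`, with `n` of order at least one
  let n : NCSeries Y A := 1 - C (↑c⁻¹ : A) * f
  have hn : n ∈ ordGE Y A 1 := by
    intro w hw
    have : w = [] := List.length_eq_zero_iff.mp (by omega)
    subst this
    show coeff [] (1 - C (↑c⁻¹ : A) * f) = 0
    rw [coeff_sub, C_mul_coeff, ← hc]
    simp
  have hfeq : f = C (c : A) * (1 - n) := by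
    have : (1 - n) = C (↑c⁻¹ : A) * f := by simp [n]
    rw [this, ← mul_assoc, ← C_mul]
    simp
  have hu : IsUnit (1 - n) :=
    ⟨⟨1 - n, star n, one_sub_mul_star hn, star_mul_one_sub hn⟩, rfl⟩
  have hC : IsUnit (C (c : A) : NCSeries Y A) :=
    (c.isUnit).map (CHom (Y := Y) (A := A))
  rw [hfeq]
  exact hC.mul hu

theorem isUnit_iff {f : NCSeries Y A} : IsUnit f ↔ IsUnit (coeff [] f) :=
  ⟨fun h => h.map (constHom (Y := Y) (A := A)), isUnit_of_isUnit_coeff_nil⟩

section Domain

theorem exists_min_word {f : NCSeries Y A} (hf : f ≠ 0) :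
    ∃ w, coeff w f ≠ 0 ∧ ∀ v : List Y, v.length < w.length → coeff v f = 0 := by
  classical
  have h : ∃ n, ∃ w : List Y, w.length = n ∧ coeff w f ≠ 0 := by
    by_contra hne
    push Not at hne
    exact hf (by ext w; simpa using hne w.length w rfl)
  refine ⟨(Nat.find_spec h).choose, (Nat.find_spec h).choose_spec.2, fun v hv => ?_⟩
  rw [(Nat.find_spec h).choose_spec.1] at hv
  by_contra hne
  exact Nat.find_min h hv ⟨v, rfl, hne⟩

instance [NoZeroDivisors A] : NoZeroDivisors (NCSeries Y A) := by
  refine ⟨fun {f g} hfg => ?_⟩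
  by_contra hne
  push Not at hne
  obtain ⟨hf, hg⟩ := hne
  obtain ⟨u, hu, humin⟩ := exists_min_word hf
  obtain ⟨v, hv, hvmin⟩ := exists_min_word hg
  have hcoeff : coeff (u ++ v) (f * g) = coeff u f * coeff v g := by
    rw [coeff_mul]
    have h2 := Finset.sum_eq_single (s := Finset.range ((u ++ v).length + 1))
      (f := fun i => coeff ((u ++ v).take i) f * coeff ((u ++ v).drop i) g) u.length ?_ ?_
    · rw [h2]
      simp
    · intro i hi hne
      have hi' : i ≤ (u ++ v).length := Nat.lt_succ_iff.mp (Finset.mem_range.mp hi)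
      rcases lt_or_gt_of_ne hne with h | h
      · show coeff _ f * _ = 0
        rw [humin _ (by simp; omega), zero_mul]
      · show _ * coeff _ g = 0
        rw [hvmin _ (by simp at hi' ⊢; omega), mul_zero]
    · intro h
      exact absurd (Finset.mem_range.mpr (by simp)) h
  rw [hfg] at hcoeff
  exact (mul_ne_zero hu hv) hcoeff.symm

end Domain

instance [NoZeroDivisors A] [Nontrivial A] : IsDomain (NCSeries Y A) :=
  have : Nontrivial (NCSeries Y A) := ⟨⟨1, 0, fun h => by
    have := congrArg (coeff []) h
    simp at this⟩⟩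
  NoZeroDivisors.to_isDomain _

/-- Functoriality in the coefficient ring. -/
def map {B : Type*} [Ring B] (κ : A →+* B) : NCSeries Y A →+* NCSeries Y B where
  toFun f := fun w => κ (f w)
  map_one' := by
    ext w
    cases w with
    | nil => exact map_one κ
    | cons a w => exact map_zero κ
  map_zero' := by
    ext w
    exact map_zero κ
  map_add' f g := by
    ext w
    exact map_add κ _ _
  map_mul' f g := by
    ext w
    show κ (coeff w (f * g)) = coeff w (_ * _)
    rw [coeff_mul, coeff_mul, map_sum]
    refine Finset.sum_congr rfl fun i _ => ?_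
    exact map_mul κ _ _

@[simp] theorem coeff_map {B : Type*} [Ring B] (κ : A →+* B) (f : NCSeries Y A) (w : List Y) :
    coeff w (map κ f) = κ (coeff w f) := rfl

end RingAPI

section Algebra

variable {k : Type*} [CommRing k] [Ring A] [Algebra k A]

instance : Module k (NCSeries Y A) := inferInstanceAs (Module k (List Y → A))

@[simp] theorem coeff_smul (r : k) (f : NCSeries Y A) (w : List Y) :
    coeff w (r • f) = r • coeff w f := rfl

instance : Algebra k (NCSeries Y A) :=
  Algebra.ofModule
    (fun r x y => by
      ext w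
      rw [coeff_smul, coeff_mul, coeff_mul, Finset.smul_sum]
      refine Finset.sum_congr rfl fun i _ => ?_
      rw [coeff_smul, smul_mul_assoc])
    (fun r x y => by
      ext w
      rw [coeff_smul, coeff_mul, coeff_mul, Finset.smul_sum]
      refine Finset.sum_congr rfl fun i _ => ?_
      rw [coeff_smul, mul_smul_comm])

theorem algebraMap_eq (r : k) : algebraMap k (NCSeries Y A) r = C (algebraMap k A r) := by
  ext w
  rw [Algebra.algebraMap_eq_smul_one, coeff_smul]
  cases w with
  | nil => simp [Algebra.algebraMap_eq_smul_one]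
  | cons a w => simp

end Algebra

end NCSeries

/-- Alternative argument order, as in the blueprint. -/
abbrev NCS (R : Type v) (Y : Type u) : Type (max u v) := NCSeries Y R

end Crest.Agent.Lib.Kurosh
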