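import Mathlib
import Crest.Agent.Lib.Kurosh.NCSeries

/-!
# Complete filtrations and substitution into noncommutative power series

`Filt T`: a separated complete multiplicative filtration `I 0 = ⊤ ≥ I 1 ≥ ...` of a ring `T`.
`NCSeries.subst`: for `Y` finite, `κ : A →+* T`, `φ : Y → T` with `φ y ∈ I 1` and `κ a` commuting with
`φ y`, the unique ring hom `NCSeries Y A →+* T` with `C a ↦ κ a`, `X y ↦ φ y`.
`Filt.ncs F`: the induced filtration of `NCSeries Y' B` (`f ∈ I n` iff `coeff w f ∈ F.I (n - |w|)`).
-/

set_option autoImplicit false

namespace Crest.Agent.Lib.Kurosh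

universe u v w

/-- A complete separated multiplicative filtration of a ring. -/
structure Filt (T : Type w) [Ring T] where
  I : ℕ → AddSubgroup T
  I_zero : I 0 = ⊤
  mono : ∀ n, I (n + 1) ≤ I n
  mul_mem : ∀ {a b : ℕ} {x y : T}, x ∈ I a → y ∈ I b → x * y ∈ I (a + b)
  sep : ∀ x : T, (∀ n, x ∈ I n) → x = 0
  complete : ∀ s : ℕ → T, (∀ n, s (n + 1) - s n ∈ I n) → ∃ l, ∀ n, l - s n ∈ I n

namespace Filt

variable {T : Type w} [Ring T] (F : Filt T)

theorem mem_zero (x : T) : x ∈ F.I 0 := by
  rw [F.I_zero]; trivial

theorem anti {a b : ℕ} (h : a ≤ b) : F.I b ≤ F.I a := by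
  induction h with
  | refl => exact le_rfl
  | step _ ih => exact (F.mono _).trans ih

theorem mul_mem_left (a : T) {n : ℕ} {x : T} (hx : x ∈ F.I n) : a * x ∈ F.I n := by
  simpa using F.mul_mem (F.mem_zero a) hx

theorem mul_mem_right {n : ℕ} {x : T} (hx : x ∈ F.I n) (a : T) : x * a ∈ F.I n := by
  simpa using F.mul_mem hx (F.mem_zero a)

theorem eq_of_sub_mem {x y : T} (h : ∀ n, x - y ∈ F.I n) : x = y :=
  sub_eq_zero.mp (F.sep _ h)

/-- The discrete filtration. -/
def discrete (T : Type w) [Ring T] : Filt T where
  I n := match n with
    | 0 => ⊤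
    | _ + 1 => ⊥
  I_zero := rfl
  mono n := by
    cases n with
    | zero => exact le_top
    | succ n => exact le_rfl
  mul_mem := by
    intro a b x y hx hy
    cases a with
    | zero =>
      cases b with
      | zero => trivial
      | succ b =>
        have hy0 : y = 0 := (AddSubgroup.mem_bot).mp hy
        subst hy0
        simp only [mul_zero]
        exact AddSubgroup.zero_mem _
    | succ a =>
      have hx0 : x = 0 := (AddSubgroup.mem_bot).mp hx
      subst hx0
      simp only [zero_mul]
      exact AddSubgroup.zero_mem _
  sep x hx := (AddSubgroup.mem_bot).mp (hx 1)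
  complete s hs := by
    refine ⟨s 1, fun n => ?_⟩
    have hconst : ∀ n, s (n + 1) = s 1 := by
      intro n
      induction n with
      | zero => rfl
      | succ n ih =>
        have := (AddSubgroup.mem_bot).mp (hs (n + 1))
        rw [sub_eq_zero] at this
        rw [this, ih]
    cases n with
    | zero => trivial
    | succ n =>
      rw [hconst n, sub_self]
      exact AddSubgroup.zero_mem _

end Filt

namespace NCSeries

variable {Y : Type u} {A : Type v} [Ring A] {T : Type w} [Ring T]

/-- Decomposition by the first letter. -/
theorem eq_C_add_sum [Fintype Y] (f : NCSeries Y A) :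
    f = C (coeff [] f) + ∑ y, X y * dl y f := by
  classical
  ext w
  cases w with
  | nil =>
    simp only [coeff_add, coeff_C_nil, coeff_sum, coeff_X_mul_nil, Finset.sum_const_zero, add_zero]
  | cons a w =>
    simp only [coeff_add, coeff_C_cons, zero_add, coeff_sum, coeff_X_mul_cons, coeff_dl]
    rw [Finset.sum_eq_single a] <;> simp +contextual [eq_comm]

variable [Fintype Y] (F : Filt T) (κ : A →+* T) (φ : Y → T)

/-- Finite-level approximation of the substitution. -/
def approx : ℕ → NCSeries Y A → T
  | 0, f => κ (coeff [] f)
  | n + 1, f => κ (coeff [] f) + ∑ y, φ y * approx n (dl y f)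

theorem approx_zero (f : NCSeries Y A) : approx κ φ 0 f = κ (coeff [] f) := rfl

theorem approx_succ (n : ℕ) (f : NCSeries Y A) :
    approx κ φ (n + 1) f = κ (coeff [] f) + ∑ y, φ y * approx κ φ n (dl y f) := rfl

theorem approx_add (n : ℕ) (f g : NCSeries Y A) :
    approx κ φ n (f + g) = approx κ φ n f + approx κ φ n g := by
  induction n generalizing f g with
  | zero => simp [approx_zero]
  | succ n ih =>
    simp only [approx_succ, coeff_add, map_add, dl_add, ih, mul_add, Finset.sum_add_distrib]
    abel

theorem approx_zero' (n : ℕ) : approx κ φ n (0 : NCSeries Y A) = 0 := by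
  have := approx_add κ φ n (0 : NCSeries Y A) 0
  simpa using this

variable {κ φ}

/-- Standing hypotheses on the substitution data. -/
structure SubstData (F : Filt T) (κ : A →+* T) (φ : Y → T) : Prop where
  mem : ∀ y, φ y ∈ F.I 1
  comm : ∀ a y, κ a * φ y = φ y * κ a

variable {F}

theorem approx_succ_sub (h : SubstData F κ φ) (n : ℕ) (f : NCSeries Y A) :
    approx κ φ (n + 1) f - approx κ φ n f ∈ F.I (n + 1) := by
  induction n generalizing f with
  | zero =>
    simp only [approx_succ, approx_zero, add_sub_cancel_left]
    exact AddSubgroup.sum_mem _ fun y _ => F.mul_mem_right (h.mem y) _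
  | succ n ih =>
    have : approx κ φ (n + 1 + 1) f - approx κ φ (n + 1) f =
        ∑ y, φ y * (approx κ φ (n + 1) (dl y f) - approx κ φ n (dl y f)) := by
      simp only [approx_succ κ φ (n + 1), approx_succ κ φ n, mul_sub, Finset.sum_sub_distrib]
      abel
    rw [this]
    refine AddSubgroup.sum_mem _ fun y _ => ?_
    have := F.mul_mem (h.mem y) (ih (dl y f))
    rwa [show 1 + (n + 1) = n + 1 + 1 by omega] at this

/-- The substitution (as a function). -/
noncomputable def substFun (h : SubstData F κ φ) (f : NCSeries Y A) : T :=
  (F.complete (fun n => approx κ φ n f)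
    (fun n => F.mono n (approx_succ_sub h n f))).choose

theorem substFun_sub_approx (h : SubstData F κ φ) (f : NCSeries Y A) (n : ℕ) :
    substFun h f - approx κ φ n f ∈ F.I (n + 1) := by
  have hl := (F.complete (fun n => approx κ φ n f)
    (fun n => F.mono n (approx_succ_sub h n f))).choose_spec (n + 1)
  have h2 := approx_succ_sub h n f
  have : substFun h f - approx κ φ n f =
      (substFun h f - approx κ φ (n + 1) f) + (approx κ φ (n + 1) f - approx κ φ n f) := by abel
  rw [this]
  exact add_mem hl h2

theorem approx_C_mul (h : SubstData F κ φ) (n : ℕ) (c : A) (f : NCSeries Y A) :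
    approx κ φ n (C c * f) = κ c * approx κ φ n f := by
  induction n generalizing f with
  | zero => simp [approx_zero, C_mul_coeff]
  | succ n ih =>
    have hd : ∀ y, dl y (C c * f) = C c * dl y f := by
      intro y
      ext w
      simp [C_mul_coeff]
    simp only [approx_succ, C_mul_coeff, map_mul, hd, ih, mul_add, Finset.mul_sum]
    congr 1
    refine Finset.sum_congr rfl fun y _ => ?_
    rw [← mul_assoc, ← mul_assoc, h.comm]

theorem approx_mul_sub (h : SubstData F κ φ) (n : ℕ) (f g : NCSeries Y A) :
    approx κ φ n (f * g) - approx κ φ n f * approx κ φ n g ∈ F.I (n + 1) := by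
  induction n generalizing f g with
  | zero =>
    simp only [approx_zero, coeff_mul_nil, map_mul, sub_self]
    exact AddSubgroup.zero_mem _
  | succ n ih =>
    have hd : ∀ y, dl y (f * g) = C (coeff [] f) * dl y g + dl y f * g := by
      intro y
      ext w
      rw [dl_mul]
      simp [C_mul_coeff]
    have key : approx κ φ (n + 1) (f * g) - approx κ φ (n + 1) f * approx κ φ (n + 1) g =
        ∑ y, φ y * (approx κ φ n (dl y f * g) - approx κ φ n (dl y f) * approx κ φ (n + 1) g) := by
      have h1 : approx κ φ (n + 1) (f * g) = κ (coeff [] f) * approx κ φ (n + 1) g +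
          ∑ y, φ y * approx κ φ n (dl y f * g) := by
        simp only [approx_succ, hd, approx_add, approx_C_mul h, coeff_mul_nil, map_mul, mul_add,
          Finset.sum_add_distrib, Finset.mul_sum, add_assoc]
        congr 2
        refine Finset.sum_congr rfl fun y _ => ?_
        rw [← mul_assoc, ← mul_assoc, h.comm]
      have h2 : approx κ φ (n + 1) f * approx κ φ (n + 1) g =
          κ (coeff [] f) * approx κ φ (n + 1) g +
          ∑ y, φ y * (approx κ φ n (dl y f) * approx κ φ (n + 1) g) := by
        rw [approx_succ κ φ n f, add_mul, Finset.sum_mul]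
        congr 1
        refine Finset.sum_congr rfl fun y _ => ?_
        rw [mul_assoc]
      rw [h1, h2]
      simp only [mul_sub, Finset.sum_sub_distrib]
      abel
    rw [key]
    refine AddSubgroup.sum_mem _ fun y _ => ?_
    have h3 : approx κ φ n (dl y f * g) - approx κ φ n (dl y f) * approx κ φ (n + 1) g ∈
        F.I (n + 1) := by
      have e : approx κ φ n (dl y f * g) - approx κ φ n (dl y f) * approx κ φ (n + 1) g =
          (approx κ φ n (dl y f * g) - approx κ φ n (dl y f) * approx κ φ n g) -
            approx κ φ n (dl y f) * (approx κ φ (n + 1) g - approx κ φ n g) := by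
        noncomm_ring
      rw [e]
      exact sub_mem (ih _ _) (F.mul_mem_left _ (approx_succ_sub h n g))
    have := F.mul_mem (h.mem y) h3
    rwa [show 1 + (n + 1) = n + 1 + 1 by omega] at this

theorem substFun_add (h : SubstData F κ φ) (f g : NCSeries Y A) :
    substFun h (f + g) = substFun h f + substFun h g := by
  refine F.eq_of_sub_mem fun n => F.anti (Nat.le_succ n) ?_
  have e : substFun h (f + g) - (substFun h f + substFun h g) =
      (substFun h (f + g) - approx κ φ n (f + g)) - (substFun h f - approx κ φ n f) -
        (substFun h g - approx κ φ n g) := by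
    rw [approx_add]; abel
  rw [e]
  exact sub_mem (sub_mem (substFun_sub_approx h _ n) (substFun_sub_approx h _ n))
    (substFun_sub_approx h _ n)

theorem substFun_mul (h : SubstData F κ φ) (f g : NCSeries Y A) :
    substFun h (f * g) = substFun h f * substFun h g := by
  refine F.eq_of_sub_mem fun n => F.anti (Nat.le_succ n) ?_
  set a := substFun h f
  set b := substFun h g
  set af := approx κ φ n f
  set ag := approx κ φ n g
  have e : substFun h (f * g) - a * b =
      (substFun h (f * g) - approx κ φ n (f * g)) + (approx κ φ n (f * g) - af * ag) -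
        (a - af) * b - af * (b - ag) := by
    noncomm_ring
  rw [e]
  exact sub_mem (sub_mem (add_mem (substFun_sub_approx h _ n) (approx_mul_sub h n f g))
    (F.mul_mem_right (substFun_sub_approx h _ n) _))
    (F.mul_mem_left _ (substFun_sub_approx h _ n))

theorem substFun_of_approx_const (h : SubstData F κ φ) (a : A) :
    substFun h (C a : NCSeries Y A) = κ a := by
  refine F.eq_of_sub_mem fun n => F.anti (Nat.le_succ n) ?_
  have : approx κ φ n (C a : NCSeries Y A) = κ a := by
    cases n with
    | zero => rfl
    | succ n =>
      simp [approx_succ, approx_zero']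
  have h2 := substFun_sub_approx h (C a : NCSeries Y A) n
  rwa [this] at h2

/-- Substitution as a ring hom. -/
noncomputable def subst (h : SubstData F κ φ) : NCSeries Y A →+* T where
  toFun := substFun h
  map_one' := by
    have := substFun_of_approx_const h (1 : A)
    simpa using this
  map_mul' := substFun_mul h
  map_zero' := by
    have := substFun_of_approx_const h (0 : A)
    simpa using this
  map_add' := substFun_add h

@[simp] theorem subst_C (h : SubstData F κ φ) (a : A) :
    subst h (C a : NCSeries Y A) = κ a := substFun_of_approx_const h a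

theorem subst_eq (h : SubstData F κ φ) (f : NCSeries Y A) :
    subst h f = κ (coeff [] f) + ∑ y, φ y * subst h (dl y f) := by
  refine F.eq_of_sub_mem fun n => ?_
  cases n with
  | zero => exact F.mem_zero _
  | succ n =>
    have e : subst h f - (κ (coeff [] f) + ∑ y, φ y * subst h (dl y f)) =
        (subst h f - approx κ φ (n + 1) f) -
          ∑ y, φ y * (subst h (dl y f) - approx κ φ n (dl y f)) := by
      rw [approx_succ]
      simp only [mul_sub, Finset.sum_sub_distrib]
      abel
    rw [e]
    refine sub_mem (F.anti (by omega) (substFun_sub_approx h f (n + 1))) ?_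
    refine AddSubgroup.sum_mem _ fun y _ => ?_
    have := F.mul_mem (h.mem y) (substFun_sub_approx h (dl y f) n)
    exact F.anti (by omega) this

@[simp] theorem subst_X (h : SubstData F κ φ) (y : Y) :
    subst h (X y : NCSeries Y A) = φ y := by
  classical
  rw [subst_eq h, coeff_X_nil, map_zero, zero_add]
  rw [Finset.sum_eq_single y]
  · rw [dl_X, if_pos rfl, map_one, mul_one]
  · intro z _ hz
    rw [dl_X, if_neg hz, map_zero, mul_zero]
  · intro hy
    exact absurd (Finset.mem_univ y) hy

/-- Uniqueness: any ring hom with the right values on constants and variables is the substitution. -/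
theorem subst_unique (h : SubstData F κ φ) (ψ : NCSeries Y A →+* T)
    (h1 : ∀ a, ψ (C a) = κ a) (h2 : ∀ y, ψ (X y) = φ y) (f : NCSeries Y A) :
    ψ f = subst h f := by
  have hdec : ∀ g : NCSeries Y A, ψ g = κ (coeff [] g) + ∑ y, φ y * ψ (dl y g) := by
    intro g
    conv_lhs => rw [eq_C_add_sum g]
    rw [map_add, h1, map_sum]
    simp only [map_mul, h2]
  have hstep : ∀ n (g : NCSeries Y A), ψ g - approx κ φ n g ∈ F.I (n + 1) := by
    intro n
    induction n with
    | zero =>
      intro g
      rw [hdec g, approx_zero, add_sub_cancel_left]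
      exact AddSubgroup.sum_mem _ fun y _ => F.mul_mem_right (h.mem y) _
    | succ n ih =>
      intro g
      have e : ψ g - approx κ φ (n + 1) g = ∑ y, φ y * (ψ (dl y g) - approx κ φ n (dl y g)) := by
        rw [hdec g, approx_succ]
        simp only [mul_sub, Finset.sum_sub_distrib]
        abel
      rw [e]
      refine AddSubgroup.sum_mem _ fun y _ => ?_
      have := F.mul_mem (h.mem y) (ih (dl y g))
      rwa [show 1 + (n + 1) = n + 1 + 1 by omega] at this
  refine F.eq_of_sub_mem fun n => F.anti (Nat.le_succ n) ?_
  have e : ψ f - subst h f = (ψ f - approx κ φ n f) - (subst h f - approx κ φ n f) := by abel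
  rw [e]
  exact sub_mem (hstep n f) (substFun_sub_approx h f n)

/-- Two ring homs that agree on constants and on variables agree, when the common values are
substitution data. -/
theorem hom_ext (h : SubstData F κ φ) (ψ ψ' : NCSeries Y A →+* T)
    (h1 : ∀ a, ψ (C a) = κ a) (h2 : ∀ y, ψ (X y) = φ y)
    (h1' : ∀ a, ψ' (C a) = κ a) (h2' : ∀ y, ψ' (X y) = φ y) : ψ = ψ' := by
  ext f
  rw [subst_unique h ψ h1 h2 f, subst_unique h ψ' h1' h2' f]

end NCSeries

namespace Filt

open NCSeries

variable {B : Type w} [Ring B] (F : Filt B) (Y' : Type u)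

/-- The filtration on `NCSeries Y' B` induced by a filtration on `B`:
`f ∈ I n` iff the coefficient of each word `w` lies in `F.I (n - |w|)`. -/
def ncs : Filt (NCSeries Y' B) where
  I n :=
    { carrier := {f | ∀ w : List Y', coeff w f ∈ F.I (n - w.length)}
      zero_mem' := fun _ => AddSubgroup.zero_mem _
      add_mem' := fun hf hg w => add_mem (hf w) (hg w)
      neg_mem' := fun hf w => neg_mem (hf w) }
  I_zero := by
    ext f
    simp only [AddSubgroup.mem_top, iff_true]
    intro w
    simpa using F.mem_zero _
  mono n f hf w := F.anti (by omega) (hf w)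
  mul_mem := by
    intro a b x y hx hy w
    rw [coeff_mul]
    refine AddSubgroup.sum_mem _ fun i hi => ?_
    have hi' : i ≤ w.length := Nat.lt_succ_iff.mp (Finset.mem_range.mp hi)
    have := F.mul_mem (hx (w.take i)) (hy (w.drop i))
    refine F.anti ?_ this
    simp only [List.length_take, List.length_drop]
    omega
  sep f hf := by
    ext w
    refine F.sep _ fun n => ?_
    have := hf (n + w.length) w
    simpa using this
  complete s hs := by
    -- coefficientwise limits
    have hcoef : ∀ w : List Y', ∀ n, coeff w (s (n + 1 + w.length)) - coeff w (s (n + w.length)) ∈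
        F.I n := by
      intro w n
      have := hs (n + w.length) w
      have e : n + 1 + w.length = n + w.length + 1 := by omega
      rw [e]
      simpa using this
    choose l hl using fun w : List Y' => F.complete (fun n => coeff w (s (n + w.length))) (hcoef w)
    refine ⟨(l : List Y' → B), fun n w => ?_⟩
    by_cases h : w.length ≤ n
    · obtain ⟨k, rfl⟩ := Nat.exists_eq_add_of_le' h
      rw [Nat.add_sub_cancel]
      exact hl w k
    · have : n - w.length = 0 := by omega
      rw [this]
      exact F.mem_zero _

theorem mem_ncs_iff {n : ℕ} {f : NCSeries Y' B} :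
    f ∈ (F.ncs Y').I n ↔ ∀ w : List Y', coeff w f ∈ F.I (n - w.length) := Iff.rfl

/-- The order filtration of `NCSeries Y' B`. -/
abbrev ordFilt (B : Type w) [Ring B] (Y' : Type u) : Filt (NCSeries Y' B) := (Filt.discrete B).ncs Y'

theorem mem_ordFilt_iff {B : Type w} [Ring B] {Y' : Type u} {n : ℕ} {f : NCSeries Y' B} :
    f ∈ (ordFilt B Y').I n ↔ f ∈ ordGE Y' B n := by
  constructor
  · intro hf w hw
    have := hf w
    obtain ⟨k, hk⟩ : ∃ k, n - w.length = k + 1 := ⟨n - w.length - 1, by omega⟩
    rw [hk] at this
    exact (AddSubgroup.mem_bot).mp this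
  · intro hf w
    by_cases h : w.length < n
    · rw [hf w h]
      exact AddSubgroup.zero_mem _
    · have : n - w.length = 0 := by omega
      rw [this]
      trivial

end Filt

end Crest.Agent.Lib.Kurosh
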