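import Mathlib
import Crest.Agent.Lib.Kurosh.NCSubst

/-!
# Cyclic nullity ("Comm")

`cycSum c w = ∑_{i<|w|} c_{rot^i w}`, `CycNull c := ∀ w, cycSum c w = 0`.

* Comm3 (`cycNull_trace_commutator`): for `τ` a cyclic additive functional on `R`,
  the coefficientwise image under `τ` of `[S, T]`, `S T ∈ NCS(R, Y)`, is cyc-null.
* Comm2 (`cycNull_commutator`): commutators of series over a commutative ring are cyc-null.
* Comm1 (`exists_eq_sum_commutator`): a cyc-null series with zero constant term over a field of
  characteristic zero is `∑_y [y, A_y]`, with explicit `A_y`.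
* Hom images of cyc-null series (zero constant term) are cyc-null (`CycNull.map_hom`).
-/

set_option autoImplicit false

namespace Crest.Agent.Lib.Kurosh

universe u v w

namespace NCSeries

variable {Y : Type u} {A : Type v}

section Defs

variable [AddCommGroup A]

/-- Cyclic sum of the coefficients of the rotations of `w`. -/
def cycSum (c : NCSeries Y A) (w : List Y) : A :=
  ∑ i ∈ Finset.range w.length, coeff (w.rotate i) c

/-- `c` is cyc-null. -/
def CycNull (c : NCSeries Y A) : Prop := ∀ w, cycSum c w = 0

theorem cycSum_add (c d : NCSeries Y A) (w : List Y) :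
    cycSum (c + d) w = cycSum c w + cycSum d w := by
  simp [cycSum, Finset.sum_add_distrib]

theorem cycSum_sub (c d : NCSeries Y A) (w : List Y) :
    cycSum (c - d) w = cycSum c w - cycSum d w := by
  simp [cycSum, Finset.sum_sub_distrib]

theorem cycSum_neg (c : NCSeries Y A) (w : List Y) :
    cycSum (-c) w = - cycSum c w := by
  simp [cycSum]

theorem CycNull.zero : CycNull (0 : NCSeries Y A) := fun w => by simp [cycSum]

theorem CycNull.add {c d : NCSeries Y A} (hc : CycNull c) (hd : CycNull d) : CycNull (c + d) :=
  fun w => by rw [cycSum_add, hc w, hd w, add_zero]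

theorem CycNull.sub {c d : NCSeries Y A} (hc : CycNull c) (hd : CycNull d) : CycNull (c - d) :=
  fun w => by rw [cycSum_sub, hc w, hd w, sub_zero]

theorem CycNull.neg {c : NCSeries Y A} (hc : CycNull c) : CycNull (-c) :=
  fun w => by rw [cycSum_neg, hc w, neg_zero]

theorem CycNull.sum {ι : Type*} (s : Finset ι) (F : ι → NCSeries Y A)
    (h : ∀ i ∈ s, CycNull (F i)) : CycNull (∑ i ∈ s, F i) := by
  classical
  induction s using Finset.induction_on with
  | empty => simpa using CycNull.zero
  | insert a s ha ih =>
    rw [Finset.sum_insert ha]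
    exact (h a (Finset.mem_insert_self _ _)).add
      (ih fun i hi => h i (Finset.mem_insert_of_mem hi))

end Defs

theorem sum_range_shift {M : Type*} [AddCommGroup M] (n : ℕ) (g : ℕ → M)
    (hg : ∀ i, g (i + n) = g i) (a : ℕ) :
    ∑ i ∈ Finset.range n, g (i + a) = ∑ i ∈ Finset.range n, g i := by
  induction a with
  | zero => simp
  | succ a ih =>
    rw [← ih]
    have h1 : ∑ i ∈ Finset.range (n + 1), g (i + a) =
        ∑ i ∈ Finset.range n, g (i + a) + g (n + a) := Finset.sum_range_succ _ _
    have h2 : ∑ i ∈ Finset.range (n + 1), g (i + a) =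
        ∑ i ∈ Finset.range n, g (i + 1 + a) + g (0 + a) := Finset.sum_range_succ' _ _
    have h3 : g (n + a) = g (0 + a) := by
      rw [zero_add, add_comm n a, hg]
    rw [h1, h3] at h2
    have h4 := add_right_cancel h2
    rw [h4]
    refine Finset.sum_congr rfl fun i _ => ?_
    congr 1
    omega

theorem rotate_add_length (w : List Y) (i : ℕ) : w.rotate (i + w.length) = w.rotate i := by
  rw [← List.rotate_mod, Nat.add_mod_right, List.rotate_mod]

section Trace

variable {R : Type v} [Ring R] {M : Type w} [AddCommGroup M]

/-- Coefficientwise image under an additive map. -/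
def tmap (τ : R →+ M) (f : NCSeries Y R) : NCSeries Y M := fun w => τ (f w)

@[simp] theorem coeff_tmap (τ : R →+ M) (f : NCSeries Y R) (w : List Y) :
    coeff w (tmap τ f) = τ (coeff w f) := rfl

theorem tmap_add (τ : R →+ M) (f g : NCSeries Y R) :
    tmap τ (f + g) = tmap τ f + tmap τ g := by
  ext w; simp

theorem tmap_sub (τ : R →+ M) (f g : NCSeries Y R) :
    tmap τ (f - g) = tmap τ f - tmap τ g := by
  ext w; simp

theorem tmap_sum {ι : Type*} (τ : R →+ M) (s : Finset ι) (F : ι → NCSeries Y R) :
    tmap τ (∑ i ∈ s, F i) = ∑ i ∈ s, tmap τ (F i) := by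
  ext w
  simp

/-- **Comm3.** For a cyclic additive functional `τ` (`τ (a b) = τ (b a)`), the coefficientwise image
of a commutator is cyc-null. -/
theorem cycNull_trace_commutator (τ : R →+ M) (hτ : ∀ a b, τ (a * b) = τ (b * a))
    (S T : NCSeries Y R) : CycNull (tmap τ (S * T - T * S)) := by
  intro w
  set n := w.length with hn
  have hper : ∀ i, w.rotate (i + n) = w.rotate i := fun i => rotate_add_length w i
  have hlen : ∀ i, (w.rotate i).length = n := fun i => by simp [hn]
  rw [tmap_sub, cycSum_sub, sub_eq_zero]
  show ∑ i ∈ Finset.range n, τ (coeff (w.rotate i) (S * T)) =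
    ∑ i ∈ Finset.range n, τ (coeff (w.rotate i) (T * S))
  -- expand
  have e1 : ∀ i, τ (coeff (w.rotate i) (S * T)) = ∑ a ∈ Finset.range (n + 1),
      τ (coeff ((w.rotate i).take a) S * coeff ((w.rotate i).drop a) T) := by
    intro i
    rw [coeff_mul, hlen i, map_sum]
  have e2 : ∀ i, τ (coeff (w.rotate i) (T * S)) = ∑ a ∈ Finset.range (n + 1),
      τ (coeff ((w.rotate i).take (n - a)) T * coeff ((w.rotate i).drop (n - a)) S) := by
    intro i
    rw [coeff_mul, hlen i, map_sum, ← Finset.sum_range_reflect]
    refine Finset.sum_congr rfl fun a ha => ?_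
    have : n + 1 - 1 - a = n - a := by omega
    rw [this]
  simp only [e1, e2]
  rw [Finset.sum_comm]
  conv_rhs => rw [Finset.sum_comm]
  refine Finset.sum_congr rfl fun a ha => ?_
  have ha' : a ≤ n := Nat.lt_succ_iff.mp (Finset.mem_range.mp ha)
  -- shift on the right
  rw [← sum_range_shift n (fun j => τ (coeff ((w.rotate j).take (n - a)) T *
      coeff ((w.rotate j).drop (n - a)) S)) (fun i => by simp only [hper]) a]
  refine Finset.sum_congr rfl fun i _ => ?_
  have hrot : w.rotate (i + a) = (w.rotate i).drop a ++ (w.rotate i).take a := by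
    rw [← List.rotate_rotate, List.rotate_eq_drop_append_take (by rw [hlen]; exact ha')]
  have hdl : ((w.rotate i).drop a).length = n - a := by simp [hlen]
  rw [hrot, hτ]
  congr 2
  · rw [← hdl]
    simp
  · rw [← hdl]
    simp

end Trace

section Comm2

variable {K : Type v} [CommRing K]

/-- **Comm2.** Commutators over a commutative coefficient ring are cyc-null. -/
theorem cycNull_commutator (S T : NCSeries Y K) : CycNull (S * T - T * S) := by
  have := cycNull_trace_commutator (AddMonoidHom.id K) (fun a b => mul_comm a b) S T
  have e : tmap (AddMonoidHom.id K) (S * T - T * S) = S * T - T * S := by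
    ext w; rfl
  rwa [e] at this

end Comm2

section Comm1

variable {F : Type v} [Field F] [CharZero F]

/-- The explicit `A_y` of Comm1. -/
noncomputable def commA (c : NCSeries Y F) (y : Y) : NCSeries Y F := fun v =>
  ((v.length + 1 : ℕ) : F)⁻¹ *
    ∑ i ∈ Finset.range (v.length + 1), (i : F) * coeff ((y :: v).rotate (i + 1)) c

theorem coeff_mul_X_nil [Ring A] (f : NCSeries Y A) (y : Y) : coeff [] (f * X y) = 0 := by
  simp [coeff_mul_nil]

open Classical in
theorem coeff_mul_X_concat [Ring A] (t : List Y) (b y : Y) (f : NCSeries Y A) :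
    coeff (t ++ [b]) (f * X y) = if b = y then coeff t f else 0 := by
  induction t generalizing f with
  | nil =>
    show coeff [b] (f * X y) = _
    rw [coeff_mul_cons, coeff_mul_nil, coeff_X_nil, mul_zero, add_zero, coeff_X]
    by_cases h : b = y
    · subst h; simp
    · have : ¬ ([b] = [y]) := by simpa using h
      simp [this, h]
  | cons a t ih =>
    show coeff (a :: (t ++ [b])) (f * X y) = _
    rw [coeff_mul_cons, ih (dl a f), coeff_X]
    have : ¬ (a :: (t ++ [b]) = [y]) := by
      intro h
      have := congrArg List.length h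
      simp at this
    simp [this]

/-- **Comm1.** A cyc-null series with zero constant term is `∑_y [X y, A_y]`. -/
theorem eq_sum_commutator [Fintype Y] [DecidableEq Y] {c : NCSeries Y F} (hc : CycNull c)
    (h0 : coeff [] c = 0) : c = ∑ y, (X y * commA c y - commA c y * X y) := by
  classical
  ext u
  rw [coeff_sum]
  simp only [coeff_sub, Finset.sum_sub_distrib]
  cases u with
  | nil =>
    simp [coeff_X_mul_nil, coeff_mul_X_nil, h0]
  | cons a t =>
    -- left part
    have hL : ∑ y, coeff (a :: t) (X y * commA c y) = coeff t (commA c a) := by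
      simp only [coeff_X_mul_cons]
      rw [Finset.sum_eq_single a] <;> simp +contextual [eq_comm]
    -- right part: write a :: t = t' ++ [b]
    obtain ⟨t', b, hu⟩ : ∃ t' b, a :: t = t' ++ [b] := by
      rcases List.eq_nil_or_concat' (a :: t) with h | ⟨L, b, h⟩
      · simp at h
      · exact ⟨L, b, h⟩
    have hR : ∑ y, coeff (a :: t) (commA c y * X y) = coeff t' (commA c b) := by
      rw [hu]
      simp only [coeff_mul_X_concat]
      rw [Finset.sum_eq_single b] <;> simp +contextual [eq_comm]
    rw [hL, hR]
    set u := a :: t with hudef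
    set n := t.length + 1 with hn
    have hulen : u.length = n := by simp [hudef, hn]
    have htlen : t'.length + 1 = n := by
      have := congrArg List.length hu
      simp at this
      omega
    have hrotR : ∀ i, (b :: t').rotate (i + 1) = u.rotate i := by
      intro i
      have : (b :: t').rotate 1 = t' ++ [b] := by simp
      rw [add_comm, ← List.rotate_rotate, this, ← hu]
    have hnF : (n : F) ≠ 0 := by
      exact_mod_cast (by omega : n ≠ 0)
    show coeff u c = (((t.length + 1 : ℕ) : F)⁻¹ *
        ∑ i ∈ Finset.range (t.length + 1), (i : F) * coeff ((a :: t).rotate (i + 1)) c) -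
      ((((t'.length + 1 : ℕ) : F)⁻¹ *
        ∑ i ∈ Finset.range (t'.length + 1), (i : F) * coeff ((b :: t').rotate (i + 1)) c))
    rw [htlen, ← hn]
    simp only [hrotR, ← hudef]
    -- now a telescoping computation
    have hper : u.rotate n = u.rotate 0 := by
      rw [← hulen]; simp
    have hcyc : ∑ i ∈ Finset.range n, coeff (u.rotate i) c = 0 := by
      have := hc u
      rwa [cycSum, hulen] at this
    -- ∑_{i<n} i γ_{i+1} = ∑_{i<n} i γ_i + n γ_0 - ∑_{i<n} γ_i
    have key : ∑ i ∈ Finset.range n, (i : F) * coeff (u.rotate (i + 1)) c =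
        ∑ i ∈ Finset.range n, (i : F) * coeff (u.rotate i) c + (n : F) * coeff u c -
          ∑ i ∈ Finset.range n, coeff (u.rotate i) c := by
      have h1 : ∀ N : ℕ, ∑ i ∈ Finset.range N, (i : F) * coeff (u.rotate (i + 1)) c =
          ∑ i ∈ Finset.range N, (i : F) * coeff (u.rotate i) c +
            ((N : F) - 1) * coeff (u.rotate N) c + coeff (u.rotate 0) c -
            ∑ i ∈ Finset.range N, coeff (u.rotate i) c := by
        intro N
        induction N with
        | zero => simp
        | succ N ih =>
          simp only [Finset.sum_range_succ, ih]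
          push_cast
          ring
      rw [h1 n, hper, List.rotate_zero]
      ring
    rw [key, hcyc, sub_zero, ← mul_sub]
    rw [show ∑ i ∈ Finset.range n, (i : F) * coeff (u.rotate i) c + (n : F) * coeff u c -
      ∑ i ∈ Finset.range n, (i : F) * coeff (u.rotate i) c = (n : F) * coeff u c by ring]
    field_simp

/-- Hom images of cyc-null series are cyc-null: `ψ` any ring hom to series over a commutative ring. -/
theorem CycNull.map_hom [Fintype Y] [DecidableEq Y] {c : NCSeries Y F} (hc : CycNull c)
    (h0 : coeff [] c = 0) {Y' : Type*} {K : Type*} [CommRing K]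
    (ψ : NCSeries Y F →+* NCSeries Y' K) : CycNull (ψ c) := by
  rw [eq_sum_commutator hc h0, map_sum]
  refine CycNull.sum _ _ fun y _ => ?_
  rw [map_sub, map_mul, map_mul]
  exact cycNull_commutator _ _

/-- Skewness of the degree-two part of a cyc-null series. -/
theorem CycNull.coeff_pair {c : NCSeries Y F} (hc : CycNull c) (y y' : Y) :
    coeff [y, y'] c = - coeff [y', y] c := by
  have := hc [y, y']
  simp only [cycSum, List.length_cons, List.length_nil] at this
  rw [Finset.sum_range_succ, Finset.sum_range_one] at this
  simp only [List.rotate_zero] at this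
  have h2 : [y, y'].rotate 1 = [y', y] := by simp
  rw [h2] at this
  exact eq_neg_of_add_eq_zero_left this

/-- Linear coefficients of a cyc-null series vanish. -/
theorem CycNull.coeff_single {c : NCSeries Y F} (hc : CycNull c) (y : Y) : coeff [y] c = 0 := by
  have := hc [y]
  simpa [cycSum] using this

end Comm1

end NCSeries

end Crest.Agent.Lib.Kurosh
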