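import Mathlib
import Crest.Agent.Lib.Kurosh.NCComm

/-!
# Scalar substitutions and the order-by-order solver (Lemma H')

For `F` a field, `Y`, `Y2` finite, `Θ : Y → NCS(F, Y2)` with zero constant terms,
`comp Θ h0 : NCS(F, Y) →+* NCS(F, Y2)` is the substitution.

Main theorem `solve`: given `F_i` with zero constant term, `R_a` cyc-null of order at least two, and linear
data `v : Y2 → Y → F` with `dF_i (v z) = 0`, `ω_a (v z, v z') = 0`, and
`X ↦ (dF_i X, ω_a (v z, X))` surjective, there is `Θ = v + O(2)` with `F_i ∘ Θ = 0`, `R_a ∘ Θ = 0`.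
With no `R_a` this is the noncommutative inverse function theorem ("kill comps").
-/

set_option autoImplicit false

namespace Crest.Agent.Lib.Kurosh

universe u v w

namespace NCSeries

variable {Y : Type u} {Y2 : Type v} {F : Type w} [Field F]

theorem C_mul_comm (c : F) (f : NCSeries Y2 F) : C c * f = f * C c := by
  ext w
  rw [C_mul_coeff, coeff_mul_C, mul_comm]

/-- Order one series in the order filtration. -/
theorem mem_ordFilt_one {f : NCSeries Y2 F} (h : coeff [] f = 0) :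
    f ∈ (Filt.ordFilt F Y2).I 1 := by
  rw [Filt.mem_ordFilt_iff]
  intro w hw
  have : w = [] := List.length_eq_zero_iff.mp (by omega)
  rw [this, h]

section Comp

variable [Fintype Y]

/-- Substitution data for scalar substitutions. -/
theorem compData (Θ : Y → NCSeries Y2 F) (h0 : ∀ y, coeff [] (Θ y) = 0) :
    SubstData (Filt.ordFilt F Y2) (CHom (Y := Y2) (A := F)) Θ where
  mem y := mem_ordFilt_one (h0 y)
  comm a y := C_mul_comm a (Θ y)

/-- Scalar substitution. -/
noncomputable def comp (Θ : Y → NCSeries Y2 F) (h0 : ∀ y, coeff [] (Θ y) = 0) :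
    NCSeries Y F →+* NCSeries Y2 F := subst (compData Θ h0)

variable (Θ : Y → NCSeries Y2 F) (h0 : ∀ y, coeff [] (Θ y) = 0)

theorem comp_eq (f : NCSeries Y F) :
    comp Θ h0 f = C (coeff [] f) + ∑ y, Θ y * comp Θ h0 (dl y f) := subst_eq (compData Θ h0) f

@[simp] theorem comp_C (a : F) : comp Θ h0 (C a) = C a := subst_C (compData Θ h0) a

@[simp] theorem comp_X (y : Y) : comp Θ h0 (X y) = Θ y := subst_X (compData Θ h0) y

theorem mem_ordGE_one_of_coeff {f : NCSeries Y2 F} (h : coeff [] f = 0) : f ∈ ordGE Y2 F 1 :=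
  Filt.mem_ordFilt_iff.mp (mem_ordFilt_one h)

theorem comp_sub_C_mem (f : NCSeries Y F) : comp Θ h0 f - C (coeff [] f) ∈ ordGE Y2 F 1 := by
  rw [comp_eq Θ h0 f, add_sub_cancel_left]
  exact AddSubgroup.sum_mem _ fun y _ => mul_mem_ordGE_left (mem_ordGE_one_of_coeff (h0 y)) _

theorem coeff_nil_comp (f : NCSeries Y F) : coeff [] (comp Θ h0 f) = coeff [] f := by
  have := comp_sub_C_mem Θ h0 f [] (by simp)
  simpa [sub_eq_zero] using this

/-- First order expansion: `comp f ≡ f₀ + Σ f_y Θ_y` mod order two. -/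
theorem comp_sub_linear_mem (f : NCSeries Y F) :
    comp Θ h0 f - (C (coeff [] f) + ∑ y, C (coeff [y] f) * Θ y) ∈ ordGE Y2 F 2 := by
  have e : comp Θ h0 f - (C (coeff [] f) + ∑ y, C (coeff [y] f) * Θ y) =
      ∑ y, Θ y * (comp Θ h0 (dl y f) - C (coeff [] (dl y f))) := by
    rw [comp_eq Θ h0 f]
    simp only [mul_sub, Finset.sum_sub_distrib]
    have : ∀ y, C (coeff [y] f) * Θ y = Θ y * C (coeff [] (dl y f)) := fun y => C_mul_comm _ _
    simp only [this]
    abel
  rw [e]
  refine AddSubgroup.sum_mem _ fun y _ => ?_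
  exact mul_mem_ordGE (mem_ordGE_one_of_coeff (h0 y)) (comp_sub_C_mem Θ h0 _)

/-- Second order expansion: `comp f ≡ f₀ + Σ f_y Θ_y + Σ f_{y y'} Θ_y Θ_y'` mod order three. -/
theorem comp_sub_quadratic_mem (f : NCSeries Y F) :
    comp Θ h0 f - (C (coeff [] f) + ∑ y, C (coeff [y] f) * Θ y +
      ∑ y, ∑ y', C (coeff [y, y'] f) * (Θ y * Θ y')) ∈ ordGE Y2 F 3 := by
  have e : comp Θ h0 f - (C (coeff [] f) + ∑ y, C (coeff [y] f) * Θ y +
      ∑ y, ∑ y', C (coeff [y, y'] f) * (Θ y * Θ y')) =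
      ∑ y, Θ y * (comp Θ h0 (dl y f) - (C (coeff [] (dl y f)) +
        ∑ y', C (coeff [y'] (dl y f)) * Θ y')) := by
    rw [comp_eq Θ h0 f]
    simp only [mul_sub, mul_add, Finset.sum_sub_distrib, Finset.sum_add_distrib, Finset.mul_sum]
    have h1 : ∀ y, C (coeff [y] f) * Θ y = Θ y * C (coeff [] (dl y f)) := fun y => C_mul_comm _ _
    have h2 : ∀ y y', C (coeff [y, y'] f) * (Θ y * Θ y') =
        Θ y * (C (coeff [y'] (dl y f)) * Θ y') := by
      intro y y'
      rw [← mul_assoc, ← mul_assoc, C_mul_comm]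
      rfl
    simp only [h1, h2]
    abel
  rw [e]
  refine AddSubgroup.sum_mem _ fun y _ => ?_
  exact mul_mem_ordGE (mem_ordGE_one_of_coeff (h0 y)) (comp_sub_linear_mem Θ h0 _)

end Comp

section Diff

variable [Fintype Y] (Θ Θ' : Y → NCSeries Y2 F) (h0 : ∀ y, coeff [] (Θ y) = 0)
  (h0' : ∀ y, coeff [] (Θ' y) = 0)

theorem comp_diff_eq (f : NCSeries Y F) :
    comp Θ' h0' f - comp Θ h0 f =
      ∑ y, ((Θ' y - Θ y) * comp Θ' h0' (dl y f) +
        Θ y * (comp Θ' h0' (dl y f) - comp Θ h0 (dl y f))) := by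
  conv_lhs => rw [comp_eq Θ' h0' f, comp_eq Θ h0 f]
  simp only [sub_mul, mul_sub, Finset.sum_add_distrib, Finset.sum_sub_distrib]
  abel

variable {Θ Θ'}

/-- If `Θ' - Θ` has order `k`, then `comp Θ' - comp Θ` has order `k`. -/
theorem comp_diff_mem {k : ℕ} (hΞ : ∀ y, Θ' y - Θ y ∈ ordGE Y2 F k) (f : NCSeries Y F) :
    comp Θ' h0' f - comp Θ h0 f ∈ ordGE Y2 F k := by
  have key : ∀ j, j ≤ k → ∀ f : NCSeries Y F, comp Θ' h0' f - comp Θ h0 f ∈ ordGE Y2 F j := by
    intro j
    induction j with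
    | zero =>
      intro _ f w hw
      exact absurd hw (Nat.not_lt_zero _)
    | succ j ih =>
      intro hj f
      rw [comp_diff_eq Θ Θ' h0 h0' f]
      refine AddSubgroup.sum_mem _ fun y _ => add_mem ?_ ?_
      · exact ordGE_mono (by omega) (mul_mem_ordGE_left (hΞ y) _)
      · have := mul_mem_ordGE (mem_ordGE_one_of_coeff (h0 y)) (ih (by omega) (dl y f))
        rwa [add_comm] at this
  exact key k le_rfl f

/-- First order variation. -/
theorem comp_diff_linear_mem {k : ℕ} (hΞ : ∀ y, Θ' y - Θ y ∈ ordGE Y2 F k) (f : NCSeries Y F) :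
    comp Θ' h0' f - comp Θ h0 f - ∑ y, C (coeff [y] f) * (Θ' y - Θ y) ∈ ordGE Y2 F (k + 1) := by
  have e : comp Θ' h0' f - comp Θ h0 f - ∑ y, C (coeff [y] f) * (Θ' y - Θ y) =
      ∑ y, ((Θ' y - Θ y) * (comp Θ' h0' (dl y f) - C (coeff [] (dl y f))) +
        Θ y * (comp Θ' h0' (dl y f) - comp Θ h0 (dl y f))) := by
    rw [comp_diff_eq Θ Θ' h0 h0' f, ← Finset.sum_sub_distrib]
    refine Finset.sum_congr rfl fun y _ => ?_
    have : C (coeff [y] f) * (Θ' y - Θ y) = (Θ' y - Θ y) * C (coeff [] (dl y f)) := C_mul_comm _ _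
    rw [this]
    noncomm_ring
  rw [e]
  refine AddSubgroup.sum_mem _ fun y _ => add_mem ?_ ?_
  · exact mul_mem_ordGE (hΞ y) (comp_sub_C_mem Θ' h0' _)
  · have := mul_mem_ordGE (mem_ordGE_one_of_coeff (h0 y)) (comp_diff_mem h0 h0' hΞ (dl y f))
    rwa [add_comm] at this

/-- Second order variation, for `f` of order two and a fixed common linear part `L`. -/
theorem comp_diff_quadratic_mem {k : ℕ} (hk : 2 ≤ k) (L : Y → NCSeries Y2 F)
    (hL : ∀ y, Θ y - L y ∈ ordGE Y2 F 2)
    (hΞ : ∀ y, Θ' y - Θ y ∈ ordGE Y2 F k) (f : NCSeries Y F)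
    (hf0 : coeff [] f = 0) (hf1 : ∀ y, coeff [y] f = 0) :
    comp Θ' h0' f - comp Θ h0 f -
      ∑ y, ∑ y', C (coeff [y, y'] f) * ((Θ' y - Θ y) * L y' + L y * (Θ' y' - Θ y')) ∈
      ordGE Y2 F (k + 2) := by
  have hL' : ∀ y, Θ' y - L y ∈ ordGE Y2 F 2 := fun y => by
    have : Θ' y - L y = (Θ' y - Θ y) + (Θ y - L y) := by abel
    rw [this]
    exact add_mem (ordGE_mono hk (hΞ y)) (hL y)
  have e : comp Θ' h0' f - comp Θ h0 f -
      ∑ y, ∑ y', C (coeff [y, y'] f) * ((Θ' y - Θ y) * L y' + L y * (Θ' y' - Θ y')) =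
      ∑ y, ((Θ' y - Θ y) * ((comp Θ' h0' (dl y f) - ∑ y', C (coeff [y'] (dl y f)) * Θ' y') +
            ∑ y', C (coeff [y'] (dl y f)) * (Θ' y' - L y')) +
          (Θ y - L y) * (comp Θ' h0' (dl y f) - comp Θ h0 (dl y f)) +
          L y * (comp Θ' h0' (dl y f) - comp Θ h0 (dl y f) -
            ∑ y', C (coeff [y'] (dl y f)) * (Θ' y' - Θ y'))) := by
    rw [comp_diff_eq Θ Θ' h0 h0' f, ← Finset.sum_sub_distrib]
    refine Finset.sum_congr rfl fun y _ => ?_
    have h1 : ∀ y', C (coeff [y, y'] f) * ((Θ' y - Θ y) * L y' + L y * (Θ' y' - Θ y')) =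
        (Θ' y - Θ y) * (C (coeff [y'] (dl y f)) * L y') +
          L y * (C (coeff [y'] (dl y f)) * (Θ' y' - Θ y')) := by
      intro y'
      rw [mul_add, ← mul_assoc, ← mul_assoc, ← mul_assoc, ← mul_assoc, C_mul_comm, C_mul_comm]
      rfl
    simp only [h1, Finset.sum_add_distrib, ← Finset.mul_sum]
    simp only [mul_sub, mul_add, sub_mul, Finset.sum_sub_distrib]
    abel
  rw [e]
  refine AddSubgroup.sum_mem _ fun y _ => add_mem (add_mem ?_ ?_) ?_
  · -- `Ξ_y * (order two)`
    refine mul_mem_ordGE (hΞ y) (add_mem ?_ ?_)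
    · have h2 := comp_sub_linear_mem Θ' h0' (dl y f)
      have hc : coeff [] (dl y f) = 0 := hf1 y
      rw [hc] at h2
      simpa using h2
    · exact AddSubgroup.sum_mem _ fun y' _ => mul_mem_ordGE_right _ (hL' y')
  · have := mul_mem_ordGE (hL y) (comp_diff_mem h0 h0' hΞ (dl y f))
    rwa [add_comm] at this
  · -- `L y` has order one, since `Θ y` does and `Θ y - L y` has order two
    have hL1 : L y ∈ ordGE Y2 F 1 := by
      have : L y = Θ y - (Θ y - L y) := by abel
      rw [this]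
      exact sub_mem (mem_ordGE_one_of_coeff (h0 y)) (ordGE_mono (by omega) (hL y))
    have := mul_mem_ordGE hL1 (comp_diff_linear_mem h0 h0' hΞ (dl y f))
    rwa [show 1 + (k + 1) = k + 2 by omega] at this

end Diff

section Solve

variable [Fintype Y] [Fintype Y2] [DecidableEq Y2]

/-- The linear series with prescribed coefficients: `lin v y = Σ_z v z y • X z`. -/
noncomputable def lin (v : Y2 → Y → F) (y : Y) : NCSeries Y2 F :=
  ∑ z, C (v z y) * X z

theorem coeff_lin_nil (v : Y2 → Y → F) (y : Y) : coeff [] (lin v y) = 0 := by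
  simp [lin, C_mul_coeff]

theorem coeff_lin_single (v : Y2 → Y → F) (y : Y) (z : Y2) : coeff [z] (lin v y) = v z y := by
  classical
  simp only [lin, coeff_sum, C_mul_coeff, coeff_X]
  rw [Finset.sum_eq_single z]
  · simp
  · intro b _ hb
    have : ¬ ([z] = [b]) := by
      intro h
      exact hb (by simpa using h.symm)
    simp [this]
  · intro h
    exact absurd (Finset.mem_univ z) h

theorem coeff_lin_of_two_le (v : Y2 → Y → F) (y : Y) {w : List Y2} (hw : 2 ≤ w.length) :
    coeff w (lin v y) = 0 := by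
  classical
  simp only [lin, coeff_sum, C_mul_coeff, coeff_X]
  refine Finset.sum_eq_zero fun b _ => ?_
  have : ¬ (w = [b]) := by
    intro h
    rw [h] at hw
    simp at hw
  simp [this]

/-- Coefficient of `Σ_z [X z, U z]` at `a :: t`, in a form depending only on `U` at length `|t|`. -/
theorem sum_commutator_eq_zero_of_coeff (U : Y2 → NCSeries Y2 F) (n : ℕ)
    (hU : ∀ z (t : List Y2), t.length = n → coeff t (U z) = 0) (u : List Y2)
    (hu : u.length = n + 1) : coeff u (∑ z, (X z * U z - U z * X z)) = 0 := by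
  classical
  rw [coeff_sum]
  refine Finset.sum_eq_zero fun z _ => ?_
  rw [coeff_sub]
  cases u with
  | nil => simp at hu
  | cons a t =>
    have ht : t.length = n := by simpa using hu
    have h1 : coeff (a :: t) (X z * U z) = 0 := by
      rw [coeff_X_mul_cons, hU z t ht]
      simp
    have h2 : coeff (a :: t) (U z * X z) = 0 := by
      obtain ⟨t', b, h⟩ : ∃ t' b, a :: t = t' ++ [b] := by
        rcases List.eq_nil_or_concat' (a :: t) with h | ⟨L, b, h⟩
        · simp at h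
        · exact ⟨L, b, h⟩
      rw [h, coeff_mul_X_concat, hU z t' (by
        have := congrArg List.length h
        simp at this
        omega)]
      simp
    rw [h1, h2, sub_zero]

variable {I J : Type*} [Fintype I] [Fintype J]

/-- The invariant of the induction. -/
structure SolveInv [CharZero F] (Fi : I → NCSeries Y F) (Ra : J → NCSeries Y F) (v : Y2 → Y → F)
    (n : ℕ) (Θ : Y → NCSeries Y2 F) : Prop where
  h0 : ∀ y, coeff [] (Θ y) = 0
  hL : ∀ y, Θ y - lin v y ∈ ordGE Y2 F 2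
  hF : ∀ i, comp Θ h0 (Fi i) ∈ ordGE Y2 F (n + 1)
  hR : ∀ a, comp Θ h0 (Ra a) ∈ ordGE Y2 F (n + 2)

variable [CharZero F] [DecidableEq Y] {Fi : I → NCSeries Y F} {Ra : J → NCSeries Y F}
  {v : Y2 → Y → F}

/-- The surjectivity hypothesis. -/
def SolveOnto (Fi : I → NCSeries Y F) (Ra : J → NCSeries Y F) (v : Y2 → Y → F) : Prop :=
  Function.Surjective fun X : Y → F =>
    ((fun i => ∑ y, coeff [y] (Fi i) * X y),
     (fun p : J × Y2 => ∑ y, ∑ y', coeff [y, y'] (Ra p.1) * (v p.2 y * X y')))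

theorem solve_step (hF0 : ∀ i, coeff [] (Fi i) = 0)
    (hR0 : ∀ a, coeff [] (Ra a) = 0) (hR1 : ∀ a, CycNull (Ra a))
    (honto : SolveOnto Fi Ra v) {n : ℕ} (hn : 1 ≤ n) {Θ : Y → NCSeries Y2 F}
    (hΘ : SolveInv Fi Ra v n Θ) :
    ∃ Θ', SolveInv Fi Ra v (n + 1) Θ' ∧ ∀ y, Θ' y - Θ y ∈ ordGE Y2 F (n + 1) := by
  classical
  set h0 := hΘ.h0
  let G : J → NCSeries Y2 F := fun a => comp Θ h0 (Ra a)
  have hGnull : ∀ a, CycNull (G a) := fun a => (hR1 a).map_hom (hR0 a) (comp Θ h0)
  have hG0 : ∀ a, coeff [] (G a) = 0 := fun a => hΘ.hR a [] (by simp)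
  let S : J → Y2 → NCSeries Y2 F := fun a z => commA (G a) z
  have hGS : ∀ a, G a = ∑ z, (X z * S a z - S a z * X z) := fun a =>
    eq_sum_commutator (hGnull a) (hG0 a)
  -- the correction, coefficient by coefficient
  let target : List Y2 → (I → F) × (J × Y2 → F) := fun t =>
    ((fun i => - coeff t (comp Θ h0 (Fi i))), (fun p => - coeff t (S p.1 p.2)))
  let sol : List Y2 → Y → F := fun t => Function.surjInv honto (target t)
  have hsol : ∀ t, ((fun i => ∑ y, coeff [y] (Fi i) * sol t y),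
      (fun p : J × Y2 => ∑ y, ∑ y', coeff [y, y'] (Ra p.1) * (v p.2 y * sol t y'))) = target t :=
    fun t => Function.surjInv_eq honto (target t)
  have hsol1 : ∀ t i, ∑ y, coeff [y] (Fi i) * sol t y = - coeff t (comp Θ h0 (Fi i)) := fun t i =>
    congrFun (congrArg Prod.fst (hsol t)) i
  have hsol2 : ∀ t a z, ∑ y, ∑ y', coeff [y, y'] (Ra a) * (v z y * sol t y') =
      - coeff t (S a z) := fun t a z => congrFun (congrArg Prod.snd (hsol t)) (a, z)
  let Ξ : Y → NCSeries Y2 F := fun y t => if t.length = n + 1 then sol t y else 0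
  have hΞc : ∀ y t, coeff t (Ξ y) = if t.length = n + 1 then sol t y else 0 := fun _ _ => rfl
  have hΞmem : ∀ y, Ξ y ∈ ordGE Y2 F (n + 1) := by
    intro y t ht
    rw [hΞc, if_neg (by omega)]
  let Θ' : Y → NCSeries Y2 F := fun y => Θ y + Ξ y
  have hdiff : ∀ y, Θ' y - Θ y = Ξ y := fun y => by simp [Θ']
  have hdiffmem : ∀ y, Θ' y - Θ y ∈ ordGE Y2 F (n + 1) := fun y => by
    rw [hdiff]; exact hΞmem y
  have h0' : ∀ y, coeff [] (Θ' y) = 0 := by
    intro y
    show coeff [] (Θ y) + coeff [] (Ξ y) = 0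
    rw [h0 y, hΞmem y [] (by simp), add_zero]
  have hL' : ∀ y, Θ' y - lin v y ∈ ordGE Y2 F 2 := by
    intro y
    have : Θ' y - lin v y = (Θ y - lin v y) + Ξ y := by simp [Θ']; abel
    rw [this]
    exact add_mem (hΘ.hL y) (ordGE_mono (by omega) (hΞmem y))
  refine ⟨Θ', ⟨h0', hL', ?_, ?_⟩, hdiffmem⟩
  · -- the `F_i`
    intro i
    have h1 := comp_diff_linear_mem h0 h0' hdiffmem (Fi i)
    intro u hu
    have h2 := h1 u hu
    rw [coeff_sub, coeff_sub, sub_sub, sub_eq_zero] at h2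
    rw [h2]
    rw [coeff_sum]
    simp only [hdiff, C_mul_coeff, hΞc]
    by_cases hlen : u.length = n + 1
    · simp only [hlen, if_true]
      rw [hsol1 u i]
      ring
    · simp only [hlen, if_false, mul_zero, Finset.sum_const_zero, add_zero]
      exact hΘ.hF i u (by omega)
  · -- the `R_a`
    intro a
    have hk : 2 ≤ n + 1 := by omega
    have hR1' : ∀ y, coeff [y] (Ra a) = 0 := fun y => (hR1 a).coeff_single y
    have h1 := comp_diff_quadratic_mem h0 h0' hk (lin v) hΘ.hL hdiffmem (Ra a) (hR0 a) hR1'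
    intro u hu
    have h2 := h1 u hu
    rw [coeff_sub, coeff_sub, sub_sub, sub_eq_zero] at h2
    rw [h2]
    -- rewrite the bilinear term as a sum of commutators
    let W : Y2 → NCSeries Y2 F := fun z =>
      ∑ y, ∑ y', C (coeff [y, y'] (Ra a)) * (C (v z y) * Ξ y')
    have hCC : ∀ (c : F) (f g : NCSeries Y2 F), f * (C c * g) = C c * (f * g) := by
      intro c f g
      rw [← mul_assoc, ← C_mul_comm, mul_assoc]
    have hB : ∑ y, ∑ y', C (coeff [y, y'] (Ra a)) * (lin v y * Ξ y') = ∑ z, X z * W z := by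
      have t : ∀ y y' z, C (coeff [y, y'] (Ra a)) * ((C (v z y) * X z) * Ξ y') =
          X z * (C (coeff [y, y'] (Ra a)) * (C (v z y) * Ξ y')) := by
        intro y y' z
        rw [C_mul_comm (v z y) (X z), mul_assoc, ← mul_assoc (C _) (X z), C_mul_comm _ (X z), mul_assoc]
      simp only [W, lin, Finset.sum_mul, Finset.mul_sum, t]
      calc _ = ∑ y, ∑ z, ∑ y', X z * (C (coeff [y, y'] (Ra a)) * (C (v z y) * Ξ y')) :=
            Finset.sum_congr rfl fun y _ => Finset.sum_comm
        _ = _ := Finset.sum_comm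
    have hA : ∑ y, ∑ y', C (coeff [y, y'] (Ra a)) * (Ξ y * lin v y') = - ∑ z, W z * X z := by
      have hneg : ∀ c : F, (C (-c) : NCSeries Y2 F) = - C c := fun c => map_neg (CHom (Y := Y2) (A := F)) c
      have t : ∀ y y' z, C (coeff [y, y'] (Ra a)) * (Ξ y * (C (v z y') * X z)) =
          - (C (coeff [y', y] (Ra a)) * (C (v z y') * Ξ y) * X z) := by
        intro y y' z
        rw [(hR1 a).coeff_pair y y', hneg, neg_mul]
        congr 1
        have h3 : Ξ y * (C (v z y') * X z) = (C (v z y') * Ξ y) * X z := by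
          rw [← mul_assoc, ← C_mul_comm]
        rw [h3]
        simp only [mul_assoc]
      simp only [W, lin, Finset.sum_mul, Finset.mul_sum, t, ← Finset.sum_neg_distrib]
      calc _ = ∑ y, ∑ z, ∑ y', - (C (coeff [y', y] (Ra a)) * (C (v z y') * Ξ y) * X z) :=
            Finset.sum_congr rfl fun y _ => Finset.sum_comm
        _ = ∑ z, ∑ y, ∑ y', - (C (coeff [y', y] (Ra a)) * (C (v z y') * Ξ y) * X z) :=
            Finset.sum_comm
        _ = _ := Finset.sum_congr rfl fun z _ => Finset.sum_comm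
    have hbil : ∑ y, ∑ y', C (coeff [y, y'] (Ra a)) * ((Θ' y - Θ y) * lin v y' + lin v y * (Θ' y' - Θ y'))
        = ∑ z, (X z * W z - W z * X z) := by
      simp only [hdiff, mul_add, Finset.sum_add_distrib]
      rw [hA, hB, Finset.sum_sub_distrib]
      abel
    rw [hbil]
    have hWmem : ∀ z, W z ∈ ordGE Y2 F (n + 1) := by
      intro z
      refine AddSubgroup.sum_mem _ fun y _ => AddSubgroup.sum_mem _ fun y' _ => ?_
      exact mul_mem_ordGE_right _ (mul_mem_ordGE_right _ (hΞmem y'))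
    by_cases hlen : u.length = n + 2
    · have hGSu := hGS a
      have : comp Θ h0 (Ra a) = G a := rfl
      rw [this, hGSu, ← coeff_add, ← Finset.sum_add_distrib]
      have e : ∀ z, (X z * S a z - S a z * X z) + (X z * W z - W z * X z) =
          X z * (S a z + W z) - (S a z + W z) * X z := by
        intro z
        noncomm_ring
      simp only [e]
      refine sum_commutator_eq_zero_of_coeff (fun z => S a z + W z) (n + 1) ?_ u (by omega)
      intro z t ht
      show coeff t (S a z) + coeff t (W z) = 0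
      have hWt : coeff t (W z) = ∑ y, ∑ y', coeff [y, y'] (Ra a) * (v z y * sol t y') := by
        simp only [W, coeff_sum, C_mul_coeff, hΞc, ht, if_true]
      rw [hWt, hsol2]
      ring
    · have hlt : u.length < n + 2 := by omega
      rw [hΘ.hR a u hlt, zero_add, coeff_sum]
      refine Finset.sum_eq_zero fun z _ => ?_
      rw [coeff_sub, mul_mem_ordGE (X_mem_ordGE z) (hWmem z) u (by omega),
        mul_mem_ordGE (hWmem z) (X_mem_ordGE z) u (by omega), sub_zero]

omit [DecidableEq Y] [Fintype Y] [Fintype Y2] [DecidableEq Y2] [CharZero F] in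
theorem coeff_mul_of_nil_nil (f g : NCSeries Y2 F) (hf : coeff [] f = 0) (hg : coeff [] g = 0) :
    coeff [] (f * g) = 0 := by
  rw [coeff_mul_nil, hf, zero_mul]

omit [DecidableEq Y] [Fintype Y] [Fintype Y2] [DecidableEq Y2] [CharZero F] in
theorem coeff_mul_single_of_nil (f g : NCSeries Y2 F) (hf : coeff [] f = 0) (hg : coeff [] g = 0)
    (z : Y2) : coeff [z] (f * g) = 0 := by
  rw [coeff_mul_cons, hf, zero_mul, zero_add, coeff_mul_nil, hg, mul_zero]

omit [DecidableEq Y] [Fintype Y] [Fintype Y2] [DecidableEq Y2] [CharZero F] in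
theorem coeff_mul_pair_of_nil (f g : NCSeries Y2 F) (hf : coeff [] f = 0) (hg : coeff [] g = 0)
    (z z' : Y2) : coeff [z, z'] (f * g) = coeff [z] f * coeff [z'] g := by
  rw [coeff_mul_cons, hf, zero_mul, zero_add, coeff_mul_cons, coeff_mul_nil, hg, mul_zero, add_zero]
  rfl

/-- **Lemma H'** (solver). -/
theorem solve (hF0 : ∀ i, coeff [] (Fi i) = 0)
    (hR0 : ∀ a, coeff [] (Ra a) = 0) (hR1 : ∀ a, CycNull (Ra a))
    (hFv : ∀ i z, ∑ y, coeff [y] (Fi i) * v z y = 0)
    (hRv : ∀ a z z', ∑ y, ∑ y', coeff [y, y'] (Ra a) * (v z y * v z' y') = 0)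
    (honto : SolveOnto Fi Ra v) :
    ∃ (Θ : Y → NCSeries Y2 F) (h0 : ∀ y, coeff [] (Θ y) = 0),
      (∀ y, Θ y - lin v y ∈ ordGE Y2 F 2) ∧
      (∀ i, comp Θ h0 (Fi i) = 0) ∧ (∀ a, comp Θ h0 (Ra a) = 0) := by
  classical
  -- base
  have hlin0 : ∀ y, coeff [] (lin v y) = 0 := coeff_lin_nil v
  have base : SolveInv Fi Ra v 1 (lin v) := by
    refine ⟨hlin0, fun y => ?_, fun i => ?_, fun a => ?_⟩
    · simp only [sub_self]
      exact AddSubgroup.zero_mem _
    · intro u hu
      have h1 := comp_sub_linear_mem (lin v) hlin0 (Fi i) u (by omega)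
      rw [coeff_sub, sub_eq_zero] at h1
      rw [h1, coeff_add, hF0 i, coeff_sum]
      match u, hu with
      | [], _ => simp [C_mul_coeff, coeff_lin_nil]
      | [z], _ =>
        simp only [coeff_C_cons, zero_add, C_mul_coeff, coeff_lin_single]
        exact hFv i z
    · intro u hu
      have h1 := comp_sub_quadratic_mem (lin v) hlin0 (Ra a) u (by omega)
      rw [coeff_sub, sub_eq_zero] at h1
      have hR1' : ∀ y, coeff [y] (Ra a) = 0 := fun y => (hR1 a).coeff_single y
      rw [h1]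
      simp only [hR0 a, hR1', C_zero, zero_mul, Finset.sum_const_zero, add_zero, zero_add]
      simp only [coeff_sum, C_mul_coeff]
      match u, hu with
      | [], _ => simp [coeff_mul_of_nil_nil, coeff_lin_nil]
      | [z], _ => simp [coeff_mul_single_of_nil, coeff_lin_nil]
      | [z, z'], _ =>
        simp only [coeff_mul_pair_of_nil _ _ (coeff_lin_nil v _) (coeff_lin_nil v _),
          coeff_lin_single]
        exact hRv a z z'
  -- the sequence
  have step : ∀ (k : ℕ) (Θ : {Θ // SolveInv Fi Ra v (k + 1) Θ}),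
      ∃ Θ' : {Θ' // SolveInv Fi Ra v (k + 1 + 1) Θ'}, ∀ y, Θ'.1 y - Θ.1 y ∈ ordGE Y2 F (k + 1 + 1) := by
    intro k Θ
    obtain ⟨Θ', h1, h2⟩ := solve_step hF0 hR0 hR1 honto (by omega : 1 ≤ k + 1) Θ.2
    exact ⟨⟨Θ', h1⟩, h2⟩
  choose nxt hnxt using step
  let seq : (k : ℕ) → {Θ // SolveInv Fi Ra v (k + 1) Θ} := fun k =>
    Nat.rec ⟨lin v, base⟩ (fun k s => nxt k s) k
  have hseq : ∀ k y, (seq (k + 1)).1 y - (seq k).1 y ∈ ordGE Y2 F (k + 1 + 1) :=
    fun k y => hnxt k (seq k) y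
  have hstable : ∀ (t : List Y2) (k : ℕ), t.length ≤ k → ∀ y,
      coeff t ((seq k).1 y) = coeff t ((seq t.length).1 y) := by
    intro t k hk y
    induction k, hk using Nat.le_induction with
    | base => rfl
    | succ k hk ih =>
      rw [← ih]
      have := hseq k y t (by omega)
      rwa [coeff_sub, sub_eq_zero] at this
  let Θ : Y → NCSeries Y2 F := fun y t => coeff t ((seq t.length).1 y)
  have hΘc : ∀ y t, coeff t (Θ y) = coeff t ((seq t.length).1 y) := fun _ _ => rfl
  have hΘdiff : ∀ k y, Θ y - (seq k).1 y ∈ ordGE Y2 F (k + 1) := by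
    intro k y t ht
    rw [coeff_sub, hΘc, hstable t k (by omega) y, sub_self]
  have h0 : ∀ y, coeff [] (Θ y) = 0 := fun y => (seq 0).2.h0 y
  refine ⟨Θ, h0, fun y => ?_, fun i => ?_, fun a => ?_⟩
  · have : Θ y - lin v y = (Θ y - (seq 1).1 y) + ((seq 1).1 y - lin v y) := by abel
    rw [this]
    exact add_mem (hΘdiff 1 y) ((seq 1).2.hL y)
  · refine eq_zero_of_forall_ordGE fun n => ?_
    have h1 := comp_diff_mem (seq n).2.h0 h0 (hΘdiff n) (Fi i)
    have h2 := (seq n).2.hF i
    have : comp Θ h0 (Fi i) = (comp Θ h0 (Fi i) - comp (seq n).1 (seq n).2.h0 (Fi i)) +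
        comp (seq n).1 (seq n).2.h0 (Fi i) := by abel
    rw [this]
    exact add_mem (ordGE_mono (by omega) h1) (ordGE_mono (by omega) h2)
  · refine eq_zero_of_forall_ordGE fun n => ?_
    have h1 := comp_diff_mem (seq n).2.h0 h0 (hΘdiff n) (Ra a)
    have h2 := (seq n).2.hR a
    have : comp Θ h0 (Ra a) = (comp Θ h0 (Ra a) - comp (seq n).1 (seq n).2.h0 (Ra a)) +
        comp (seq n).1 (seq n).2.h0 (Ra a) := by abel
    rw [this]
    exact add_mem (ordGE_mono (by omega) h1) (ordGE_mono (by omega) h2)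

end Solve

end NCSeries

end Crest.Agent.Lib.Kurosh
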