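import Mathlib
import Crest.Agent.Lib.Kurosh.NCSolve

/-!
# Section substitutions with scalar series on arbitrary coefficient rings

`Z` a field, `E` a `Z`-algebra, `Θ : Y → NCS(Z, Y')` with zero constant terms.
`sec Θ h0 : NCS(E, Y) →+* NCS(E, Y')` is the substitution with `C e ↦ C e`, `X y ↦ map Θ y`.

* compatibility with every `Z`-linear map of coefficients (`sec_tmap`), in particular with algebra
  homs (`sec_map`), with `algebraMap` (`sec_map_algebraMap`) and with functionals
  (`sec_tmap_functional`);
* low order coefficients (`coeff_nil_sec`, `coeff_single_sec`, `coeff_pair_sec`), order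
  (`sec_mem_ordGE`);
* composition of sections (`sec_sec`);
* `exists_kill`: the KILL step (blueprint 3 N2 / 5(b)): a linear section to letters `z ⊔ P` after which
  the linear coefficients of `f` are `κ` at `z` and `0` at the letters `P`.
-/

set_option autoImplicit false

namespace Crest.Agent.Lib.Kurosh

universe u v w

namespace NCSeries

section Sec

variable {Z : Type u} [Field Z] {E : Type v} [Ring E] [Algebra Z E]
  {Y : Type*} {Y' : Type*} [Fintype Y]

theorem secData (Θ : Y → NCSeries Y' Z) (h0 : ∀ y, coeff [] (Θ y) = 0) :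
    SubstData (Filt.ordFilt E Y') (CHom (Y := Y') (A := E))
      (fun y => map (algebraMap Z E) (Θ y)) where
  mem y := by
    rw [Filt.mem_ordFilt_iff]
    intro w hw
    have : w = [] := List.length_eq_zero_iff.mp (by omega)
    rw [this, coeff_map, h0 y, map_zero]
  comm a y := by
    ext w
    simp only [CHom_apply]
    rw [C_mul_coeff, coeff_mul_C, coeff_map, Algebra.commutes]

/-- The section substitution `NCS(E, Y) →+* NCS(E, Y')` along scalar series `Θ`. -/
noncomputable def sec (Θ : Y → NCSeries Y' Z) (h0 : ∀ y, coeff [] (Θ y) = 0) :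
    NCSeries Y E →+* NCSeries Y' E := subst (secData Θ h0)

variable (Θ : Y → NCSeries Y' Z) (h0 : ∀ y, coeff [] (Θ y) = 0)

theorem sec_eq (f : NCSeries Y E) :
    sec Θ h0 f = C (coeff [] f) + ∑ y, map (algebraMap Z E) (Θ y) * sec Θ h0 (dl y f) :=
  subst_eq (secData Θ h0) f

@[simp] theorem sec_C (a : E) : sec Θ h0 (C a : NCSeries Y E) = C a :=
  subst_C (secData Θ h0) a

@[simp] theorem sec_X (y : Y) :
    sec Θ h0 (X y : NCSeries Y E) = map (algebraMap Z E) (Θ y) := subst_X (secData Θ h0) y

include h0 in
theorem coeff_map_nil (y : Y) : coeff [] (map (algebraMap Z E) (Θ y)) = 0 := by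
  rw [coeff_map, h0 y, map_zero]

@[simp] theorem coeff_nil_sec (f : NCSeries Y E) : coeff [] (sec Θ h0 f) = coeff [] f := by
  rw [sec_eq, coeff_add, coeff_C_nil, coeff_sum]
  simp [coeff_mul_nil, coeff_map_nil Θ h0]

/-- Coefficient at a nonempty word, in terms of strictly shorter words. -/
theorem coeff_sec_cons (f : NCSeries Y E) (a : Y') (t : List Y') :
    coeff (a :: t) (sec Θ h0 f) =
      ∑ y, ∑ i ∈ Finset.range (t.length + 1),
        (algebraMap Z E (coeff ((a :: t).take (i + 1)) (Θ y))) *
          coeff ((a :: t).drop (i + 1)) (sec Θ h0 (dl y f)) := by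
  rw [sec_eq, coeff_add, coeff_C_cons, zero_add, coeff_sum]
  refine Finset.sum_congr rfl fun y _ => ?_
  rw [coeff_mul, List.length_cons, Finset.sum_range_succ' _ (t.length + 1)]
  have : coeff ((a :: t).take 0) (map (algebraMap Z E) (Θ y)) = 0 := by
    rw [List.take_zero]
    exact coeff_map_nil Θ h0 y
  rw [this, zero_mul, add_zero]
  rfl

/-- Compatibility with `Z`-linear maps of coefficients. -/
theorem sec_tmap {E' : Type*} [Ring E'] [Algebra Z E'] (lam : E →ₗ[Z] E') (f : NCSeries Y E) :
    tmap lam.toAddMonoidHom (sec Θ h0 f) = sec Θ h0 (tmap lam.toAddMonoidHom f) := by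
  have key : ∀ (n : ℕ) (w : List Y'), w.length ≤ n → ∀ f : NCSeries Y E,
      lam (coeff w (sec Θ h0 f)) = coeff w (sec Θ h0 (tmap lam.toAddMonoidHom f)) := by
    intro n
    induction n with
    | zero =>
      intro w hw f
      have : w = [] := List.length_eq_zero_iff.mp (by omega)
      subst this
      simp
    | succ n ih =>
      intro w hw f
      cases w with
      | nil => simp
      | cons a t =>
        rw [coeff_sec_cons, coeff_sec_cons, map_sum]
        refine Finset.sum_congr rfl fun y _ => ?_
        rw [map_sum]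
        refine Finset.sum_congr rfl fun i _ => ?_
        have hlen : ((a :: t).drop (i + 1)).length ≤ n := by
          simp only [List.length_drop, List.length_cons]
          simp only [List.length_cons] at hw
          omega
        have := ih _ hlen (dl y f)
        have hd : dl y (tmap lam.toAddMonoidHom f) = tmap lam.toAddMonoidHom (dl y f) := rfl
        rw [hd, ← this, ← Algebra.smul_def, ← Algebra.smul_def, map_smul]
  ext w
  exact key w.length w le_rfl f

/-- For `E = Z` the section is the scalar substitution. -/
theorem sec_self (f : NCSeries Y Z) : sec Θ h0 f = comp Θ h0 f := by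
  classical
  refine (subst_unique (secData (E := Z) Θ h0) (comp Θ h0) (fun a => ?_) (fun y => ?_) f).symm
  · simp
  · rw [comp_X]
    ext w
    simp

/-- Compatibility with algebra homs of coefficients. -/
theorem sec_map {E' : Type*} [Ring E'] [Algebra Z E'] (φ : E →ₐ[Z] E') (f : NCSeries Y E) :
    map (φ : E →+* E') (sec Θ h0 f) = sec Θ h0 (map (φ : E →+* E') f) :=
  sec_tmap Θ h0 φ.toLinearMap f

/-- Compatibility with the scalars. -/
theorem sec_map_algebraMap (g : NCSeries Y Z) :
    sec Θ h0 (map (algebraMap Z E) g) = map (algebraMap Z E) (comp Θ h0 g) := by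
  have := sec_tmap (E := Z) (E' := E) Θ h0 (Algebra.linearMap Z E) g
  rw [sec_self] at this
  exact this.symm

/-- Compatibility with `Z`-linear functionals. -/
theorem sec_tmap_functional (lam : E →ₗ[Z] Z) (f : NCSeries Y E) :
    tmap lam.toAddMonoidHom (sec Θ h0 f) = comp Θ h0 (tmap lam.toAddMonoidHom f) := by
  rw [sec_tmap, sec_self]

/-- The linear coefficients of a section. -/
theorem coeff_single_sec (f : NCSeries Y E) (z : Y') :
    coeff [z] (sec Θ h0 f) = ∑ y, coeff [z] (Θ y) • coeff [y] f := by
  rw [coeff_sec_cons]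
  refine Finset.sum_congr rfl fun y _ => ?_
  simp only [List.length_nil, zero_add, Finset.sum_range_one, List.take_succ_cons, List.take_zero,
    List.drop_succ_cons, List.drop_nil, coeff_nil_sec, coeff_dl, Algebra.smul_def]

/-- The quadratic coefficients of a section. -/
theorem coeff_pair_sec (f : NCSeries Y E) (z z' : Y') :
    coeff [z, z'] (sec Θ h0 f) = ∑ y, coeff [z, z'] (Θ y) • coeff [y] f +
      ∑ y, ∑ y', (coeff [z] (Θ y) * coeff [z'] (Θ y')) • coeff [y, y'] f := by
  rw [coeff_sec_cons, ← Finset.sum_add_distrib]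
  refine Finset.sum_congr rfl fun y _ => ?_
  simp only [List.length_cons, List.length_nil, zero_add, Nat.reduceAdd]
  rw [Finset.sum_range_succ, Finset.sum_range_one]
  simp only [List.take_succ_cons, List.take_zero, List.drop_succ_cons, List.drop_zero,
    List.drop_nil, coeff_nil_sec, coeff_dl, Algebra.smul_def, List.take_nil]
  rw [coeff_single_sec, add_comm, Finset.mul_sum]
  congr 1
  refine Finset.sum_congr rfl fun y' _ => ?_
  simp only [coeff_dl, Algebra.smul_def, map_mul, mul_assoc]

/-- A section preserves the order. -/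
theorem sec_mem_ordGE {n : ℕ} {f : NCSeries Y E} (hf : f ∈ ordGE Y E n) :
    sec Θ h0 f ∈ ordGE Y' E n := by
  induction n generalizing f with
  | zero =>
    intro w hw
    exact absurd hw (Nat.not_lt_zero _)
  | succ n ih =>
    rw [sec_eq]
    have h00 : coeff [] f = 0 := hf [] (by simp)
    rw [h00, C_zero, zero_add]
    refine AddSubgroup.sum_mem _ fun y _ => ?_
    have h1 : map (algebraMap Z E) (Θ y) ∈ ordGE Y' E 1 := by
      intro w hw
      have : w = [] := List.length_eq_zero_iff.mp (by omega)
      rw [this]
      exact coeff_map_nil Θ h0 y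
    have h2 : dl y f ∈ ordGE Y E n := fun w hw => hf (y :: w) (by simpa using hw)
    have := mul_mem_ordGE h1 (ih h2)
    rwa [add_comm] at this

/-- Composition of sections. -/
theorem sec_sec {Y'' : Type*} [Fintype Y'] (Θ' : Y' → NCSeries Y'' Z)
    (h0' : ∀ y, coeff [] (Θ' y) = 0) (f : NCSeries Y E) :
    sec Θ' h0' (sec Θ h0 f) =
      sec (fun y => comp Θ' h0' (Θ y)) (fun y => by rw [coeff_nil_comp, h0 y]) f := by
  have := subst_unique (secData (E := E) (fun y => comp Θ' h0' (Θ y))
    (fun y => by rw [coeff_nil_comp, h0 y])) ((sec Θ' h0').comp (sec Θ h0))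
    (fun a => by simp) (fun y => ?_) f
  · exact this
  · simp only [RingHom.comp_apply, sec_X]
    rw [sec_map_algebraMap]

end Sec

section Kill

variable {Z : Type u} [Field Z] {A : Type v} [Ring A] [Algebra Z A]
  {Y : Type*} [Fintype Y] [DecidableEq Y] {Y' : Type*} [Fintype Y'] [DecidableEq Y']

/-- A linear section. -/
theorem coeff_single_sec_lin (v : Y' → Y → Z) (f : NCSeries Y A) (z : Y') :
    coeff [z] (sec (lin v) (coeff_lin_nil v) f) = ∑ y, v z y • coeff [y] f := by
  rw [coeff_single_sec]
  simp only [coeff_lin_single]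

/-- The linear combination map. -/
noncomputable def linComb (f : NCSeries Y A) : (Y → Z) →ₗ[Z] A :=
  ∑ y, (LinearMap.toSpanSingleton Z A (coeff [y] f)).comp (LinearMap.proj y)

omit [DecidableEq Y] in
theorem linComb_apply (f : NCSeries Y A) (x : Y → Z) :
    linComb f x = ∑ y, x y • coeff [y] f := by
  simp [linComb, LinearMap.sum_apply]

omit [DecidableEq Y] in
theorem range_linComb (f : NCSeries Y A) :
    LinearMap.range (linComb (Z := Z) f) =
      Submodule.span Z (Set.range fun y => coeff [y] f) := by
  classical
  apply le_antisymm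
  · rintro _ ⟨x, rfl⟩
    rw [linComb_apply]
    exact Submodule.sum_mem _ fun y _ =>
      Submodule.smul_mem _ _ (Submodule.subset_span ⟨y, rfl⟩)
  · rw [Submodule.span_le]
    rintro _ ⟨y, rfl⟩
    refine ⟨Pi.single y 1, ?_⟩
    rw [linComb_apply, Finset.sum_eq_single y]
    · simp
    · intro b _ hb
      simp [Pi.single_eq_of_ne hb]
    · intro h
      exact absurd (Finset.mem_univ y) h

/-- KILL: for `f` with `κ ≠ 0` in the `Z`-span `W` of its linear coefficients, there is a linear
section to `|Y| - dim W + 1` letters `Option (Fin n)`, with linearly independent linear part, such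
that the linear coefficient of the image of `f` at `none` is `κ`, and at `some p` is `0`. -/
theorem exists_kill (f : NCSeries Y A) (κ : A) (hκ0 : κ ≠ 0)
    (hκ : κ ∈ Submodule.span Z (Set.range fun y => coeff [y] f)) :
    ∃ (n : ℕ) (v : Option (Fin n) → Y → Z),
      n + Module.finrank Z (Submodule.span Z (Set.range fun y => coeff [y] f)) = Fintype.card Y ∧
      LinearIndependent Z v ∧
      coeff [none] (sec (lin v) (coeff_lin_nil v) f) = κ ∧
      ∀ p : Fin n, coeff [some p] (sec (lin v) (coeff_lin_nil v) f) = 0 := by
  classical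
  set ℓ : (Y → Z) →ₗ[Z] A := linComb f with hℓ
  obtain ⟨x0, hx0⟩ : κ ∈ LinearMap.range ℓ := by rwa [hℓ, range_linComb]
  let Kr := LinearMap.ker ℓ
  let b := Module.finBasis Z Kr
  let v : Option (Fin (Module.finrank Z Kr)) → Y → Z := fun z =>
    match z with
    | none => x0
    | some p => (b p : Y → Z)
  have hv0 : ∀ p, ℓ (v (some p)) = 0 := fun p => (b p).2
  have hvn : ℓ (v none) = κ := hx0
  refine ⟨Module.finrank Z Kr, v, ?_, ?_, ?_, fun p => ?_⟩
  · have h := LinearMap.finrank_range_add_finrank_ker ℓ
    rw [hℓ, range_linComb] at h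
    rw [Module.finrank_fintype_fun_eq_card] at h
    rw [← h, add_comm]
  · -- independence
    rw [Fintype.linearIndependent_iff]
    intro g hg
    have hs : (∑ i, g i • v i) = g none • x0 + ∑ p : Fin (Module.finrank Z Kr), g (some p) • (b p : Y → Z) :=
      Fintype.sum_option _
    rw [hs] at hg
    have h1 : g none • κ = 0 := by
      have := congrArg ℓ hg
      simp only [map_add, map_smul, map_sum, map_zero] at this
      have h2 : ∑ p : Fin (Module.finrank Z Kr), g (some p) • ℓ (b p : Y → Z) = 0 :=
        Finset.sum_eq_zero fun p _ => by rw [show ℓ (b p : Y → Z) = 0 from (b p).2, smul_zero]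
      rw [h2, add_zero, hx0] at this
      exact this
    have hn : g none = 0 := (smul_eq_zero.mp h1).resolve_right hκ0
    rw [hn, zero_smul, zero_add] at hg
    have hb : ∑ p : Fin (Module.finrank Z Kr), g (some p) • b p = 0 := by
      ext1
      simp only [Submodule.coe_sum, Submodule.coe_smul, Submodule.coe_zero]
      exact hg
    have hli := (Fintype.linearIndependent_iff.mp b.linearIndependent) _ hb
    intro i
    cases i with
    | none => exact hn
    | some p => exact hli p
  · rw [coeff_single_sec_lin, ← hvn, hℓ, linComb_apply]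
  · rw [coeff_single_sec_lin, ← hv0 p, hℓ, linComb_apply]

end Kill

end NCSeries

end Crest.Agent.Lib.Kurosh
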