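import Crest.Agent.Lib.Kurosh.NCSeries

/-!
# Power series in a series: `∑ₙ C (φ n) * G ^ n`

For `G ∈ NCS(A, Y)` with zero constant term and `φ : ℕ → A`, `sumPow φ G` is the coefficientwise
limit of `∑_{n < N} C (φ n) * G ^ n`.  This is the object of blueprint sections 3 (N2a) and 5(b).

Main results:
* `isSeriesIn_iff`: `b ≡ ∑_{n<N} C (φ n) G^n mod order N` for all `N` iff `b = sumPow φ G`;
* functoriality `map_sumPow` and conjugation `conj_sumPow`;
* for a commutative coefficient ring `K` and `p : K⟦X⟧`, `evalP p H = sumPow (coeff · p) H` is a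
  ring homomorphism in `p` (`evalP_mul`, `evalP_pow`);
* `sumPow_evalP`: post-composition, `sumPow φ (map j (evalP F H)) = sumPow φ' (map j H)`;
* `exists_solve`: if `F 0 = 0`, `F 1 = 1` and `f(0) = 0` there is `H`, `H(0) = 0`, with
  `evalP F H = f`; it has the same linear part and `H(z, 0) = z` if `f(z, 0) = F(z)`.
-/

set_option autoImplicit false

namespace Crest.Agent.Lib.Kurosh.SeriesComp

open NCSeries
open scoped PowerSeries

universe u v w

section General

variable {A : Type v} [Ring A] {Y : Type u}

/-- `∑ₙ C (φ n) * G ^ n`. -/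
def sumPow (φ : ℕ → A) (G : NCS A Y) : NCS A Y :=
  fun w => ∑ n ∈ Finset.range (w.length + 1), φ n * coeff w (G ^ n)

theorem coeff_sumPow_def (φ : ℕ → A) (G : NCS A Y) (w : List Y) :
    coeff w (sumPow φ G) = ∑ n ∈ Finset.range (w.length + 1), φ n * coeff w (G ^ n) := rfl

theorem mem_ordGE_one {G : NCS A Y} (hG : coeff [] G = 0) : G ∈ ordGE Y A 1 := by
  intro w hw
  have : w = [] := List.length_eq_zero_iff.mp (by omega)
  rw [this]; exact hG

theorem coeff_pow_eq_zero {G : NCS A Y} (hG : coeff [] G = 0) {n : ℕ} {w : List Y}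
    (h : w.length < n) : coeff w (G ^ n) = 0 :=
  pow_mem_ordGE (mem_ordGE_one hG) n w h

/-- The sum may be taken over any long enough range. -/
theorem coeff_sumPow {G : NCS A Y} (hG : coeff [] G = 0) (φ : ℕ → A) {N : ℕ} {w : List Y}
    (h : w.length < N) :
    coeff w (sumPow φ G) = ∑ n ∈ Finset.range N, φ n * coeff w (G ^ n) := by
  rw [coeff_sumPow_def]
  refine Finset.sum_subset (fun i hi => ?_) (fun i _ hi => ?_)
  · rw [Finset.mem_range] at hi ⊢; omega
  · rw [Finset.mem_range] at hi
    rw [coeff_pow_eq_zero hG (by omega), mul_zero]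

@[simp] theorem coeff_nil_sumPow (φ : ℕ → A) {G : NCS A Y} (hG : coeff [] G = 0) :
    coeff [] (sumPow φ G) = φ 0 := by
  rw [coeff_sumPow hG φ (N := 1) (by simp)]
  simp

/-- `b` is congruent to the partial sums of `∑ₙ C (φ n) G^n` modulo every order. -/
def IsSeriesIn (φ : ℕ → A) (G b : NCS A Y) : Prop :=
  ∀ N, b - ∑ n ∈ Finset.range N, C (φ n) * G ^ n ∈ ordGE Y A N

theorem coeff_partial (φ : ℕ → A) (G : NCS A Y) (N : ℕ) (w : List Y) :
    coeff w (∑ n ∈ Finset.range N, C (φ n) * G ^ n) = ∑ n ∈ Finset.range N, φ n * coeff w (G ^ n) := by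
  rw [coeff_sum]
  refine Finset.sum_congr rfl fun n _ => ?_
  rw [C_mul_coeff]

theorem isSeriesIn_sumPow {G : NCS A Y} (hG : coeff [] G = 0) (φ : ℕ → A) :
    IsSeriesIn φ G (sumPow φ G) := by
  intro N w hw
  rw [coeff_sub, coeff_partial, coeff_sumPow hG φ hw, sub_self]

theorem eq_sumPow_of_isSeriesIn {G : NCS A Y} (hG : coeff [] G = 0) {φ : ℕ → A} {b : NCS A Y}
    (h : IsSeriesIn φ G b) : b = sumPow φ G := by
  ext w
  have := h (w.length + 1) w (by omega)
  rw [coeff_sub, coeff_partial, sub_eq_zero] at this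
  rw [this, coeff_sumPow hG φ (N := w.length + 1) (by omega)]

theorem isSeriesIn_iff {G : NCS A Y} (hG : coeff [] G = 0) (φ : ℕ → A) (b : NCS A Y) :
    IsSeriesIn φ G b ↔ b = sumPow φ G :=
  ⟨eq_sumPow_of_isSeriesIn hG, fun h => h ▸ isSeriesIn_sumPow hG φ⟩

/-- The recursion `∑ₙ C (φ n) G^n = C (φ 0) + (∑ₙ C (φ (n+1)) G^n) * G`. -/
theorem sumPow_eq_add_mul {G : NCS A Y} (hG : coeff [] G = 0) (φ : ℕ → A) :
    sumPow φ G = C (φ 0) + sumPow (fun n => φ (n + 1)) G * G := by
  symm
  apply eq_sumPow_of_isSeriesIn hG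
  intro N
  rcases N with _ | N
  · intro w hw; omega
  · have h1 := isSeriesIn_sumPow hG (fun n => φ (n + 1)) N
    have h2 := mul_mem_ordGE h1 (mem_ordGE_one hG)
    have : C (φ 0) + sumPow (fun n => φ (n + 1)) G * G -
        ∑ n ∈ Finset.range (N + 1), C (φ n) * G ^ n
        = (sumPow (fun n => φ (n + 1)) G - ∑ n ∈ Finset.range N, C (φ (n + 1)) * G ^ n) * G := by
      rw [Finset.sum_range_succ', sub_mul, Finset.sum_mul]
      have e : ∀ n, C (φ (n + 1)) * G ^ (n + 1) = C (φ (n + 1)) * G ^ n * G := by
        intro n; rw [pow_succ, mul_assoc]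
      simp only [e, pow_zero, mul_one]
      abel
    rw [this]
    exact h2

theorem sumPow_zero (G : NCS A Y) : sumPow (fun _ => (0 : A)) G = 0 := by
  ext w; simp [coeff_sumPow_def]

theorem sumPow_add (φ ψ : ℕ → A) (G : NCS A Y) :
    sumPow (fun n => φ n + ψ n) G = sumPow φ G + sumPow ψ G := by
  ext w
  simp only [coeff_sumPow_def, coeff_add, add_mul, Finset.sum_add_distrib]

theorem C_mul_sumPow (a : A) (φ : ℕ → A) (G : NCS A Y) :
    C a * sumPow φ G = sumPow (fun n => a * φ n) G := by
  ext w
  rw [C_mul_coeff, coeff_sumPow_def, coeff_sumPow_def, Finset.mul_sum]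
  simp only [mul_assoc]

/-- Adding a constant changes only `φ 0`. -/
theorem C_add_sumPow {G : NCS A Y} (hG : coeff [] G = 0) (c : A) (φ : ℕ → A) :
    C c + sumPow φ G = sumPow (fun n => if n = 0 then c + φ 0 else φ n) G := by
  rw [sumPow_eq_add_mul hG (fun n => if n = 0 then c + φ 0 else φ n),
    sumPow_eq_add_mul hG φ]
  simp only [if_true, Nat.succ_ne_zero, if_false, C_add, add_assoc]

/-- Functoriality. -/
theorem map_sumPow {B : Type w} [Ring B] (κ : A →+* B) (φ : ℕ → A) (G : NCS A Y) :
    map κ (sumPow φ G) = sumPow (fun n => κ (φ n)) (map κ G) := by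
  ext w
  rw [coeff_map, coeff_sumPow_def, coeff_sumPow_def, map_sum]
  refine Finset.sum_congr rfl fun n _ => ?_
  rw [map_mul, ← map_pow, coeff_map]

/-- Conjugation by a series all of whose coefficients commute with the `φ n`. -/
theorem conj_sumPow {G : NCS A Y} (hG : coeff [] G = 0) (φ : ℕ → A) {U U' : NCS A Y}
    (hUU' : U * U' = 1) (hU'U : U' * U = 1)
    (hcomm : ∀ n w, φ n * coeff w U = coeff w U * φ n) :
    coeff [] (U * G * U') = 0 ∧ U * sumPow φ G * U' = sumPow φ (U * G * U') := by
  have h0 : coeff [] (U * G * U') = 0 := by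
    rw [coeff_mul_nil, coeff_mul_nil, hG, mul_zero, zero_mul]
  refine ⟨h0, ?_⟩
  have hpow : ∀ n, (U * G * U') ^ n = U * G ^ n * U' := by
    intro n
    induction n with
    | zero => simp [hUU']
    | succ n ih =>
      rw [pow_succ, ih, pow_succ]
      calc U * G ^ n * U' * (U * G * U') = U * G ^ n * (U' * U) * G * U' := by
            simp only [mul_assoc]
        _ = U * (G ^ n * G) * U' := by rw [hU'U, mul_one]; simp only [mul_assoc]
  have hC : ∀ n, U * C (φ n) = C (φ n) * U := by
    intro n
    ext w
    rw [coeff_mul_C, C_mul_coeff, hcomm]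
  apply eq_sumPow_of_isSeriesIn h0
  intro N w hw
  rw [coeff_sub, coeff_partial]
  have h1 := isSeriesIn_sumPow hG φ N
  have h2 := mul_mem_ordGE_left (mul_mem_ordGE_right U h1) U' w hw
  have : U * (sumPow φ G - ∑ n ∈ Finset.range N, C (φ n) * G ^ n) * U'
      = U * sumPow φ G * U' - ∑ n ∈ Finset.range N, C (φ n) * (U * G * U') ^ n := by
    rw [mul_sub, sub_mul, Finset.mul_sum, Finset.sum_mul]
    congr 1
    refine Finset.sum_congr rfl fun n _ => ?_
    rw [hpow, ← mul_assoc, hC, mul_assoc, mul_assoc, mul_assoc]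
  rw [this, coeff_sub, coeff_partial] at h2
  exact h2

/-- Two series agreeing to order `N`: the powers agree to order `N + n - 1`. -/
theorem pow_sub_pow_mem {H H' : NCS A Y} (hH : coeff [] H = 0) (hH' : coeff [] H' = 0) {N : ℕ}
    (h : H - H' ∈ ordGE Y A N) (n : ℕ) :
    H ^ (n + 1) - H' ^ (n + 1) ∈ ordGE Y A (N + n) := by
  induction n with
  | zero => simpa using h
  | succ n ih =>
    have e : H ^ (n + 1 + 1) - H' ^ (n + 1 + 1)
        = H ^ (n + 1) * (H - H') + (H ^ (n + 1) - H' ^ (n + 1)) * H' := by
      rw [pow_succ H (n + 1), pow_succ H' (n + 1), mul_sub, sub_mul]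
      abel
    rw [e]
    refine add_mem ?_ ?_
    · have := mul_mem_ordGE (pow_mem_ordGE (mem_ordGE_one hH) (n + 1)) h
      convert this using 2
      omega
    · have := mul_mem_ordGE ih (mem_ordGE_one hH')
      convert this using 2
      omega

end General

section Comm

variable {K : Type v} [CommRing K] {Y : Type u}

/-- Evaluation of a one-variable power series at a series with zero constant term. -/
noncomputable def evalP (p : K⟦X⟧) (H : NCS K Y) : NCS K Y :=
  sumPow (fun n => PowerSeries.coeff n p) H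

theorem C_comm (a : K) (f : NCS K Y) : C a * f = f * C a := by
  ext w
  rw [C_mul_coeff, coeff_mul_C, mul_comm]

theorem evalP_add (p q : K⟦X⟧) (H : NCS K Y) : evalP (p + q) H = evalP p H + evalP q H := by
  unfold evalP
  rw [← sumPow_add]
  simp only [map_add]

theorem evalP_C_mul (a : K) (p : K⟦X⟧) (H : NCS K Y) :
    evalP (PowerSeries.C a * p) H = C a * evalP p H := by
  unfold evalP
  rw [C_mul_sumPow]
  simp only [PowerSeries.coeff_C_mul]

theorem evalP_mul_X (p : K⟦X⟧) {H : NCS K Y} (hH : coeff [] H = 0) :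
    evalP (p * PowerSeries.X) H = evalP p H * H := by
  unfold evalP
  rw [sumPow_eq_add_mul hH]
  simp [PowerSeries.coeff_mul_X_pow', PowerSeries.coeff_succ_mul_X]

theorem evalP_C (a : K) {H : NCS K Y} (hH : coeff [] H = 0) :
    evalP (PowerSeries.C a) H = C a := by
  ext w
  unfold evalP
  rw [coeff_sumPow hH _ (N := w.length + 1) (by omega), Finset.sum_eq_single 0]
  · simp [PowerSeries.coeff_C]
    cases w <;> simp
  · intro n _ hn
    simp [PowerSeries.coeff_C, hn]
  · simp

theorem evalP_one {H : NCS K Y} (hH : coeff [] H = 0) : evalP (1 : K⟦X⟧) H = 1 := by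
  have := evalP_C (1 : K) hH
  simpa using this

/-- The difference `evalP (p * q) - evalP p * evalP q` has arbitrarily high order. -/
theorem evalP_mul_aux {H : NCS K Y} (hH : coeff [] H = 0) (n : ℕ) (p q : K⟦X⟧) :
    evalP (p * q) H - evalP p H * evalP q H ∈ ordGE Y K n := by
  induction n generalizing q with
  | zero => intro w hw; omega
  | succ n ih =>
    have hq : q = (PowerSeries.mk fun k => PowerSeries.coeff (k + 1) q) * PowerSeries.X
        + PowerSeries.C (PowerSeries.constantCoeff q) := PowerSeries.eq_shift_mul_X_add_const q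
    set q' := PowerSeries.mk fun k => PowerSeries.coeff (k + 1) q
    set a := PowerSeries.constantCoeff q
    have e : evalP (p * q) H - evalP p H * evalP q H
        = (evalP (p * q') H - evalP p H * evalP q' H) * H := by
      rw [hq]
      have e1 : p * (q' * PowerSeries.X + PowerSeries.C a)
          = p * q' * PowerSeries.X + PowerSeries.C a * p := by ring
      rw [e1, evalP_add, evalP_mul_X _ hH, evalP_C_mul, evalP_add, evalP_mul_X _ hH, evalP_C a hH,
        sub_mul, mul_add, mul_assoc (evalP p H), C_comm a (evalP p H)]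
      abel
    rw [e]
    exact mul_mem_ordGE (ih q') (mem_ordGE_one hH)

theorem evalP_mul {H : NCS K Y} (hH : coeff [] H = 0) (p q : K⟦X⟧) :
    evalP (p * q) H = evalP p H * evalP q H := by
  rw [← sub_eq_zero]
  exact eq_zero_of_forall_ordGE fun n => evalP_mul_aux hH n p q

theorem evalP_pow {H : NCS K Y} (hH : coeff [] H = 0) (p : K⟦X⟧) (n : ℕ) :
    evalP (p ^ n) H = evalP p H ^ n := by
  induction n with
  | zero => simpa using evalP_one hH
  | succ n ih => rw [pow_succ, evalP_mul hH, ih, pow_succ]

theorem evalP_X {H : NCS K Y} (hH : coeff [] H = 0) : evalP (PowerSeries.X : K⟦X⟧) H = H := by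
  have := evalP_mul_X (1 : K⟦X⟧) hH
  rw [one_mul, evalP_one hH, one_mul] at this
  exact this

theorem coeff_nil_evalP (p : K⟦X⟧) {H : NCS K Y} (hH : coeff [] H = 0) :
    coeff [] (evalP p H) = PowerSeries.constantCoeff p := by
  unfold evalP
  rw [coeff_nil_sumPow _ hH]
  simp

/-- **Post-composition.**  If `b = ∑ C(φ n) (map j G)^n` and `G = F ∘ H`, then `b` is a series in
`map j H` with the explicit coefficients `φ' r = ∑_{n ≤ r} φ n * j ([X^r] F^n)`. -/
theorem sumPow_evalP {A : Type w} [Ring A] (j : K →+* A) (φ : ℕ → A) (F : K⟦X⟧)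
    (hF : PowerSeries.constantCoeff F = 0) {H : NCS K Y} (hH : coeff [] H = 0) :
    sumPow φ (map j (evalP F H))
      = sumPow (fun r => ∑ n ∈ Finset.range (r + 1), φ n * j (PowerSeries.coeff r (F ^ n))) (map j H) := by
  have hG : coeff [] (evalP F H) = 0 := by rw [coeff_nil_evalP F hH, hF]
  have hFpow : ∀ n r, r < n → PowerSeries.coeff r (F ^ n) = 0 := by
    intro n r hr
    have hX : PowerSeries.X ∣ F := PowerSeries.X_dvd_iff.2 hF
    have : PowerSeries.X ^ n ∣ F ^ n := pow_dvd_pow_of_dvd hX n
    exact PowerSeries.X_pow_dvd_iff.1 this r hr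
  ext w
  rw [coeff_sumPow_def, coeff_sumPow_def]
  have h1 : ∀ n, coeff w (map j (evalP F H) ^ n)
      = ∑ r ∈ Finset.range (w.length + 1), j (PowerSeries.coeff r (F ^ n)) * j (coeff w (H ^ r)) := by
    intro n
    rw [← map_pow, coeff_map, ← evalP_pow hH, evalP, coeff_sumPow_def, map_sum]
    simp only [map_mul]
  simp only [h1, Finset.mul_sum, Finset.sum_mul]
  rw [Finset.sum_comm]
  refine Finset.sum_congr rfl fun r hr => ?_
  rw [Finset.mem_range] at hr
  have h2 : coeff w (map j H ^ r) = j (coeff w (H ^ r)) := by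
    rw [← map_pow, coeff_map]
  rw [h2]
  have hsub : Finset.range (r + 1) ⊆ Finset.range (w.length + 1) := by
    intro i hi
    rw [Finset.mem_range] at hi ⊢
    omega
  rw [← Finset.sum_subset hsub]
  · refine Finset.sum_congr rfl fun n _ => ?_
    rw [mul_assoc]
  · intro n _ hn
    rw [Finset.mem_range] at hn
    rw [hFpow n r (by omega)]
    simp

/-- Higher part of `F`. -/
noncomputable def high (F : K⟦X⟧) : ℕ → K := fun n => if n < 2 then 0 else PowerSeries.coeff n F

theorem contraction (F : K⟦X⟧) {H H' : NCS K Y} (hH : coeff [] H = 0) (hH' : coeff [] H' = 0)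
    {N : ℕ} (h : H - H' ∈ ordGE Y K N) :
    sumPow (high F) H - sumPow (high F) H' ∈ ordGE Y K (N + 1) := by
  intro w hw
  rw [coeff_sub, coeff_sumPow_def, coeff_sumPow_def, ← Finset.sum_sub_distrib]
  refine Finset.sum_eq_zero fun n _ => ?_
  rw [← mul_sub]
  by_cases hn : n < 2
  · simp [high, hn]
  · obtain ⟨k, rfl⟩ : ∃ k, n = k + 1 + 1 := ⟨n - 2, by omega⟩
    have := pow_sub_pow_mem hH hH' h (k + 1) w (by omega)
    rw [coeff_sub] at this
    rw [this, mul_zero]

/-- The fixed point iteration. -/
noncomputable def iter (F : K⟦X⟧) (f : NCS K Y) : ℕ → NCS K Y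
  | 0 => 0
  | k + 1 => f - sumPow (high F) (iter F f k)

theorem iter_nil (F : K⟦X⟧) {f : NCS K Y} (hf : coeff [] f = 0) (k : ℕ) :
    coeff [] (iter F f k) = 0 := by
  cases k with
  | zero => rfl
  | succ k =>
    have ih := iter_nil F hf k
    rw [iter, coeff_sub, hf, coeff_nil_sumPow _ ih]
    simp [high]

theorem iter_succ_sub (F : K⟦X⟧) {f : NCS K Y} (hf : coeff [] f = 0) (k : ℕ) :
    iter F f (k + 1) - iter F f k ∈ ordGE Y K k := by
  induction k with
  | zero => intro w hw; omega
  | succ k ih =>
    have := contraction F (iter_nil F hf (k + 1)) (iter_nil F hf k) ih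
    have e : iter F f (k + 1 + 1) - iter F f (k + 1)
        = -(sumPow (high F) (iter F f (k + 1)) - sumPow (high F) (iter F f k)) := by
      rw [iter, iter]
      abel
    rw [e]
    exact neg_mem this

theorem iter_sub_of_le (F : K⟦X⟧) {f : NCS K Y} (hf : coeff [] f = 0) {k l : ℕ} (h : k ≤ l) :
    iter F f l - iter F f k ∈ ordGE Y K k := by
  induction l, h using Nat.le_induction with
  | base => simp
  | succ l hl ih =>
    have e : iter F f (l + 1) - iter F f k = (iter F f (l + 1) - iter F f l) + (iter F f l - iter F f k) := by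
      abel
    rw [e]
    exact add_mem (ordGE_mono hl (iter_succ_sub F hf l)) ih

/-- The limit. -/
noncomputable def solve (F : K⟦X⟧) (f : NCS K Y) : NCS K Y :=
  fun w => coeff w (iter F f (w.length + 1))

theorem solve_sub_iter (F : K⟦X⟧) {f : NCS K Y} (hf : coeff [] f = 0) (k : ℕ) :
    solve F f - iter F f k ∈ ordGE Y K k := by
  intro w hw
  rw [coeff_sub]
  show coeff w (iter F f (w.length + 1)) - _ = 0
  have := iter_sub_of_le F hf (k := w.length + 1) (l := k) (by omega) w (by omega)
  rw [coeff_sub] at this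
  rw [← neg_sub, this, neg_zero]

theorem solve_nil (F : K⟦X⟧) {f : NCS K Y} (hf : coeff [] f = 0) : coeff [] (solve F f) = 0 :=
  iter_nil F hf 1

/-- `solve F f` is the fixed point of `H ↦ f - sumPow (high F) H`. -/
theorem solve_eq (F : K⟦X⟧) {f : NCS K Y} (hf : coeff [] f = 0) :
    solve F f = f - sumPow (high F) (solve F f) := by
  rw [← sub_eq_zero]
  refine eq_zero_of_forall_ordGE fun N => ?_
  have h1 := solve_sub_iter F hf (N + 1)
  have h2 := contraction F (solve_nil F hf) (iter_nil F hf N) (solve_sub_iter F hf N)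
  have e : solve F f - (f - sumPow (high F) (solve F f))
      = (solve F f - iter F f (N + 1))
        + (sumPow (high F) (solve F f) - sumPow (high F) (iter F f N)) := by
    rw [iter]; abel
  rw [e]
  exact ordGE_mono (by omega) (add_mem h1 h2)

theorem coeff_high_sumPow_single {H : NCS K Y} (F : K⟦X⟧) (hH : coeff [] H = 0) (y : Y) :
    coeff [y] (sumPow (high F) H) = 0 := by
  rw [coeff_sumPow_def]
  refine Finset.sum_eq_zero fun n hn => ?_
  have hn' : n < 2 := by simpa using hn
  simp [high, hn']

/-- `∑ₙ C (φ n) H^n` with `φ = δ₁` is `H`. -/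
theorem sumPow_delta {H : NCS K Y} (hH : coeff [] H = 0) :
    sumPow (fun n => if n = 1 then (1 : K) else 0) H = H := by
  ext w
  rw [coeff_sumPow hH _ (N := w.length + 2) (by omega), Finset.sum_eq_single 1]
  · simp
  · intro n _ hn
    simp [hn]
  · intro h
    simp at h

theorem evalP_eq_high (F : K⟦X⟧) (h0 : PowerSeries.constantCoeff F = 0)
    (h1 : PowerSeries.coeff 1 F = 1) {H : NCS K Y} (hH : coeff [] H = 0) :
    evalP F H = sumPow (high F) H + H := by
  have hδ := sumPow_delta hH
  have e : evalP F H = sumPow (fun n => high F n + if n = 1 then (1 : K) else 0) H := by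
    unfold evalP
    congr 1
    funext n
    by_cases hn : n < 2
    · interval_cases n
      · simp [high, h0]
      · simp [high, h1]
    · have : n ≠ 1 := by omega
      simp [high, hn, this]
  rw [e, sumPow_add, hδ]

theorem coeff_eq_high_add (F : K⟦X⟧) (h0 : PowerSeries.constantCoeff F = 0)
    (h1 : PowerSeries.coeff 1 F = 1) (n : ℕ) :
    PowerSeries.coeff n F = high F n + if n = 1 then (1 : K) else 0 := by
  by_cases hn : n < 2
  · interval_cases n
    · simp [high, h0]
    · simp [high, h1]
  · have : n ≠ 1 := by omega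
    simp [high, hn, this]

/-- **Solving `F ∘ H = f`**.  (`F 0 = 0`, `F 1 = 1`, `f(0) = 0`.) -/
theorem evalP_solve (F : K⟦X⟧) (h0 : PowerSeries.constantCoeff F = 0)
    (h1 : PowerSeries.coeff 1 F = 1) {f : NCS K Y} (hf : coeff [] f = 0) :
    evalP F (solve F f) = f := by
  rw [evalP_eq_high F h0 h1 (solve_nil F hf)]
  nth_rewrite 2 [solve_eq F hf]
  abel

/-- The solution has the same linear part. -/
theorem coeff_solve_single (F : K⟦X⟧) {f : NCS K Y} (hf : coeff [] f = 0) (y : Y) :
    coeff [y] (solve F f) = coeff [y] f := by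
  rw [solve_eq F hf, coeff_sub, coeff_high_sumPow_single F (solve_nil F hf), sub_zero]

/-- Uniqueness of the solution. -/
theorem solve_unique (F : K⟦X⟧) (h0 : PowerSeries.constantCoeff F = 0)
    (h1 : PowerSeries.coeff 1 F = 1) {H H' : NCS K Y} (hH : coeff [] H = 0) (hH' : coeff [] H' = 0)
    (h : evalP F H = evalP F H') : H = H' := by
  rw [← sub_eq_zero]
  have key : ∀ N, H - H' ∈ ordGE Y K N := by
    intro N
    induction N with
    | zero => intro w hw; omega
    | succ N ih =>
      have hc := contraction F hH hH' ih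
      rw [evalP_eq_high F h0 h1 hH, evalP_eq_high F h0 h1 hH'] at h
      have e : H - H' = -(sumPow (high F) H - sumPow (high F) H') := by
        have := sub_eq_zero.2 h
        rw [← sub_eq_zero, ← this]
        abel
      rw [e]
      exact neg_mem hc
  exact eq_zero_of_forall_ordGE key

/-- Pure powers. -/
theorem coeff_replicate_pow (z : Y) {H : NCS K Y} (hH : coeff [] H = 0) {J : ℕ}
    (hJ : ∀ j ≤ J, coeff (List.replicate j z) H = if j = 1 then 1 else 0) (n : ℕ) :
    ∀ k, k ≤ J + n → coeff (List.replicate k z) (H ^ (n + 1)) = if k = n + 1 then 1 else 0 := by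
  induction n with
  | zero =>
    intro k hk
    simpa using hJ k (by omega)
  | succ n ih =>
    intro k hk
    rw [pow_succ, coeff_mul, List.length_replicate]
    have hterm : ∀ i ∈ Finset.range (k + 1), coeff (List.take i (List.replicate k z)) (H ^ (n + 1)) *
        coeff (List.drop i (List.replicate k z)) H
        = if i + 1 = k ∧ k = n + 1 + 1 then 1 else 0 := by
      intro i hi
      rw [Finset.mem_range] at hi
      rw [List.take_replicate, List.drop_replicate, Nat.min_eq_left (by omega)]
      by_cases hkJ : k - i ≤ J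
      · rw [hJ _ hkJ]
        by_cases h1 : k - i = 1
        · have hik : i + 1 = k := by omega
          rw [if_pos h1, mul_one, ih i (by omega)]
          by_cases hc : k = n + 1 + 1
          · have : i = n + 1 := by omega
            simp [this, hc]
          · have : i ≠ n + 1 := by omega
            simp [this, hc]
        · have : ¬ (i + 1 = k ∧ k = n + 1 + 1) := by
            rintro ⟨h2, -⟩
            omega
          rw [if_neg h1, mul_zero, if_neg this]
      · have hi' : i < n + 1 := by omega
        rw [coeff_pow_eq_zero hH (by simpa using hi'), zero_mul]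
        have : ¬ (i + 1 = k ∧ k = n + 1 + 1) := by
          rintro ⟨h2, h3⟩
          omega
        rw [if_neg this]
    rw [Finset.sum_congr rfl hterm]
    by_cases hk2 : k = n + 1 + 1
    · rw [if_pos hk2, Finset.sum_eq_single (k - 1)]
      · rw [if_pos ⟨by omega, hk2⟩]
      · intro i hi hne
        rw [Finset.mem_range] at hi
        rw [if_neg]
        rintro ⟨h2, -⟩
        omega
      · intro h
        rw [Finset.mem_range] at h
        omega
    · rw [if_neg hk2]
      refine Finset.sum_eq_zero fun i _ => ?_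
      rw [if_neg]
      rintro ⟨-, h3⟩
      exact hk2 h3

/-- If `f(z,0) = F(z)` then the solution satisfies `H(z,0) = z`. -/
theorem coeff_solve_replicate (z : Y) (F : K⟦X⟧) (h0 : PowerSeries.constantCoeff F = 0)
    (h1 : PowerSeries.coeff 1 F = 1) {f : NCS K Y} (hf : coeff [] f = 0)
    (hpure : ∀ k, coeff (List.replicate k z) f = PowerSeries.coeff k F) (k : ℕ) :
    coeff (List.replicate k z) (solve F f) = if k = 1 then 1 else 0 := by
  have hH := solve_nil F hf
  induction k using Nat.strong_induction_on with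
  | _ k ih =>
    rcases k with _ | _ | k
    · simpa using hH
    · have := coeff_solve_single F hf z
      rw [show List.replicate (0 + 1) z = [z] from rfl, this]
      have h2 := hpure 1
      rw [show List.replicate 1 z = [z] from rfl] at h2
      rw [h2, h1]
      simp
    · set j := k + 1 + 1 with hj
      rw [if_neg (by omega)]
      rw [solve_eq F hf, coeff_sub, hpure, coeff_sumPow_def, List.length_replicate]
      have hJ : ∀ i ≤ k + 1, coeff (List.replicate i z) (solve F f) = if i = 1 then 1 else 0 :=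
        fun i hi => ih i (by omega)
      have hterm : ∀ n ∈ Finset.range (j + 1), high F n * coeff (List.replicate j z) (solve F f ^ n)
          = if n = j then PowerSeries.coeff j F else 0 := by
        intro n hn
        by_cases hn2 : n < 2
        · have : n ≠ j := by omega
          simp [high, hn2, this]
        · obtain ⟨l, rfl⟩ : ∃ l, n = l + 1 := ⟨n - 1, by omega⟩
          rw [coeff_replicate_pow z hH hJ l j (by omega)]
          by_cases hc : l + 1 = j
          · simp [hc, hj, high]
          · have : j ≠ l + 1 := fun h => hc h.symm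
            simp [hc, this]
      rw [Finset.sum_congr rfl hterm, Finset.sum_ite_eq' (Finset.range (j + 1)) j]
      simp

end Comm

end Crest.Agent.Lib.Kurosh.SeriesComp
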