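import Mathlib
import Crest.Agent.Lib.Kurosh.Section
import Crest.Agent.Lib.Kurosh.SeriesComp
import Crest.Agent.Lib.Kurosh.GoodPair

/-!
# The abstract end of `finish` (blueprint 5(d))

`F` a field of characteristic zero, `K` an `F`-algebra, `g ∈ NCS(K, L)` with zero constant term,
`Tr : K → F` linear, `φ i` power series in `K` whose image under `Tr` is cyc-null:
`R i = tmap Tr (∑ₙ C (φ i n) g^n)`, functionals `F j = tmap (Tr (ê j * ·)) g`.

If the linear forms `dF j` are onto, every nonzero combination of the two-forms `ω i` of the `R i`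
has rank `≥ 3 ρ` on `V'' = ⋂ ker dF j`, and `{φ i 1, ê j}` is separating for `Tr`, then there is a section
`θ : L → NCS(F, Fin 2)` (zero constant terms, independent tangents) with `g ∘ θ = 0`.

This is GoodPair + Lemma H′ (`NCSeries.solve`) + the argument `r = 0`.
-/

set_option autoImplicit false

namespace Crest.Agent.Lib.Kurosh.FinishCore

open NCSeries Module SeriesComp

variable {F : Type*} [Field F] {K : Type*} [Ring K] [Algebra F K]
variable {L : Type*} [Fintype L]

/-- The two-form of a series in `NCS(F, L)` as a bilinear form. -/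
def form2 (R : NCSeries L F) : (L → F) →ₗ[F] (L → F) →ₗ[F] F :=
  LinearMap.mk₂ F (fun z z' => ∑ x, ∑ x', coeff [x, x'] R * (z x * z' x'))
    (fun z z₁ z' => by
      simp only [Pi.add_apply, add_mul, mul_add, Finset.sum_add_distrib])
    (fun c z z' => by
      simp only [Pi.smul_apply, smul_eq_mul, Finset.mul_sum]
      refine Finset.sum_congr rfl fun x _ => Finset.sum_congr rfl fun x' _ => ?_
      ring)
    (fun z z' z₁ => by
      simp only [Pi.add_apply, mul_add, Finset.sum_add_distrib])
    (fun c z z' => by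
      simp only [Pi.smul_apply, smul_eq_mul, Finset.mul_sum]
      refine Finset.sum_congr rfl fun x _ => Finset.sum_congr rfl fun x' _ => ?_
      ring)

theorem form2_apply (R : NCSeries L F) (z z' : L → F) :
    form2 R z z' = ∑ x, ∑ x', coeff [x, x'] R * (z x * z' x') := rfl

/-- Skewness. -/
theorem form2_skew [CharZero F] {R : NCSeries L F} (hR : CycNull R) (z z' : L → F) :
    form2 R z z' = - form2 R z' z := by
  rw [form2_apply, form2_apply, Finset.sum_comm, ← Finset.sum_neg_distrib]
  refine Finset.sum_congr rfl fun x' _ => ?_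
  rw [← Finset.sum_neg_distrib]
  refine Finset.sum_congr rfl fun x _ => ?_
  rw [CycNull.coeff_pair hR x x']
  ring

theorem form2_self [CharZero F] {R : NCSeries L F} (hR : CycNull R) (z : L → F) :
    form2 R z z = 0 := by
  have h := form2_skew hR z z
  have h2 : (2 : F) * form2 R z z = 0 := by
    rw [two_mul]
    nth_rewrite 1 [h]
    ring
  exact (mul_eq_zero.mp h2).resolve_left two_ne_zero

/-- The functional `x ↦ Tr (e * x)`. -/
def trMul (Tr : K →ₗ[F] F) (e : K) : K →ₗ[F] F := Tr ∘ₗ LinearMap.mulLeft F e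

@[simp] theorem trMul_apply (Tr : K →ₗ[F] F) (e x : K) : trMul Tr e x = Tr (e * x) := rfl

/-- The linear form `dF`. -/
def dF (Tr : K →ₗ[F] F) (g : NCSeries L K) (e : K) : (L → F) →ₗ[F] F where
  toFun z := ∑ x, Tr (e * coeff [x] g) * z x
  map_add' z z' := by simp only [Pi.add_apply, mul_add, Finset.sum_add_distrib]
  map_smul' c z := by
    simp only [Pi.smul_apply, smul_eq_mul, RingHom.id_apply, Finset.mul_sum]
    refine Finset.sum_congr rfl fun x _ => ?_
    ring

theorem dF_apply (Tr : K →ₗ[F] F) (g : NCSeries L K) (e : K) (z : L → F) :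
    dF Tr g e z = ∑ x, Tr (e * coeff [x] g) * z x := rfl

/-- Sections commute with `∑ₙ C (φ n) g^n`. -/
theorem sec_sumPow {Y' : Type*} (θ : L → NCSeries Y' F) (h0 : ∀ y, coeff [] (θ y) = 0)
    (φ : ℕ → K) {g : NCSeries L K} (hg : coeff [] g = 0) :
    sec θ h0 (sumPow φ g) = sumPow φ (sec θ h0 g) := by
  have hg' : coeff [] (sec θ h0 g) = 0 := by rw [coeff_nil_sec, hg]
  apply eq_sumPow_of_isSeriesIn hg'
  intro N
  have h1 := isSeriesIn_sumPow hg φ N
  have h2 := sec_mem_ordGE θ h0 h1
  rw [map_sub, map_sum] at h2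
  simpa only [map_mul, map_pow, sec_C] using h2

/-- The lowest term of a series in `r`: if `r` has order `≥ n ≥ 1`, the coefficient of `∑ₙ C(φ n) r^n` at a
word of length `n` is `φ 1 * coeff w r`. -/
theorem coeff_sumPow_lowest {Y' : Type*} (φ : ℕ → K) {r : NCSeries Y' K} {w : List Y'}
    (hw : w ≠ []) (hr : r ∈ ordGE Y' K w.length) :
    coeff w (sumPow φ r) = φ 1 * coeff w r := by
  have hlen : 1 ≤ w.length := List.length_pos_iff.mpr hw
  rw [coeff_sumPow_def]
  -- only `n = 1` survives
  rw [Finset.sum_eq_single 1]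
  · rw [pow_one]
  · intro n _ hn
    rcases Nat.lt_or_ge n 2 with h | h
    · have : n = 0 := by omega
      subst this
      cases w with
      | nil => exact absurd rfl hw
      | cons a t => simp
    · obtain ⟨k, rfl⟩ : ∃ k, n = k + 2 := ⟨n - 2, by omega⟩
      have e : r ^ (k + 2) = r ^ k * (r * r) := by rw [pow_add, pow_two]
      rw [e]
      have hrr : r * r ∈ ordGE Y' K (w.length + w.length) := mul_mem_ordGE hr hr
      have : r ^ k * (r * r) ∈ ordGE Y' K (w.length + w.length) :=
        mul_mem_ordGE_right _ hrr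
      rw [this w (by omega), mul_zero]
  · intro h
    exact absurd (Finset.mem_range.mpr (by omega)) h

/-- `C c` is cyc-null. -/
theorem cycNull_C {Y' : Type*} (c : F) : CycNull (C c : NCSeries Y' F) := by
  intro w
  unfold cycSum
  refine Finset.sum_eq_zero fun i hi => ?_
  cases hw : w.rotate i with
  | nil =>
    have : w.length = 0 := by
      have := congrArg List.length hw
      simpa using this
    rw [this] at hi
    simp at hi
  | cons a t => rfl

variable {ι J : Type*} [Fintype ι] [Fintype J]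

/-- `r = 0`, by induction on the length of the words. -/
theorem eq_zero_of_lowest {Y' : Type*} (Tr : K →ₗ[F] F) (φ : ι → ℕ → K) (ê : J → K)
    (hsep : ∀ x : K, (∀ i, Tr (φ i 1 * x) = 0) → (∀ j, Tr (ê j * x) = 0) → x = 0)
    {r : NCSeries Y' K} (hr0 : coeff [] r = 0)
    (h1 : ∀ j w, Tr (ê j * coeff w r) = 0)
    (h2 : ∀ i (w : List Y'), w ≠ [] → Tr (coeff w (sumPow (φ i) r)) = 0) : r = 0 := by
  have key : ∀ n (w : List Y'), w.length = n → coeff w r = 0 := by
    intro n
    induction n using Nat.strong_induction_on with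
    | _ n ih =>
      intro w hw
      cases w with
      | nil => exact hr0
      | cons a t =>
        have hne : (a :: t) ≠ [] := by simp
        have hmem : r ∈ ordGE Y' K (a :: t).length := by
          intro u hu
          exact ih u.length (by omega) u rfl
        refine hsep _ (fun i => ?_) (fun j => h1 j _)
        rw [← coeff_sumPow_lowest (φ i) hne hmem]
        exact h2 i _ hne
  ext w
  exact key _ w rfl

variable [DecidableEq L]

/-- The space `V''`. -/
def Vpp (Tr : K →ₗ[F] F) (g : NCSeries L K) (ê : J → K) : Submodule F (L → F) :=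
  ⨅ j, LinearMap.ker (dF Tr g (ê j))

theorem mem_Vpp {Tr : K →ₗ[F] F} {g : NCSeries L K} {ê : J → K} {z : L → F} :
    z ∈ Vpp Tr g ê ↔ ∀ j, dF Tr g (ê j) z = 0 := by
  simp [Vpp, Submodule.mem_iInf, LinearMap.mem_ker]

/-- The series `R i`. -/
noncomputable abbrev RR (Tr : K →ₗ[F] F) (φ : ℕ → K) (g : NCSeries L K) : NCSeries L F :=
  tmap Tr.toAddMonoidHom (sumPow φ g)

variable [DecidableEq ι]

/-- **The abstract end of `finish`.** -/
theorem finish_core [CharZero F] (Tr : K →ₗ[F] F) {g : NCSeries L K} (hg : coeff [] g = 0)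
    (φ : ι → ℕ → K) (hcyc : ∀ i, CycNull (RR Tr (φ i) g))
    (ê : J → K)
    (hsep : ∀ x : K, (∀ i, Tr (φ i 1 * x) = 0) → (∀ j, Tr (ê j * x) = 0) → x = 0)
    (honto : Function.Surjective fun z : L → F => fun j => dF Tr g (ê j) z)
    (h2 : 2 ≤ finrank F (Vpp Tr g ê))
    (hrank : ∀ c : ι → F, c ≠ 0 → 3 * Fintype.card ι ≤ finrank F (LinearMap.range
      (GoodPair.comb (fun i => (form2 (RR Tr (φ i) g)).domRestrict₁₂ (Vpp Tr g ê) (Vpp Tr g ê)) c))) :
    ∃ (θ : L → NCSeries (Fin 2) F) (h0 : ∀ y, coeff [] (θ y) = 0),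
      LinearIndependent F (fun y' : Fin 2 => fun y : L => coeff [y'] (θ y)) ∧ sec θ h0 g = 0 := by
  classical
  haveI : Infinite F := inferInstance
  set V := Vpp Tr g ê with hV
  let ω : ι → V →ₗ[F] V →ₗ[F] F := fun i => (form2 (RR Tr (φ i) g)).domRestrict₁₂ V V
  obtain ⟨v', w', hvw, hsurj, hli⟩ := GoodPair.goodPair h2 ω hrank
  -- the equations
  let Fi : J → NCSeries L F := fun j => tmap (trMul Tr (ê j)).toAddMonoidHom g
  let Ra : ι → NCSeries L F := fun i => RR Tr (φ i) g - C (Tr (φ i 0))
  let v : Fin 2 → L → F := fun z => ((![v', w'] z : V) : L → F)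
  have hv0 : v 0 = (v' : L → F) := rfl
  have hv1 : v 1 = (w' : L → F) := rfl
  have hvmem : ∀ z, v z ∈ V := fun z => (![v', w'] z).2
  have hFi0 : ∀ j, coeff [] (Fi j) = 0 := by
    intro j
    show Tr (ê j * coeff [] g) = 0
    rw [hg, mul_zero, map_zero]
  have hRa0 : ∀ i, coeff [] (Ra i) = 0 := by
    intro i
    show Tr (coeff [] (sumPow (φ i) g)) - Tr (φ i 0) = 0
    rw [coeff_nil_sumPow _ hg, sub_self]
  have hRa1 : ∀ i, CycNull (Ra i) := fun i => (hcyc i).sub (cycNull_C _)
  have hRa2 : ∀ i x x', coeff [x, x'] (Ra i) = coeff [x, x'] (RR Tr (φ i) g) := by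
    intro i x x'
    show coeff [x, x'] (RR Tr (φ i) g) - coeff [x, x'] (C (Tr (φ i 0))) = _
    rw [coeff_C_cons, sub_zero]
  have hform : ∀ i (z z' : L → F), ∑ y, ∑ y', coeff [y, y'] (Ra i) * (z y * z' y') =
      form2 (RR Tr (φ i) g) z z' := by
    intro i z z'
    rw [form2_apply]
    simp only [hRa2]
  have hFv : ∀ j z, ∑ y, coeff [y] (Fi j) * v z y = 0 := by
    intro j z
    exact (mem_Vpp.mp (hvmem z)) j
  have hRv : ∀ i z z', ∑ y, ∑ y', coeff [y, y'] (Ra i) * (v z y * v z' y') = 0 := by
    intro i z z'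
    rw [hform]
    fin_cases z <;> fin_cases z'
    · exact form2_self (hcyc i) _
    · exact hvw i
    · show form2 _ (v 1) (v 0) = 0
      rw [form2_skew (hcyc i), hv0, hv1]
      have := hvw i
      simp only [ω, LinearMap.domRestrict₁₂_apply] at this
      rw [this, neg_zero]
    · exact form2_self (hcyc i) _
  have hOnto : SolveOnto Fi Ra v := by
    rintro ⟨p, q⟩
    obtain ⟨X0, hX0⟩ := honto p
    obtain ⟨x, hx⟩ := hsurj ((fun a => q (a, 0) - form2 (RR Tr (φ a) g) (v 0) X0),
      (fun a => q (a, 1) - form2 (RR Tr (φ a) g) (v 1) X0))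
    have hx1 : ∀ a, form2 (RR Tr (φ a) g) (v 0) x = q (a, 0) - form2 (RR Tr (φ a) g) (v 0) X0 :=
      fun a => congrFun (congrArg Prod.fst hx) a
    have hx2 : ∀ a, form2 (RR Tr (φ a) g) (v 1) x = q (a, 1) - form2 (RR Tr (φ a) g) (v 1) X0 :=
      fun a => congrFun (congrArg Prod.snd hx) a
    refine ⟨X0 + x, ?_⟩
    simp only [hform]
    refine Prod.ext (funext fun j => ?_) (funext fun c => ?_)
    · show dF Tr g (ê j) (X0 + x) = p j
      rw [map_add, (mem_Vpp.mp x.2) j, add_zero]
      exact congrFun hX0 j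
    · obtain ⟨a, z⟩ := c
      show form2 _ (v z) (X0 + x) = q (a, z)
      rw [map_add]
      fin_cases z
      · show form2 _ (v 0) X0 + form2 _ (v 0) x = q (a, 0)
        rw [hx1]; ring
      · show form2 _ (v 1) X0 + form2 _ (v 1) x = q (a, 1)
        rw [hx2]; ring
  obtain ⟨θ, h0, hL, hF, hR⟩ := solve hFi0 hRa0 hRa1 hFv hRv hOnto
  refine ⟨θ, h0, ?_, ?_⟩
  · -- independence
    have hcoef : (fun y' : Fin 2 => fun y : L => coeff [y'] (θ y)) = v := by
      funext z y
      have := hL y [z] (by simp)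
      rw [coeff_sub, sub_eq_zero, coeff_lin_single] at this
      exact this
    rw [hcoef]
    exact hli.map' V.subtype (Submodule.ker_subtype _)
  · -- r = 0
    set r := sec θ h0 g with hr
    refine eq_zero_of_lowest Tr φ ê hsep ?_ (fun j w => ?_) (fun i w hw => ?_)
    · rw [hr, coeff_nil_sec, hg]
    · have := sec_tmap_functional θ h0 (trMul Tr (ê j)) g
      rw [← hr] at this
      have h3 : comp θ h0 (Fi j) = 0 := hF j
      have h4 := congrArg (coeff w) this
      rw [show tmap (trMul Tr (ê j)).toAddMonoidHom g = Fi j from rfl, h3] at h4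
      exact h4
    · have := sec_tmap_functional θ h0 Tr (sumPow (φ i) g)
      rw [sec_sumPow θ h0 _ hg, ← hr] at this
      have h3 : comp θ h0 (RR Tr (φ i) g) = C (Tr (φ i 0)) := by
        have h5 : RR Tr (φ i) g = Ra i + C (Tr (φ i 0)) := by
          simp [Ra]
        rw [h5, map_add, hR i, zero_add, comp_C]
      have h4 := congrArg (coeff w) this
      rw [show tmap Tr.toAddMonoidHom (sumPow (φ i) g) = RR Tr (φ i) g from rfl, h3] at h4
      cases w with
      | nil => exact absurd rfl hw
      | cons a t => exact h4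

/-- The linear map `z ↦ ∑ x, z x • g_x`. -/
def hLin (g : NCSeries L K) : (L → F) →ₗ[F] K where
  toFun z := ∑ x, z x • coeff [x] g
  map_add' z z' := by simp only [Pi.add_apply, add_smul, Finset.sum_add_distrib]
  map_smul' c z := by
    simp only [Pi.smul_apply, smul_eq_mul, RingHom.id_apply, Finset.smul_sum, mul_smul]

theorem hLin_apply (g : NCSeries L K) (z : L → F) :
    hLin (F := F) g z = ∑ x, z x • coeff [x] g := rfl

theorem dF_eq_hLin (Tr : K →ₗ[F] F) (g : NCSeries L K) (e : K) (z : L → F) :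
    dF Tr g e z = Tr (e * hLin g z) := by
  rw [dF_apply, hLin_apply, Finset.mul_sum, map_sum]
  refine Finset.sum_congr rfl fun x _ => ?_
  rw [mul_smul_comm, map_smul, smul_eq_mul, mul_comm]

/-- **`finish`, second form.**  `Rel = {s : Tr (s g_x) = 0 ∀ x}` is spanned by the
`φ i 1`, `Tr` is nondegenerate, and the rank bound holds on `T'' = ker (z ↦ ∑ z x • g_x)`. -/
theorem finish_rel [FiniteDimensional F K] [CharZero F] (Tr : K →ₗ[F] F)
    (hTr : ∀ x : K, (∀ y, Tr (y * x) = 0) → x = 0)
    {g : NCSeries L K} (hg : coeff [] g = 0)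
    (φ : ι → ℕ → K) (hcyc : ∀ i, CycNull (RR Tr (φ i) g))
    (hB1 : ∀ i x, Tr (φ i 1 * coeff [x] g) = 0)
    (hRel : ∀ s : K, (∀ x, Tr (s * coeff [x] g) = 0) →
      s ∈ Submodule.span F (Set.range fun i => φ i 1))
    (h2 : 2 ≤ finrank F (LinearMap.ker (hLin (F := F) g)))
    (hrank : ∀ c : ι → F, c ≠ 0 → 3 * Fintype.card ι ≤ finrank F (LinearMap.range
      (GoodPair.comb (fun i => (form2 (RR Tr (φ i) g)).domRestrict₁₂
        (LinearMap.ker (hLin (F := F) g)) (LinearMap.ker (hLin (F := F) g))) c))) :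
    ∃ (θ : L → NCSeries (Fin 2) F) (h0 : ∀ y, coeff [] (θ y) = 0),
      LinearIndependent F (fun y' : Fin 2 => fun y : L => coeff [y'] (θ y)) ∧ sec θ h0 g = 0 := by
  classical
  -- the complement
  set S := Submodule.span F (Set.range fun i => φ i 1) with hS
  obtain ⟨D, hD⟩ := Submodule.exists_isCompl S
  let b := Module.finBasis F D
  let ê : Fin (finrank F D) → K := fun j => (b j : K)
  have hspan : ∀ f : K →ₗ[F] F, (∀ i, f (φ i 1) = 0) → (∀ j, f (ê j) = 0) → f = 0 := by
    intro f h1 h2
    have hS0 : S ≤ LinearMap.ker f := by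
      rw [hS, Submodule.span_le]
      rintro _ ⟨i, rfl⟩
      exact h1 i
    have hD0 : D ≤ LinearMap.ker f := by
      intro x hx
      have : (⟨x, hx⟩ : D) = ∑ j, b.repr ⟨x, hx⟩ j • b j := (b.sum_repr _).symm
      have h3 := congrArg Subtype.val this
      simp only [AddSubmonoidClass.coe_finsetSum, Submodule.coe_smul] at h3
      rw [LinearMap.mem_ker, h3, map_sum]
      refine Finset.sum_eq_zero fun j _ => ?_
      rw [map_smul, h2 j, smul_zero]
    have hsup : S ⊔ D = ⊤ := hD.sup_eq_top
    have : (⊤ : Submodule F K) ≤ LinearMap.ker f := by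
      rw [← hsup]
      exact sup_le hS0 hD0
    ext x
    exact this (Submodule.mem_top)
  have hsep : ∀ x : K, (∀ i, Tr (φ i 1 * x) = 0) → (∀ j, Tr (ê j * x) = 0) → x = 0 := by
    intro x h1 h2
    refine hTr x fun y => ?_
    have := hspan (Tr ∘ₗ LinearMap.mulRight F x) h1 h2
    exact LinearMap.congr_fun this y
  -- `Vpp` is the kernel of `hLin`
  have hVpp : Vpp Tr g ê = LinearMap.ker (hLin (F := F) g) := by
    ext z
    rw [mem_Vpp, LinearMap.mem_ker]
    constructor
    · intro h
      refine hsep _ (fun i => ?_) (fun j => ?_)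
      · rw [hLin_apply, Finset.mul_sum, map_sum]
        refine Finset.sum_eq_zero fun x _ => ?_
        rw [mul_smul_comm, map_smul, hB1 i x, smul_zero]
      · rw [← dF_eq_hLin]
        exact h j
    · intro h j
      rw [dF_eq_hLin, h, mul_zero, map_zero]
  -- surjectivity of the `dF`
  have honto : Function.Surjective fun z : L → F => fun j => dF Tr g (ê j) z := by
    let A : (L → F) →ₗ[F] (Fin (finrank F D) → F) := LinearMap.pi fun j => dF Tr g (ê j)
    have hA : ∀ z, A z = fun j => dF Tr g (ê j) z := fun z => rfl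
    change Function.Surjective A
    rw [← LinearMap.range_eq_top]
    by_contra hne
    obtain ⟨ψ, hψ0, hψ⟩ := Submodule.exists_le_ker_of_lt_top _ (lt_top_iff_ne_top.2 hne)
    let c : Fin (finrank F D) → F := fun a => ψ (Pi.single a 1)
    have hψ_apply : ∀ u : Fin (finrank F D) → F, ψ u = ∑ a, u a * c a := fun u => by
      rw [LinearMap.pi_apply_eq_sum_univ ψ u]
      simp only [smul_eq_mul, c]
      refine Finset.sum_congr rfl (fun a _ => ?_)
      have : (fun j => if a = j then (1 : F) else 0) = Pi.single a 1 := by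
        funext j; simp [Pi.single_apply, eq_comm]
      rw [this]
    -- the element `s = ∑ c a • ê a` is a relation
    let s : K := ∑ a, c a • ê a
    have hrel : ∀ x, Tr (s * coeff [x] g) = 0 := by
      intro x
      have h3 : A (Pi.single x 1) ∈ LinearMap.range A := ⟨_, rfl⟩
      have h4 := hψ h3
      rw [LinearMap.mem_ker, hψ_apply] at h4
      have h5 : ∀ a, A (Pi.single x 1) a = Tr (ê a * coeff [x] g) := by
        intro a
        show dF Tr g (ê a) (Pi.single x 1) = _
        rw [dF_apply, Finset.sum_eq_single x]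
        · simp
        · intro y _ hy
          simp [hy]
        · intro h; exact absurd (Finset.mem_univ x) h
      simp only [h5] at h4
      simp only [s, Finset.sum_mul, map_sum, smul_mul_assoc, map_smul, smul_eq_mul]
      rw [← h4]
      refine Finset.sum_congr rfl fun a _ => ?_
      ring
    have hsS : s ∈ S := hRel s hrel
    have hsD : s ∈ D := Submodule.sum_mem _ fun a _ => Submodule.smul_mem _ _ (b a).2
    have hs0 : s = 0 := by
      have : s ∈ S ⊓ D := ⟨hsS, hsD⟩
      rw [hD.inf_eq_bot] at this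
      exact (Submodule.mem_bot F).mp this
    have hc0 : c = 0 := by
      have h6 : ∑ a, c a • b a = 0 := by
        apply Subtype.ext
        simp only [AddSubmonoidClass.coe_finsetSum, Submodule.coe_smul, Submodule.coe_zero]
        exact hs0
      have := Fintype.linearIndependent_iff.mp b.linearIndependent c h6
      funext a
      exact this a
    apply hψ0
    ext u
    simp only [LinearMap.zero_apply, LinearMap.coe_comp, LinearMap.coe_single, Function.comp_apply]
    show ψ _ = 0
    rw [hψ_apply]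
    simp [hc0]
  have h2' : 2 ≤ finrank F (Vpp Tr g ê) := by rw [hVpp]; exact h2
  have hrank' : ∀ c : ι → F, c ≠ 0 → 3 * Fintype.card ι ≤ finrank F (LinearMap.range
      (GoodPair.comb (fun i => (form2 (RR Tr (φ i) g)).domRestrict₁₂ (Vpp Tr g ê) (Vpp Tr g ê)) c)) := by
    rw [hVpp]; exact hrank
  exact finish_core Tr hg φ hcyc ê hsep honto h2' hrank'

end Crest.Agent.Lib.Kurosh.FinishCore
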