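import Mathlib
import Crest.Agent.Lib.Kurosh.PsiCore
import Crest.Agent.Lib.Kurosh.SeriesComp
import Crest.Agent.Lib.Kurosh.FinishCore

/-!
# The two-forms on `T''` (blueprint 5(d))

* `dir2_inn_left`, `dir2_inn_right`: the separate second-order derivation identities.
* `conj_single`, `conj_pair`: coefficients of `g` from `U * h = (C ξ + g) * U` (second-order Hensel).
* `form2_eq_on_ker`: on the kernel of `z ↦ ∑ z t • g_t` the two-form of `Tr (∑ₙ φ n g^n)` is
  `Tr (φ 1 * (h_{zz'} + u_z * h_{z'}))`.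
* `radical_left`, `radical_right`: inner directions are in the radical.
* `rank_transfer`: a subspace complementing a part of the radical carries the full rank.
-/

set_option autoImplicit false

namespace Crest.Agent.Lib.Kurosh.FormsInn

open NCSeries PsiCore SeriesComp Module

section Inn

variable {R : Type*} [Ring R] {S : Type*} [Ring S] {σ : RingAut S} {Y : Type*} [Fintype Y]
variable (B : Base R S σ Y)

/-- `D²f[Inn c, x] = Df[c x] - c Df[x]`. -/
theorem dir2_inn_left (c : SL S σ) (x : Y → SL S σ) (f : NCS R Y) :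
    B.dir2 (fun y => B.τ y * c - c * B.τ y) x f =
      B.dir (fun y => c * x y) f - c * B.dir x f := by
  obtain ⟨c1, hc1⟩ := B.dirW_bounded (R := R) [(fun y => B.τ y * c - c * B.τ y), x]
  obtain ⟨c2, hc2⟩ := Base.bounded_sub (B.dirW_bounded (R := R) [(fun y => c * x y)])
    (Base.bounded_mul_left c (B.dirW_bounded (R := R) [x]))
  refine rec_unique (H := fun f => ∑ y, (B.τ y * c - c * B.τ y) * B.dir x (dl y f))
    B.hτ hc1 hc2 (fun g => ?_) (fun g => ?_) f
  · exact B.dir2_rec _ _ g
  · show B.dir (fun y => c * x y) g - c * B.dir x g = _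
    rw [B.dir_rec (fun y => c * x y) g, B.dir_rec x g]
    simp only [mul_add, mul_sub, sub_mul, Finset.mul_sum, Finset.sum_sub_distrib, mul_assoc]
    abel

/-- `D²f[x, Inn c] = Df[x] c - Df[x c]`. -/
theorem dir2_inn_right (c : SL S σ) (hc : ∀ r, B.ρ r * c = c * B.ρ r) (x : Y → SL S σ)
    (f : NCS R Y) :
    B.dir2 x (fun y => B.τ y * c - c * B.τ y) f =
      B.dir x f * c - B.dir (fun y => x y * c) f := by
  obtain ⟨c1, hc1⟩ := B.dirW_bounded (R := R) [x, (fun y => B.τ y * c - c * B.τ y)]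
  obtain ⟨c2, hc2⟩ := Base.bounded_sub (Base.bounded_mul_right c (B.dirW_bounded (R := R) [x]))
    (B.dirW_bounded (R := R) [(fun y => x y * c)])
  refine rec_unique (H := fun f => ∑ y, x y * (B.value (dl y f) * c - c * B.value (dl y f)))
    B.hτ hc1 hc2 (fun g => ?_) (fun g => ?_) f
  · have := B.dir2_rec x (fun y => B.τ y * c - c * B.τ y) g
    simp only [B.dir_inn c hc] at this
    exact this
  · show B.dir x g * c - B.dir (fun y => x y * c) g = _
    rw [B.dir_rec x g, B.dir_rec (fun y => x y * c) g]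
    simp only [mul_sub, add_mul, Finset.sum_mul, Finset.sum_sub_distrib, mul_assoc]
    abel

end Inn

section Conj

variable {A : Type*} [Ring A] {L : Type*}

theorem coeff_mul_single (f g : NCS A L) (t : L) :
    coeff [t] (f * g) = coeff [] f * coeff [t] g + coeff [t] f * coeff [] g := by
  simp [coeff_mul, Finset.sum_range_succ]

theorem coeff_mul_pair (f g : NCS A L) (t t' : L) :
    coeff [t, t'] (f * g) = coeff [] f * coeff [t, t'] g + coeff [t] f * coeff [t'] g +
      coeff [t, t'] f * coeff [] g := by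
  simp [coeff_mul, Finset.sum_range_succ]

variable {h U g : NCS A L} {ξ : A}

/-- First order Hensel. -/
theorem conj_single (hU : coeff [] U = 1) (hh : coeff [] h = ξ) (hg0 : coeff [] g = 0)
    (hconj : U * h = (C ξ + g) * U) (t : L) :
    coeff [t] g = coeff [t] h + coeff [t] U * ξ - ξ * coeff [t] U := by
  have := congrArg (coeff [t]) hconj
  rw [coeff_mul_single, coeff_mul_single, hU, hh, coeff_add, coeff_add, coeff_C_nil, coeff_C_cons,
    hg0, add_zero, zero_add, one_mul, mul_one] at this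
  rw [eq_sub_of_add_eq' this.symm]

/-- Second order Hensel. -/
theorem conj_pair (hU : coeff [] U = 1) (hh : coeff [] h = ξ) (hg0 : coeff [] g = 0)
    (hconj : U * h = (C ξ + g) * U) (t t' : L) :
    coeff [t, t'] g = coeff [t, t'] h + coeff [t] U * coeff [t'] h - coeff [t] g * coeff [t'] U +
      (coeff [t, t'] U * ξ - ξ * coeff [t, t'] U) := by
  have := congrArg (coeff [t, t']) hconj
  rw [coeff_mul_pair, coeff_mul_pair, hU, hh, coeff_add, coeff_add, coeff_add, coeff_C_nil,
    coeff_C_cons, coeff_C_cons, hg0, add_zero, zero_add, zero_add, one_mul, mul_one] at this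
  have h2 : coeff [t, t'] g = (coeff [t, t'] h + coeff [t] U * coeff [t'] h +
      coeff [t, t'] U * ξ) - (ξ * coeff [t, t'] U + coeff [t] g * coeff [t'] U) := by
    rw [this]
    abel
  rw [h2]
  abel

end Conj

section Form

variable {F : Type*} [Field F] {A : Type*} [Ring A] [Algebra F A] {K : Type*} [Ring K] [Algebra F K]
variable {L : Type*} [Fintype L]

/-- The coefficient of `∑ₙ C (φ n) g^n` at a word of length two. -/
theorem coeff_sumPow_pair (φ : ℕ → K) {g : NCS K L} (hg : coeff [] g = 0) (t t' : L) :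
    coeff [t, t'] (sumPow φ g) = φ 1 * coeff [t, t'] g + φ 2 * (coeff [t] g * coeff [t'] g) := by
  rw [coeff_sumPow_def]
  have e1 : (([t, t'] : List L).length + 1) = 3 := rfl
  rw [e1, Finset.sum_range_succ, Finset.sum_range_succ, Finset.sum_range_one, pow_zero, pow_one,
    pow_two, coeff_one_cons, mul_zero, zero_add, coeff_mul_pair, hg, zero_mul, mul_zero, zero_add,
    add_zero]

theorem bilin_sum (Tr : A →ₗ[F] F) (c : A) (a b : L → A) (z z' : L → F) :
    ∑ t, ∑ t', Tr (c * (a t * b t')) * (z t * z' t') =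
      Tr (c * ((∑ t, z t • a t) * (∑ t', z' t' • b t'))) := by
  rw [Finset.sum_mul_sum, Finset.mul_sum, map_sum]
  refine Finset.sum_congr rfl fun t _ => ?_
  rw [Finset.mul_sum, map_sum]
  refine Finset.sum_congr rfl fun t' _ => ?_
  rw [smul_mul_smul_comm, mul_smul_comm, map_smul, smul_eq_mul, mul_comm]

theorem lin_sum (Tr : A →ₗ[F] F) (c : A) (a : L → L → A) (z z' : L → F) :
    ∑ t, ∑ t', Tr (c * a t t') * (z t * z' t') =
      Tr (c * (∑ t, ∑ t', (z t * z' t') • a t t')) := by
  rw [Finset.mul_sum, map_sum]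
  refine Finset.sum_congr rfl fun t _ => ?_
  rw [Finset.mul_sum, map_sum]
  refine Finset.sum_congr rfl fun t' _ => ?_
  rw [mul_smul_comm, map_smul, smul_eq_mul, mul_comm]

variable [DecidableEq L]

/-- The two-form on the kernel of `hLin`. -/
theorem form2_eq_on_ker (Tr : A →ₗ[F] F) (hTr : ∀ a b, Tr (a * b) = Tr (b * a))
    (jp : K →ₐ[F] A) (φ : ℕ → K) {g : NCS K L} (hg : coeff [] g = 0)
    (h U : NCS A L) (ξ : A)
    (hU : coeff [] U = 1) (hh : coeff [] h = ξ)
    (hconj : U * h = (C ξ + map (jp : K →+* A) g) * U)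
    (hφ : jp (φ 1) * ξ = ξ * jp (φ 1))
    {z z' : L → F} (hz : FinishCore.hLin (F := F) g z = 0) (hz' : FinishCore.hLin (F := F) g z' = 0) :
    FinishCore.form2 (NCSeries.tmap (Tr ∘ₗ jp.toLinearMap).toAddMonoidHom (sumPow φ g)) z z' =
      Tr (jp (φ 1) * ((∑ t, ∑ t', (z t * z' t') • coeff [t, t'] h) +
        (∑ t, z t • coeff [t] U) * (∑ t', z' t' • coeff [t'] h))) := by
  have hg0 : coeff [] (map (jp : K →+* A) g) = 0 := by
    rw [coeff_map, hg, map_zero]
  -- the linear terms vanish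
  have hzero : ∀ {z : L → F}, FinishCore.hLin (F := F) g z = 0 →
      ∑ t, z t • coeff [t] (map (jp : K →+* A) g) = 0 := by
    intro z hz
    have := congrArg jp hz
    rw [FinishCore.hLin_apply, map_sum, map_zero] at this
    rw [← this]
    refine Finset.sum_congr rfl fun t _ => ?_
    rw [map_smul]
    rfl
  have hz1 := hzero hz
  have hz2 := hzero hz'
  rw [FinishCore.form2_apply]
  -- each coefficient
  have hco : ∀ t t', coeff [t, t']
      (NCSeries.tmap (Tr ∘ₗ jp.toLinearMap).toAddMonoidHom (sumPow φ g)) =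
      Tr (jp (φ 1) * coeff [t, t'] h) + Tr (jp (φ 1) * (coeff [t] U * coeff [t'] h)) -
          Tr (jp (φ 1) * (coeff [t] (map (jp : K →+* A) g) * coeff [t'] U)) +
        Tr (jp (φ 2) * (coeff [t] (map (jp : K →+* A) g) * coeff [t'] (map (jp : K →+* A) g))) := by
    intro t t'
    show Tr (jp (coeff [t, t'] (sumPow φ g))) = _
    rw [coeff_sumPow_pair φ hg, map_add, map_mul, map_mul, map_mul, map_add]
    have h1 := conj_pair hU hh hg0 hconj t t'
    have h2 : jp (coeff [t, t'] g) = coeff [t, t'] h + coeff [t] U * coeff [t'] h -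
        coeff [t] (map (jp : K →+* A) g) * coeff [t'] U +
        (coeff [t, t'] U * ξ - ξ * coeff [t, t'] U) := h1
    have h3 : Tr (jp (φ 1) * (coeff [t, t'] U * ξ - ξ * coeff [t, t'] U)) = 0 := by
      rw [mul_sub, map_sub, sub_eq_zero, ← mul_assoc, hTr (jp (φ 1) * coeff [t, t'] U) ξ,
        ← mul_assoc (jp (φ 1)) ξ, hφ, mul_assoc]
    rw [h2]
    simp only [mul_add, mul_sub, map_add, map_sub] at h3 ⊢
    rw [h3]
    simp only [add_zero]
    rfl
  simp only [hco]
  simp only [add_mul, sub_mul, Finset.sum_add_distrib, Finset.sum_sub_distrib]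
  rw [lin_sum Tr (jp (φ 1)) (fun t t' => coeff [t, t'] h) z z',
    bilin_sum Tr (jp (φ 1)) (fun t => coeff [t] U) (fun t => coeff [t] h) z z',
    bilin_sum Tr (jp (φ 1)) (fun t => coeff [t] (map (jp : K →+* A) g)) (fun t => coeff [t] U) z z',
    bilin_sum Tr (jp (φ 2)) (fun t => coeff [t] (map (jp : K →+* A) g))
      (fun t => coeff [t] (map (jp : K →+* A) g)) z z']
  simp only [hz1, zero_mul, mul_zero, map_zero, sub_zero, add_zero, ← map_add, ← mul_add]

/-- On the kernel, `h_z = [ξ, u_z]`. -/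
theorem sum_coeff_eq_comm (jp : K →ₐ[F] A) {g : NCS K L} (hg : coeff [] g = 0)
    (h U : NCS A L) (ξ : A) (hU : coeff [] U = 1) (hh : coeff [] h = ξ)
    (hconj : U * h = (C ξ + map (jp : K →+* A) g) * U)
    {z : L → F} (hz : FinishCore.hLin (F := F) g z = 0) :
    ∑ t, z t • coeff [t] h = ξ * (∑ t, z t • coeff [t] U) - (∑ t, z t • coeff [t] U) * ξ := by
  have hg0 : coeff [] (map (jp : K →+* A) g) = 0 := by
    rw [coeff_map, hg, map_zero]
  have hz1 : ∑ t, z t • coeff [t] (map (jp : K →+* A) g) = 0 := by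
    have := congrArg jp hz
    rw [FinishCore.hLin_apply, map_sum, map_zero] at this
    rw [← this]
    refine Finset.sum_congr rfl fun t _ => ?_
    rw [map_smul]
    rfl
  have h1 : ∀ t, coeff [t] h = coeff [t] (map (jp : K →+* A) g) +
      (ξ * coeff [t] U - coeff [t] U * ξ) := by
    intro t
    rw [conj_single hU hh hg0 hconj t]
    abel
  simp only [h1, smul_add, Finset.sum_add_distrib, hz1, zero_add, smul_sub, Finset.sum_sub_distrib,
    Finset.mul_sum, Finset.sum_mul, mul_smul_comm, smul_mul_assoc]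

end Form

section Radical

variable {F : Type*} [Field F] {A : Type*} [Ring A] [Algebra F A]

/-- Left radical: `Ω(Inn c, x') = 0`. `D1c = Df[c x']`, `a` is any solution of `Df[Inn c] = [ξ, a]`
(`a - c` commutes with `ξ`), `a'` a solution of `h' = [ξ, a']`. -/
theorem radical_left (Tr : A →ₗ[F] F) (hTr : ∀ a b, Tr (a * b) = Tr (b * a)) {ξ B c a a' h' d1c : A}
    (hB : B * ξ = ξ * B) (hrel : Tr (B * d1c) = 0)
    (hc : ξ * a - a * ξ = ξ * c - c * ξ) (hh' : h' = ξ * a' - a' * ξ) :
    Tr (B * ((d1c - c * h') + a * h')) = 0 := by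
  have hκ : ξ * (a - c) = (a - c) * ξ := by
    rw [mul_sub, sub_mul]
    have := sub_eq_sub_iff_sub_eq_sub.mp hc
    rw [sub_eq_sub_iff_add_eq_add] at hc ⊢
    rw [hc]
    abel
  have e : B * ((d1c - c * h') + a * h') = B * d1c + B * ((a - c) * h') := by
    noncomm_ring
  rw [e, map_add, hrel, zero_add, hh']
  have e2 : B * ((a - c) * (ξ * a' - a' * ξ)) = (B * (a - c)) * ξ * a' - (B * (a - c)) * a' * ξ := by
    noncomm_ring
  have e3 : (B * (a - c)) * ξ = ξ * (B * (a - c)) := by
    rw [mul_assoc, ← hκ, ← mul_assoc, hB, mul_assoc]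
  rw [e2, e3, map_sub, sub_eq_zero, hTr ((B * (a - c)) * a') ξ]
  congr 1
  noncomm_ring

/-- Right radical: `Ω(x', Inn c) = 0`, with `D²[x', Inn c] = h' c - d1c`, `d1c = Df[x' c]`,
`h' = [ξ, a']`, `Df[Inn c] = [ξ, c]`. -/
theorem radical_right (Tr : A →ₗ[F] F) (hTr : ∀ a b, Tr (a * b) = Tr (b * a)) {ξ B c a' h' d1c : A}
    (hB : B * ξ = ξ * B) (hrel : Tr (B * d1c) = 0) (hh' : h' = ξ * a' - a' * ξ) :
    Tr (B * ((h' * c - d1c) + a' * (ξ * c - c * ξ))) = 0 := by
  have e : B * ((h' * c - d1c) + a' * (ξ * c - c * ξ)) =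
      (B * ξ) * (a' * c) - (B * a' * c) * ξ - B * d1c := by
    rw [hh']
    noncomm_ring
  rw [e, map_sub, map_sub, hrel, sub_zero, sub_eq_zero, hB, hTr (B * a' * c) ξ]
  congr 1
  noncomm_ring

end Radical

section Rank

variable {F : Type*} [Field F] {V V' : Type*} [AddCommGroup V] [Module F V] [AddCommGroup V']
  [Module F V']

/-- If `L V'` and a part `Rad` of the radical span `V`, the restriction to `V'` keeps the rank. -/
theorem rank_transfer [FiniteDimensional F V] [FiniteDimensional F V'] (Ω : V →ₗ[F] V →ₗ[F] F) (L : V' →ₗ[F] V)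
    (Rad : Submodule F V) (hL : LinearMap.range L ⊔ Rad = ⊤)
    (hr1 : ∀ r ∈ Rad, ∀ x, Ω r x = 0) (hr2 : ∀ r ∈ Rad, ∀ x, Ω x r = 0) :
    finrank F (LinearMap.range Ω) ≤ finrank F (LinearMap.range (Ω.compl₁₂ L L)) := by
  -- the restriction map
  let res : (V →ₗ[F] F) →ₗ[F] (V' →ₗ[F] F) := L.dualMap
  have hinj : Function.Injective (res.domRestrict (LinearMap.range Ω)) := by
    rw [injective_iff_map_eq_zero]
    rintro ⟨f, v, rfl⟩ hf
    apply Subtype.ext
    show Ω v = 0
    have hLz : ∀ y, Ω v (L y) = 0 := fun y => LinearMap.congr_fun hf y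
    have htop : (⊤ : Submodule F V) ≤ LinearMap.ker (Ω v) := by
      rw [← hL]
      refine sup_le ?_ ?_
      · rintro _ ⟨y, rfl⟩
        exact hLz y
      · intro r hr
        exact hr2 r hr v
    ext x
    exact htop (Submodule.mem_top (x := x))
  have hle : LinearMap.range (res.domRestrict (LinearMap.range Ω)) ≤
      LinearMap.range (Ω.compl₁₂ L L) := by
    rintro _ ⟨⟨f, v, rfl⟩, rfl⟩
    -- decompose `v`
    have hv : v ∈ LinearMap.range L ⊔ Rad := by rw [hL]; trivial
    obtain ⟨a, ⟨y, rfl⟩, r, hr, rfl⟩ := Submodule.mem_sup.mp hv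
    refine ⟨y, ?_⟩
    ext y'
    simp [res, hr1 r hr]
  have h1 := LinearMap.finrank_range_of_inj hinj
  have h2 := Submodule.finrank_mono hle
  omega

end Rank

end Crest.Agent.Lib.Kurosh.FormsInn
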