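import Crest.Agent.Lib.Kurosh.SkewLaurentHat

/-!
# Lemma Gr (blueprint section 3)

`F` a field, `S` a finite `F`-algebra, `σ` an automorphism with `σ^m = 1` fixing `F`.  The field
`Lau F` acts on `SL S σ` by the stretch.  For a `Lau F`-subspace `V` of `SL S σ` and `c : ℤ`, put
`Gr V c = {coeff_c x : x ∈ V, x has valuation ≥ c}`.  Then
`finrank_{Lau F} V = ∑_{c<m} finrank_F (Gr V c)`.
-/

set_option autoImplicit false

namespace Crest.Agent.Lib.Kurosh.GrMeas

open SL

variable {F : Type*} [Field F] {S : Type*} [Ring S] [Algebra F S] {σ : RingAut S} {m : ℕ}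

/-- Integer residue separation. -/
lemma level_eq (hm : 0 < m) {c c' : Fin m} {q q' : ℤ}
    (e : (m : ℤ) * q + ((c : ℕ) : ℤ) = (m : ℤ) * q' + ((c' : ℕ) : ℤ)) : c = c' := by
  have hm' : (0 : ℤ) < m := by exact_mod_cast hm
  have h1 : (m : ℤ) ∣ ((c : ℕ) : ℤ) - ((c' : ℕ) : ℤ) := by
    have : ((c : ℕ) : ℤ) - ((c' : ℕ) : ℤ) = (m : ℤ) * (q' - q) := by linarith [mul_sub (m : ℤ) q' q]
    rw [this]
    exact dvd_mul_right _ _
  have h2 : ((c : ℕ) : ℤ) - ((c' : ℕ) : ℤ) = 0 := by
    apply Int.eq_zero_of_abs_lt_dvd h1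
    have := c.2
    have := c'.2
    rw [abs_lt]
    constructor <;> omega
  apply Fin.ext
  omega

section Basic

variable (h : StretchData (algebraMap F S) σ m)
include h

/-- Lowest coefficient of a product with a stretched series. -/
lemma coeff_stretch_mul_add (c : Lau F) (x : SL S σ) {q n : ℤ} (hc : c.LB q) (hx : x.LB n) :
    (stretch h c * x).coeff ((m : ℤ) * q + n) = c.coeff q • x.coeff n := by
  rw [coeff_mul_add (lB_stretch h hc) hx, coeff_stretch_mul, h.zpow_of_dvd (dvd_mul_right _ _),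
    Algebra.smul_def]

lemma lB_stretch_mul (c : Lau F) (x : SL S σ) {q n : ℤ} (hc : c.LB q) (hx : x.LB n) :
    (stretch h c * x).LB ((m : ℤ) * q + n) :=
  (lB_stretch h hc).mul hx

/-- The leading-term analysis of a `Lau F`-combination of series with levels in `Fin m`. -/
theorem leading_of_family {ι : Fin m → Type*} [∀ c, Fintype (ι c)]
    (y : (Σ c : Fin m, ι c) → SL S σ) (hy : ∀ p, (y p).LB (((p.1 : Fin m) : ℕ) : ℤ))
    (f : (Σ c : Fin m, ι c) → Lau F) (hf : f ≠ 0) :
    ∃ (c0 : Fin m) (q : ℤ), (∑ p, stretch h (f p) * y p).LB ((m : ℤ) * q + ((c0 : ℕ) : ℤ)) ∧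
      (∑ p, stretch h (f p) * y p).coeff ((m : ℤ) * q + ((c0 : ℕ) : ℤ)) =
        ∑ i : ι c0, (f ⟨c0, i⟩).coeff q • (y ⟨c0, i⟩).coeff ((c0 : ℕ) : ℤ) ∧
      ∃ i, (f ⟨c0, i⟩).coeff q ≠ 0 := by
  classical
  have hm : (0 : ℤ) < m := by exact_mod_cast h.pos
  let w : (Σ c : Fin m, ι c) → ℤ := fun p => (m : ℤ) * val (f p) + (((p.1 : Fin m) : ℕ) : ℤ)
  obtain ⟨p1, hp1⟩ : ∃ p, f p ≠ 0 := by
    by_contra hh
    push Not at hh
    exact hf (funext hh)
  let P : Finset (Σ c : Fin m, ι c) := Finset.univ.filter (fun p => f p ≠ 0)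
  have hP : P.Nonempty := ⟨p1, by simp [P, hp1]⟩
  obtain ⟨p0, hp0, hmin⟩ := Finset.exists_min_image P w hP
  have hp0' : f p0 ≠ 0 := by simpa [P] using hp0
  obtain ⟨c0, i0⟩ := p0
  refine ⟨c0, val (f ⟨c0, i0⟩), ?_, ?_, i0, coeff_val_ne hp0'⟩
  · have : ∀ p ∈ Finset.univ, (stretch h (f p) * y p).LB
        ((m : ℤ) * val (f ⟨c0, i0⟩) + ((c0 : ℕ) : ℤ)) := by
      intro p _
      by_cases hfp : f p = 0
      · rw [hfp, map_zero, zero_mul]
        exact lB_zero _
      · have h1 := lB_stretch_mul h (f p) (y p) (lB_val (f p)) (hy p)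
        exact h1.mono (hmin p (by simp [P, hfp]))
    intro n hn
    rw [coeff_sum]
    exact Finset.sum_eq_zero fun p hp => this p hp n hn
  · rw [coeff_sum, Fintype.sum_sigma, Finset.sum_eq_single c0]
    · refine Finset.sum_congr rfl fun i _ => ?_
      by_cases hfp : f ⟨c0, i⟩ = 0
      · simp [hfp]
      · have hle := hmin ⟨c0, i⟩ (by simp [P, hfp])
        have hq : val (f ⟨c0, i0⟩) ≤ val (f ⟨c0, i⟩) := by
          have : (m : ℤ) * val (f ⟨c0, i0⟩) ≤ (m : ℤ) * val (f ⟨c0, i⟩) := by
            simp only [w] at hle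
            linarith
          exact le_of_mul_le_mul_left this hm
        exact coeff_stretch_mul_add h _ _ ((lB_val _).mono hq) (hy ⟨c0, i⟩)
    · intro c _ hc
      refine Finset.sum_eq_zero fun i _ => ?_
      by_cases hfp : f ⟨c, i⟩ = 0
      · simp [hfp]
      · have hle := hmin ⟨c, i⟩ (by simp [P, hfp])
        have hne : w ⟨c0, i0⟩ ≠ w ⟨c, i⟩ := by
          intro e
          exact hc (level_eq h.pos e).symm
        have hlt : w ⟨c0, i0⟩ < w ⟨c, i⟩ := lt_of_le_of_ne hle hne
        exact lB_stretch_mul h (f ⟨c, i⟩) (y ⟨c, i⟩) (lB_val _) (hy ⟨c, i⟩) _ hlt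
    · intro hc
      exact absurd (Finset.mem_univ _) hc

end Basic

section Module

variable (h : StretchData (algebraMap F S) σ m)
variable [Algebra (Lau F) (SL S σ)]
  (hA : ∀ c : Lau F, algebraMap (Lau F) (SL S σ) c = stretch h c)

include hA in
lemma smul_eq (c : Lau F) (x : SL S σ) : c • x = stretch h c * x := by
  rw [Algebra.smul_def, hA]

/-- The constant series. -/
lemma lB_C (a : F) : (C a : Lau F).LB 0 := by
  intro i hi
  rw [C_apply, coeff_mon, if_neg (ne_of_lt hi)]

lemma coeff_C_zero (a : F) : (C a : Lau F).coeff 0 = a := by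
  rw [C_apply, coeff_mon_self]

/-- `Gr_c(V) = {coeff_c x : x ∈ V, val x ≥ c}`. -/
def Gr (V : Submodule (Lau F) (SL S σ)) (c : ℤ) : Submodule F S where
  carrier := {s | ∃ x ∈ V, x.LB c ∧ x.coeff c = s}
  add_mem' := by
    rintro _ _ ⟨x, hx, hxl, rfl⟩ ⟨y, hy, hyl, rfl⟩
    exact ⟨x + y, V.add_mem hx hy, hxl.add hyl, rfl⟩
  zero_mem' := ⟨0, V.zero_mem, lB_zero _, rfl⟩
  smul_mem' := by
    rintro a _ ⟨x, hx, hxl, rfl⟩
    refine ⟨(C a : Lau F) • x, V.smul_mem _ hx, ?_, ?_⟩
    · rw [smul_eq h hA]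
      have := lB_stretch_mul h (C a) x (lB_C a) hxl
      simpa using this
    · rw [smul_eq h hA]
      have := coeff_stretch_mul_add h (C a) x (lB_C a) hxl
      simp only [mul_zero, zero_add] at this
      rw [this, coeff_C_zero]

lemma mem_Gr {V : Submodule (Lau F) (SL S σ)} {c : ℤ} {s : S} :
    s ∈ Gr h hA V c ↔ ∃ x ∈ V, x.LB c ∧ x.coeff c = s := Iff.rfl

/-- Shifting by the central uniformiser `ϖ^m`. -/
lemma Gr_shift_mem {V : Submodule (Lau F) (SL S σ)} {x : SL S σ} (hx : x ∈ V) {q : ℤ} {n : ℤ}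
    (hl : x.LB ((m : ℤ) * q + n)) : x.coeff ((m : ℤ) * q + n) ∈ Gr h hA V n := by
  refine ⟨(ϖz (-q) : Lau F) • x, V.smul_mem _ hx, ?_, ?_⟩
  · rw [smul_eq h hA]
    have := lB_stretch_mul h (ϖz (-q) : Lau F) x (n := (m : ℤ) * q + n)
      (q := -q) (fun i hi => by rw [ϖz, coeff_mon, if_neg (ne_of_lt hi)]) hl
    have e : (m : ℤ) * -q + ((m : ℤ) * q + n) = n := by ring
    rwa [e] at this
  · rw [smul_eq h hA]
    have := coeff_stretch_mul_add h (ϖz (-q) : Lau F) x (n := (m : ℤ) * q + n)
      (q := -q) (fun i hi => by rw [ϖz, coeff_mon, if_neg (ne_of_lt hi)]) hl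
    have e : (m : ℤ) * -q + ((m : ℤ) * q + n) = n := by ring
    rw [e] at this
    rw [this, ϖz, coeff_mon_self, one_smul]

end Module

section Main

variable (h : StretchData (algebraMap F S) σ m)
variable [Algebra (Lau F) (SL S σ)]
  (hA : ∀ c : Lau F, algebraMap (Lau F) (SL S σ) c = stretch h c)

include hA in
/-- A family with levels whose leading coefficients are independent at each level is independent. -/
theorem linearIndependent_of_levels {ι : Fin m → Type*} [∀ c, Fintype (ι c)]
    (y : (Σ c : Fin m, ι c) → SL S σ) (hy : ∀ p, (y p).LB (((p.1 : Fin m) : ℕ) : ℤ))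
    (hli : ∀ c : Fin m, LinearIndependent F (fun i : ι c => (y ⟨c, i⟩).coeff ((c : ℕ) : ℤ))) :
    LinearIndependent (Lau F) y := by
  classical
  rw [Fintype.linearIndependent_iff]
  intro f hf
  by_contra hne
  have hf0 : f ≠ 0 := by
    intro e
    apply hne
    intro i
    rw [e]
    rfl
  obtain ⟨c0, q, -, h2, i, hi⟩ := leading_of_family h y hy f hf0
  have hs : ∑ p, stretch h (f p) * y p = 0 := by
    rw [← hf]
    exact Finset.sum_congr rfl fun p _ => (smul_eq h hA _ _).symm
  rw [hs, coeff_zero] at h2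
  exact hi (Fintype.linearIndependent_iff.mp (hli c0) (fun i => (f ⟨c0, i⟩).coeff q) h2.symm i)

variable [Module.Finite F S]

include hA in
lemma finrank_SL_eq : Module.finrank (Lau F) (SL S σ) = Module.finrank F S * m := by
  have : ‹Algebra (Lau F) (SL S σ)› = stretchAlgebra h :=
    Algebra.algebra_ext _ _ (fun r => by
      rw [hA]
      rfl)
  subst this
  exact finrank_stretch h

include hA in
lemma finite_SL : Module.Finite (Lau F) (SL S σ) := by
  have : ‹Algebra (Lau F) (SL S σ)› = stretchAlgebra h :=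
    Algebra.algebra_ext _ _ (fun r => by
      rw [hA]
      rfl)
  subst this
  exact finite_stretch h

/-- **Lemma Gr**. -/
theorem finrank_eq_sum_Gr (V : Submodule (Lau F) (SL S σ)) :
    Module.finrank (Lau F) V = ∑ c : Fin m, Module.finrank F (Gr h hA V ((c : ℕ) : ℤ)) := by
  classical
  haveI := finite_SL h hA
  apply le_antisymm
  · -- upper bound by the complementary family
    -- complements `T c` of `Gr c` in `S`
    have hcompl : ∀ c : Fin m, ∃ T : Submodule F S, IsCompl (Gr h hA V ((c : ℕ) : ℤ)) T :=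
      fun c => Submodule.exists_isCompl _
    choose T hT using hcompl
    let b := fun c : Fin m => Module.finBasis F (T c)
    let t : (Σ c : Fin m, Fin (Module.finrank F (T c))) → SL S σ :=
      fun p => mon (b p.1 p.2 : S) (((p.1 : Fin m) : ℕ) : ℤ)
    have htL : ∀ p, (t p).LB (((p.1 : Fin m) : ℕ) : ℤ) := fun p => lB_mon _ _
    have hli : ∀ c : Fin m, LinearIndependent F
        (fun i : Fin (Module.finrank F (T c)) => (t ⟨c, i⟩).coeff ((c : ℕ) : ℤ)) := by
      intro c
      have : (fun i : Fin (Module.finrank F (T c)) => (t ⟨c, i⟩).coeff ((c : ℕ) : ℤ)) =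
          (T c).subtype ∘ (b c) := by
        funext i
        simp [t]
      rw [this]
      exact (b c).linearIndependent.map' _ (Submodule.ker_subtype _)
    have htli : LinearIndependent (Lau F) t := linearIndependent_of_levels h hA t htL hli
    have hdim : Module.finrank (Lau F) (Submodule.span (Lau F) (Set.range t)) =
        ∑ c : Fin m, Module.finrank F (T c) := by
      rw [finrank_span_eq_card htli]
      simp
    -- `V` and the span of `t` are disjoint
    have hdisj : V ⊓ Submodule.span (Lau F) (Set.range t) = ⊥ := by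
      rw [eq_bot_iff]
      intro z hz
      obtain ⟨hzV, hzt⟩ := Submodule.mem_inf.mp hz
      obtain ⟨f, rfl⟩ := (Submodule.mem_span_range_iff_exists_fun (Lau F)).mp hzt
      by_cases hf0 : f = 0
      · simp [hf0]
      exfalso
      have hs : ∑ p, f p • t p = ∑ p, stretch h (f p) * t p :=
        Finset.sum_congr rfl fun p _ => smul_eq h hA _ _
      rw [hs] at hzV
      obtain ⟨c0, q, h1, h2, i, hi⟩ := leading_of_family h t htL f hf0
      have hG := Gr_shift_mem h hA hzV h1
      rw [h2] at hG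
      have hTm : ∑ i : Fin (Module.finrank F (T c0)),
          (f ⟨c0, i⟩).coeff q • (t ⟨c0, i⟩).coeff ((c0 : ℕ) : ℤ) ∈ T c0 := by
        refine Submodule.sum_mem _ fun i _ => Submodule.smul_mem _ _ ?_
        simp [t]
      have hz0 := (Submodule.disjoint_def.mp (hT c0).disjoint) _ hG hTm
      exact hi (Fintype.linearIndependent_iff.mp (hli c0) (fun i => (f ⟨c0, i⟩).coeff q) hz0 i)
    have hsum := Submodule.finrank_sup_add_finrank_inf_eq V
      (Submodule.span (Lau F) (Set.range t))
    rw [hdisj, finrank_bot, add_zero, hdim] at hsum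
    have hle : Module.finrank (Lau F)
        (V ⊔ Submodule.span (Lau F) (Set.range t) : Submodule (Lau F) (SL S σ)) ≤
        Module.finrank F S * m := by
      rw [← finrank_SL_eq h hA]
      exact Submodule.finrank_le _
    have hTdim : ∀ c : Fin m, Module.finrank F (Gr h hA V ((c : ℕ) : ℤ)) +
        Module.finrank F (T c) = Module.finrank F S :=
      fun c => Submodule.finrank_add_eq_of_isCompl (hT c)
    have hsum2 : ∑ c : Fin m, Module.finrank F (Gr h hA V ((c : ℕ) : ℤ)) +
        ∑ c : Fin m, Module.finrank F (T c) = Module.finrank F S * m := by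
      rw [← Finset.sum_add_distrib]
      simp [hTdim, mul_comm]
    omega
  · -- lower bound by lifts
    let b := fun c : Fin m => Module.finBasis F (Gr h hA V ((c : ℕ) : ℤ))
    have hlift : ∀ (p : Σ c : Fin m, Fin (Module.finrank F (Gr h hA V ((c : ℕ) : ℤ)))),
        ∃ x ∈ V, x.LB (((p.1 : Fin m) : ℕ) : ℤ) ∧
          x.coeff (((p.1 : Fin m) : ℕ) : ℤ) = (b p.1 p.2 : S) := fun p => (b p.1 p.2).2
    choose x hxV hxL hxc using hlift
    have hli : ∀ c : Fin m, LinearIndependent F
        (fun i : Fin (Module.finrank F (Gr h hA V ((c : ℕ) : ℤ))) =>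
          (x ⟨c, i⟩).coeff ((c : ℕ) : ℤ)) := by
      intro c
      have : (fun i : Fin (Module.finrank F (Gr h hA V ((c : ℕ) : ℤ))) =>
          (x ⟨c, i⟩).coeff ((c : ℕ) : ℤ)) = (Gr h hA V ((c : ℕ) : ℤ)).subtype ∘ (b c) := by
        funext i
        simp [hxc ⟨c, i⟩]
      rw [this]
      exact (b c).linearIndependent.map' _ (Submodule.ker_subtype _)
    have hxli : LinearIndependent (Lau F) x := linearIndependent_of_levels h hA x hxL hli
    have hle : Module.finrank (Lau F) (Submodule.span (Lau F) (Set.range x)) ≤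
        Module.finrank (Lau F) V := by
      apply Submodule.finrank_mono
      rw [Submodule.span_le]
      rintro _ ⟨p, rfl⟩
      exact hxV p
    rw [finrank_span_eq_card hxli] at hle
    simpa using hle

end Main

/-! ### Shifting levels by an element of valuation one -/

section Shift

variable {F : Type*} [Field F] {S : Type*} [DivisionRing S] [Algebra F S] {σ : RingAut S} {m : ℕ}
variable (h : StretchData (algebraMap F S) σ m)
variable [Algebra (Lau F) (SL S σ)]
  (hA : ∀ c : Lau F, algebraMap (Lau F) (SL S σ) c = stretch h c)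

/-- Right multiplication by a nonzero element does not decrease dimension when it maps `W` to `W'`. -/
lemma finrank_le_of_mul_right_mem {W W' : Submodule F S} [FiniteDimensional F S] {u : S}
    (hu : u ≠ 0) (hW : ∀ s ∈ W, s * u ∈ W') : Module.finrank F W ≤ Module.finrank F W' := by
  let φ : W →ₗ[F] W' :=
    ((LinearMap.mulRight F u).comp W.subtype).codRestrict W' (fun s => hW s s.2)
  apply LinearMap.finrank_le_finrank_of_injective (f := φ)
  intro a b hab
  have h1 : (a : S) * u = (b : S) * u := congrArg Subtype.val hab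
  exact Subtype.ext (mul_right_cancel₀ hu h1)

/-- One step: the level `c` and level `c+1` gradeds of `V` are isomorphic when `V` is stable
under right multiplication by an element `t` of valuation `1` and by its inverse. -/
lemma finrank_Gr_succ [FiniteDimensional F S] (V : Submodule (Lau F) (SL S σ))
    {t : SL S σ} (ht0 : t ≠ 0) (ht1 : val t = 1)
    (hV : ∀ x ∈ V, x * t ∈ V) (hV' : ∀ x ∈ V, x * t⁻¹ ∈ V) (c : ℤ) :
    Module.finrank F (Gr h hA V (c + 1)) = Module.finrank F (Gr h hA V c) := by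
  have htL : t.LB 1 := ht1 ▸ lB_val t
  have htc : t.coeff 1 ≠ 0 := ht1 ▸ coeff_val_ne ht0
  have hiL : (t⁻¹).LB (-1) := by
    have hne : t⁻¹ ≠ 0 := inv_ne_zero ht0
    have h1 : t⁻¹ = invSeries t (val t) := (eq_inv_of_mul_eq_one_right (mul_invSeries ht0)).symm
    rw [h1, ht1]
    exact lB_invSeries t 1
  set u : S := (σ ^ c) (t.coeff 1) with hu
  have hu0 : u ≠ 0 := by
    intro e
    exact htc ((map_eq_zero_iff _ (σ ^ c).injective).mp e)
  -- the product identity at lowest order
  have hprod : t.coeff 1 * σ ((t⁻¹).coeff (-1)) = 1 := by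
    have h1 : t * t⁻¹ = 1 := mul_inv_cancel₀ ht0
    have h2 := coeff_mul_add htL hiL
    have e0 : (1 : ℤ) + (-1) = 0 := by norm_num
    rw [h1, e0, coeff_one, if_pos rfl, zpow_one] at h2
    exact h2.symm
  have hinv : (σ ^ (c + 1)) ((t⁻¹).coeff (-1)) = u⁻¹ := by
    have e : (σ ^ (c + 1)) ((t⁻¹).coeff (-1)) = (σ ^ c) (σ ((t⁻¹).coeff (-1))) := by
      rw [zpow_add_one]; rfl
    have h3 : u * (σ ^ c) (σ ((t⁻¹).coeff (-1))) = 1 := by
      rw [hu, ← map_mul, hprod, map_one]
    rw [e]
    exact (eq_inv_of_mul_eq_one_right h3)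
  apply le_antisymm
  · refine finrank_le_of_mul_right_mem (u := u⁻¹) (inv_ne_zero hu0) ?_
    rintro _ ⟨x, hx, hxL, rfl⟩
    refine ⟨x * t⁻¹, hV' x hx, ?_, ?_⟩
    · have := hxL.mul hiL
      have e : c + 1 + -1 = c := by ring
      rwa [e] at this
    · have := coeff_mul_add hxL hiL
      have e : c + 1 + -1 = c := by ring
      rw [e] at this
      rw [this, hinv]
  · refine finrank_le_of_mul_right_mem (u := u) hu0 ?_
    rintro _ ⟨x, hx, hxL, rfl⟩
    exact ⟨x * t, hV x hx, hxL.mul htL, coeff_mul_add hxL htL⟩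

lemma finrank_Gr_nat [FiniteDimensional F S] (V : Submodule (Lau F) (SL S σ))
    {t : SL S σ} (ht0 : t ≠ 0) (ht1 : val t = 1)
    (hV : ∀ x ∈ V, x * t ∈ V) (hV' : ∀ x ∈ V, x * t⁻¹ ∈ V) (c : ℕ) :
    Module.finrank F (Gr h hA V (c : ℤ)) = Module.finrank F (Gr h hA V 0) := by
  induction c with
  | zero => simp
  | succ c ih =>
    have := finrank_Gr_succ h hA V ht0 ht1 hV hV' (c : ℤ)
    rw [← ih, ← this]
    simp

/-- If `V` is stable under an element of valuation one and its inverse, its dimension over `Lau F`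
is `m` times the dimension of the level-zero graded. -/
theorem finrank_eq_mul_Gr_zero [FiniteDimensional F S] (V : Submodule (Lau F) (SL S σ))
    {t : SL S σ} (ht0 : t ≠ 0) (ht1 : val t = 1)
    (hV : ∀ x ∈ V, x * t ∈ V) (hV' : ∀ x ∈ V, x * t⁻¹ ∈ V) :
    Module.finrank (Lau F) V = m * Module.finrank F (Gr h hA V 0) := by
  rw [finrank_eq_sum_Gr h hA V]
  simp [finrank_Gr_nat h hA V ht0 ht1 hV hV']

end Shift

/-! ### The semilinear Artin lemma -/

section Artin

/-- **Semilinear Artin lemma**: `F`-independent vectors fixed by a semilinear map are independent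
over `L`. -/
theorem linearIndependent_of_fixed {F L V ι : Type*} [Field F] [Field L] [Algebra F L]
    [AddCommGroup V] [Module L V] [Module F V] [IsScalarTower F L V]
    (s : L →+* L) (hfix : ∀ l, s l = l → l ∈ (algebraMap F L).range)
    (τ : V →+ V) (hτ : ∀ (l : L) (v : V), τ (l • v) = s l • τ v)
    (x : ι → V) (hx : ∀ i, τ (x i) = x i) (hli : LinearIndependent F x) :
    LinearIndependent L x := by
  classical
  rw [linearIndependent_iff']
  intro t
  induction t using Finset.strongInduction with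
  | H t ih =>
    intro g hg i0 hi0
    by_contra hne
    -- normalise
    let g' : ι → L := fun i => (g i0)⁻¹ * g i
    have hg' : ∑ i ∈ t, g' i • x i = 0 := by
      have : ∑ i ∈ t, g' i • x i = (g i0)⁻¹ • ∑ i ∈ t, g i • x i := by
        rw [Finset.smul_sum]
        exact Finset.sum_congr rfl fun i _ => mul_smul _ _ _
      rw [this, hg, smul_zero]
    have hg'0 : g' i0 = 1 := inv_mul_cancel₀ hne
    -- apply τ
    have hτg : ∑ i ∈ t, s (g' i) • x i = 0 := by
      have := congrArg τ hg'
      rw [map_sum, map_zero] at this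
      rw [← this]
      exact Finset.sum_congr rfl fun i _ => by rw [hτ, hx]
    -- subtract
    have hdiff : ∑ i ∈ t.erase i0, (s (g' i) - g' i) • x i = 0 := by
      have h1 : ∑ i ∈ t, (s (g' i) - g' i) • x i = 0 := by
        simp only [sub_smul]
        rw [Finset.sum_sub_distrib, hτg, hg', sub_zero]
      rw [← Finset.add_sum_erase t _ hi0, hg'0, map_one, sub_self, zero_smul, zero_add] at h1
      exact h1
    have hfixed : ∀ i ∈ t, s (g' i) = g' i := by
      intro i hi
      by_cases hii : i = i0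
      · rw [hii, hg'0, map_one]
      · exact sub_eq_zero.mp (ih (t.erase i0) (Finset.erase_ssubset hi0) _ hdiff i
          (Finset.mem_erase.mpr ⟨hii, hi⟩))
    -- coefficients descend
    have hdesc : ∀ i, ∃ a : F, i ∈ t → algebraMap F L a = g' i := by
      intro i
      by_cases hi : i ∈ t
      · obtain ⟨a, ha⟩ := hfix _ (hfixed i hi)
        exact ⟨a, fun _ => ha⟩
      · exact ⟨0, fun h => absurd h hi⟩
    choose a ha using hdesc
    have hrel : ∑ i ∈ t, a i • x i = 0 := by
      rw [← hg']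
      refine Finset.sum_congr rfl fun i hi => ?_
      rw [← ha i hi, algebraMap_smul]
    have hz := (linearIndependent_iff'.mp hli) t a hrel i0 hi0
    have h1 := ha i0 hi0
    rw [hz, map_zero, hg'0] at h1
    exact zero_ne_one h1

end Artin

/-! ### Valuation of powers -/

section ValPow

variable {S : Type*} [DivisionRing S] {σ : RingAut S}

lemma val_one' : val (1 : SL S σ) = 0 :=
  val_eq_of (by simp [coeff_one]) lB_one

lemma val_inv {x : SL S σ} (hx : x ≠ 0) : val x⁻¹ = - val x := by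
  have h1 := val_mul hx (inv_ne_zero hx)
  rw [mul_inv_cancel₀ hx, val_one'] at h1
  linarith

lemma val_zpow {x : SL S σ} (hx : x ≠ 0) (n : ℤ) : val (x ^ n) = n * val x := by
  induction n using Int.induction_on with
  | zero => simp [val_one']
  | succ k ih =>
    rw [zpow_add_one₀ hx, val_mul (zpow_ne_zero _ hx) hx, ih]
    ring
  | pred k ih =>
    rw [zpow_sub_one₀ hx, val_mul (zpow_ne_zero _ hx) (inv_ne_zero hx), ih, val_inv hx]
    ring

end ValPow

/-! ### The tower of a division ring over its centre -/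

section Tower

/-- The centre as an `R`-subspace. -/
def centerSub (R B : Type*) [Field R] [DivisionRing B] [Algebra R B] : Submodule R B where
  carrier := {x | x ∈ Subring.center B}
  add_mem' := fun {a b} ha hb => by
    show a + b ∈ Subring.center B
    exact (Subring.center B).add_mem ha hb
  zero_mem' := (Subring.center B).zero_mem
  smul_mem' := fun c x hx => by
    show c • x ∈ Subring.center B
    rw [Algebra.smul_def]
    refine Subring.mul_mem _ ?_ hx
    rw [Subring.mem_center_iff]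
    intro b
    exact (Algebra.commutes c b).symm

lemma mem_centerSub {R B : Type*} [Field R] [DivisionRing B] [Algebra R B] {x : B} :
    x ∈ centerSub R B ↔ x ∈ Subring.center B := Iff.rfl

theorem finrank_eq_center_mul (R B : Type*) [Field R] [DivisionRing B] [Algebra R B]
    [FiniteDimensional R B] :
    Module.finrank R B = Module.finrank R (centerSub R B) *
      Module.finrank (Subring.center B) B := by
  letI alg : Algebra R (Subring.center B) := RingHom.toAlgebra
    ((algebraMap R B).codRestrict (Subring.center B) (fun r =>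
      Subring.mem_center_iff.mpr (fun b => (Algebra.commutes r b).symm)))
  haveI tower : IsScalarTower R (Subring.center B) B := ⟨fun c k b => by
    show ((algebraMap R B c * (k : B)) * b) = c • ((k : B) * b)
    rw [Algebra.smul_def, mul_assoc]⟩
  let φ : Subring.center B →ₗ[R] B :=
    { toFun := Subtype.val
      map_add' := fun _ _ => rfl
      map_smul' := fun c k => by
        show algebraMap R B c * (k : B) = c • (k : B)
        rw [Algebra.smul_def] }
  have hφ : Function.Injective φ := Subtype.val_injective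
  have hrange : LinearMap.range φ = centerSub R B := by
    ext x
    constructor
    · rintro ⟨k, rfl⟩
      exact mem_centerSub.mpr k.2
    · intro hx
      exact ⟨⟨x, mem_centerSub.mp hx⟩, rfl⟩
  have e1 : Module.finrank R (centerSub R B) = Module.finrank R (Subring.center B) := by
    rw [← hrange]
    exact LinearMap.finrank_range_of_inj hφ
  rw [e1, Module.finrank_mul_finrank]

end Tower

/-! ### Lemma Meas -/

section Meas

variable {F L S : Type*} [Field F] [Field L] [DivisionRing S] [Algebra F L] [Algebra L S]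
  [Algebra F S] [IsScalarTower F L S] {σ : RingAut S} {m : ℕ}
variable (h : StretchData (algebraMap F S) σ m)
variable [Algebra (Lau F) (SL S σ)]
  (hA : ∀ c : Lau F, algebraMap (Lau F) (SL S σ) c = stretch h c)

/-- Commuting with `ξ` gives the twisted commutation of residues. -/
lemma residue_comm {ξ x : SL S σ} (hx : x.LB 0) (hc : x * ξ = ξ * x) :
    x.coeff 0 * lc ξ = lc ξ * (σ ^ val ξ) (x.coeff 0) := by
  have h1 := coeff_mul_add hx (lB_val ξ)
  have h2 := coeff_mul_add (lB_val ξ) hx
  rw [zero_add] at h1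
  rw [add_zero] at h2
  rw [hc, h2] at h1
  simpa [lc] using h1.symm

variable (s : RingAut L) (hs : ∀ l, σ (algebraMap L S l) = algebraMap L S (s l))
  (hsm : s ^ m = 1) (hfix : ∀ l, s l = l → l ∈ (algebraMap F L).range)

include hsm hfix in
/-- A power of `s` coprime to `m` has the same fixed points as `s`. -/
lemma fix_of_zpow {d : ℤ} (hcop : IsCoprime d (m : ℤ)) (l : L) (hl : (s ^ d) l = l) :
    l ∈ (algebraMap F L).range := by
  obtain ⟨u, v, huv⟩ := hcop
  apply hfix
  have e : s = (s ^ d) ^ u * (s ^ (m : ℤ)) ^ v := by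
    rw [zpow_natCast, hsm, one_zpow, mul_one, ← zpow_mul, mul_comm d u]
    have : u * d = 1 - v * (m : ℤ) := by linarith
    rw [this, zpow_sub, zpow_one, zpow_mul', zpow_natCast, hsm, one_zpow, inv_one, mul_one]
  have hz : ∀ k : ℤ, ((s ^ d) ^ k) l = l := by
    intro k
    induction k using Int.induction_on with
    | zero => simp
    | succ k ih => rw [zpow_add_one, RingAut.mul_apply, hl, ih]
    | pred k ih =>
      have hinv : ((s ^ d)⁻¹) l = l := by
        have : ((s ^ d)⁻¹) ((s ^ d) l) = l := by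
          show ((s ^ d)⁻¹ * s ^ d) l = l
          rw [inv_mul_cancel]; rfl
        rwa [hl] at this
      rw [zpow_sub_one, RingAut.mul_apply, hinv, ih]
  rw [e, zpow_natCast, hsm, one_zpow, mul_one]
  exact hz u

include hs hsm hfix in
/-- `g₀ ≤ dim_L S`. -/
theorem finrank_Gr_zero_le [FiniteDimensional F S] (V : Submodule (Lau F) (SL S σ)) {ξ : SL S σ}
    (hξ : ξ ≠ 0) (hV : ∀ x ∈ V, x * ξ = ξ * x) (hcop : IsCoprime (val ξ) (m : ℤ)) :
    Module.finrank F (Gr h hA V 0) ≤ Module.finrank L S := by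
  set a : S := lc ξ with ha
  have ha0 : a ≠ 0 := coeff_val_ne hξ
  set d := val ξ with hd
  let τ : S →+ S :=
    { toFun := fun v => a * (σ ^ d) v * a⁻¹
      map_zero' := by simp
      map_add' := fun x y => by rw [map_add, mul_add, add_mul] }
  have hz : ∀ l, (σ ^ d) (algebraMap L S l) = algebraMap L S ((s ^ d) l) := fun l =>
    (equivariant_zpow (algebraMap L S) (fun x => (hs x).symm) d l).symm
  have hτ : ∀ (l : L) (v : S), τ (l • v) = ((s ^ d : RingAut L) : L →+* L) l • τ v := by
    intro l v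
    show a * (σ ^ d) (l • v) * a⁻¹ = ((s ^ d) l) • (a * (σ ^ d) v * a⁻¹)
    rw [Algebra.smul_def, Algebra.smul_def, map_mul, hz, ← mul_assoc a, ← Algebra.commutes,
      mul_assoc, mul_assoc, mul_assoc]
  let b := Module.finBasis F (Gr h hA V 0)
  have hfixed : ∀ i, τ (b i : S) = (b i : S) := by
    intro i
    obtain ⟨x, hx, hxL, hxc⟩ := (b i).2
    have := residue_comm hxL (hV x hx)
    rw [hxc] at this
    show a * (σ ^ d) (b i : S) * a⁻¹ = _
    rw [← this, mul_assoc, mul_inv_cancel₀ ha0, mul_one]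
  have hli : LinearIndependent F (fun i => (b i : S)) :=
    b.linearIndependent.map' (Gr h hA V 0).subtype (Submodule.ker_subtype _)
  have hli' : LinearIndependent L (fun i => (b i : S)) :=
    linearIndependent_of_fixed (F := F) (L := L) ((s ^ d : RingAut L) : L →+* L)
      (fun l hl => fix_of_zpow s hsm hfix hcop l hl) τ hτ _ hfixed hli
  haveI : FiniteDimensional L S := FiniteDimensional.right F L S
  have := hli'.fintype_card_le_finrank
  simpa using this

variable {K0 : Subalgebra F S}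

/-- `K0`-stable subspaces containing `1` contain `K0`. -/
lemma finrank_K0_le [FiniteDimensional F S] {W : Submodule F S} (h1 : (1 : S) ∈ W)
    (hW : ∀ k ∈ K0, ∀ w ∈ W, k * w ∈ W) : Module.finrank F K0 ≤ Module.finrank F W := by
  apply Submodule.finrank_mono (s := Subalgebra.toSubmodule K0)
  intro k hk
  have := hW k hk 1 h1
  rwa [mul_one] at this

/-- Two `K0`-dimensions. -/
lemma two_mul_finrank_K0_le [FiniteDimensional F S] {W : Submodule F S} (h1 : (1 : S) ∈ W)
    (hW : ∀ k ∈ K0, ∀ w ∈ W, k * w ∈ W) (hinv : ∀ k ∈ K0, k⁻¹ ∈ K0) {w : S} (hw : w ∈ W)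
    (hw' : w ∉ K0) : 2 * Module.finrank F K0 ≤ Module.finrank F W := by
  let φ : (K0 × K0) →ₗ[F] W :=
    { toFun := fun p => ⟨(p.1 : S) * 1 + (p.2 : S) * w,
        W.add_mem (hW _ p.1.2 _ h1) (hW _ p.2.2 _ hw)⟩
      map_add' := fun p q => by
        apply Subtype.ext
        show ((p.1 + q.1 : K0) : S) * 1 + ((p.2 + q.2 : K0) : S) * w = _
        push_cast
        simp only [mul_one]
        rw [add_mul]
        abel
      map_smul' := fun c p => by
        apply Subtype.ext
        show ((c • p.1 : K0) : S) * 1 + ((c • p.2 : K0) : S) * w = c • ((p.1 : S) * 1 + (p.2 : S) * w)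
        simp [smul_add, Algebra.smul_mul_assoc] }
  have hφ : Function.Injective φ := by
    rw [← LinearMap.ker_eq_bot, LinearMap.ker_eq_bot']
    rintro ⟨p, q⟩ hpq
    have e : (p : S) * 1 + (q : S) * w = 0 := congrArg Subtype.val hpq
    rw [mul_one] at e
    by_cases hq : (q : S) = 0
    · have hq' : q = 0 := Subtype.ext hq
      rw [hq, zero_mul, add_zero] at e
      have hp' : p = 0 := Subtype.ext e
      rw [hp', hq']
      rfl
    · exfalso
      apply hw'
      have : w = (q : S)⁻¹ * (-(p : S)) := by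
        have e2 : (q : S) * w = -(p : S) := by
          rw [eq_neg_iff_add_eq_zero, add_comm]
          exact e
        rw [← e2, ← mul_assoc, inv_mul_cancel₀ hq, one_mul]
      rw [this]
      exact K0.mul_mem (hinv _ q.2) (K0.neg_mem p.2)
  have := LinearMap.finrank_le_finrank_of_injective hφ
  rw [Module.finrank_prod] at this
  omega

end Meas

/-! ### Main form of Lemma Meas -/

section MeasMain

variable {F L S : Type*} [Field F] [Field L] [DivisionRing S] [Algebra F L] [Algebra L S]
  [Algebra F S] [IsScalarTower F L S] {σ : RingAut S} {m : ℕ}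
variable (h : StretchData (algebraMap F S) σ m)
variable [Algebra (Lau F) (SL S σ)]
  (hA : ∀ c : Lau F, algebraMap (Lau F) (SL S σ) c = stretch h c)
variable {B : Type*} [DivisionRing B] [Algebra (Lau F) B] (j : B →ₐ[Lau F] SL S σ)

/-- The image of the centre of `B`. -/
noncomputable def Zc : Submodule (Lau F) (SL S σ) := (centerSub (Lau F) B).map j.toLinearMap

lemma mem_Zc {x : SL S σ} : x ∈ Zc j ↔ ∃ z ∈ Subring.center B, j z = x := Iff.rfl

lemma j_injective : Function.Injective j := (j : B →+* SL S σ).injective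

variable {ξ : SL S σ}

/-- `ξ` lifts to the centre. -/
lemma exists_central_lift (hj : ∀ x, x ∈ j.range ↔ x * ξ = ξ * x) :
    ∃ z ∈ Subring.center B, j z = ξ := by
  obtain ⟨z, hz⟩ := (hj ξ).mpr rfl
  refine ⟨z, ?_, hz⟩
  rw [Subring.mem_center_iff]
  intro b
  apply j_injective j
  have h1 : j b * ξ = ξ * j b := (hj (j b)).mp ⟨b, rfl⟩
  have hz' : j z = ξ := hz
  rw [map_mul, map_mul, hz', h1]

include hA in
/-- The stretched uniformiser has valuation `m`. -/
lemma val_stretch_ϖ : val (stretch h (ϖz 1 : Lau F)) = m := by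
  have h1 : (ϖz 1 : Lau F).LB 1 := lB_mon _ _
  have h2 := lB_stretch h h1
  have h3 := coeff_stretch_mul h (ϖz 1 : Lau F) 1
  rw [ϖz, coeff_mon_self, map_one] at h3
  have := val_eq_of (f := stretch h (mon 1 1 : Lau F)) (v := (m : ℤ) * 1)
    (by rw [h3]; exact one_ne_zero) h2
  rw [mul_one] at this
  exact this

include hA in
/-- Existence of a central element of valuation one, by Bezout. -/
lemma exists_central_val_one (hj : ∀ x, x ∈ j.range ↔ x * ξ = ξ * x) (hξ : ξ ≠ 0)
    (hcop : IsCoprime (val ξ) (m : ℤ)) :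
    ∃ z ∈ Subring.center B, j z ≠ 0 ∧ val (j z) = 1 := by
  obtain ⟨b0, hb0, hb0j⟩ := exists_central_lift j hj
  have hπ0 : stretch h (ϖz 1 : Lau F) ≠ 0 := by
    intro e
    have := val_stretch_ϖ h hA
    have h3 := coeff_stretch_mul h (ϖz 1 : Lau F) 1
    rw [ϖz, coeff_mon_self, map_one] at h3
    rw [ϖz] at e
    rw [e, coeff_zero] at h3
    exact one_ne_zero h3.symm
  let c0 : Subring.center B := ⟨algebraMap (Lau F) B (ϖz 1),
    Subring.mem_center_iff.mpr (fun b => (Algebra.commutes _ b).symm)⟩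
  let b0' : Subring.center B := ⟨b0, hb0⟩
  have hc0j : j (c0 : B) = stretch h (ϖz 1 : Lau F) := by
    show j (algebraMap (Lau F) B (ϖz 1)) = _
    rw [AlgHom.commutes, hA]
  let ρ : Subring.center B →+* SL S σ := (j : B →+* SL S σ).comp (Subring.center B).subtype
  obtain ⟨u, v, huv⟩ := hcop
  let zz : Subring.center B := b0' ^ u * c0 ^ v
  have hρ : ρ zz = ξ ^ u * (stretch h (ϖz 1 : Lau F)) ^ v := by
    rw [map_mul, map_zpow₀, map_zpow₀]
    show (j b0) ^ u * (j (c0 : B)) ^ v = _
    rw [hb0j, hc0j]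
  have hval : val (ρ zz) = 1 := by
    rw [hρ, val_mul (zpow_ne_zero _ hξ) (zpow_ne_zero _ hπ0), val_zpow hξ, val_zpow hπ0,
      val_stretch_ϖ h hA]
    exact huv
  have hne : ρ zz ≠ 0 := by
    rw [hρ]
    exact mul_ne_zero (zpow_ne_zero _ hξ) (zpow_ne_zero _ hπ0)
  exact ⟨zz, zz.2, hne, hval⟩

variable [FiniteDimensional F S]

include hA in
/-- **Lemma Meas, tower form.** -/
theorem finrank_Gr_eq_mul (hj : ∀ x, x ∈ j.range ↔ x * ξ = ξ * x) (hξ : ξ ≠ 0)
    (hcop : IsCoprime (val ξ) (m : ℤ)) :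
    Module.finrank F (Gr h hA (LinearMap.range j.toLinearMap) 0) =
      Module.finrank F (Gr h hA (Zc j) 0) * Module.finrank (Subring.center B) B := by
  haveI := finite_SL h hA
  haveI : FiniteDimensional (Lau F) B :=
    FiniteDimensional.of_injective j.toLinearMap (j_injective j)
  obtain ⟨z, hz, htne, ht1⟩ := exists_central_val_one h hA j hj hξ hcop
  have hz0 : z ≠ 0 := by
    rintro rfl
    exact htne (map_zero j)
  have hinv : (j z)⁻¹ = j z⁻¹ := (map_inv₀ j z).symm
  have hzinv : z⁻¹ ∈ Subring.center B := by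
    have := ((⟨z, hz⟩ : Subring.center B)⁻¹).2
    rwa [Subring.center.coe_inv] at this
  have hV1 : ∀ x ∈ LinearMap.range j.toLinearMap, x * j z ∈ LinearMap.range j.toLinearMap := by
    rintro _ ⟨b, rfl⟩
    exact ⟨b * z, map_mul j b z⟩
  have hV2 : ∀ x ∈ LinearMap.range j.toLinearMap, x * (j z)⁻¹ ∈ LinearMap.range j.toLinearMap := by
    rintro _ ⟨b, rfl⟩
    rw [hinv]
    exact ⟨b * z⁻¹, map_mul j b z⁻¹⟩
  have hZ1 : ∀ x ∈ Zc j, x * j z ∈ Zc j := by
    rintro _ ⟨b, hb, rfl⟩
    exact ⟨b * z, (Subring.center B).mul_mem (mem_centerSub.mp hb) hz, map_mul j b z⟩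
  have hZ2 : ∀ x ∈ Zc j, x * (j z)⁻¹ ∈ Zc j := by
    rintro _ ⟨b, hb, rfl⟩
    rw [hinv]
    exact ⟨b * z⁻¹, (Subring.center B).mul_mem (mem_centerSub.mp hb) hzinv, map_mul j b z⁻¹⟩
  have e1 := finrank_eq_mul_Gr_zero h hA (LinearMap.range j.toLinearMap) htne ht1 hV1 hV2
  have e2 := finrank_eq_mul_Gr_zero h hA (Zc j) htne ht1 hZ1 hZ2
  have e3 : Module.finrank (Lau F) (LinearMap.range j.toLinearMap) = Module.finrank (Lau F) B :=
    LinearMap.finrank_range_of_inj (j_injective j)
  have e4 : Module.finrank (Lau F) (Zc j) = Module.finrank (Lau F) (centerSub (Lau F) B) :=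
    (Submodule.equivMapOfInjective j.toLinearMap (j_injective j) (centerSub (Lau F) B)).finrank_eq.symm
  have e5 := finrank_eq_center_mul (Lau F) B
  rw [e3] at e1
  rw [e4] at e2
  rw [e1, e2, mul_assoc] at e5
  exact Nat.eq_of_mul_eq_mul_left h.pos e5

section Bounds

variable {K0 : Subalgebra F S}

lemma fixed_zpow (hK : ∀ k ∈ K0, σ k = k) {k : S} (hk : k ∈ K0) (n : ℤ) : (σ ^ n) k = k := by
  have hinv : σ⁻¹ k = k := by
    have e : σ⁻¹ (σ k) = k := by
      show (σ⁻¹ * σ) k = k
      rw [inv_mul_cancel]; rfl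
    rwa [hK k hk] at e
  induction n using Int.induction_on with
  | zero => simp
  | succ i ih => rw [zpow_add_one, RingAut.mul_apply, hK k hk, ih]
  | pred i ih => rw [zpow_sub_one, RingAut.mul_apply, hinv, ih]

/-- Central `σ`-fixed constants are central in `SL S σ`. -/
lemma C_central (hKc : ∀ k ∈ K0, ∀ x, k * x = x * k) (hK : ∀ k ∈ K0, σ k = k) {k : S} (hk : k ∈ K0)
    (x : SL S σ) : C k * x = x * C k := by
  apply SL.ext
  funext n
  rw [coeff_C_mul, coeff_mul_C, fixed_zpow hK hk, hKc k hk]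

include hA in
lemma one_mem_Gr_Zc : (1 : S) ∈ Gr h hA (Zc j) 0 := by
  refine ⟨1, ⟨1, (Subring.center B).one_mem, map_one j⟩, lB_one, ?_⟩
  simp [coeff_one]

include hA in
lemma K0_mul_mem_Gr_Zc (hj : ∀ x, x ∈ j.range ↔ x * ξ = ξ * x)
    (hKc : ∀ k ∈ K0, ∀ x, k * x = x * k) (hK : ∀ k ∈ K0, σ k = k) {k : S} (hk : k ∈ K0) {w : S}
    (hw : w ∈ Gr h hA (Zc j) 0) : k * w ∈ Gr h hA (Zc j) 0 := by
  obtain ⟨x, ⟨y, hy, rfl⟩, hxL, rfl⟩ := hw
  obtain ⟨y', hy'⟩ := (hj (C k)).mpr (C_central hKc hK hk ξ)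
  have hy'j : j y' = C k := hy'
  have hy'c : y' ∈ Subring.center B := by
    rw [Subring.mem_center_iff]
    intro b
    apply j_injective j
    rw [map_mul, map_mul, hy'j]
    exact (C_central hKc hK hk _).symm
  refine ⟨j (y' * y), ⟨y' * y, (Subring.center B).mul_mem hy'c (mem_centerSub.mp hy), rfl⟩, ?_, ?_⟩
  · rw [map_mul, hy'j]
    have : (C k * j y : SL S σ).LB (0 + 0) := LB.mul (lB_mon k 0) hxL
    rwa [add_zero] at this
  · rw [map_mul, hy'j, coeff_C_mul]
    rfl

variable (s : RingAut L) (hs : ∀ l, σ (algebraMap L S l) = algebraMap L S (s l))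
  (hsm : s ^ m = 1) (hfix : ∀ l, s l = l → l ∈ (algebraMap F L).range)

include hA hs hsm hfix in
/-- **Lemma Meas**: `d(A') ≤ d(A)`.  Here `d(A') = finrank (center B) B`, `K0` is the
`F`-form of the centre of `A`, and `dim_L S = [K0:F] d(A)`. -/
theorem meas_le (hj : ∀ x, x ∈ j.range ↔ x * ξ = ξ * x) (hξ : ξ ≠ 0)
    (hcop : IsCoprime (val ξ) (m : ℤ))
    (hKc : ∀ k ∈ K0, ∀ x, k * x = x * k) (hK : ∀ k ∈ K0, σ k = k)
    {dA : ℕ} (hdim : Module.finrank L S = Module.finrank F K0 * dA) :
    Module.finrank (Subring.center B) B ≤ dA := by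
  have e := finrank_Gr_eq_mul h hA j hj hξ hcop
  have hle := finrank_Gr_zero_le h hA s hs hsm hfix (LinearMap.range j.toLinearMap) hξ
    (fun x hx => (hj x).mp hx) hcop
  have hf := finrank_K0_le (K0 := K0) (one_mem_Gr_Zc h hA j)
    (fun k hk w hw => K0_mul_mem_Gr_Zc h hA j hj hKc hK hk hw)
  have hpos : 0 < Module.finrank F K0 := Module.finrank_pos
  rw [e, hdim] at hle
  have : Module.finrank F K0 * Module.finrank (Subring.center B) B ≤
      Module.finrank F K0 * dA := le_trans (Nat.mul_le_mul_right _ hf) hle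
  exact Nat.le_of_mul_le_mul_left this hpos

include hA hs hsm hfix in
/-- **Lemma Meas**: `2 d(A') ≤ d(A)` when some valuation-`≥ 0` element of the centre of `A'` has
residue outside `K0`. -/
theorem meas_half (hj : ∀ x, x ∈ j.range ↔ x * ξ = ξ * x) (hξ : ξ ≠ 0)
    (hcop : IsCoprime (val ξ) (m : ℤ))
    (hKc : ∀ k ∈ K0, ∀ x, k * x = x * k) (hK : ∀ k ∈ K0, σ k = k)
    (hinv : ∀ k ∈ K0, k⁻¹ ∈ K0)
    {dA : ℕ} (hdim : Module.finrank L S = Module.finrank F K0 * dA)
    {z : B} (hz : z ∈ Subring.center B) (hzL : (j z).LB 0) (hzK : (j z).coeff 0 ∉ K0) :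
    2 * Module.finrank (Subring.center B) B ≤ dA := by
  have e := finrank_Gr_eq_mul h hA j hj hξ hcop
  have hle := finrank_Gr_zero_le h hA s hs hsm hfix (LinearMap.range j.toLinearMap) hξ
    (fun x hx => (hj x).mp hx) hcop
  have hw : (j z).coeff 0 ∈ Gr h hA (Zc j) 0 := ⟨j z, ⟨z, hz, rfl⟩, hzL, rfl⟩
  have hf := two_mul_finrank_K0_le (K0 := K0) (one_mem_Gr_Zc h hA j)
    (fun k hk w hw => K0_mul_mem_Gr_Zc h hA j hj hKc hK hk hw) hinv hw hzK
  have hpos : 0 < Module.finrank F K0 := Module.finrank_pos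
  rw [e, hdim] at hle
  have : Module.finrank F K0 * (2 * Module.finrank (Subring.center B) B) ≤
      Module.finrank F K0 * dA := by
    calc Module.finrank F K0 * (2 * Module.finrank (Subring.center B) B)
        = (2 * Module.finrank F K0) * Module.finrank (Subring.center B) B := by ring
      _ ≤ _ := Nat.mul_le_mul_right _ hf
      _ ≤ _ := hle
  exact Nat.le_of_mul_le_mul_left this hpos

end Bounds

end MeasMain

section MeasExplicit

variable {F L S : Type*} [Field F] [Field L] [DivisionRing S] [Algebra F L] [Algebra L S]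
  [Algebra F S] [IsScalarTower F L S] {σ : RingAut S} {m : ℕ}
variable (h : StretchData (algebraMap F S) σ m)
variable [Algebra (Lau F) (SL S σ)]
  (hA : ∀ c : Lau F, algebraMap (Lau F) (SL S σ) c = stretch h c)
variable {B : Type*} [DivisionRing B] [Algebra (Lau F) B] (j : B →ₐ[Lau F] SL S σ)
variable {ξ : SL S σ} {K0 : Subalgebra F S}
variable (s : RingAut L) (hs : ∀ l, σ (algebraMap L S l) = algebraMap L S (s l))
  (hsm : s ^ m = 1) (hfix : ∀ l, s l = l → l ∈ (algebraMap F L).range)

include hA hs hsm hfix in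
/-- `meas_le` with an explicit finiteness hypothesis (handy when instance paths differ). -/
theorem meas_le' (hfd : FiniteDimensional F S) (hj : ∀ x, x ∈ j.range ↔ x * ξ = ξ * x) (hξ : ξ ≠ 0)
    (hcop : IsCoprime (val ξ) (m : ℤ))
    (hKc : ∀ k ∈ K0, ∀ x, k * x = x * k) (hK : ∀ k ∈ K0, σ k = k)
    {dA : ℕ} (hdim : Module.finrank L S = Module.finrank F K0 * dA) :
    Module.finrank (Subring.center B) B ≤ dA :=
  meas_le h hA j s hs hsm hfix hj hξ hcop hKc hK hdim

include hA hs hsm hfix in
/-- `meas_half` with an explicit finiteness hypothesis. -/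
theorem meas_half' (hfd : FiniteDimensional F S) (hj : ∀ x, x ∈ j.range ↔ x * ξ = ξ * x) (hξ : ξ ≠ 0)
    (hcop : IsCoprime (val ξ) (m : ℤ))
    (hKc : ∀ k ∈ K0, ∀ x, k * x = x * k) (hK : ∀ k ∈ K0, σ k = k)
    (hinv : ∀ k ∈ K0, k⁻¹ ∈ K0)
    {dA : ℕ} (hdim : Module.finrank L S = Module.finrank F K0 * dA)
    {z : B} (hz : z ∈ Subring.center B) (hzL : (j z).LB 0) (hzK : (j z).coeff 0 ∉ K0) :
    2 * Module.finrank (Subring.center B) B ≤ dA :=
  meas_half h hA j s hs hsm hfix hj hξ hcop hKc hK hinv hdim hz hzL hzK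

end MeasExplicit

section LetterBudget

variable {F L S : Type*} [Field F] [Field L] [DivisionRing S] [Algebra F L] [Algebra L S]
  [Algebra F S] [IsScalarTower F L S] {σ : RingAut S} {m : ℕ}
variable (h : StretchData (algebraMap F S) σ m)
variable [Algebra (Lau F) (SL S σ)]
  (hA : ∀ c : Lau F, algebraMap (Lau F) (SL S σ) c = stretch h c)
variable {B : Type*} [DivisionRing B] [Algebra (Lau F) B] (j : B →ₐ[Lau F] SL S σ)
variable {ξ : SL S σ}
variable (s : RingAut L) (hs : ∀ l, σ (algebraMap L S l) = algebraMap L S (s l))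
  (hsm : s ^ m = 1) (hfix : ∀ l, s l = l → l ∈ (algebraMap F L).range)

include hA in
/-- `dim_{Lau F} B = m · g₀`. -/
theorem finrank_eq_mul_Gr_range (hfd : FiniteDimensional F S)
    (hj : ∀ x, x ∈ j.range ↔ x * ξ = ξ * x) (hξ : ξ ≠ 0) (hcop : IsCoprime (val ξ) (m : ℤ)) :
    Module.finrank (Lau F) B = m * Module.finrank F (Gr h hA (LinearMap.range j.toLinearMap) 0) := by
  obtain ⟨z, hz, htne, ht1⟩ := exists_central_val_one h hA j hj hξ hcop
  have hinv : (j z)⁻¹ = j z⁻¹ := (map_inv₀ j z).symm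
  have hV1 : ∀ x ∈ LinearMap.range j.toLinearMap, x * j z ∈ LinearMap.range j.toLinearMap := by
    rintro _ ⟨b, rfl⟩
    exact ⟨b * z, map_mul j b z⟩
  have hV2 : ∀ x ∈ LinearMap.range j.toLinearMap, x * (j z)⁻¹ ∈ LinearMap.range j.toLinearMap := by
    rintro _ ⟨b, rfl⟩
    rw [hinv]
    exact ⟨b * z⁻¹, map_mul j b z⁻¹⟩
  have e1 := finrank_eq_mul_Gr_zero h hA (LinearMap.range j.toLinearMap) htne ht1 hV1 hV2
  have e3 : Module.finrank (Lau F) (LinearMap.range j.toLinearMap) = Module.finrank (Lau F) B :=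
    LinearMap.finrank_range_of_inj (j_injective j)
  rwa [e3] at e1

include hA hs hsm hfix in
/-- The letter budget: `dim_{Lau F} B ≤ m · dim_L S`. -/
theorem finrank_le_mul (hfd : FiniteDimensional F S)
    (hj : ∀ x, x ∈ j.range ↔ x * ξ = ξ * x) (hξ : ξ ≠ 0) (hcop : IsCoprime (val ξ) (m : ℤ)) :
    Module.finrank (Lau F) B ≤ m * Module.finrank L S := by
  rw [finrank_eq_mul_Gr_range h hA j hfd hj hξ hcop]
  exact Nat.mul_le_mul_left _ (finrank_Gr_zero_le h hA s hs hsm hfix _ hξ
    (fun x hx => (hj x).mp hx) hcop)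

end LetterBudget

end Crest.Agent.Lib.Kurosh.GrMeas
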