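import Mathlib
import Crest.Agent.Lib.Kurosh.GrMeas

/-!
# Abstract cores of Lemma GEN' and Lemma IND' (blueprint sec 2)

* `residue A`: the subring of residues of the `val ≥ 0` elements of a `Lau F`-subalgebra `A` of
  `SL S σ`.  If `A` contains an element of valuation `1` and all of `S` is a residue then `A = ⊤`.
* prime degree: if `[L : F]` is prime, `λ ∉ F` generates `L`.
* `IND` over `L`: the slice maps `φ ⊗ id : L ⊗ E → E`.
-/

set_option autoImplicit false

open scoped TensorProduct

namespace Crest.Agent.Lib.Kurosh.GenInd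

open SL Module

/-! ### GEN' -/

section GenCore

variable {F : Type*} [Field F] {S : Type*} [DivisionRing S] [Algebra F S] {σ : RingAut S} {m : ℕ}
variable (h : StretchData (algebraMap F S) σ m)
variable [Algebra (Lau F) (SL S σ)]
  (hA : ∀ c : Lau F, algebraMap (Lau F) (SL S σ) c = stretch h c)

/-- The subalgebra of residues of the `val ≥ 0` elements of `A`. -/
def residue (A : Subalgebra (Lau F) (SL S σ)) : Subalgebra F S where
  carrier := {x | ∃ a ∈ A, a.LB 0 ∧ a.coeff 0 = x}
  mul_mem' := by
    rintro _ _ ⟨a, ha, haL, rfl⟩ ⟨b, hb, hbL, rfl⟩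
    refine ⟨a * b, A.mul_mem ha hb, by simpa using haL.mul hbL, ?_⟩
    have := coeff_mul_add haL hbL
    simpa using this
  add_mem' := by
    rintro _ _ ⟨a, ha, haL, rfl⟩ ⟨b, hb, hbL, rfl⟩
    exact ⟨a + b, A.add_mem ha hb, haL.add hbL, rfl⟩
  algebraMap_mem' := by
    intro c
    refine ⟨algebraMap (Lau F) (SL S σ) (C c), A.algebraMap_mem _, ?_, ?_⟩
    · rw [hA]
      have := lB_stretch h (GrMeas.lB_C c)
      simpa using this
    · rw [hA]
      have := coeff_stretch_mul h (C c : Lau F) 0
      simpa [GrMeas.coeff_C_zero] using this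

lemma mem_residue {A : Subalgebra (Lau F) (SL S σ)} {x : S} :
    x ∈ residue h hA A ↔ ∃ a ∈ A, a.LB 0 ∧ a.coeff 0 = x := Iff.rfl

/-- Residues shift by an element of valuation `1`. -/
lemma mem_Gr_of_residue [FiniteDimensional F S] {A : Subalgebra (Lau F) (SL S σ)} {t : SL S σ}
    (ht : t ∈ A) (hv : val t = 1) (ht0 : t ≠ 0) (hres : residue h hA A = ⊤) (c : ℕ) (x : S) :
    x ∈ GrMeas.Gr h hA (Subalgebra.toSubmodule A) (c : ℤ) := by
  have htc : (t ^ c) ≠ 0 := pow_ne_zero _ ht0
  have hval : val (t ^ c) = (c : ℤ) := by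
    rw [← zpow_natCast, GrMeas.val_zpow ht0, hv, mul_one]
  have hL : (t ^ c).LB (c : ℤ) := hval ▸ lB_val _
  have hne : (t ^ c).coeff (c : ℤ) ≠ 0 := hval ▸ coeff_val_ne htc
  have hmem : x * ((t ^ c).coeff (c : ℤ))⁻¹ ∈ residue h hA A := by
    rw [hres]
    trivial
  obtain ⟨a, ha, haL, hac⟩ := hmem
  refine ⟨a * t ^ c, A.mul_mem ha (A.pow_mem ht c), by simpa using haL.mul hL, ?_⟩
  have := coeff_mul_add haL hL
  rw [zero_add] at this
  rw [this, hac]
  simp only [zpow_zero, RingAut.one_apply]
  exact inv_mul_cancel_right₀ hne x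

/-- **GEN' core**: a subalgebra with an element of valuation `1` and with all residues is `⊤`. -/
theorem eq_top_of_residue [FiniteDimensional F S] {A : Subalgebra (Lau F) (SL S σ)} {t : SL S σ}
    (ht : t ∈ A) (hv : val t = 1) (ht0 : t ≠ 0) (hres : residue h hA A = ⊤) : A = ⊤ := by
  have := GrMeas.finite_SL h hA
  have hGr : ∀ c : Fin m, GrMeas.Gr h hA (Subalgebra.toSubmodule A) ((c : ℕ) : ℤ) = ⊤ := fun c =>
    Submodule.eq_top_iff'.mpr fun x => mem_Gr_of_residue h hA ht hv ht0 hres c x
  have hrank : finrank (Lau F) (Subalgebra.toSubmodule A) = finrank (Lau F) (SL S σ) := by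
    rw [GrMeas.finrank_eq_sum_Gr h hA, GrMeas.finrank_SL_eq h hA]
    rw [Finset.sum_congr rfl (fun c _ => by rw [hGr c, finrank_top]), Finset.sum_const,
      Finset.card_univ, Fintype.card_fin, smul_eq_mul, mul_comm]
  have : Subalgebra.toSubmodule A = ⊤ := Submodule.eq_top_of_finrank_eq hrank
  exact Subalgebra.toSubmodule_injective (by rw [this, Algebra.top_toSubmodule])

end GenCore

/-! ### Prime degree -/

section Prime

variable {F L : Type*} [Field F] [Field L] [Algebra F L] [FiniteDimensional F L]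

theorem adjoin_eq_top_of_prime (hp : (finrank F L).Prime) {l : L}
    (hl : l ∉ (algebraMap F L).range) : Algebra.adjoin F {l} = ⊤ := by
  have hsimple : IsSimpleOrder (IntermediateField F L) :=
    IntermediateField.isSimpleOrder_of_finrank_prime F L hp
  have hint : IsIntegral F l := Algebra.IsIntegral.isIntegral l
  have h1 : IntermediateField.adjoin F {l} = ⊤ := by
    rcases hsimple.eq_bot_or_eq_top (IntermediateField.adjoin F {l}) with h0 | h0
    · exfalso
      apply hl
      have := IntermediateField.mem_adjoin_simple_self F l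
      rw [h0, IntermediateField.mem_bot] at this
      exact this
    · exact h0
  have h2 := IntermediateField.adjoin_simple_toSubalgebra_of_isAlgebraic (F := F) hint.isAlgebraic
  rw [← h2, h1, IntermediateField.top_toSubalgebra]

/-- If a subalgebra contains the image of `l ∉ F` and `[L : F]` is prime, it contains the image
of `L`. -/
theorem map_mem_of_prime {S : Type*} [Ring S] [Algebra F S] (hp : (finrank F L).Prime)
    {l : L} (hl : l ∉ (algebraMap F L).range) (i : L →ₐ[F] S) (R : Subalgebra F S)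
    (hi : i l ∈ R) (x : L) : i x ∈ R := by
  have h1 : x ∈ Algebra.adjoin F {l} := by
    rw [adjoin_eq_top_of_prime hp hl]
    trivial
  induction h1 using Algebra.adjoin_induction with
  | mem y hy =>
    rw [Set.mem_singleton_iff] at hy
    rwa [hy]
  | algebraMap r =>
    rw [AlgHom.commutes]
    exact R.algebraMap_mem r
  | add y z _ _ hy hz =>
    rw [map_add]
    exact R.add_mem hy hz
  | mul y z _ _ hy hz =>
    rw [map_mul]
    exact R.mul_mem hy hz

end Prime

/-! ### IND over an extension field -/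

section Slice

variable {Z E L : Type*} [Field Z] [Ring E] [Algebra Z E] [Field L] [Algebra Z L]

/-- The slice `φ ⊗ id : L ⊗ E → E`. -/
noncomputable def slice (φ : L →ₗ[Z] Z) : L ⊗[Z] E →ₗ[Z] E :=
  (TensorProduct.lid Z E).toLinearMap ∘ₗ TensorProduct.map φ LinearMap.id

@[simp] lemma slice_tmul (φ : L →ₗ[Z] Z) (l : L) (e : E) :
    slice φ (l ⊗ₜ[Z] e) = φ l • e := by
  simp [slice]

/-- The slice is `E`-linear on the left. -/
lemma slice_mul_left (φ : L →ₗ[Z] Z) (q : E) (u : L ⊗[Z] E) :
    slice φ (((1 : L) ⊗ₜ[Z] q) * u) = q * slice φ u := by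
  induction u using TensorProduct.induction_on with
  | zero => simp
  | tmul l e =>
    rw [Algebra.TensorProduct.tmul_mul_tmul, one_mul, slice_tmul, slice_tmul, mul_smul_comm]
  | add a b ha hb => rw [mul_add, map_add, map_add, ha, hb, mul_add]

/-- The slice is `E`-linear on the right. -/
lemma slice_mul_right (φ : L →ₗ[Z] Z) (q : E) (u : L ⊗[Z] E) :
    slice φ (u * ((1 : L) ⊗ₜ[Z] q)) = slice φ u * q := by
  induction u using TensorProduct.induction_on with
  | zero => simp
  | tmul l e =>
    rw [Algebra.TensorProduct.tmul_mul_tmul, mul_one, slice_tmul, slice_tmul, smul_mul_assoc]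
  | add a b ha hb => rw [add_mul, map_add, map_add, ha, hb, add_mul]

/-- The slices are the coordinates with respect to a basis of `L`. -/
lemma equivFinsupp_apply {ι : Type*} [DecidableEq ι] (b : Basis ι Z L) (u : L ⊗[Z] E) (k : ι) :
    (TensorProduct.equivFinsuppOfBasisLeft b u) k = slice (b.coord k) u := by
  induction u using TensorProduct.induction_on with
  | zero => simp
  | tmul l e =>
    rw [TensorProduct.equivFinsuppOfBasisLeft_apply_tmul_apply, slice_tmul]
    rfl
  | add a c ha hc => rw [map_add, Finsupp.add_apply, map_add, ha, hc]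

/-- Slices separate points of `L ⊗ E`. -/
lemma eq_zero_of_slice (u : L ⊗[Z] E) (h : ∀ φ : L →ₗ[Z] Z, slice φ u = 0) : u = 0 := by
  classical
  let b := Basis.ofVectorSpace Z L
  apply (TensorProduct.equivFinsuppOfBasisLeft b).injective
  rw [map_zero]
  ext k
  rw [Finsupp.zero_apply, equivFinsupp_apply, h]

/-- Functionals separate points of `L`. -/
lemma eq_zero_of_functional (x : L) (h : ∀ φ : L →ₗ[Z] Z, φ x = 0) : x = 0 :=
  (Module.forall_dual_apply_eq_zero_iff Z x).mp h

/-- The slice of the `L ⊗ (id)`-image: `slice φ ((id ⊗ π) u) = π (slice φ u)`. -/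
lemma slice_map (φ : L →ₗ[Z] Z) (π : E →ₗ[Z] E) (u : L ⊗[Z] E) :
    slice φ (TensorProduct.map LinearMap.id π u) = π (slice φ u) := by
  induction u using TensorProduct.induction_on with
  | zero => simp
  | tmul l e =>
    rw [TensorProduct.map_tmul, slice_tmul, slice_tmul, map_smul]
    rfl
  | add a c ha hc => rw [map_add, map_add, map_add, ha, hc, map_add]

/-- `IND` over `L`: the slices of an equation over `L`. -/
theorem slice_eq {Y ι : Type*} [Fintype Y] (q : ι → E) (Φ : Y → ι → E) (x : Y → L) (u : L ⊗[Z] E)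
    (h : ∀ i, ∑ y, x y ⊗ₜ[Z] Φ y i = ((1 : L) ⊗ₜ[Z] q i) * u - u * ((1 : L) ⊗ₜ[Z] q i))
    (φ : L →ₗ[Z] Z) (i : ι) :
    ∑ y, φ (x y) • Φ y i = q i * slice φ u - slice φ u * q i := by
  have := congrArg (slice φ) (h i)
  rw [map_sum, map_sub, slice_mul_left, slice_mul_right] at this
  simpa using this

/-- **IND over `L`**, first half: the coefficient vector vanishes. -/
theorem ind_tensor {Y ι : Type*} [Fintype Y] (q : ι → E) (Φ : Y → ι → E)
    (hind : ∀ (α : Y → Z) (u : E), (∀ i, ∑ y, α y • Φ y i = q i * u - u * q i) → α = 0)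
    (x : Y → L) (u : L ⊗[Z] E)
    (h : ∀ i, ∑ y, x y ⊗ₜ[Z] Φ y i = ((1 : L) ⊗ₜ[Z] q i) * u - u * ((1 : L) ⊗ₜ[Z] q i)) :
    x = 0 := by
  funext y
  apply eq_zero_of_functional (Z := Z)
  intro φ
  have := hind (fun y => φ (x y)) (slice φ u) (fun i => slice_eq q Φ x u h φ i)
  exact congrFun this y

/-- **IND over `L`**, second half: if `π` kills everything commuting with all `q i` then
`(id ⊗ π) u = 0` for a commutator relation with zero coefficient vector. -/
theorem comm_tensor {ι : Type*} (q : ι → E) (π : E →ₗ[Z] E)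
    (hπ : ∀ e, (∀ i, q i * e = e * q i) → π e = 0) (u : L ⊗[Z] E)
    (h : ∀ i, ((1 : L) ⊗ₜ[Z] q i) * u = u * ((1 : L) ⊗ₜ[Z] q i)) :
    TensorProduct.map LinearMap.id π u = 0 := by
  apply eq_zero_of_slice (Z := Z)
  intro φ
  rw [slice_map]
  apply hπ
  intro i
  rw [← slice_mul_left, ← slice_mul_right, h i]

end Slice

end Crest.Agent.Lib.Kurosh.GenInd
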