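import Mathlib
import Crest.Agent.Lib.Kurosh.NCSeries
import Crest.Agent.Lib.Kurosh.DivAlg

/-!
# Lemma Lift (blueprint sec 2)

`E` a finite dimensional central division algebra over `Z` (char 0), `Φ : Fin 2 → NCS E Y` such
that the constant terms generate `E` (GEN), and the tangents are independent modulo inner
derivations (IND).  Then for each letter `y0` there is a polynomial expression `t` in the `Φ i`
(with coefficients in `Z`) with zero constant term whose linear part is the letter `y0`.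
-/

set_option autoImplicit false

namespace Crest.Agent.Lib.Kurosh.Lift

open NCSeries Module

set_option linter.unusedSectionVars false

variable {Z E Y : Type*} [Field Z] [DivisionRing E] [Algebra Z E] [Fintype Y] [DecidableEq Y]

/-- Polynomial expressions in the `Φ i`. -/
def tame (Φ : Fin 2 → NCS E Y) : Subalgebra Z (NCS E Y) := Algebra.adjoin Z (Set.range Φ)

/-- The constant term, as an algebra hom. -/
def constAlg : NCS E Y →ₐ[Z] E :=
  { constHom with
    commutes' := fun r => by
      rw [algebraMap_eq]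
      rfl }

@[simp] lemma constAlg_apply (f : NCS E Y) : constAlg (Z := Z) f = coeff [] f := rfl

/-- Constant terms of `tame` elements are all of `E` (GEN). -/
lemma exists_tame_const (Φ : Fin 2 → NCS E Y)
    (gen : Algebra.adjoin Z (Set.range fun i => coeff [] (Φ i)) = ⊤) (e : E) :
    ∃ t ∈ tame (Z := Z) Φ, coeff [] t = e := by
  have h : (tame (Z := Z) Φ).map constAlg = ⊤ := by
    rw [tame, AlgHom.map_adjoin, ← gen]
    congr 1
    ext x
    simp
  have he : e ∈ (tame (Z := Z) Φ).map constAlg := by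
    rw [h]
    trivial
  obtain ⟨t, ht, rfl⟩ := he
  exact ⟨t, ht, rfl⟩

/-- Linear coefficient of a product. -/
lemma coeff_single_mul (y : Y) (f g : NCS E Y) :
    coeff [y] (f * g) = coeff [] f * coeff [y] g + coeff [y] f * coeff [] g := by
  rw [coeff_mul_cons, coeff_mul_nil, coeff_dl]

/-- The linear part of a `tame` element with zero constant term. -/
def M (Φ : Fin 2 → NCS E Y) : Submodule Z (Y → E) where
  carrier := {x | ∃ t ∈ tame (Z := Z) Φ, coeff [] t = 0 ∧ ∀ y, coeff [y] t = x y}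
  add_mem' := by
    rintro a b ⟨s, hs, hs0, hsy⟩ ⟨t, ht, ht0, hty⟩
    refine ⟨s + t, (tame Φ).add_mem hs ht, by simp [hs0, ht0], fun y => ?_⟩
    simp [hsy, hty]
  zero_mem' := ⟨0, (tame Φ).zero_mem, by simp, fun y => by simp⟩
  smul_mem' := by
    rintro c a ⟨s, hs, hs0, hsy⟩
    refine ⟨c • s, (tame Φ).smul_mem hs c, by simp [hs0], fun y => ?_⟩
    simp [hsy]

lemma M_left (Φ : Fin 2 → NCS E Y)
    (gen : Algebra.adjoin Z (Set.range fun i => coeff [] (Φ i)) = ⊤) (a : E) (x : Y → E)
    (hx : x ∈ M (Z := Z) Φ) : (fun y => a * x y) ∈ M (Z := Z) Φ := by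
  obtain ⟨t, ht, ht0, hty⟩ := hx
  obtain ⟨s, hs, hs0⟩ := exists_tame_const (Z := Z) Φ gen a
  refine ⟨s * t, (tame Φ).mul_mem hs ht, by rw [coeff_mul_nil, ht0, mul_zero], fun y => ?_⟩
  rw [coeff_single_mul, ht0, mul_zero, add_zero, hs0, hty]

lemma M_right (Φ : Fin 2 → NCS E Y)
    (gen : Algebra.adjoin Z (Set.range fun i => coeff [] (Φ i)) = ⊤) (a : E) (x : Y → E)
    (hx : x ∈ M (Z := Z) Φ) : (fun y => x y * a) ∈ M (Z := Z) Φ := by
  obtain ⟨t, ht, ht0, hty⟩ := hx
  obtain ⟨s, hs, hs0⟩ := exists_tame_const (Z := Z) Φ gen a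
  refine ⟨t * s, (tame Φ).mul_mem ht hs, by rw [coeff_mul_nil, ht0, zero_mul], fun y => ?_⟩
  rw [coeff_single_mul, ht0, zero_mul, zero_add, hs0, hty]

/-- The linear functional attached to `α`. -/
noncomputable def D (α : Y → Z) (s : NCS E Y) : E := ∑ y, algebraMap Z E (α y) * coeff [y] s

lemma D_add (α : Y → Z) (s t : NCS E Y) : D α (s + t) = D α s + D α t := by
  simp only [D, coeff_add, mul_add, Finset.sum_add_distrib]

lemma D_sub (α : Y → Z) (s t : NCS E Y) : D α (s - t) = D α s - D α t := by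
  simp only [D, coeff_sub, mul_sub, Finset.sum_sub_distrib]

lemma D_smul (α : Y → Z) (c : Z) (s : NCS E Y) : D α (c • s) = c • D α s := by
  simp only [D, coeff_smul, Finset.smul_sum]
  refine Finset.sum_congr rfl fun y _ => ?_
  rw [mul_smul_comm]

lemma D_mul (α : Y → Z) (s t : NCS E Y) :
    D α (s * t) = D α s * coeff [] t + coeff [] s * D α t := by
  simp only [D, coeff_single_mul, mul_add, Finset.sum_add_distrib, Finset.sum_mul, Finset.mul_sum]
  rw [add_comm]
  congr 1
  · refine Finset.sum_congr rfl fun y _ => ?_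
    rw [mul_assoc]
  · refine Finset.sum_congr rfl fun y _ => ?_
    rw [← mul_assoc, ← mul_assoc, Algebra.commutes]

variable [CharZero Z] [FiniteDimensional Z E] [Algebra.IsCentral Z E]

/-- **Lemma Lift**. -/
theorem exists_lift (Φ : Fin 2 → NCS E Y)
    (gen : Algebra.adjoin Z (Set.range fun i => coeff [] (Φ i)) = ⊤)
    (ind : ∀ (α : Y → Z) (u : E), (∀ i, ∑ y, algebraMap Z E (α y) * coeff [y] (Φ i) =
      coeff [] (Φ i) * u - u * coeff [] (Φ i)) → α = 0) (y0 : Y) :
    ∃ t ∈ tame (Z := Z) Φ, coeff [] t = 0 ∧ ∀ y, coeff [y] t = if y = y0 then 1 else 0 := by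
  classical
  by_cases hM : M (Z := Z) Φ = ⊤
  · have hmem : (fun y => if y = y0 then (1 : E) else 0) ∈ M (Z := Z) Φ := by
      rw [hM]
      trivial
    obtain ⟨t, ht, ht0, hty⟩ := hmem
    exact ⟨t, ht, ht0, hty⟩
  exfalso
  obtain ⟨α, hα0, hα⟩ := DivAlg.bimod_killed (M (Z := Z) Φ) (M_left Φ gen) (M_right Φ gen) hM
  -- the derivation
  have hD : ∀ s ∈ tame (Z := Z) Φ, coeff [] s = 0 → D α s = 0 := by
    intro s hs hs0
    exact hα _ ⟨s, hs, hs0, fun _ => rfl⟩
  choose! rep hrep hrep0 using exists_tame_const (Z := Z) Φ gen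
  have hwd : ∀ s ∈ tame (Z := Z) Φ, D α s = D α (rep (coeff [] s)) := by
    intro s hs
    have := hD (s - rep (coeff [] s)) ((tame Φ).sub_mem hs (hrep _))
      (by rw [coeff_sub, hrep0, sub_self])
    rw [D_sub, sub_eq_zero] at this
    exact this
  let δ : E →ₗ[Z] E :=
    { toFun := fun e => D α (rep e)
      map_add' := fun e e' => by
        have := hwd (rep e + rep e') ((tame Φ).add_mem (hrep _) (hrep _))
        rw [coeff_add, hrep0, hrep0] at this
        rw [← this, D_add]
      map_smul' := fun c e => by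
        have := hwd (c • rep e) ((tame Φ).smul_mem (hrep _) c)
        rw [coeff_smul, hrep0] at this
        rw [← this, D_smul]
        rfl }
  have hδ : ∀ a, δ a = D α (rep a) := fun _ => rfl
  have hder : ∀ a b, δ (a * b) = δ a * b + a * δ b := by
    intro a b
    have := hwd (rep a * rep b) ((tame Φ).mul_mem (hrep _) (hrep _))
    rw [coeff_mul_nil, hrep0, hrep0] at this
    rw [hδ, hδ, hδ, ← this, D_mul, hrep0, hrep0]
  obtain ⟨u, hu⟩ := DivAlg.derivation_inner δ hder
  apply hα0
  refine ind α (-u) fun i => ?_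
  have h1 : D α (Φ i) = δ (coeff [] (Φ i)) := hwd _ (Algebra.subset_adjoin ⟨i, rfl⟩)
  rw [hu] at h1
  show D α (Φ i) = _
  rw [h1]
  noncomm_ring

end Crest.Agent.Lib.Kurosh.Lift
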