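import Mathlib
import Crest.Agent.Lib.Kurosh.Lift
import Crest.Agent.Lib.Kurosh.GenInd
import Crest.Agent.Lib.Kurosh.PsiCore

/-!
# Lemma GEN' (blueprint sec 2), on the abstract base data of `PsiCore`

`q' i = value (Φ i)` generate `SL S σ` over `Lau F`.
-/

set_option autoImplicit false
set_option linter.unusedSectionVars false

namespace Crest.Agent.Lib.Kurosh.GenPrime

open NCSeries Module SL PsiCore

section Value

variable {E S Y : Type*} [Ring E] [Ring S] {σ : RingAut S} [Fintype Y] (B : Base E S σ Y)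

lemma lB_sum_tau (f : NCS E Y) : (∑ y, B.τ y * B.value (dl y f)).LB 1 := by
  refine PsiCore.lB_sum _ _ fun y _ => ?_
  simpa using (B.hτ y).mul (B.value_LB (dl y f))

lemma value_coeff_zero (f : NCS E Y) : (B.value f).coeff 0 = (B.ρ (coeff [] f)).coeff 0 := by
  rw [B.value_rec f, SL.coeff_add, lB_sum_tau B f 0 (by omega), add_zero]

lemma value_LB_one {f : NCS E Y} (hf : coeff [] f = 0) : (B.value f).LB 1 := by
  rw [B.value_rec f, hf, map_zero, zero_add]
  exact lB_sum_tau B f

lemma value_coeff_one {f : NCS E Y} (hf : coeff [] f = 0) :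
    (B.value f).coeff 1 = ∑ y, (B.τ y).coeff 1 * σ ((B.ρ (coeff [y] f)).coeff 0) := by
  rw [B.value_rec f, hf, map_zero, zero_add, SL.coeff_sum]
  refine Finset.sum_congr rfl fun y _ => ?_
  have := coeff_mul_add (B.hτ y) (B.value_LB (dl y f))
  rw [add_zero] at this
  rw [this, value_coeff_zero, coeff_dl, zpow_one]

end Value

variable {Z E Y : Type*} [Field Z] [CharZero Z] [DivisionRing E] [Algebra Z E]
  [FiniteDimensional Z E] [Algebra.IsCentral Z E] [Fintype Y] [DecidableEq Y]
variable {F S : Type*} [Field F] [DivisionRing S] [Algebra F S] [FiniteDimensional F S]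
  {σ : RingAut S} {m : ℕ}
variable (h : StretchData (algebraMap F S) σ m) [Algebra (Lau F) (SL S σ)]
  (hA : ∀ c : Lau F, algebraMap (Lau F) (SL S σ) c = stretch h c)
variable (B : Base E S σ Y)

include h hA in
/-- Subalgebras of `SL S σ` over `Lau F` are closed under inverses. -/
lemma inv_mem (A : Subalgebra (Lau F) (SL S σ)) {x : SL S σ} (hx : x ∈ A) : x⁻¹ ∈ A := by
  have := GrMeas.finite_SL h hA
  exact (Algebra.IsIntegral.isIntegral x).inv_mem hx

/-- The subalgebra generated by the values of `Φ`. -/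
noncomputable def genAlg (Φ : Fin 2 → NCS E Y) : Subalgebra (Lau F) (SL S σ) :=
  Algebra.adjoin (Lau F) (Set.range fun i => B.value (Φ i))

/-- Values of polynomial expressions in the `Φ i` lie in the generated algebra. -/
lemma value_mem_genAlg (Φ : Fin 2 → NCS E Y)
    (hZ : ∀ z : Z, B.ρ (algebraMap Z E z) ∈ genAlg (F := F) B Φ) {t : NCS E Y}
    (ht : t ∈ Lift.tame (Z := Z) Φ) : B.value t ∈ genAlg (F := F) B Φ := by
  induction ht using Algebra.adjoin_induction with
  | mem x hx =>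
    obtain ⟨i, rfl⟩ := hx
    exact Algebra.subset_adjoin ⟨i, rfl⟩
  | algebraMap z =>
    rw [algebraMap_eq, B.value_C]
    exact hZ z
  | add x y _ _ hx hy =>
    rw [B.value_add]
    exact Subalgebra.add_mem _ hx hy
  | mul x y _ _ hx hy =>
    rw [B.value_mul]
    exact Subalgebra.mul_mem _ hx hy

include h hA in
/-- **Lemma GEN'**, abstract form.  `i : L → S` is the inclusion of the residue extension
(`L = L0`, `F = Z0`, `[L : F]` prime), `τ_y = b_y ϖ + ...`, and the residues of `ρ E` together with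
`i L` generate `S`. -/
theorem genAlg_eq_top (Φ : Fin 2 → NCS E Y)
    (gen : Algebra.adjoin Z (Set.range fun i => coeff [] (Φ i)) = ⊤)
    (ind : ∀ (α : Y → Z) (u : E), (∀ i, ∑ y, algebraMap Z E (α y) * coeff [y] (Φ i) =
      coeff [] (Φ i) * u - u * coeff [] (Φ i)) → α = 0)
    (hZ : ∀ z : Z, B.ρ (algebraMap Z E z) ∈ genAlg (F := F) B Φ)
    {L : Type*} [Field L] [Algebra F L] [FiniteDimensional F L] (hp : (finrank F L).Prime)
    (i : L →ₐ[F] S) (b : Y → L) (hb : ∀ y, b y ≠ 0) (hτ : ∀ y, (B.τ y).coeff 1 = i (b y))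
    (hgen : ∃ y y', b y' * (b y)⁻¹ ∉ (algebraMap F L).range)
    (hspan : ∀ R : Subalgebra F S, (∀ l, i l ∈ R) → (∀ e, (B.ρ e).coeff 0 ∈ R) → R = ⊤) :
    genAlg (F := F) B Φ = ⊤ := by
  classical
  set A := genAlg (F := F) B Φ with hAdef
  have hinj : Function.Injective i := i.toRingHom.injective
  have hone : (B.ρ 1).coeff 0 = 1 := by
    rw [map_one, coeff_one, if_pos rfl]
  have hzero : (B.ρ 0).coeff 0 = 0 := by
    rw [map_zero]
    rfl
  -- the leading term of a lift
  have hlift : ∀ y0, ∃ T ∈ A, T.LB 1 ∧ T.coeff 1 = i (b y0) := by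
    intro y0
    obtain ⟨t, ht, ht0, hty⟩ := Lift.exists_lift (Z := Z) Φ gen ind y0
    refine ⟨B.value t, value_mem_genAlg B Φ hZ ht, value_LB_one B ht0, ?_⟩
    rw [value_coeff_one B ht0, Finset.sum_eq_single y0]
    · rw [hty, if_pos rfl, hone, map_one, mul_one, hτ]
    · intro y _ hy
      rw [hty, if_neg hy, hzero, map_zero, mul_zero]
    · intro hy
      exact absurd (Finset.mem_univ y0) hy
  obtain ⟨y, y', hl⟩ := hgen
  obtain ⟨T0, hT0, hT0L, hT0c⟩ := hlift y
  obtain ⟨T1, hT1, hT1L, hT1c⟩ := hlift y'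
  have hi0 : i (b y) ≠ 0 := fun e => hb y (hinj (by rw [e, map_zero]))
  have hT0ne : T0 ≠ 0 := by
    rintro rfl
    exact hi0 hT0c.symm
  have hT0val : val T0 = 1 := val_eq_of (by rw [hT0c]; exact hi0) hT0L
  -- the residue algebra
  set Res := GenInd.residue h hA A with hRes
  have hρres : ∀ e, (B.ρ e).coeff 0 ∈ Res := by
    intro e
    obtain ⟨t, ht, ht0⟩ := Lift.exists_tame_const (Z := Z) Φ gen e
    refine ⟨B.value t, value_mem_genAlg B Φ hZ ht, B.value_LB t, ?_⟩
    rw [value_coeff_zero, ht0]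
  -- the ratio
  have hratio : i (b y' * (b y)⁻¹) ∈ Res := by
    have hinv : T0⁻¹ ∈ A := inv_mem h hA A hT0
    refine ⟨T1 * T0⁻¹, A.mul_mem hT1 hinv, ?_, ?_⟩
    · have h1 : (T0⁻¹).LB (-1) := by
        have := lB_val T0⁻¹
        rwa [GrMeas.val_inv hT0ne, hT0val] at this
      simpa using hT1L.mul h1
    · have h1 : (T0⁻¹).LB (-1) := by
        have := lB_val T0⁻¹
        rwa [GrMeas.val_inv hT0ne, hT0val] at this
      have hx0 : (T1 * T0⁻¹).LB 0 := by simpa using hT1L.mul h1
      have e1 := coeff_mul_add hx0 hT0L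
      rw [zero_add, inv_mul_cancel_right₀ hT0ne, hT1c, hT0c] at e1
      simp only [zpow_zero, RingAut.one_apply] at e1
      rw [map_mul, map_inv₀, e1, mul_inv_cancel_right₀ hi0]
  have hL : ∀ l, i l ∈ Res := fun l =>
    GenInd.map_mem_of_prime hp hl i Res hratio l
  have hresT : Res = ⊤ := hspan Res hL hρres
  exact GenInd.eq_top_of_residue h hA hT0 hT0val hT0ne hresT

end Crest.Agent.Lib.Kurosh.GenPrime
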