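import Mathlib
import Crest.Agent.Lib.Kurosh.RatExt
import Crest.Agent.Lib.Kurosh.FieldC1

/-!
# S0270: Lemma Mono and the spanning consequence of Lemma C1

* `mono_indep`: the monomials `l(v) = ∏_i T_{i,v_i}`, `v ∈ S`, words of a fixed length `D`, are
  `Z0`-independent when `#S * D ≤ m`.
-/

set_option autoImplicit false

open scoped TensorProduct

namespace Crest.Agent.Lib.Kurosh.Mono

open RatExt

section Mono

variable (Z : Type*) [Field Z] (Y : Type*) (m : ℕ)

/-- The polynomial monomial `∏_i X_{r+i, v_i}`. -/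
noncomputable def pw (r : ZMod m) : List Y → Pol Z Y m
  | [] => 1
  | y :: v => MvPolynomial.X (r, y) * pw (r + 1) v

/-- `l(v) = ∏_i T_{i, v_i}`. -/
noncomputable def lw (v : List Y) : L0 Z Y m := algebraMap (Pol Z Y m) (L0 Z Y m) (pw Z Y m 0 v)

@[simp] lemma pw_nil (r : ZMod m) : pw Z Y m r [] = 1 := rfl

@[simp] lemma pw_cons (r : ZMod m) (y : Y) (v : List Y) :
    pw Z Y m r (y :: v) = MvPolynomial.X (r, y) * pw Z Y m (r + 1) v := rfl

lemma sPol_X (r : ZMod m) (y : Y) :
    sPol Z Y m (MvPolynomial.X (r, y)) = MvPolynomial.X (r + 1, y) := by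
  simp [sPol, shiftIdx]

lemma sPol_pw (r : ZMod m) (v : List Y) : sPol Z Y m (pw Z Y m r v) = pw Z Y m (r + 1) v := by
  induction v generalizing r with
  | nil => simp
  | cons y v ih => simp [map_mul, sPol_X, ih]

lemma s_pow_pw (k : ℕ) (r : ZMod m) (v : List Y) :
    (s Z Y m ^ k) (algebraMap (Pol Z Y m) (L0 Z Y m) (pw Z Y m r v)) =
      algebraMap (Pol Z Y m) (L0 Z Y m) (pw Z Y m (r + k) v) := by
  induction k generalizing r with
  | zero => simp
  | succ k ih =>
    rw [pow_succ, AlgEquiv.mul_apply, s_algebraMap, sPol_pw, ih]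
    congr 2
    push_cast
    ring

lemma s_pow_lw (k : ℕ) (v : List Y) :
    (s Z Y m ^ k) (lw Z Y m v) = algebraMap (Pol Z Y m) (L0 Z Y m) (pw Z Y m (k : ZMod m) v) := by
  unfold lw
  rw [s_pow_pw, zero_add]

lemma eval_pw_eq_one (t : ZMod m × Y → Z) (v : List Y) (r : ZMod m)
    (h : ∀ (i : ℕ) (hi : i < v.length), t (r + (i : ZMod m), v[i]) = 1) :
    MvPolynomial.eval t (pw Z Y m r v) = 1 := by
  induction v generalizing r with
  | nil => simp
  | cons y v ih =>
    have h0 := h 0 (by simp)
    simp only [Nat.cast_zero, add_zero, List.getElem_cons_zero] at h0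
    rw [pw_cons, map_mul, MvPolynomial.eval_X, h0, one_mul]
    apply ih
    intro i hi
    have := h (i + 1) (by simpa using hi)
    simp only [List.getElem_cons_succ] at this
    rw [← this]
    congr 2
    push_cast
    ring

lemma eval_pw_eq_zero (t : ZMod m × Y → Z) (v : List Y) (r : ZMod m) (i : ℕ) (hi : i < v.length)
    (h : t (r + (i : ZMod m), v[i]) = 0) :
    MvPolynomial.eval t (pw Z Y m r v) = 0 := by
  induction v generalizing r i with
  | nil => simp at hi
  | cons y v ih =>
    rw [pw_cons, map_mul, MvPolynomial.eval_X]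
    cases i with
    | zero =>
      simp only [Nat.cast_zero, add_zero, List.getElem_cons_zero] at h
      rw [h, zero_mul]
    | succ i =>
      rw [ih (r + 1) i (by simpa using hi), mul_zero]
      simp only [List.getElem_cons_succ] at h
      rw [← h]
      congr 2
      push_cast
      ring

/-- **Lemma Mono.** Words of a fixed length `D`, at most `m / D` of them: the monomials `l(v)` are
`Z0`-independent. -/
theorem mono_indep [NeZero m] (S : Finset (List Y)) (D : ℕ) (hlen : ∀ v ∈ S, v.length = D)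
    (hm : S.card * D ≤ m) :
    LinearIndependent (Z0 Z Y m) (fun v : S => lw Z Y m (v : List Y)) := by
  classical
  -- block starts
  let e : S ≃ Fin S.card := S.equivFin
  let start : S → ℕ := fun u => (e u : ℕ) * D
  have hlt : ∀ (u : S) (i : ℕ), i < D → start u + i < m := by
    intro u i hi
    have h1 : (e u : ℕ) + 1 ≤ S.card := (e u).2
    have h2 : ((e u : ℕ) + 1) * D ≤ S.card * D := Nat.mul_le_mul_right _ h1
    have : start u + i < ((e u : ℕ) + 1) * D := by
      simp only [start]
      nlinarith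
    omega
  have hblock : ∀ (u u' : S) (i i' : ℕ), i < D → i' < D →
      ((start u + i : ℕ) : ZMod m) = ((start u' + i' : ℕ) : ZMod m) → u = u' ∧ i = i' := by
    intro u u' i i' hi hi' h
    have h1 := (ZMod.natCast_eq_natCast_iff' _ _ m).1 h
    rw [Nat.mod_eq_of_lt (hlt u i hi), Nat.mod_eq_of_lt (hlt u' i' hi')] at h1
    have hD : 0 < D := by omega
    -- division by D
    have h2 : (e u : ℕ) = e u' := by
      have h3 : (start u + i) / D = (e u : ℕ) := by
        simp only [start]
        rw [Nat.add_comm, Nat.add_mul_div_right _ _ hD, Nat.div_eq_of_lt hi, zero_add]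
      have h4 : (start u' + i') / D = (e u' : ℕ) := by
        simp only [start]
        rw [Nat.add_comm, Nat.add_mul_div_right _ _ hD, Nat.div_eq_of_lt hi', zero_add]
      rw [← h3, ← h4, h1]
    have h5 : u = u' := e.injective (Fin.ext h2)
    subst h5
    exact ⟨rfl, by simpa using h1⟩
  -- the specialization point
  let t : ZMod m × Y → Z := fun p =>
    if ∃ (u : S) (i : ℕ) (hi : i < (u : List Y).length),
        p.1 = ((start u + i : ℕ) : ZMod m) ∧ (u : List Y)[i] = p.2 then 1 else 0
  have htval : ∀ (u : S) (i : ℕ) (hi : i < (u : List Y).length) (y : Y),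
      t (((start u : ℕ) : ZMod m) + (i : ZMod m), y) = if (u : List Y)[i] = y then 1 else 0 := by
    intro u i hi y
    have hiD : i < D := by rw [← hlen u u.2]; exact hi
    simp only [t]
    by_cases hy : (u : List Y)[i] = y
    · rw [if_pos hy, if_pos]
      exact ⟨u, i, hi, by push_cast; rfl, hy⟩
    · rw [if_neg hy, if_neg]
      rintro ⟨u', i', hi', h1, h2⟩
      have hi'D : i' < D := by rw [← hlen u' u'.2]; exact hi'
      have h3 : ((start u + i : ℕ) : ZMod m) = ((start u' + i' : ℕ) : ZMod m) := by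
        push_cast at h1 ⊢
        exact h1
      obtain ⟨rfl, rfl⟩ := hblock u u' i i' hiD hi'D h3
      exact hy h2
  -- the polynomial matrix
  let P : Matrix S S (Pol Z Y m) := fun u v => pw Z Y m ((start u : ℕ) : ZMod m) (v : List Y)
  have hPeval : (MvPolynomial.eval t).mapMatrix P = 1 := by
    ext u v
    simp only [RingHom.mapMatrix_apply, Matrix.map_apply, P]
    by_cases huv : u = v
    · subst huv
      rw [Matrix.one_apply_eq]
      apply eval_pw_eq_one
      intro i hi
      rw [htval u i hi, if_pos rfl]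
    · rw [Matrix.one_apply_ne huv]
      -- the two words differ somewhere
      have hne : (u : List Y) ≠ v := fun h => huv (Subtype.ext h)
      have hl : (u : List Y).length = (v : List Y).length := by rw [hlen u u.2, hlen v v.2]
      obtain ⟨i, hi, hdiff⟩ : ∃ (i : ℕ) (hi : i < (v : List Y).length),
          (u : List Y)[i]'(by rw [hl]; exact hi) ≠ (v : List Y)[i] := by
        by_contra hcon
        push Not at hcon
        exact hne (List.ext_getElem hl (fun i h1 h2 => hcon i h2))
      refine eval_pw_eq_zero Z Y m t (v : List Y) _ i hi ?_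
      rw [htval u i (by rw [hl]; exact hi), if_neg hdiff]
  have hdetP : P.det ≠ 0 := by
    intro h0
    have h1 := RingHom.map_det (MvPolynomial.eval t) P
    rw [h0, map_zero, hPeval, Matrix.det_one] at h1
    exact zero_ne_one h1
  -- the L0 matrix
  let Q : Matrix S S (L0 Z Y m) := (algebraMap (Pol Z Y m) (L0 Z Y m)).mapMatrix P
  have hdetQ : Q.det ≠ 0 := by
    have h1 := RingHom.map_det (algebraMap (Pol Z Y m) (L0 Z Y m)) P
    have h2 : Q.det = algebraMap (Pol Z Y m) (L0 Z Y m) P.det := h1.symm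
    rw [h2]
    intro h3
    exact hdetP (IsFractionRing.injective (Pol Z Y m) (L0 Z Y m) (by rw [h3, map_zero]))
  rw [Fintype.linearIndependent_iff]
  intro lam hsum v0
  have hmul : Q.mulVec (fun v => ((lam v : Z0 Z Y m) : L0 Z Y m)) = 0 := by
    ext u
    have h1 := congrArg (s Z Y m ^ (start u)) hsum
    rw [map_sum, map_zero] at h1
    rw [Pi.zero_apply, ← h1, Matrix.mulVec, dotProduct]
    refine Finset.sum_congr rfl fun v _ => ?_
    have hsm : (lam v • lw Z Y m (v : List Y)) = (lam v : L0 Z Y m) * lw Z Y m (v : List Y) := rfl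
    rw [hsm, map_mul, s_pow_of_mem Z Y m (lam v).2, s_pow_lw, mul_comm]
    rfl
  have h2 := Matrix.eq_zero_of_mulVec_eq_zero hdetQ hmul
  have h3 := congrFun h2 v0
  exact Subtype.ext h3

end Mono

section SpanC1

variable (Z : Type*) [Field Z] [Infinite Z] (Y : Type*) [Fintype Y] (m : ℕ)
variable {K : Type*} [Field K] [Algebra Z K] [FiniteDimensional Z K]

/-- `a_j = ∑_y X_{j,y} ⊗ f_y` in `Z[T] ⊗ K`. -/
noncomputable def aPol (f : Y → K) (j : ZMod m) : Pol Z Y m ⊗[Z] K :=
  ∑ y, (MvPolynomial.X (j, y) : Pol Z Y m) ⊗ₜ[Z] f y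

/-- `a_j = ∑_y T_{j,y} ⊗ f_y` in `L0 ⊗ K`. -/
noncomputable def aRL (f : Y → K) (j : ZMod m) : RL Z Y m K :=
  ∑ y, T Z Y m j y ⊗ₜ[Z] f y

lemma iotaPol_aPol (f : Y → K) (j : ZMod m) :
    iotaPol Z Y m K (aPol Z Y m f j) = aRL Z Y m f j := by
  simp [aPol, aRL, iotaPol, T]

lemma sR_aRL (f : Y → K) (j : ZMod m) :
    sR Z Y m K (aRL Z Y m f j) = aRL Z Y m f (j + 1) := by
  simp [aRL, map_sum]

lemma sR_pow_aRL (f : Y → K) (j : ZMod m) (r : ℕ) :
    (sR Z Y m K ^ r) (aRL Z Y m f j) = aRL Z Y m f (j + r) := by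
  induction r generalizing j with
  | zero => simp
  | succ r ih =>
    rw [pow_succ]
    change (sR Z Y m K ^ r) (sR Z Y m K (aRL Z Y m f j)) = _
    rw [sR_aRL, ih]
    congr 1
    push_cast
    ring

lemma evalPol_aPol (f : Y → K) (t : ZMod m × Y → Z) (j : ZMod m) :
    evalPol Z Y m K t (aPol Z Y m f j) = ∑ y, t (j, y) • f y := by
  simp [aPol, map_sum, evalPol_tmul]

/-- Coordinates of the specialization. -/
lemma evalPol_eq_sum {ι : Type*} [Fintype ι] [DecidableEq ι] (B0 : Module.Basis ι Z K)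
    (x : Pol Z Y m ⊗[Z] K) (t : ZMod m × Y → Z) :
    evalPol Z Y m K t x =
      ∑ i, (MvPolynomial.eval t ((Algebra.TensorProduct.basis (Pol Z Y m) B0).repr x i)) • B0 i := by
  set B := Algebra.TensorProduct.basis (Pol Z Y m) B0
  conv_lhs => rw [← B.sum_repr x]
  rw [map_sum]
  refine Finset.sum_congr rfl fun i _ => ?_
  rw [Algebra.TensorProduct.basis_apply, TensorProduct.smul_tmul', smul_eq_mul, mul_one,
    evalPol_tmul]

lemma repr_evalPol {ι : Type*} [Fintype ι] [DecidableEq ι] (B0 : Module.Basis ι Z K)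
    (x : Pol Z Y m ⊗[Z] K) (t : ZMod m × Y → Z) (i : ι) :
    B0.repr (evalPol Z Y m K t x) i =
      MvPolynomial.eval t ((Algebra.TensorProduct.basis (Pol Z Y m) B0).repr x i) := by
  rw [evalPol_eq_sum Z Y m B0 x t, map_sum, Finsupp.coe_finsetSum, Finset.sum_apply]
  simp only [map_smul, Module.Basis.repr_self, Finsupp.smul_apply, Finsupp.single_apply,
    smul_eq_mul, mul_ite, mul_one, mul_zero, Finset.sum_ite_eq', Finset.mem_univ, if_true]

lemma repr_iotaPol {ι : Type*} [Fintype ι] [DecidableEq ι] (B0 : Module.Basis ι Z K)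
    (x : Pol Z Y m ⊗[Z] K) (i : ι) :
    (basisRL Z Y m K B0).repr (iotaPol Z Y m K x) i =
      algebraMap (Pol Z Y m) (L0 Z Y m) ((Algebra.TensorProduct.basis (Pol Z Y m) B0).repr x i) := by
  set B := Algebra.TensorProduct.basis (Pol Z Y m) B0
  have h : iotaPol Z Y m K x = ∑ j, (algebraMap (Pol Z Y m) (L0 Z Y m) (B.repr x j)) • basisRL Z Y m K B0 j := by
    conv_lhs => rw [← B.sum_repr x]
    rw [map_sum]
    refine Finset.sum_congr rfl fun j _ => ?_
    rw [Algebra.TensorProduct.basis_apply, TensorProduct.smul_tmul', smul_eq_mul, mul_one,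
      basisRL_apply]
    simp only [iotaPol, iota, TensorProduct.smul_tmul', Algebra.TensorProduct.map_tmul, AlgHom.id_apply,
      Algebra.TensorProduct.includeRight_apply, smul_eq_mul, mul_one, IsScalarTower.coe_toAlgHom']
  rw [h, map_sum, Finsupp.coe_finsetSum, Finset.sum_apply]
  simp only [map_smul, Module.Basis.repr_self, Finsupp.smul_apply, Finsupp.single_apply,
    smul_eq_mul, mul_ite, mul_one, mul_zero, Finset.sum_ite_eq', Finset.mem_univ, if_true]

/-- Generic spanning: if a family of elements of `Z[T] ⊗ K` spans `K` after one specialization,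
its image spans `L0 ⊗ K` over `L0`. -/
theorem span_top_of_specialization {I : Type*} (x : I → Pol Z Y m ⊗[Z] K) (t : ZMod m × Y → Z)
    (h : Submodule.span Z (Set.range fun i => evalPol Z Y m K t (x i)) = ⊤) :
    Submodule.span (L0 Z Y m) (Set.range fun i => iotaPol Z Y m K (x i)) = ⊤ := by
  classical
  obtain ⟨κ, a, hainj, hspan, hli⟩ := exists_linearIndependent' Z
    (fun i => evalPol Z Y m K t (x i))
  rw [h] at hspan
  let b' : Module.Basis κ Z K := Module.Basis.mk hli (by rw [hspan])
  haveI : Fintype κ := FiniteDimensional.fintypeBasisIndex b'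
  have hb' : ∀ l, b' l = evalPol Z Y m K t (x (a l)) := fun l => by simp [b']
  let B := Algebra.TensorProduct.basis (Pol Z Y m) b'
  let P : Matrix κ κ (Pol Z Y m) := fun j l => B.repr (x (a l)) j
  have hPeval : (MvPolynomial.eval t).mapMatrix P = 1 := by
    ext j l
    simp only [RingHom.mapMatrix_apply, Matrix.map_apply, P, B]
    rw [← repr_evalPol Z Y m b' (x (a l)) t j, ← hb', Module.Basis.repr_self, Matrix.one_apply,
      Finsupp.single_apply]
    simp [eq_comm]
  have hdetP : P.det ≠ 0 := by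
    intro h0
    have h1 := RingHom.map_det (MvPolynomial.eval t) P
    rw [h0, map_zero, hPeval, Matrix.det_one] at h1
    exact zero_ne_one h1
  let v : κ → RL Z Y m K := fun l => iotaPol Z Y m K (x (a l))
  let e := basisRL Z Y m K b'
  have hmat : e.toMatrix v = (algebraMap (Pol Z Y m) (L0 Z Y m)).mapMatrix P := by
    ext j l
    simp only [Module.Basis.toMatrix_apply, RingHom.mapMatrix_apply, Matrix.map_apply, v, e, P]
    exact repr_iotaPol Z Y m b' (x (a l)) j
  have hdet : IsUnit (e.det v) := by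
    rw [Module.Basis.det_apply, hmat, ← RingHom.map_det, isUnit_iff_ne_zero]
    intro h3
    exact hdetP (IsFractionRing.injective (Pol Z Y m) (L0 Z Y m) (by rw [h3, map_zero]))
  have hv := ((Module.Basis.is_basis_iff_det e).2 hdet).2
  rw [eq_top_iff, ← hv]
  apply Submodule.span_mono
  rintro _ ⟨l, rfl⟩
  exact ⟨a l, rfl⟩

/-- The consequence of Lemma C1 used in Theorem R. For `f : Y → K`, `W = span_Z (range f)`, with a
primitive ratio, `W ^ k0 = ⊤`, `k0 ≤ k + 1 ≤ m`, `m` large:
the elements `f_y · ∏_{i<k} a_{r+i}` span `L0 ⊗ K` over `L0`. -/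
theorem span_fN_of_C1 [CharZero Z] [NeZero m] (f : Y → K)
    (w0 w1 : K) (hw0 : w0 ∈ Submodule.span Z (Set.range f)) (hw1 : w1 ∈ Submodule.span Z (Set.range f))
    (h0 : w0 ≠ 0) (hu : IntermediateField.adjoin Z {w1 / w0} = ⊤) (k0 : ℕ)
    (hk0 : (Submodule.span Z (Set.range f)) ^ k0 = ⊤)
    (hm : (Module.finrank Z K) ^ (Module.finrank Z K + 1) ≤ m) (k : ℕ) (hk0k : k0 ≤ k + 1) (hkm : k + 1 ≤ m) :
    Submodule.span (L0 Z Y m) (Set.range fun p : Y × ZMod m =>
      (iota Z Y m K (f p.1)) * ∏ i ∈ Finset.range k, aRL Z Y m f (p.2 + (i : ZMod m))) = ⊤ := by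
  classical
  obtain ⟨A, hAW, hAspan⟩ := FieldC1.C1 (Submodule.span Z (Set.range f)) w0 w1 hw0 hw1 h0 hu k0 hk0 m
    hm k hk0k hkm
  -- choose the specialization
  have hA : ∀ j, ∃ c : Y → Z, ∑ y, c y • f y = A j := fun j =>
    (Submodule.mem_span_range_iff_exists_fun Z).1 (hAW j)
  choose c hc using hA
  let t : ZMod m × Y → Z := fun p => c p.1 p.2
  let x : Y × ZMod m → Pol Z Y m ⊗[Z] K := fun p =>
    ((1 : Pol Z Y m) ⊗ₜ[Z] f p.1) * ∏ i ∈ Finset.range k, aPol Z Y m f (p.2 + (i : ZMod m))
  have hx1 : ∀ p, iotaPol Z Y m K (x p) =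
      (iota Z Y m K (f p.1)) * ∏ i ∈ Finset.range k, aRL Z Y m f (p.2 + (i : ZMod m)) := by
    intro p
    simp only [x, map_mul, map_prod, iotaPol_aPol]
    congr 1
    simp [iotaPol, iota]
  have hx2 : ∀ p, evalPol Z Y m K t (x p) = f p.1 * ∏ i ∈ Finset.range k, A (p.2 + (i : ZMod m)) := by
    intro p
    simp only [x, map_mul, map_prod, evalPol_aPol, evalPol_tmul]
    congr 1
    · simp
    · refine Finset.prod_congr rfl fun i _ => ?_
      exact hc _
  have hspan : Submodule.span Z (Set.range fun p => evalPol Z Y m K t (x p)) = ⊤ := by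
    rw [eq_top_iff, ← hAspan, Submodule.span_le]
    rintro z ⟨w, hw, r, rfl⟩
    -- w is a combination of the f y
    induction hw using Submodule.span_induction with
    | mem w hw =>
      obtain ⟨y, rfl⟩ := hw
      exact Submodule.subset_span ⟨(y, r), hx2 _⟩
    | zero => simp
    | add u v _ _ hu hv => rw [add_mul]; exact Submodule.add_mem _ hu hv
    | smul a u _ hu => rw [smul_mul_assoc]; exact Submodule.smul_mem _ _ hu
  have := span_top_of_specialization Z Y m x t hspan
  simpa only [hx1] using this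

end SpanC1

end Crest.Agent.Lib.Kurosh.Mono
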