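import Mathlib
import Crest.Agent.Lib.Kurosh.NCSeries

/-!
# Stabilization of partial potentials (blueprint sec 5(c))

`K/Z` finite field extension, char 0; `g` a noncommutative power series over `K` with zero constant
term, `W` the `Z`-span of the linear coefficients of `g`, `W ^ k0 = ⊤`.

A sequence `G : ℕ → K` gives the series `Tr_K (∑ₙ Gₙ gⁿ)` (`pot`); it is a *potential* if this series is
cyc-null (sums over rotation classes vanish).  We prove that the truncated potential problem stabilizes
(`exists_stable_potentials`): there are `D0` and finitely many full potentials `gs i` so that for every field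
extension `L/Z` the first `k0` coefficients of every `L`-linear potential up to degree `D1 ≥ D0` are
a unique `L`-combination of the first `k0` coefficients of the `gs i`.
-/

set_option autoImplicit false

namespace Crest.Agent.Lib.Kurosh.Stab

open NCSeries TensorProduct

variable {Y : Type} {Z K : Type} [Field Z] [Field K] [Algebra Z K]

/-- Sum over the rotations of a word (with multiplicity `|w|` in total). -/
def cycSum {A : Type} [AddCommMonoid A] (c : List Y → A) (w : List Y) : A :=
  ∑ i ∈ Finset.range w.length, c (w.rotate i)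

/-- Linear coefficient. -/
def lin (g : NCSeries Y K) (y : Y) : K := coeff [y] g

/-- Product of the linear coefficients along a word. -/
def linProd (g : NCSeries Y K) (w : List Y) : K := (w.map (lin g)).prod

theorem linProd_rotate (g : NCSeries Y K) (w : List Y) (i : ℕ) :
    linProd g (w.rotate i) = linProd g w := by
  unfold linProd
  exact ((List.rotate_perm w i).map _).prod_eq

theorem coeff_pow_of_lt (g : NCSeries Y K) (hg : coeff [] g = 0) {w : List Y} {n : ℕ}
    (h : w.length < n) : coeff w (g ^ n) = 0 := by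
  have h1 : g ∈ ordGE Y K 1 := by
    intro v hv
    have : v = [] := List.length_eq_zero_iff.mp (by omega)
    subst this
    exact hg
  exact pow_mem_ordGE h1 n w h

theorem coeff_pow_length (g : NCSeries Y K) (hg : coeff [] g = 0) (w : List Y) :
    coeff w (g ^ w.length) = linProd g w := by
  induction w with
  | nil => simp [linProd, coeff]; rfl
  | cons a w ih =>
    rw [List.length_cons, pow_succ', coeff_mul_cons, hg, zero_mul, zero_add, coeff_mul]
    rw [Finset.sum_eq_single 0]
    · simp only [List.take_zero, List.drop_zero, coeff_dl, ih]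
      simp [linProd, lin]
    · intro i hi hi0
      rw [coeff_pow_of_lt g hg (w := w.drop i) (n := w.length), mul_zero]
      have : i ≤ w.length := Nat.lt_succ_iff.mp (Finset.mem_range.mp hi)
      simp only [List.length_drop]
      omega
    · intro h
      exact absurd (Finset.mem_range.mpr (Nat.succ_pos _)) h

theorem coeff_one_of_ne {w : List Y} (hw : w ≠ []) : coeff w (1 : NCSeries Y K) = 0 := by
  cases w with
  | nil => exact absurd rfl hw
  | cons a w => rfl

/-- The `Z`-valued coefficient of the potential series `Tr_K (∑ₙ Gₙ gⁿ)` at a word. -/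
noncomputable def pot (Z : Type) {K : Type} [Field Z] [Field K] [Algebra Z K]
    (g : NCSeries Y K) (G : ℕ → K) (w : List Y) : Z :=
  ∑ n ∈ Finset.range (w.length + 1), Algebra.trace Z K (G n * coeff w (g ^ n))

/-- `G` is a potential up to degree `D`. -/
def IsPotUpTo (Z : Type) {K : Type} [Field Z] [Field K] [Algebra Z K]
    (g : NCSeries Y K) (D : ℕ) (G : ℕ → K) : Prop :=
  ∀ w : List Y, w.length ≤ D → cycSum (pot Z g G) w = 0

/-- `G` is a potential (all degrees). -/
def IsPot (Z : Type) {K : Type} [Field Z] [Field K] [Algebra Z K]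
    (g : NCSeries Y K) (G : ℕ → K) : Prop :=
  ∀ w : List Y, cycSum (pot Z g G) w = 0

theorem pot_add (g : NCSeries Y K) (G G' : ℕ → K) (w : List Y) :
    pot Z g (G + G') w = pot Z g G w + pot Z g G' w := by
  simp [pot, add_mul, Finset.sum_add_distrib]

theorem pot_smul (g : NCSeries Y K) (c : Z) (G : ℕ → K) (w : List Y) :
    pot Z g (c • G) w = c * pot Z g G w := by
  simp only [pot, Pi.smul_apply, smul_mul_assoc, map_smul, smul_eq_mul, Finset.mul_sum]

theorem cycSum_add {A : Type} [AddCommMonoid A] (c c' : List Y → A) (w : List Y) :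
    cycSum (fun v => c v + c' v) w = cycSum c w + cycSum c' w := by
  simp [cycSum, Finset.sum_add_distrib]

/-- The submodule of sequences which are potentials up to degree `D`. -/
noncomputable def Ptil (Z : Type) {K : Type} [Field Z] [Field K] [Algebra Z K]
    (g : NCSeries Y K) (D : ℕ) : Submodule Z (ℕ → K) where
  carrier := {G | IsPotUpTo Z g D G}
  zero_mem' := by
    intro w _
    simp [cycSum, pot]
  add_mem' := by
    intro G G' hG hG' w hw
    have : cycSum (pot Z g (G + G')) w = cycSum (pot Z g G) w + cycSum (pot Z g G') w := by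
      rw [← cycSum_add]
      congr 1
      funext v
      exact pot_add g G G' v
    rw [this, hG w hw, hG' w hw, add_zero]
  smul_mem' := by
    intro c G hG w hw
    have : cycSum (pot Z g (c • G)) w = c * cycSum (pot Z g G) w := by
      simp only [cycSum, Finset.mul_sum]
      exact Finset.sum_congr rfl fun i _ => pot_smul g c G _
    rw [this, hG w hw, mul_zero]

theorem Ptil_anti (g : NCSeries Y K) {D D' : ℕ} (h : D ≤ D') : Ptil Z g D' ≤ Ptil Z g D :=
  fun _ hG w hw => hG w (hw.trans h)

/-- Restriction to the coefficients `G 1, ..., G k0`. -/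
noncomputable def res (Z : Type) {K : Type} [Field Z] [Field K] [Algebra Z K] (k0 : ℕ) :
    (ℕ → K) →ₗ[Z] (Fin k0 → K) :=
  LinearMap.funLeft Z K (fun i : Fin k0 => i.val + 1)

@[simp] theorem res_apply (k0 : ℕ) (G : ℕ → K) (i : Fin k0) : res Z k0 G i = G (i.val + 1) := rfl

/-- The set of first `k0` coefficients of potentials up to degree `D`. -/
noncomputable def AA (Z : Type) {K : Type} [Field Z] [Field K] [Algebra Z K]
    (g : NCSeries Y K) (k0 D : ℕ) : Submodule Z (Fin k0 → K) :=
  (Ptil Z g D).map (res Z k0)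

theorem AA_anti (g : NCSeries Y K) (k0 : ℕ) {D D' : ℕ} (h : D ≤ D') :
    AA Z g k0 D' ≤ AA Z g k0 D :=
  Submodule.map_mono (Ptil_anti g h)

/-- `W^n` is spanned by the products of `n` linear coefficients. -/
theorem pow_le_span_linProd (g : NCSeries Y K) (n : ℕ) :
    (Submodule.span Z (Set.range (lin g))) ^ n ≤
      Submodule.span Z {x | ∃ w : List Y, w.length = n ∧ linProd g w = x} := by
  induction n with
  | zero =>
    rw [pow_zero, Submodule.one_eq_span]
    refine Submodule.span_mono ?_
    rintro x hx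
    rw [Set.mem_singleton_iff] at hx
    exact ⟨[], rfl, by simp [linProd, hx]⟩
  | succ n ih =>
    rw [pow_succ']
    refine (mul_le_mul' le_rfl ih).trans ?_
    rw [Submodule.span_mul_span]
    refine Submodule.span_mono ?_
    rintro _ ⟨_, ⟨y, rfl⟩, x, ⟨w, hw, rfl⟩, rfl⟩
    exact ⟨y :: w, by simp [hw], by simp [linProd]⟩

theorem pow_eq_top_of_le {W : Submodule Z K} {k0 n : ℕ} (hk0 : 1 ≤ k0) (hW : W ^ k0 = ⊤)
    (h : k0 ≤ n) : W ^ n = ⊤ := by
  have hne : W ≠ ⊥ := by
    rintro rfl
    rw [Submodule.bot_pow (by omega)] at hW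
    exact bot_ne_top hW
  obtain ⟨x, hx, hx0⟩ := (Submodule.ne_bot_iff _).mp hne
  obtain ⟨r, rfl⟩ := Nat.exists_eq_add_of_le' h
  rw [eq_top_iff]
  rintro y -
  have h1 : x ^ r ∈ W ^ r := Submodule.pow_mem_pow W hx r
  have h2 : (x ^ r)⁻¹ * y ∈ W ^ k0 := by rw [hW]; trivial
  have h3 : x ^ r * ((x ^ r)⁻¹ * y) = y := by
    rw [← mul_assoc, mul_inv_cancel₀ (pow_ne_zero _ hx0), one_mul]
  rw [← h3, pow_add]
  exact Submodule.mul_mem_mul h1 h2

section Uniq

variable [CharZero Z] [FiniteDimensional Z K]

/-- Uniqueness: a potential up to degree `D` vanishing on `1..k0` vanishes on `1..D`. -/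
theorem eq_zero_of_mem_Ptil (g : NCSeries Y K) (hg : coeff [] g = 0) {k0 : ℕ} (hk0 : 1 ≤ k0)
    (hW : (Submodule.span Z (Set.range (lin g))) ^ k0 = ⊤) {D : ℕ} {G : ℕ → K}
    (hG : G ∈ Ptil Z g D) (h0 : ∀ n, 1 ≤ n → n ≤ k0 → G n = 0) :
    ∀ n, 1 ≤ n → n ≤ D → G n = 0 := by
  intro n
  induction n using Nat.strong_induction_on with
  | _ n ih =>
    intro hn1 hnD
    by_cases hnk : n ≤ k0
    · exact h0 n hn1 hnk
    have hnk : k0 < n := not_le.mp hnk
    -- every word of length n
    have hword : ∀ w : List Y, w.length = n →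
        Algebra.trace Z K (G n * linProd g w) = 0 := by
      intro w hw
      have hpot : ∀ v : List Y, v.length = n →
          pot Z g G v = Algebra.trace Z K (G n * linProd g v) := by
        intro v hv
        unfold pot
        rw [hv, Finset.sum_range_succ, Finset.sum_eq_zero, zero_add, ← hv, coeff_pow_length g hg]
        intro j hj
        have hj' : j < v.length := by rw [hv]; exact Finset.mem_range.mp hj
        by_cases hj0 : j = 0
        · subst hj0
          have hvne : v ≠ [] := by
            intro hh; subst hh; simp at hv; omega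
          rw [pow_zero, coeff_one_of_ne hvne, mul_zero, map_zero]
        · rw [ih j (by omega) (by omega) (by omega), zero_mul, map_zero]
      have h1 := hG w (by omega)
      unfold cycSum at h1
      rw [hw, Finset.sum_congr rfl (fun i _ => by
        rw [hpot (w.rotate i) (by simpa using hw), linProd_rotate])] at h1
      rw [Finset.sum_const, Finset.card_range, nsmul_eq_mul] at h1
      have hn0 : (n : Z) ≠ 0 := by exact_mod_cast (by omega : n ≠ 0)
      exact (mul_eq_zero.mp h1).resolve_left hn0
    -- nondegeneracy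
    have htop : ∀ x : K, Algebra.trace Z K (G n * x) = 0 := by
      intro x
      have hx : x ∈ (Submodule.span Z (Set.range (lin g))) ^ n := by
        rw [pow_eq_top_of_le hk0 hW hnk.le]; trivial
      have hx' := pow_le_span_linProd g n hx
      have hle : Submodule.span Z {x | ∃ w : List Y, w.length = n ∧ linProd g w = x} ≤
          LinearMap.ker ((Algebra.trace Z K) ∘ₗ (LinearMap.mulLeft Z (G n))) := by
        refine Submodule.span_le.mpr ?_
        rintro _ ⟨w, hw, rfl⟩
        exact hword w hw
      exact hle hx'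
    have hnd := traceForm_nondegenerate Z K
    by_contra hne
    have := hnd.1 (G n) (fun y => by
      simpa [Algebra.traceForm_apply] using htop y)
    exact hne this

omit [CharZero Z] [FiniteDimensional Z K] in
theorem pot_congr (g : NCSeries Y K) {G G' : ℕ → K} {w : List Y}
    (h : ∀ n, 1 ≤ n → n ≤ w.length → G n = G' n) (hw : w ≠ []) :
    pot Z g G w = pot Z g G' w := by
  unfold pot
  refine Finset.sum_congr rfl fun n hn => ?_
  by_cases hn0 : n = 0
  · subst hn0
    rw [pow_zero, coeff_one_of_ne hw, mul_zero, mul_zero]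
  · rw [h n (by omega) (Nat.lt_succ_iff.mp (Finset.mem_range.mp hn))]

end Uniq

/-! ### The `L`-linear version -/

section LVersion

variable (L : Type) [Field L] [Algebra Z L]

/-- `Tr_K` extended `L`-linearly. -/
noncomputable def trL : L ⊗[Z] K →ₗ[L] L :=
  (TensorProduct.AlgebraTensorModule.rid Z L L).toLinearMap ∘ₗ
    (Algebra.trace Z K).baseChange L

@[simp] theorem trL_tmul (l : L) (c : K) :
    trL (Z := Z) (K := K) L (l ⊗ₜ c) = Algebra.trace Z K c • l := by
  simp [trL]

/-- The `L`-valued coefficient of the potential series with `L ⊗ K` coefficients. -/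
noncomputable def potL (g : NCSeries Y K) (β : ℕ → L ⊗[Z] K) (w : List Y) : L :=
  ∑ n ∈ Finset.range (w.length + 1),
    trL (Z := Z) (K := K) L (β n * ((1 : L) ⊗ₜ[Z] coeff w (g ^ n)))

variable {L}

/-- Apply a `Z`-linear functional on `L` to the left tensor factor. -/
noncomputable def Cτ (τ : L →ₗ[Z] Z) : L ⊗[Z] K →ₗ[Z] K :=
  (TensorProduct.lid Z K).toLinearMap ∘ₗ τ.rTensor K

@[simp] theorem Cτ_tmul (τ : L →ₗ[Z] Z) (l : L) (c : K) :
    Cτ τ (l ⊗ₜ[Z] c) = τ l • c := by
  simp [Cτ]

theorem trace_Cτ_mul (τ : L →ₗ[Z] Z) (x : L ⊗[Z] K) (c : K) :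
    Algebra.trace Z K (Cτ τ x * c) = τ (trL (Z := Z) (K := K) L (x * ((1 : L) ⊗ₜ[Z] c))) := by
  induction x with
  | zero => simp
  | tmul l d =>
    simp only [Cτ_tmul, Algebra.TensorProduct.tmul_mul_tmul, mul_one, trL_tmul, smul_mul_assoc,
      map_smul, smul_eq_mul]
    ring
  | add x y hx hy =>
    simp only [map_add, add_mul, hx, hy]

theorem pot_Cτ (g : NCSeries Y K) (τ : L →ₗ[Z] Z) (β : ℕ → L ⊗[Z] K) (w : List Y) :
    pot Z g (fun n => Cτ τ (β n)) w = τ (potL L g β w) := by
  simp only [pot, potL, map_sum, trace_Cτ_mul]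

theorem cycSum_pot_Cτ (g : NCSeries Y K) (τ : L →ₗ[Z] Z) (β : ℕ → L ⊗[Z] K) (w : List Y) :
    cycSum (pot Z g (fun n => Cτ τ (β n))) w = τ (cycSum (potL L g β) w) := by
  simp only [cycSum, map_sum, pot_Cτ]

/-- The expansion of an element of `L ⊗ K` along a `Z`-basis of `L`. -/
theorem tmul_expansion {ι : Type} (b : Module.Basis ι Z L) (x : L ⊗[Z] K) :
    ∃ S : Finset ι, ∀ S' : Finset ι, S ⊆ S' →
      x = ∑ t ∈ S', b t ⊗ₜ[Z] Cτ (b.coord t) x := by
  classical
  refine ⟨(TensorProduct.equivFinsuppOfBasisLeft b x).support, fun S' hS' => ?_⟩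
  have h := (TensorProduct.equivFinsuppOfBasisLeft b).symm_apply_apply x
  rw [TensorProduct.equivFinsuppOfBasisLeft_symm_apply] at h
  conv_lhs => rw [← h]
  rw [Finsupp.sum_of_support_subset _ hS' _ (by simp)]
  refine Finset.sum_congr rfl fun t _ => ?_
  rw [TensorProduct.equivFinsuppOfBasisLeft_apply]
  rfl

end LVersion

section Main

variable [CharZero Z] [FiniteDimensional Z K]

/-- Extension of a stable first-`k0` vector to a full potential. -/
theorem exists_full_potential (g : NCSeries Y K) (hg : coeff [] g = 0) {k0 : ℕ} (hk0 : 1 ≤ k0)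
    (hW : (Submodule.span Z (Set.range (lin g))) ^ k0 = ⊤) {D0 : ℕ}
    (hstab : ∀ D, D0 ≤ D → AA Z g k0 D = AA Z g k0 D0) (a : Fin k0 → K)
    (ha : a ∈ AA Z g k0 D0) :
    ∃ G : ℕ → K, G 0 = 0 ∧ IsPot Z g G ∧ res Z k0 G = a := by
  have hex : ∀ D : ℕ, ∃ H : ℕ → K, H ∈ Ptil Z g (max D D0) ∧ res Z k0 H = a := by
    intro D
    have : a ∈ AA Z g k0 (max D D0) := by
      rw [hstab _ (le_max_right _ _)]; exact ha
    obtain ⟨H, hH, hHa⟩ := this
    exact ⟨H, hH, hHa⟩
  choose H hH hHa using hex
  -- compatibility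
  have hcomp : ∀ D D' n, D ≤ D' → 1 ≤ n → n ≤ max D D0 → H D n = H D' n := by
    intro D D' n hDD' hn1 hn
    have hdiff : H D - H D' ∈ Ptil Z g (max D D0) := by
      refine Submodule.sub_mem _ (hH D) (Ptil_anti g (max_le_max_right _ hDD') (hH D'))
    have h0 : ∀ j, 1 ≤ j → j ≤ k0 → (H D - H D') j = 0 := by
      intro j hj1 hj
      have h1 := congrFun (hHa D) ⟨j - 1, by omega⟩
      have h2 := congrFun (hHa D') ⟨j - 1, by omega⟩
      simp only [res_apply] at h1 h2
      have e : j - 1 + 1 = j := by omega
      rw [e] at h1 h2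
      simp [h1, h2]
    have := eq_zero_of_mem_Ptil g hg hk0 hW hdiff h0 n hn1 hn
    exact sub_eq_zero.mp (by simpa using this)
  refine ⟨fun n => if n = 0 then 0 else H n n, by simp, ?_, ?_⟩
  · intro w
    have hagree : ∀ n, 1 ≤ n → n ≤ w.length →
        (fun n => if n = 0 then 0 else H n n : ℕ → K) n = H w.length n := by
      intro n hn1 hn
      have hn0 : n ≠ 0 := by omega
      simp only [hn0, if_false]
      exact hcomp n w.length n hn (by omega) (le_max_of_le_left le_rfl)
    have hw : cycSum (pot Z g (H w.length)) w = 0 := hH w.length w (le_max_of_le_left le_rfl)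
    rw [← hw]
    unfold cycSum
    refine Finset.sum_congr rfl fun i hi => ?_
    have hlen : (w.rotate i).length = w.length := List.length_rotate ..
    have hne : w.rotate i ≠ [] := by
      intro h
      have : (w.rotate i).length = 0 := by rw [h]; rfl
      rw [hlen] at this
      rw [this] at hi
      simp at hi
    exact pot_congr g (fun n h1 h2 => hagree n h1 (by rw [hlen] at h2; exact h2)) hne
  · funext i
    have h := congrFun (hHa (i.val + 1)) i
    simp only [res_apply] at h ⊢
    simpa using h

/-- Main stabilization theorem. -/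
theorem exists_stable_potentials (g : NCSeries Y K) (hg : coeff [] g = 0) {k0 : ℕ} (hk0 : 1 ≤ k0)
    (hW : (Submodule.span Z (Set.range (lin g))) ^ k0 = ⊤) :
    ∃ (D0 : ℕ) (ι : Type) (_ : Fintype ι) (gs : ι → ℕ → K),
      (∀ i, gs i 0 = 0) ∧ (∀ i, IsPot Z g (gs i)) ∧
      ∀ (L : Type) [Field L] [Algebra Z L],
        (∀ l : ι → L, (∀ n, 1 ≤ n → n ≤ k0 → ∑ i, l i • ((1 : L) ⊗ₜ[Z] gs i n) = 0) → l = 0) ∧
        (∀ (β : ℕ → L ⊗[Z] K) (D1 : ℕ), D0 ≤ D1 →
          (∀ w : List Y, w.length ≤ D1 → cycSum (potL L g β) w = 0) →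
          ∃ l : ι → L, ∀ n, 1 ≤ n → n ≤ k0 → β n = ∑ i, l i • ((1 : L) ⊗ₜ[Z] gs i n)) := by
  classical
  -- stabilization of the antitone chain
  let f : ℕ →o (Submodule Z (Fin k0 → K))ᵒᵈ :=
    { toFun := fun D => OrderDual.toDual (AA Z g k0 D)
      monotone' := fun D D' h => AA_anti g k0 h }
  obtain ⟨D0, hD0⟩ := IsArtinian.monotone_stabilizes f
  have hstab : ∀ D, D0 ≤ D → AA Z g k0 D = AA Z g k0 D0 := fun D hD => (hD0 D hD).symm
  -- a basis of the stable space
  let bA := Module.finBasis Z (AA Z g k0 D0)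
  have hext := fun i => exists_full_potential g hg hk0 hW hstab (bA i : Fin k0 → K) (bA i).2
  choose gs hgs0 hgsP hgsres using hext
  refine ⟨D0, _, inferInstance, gs, hgs0, hgsP, fun L _ _ => ⟨?_, ?_⟩⟩
  · -- independence over L
    intro l hl
    funext i
    let bL := Module.Basis.ofVectorSpace Z L
    refine bL.ext_elem fun t => ?_
    simp only [map_zero, Pi.zero_apply, Finsupp.coe_zero]
    -- apply the coordinate functional
    have hτ : ∀ j : Fin k0, ∑ i, bL.coord t (l i) • (bA i : Fin k0 → K) j = 0 := by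
      intro j
      have h := congrArg (Cτ (bL.coord t)) (hl (j.val + 1) (by omega) (by omega))
      rw [map_sum, map_zero] at h
      rw [← h]
      refine Finset.sum_congr rfl fun i _ => ?_
      have e : l i • ((1 : L) ⊗ₜ[Z] gs i (j.val + 1)) = (l i) ⊗ₜ[Z] gs i (j.val + 1) := by
        rw [TensorProduct.smul_tmul', smul_eq_mul, mul_one]
      rw [e, Cτ_tmul]
      have := congrFun (hgsres i) j
      simp only [res_apply] at this
      rw [this]
    have hlin := bA.linearIndependent
    have hz : ∑ i, bL.coord t (l i) • bA i = 0 := by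
      apply Subtype.ext
      funext j
      have := hτ j
      simpa [Submodule.coe_sum] using this
    have := (Fintype.linearIndependent_iff.mp hlin) _ hz i
    simpa using this
  · -- expansion
    intro β D1 hD1 hβ
    let bL := Module.Basis.ofVectorSpace Z L
    -- each functional lands in the stable space
    have hmem : ∀ τ : L →ₗ[Z] Z, res Z k0 (fun n => Cτ τ (β n)) ∈ AA Z g k0 D0 := by
      intro τ
      rw [← hstab D1 hD1]
      refine Submodule.mem_map_of_mem ?_
      intro w hw
      rw [cycSum_pot_Cτ, hβ w hw, map_zero]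
    -- coordinates
    let c : (L →ₗ[Z] Z) → (Fin (Module.finrank Z (AA Z g k0 D0))) → Z :=
      fun τ i => bA.repr ⟨_, hmem τ⟩ i
    have hc : ∀ τ, ∑ i, c τ i • (bA i : Fin k0 → K) = res Z k0 (fun n => Cτ τ (β n)) := by
      intro τ
      have := bA.sum_repr ⟨_, hmem τ⟩
      have h2 := congrArg (Subtype.val) this
      rw [AddSubmonoidClass.coe_finsetSum] at h2
      exact h2
    -- common finite support
    choose S hS using fun x : L ⊗[Z] K => tmul_expansion (K := K) bL x
    let SS : Finset _ := (Finset.range (k0 + 1)).biUnion fun n => S (β n)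
    refine ⟨fun i => ∑ t ∈ SS, c (bL.coord t) i • bL t, ?_⟩
    intro n hn1 hn
    have hsub : S (β n) ⊆ SS := by
      intro t ht
      exact Finset.mem_biUnion.mpr ⟨n, Finset.mem_range.mpr (by omega), ht⟩
    conv_lhs => rw [hS (β n) SS hsub]
    have hval : ∀ t, Cτ (bL.coord t) (β n) =
        ∑ i, c (bL.coord t) i • gs i n := by
      intro t
      have := congrFun (hc (bL.coord t)) ⟨n - 1, by omega⟩
      simp only [res_apply] at this
      have e : n - 1 + 1 = n := by omega
      rw [e] at this
      rw [← this]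
      simp only [Finset.sum_apply, Pi.smul_apply]
      refine Finset.sum_congr rfl fun i _ => ?_
      have h3 := congrFun (hgsres i) ⟨n - 1, by omega⟩
      simp only [res_apply] at h3
      rw [e] at h3
      rw [← h3]
    simp only [hval, Finset.sum_smul]
    rw [Finset.sum_comm]
    refine Finset.sum_congr rfl fun t _ => ?_
    rw [TensorProduct.tmul_sum]
    refine Finset.sum_congr rfl fun i _ => ?_
    rw [TensorProduct.smul_tmul', smul_eq_mul, mul_one, TensorProduct.tmul_smul]
    simp [TensorProduct.smul_tmul']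

/-- Uniqueness of full potentials. -/
theorem potential_unique (g : NCSeries Y K) (hg : coeff [] g = 0) {k0 : ℕ} (hk0 : 1 ≤ k0)
    (hW : (Submodule.span Z (Set.range (lin g))) ^ k0 = ⊤) {G : ℕ → K} (hG : IsPot Z g G)
    (h0 : ∀ n, 1 ≤ n → n ≤ k0 → G n = 0) : ∀ n, 1 ≤ n → G n = 0 := by
  intro n hn
  exact eq_zero_of_mem_Ptil g hg hk0 hW (D := n) (fun w _ => hG w) h0 n hn le_rfl

end Main

end Crest.Agent.Lib.Kurosh.Stab
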