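import Mathlib
import Crest.Agent.Lib.Kurosh.RatExt
import Crest.Agent.Lib.Kurosh.Stab
import Crest.Agent.Lib.Kurosh.Mono

/-!
# S0270: combinatorial core of "Rel ⇔ crit" (blueprint sec 5(c))

All on `L0 = Z(T_{r,y})` with the shift `s`, base `b : Y → L0`:
* `words n`: words of length `n`;
* `lb b v`: `l(v) = ∏_i s^i (b_{v_i})`;
* `dW b x j w`: leading coefficient of the derivative of the word `w` at `τ = b ϖ` in the direction
  `x ϖ^j`: `∑_{w = u y v} l(u) s^{|u|}(x_y) s^{|u|+j}(l(v))`;
* `core_identity`: when `m ∣ j + N`,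
  `tr (∑_{|w|=N+1} P w * dW b x j w) = ∑_y ∑_{|v|=N} cyc P (y::v) * tr (l(v) s^N(x_y))` for `s`-invariant `P`;
* `cycSum_eq_zero_of_forall_dir`: consequence: if the left side vanishes for all `x` then
  `∑_{|v|=N} cyc P (y::v) * l(v) = 0`, and for the generic base all `cyc P (y::v) = 0` (Lemma Mono).
-/

set_option autoImplicit false

namespace Crest.Agent.Lib.Kurosh.PotCore

open RatExt

variable {Y : Type}

section Words

variable [Fintype Y] [DecidableEq Y]

/-- Words of length `n`. -/
def words : ℕ → Finset (List Y)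
  | 0 => {[]}
  | n + 1 => Finset.univ.biUnion fun y => (words n).image (List.cons y)

@[simp] theorem mem_words {n : ℕ} {v : List Y} : v ∈ words n ↔ v.length = n := by
  induction n generalizing v with
  | zero => simp [words, List.length_eq_zero_iff]
  | succ n ih =>
    cases v with
    | nil => simp [words]
    | cons a v => simp [words, ih]

theorem card_words (n : ℕ) : (words n : Finset (List Y)).card = (Fintype.card Y) ^ n := by
  induction n with
  | zero => simp [words]
  | succ n ih =>
    have hdisj : ∀ y ∈ (Finset.univ : Finset Y), ∀ y' ∈ (Finset.univ : Finset Y), y ≠ y' →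
        Disjoint ((words n).image (List.cons y)) ((words n).image (List.cons y')) := by
      intro y _ y' _ hne
      rw [Finset.disjoint_left]
      intro a ha ha'
      obtain ⟨v, _, rfl⟩ := Finset.mem_image.1 ha
      obtain ⟨v', _, hv'⟩ := Finset.mem_image.1 ha'
      exact hne (List.cons.inj hv').1.symm
    simp only [words]
    rw [Finset.card_biUnion hdisj]
    have : ∀ y : Y, ((words n).image (List.cons y)).card = (Fintype.card Y) ^ n := by
      intro y
      rw [Finset.card_image_of_injective _ (List.cons_injective), ih]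
    simp [this, pow_succ, mul_comm]

end Words

variable (Z : Type) [Field Z] (m : ℕ)

/-- Invariance of the trace. -/
lemma tr_s [NeZero m] (x : L0 Z Y m) : tr Z Y m (s Z Y m x) = tr Z Y m x := by
  have h : tr Z Y m (s Z Y m x) = s Z Y m (tr Z Y m x) := by
    unfold tr
    rw [map_sum]
    refine Finset.sum_congr rfl fun r _ => ?_
    rw [← AlgEquiv.mul_apply, ← AlgEquiv.mul_apply, ← pow_succ, ← pow_succ']
  rw [h, s_tr]

lemma tr_s_pow [NeZero m] (k : ℕ) (x : L0 Z Y m) : tr Z Y m ((s Z Y m ^ k) x) = tr Z Y m x := by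
  induction k with
  | zero => simp
  | succ k ih => rw [pow_succ', AlgEquiv.mul_apply, tr_s, ih]

lemma s_pow_of_dvd [NeZero m] {k : ℕ} (h : m ∣ k) (x : L0 Z Y m) : (s Z Y m ^ k) x = x := by
  obtain ⟨c, rfl⟩ := h
  rw [pow_mul, s_pow_m, one_pow]
  rfl

/-- `l(v) = ∏_i s^i (b_{v_i})`. -/
noncomputable def lb (b : Y → L0 Z Y m) : List Y → L0 Z Y m
  | [] => 1
  | y :: v => b y * s Z Y m (lb b v)

@[simp] lemma lb_nil (b : Y → L0 Z Y m) : lb Z m b [] = 1 := rfl
@[simp] lemma lb_cons (b : Y → L0 Z Y m) (y : Y) (v : List Y) :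
    lb Z m b (y :: v) = b y * s Z Y m (lb Z m b v) := rfl

lemma lb_append (b : Y → L0 Z Y m) (u v : List Y) :
    lb Z m b (u ++ v) = lb Z m b u * (s Z Y m ^ u.length) (lb Z m b v) := by
  induction u with
  | nil => simp
  | cons a u ih =>
    simp only [List.cons_append, lb_cons, List.length_cons, ih, map_mul, mul_assoc]
    congr 2
    rw [pow_succ', AlgEquiv.mul_apply]

/-- For the generic base, `lb` is the monomial `l(v)` of `Mono`. -/
lemma lb_generic (v : List Y) : lb Z m (T Z Y m 0) v = Mono.lw Z Y m v := by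
  have key : ∀ (k : ℕ) (v : List Y), (s Z Y m ^ k) (lb Z m (T Z Y m 0) v) =
      algebraMap (Pol Z Y m) (L0 Z Y m) (Mono.pw Z Y m (k : ZMod m) v) := by
    intro k v
    induction v generalizing k with
    | nil => simp
    | cons y v ih =>
      simp only [lb_cons, map_mul, Mono.pw_cons]
      have h1 := ih (k + 1)
      rw [pow_succ, AlgEquiv.mul_apply] at h1
      rw [h1, s_pow_T, T]
      simp
  have := key 0 v
  simpa [Mono.lw] using this

/-- Extension to `Option`. -/
noncomputable def optX (x : Y → L0 Z Y m) : Option Y → L0 Z Y m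
  | none => 0
  | some y => x y

/-- The leading coefficient of the derivative of a word in the direction `x ϖ^j`. -/
noncomputable def dW (b x : Y → L0 Z Y m) (j : ℕ) : List Y → L0 Z Y m
  | [] => 0
  | y :: v => x y * (s Z Y m ^ j) (lb Z m b v) + b y * s Z Y m (dW b x j v)

@[simp] lemma dW_nil (b x : Y → L0 Z Y m) (j : ℕ) : dW Z m b x j [] = 0 := rfl
@[simp] lemma dW_cons (b x : Y → L0 Z Y m) (j : ℕ) (y : Y) (v : List Y) :
    dW Z m b x j (y :: v) = x y * (s Z Y m ^ j) (lb Z m b v) + b y * s Z Y m (dW Z m b x j v) := rfl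

/-- Positional formula for `dW`. -/
lemma dW_eq_sum (b x : Y → L0 Z Y m) (j : ℕ) (w : List Y) :
    dW Z m b x j w = ∑ i ∈ Finset.range w.length,
      lb Z m b (w.take i) * (s Z Y m ^ i) (optX Z m x w[i]?) *
        (s Z Y m ^ (i + j)) (lb Z m b (w.drop (i + 1))) := by
  induction w with
  | nil => simp
  | cons y v ih =>
    rw [dW_cons, ih, List.length_cons, Finset.sum_range_succ', map_sum,
      Finset.mul_sum, add_comm]
    congr 1
    · refine Finset.sum_congr rfl fun i _ => ?_
      simp only [List.take_succ_cons, lb_cons, List.getElem?_cons_succ, List.drop_succ_cons, map_mul]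
      have h1 : ∀ (k : ℕ) (a : L0 Z Y m), (s Z Y m ^ (k + 1)) a = s Z Y m ((s Z Y m ^ k) a) := by
        intro k a
        rw [pow_succ', AlgEquiv.mul_apply]
      have h2 : i + 1 + j = (i + j) + 1 := by omega
      rw [h2, h1, h1]
      ring
    · simp [optX]

/-- The rotation formula for the trace. -/
lemma tr_rot [NeZero m] (b : Y → L0 Z Y m) (ξ : L0 Z Y m) (u v : List Y) (j N : ℕ)
    (hN : u.length + v.length = N) (hd : m ∣ j + N) :
    tr Z Y m (lb Z m b u * (s Z Y m ^ u.length) ξ * (s Z Y m ^ (u.length + j)) (lb Z m b v)) =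
      tr Z Y m (lb Z m b (v ++ u) * (s Z Y m ^ N) ξ) := by
  rw [← tr_s_pow Z m (u.length + j) (lb Z m b (v ++ u) * (s Z Y m ^ N) ξ)]
  congr 1
  rw [lb_append, map_mul, map_mul]
  have h1 : (s Z Y m ^ (u.length + j)) ((s Z Y m ^ v.length) (lb Z m b u)) = lb Z m b u := by
    rw [← AlgEquiv.mul_apply, ← pow_add]
    apply s_pow_of_dvd
    have : u.length + j + v.length = j + N := by omega
    rw [this]
    exact hd
  have h2 : (s Z Y m ^ (u.length + j)) ((s Z Y m ^ N) ξ) = (s Z Y m ^ u.length) ξ := by
    rw [← AlgEquiv.mul_apply, ← pow_add]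
    have : u.length + j + N = (j + N) + u.length := by omega
    rw [this, pow_add, AlgEquiv.mul_apply, s_pow_of_dvd Z m hd]
  rw [h1, h2]
  ring

section Sum

variable [Fintype Y] [DecidableEq Y]

omit [Fintype Y] [DecidableEq Y] in
lemma drop_succ_append' {a c : List Y} {y : Y} {i : ℕ} (h : a.length = i) :
    (a ++ y :: c).drop (i + 1) = c := by subst h; simp

omit [Fintype Y] [DecidableEq Y] in
lemma take_append'' {a c : List Y} {i : ℕ} (h : a.length = i) : (a ++ c).take i = a := by
  subst h; simp

omit [Fintype Y] [DecidableEq Y] in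
lemma drop_append'' {a c : List Y} {i : ℕ} (h : a.length = i) : (a ++ c).drop i = c := by
  subst h; simp

/-- Rotations. -/
lemma rotate_succ_eq (y : Y) (v : List Y) (k : ℕ) (hk : k ≤ v.length) :
    (y :: v).rotate (k + 1) = v.drop k ++ y :: v.take k := by
  rw [List.rotate_cons_succ, List.rotate_eq_drop_append_take (by simpa using (by omega))]
  rw [List.drop_append_of_le_length hk, List.take_append_of_le_length hk]
  simp

/-- `cycSum` in positional form. -/
lemma cycSum_cons_eq (P : List Y → L0 Z Y m) (y : Y) (v : List Y) :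
    Stab.cycSum P (y :: v) = ∑ i ∈ Finset.range (v.length + 1),
      P (v.drop (v.length - i) ++ y :: v.take (v.length - i)) := by
  rw [← Finset.sum_range_reflect]
  simp only [Stab.cycSum, List.length_cons]
  have h1 : ∑ i ∈ Finset.range (v.length + 1), P ((y :: v).rotate i) =
      ∑ i ∈ Finset.range (v.length + 1), P ((y :: v).rotate (i + 1)) := by
    have e1 := Finset.sum_range_succ (fun i => P ((y :: v).rotate i)) (v.length + 1)
    have e2 := Finset.sum_range_succ' (fun i => P ((y :: v).rotate i)) (v.length + 1)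
    rw [e2] at e1
    have hlast : (y :: v).rotate (v.length + 1) = (y :: v).rotate 0 := by
      have := List.rotate_length (y :: v)
      simpa using this
    rw [hlast] at e1
    exact (add_right_cancel e1).symm
  rw [h1]
  refine Finset.sum_congr rfl fun i hi => ?_
  have hi' := Finset.mem_range.1 hi
  have h2 : v.length - (v.length + 1 - 1 - i) = i := by omega
  rw [h2, rotate_succ_eq y v i (by omega)]

/-- Bijection at fixed position: words `w` of length `N+1` with `w[i] = y` correspond to words `v` of
length `N` by `v = w.drop (i+1) ++ w.take i`. -/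
lemma sum_words_filter {A : Type*} [AddCommMonoid A] (N i : ℕ) (hi : i < N + 1) (y : Y)
    (f : List Y → A) (h : List Y → A)
    (hfh : ∀ w, w.length = N + 1 → w[i]? = some y → f w = h (w.drop (i + 1) ++ w.take i)) :
    ∑ w ∈ words (N + 1), (if w[i]? = some y then f w else 0) =
      ∑ v ∈ words N, (if True then h v else 0) := by
  classical
  rw [← Finset.sum_filter]
  simp only [if_true]
  refine Finset.sum_bij' (fun w _ => w.drop (i + 1) ++ w.take i)
    (fun v _ => v.drop (N - i) ++ y :: v.take (N - i)) ?_ ?_ ?_ ?_ ?_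
  · intro w hw
    obtain ⟨h1, h2⟩ := Finset.mem_filter.1 hw
    have h3 := mem_words.1 h1
    simp only [mem_words, List.length_append, List.length_drop, List.length_take, h3]
    omega
  · intro v hv
    have h3 := mem_words.1 hv
    refine Finset.mem_filter.2 ⟨?_, ?_⟩
    · simp only [mem_words, List.length_append, List.length_drop, List.length_cons, List.length_take, h3]
      omega
    · have h4 : (v.drop (N - i)).length = i := by simp [h3]; omega
      rw [List.getElem?_append_right (by omega)]
      simp [h4]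
  · intro w hw
    obtain ⟨h1, h2⟩ := Finset.mem_filter.1 hw
    have h3 := mem_words.1 h1
    -- w = take i ++ y :: drop (i+1)
    have hlen : i < w.length := by omega
    have hy : w[i] = y := by
      have := (List.getElem?_eq_getElem hlen).symm.trans h2
      simpa using this
    have hdecomp : w = w.take i ++ y :: w.drop (i + 1) := by
      conv_lhs => rw [← List.take_append_drop i w, List.drop_eq_getElem_cons hlen, hy]
    have hd : (w.drop (i + 1)).length = N - i := by simp [h3]
    rw [drop_append'' hd, take_append'' hd]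
    exact hdecomp.symm
  · intro v hv
    have h3 := mem_words.1 hv
    have hdl : (v.drop (N - i)).length = i := by simp [h3]; omega
    have e1 : (v.drop (N - i) ++ y :: v.take (N - i)).drop (i + 1) = v.take (N - i) :=
      drop_succ_append' hdl
    have e2 : (v.drop (N - i) ++ y :: v.take (N - i)).take i = v.drop (N - i) := take_append'' hdl
    rw [e1, e2, List.take_append_drop]
  · intro w hw
    obtain ⟨h1, h2⟩ := Finset.mem_filter.1 hw
    exact hfh w (mem_words.1 h1) h2

/-- The main identity. -/
theorem core_identity [NeZero m] (b x : Y → L0 Z Y m) (P : List Y → L0 Z Y m)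
    (hP : ∀ w, P w ∈ Z0 Z Y m) (j N : ℕ) (hd : m ∣ j + N) :
    tr Z Y m (∑ w ∈ words (N + 1), P w * dW Z m b x j w) =
      ∑ y, ∑ v ∈ words N, Stab.cycSum P (y :: v) * tr Z Y m (lb Z m b v * (s Z Y m ^ N) (x y)) := by
  classical
  have hadd : ∀ (F : List Y → L0 Z Y m) (S : Finset (List Y)),
      tr Z Y m (∑ w ∈ S, F w) = ∑ w ∈ S, tr Z Y m (F w) := by
    intro F S
    unfold tr
    rw [Finset.sum_comm]
    refine Finset.sum_congr rfl fun r _ => ?_
    rw [map_sum]
  have hadd' : ∀ (F : ℕ → L0 Z Y m) (S : Finset ℕ),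
      tr Z Y m (∑ w ∈ S, F w) = ∑ w ∈ S, tr Z Y m (F w) := by
    intro F S
    unfold tr
    rw [Finset.sum_comm]
    refine Finset.sum_congr rfl fun r _ => ?_
    rw [map_sum]
  -- step 1: expand
  have h1 : ∀ w ∈ words (N + 1), tr Z Y m (P w * dW Z m b x j w) =
      ∑ i ∈ Finset.range (N + 1), ∑ y, if w[i]? = some y then
        P w * tr Z Y m (lb Z m b (w.drop (i + 1) ++ w.take i) * (s Z Y m ^ N) (x y)) else 0 := by
    intro w hw
    have hlen := mem_words.1 hw
    rw [tr_mul_of_mem Z Y m (hP w), dW_eq_sum, hadd', hlen, Finset.mul_sum]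
    refine Finset.sum_congr rfl fun i hi => ?_
    have hi' := Finset.mem_range.1 hi
    have hlt : i < w.length := by omega
    rw [List.getElem?_eq_getElem hlt]
    simp only [Option.some.injEq, optX]
    rw [Finset.sum_ite_eq]
    simp only [Finset.mem_univ, if_true]
    congr 1
    have hu : (w.take i).length = i := by simp; omega
    have hv : (w.drop (i + 1)).length = N - i := by simp [hlen]
    have := tr_rot Z m b (x w[i]) (w.take i) (w.drop (i + 1)) j N (by omega) hd
    rw [hu] at this
    exact this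
  rw [hadd, Finset.sum_congr rfl h1, Finset.sum_comm]
  -- step 2: swap, bijection
  have h2 : ∀ i ∈ Finset.range (N + 1), ∑ w ∈ words (N + 1), ∑ y, (if w[i]? = some y then
        P w * tr Z Y m (lb Z m b (w.drop (i + 1) ++ w.take i) * (s Z Y m ^ N) (x y)) else 0) =
      ∑ y, ∑ v ∈ words N, P (v.drop (N - i) ++ y :: v.take (N - i)) *
        tr Z Y m (lb Z m b v * (s Z Y m ^ N) (x y)) := by
    intro i hi
    have hi' := Finset.mem_range.1 hi
    rw [Finset.sum_comm]
    refine Finset.sum_congr rfl fun y _ => ?_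
    have := sum_words_filter (Y := Y) N i hi' y
      (fun w => P w * tr Z Y m (lb Z m b (w.drop (i + 1) ++ w.take i) * (s Z Y m ^ N) (x y)))
      (fun v => P (v.drop (N - i) ++ y :: v.take (N - i)) *
        tr Z Y m (lb Z m b v * (s Z Y m ^ N) (x y))) ?_
    · simpa using this
    · intro w hw hy
      -- w is recovered
      have hlen : i < w.length := by omega
      have hyy : w[i] = y := by
        have := (List.getElem?_eq_getElem hlen).symm.trans hy
        simpa using this
      have hdecomp : w = w.take i ++ y :: w.drop (i + 1) := by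
        conv_lhs => rw [← List.take_append_drop i w, List.drop_eq_getElem_cons hlen, hyy]
      have hd' : (w.drop (i + 1)).length = N - i := by simp [hw]
      have e1 : (w.drop (i + 1) ++ w.take i).drop (N - i) = w.take i := drop_append'' hd'
      have e2 : (w.drop (i + 1) ++ w.take i).take (N - i) = w.drop (i + 1) := take_append'' hd'
      rw [e1, e2, ← hdecomp]
  rw [Finset.sum_congr rfl h2, Finset.sum_comm]
  refine Finset.sum_congr rfl fun y _ => ?_
  rw [Finset.sum_comm]
  refine Finset.sum_congr rfl fun v hv => ?_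
  have hv' := mem_words.1 hv
  rw [cycSum_cons_eq, hv', Finset.sum_mul]

/-- Nondegeneracy of `tr`. -/
lemma eq_zero_of_tr_mul [NeZero m] [CharZero Z] (E : L0 Z Y m)
    (h : ∀ ξ, tr Z Y m (E * ξ) = 0) : E = 0 := by
  by_contra hE
  have h1 := h E⁻¹
  rw [mul_inv_cancel₀ hE] at h1
  have h2 : tr Z Y m 1 = (m : L0 Z Y m) * 1 := tr_of_mem Z Y m (one_mem _)
  rw [h2, mul_one] at h1
  have h3 : (m : L0 Z Y m) ≠ 0 := by
    haveI : CharZero (L0 Z Y m) := charZero_of_injective_algebraMap (algebraMap Z (L0 Z Y m)).injective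
    exact Nat.cast_ne_zero.2 (NeZero.ne m)
  exact h3 h1

/-- If the pairing vanishes for all directions `x`, then `∑_v cyc P (y::v) l(v) = 0`. -/
theorem sum_cycSum_eq_zero [NeZero m] [CharZero Z] (b : Y → L0 Z Y m) (P : List Y → L0 Z Y m)
    (hP : ∀ w, P w ∈ Z0 Z Y m) (j N : ℕ) (hd : m ∣ j + N)
    (h : ∀ x : Y → L0 Z Y m, tr Z Y m (∑ w ∈ words (N + 1), P w * dW Z m b x j w) = 0) (y : Y) :
    ∑ v ∈ words N, Stab.cycSum P (y :: v) * lb Z m b v = 0 := by
  classical
  apply eq_zero_of_tr_mul Z m
  intro ξ
  -- direction supported at y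
  let ξ' : L0 Z Y m := ((s Z Y m ^ N)⁻¹) ξ
  have hξ' : (s Z Y m ^ N) ξ' = ξ := by
    simp only [ξ']
    rw [← AlgEquiv.mul_apply, mul_inv_cancel]
    rfl
  let x : Y → L0 Z Y m := fun y' => if y' = y then ξ' else 0
  have h1 := h x
  rw [core_identity Z m b x P hP j N hd] at h1
  rw [Finset.sum_eq_single y] at h1
  · simp only [x, if_true, hξ'] at h1
    rw [Finset.sum_mul]
    have hadd : ∀ (F : List Y → L0 Z Y m) (S : Finset (List Y)),
        tr Z Y m (∑ w ∈ S, F w) = ∑ w ∈ S, tr Z Y m (F w) := by
      intro F S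
      unfold tr
      rw [Finset.sum_comm]
      refine Finset.sum_congr rfl fun r _ => ?_
      rw [map_sum]
    rw [hadd, ← h1]
    refine Finset.sum_congr rfl fun v _ => ?_
    have hcyc : Stab.cycSum P (y :: v) ∈ Z0 Z Y m := by
      unfold Stab.cycSum
      exact sum_mem fun i _ => hP _
    rw [mul_assoc, tr_mul_of_mem Z Y m hcyc]
  · intro y' _ hne
    have h0 : tr Z Y m (0 : L0 Z Y m) = 0 := by simp [tr]
    simp [x, hne, h0]
  · simp

/-- Generic base: all cyclic sums vanish (Lemma Mono). -/
theorem cycSum_eq_zero_generic [NeZero m] [CharZero Z] (P : List Y → L0 Z Y m)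
    (hP : ∀ w, P w ∈ Z0 Z Y m) (j N : ℕ) (hd : m ∣ j + N)
    (hm : (Fintype.card Y) ^ N * N ≤ m)
    (h : ∀ x : Y → L0 Z Y m,
      tr Z Y m (∑ w ∈ words (N + 1), P w * dW Z m (T Z Y m 0) x j w) = 0) (y : Y) (v : List Y)
    (hv : v.length = N) : Stab.cycSum P (y :: v) = 0 := by
  classical
  have h1 := sum_cycSum_eq_zero Z m (T Z Y m 0) P hP j N hd h y
  have hli := Mono.mono_indep Z Y m (words N) N (fun v hv => mem_words.1 hv)
    (by rw [card_words]; exact hm)
  rw [Fintype.linearIndependent_iff] at hli
  have hcyc : ∀ u, Stab.cycSum P (y :: u) ∈ Z0 Z Y m := by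
    intro u
    unfold Stab.cycSum
    exact sum_mem fun i _ => hP _
  have := hli (fun u => ⟨Stab.cycSum P (y :: (u : List Y)), hcyc _⟩) ?_ ⟨v, mem_words.2 hv⟩
  · exact congrArg Subtype.val this
  · have h2 : ∑ u : (words N : Finset (List Y)), (Stab.cycSum P (y :: (u : List Y))) * lb Z m (T Z Y m 0) (u : List Y) = 0 := by
      rw [← h1]
      exact Finset.sum_coe_sort (words N) (fun u => Stab.cycSum P (y :: u) * lb Z m (T Z Y m 0) u)
    rw [← h2]
    refine Finset.sum_congr rfl fun u _ => ?_
    rw [lb_generic]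
    rfl

end Sum

end Crest.Agent.Lib.Kurosh.PotCore
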