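import Mathlib

/-!
# Skew Laurent series `SL(S,σ)`

`SL S σ` is the ring of series `∑_{i ≥ i₀} a_i ϖ^i` (`i ∈ ℤ`) with `ϖ a = σ(a) ϖ`.
Multiplication: `(f g)_n = ∑_i f_i σ^i (g_{n-i})`.
-/

set_option autoImplicit false

namespace Crest.Agent.Lib.Kurosh

open Finset

/-- Skew Laurent series over the ring `S` with automorphism `σ`. -/
@[ext]
structure SL (S : Type*) [Ring S] (σ : RingAut S) where
  /-- The coefficient function. -/
  coeff : ℤ → S
  /-- The support is bounded below. -/
  bdd' : ∃ N : ℤ, ∀ i, i < N → coeff i = 0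

namespace SL

variable {S : Type*} [Ring S] {σ : RingAut S}

/-- `N` is a lower bound of the support of `f`. -/
def LB (f : SL S σ) (N : ℤ) : Prop := ∀ i, i < N → f.coeff i = 0

lemma exists_LB (f : SL S σ) : ∃ N, f.LB N := f.bdd'

lemma LB.mono {f : SL S σ} {a b : ℤ} (h : f.LB a) (hb : b ≤ a) : f.LB b :=
  fun i hi => h i (lt_of_lt_of_le hi hb)

lemma coeff_injective : Function.Injective (coeff : SL S σ → ℤ → S) :=
  fun _ _ h => SL.ext h

instance : Zero (SL S σ) := ⟨⟨fun _ => 0, 0, fun _ _ => rfl⟩⟩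
instance : One (SL S σ) :=
  ⟨⟨fun i => if i = 0 then 1 else 0, 0, fun i hi => if_neg (ne_of_lt hi)⟩⟩
instance : Add (SL S σ) := ⟨fun f g => ⟨fun i => f.coeff i + g.coeff i, by
  obtain ⟨a, ha⟩ := f.bdd'
  obtain ⟨b, hb⟩ := g.bdd'
  refine ⟨min a b, fun i hi => ?_⟩
  rw [ha i (lt_of_lt_of_le hi (min_le_left _ _)), hb i (lt_of_lt_of_le hi (min_le_right _ _)),
    add_zero]⟩⟩
instance : Neg (SL S σ) := ⟨fun f => ⟨fun i => - f.coeff i, by
  obtain ⟨a, ha⟩ := f.bdd'
  exact ⟨a, fun i hi => by rw [ha i hi, neg_zero]⟩⟩⟩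
instance : Sub (SL S σ) := ⟨fun f g => ⟨fun i => f.coeff i - g.coeff i, by
  obtain ⟨a, ha⟩ := f.bdd'
  obtain ⟨b, hb⟩ := g.bdd'
  refine ⟨min a b, fun i hi => ?_⟩
  rw [ha i (lt_of_lt_of_le hi (min_le_left _ _)), hb i (lt_of_lt_of_le hi (min_le_right _ _)),
    sub_zero]⟩⟩
instance : SMul ℕ (SL S σ) := ⟨fun k f => ⟨fun i => k • f.coeff i, by
  obtain ⟨a, ha⟩ := f.bdd'
  exact ⟨a, fun i hi => by rw [ha i hi, smul_zero]⟩⟩⟩
instance : SMul ℤ (SL S σ) := ⟨fun k f => ⟨fun i => k • f.coeff i, by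
  obtain ⟨a, ha⟩ := f.bdd'
  exact ⟨a, fun i hi => by rw [ha i hi, smul_zero]⟩⟩⟩

@[simp] lemma coeff_zero (i : ℤ) : (0 : SL S σ).coeff i = 0 := rfl
lemma coeff_one (i : ℤ) : (1 : SL S σ).coeff i = if i = 0 then 1 else 0 := rfl
@[simp] lemma coeff_add (f g : SL S σ) (i : ℤ) : (f + g).coeff i = f.coeff i + g.coeff i := rfl
@[simp] lemma coeff_neg (f : SL S σ) (i : ℤ) : (-f).coeff i = - f.coeff i := rfl
@[simp] lemma coeff_sub (f g : SL S σ) (i : ℤ) : (f - g).coeff i = f.coeff i - g.coeff i := rfl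
@[simp] lemma coeff_nsmul (k : ℕ) (f : SL S σ) (i : ℤ) : (k • f).coeff i = k • f.coeff i := rfl
@[simp] lemma coeff_zsmul (k : ℤ) (f : SL S σ) (i : ℤ) : (k • f).coeff i = k • f.coeff i := rfl

instance : AddCommGroup (SL S σ) :=
  Function.Injective.addCommGroup coeff coeff_injective rfl (fun _ _ => rfl) (fun _ => rfl)
    (fun _ _ => rfl) (fun _ _ => rfl) (fun _ _ => rfl)

/-- Coefficients of a product, as a `finsum`. -/
noncomputable def mulCoeff (f g : SL S σ) (n : ℤ) : S :=
  ∑ᶠ i : ℤ, f.coeff i * (σ ^ i) (g.coeff (n - i))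

lemma mulCoeff_support_subset {f g : SL S σ} {a b : ℤ} (hf : f.LB a) (hg : g.LB b) (n : ℤ) :
    Function.support (fun i : ℤ => f.coeff i * (σ ^ i) (g.coeff (n - i))) ⊆
      (Finset.Icc a (n - b) : Finset ℤ) := by
  intro i hi
  simp only [Function.mem_support] at hi
  simp only [Finset.coe_Icc, Set.mem_Icc]
  constructor
  · by_contra h
    exact hi (by rw [hf i (not_le.mp h), zero_mul])
  · by_contra h
    refine hi ?_
    rw [hg (n - i) (by omega), map_zero, mul_zero]

lemma mulCoeff_eq {f g : SL S σ} {a b : ℤ} (hf : f.LB a) (hg : g.LB b) (n : ℤ) :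
    mulCoeff f g n = ∑ i ∈ Finset.Icc a (n - b), f.coeff i * (σ ^ i) (g.coeff (n - i)) :=
  finsum_eq_sum_of_support_subset _ (mulCoeff_support_subset hf hg n)

noncomputable instance : Mul (SL S σ) := ⟨fun f g => ⟨mulCoeff f g, by
  obtain ⟨a, ha⟩ := f.exists_LB
  obtain ⟨b, hb⟩ := g.exists_LB
  refine ⟨a + b, fun n hn => ?_⟩
  rw [mulCoeff_eq ha hb, Finset.Icc_eq_empty (by omega), Finset.sum_empty]⟩⟩

lemma coeff_mul_def (f g : SL S σ) (n : ℤ) : (f * g).coeff n = mulCoeff f g n := rfl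

/-- Coefficient of a product with explicit support bounds. -/
lemma coeff_mul {f g : SL S σ} {a b : ℤ} (hf : f.LB a) (hg : g.LB b) (n : ℤ) :
    (f * g).coeff n = ∑ i ∈ Finset.Icc a (n - b), f.coeff i * (σ ^ i) (g.coeff (n - i)) :=
  mulCoeff_eq hf hg n

lemma LB.mul {f g : SL S σ} {a b : ℤ} (hf : f.LB a) (hg : g.LB b) : (f * g).LB (a + b) := by
  intro n hn
  rw [coeff_mul hf hg, Finset.Icc_eq_empty (by omega), Finset.sum_empty]

lemma LB.add {f g : SL S σ} {a : ℤ} (hf : f.LB a) (hg : g.LB a) : (f + g).LB a := by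
  intro n hn
  rw [coeff_add, hf n hn, hg n hn, add_zero]

lemma LB.neg {f : SL S σ} {a : ℤ} (hf : f.LB a) : (-f).LB a := by
  intro n hn
  rw [coeff_neg, hf n hn, neg_zero]

lemma LB.sub {f g : SL S σ} {a : ℤ} (hf : f.LB a) (hg : g.LB a) : (f - g).LB a := by
  intro n hn
  rw [coeff_sub, hf n hn, hg n hn, sub_zero]

lemma lB_one : (1 : SL S σ).LB 0 := fun i hi => if_neg (ne_of_lt hi)

lemma lB_zero (a : ℤ) : (0 : SL S σ).LB a := fun _ _ => rfl

/-- The value at `k+l` of the twist. -/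
lemma zpow_add_apply (k l : ℤ) (x : S) : (σ ^ (k + l)) x = (σ ^ k) ((σ ^ l) x) := by
  rw [zpow_add]; rfl

protected lemma mul_assoc' (f g h : SL S σ) : f * g * h = f * (g * h) := by
  obtain ⟨a, ha⟩ := f.exists_LB
  obtain ⟨b, hb⟩ := g.exists_LB
  obtain ⟨c, hc⟩ := h.exists_LB
  apply SL.ext
  funext n
  rw [coeff_mul (ha.mul hb) hc, coeff_mul ha (hb.mul hc)]
  have e1 : ∀ i, (f * g).coeff i * (σ ^ i) (h.coeff (n - i)) =
      ∑ k ∈ Finset.Icc a (i - b), f.coeff k * (σ ^ k) (g.coeff (i - k)) *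
        (σ ^ i) (h.coeff (n - i)) := by
    intro i
    rw [coeff_mul ha hb, Finset.sum_mul]
  have e2 : ∀ k, f.coeff k * (σ ^ k) ((g * h).coeff (n - k)) =
      ∑ l ∈ Finset.Icc b (n - k - c), f.coeff k * (σ ^ k) (g.coeff l) *
        (σ ^ (k + l)) (h.coeff (n - (k + l))) := by
    intro k
    rw [coeff_mul hb hc, map_sum, Finset.mul_sum]
    refine Finset.sum_congr rfl fun l _ => ?_
    rw [map_mul, zpow_add_apply, mul_assoc]
    have e : n - k - l = n - (k + l) := by ring
    rw [e]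
  simp only [e1, e2]
  rw [Finset.sum_comm' (s' := fun k => Finset.Icc (k + b) (n - c))
    (t' := Finset.Icc a (n - (b + c)))]
  · refine Finset.sum_congr rfl fun k _ => ?_
    refine Finset.sum_nbij' (fun i => i - k) (fun l => k + l) ?_ ?_ ?_ ?_ ?_
    · intro i hi
      simp only [Finset.mem_Icc] at hi ⊢
      omega
    · intro i hi
      simp only [Finset.mem_Icc] at hi ⊢
      omega
    · intro i _
      ring
    · intro i _
      ring
    · intro i _
      have : k + (i - k) = i := by ring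
      rw [this]
  · intro x y
    simp only [Finset.mem_Icc]
    omega

protected lemma one_mul' (f : SL S σ) : 1 * f = f := by
  apply SL.ext
  funext n
  rw [coeff_mul_def, mulCoeff, finsum_eq_single _ 0]
  · simp [coeff_one]
  · intro i hi
    rw [coeff_one, if_neg hi, zero_mul]

protected lemma mul_one' (f : SL S σ) : f * 1 = f := by
  apply SL.ext
  funext n
  rw [coeff_mul_def, mulCoeff, finsum_eq_single _ n]
  · simp [coeff_one]
  · intro i hi
    rw [coeff_one, if_neg (sub_ne_zero.mpr hi.symm), map_zero, mul_zero]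

protected lemma left_distrib' (f g h : SL S σ) : f * (g + h) = f * g + f * h := by
  obtain ⟨a, ha⟩ := f.exists_LB
  obtain ⟨b, hb⟩ := g.exists_LB
  obtain ⟨c, hc⟩ := h.exists_LB
  have hb' : g.LB (min b c) := hb.mono (min_le_left _ _)
  have hc' : h.LB (min b c) := hc.mono (min_le_right _ _)
  apply SL.ext
  funext n
  rw [coeff_mul ha (hb'.add hc'), coeff_add, coeff_mul ha hb', coeff_mul ha hc',
    ← Finset.sum_add_distrib]
  refine Finset.sum_congr rfl fun i _ => ?_
  rw [coeff_add, map_add, mul_add]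

protected lemma right_distrib' (f g h : SL S σ) : (f + g) * h = f * h + g * h := by
  obtain ⟨a, ha⟩ := f.exists_LB
  obtain ⟨b, hb⟩ := g.exists_LB
  obtain ⟨c, hc⟩ := h.exists_LB
  have ha' : f.LB (min a b) := ha.mono (min_le_left _ _)
  have hb' : g.LB (min a b) := hb.mono (min_le_right _ _)
  apply SL.ext
  funext n
  rw [coeff_mul (ha'.add hb') hc, coeff_add, coeff_mul ha' hc, coeff_mul hb' hc,
    ← Finset.sum_add_distrib]
  refine Finset.sum_congr rfl fun i _ => ?_
  rw [coeff_add, add_mul]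

protected lemma zero_mul' (f : SL S σ) : 0 * f = 0 := by
  apply SL.ext
  funext n
  obtain ⟨b, hb⟩ := f.exists_LB
  rw [coeff_mul (lB_zero (S := S) (σ := σ) 0) hb]
  simp

protected lemma mul_zero' (f : SL S σ) : f * 0 = 0 := by
  apply SL.ext
  funext n
  obtain ⟨a, ha⟩ := f.exists_LB
  rw [coeff_mul ha (lB_zero (S := S) (σ := σ) 0)]
  simp

noncomputable instance instRing : Ring (SL S σ) :=
  { (inferInstance : AddCommGroup (SL S σ)) with
    mul := (· * ·)
    one := 1
    mul_assoc := SL.mul_assoc'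
    one_mul := SL.one_mul'
    mul_one := SL.mul_one'
    left_distrib := SL.left_distrib'
    right_distrib := SL.right_distrib'
    zero_mul := SL.zero_mul'
    mul_zero := SL.mul_zero' }

/-! ### Monomials -/

/-- The monomial `a ϖ^i`. -/
def mon (a : S) (i : ℤ) : SL S σ :=
  ⟨fun n => if n = i then a else 0, i, fun n hn => if_neg (ne_of_lt hn)⟩

lemma coeff_mon (a : S) (i n : ℤ) : (mon a i : SL S σ).coeff n = if n = i then a else 0 := rfl

@[simp] lemma coeff_mon_self (a : S) (i : ℤ) : (mon a i : SL S σ).coeff i = a := if_pos rfl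

lemma lB_mon (a : S) (i : ℤ) : (mon a i : SL S σ).LB i := fun _ hn => if_neg (ne_of_lt hn)

@[simp] lemma mon_zero (i : ℤ) : (mon 0 i : SL S σ) = 0 := by
  apply SL.ext; funext n; rw [coeff_mon]; simp

lemma mon_add (a b : S) (i : ℤ) : (mon (a + b) i : SL S σ) = mon a i + mon b i := by
  apply SL.ext; funext n; simp only [coeff_mon, coeff_add]; split_ifs <;> simp

lemma mon_zero_one : (mon 1 0 : SL S σ) = 1 := by
  apply SL.ext; funext n; rfl

lemma coeff_mon_mul (a : S) (i : ℤ) (f : SL S σ) (n : ℤ) :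
    (mon a i * f).coeff n = a * (σ ^ i) (f.coeff (n - i)) := by
  rw [coeff_mul_def, mulCoeff, finsum_eq_single _ i]
  · rw [coeff_mon_self]
  · intro j hj
    rw [coeff_mon, if_neg hj, zero_mul]

lemma coeff_mul_mon (f : SL S σ) (a : S) (i n : ℤ) :
    (f * mon a i).coeff n = f.coeff (n - i) * (σ ^ (n - i)) a := by
  rw [coeff_mul_def, mulCoeff, finsum_eq_single _ (n - i)]
  · rw [sub_sub_cancel, coeff_mon_self]
  · intro j hj
    rw [coeff_mon, if_neg (by omega), map_zero, mul_zero]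

lemma mon_mul_mon (a b : S) (i j : ℤ) :
    (mon a i * mon b j : SL S σ) = mon (a * (σ ^ i) b) (i + j) := by
  apply SL.ext; funext n
  rw [coeff_mon_mul, coeff_mon, coeff_mon]
  by_cases h : n = i + j
  · rw [if_pos (by omega), if_pos h]
  · rw [if_neg (by omega), if_neg h, map_zero, mul_zero]

/-- The constants: a ring homomorphism `S → SL S σ`. -/
def C : S →+* SL S σ where
  toFun a := mon a 0
  map_one' := mon_zero_one
  map_mul' a b := by
    rw [mon_mul_mon]
    simp
  map_zero' := mon_zero 0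
  map_add' a b := mon_add a b 0

lemma C_apply (a : S) : (C a : SL S σ) = mon a 0 := rfl

lemma C_injective : Function.Injective (C : S →+* SL S σ) := by
  intro a b h
  have := congrArg (fun f => SL.coeff f 0) h
  simpa [C_apply] using this

/-- The uniformiser `ϖ`. -/
def ϖ : SL S σ := mon 1 1

lemma ϖ_mul_C (a : S) : (ϖ : SL S σ) * C a = C (σ a) * ϖ := by
  rw [ϖ, C_apply, C_apply, mon_mul_mon, mon_mul_mon]
  simp

/-- `mon a i * ϖ^j`-type law: general commutation with constants. -/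
lemma mon_mul_C (a b : S) (i : ℤ) :
    (mon a i * C b : SL S σ) = mon (a * (σ ^ i) b) i := by
  rw [C_apply, mon_mul_mon, add_zero]

lemma C_mul_mon (a b : S) (i : ℤ) :
    (C a * mon b i : SL S σ) = mon (a * b) i := by
  rw [C_apply, mon_mul_mon]
  simp

lemma coeff_C_mul (a : S) (f : SL S σ) (n : ℤ) : (C a * f).coeff n = a * f.coeff n := by
  rw [C_apply, coeff_mon_mul]
  simp

lemma coeff_mul_C (f : SL S σ) (a : S) (n : ℤ) :
    (f * C a).coeff n = f.coeff n * (σ ^ n) a := by
  rw [C_apply, coeff_mul_mon]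
  simp

/-- `ϖ`-power, with integer exponent. -/
def ϖz (i : ℤ) : SL S σ := mon 1 i

lemma ϖz_mul (i j : ℤ) : (ϖz (i + j) : SL S σ) = ϖz i * ϖz j := by
  rw [ϖz, ϖz, ϖz, mon_mul_mon]
  simp

lemma ϖz_zero : (ϖz 0 : SL S σ) = 1 := mon_zero_one

lemma mon_eq_C_mul (a : S) (i : ℤ) : (mon a i : SL S σ) = C a * ϖz i := by
  rw [ϖz, C_mul_mon, mul_one]

lemma coeff_ϖz_mul (i : ℤ) (f : SL S σ) (n : ℤ) :
    (ϖz i * f).coeff n = (σ ^ i) (f.coeff (n - i)) := by
  rw [ϖz, coeff_mon_mul, one_mul]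

lemma coeff_mul_ϖz (f : SL S σ) (i n : ℤ) :
    (f * ϖz i).coeff n = f.coeff (n - i) := by
  rw [ϖz, coeff_mul_mon, map_one, mul_one]

/-! ### Lowest term and valuation -/

section Val

/-- Existence of the lowest nonzero coefficient. -/
lemma exists_val {f : SL S σ} (hf : f ≠ 0) :
    ∃ v : ℤ, f.coeff v ≠ 0 ∧ ∀ i, i < v → f.coeff i = 0 := by
  classical
  obtain ⟨a, ha⟩ := f.exists_LB
  have h1 : ∃ z, f.coeff z ≠ 0 := by
    by_contra h
    push Not at h
    exact hf (SL.ext (funext h))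
  have h2 : ∃ b : ℤ, ∀ z, f.coeff z ≠ 0 → b ≤ z := by
    refine ⟨a, fun z hz => ?_⟩
    by_contra h
    exact hz (ha z (not_le.mp h))
  obtain ⟨v, hv, hv'⟩ := Int.exists_least_of_bdd h2 h1
  refine ⟨v, hv, fun i hi => ?_⟩
  by_contra h
  exact absurd (hv' i h) (not_le.mpr hi)

open Classical in
/-- The valuation (order) of a series; `0` on the zero series (junk value). -/
noncomputable def val (f : SL S σ) : ℤ :=
  if h : f = 0 then 0 else Classical.choose (exists_val h)

lemma coeff_val_ne {f : SL S σ} (hf : f ≠ 0) : f.coeff (val f) ≠ 0 := by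
  rw [val, dif_neg hf]
  exact (Classical.choose_spec (exists_val hf)).1

lemma coeff_of_lt_val {f : SL S σ} (hf : f ≠ 0) {i : ℤ} (hi : i < val f) : f.coeff i = 0 := by
  rw [val, dif_neg hf] at hi
  exact (Classical.choose_spec (exists_val hf)).2 i hi

lemma lB_val (f : SL S σ) : f.LB (val f) := by
  intro i hi
  by_cases hf : f = 0
  · rw [hf]; rfl
  · exact coeff_of_lt_val hf hi

lemma val_ge_of_LB {f : SL S σ} (hf : f ≠ 0) {a : ℤ} (h : f.LB a) : a ≤ val f := by
  by_contra hh
  exact coeff_val_ne hf (h _ (not_le.mp hh))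

lemma val_le_of_coeff_ne {f : SL S σ} {i : ℤ} (hi : f.coeff i ≠ 0) : val f ≤ i := by
  have hf : f ≠ 0 := by
    rintro rfl
    exact hi rfl
  by_contra hh
  exact hi (coeff_of_lt_val hf (not_le.mp hh))

lemma val_eq_of {f : SL S σ} {v : ℤ} (h1 : f.coeff v ≠ 0) (h2 : f.LB v) : val f = v := by
  have hf : f ≠ 0 := by
    rintro rfl
    exact h1 rfl
  exact le_antisymm (val_le_of_coeff_ne h1) (val_ge_of_LB hf h2)

/-- The lowest coefficient. -/
noncomputable def lc (f : SL S σ) : S := f.coeff (val f)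

lemma coeff_mul_add {f g : SL S σ} {a b : ℤ} (hf : f.LB a) (hg : g.LB b) :
    (f * g).coeff (a + b) = f.coeff a * (σ ^ a) (g.coeff b) := by
  rw [coeff_mul hf hg]
  have : a + b - b = a := by ring
  rw [this, Finset.Icc_self, Finset.sum_singleton]
  congr 3
  ring

end Val

section Domain

variable {S : Type*} [Ring S] [NoZeroDivisors S] {σ : RingAut S}

lemma mul_coeff_val_ne {f g : SL S σ} (hf : f ≠ 0) (hg : g ≠ 0) :
    (f * g).coeff (val f + val g) ≠ 0 := by
  rw [coeff_mul_add (lB_val f) (lB_val g)]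
  refine mul_ne_zero (coeff_val_ne hf) ?_
  intro h
  exact coeff_val_ne hg ((map_eq_zero_iff _ (σ ^ val f).injective).mp h)

instance : NoZeroDivisors (SL S σ) where
  eq_zero_or_eq_zero_of_mul_eq_zero {f g} h := by
    by_contra hh
    push Not at hh
    have := mul_coeff_val_ne hh.1 hh.2
    rw [h] at this
    exact this rfl

lemma val_mul {f g : SL S σ} (hf : f ≠ 0) (hg : g ≠ 0) : val (f * g) = val f + val g :=
  val_eq_of (mul_coeff_val_ne hf hg) ((lB_val f).mul (lB_val g))

lemma lc_mul {f g : SL S σ} (hf : f ≠ 0) (hg : g ≠ 0) :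
    lc (f * g) = lc f * (σ ^ val f) (lc g) := by
  rw [lc, val_mul hf hg, coeff_mul_add (lB_val f) (lB_val g), lc, lc]

end Domain

/-! ### The inverse -/

section Inverse

variable {S : Type*} [DivisionRing S] {σ : RingAut S}

/-- Coefficients `H m = h_{m - a}` of the right inverse of `f` with valuation `a`. -/
noncomputable def invAux (f : SL S σ) (a : ℤ) : ℕ → S
  | m =>
    (if m = 0 then (σ ^ (-a)) ((f.coeff a)⁻¹) else 0) -
      (σ ^ (-a)) ((f.coeff a)⁻¹ *
        ∑ j : Fin m, f.coeff (a + (j.1 + 1 : ℕ)) * (σ ^ (a + (j.1 + 1 : ℕ)))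
          (invAux f a (m - 1 - j.1)))
  termination_by m => m
  decreasing_by
    have := j.2
    omega

lemma invAux_eq (f : SL S σ) (a : ℤ) (m : ℕ) :
    invAux f a m =
    (if m = 0 then (σ ^ (-a)) ((f.coeff a)⁻¹) else 0) -
      (σ ^ (-a)) ((f.coeff a)⁻¹ *
        ∑ j : Fin m, f.coeff (a + (j.1 + 1 : ℕ)) * (σ ^ (a + (j.1 + 1 : ℕ)))
          (invAux f a (m - 1 - j.1))) := by
  rw [invAux]

/-- The right inverse as a series. -/
noncomputable def invSeries (f : SL S σ) (a : ℤ) : SL S σ :=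
  ⟨fun n => if n + a < 0 then 0 else invAux f a (n + a).toNat, -a, fun i hi => if_pos (by omega)⟩

lemma lB_invSeries (f : SL S σ) (a : ℤ) : (invSeries f a).LB (-a) :=
  fun _ hi => if_pos (by omega)

lemma coeff_invSeries (f : SL S σ) (a : ℤ) (m : ℕ) :
    (invSeries f a).coeff ((m : ℤ) - a) = invAux f a m := by
  show (if (m : ℤ) - a + a < 0 then 0 else invAux f a ((m : ℤ) - a + a).toNat) = _
  rw [if_neg (by omega)]
  congr 1
  omega

lemma twist_cancel (a : ℤ) (x : S) : (σ ^ a) ((σ ^ (-a)) x) = x := by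
  rw [← zpow_add_apply]
  simp

/-- `f * invSeries f (val f) = 1`. -/
lemma mul_invSeries {f : SL S σ} (hf : f ≠ 0) : f * invSeries f (val f) = 1 := by
  set a := val f with ha
  have hfa : f.coeff a ≠ 0 := coeff_val_ne hf
  have hLB : f.LB a := lB_val f
  apply SL.ext
  funext n
  by_cases hn : n < 0
  · rw [coeff_mul hLB (lB_invSeries f a), Finset.Icc_eq_empty (by omega), Finset.sum_empty,
      coeff_one, if_neg (ne_of_lt hn)]
  · obtain ⟨m, rfl⟩ : ∃ m : ℕ, n = m := ⟨n.toNat, by omega⟩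
    rw [coeff_mul hLB (lB_invSeries f a)]
    have hIcc : Finset.Icc a ((m : ℤ) - -a) =
        insert a ((Finset.range m).image fun j : ℕ => a + ((j + 1 : ℕ) : ℤ)) := by
      ext i
      simp only [Finset.mem_Icc, Finset.mem_insert, Finset.mem_image, Finset.mem_range]
      constructor
      · rintro ⟨h1, h2⟩
        by_cases h : i = a
        · exact Or.inl h
        · right
          refine ⟨(i - a - 1).toNat, by omega, ?_⟩
          omega
      · rintro (rfl | ⟨j, hj, rfl⟩)
        · omega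
        · omega
    have hnotin : a ∉ (Finset.range m).image fun j : ℕ => a + ((j + 1 : ℕ) : ℤ) := by
      simp only [Finset.mem_image, Finset.mem_range, not_exists, not_and]
      intro j _
      omega
    have hinj : Set.InjOn (fun j : ℕ => a + ((j + 1 : ℕ) : ℤ)) (Finset.range m : Set ℕ) := by
      intro x _ y _ h
      simp only at h
      omega
    rw [hIcc, Finset.sum_insert hnotin, Finset.sum_image hinj]
    -- first term
    have h0 : (invSeries f a).coeff ((m : ℤ) - a) = invAux f a m := coeff_invSeries f a m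
    have h1 : ∀ j ∈ Finset.range m,
        (invSeries f a).coeff ((m : ℤ) - (a + ((j + 1 : ℕ) : ℤ))) = invAux f a (m - 1 - j) := by
      intro j hj
      have hj' : j < m := Finset.mem_range.mp hj
      rw [← coeff_invSeries]
      congr 1
      have : ((m - 1 - j : ℕ) : ℤ) = (m : ℤ) - 1 - j := by omega
      rw [this]
      push_cast
      ring
    rw [h0, invAux_eq, map_sub, twist_cancel]
    have hsum : (∑ j ∈ Finset.range m, f.coeff (a + ((j + 1 : ℕ) : ℤ)) *
          (σ ^ (a + ((j + 1 : ℕ) : ℤ))) ((invSeries f a).coeff ((m : ℤ) -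
            (a + ((j + 1 : ℕ) : ℤ))))) =
        ∑ j : Fin m, f.coeff (a + ((j.1 + 1 : ℕ) : ℤ)) * (σ ^ (a + ((j.1 + 1 : ℕ) : ℤ)))
          (invAux f a (m - 1 - j.1)) := by
      rw [Finset.sum_fin_eq_sum_range]
      refine Finset.sum_congr rfl fun j hj => ?_
      have hj' : j < m := Finset.mem_range.mp hj
      rw [dif_pos hj', h1 j hj]
    rw [hsum]
    -- simplify
    have hcase : (if m = 0 then (σ ^ (-a)) ((f.coeff a)⁻¹) else 0) = (σ ^ (-a)) (if m = 0 then (f.coeff a)⁻¹ else 0) := by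
      split_ifs <;> simp
    rw [hcase, twist_cancel]
    rw [mul_sub, ← mul_assoc, mul_inv_cancel₀ hfa, one_mul]
    by_cases hm : m = 0
    · subst hm
      simp [coeff_one, mul_inv_cancel₀ hfa]
    · rw [if_neg hm, mul_zero, zero_sub, neg_add_cancel, coeff_one, if_neg (by omega)]

open Classical in
noncomputable instance instDivisionRing : DivisionRing (SL S σ) :=
  { (instRing : Ring (SL S σ)) with
    inv := fun f => if h : f = 0 then 0 else invSeries f (val f)
    exists_pair_ne := ⟨0, 1, by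
      intro h
      have := congrArg (fun f => SL.coeff f 0) h
      simp [coeff_one] at this⟩
    mul_inv_cancel := fun f hf => by
      change f * (if h : f = 0 then 0 else invSeries f (val f)) = 1
      rw [dif_neg hf]
      exact mul_invSeries hf
    inv_zero := by
      change (if h : (0 : SL S σ) = 0 then 0 else invSeries 0 (val (0 : SL S σ))) = 0
      rw [dif_pos rfl]
    nnqsmul := _
    qsmul := _ }

end Inverse

/-! ### The ring of integers and the residue map -/

/-- The subring `O` of series with valuation `≥ 0`. -/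
def O : Subring (SL S σ) where
  carrier := {f | f.LB 0}
  mul_mem' {f g} hf hg := by
    have := LB.mul hf hg
    simpa using this
  one_mem' := lB_one
  add_mem' {f g} hf hg := LB.add hf hg
  zero_mem' := lB_zero 0
  neg_mem' {f} hf := LB.neg hf

/-- The residue map `O → S`, the coefficient at `0`. -/
noncomputable def res : (O : Subring (SL S σ)) →+* S where
  toFun f := f.1.coeff 0
  map_one' := by
    show (1 : SL S σ).coeff 0 = 1
    simp [coeff_one]
  map_mul' f g := by
    show (f.1 * g.1).coeff 0 = f.1.coeff 0 * g.1.coeff 0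
    have := coeff_mul_add (σ := σ) (f := f.1) (g := g.1) (a := 0) (b := 0) f.2 g.2
    simpa using this
  map_zero' := rfl
  map_add' _ _ := rfl

/-! ### Functoriality -/

section Map

variable {S' : Type*} [Ring S'] {σ' : RingAut S'}

lemma equivariant_zpow (φ : S →+* S') (h : ∀ x, φ (σ x) = σ' (φ x)) (i : ℤ) (x : S) :
    φ ((σ ^ i) x) = (σ' ^ i) (φ x) := by
  have hinv : ∀ x, φ (σ⁻¹ x) = σ'⁻¹ (φ x) := by
    intro x
    have h1 := h (σ⁻¹ x)
    have e1 : σ (σ⁻¹ x) = x := by
      show (σ * σ⁻¹) x = x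
      rw [mul_inv_cancel]; rfl
    rw [e1] at h1
    have e2 : σ'⁻¹ (σ' (φ (σ⁻¹ x))) = φ (σ⁻¹ x) := by
      show (σ'⁻¹ * σ') _ = _
      rw [inv_mul_cancel]; rfl
    rw [← e2, ← h1]
  induction i using Int.induction_on generalizing x with
  | zero => simp
  | succ k ih =>
    rw [zpow_add_one, RingAut.mul_apply, ih, h, zpow_add_one, RingAut.mul_apply]
  | pred k ih =>
    rw [zpow_sub_one, RingAut.mul_apply, ih, hinv, zpow_sub_one, RingAut.mul_apply]

/-- Coefficientwise application of a map. -/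
def mapFun (φ : S →+* S') (f : SL S σ) : SL S' σ' :=
  ⟨fun i => φ (f.coeff i), by
    obtain ⟨a, ha⟩ := f.bdd'
    exact ⟨a, fun i hi => by rw [ha i hi, map_zero]⟩⟩

lemma coeff_mapFun (φ : S →+* S') (f : SL S σ) (i : ℤ) :
    (mapFun φ f : SL S' σ').coeff i = φ (f.coeff i) := rfl

lemma LB.mapFun (φ : S →+* S') {f : SL S σ} {a : ℤ} (h : f.LB a) :
    (SL.mapFun φ f : SL S' σ').LB a := fun i hi => by
  rw [coeff_mapFun, h i hi, map_zero]

/-- Functoriality for equivariant ring homs. -/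
noncomputable def map (φ : S →+* S') (h : ∀ x, φ (σ x) = σ' (φ x)) : SL S σ →+* SL S' σ' where
  toFun := mapFun φ
  map_one' := by
    apply SL.ext; funext i
    rw [coeff_mapFun, coeff_one, coeff_one]
    split_ifs <;> simp
  map_mul' f g := by
    apply SL.ext; funext n
    obtain ⟨a, ha⟩ := f.exists_LB
    obtain ⟨b, hb⟩ := g.exists_LB
    rw [coeff_mapFun, coeff_mul ha hb, coeff_mul (ha.mapFun φ) (hb.mapFun φ), map_sum]
    refine Finset.sum_congr rfl fun i _ => ?_
    rw [map_mul, equivariant_zpow φ h, coeff_mapFun, coeff_mapFun]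
  map_zero' := by
    apply SL.ext; funext i
    rw [coeff_mapFun, coeff_zero, coeff_zero, map_zero]
  map_add' f g := by
    apply SL.ext; funext i
    rw [coeff_add, coeff_mapFun, coeff_mapFun, coeff_mapFun, coeff_add, map_add]

lemma coeff_map (φ : S →+* S') (h : ∀ x, φ (σ x) = σ' (φ x)) (f : SL S σ) (i : ℤ) :
    (map φ h f).coeff i = φ (f.coeff i) := rfl

lemma map_injective (φ : S →+* S') (h : ∀ x, φ (σ x) = σ' (φ x))
    (hφ : Function.Injective φ) : Function.Injective (map φ h) := by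
  intro f g hfg
  apply SL.ext
  funext i
  apply hφ
  rw [← coeff_map φ h f, ← coeff_map φ h g, hfg]

lemma map_C (φ : S →+* S') (h : ∀ x, φ (σ x) = σ' (φ x)) (a : S) :
    map φ h (C a) = C (φ a) := by
  apply SL.ext; funext i
  rw [coeff_map, C_apply, C_apply, coeff_mon, coeff_mon]
  split_ifs <;> simp

lemma map_mon (φ : S →+* S') (h : ∀ x, φ (σ x) = σ' (φ x)) (a : S) (i : ℤ) :
    map φ h (mon a i) = mon (φ a) i := by
  apply SL.ext; funext n
  rw [coeff_map, coeff_mon, coeff_mon]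
  split_ifs <;> simp

end Map

end SL

end Crest.Agent.Lib.Kurosh
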