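import Mathlib
import Crest.Agent.Lib.Kurosh.PotCore
import Crest.Agent.Lib.Kurosh.SkewLaurent
import Crest.Agent.Lib.Kurosh.NCSeries
import Crest.Agent.Lib.Kurosh.PsiCore

/-!
# S0270: potentials and relations (blueprint sec 5(c)): abstract form

Everything is stated on `K̃ = SL (L0 ⊗ K) (s ⊗ 1)`. The value map `val_` and the direction derivations `D`
are hypotheses (`DirData`), to be instantiated with `value` and `dir` of `LevelUp.lean`.

* `Te e v = tr (Tr_K (v_e))`, cyclic when `m ∣ e` (`Te_comm`);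
* `tr_pot_eq_zero`: a relation `x = ∑ β_k ξ^k` gives `tr (∑_w P(w) dW(w)) = 0`, `P = potL g G`;
* `cycSum_potL_eq_zero`: hence all cyclic sums of `P` vanish in low degree (generic base) [H1];
* `lead_eq_zero`: Lemma Lead + C1: leading coefficient at level `k0 - 1 ≤ c < m` vanishes [H2].
-/

set_option autoImplicit false

open scoped TensorProduct

namespace Crest.Agent.Lib.Kurosh.Potential

open RatExt NCSeries PotCore

/-- `K̃`. -/
abbrev KT (Z K Y : Type) (m : ℕ) [Field Z] [Field K] [Algebra Z K] :=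
  SL (RL Z Y m K) (sR Z Y m K)

/-- Extended trace. -/
noncomputable abbrev lamK (Z K Y : Type) (m : ℕ) [Field Z] [Field K] [Algebra Z K] :
    RL Z Y m K →ₗ[L0 Z Y m] L0 Z Y m := lam Z Y m (Algebra.trace Z K)

variable {Y : Type} [Fintype Y] [DecidableEq Y]
variable {Z K : Type} [Field Z] [Field K] [Algebra Z K]
variable {m : ℕ}

omit [Fintype Y] [DecidableEq Y] in
lemma lamK_eq_trL (x : RL Z Y m K) : lamK Z K Y m x = Stab.trL (Z := Z) (K := K) (L0 Z Y m) x := by
  induction x using TensorProduct.induction_on with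
  | zero => simp
  | add a b ha hb => simp only [map_add, ha, hb]
  | tmul c a =>
    rw [lam_tmul, Stab.trL_tmul]

omit [Fintype Y] [DecidableEq Y] in
lemma zpow_eq_pow_sR [NeZero m] (z : ℤ) : ∃ n : ℕ, (sR Z Y m K) ^ z = (sR Z Y m K) ^ n := by
  have hm : ((m : ℤ)) ≠ 0 := by exact_mod_cast NeZero.ne m
  have h1 : (sR Z Y m K) ^ (m : ℤ) = 1 := by
    rw [zpow_natCast, sR_pow_m]
  refine ⟨(z % m).toNat, ?_⟩
  have h2 : z = (z % m).toNat + (m : ℤ) * (z / m) := by
    have h3 : ((z % m).toNat : ℤ) = z % m := Int.toNat_of_nonneg (Int.emod_nonneg _ hm)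
    rw [h3]
    exact (Int.emod_add_mul_ediv z m).symm
  conv_lhs => rw [h2]
  rw [zpow_add, zpow_mul, h1, one_zpow, mul_one, zpow_natCast]

omit [Fintype Y] [DecidableEq Y] in
lemma lam_pow_sR (n : ℕ) (x : RL Z Y m K) :
    lamK Z K Y m (((sR Z Y m K) ^ n) x) = (s Z Y m ^ n) (lamK Z K Y m x) := by
  induction n generalizing x with
  | zero => simp
  | succ n ih =>
    rw [pow_succ, RingAut.mul_apply, pow_succ, AlgEquiv.mul_apply, ih, lam_sR]

omit [Fintype Y] [DecidableEq Y] in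
/-- `tr ∘ Tr_K` is invariant under the powers of `s ⊗ 1`. -/
lemma tr_lam_zpow [NeZero m] (z : ℤ) (x : RL Z Y m K) :
    tr Z Y m (lamK Z K Y m (((sR Z Y m K) ^ z) x)) = tr Z Y m (lamK Z K Y m x) := by
  obtain ⟨n, hn⟩ := zpow_eq_pow_sR (Z := Z) (K := K) (Y := Y) (m := m) z
  rw [hn, lam_pow_sR, PotCore.tr_s_pow]

/-- The coefficient functional. -/
noncomputable def Te (e : ℤ) (v : KT Z K Y m) : L0 Z Y m := tr Z Y m (lamK Z K Y m (v.coeff e))

omit [Fintype Y] [DecidableEq Y] in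
lemma tr_add' (a b : L0 Z Y m) : tr Z Y m (a + b) = tr Z Y m a + tr Z Y m b := tr_add Z Y m a b

omit [Fintype Y] [DecidableEq Y] in
lemma tr_sum' {ι : Type*} (S : Finset ι) (F : ι → L0 Z Y m) :
    tr Z Y m (∑ i ∈ S, F i) = ∑ i ∈ S, tr Z Y m (F i) := by
  unfold tr
  rw [Finset.sum_comm]
  refine Finset.sum_congr rfl fun r _ => ?_
  rw [map_sum]

omit [Fintype Y] [DecidableEq Y] in
lemma tr_zero' : tr Z Y m (0 : L0 Z Y m) = 0 := by simp [tr]

omit [Fintype Y] [DecidableEq Y] in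
lemma Te_add (e : ℤ) (v v' : KT Z K Y m) : Te e (v + v') = Te e v + Te e v' := by
  simp [Te, SL.coeff_add, map_add, tr_add']

omit [Fintype Y] [DecidableEq Y] in
lemma Te_sum {ι : Type*} (e : ℤ) (S : Finset ι) (F : ι → KT Z K Y m) :
    Te e (∑ i ∈ S, F i) = ∑ i ∈ S, Te e (F i) := by
  classical
  induction S using Finset.induction_on with
  | empty =>
    simp [Te, tr_zero']
  | insert a S ha ih => rw [Finset.sum_insert ha, Finset.sum_insert ha, Te_add, ih]

omit [Fintype Y] [DecidableEq Y] in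
/-- Cyclicity. -/
lemma Te_comm [NeZero m] (e : ℤ) (he : (m : ℤ) ∣ e) (a b : KT Z K Y m) :
    Te e (a * b) = Te e (b * a) := by
  classical
  obtain ⟨a0, ha⟩ := SL.exists_LB a
  obtain ⟨b0, hb⟩ := SL.exists_LB b
  have hσ : ((sR Z Y m K) ^ e) = 1 := by
    obtain ⟨c, rfl⟩ := he
    rw [zpow_mul, zpow_natCast, sR_pow_m, one_zpow]
  unfold Te
  rw [SL.coeff_mul ha hb, SL.coeff_mul hb ha, map_sum, map_sum, tr_sum', tr_sum']
  refine Finset.sum_nbij' (fun i => e - i) (fun i => e - i) ?_ ?_ ?_ ?_ ?_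
  · intro i hi
    simp only [Finset.mem_Icc] at hi ⊢
    omega
  · intro i hi
    simp only [Finset.mem_Icc] at hi ⊢
    omega
  · intro i _; ring
  · intro i _; ring
  · intro i _
    rw [← tr_lam_zpow (Z := Z) (K := K) (Y := Y) (m := m) (e - i)]
    congr 2
    rw [map_mul, ← RingAut.mul_apply, ← zpow_add]
    have : e - i + i = e := by ring
    rw [this, hσ]
    have h2 : e - (e - i) = i := by ring
    rw [h2, mul_comm]
    rfl

omit [Fintype Y] [DecidableEq Y] in
/-- Fixed elements are central. -/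
lemma C_central (G : RL Z Y m K) (hG : sR Z Y m K G = G) (f : KT Z K Y m) :
    (SL.C G : KT Z K Y m) * f = f * SL.C G := by
  have hz : ∀ z : ℤ, ((sR Z Y m K) ^ z) G = G := by
    intro z
    have h1 : ∀ n : ℕ, ((sR Z Y m K) ^ n) G = G := by
      intro n
      induction n with
      | zero => rfl
      | succ n ih => rw [pow_succ, RingAut.mul_apply, hG, ih]
    cases z with
    | ofNat n => simpa using h1 n
    | negSucc n =>
      rw [zpow_negSucc]
      have h2 := h1 (n + 1)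
      change ((sR Z Y m K) ^ (n + 1)).symm G = G
      rw [RingEquiv.symm_apply_eq, h2]
  apply SL.ext
  funext n
  rw [SL.coeff_C_mul, SL.coeff_mul_C, hz, mul_comm]

omit [Fintype Y] [DecidableEq Y] in
lemma Te_nsmul (e : ℤ) (n : ℕ) (v : KT Z K Y m) : Te e (n • v) = n • Te e v := by
  induction n with
  | zero => simp [Te, tr_zero']
  | succ n ih => rw [succ_nsmul, succ_nsmul, Te_add, ih]

/-- The direction derivation data (to be instantiated by `dir` of `LevelUp`). -/
structure DirData (b x0 : Y → L0 Z Y m) (j : ℕ) (val_ : NCSeries Y K →+* KT Z K Y m)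
    (D : NCSeries Y K →+ KT Z K Y m) : Prop where
  leibniz : ∀ f f', D (f * f') = D f * val_ f' + val_ f * D f'
  lb : ∀ f, (D f).LB j
  coeff_eq : ∀ f (N : ℕ), (D f).coeff ((j : ℤ) + N) =
    ∑ w ∈ words (N + 1), dW Z m b x0 j w ⊗ₜ[Z] coeff w f

section Main

variable {b x0 : Y → L0 Z Y m} {j : ℕ} {val_ : NCSeries Y K →+* KT Z K Y m}
  {D : NCSeries Y K →+ KT Z K Y m}

omit [DecidableEq Y] [Fintype Y] in
/-- Leibniz for powers. -/
lemma D_pow (hL : ∀ f f', D (f * f') = D f * val_ f' + val_ f * D f') (g : NCSeries Y K) (k : ℕ) :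
    D (g ^ (k + 1)) = ∑ a ∈ Finset.range (k + 1), (val_ g) ^ a * D g * (val_ g) ^ (k - a) := by
  induction k with
  | zero => simp
  | succ k ih =>
    rw [pow_succ, hL, ih, Finset.sum_range_succ _ (k + 1), Finset.sum_mul, map_pow]
    congr 1
    · refine Finset.sum_congr rfl fun a ha => ?_
      have ha' := Finset.mem_range.1 ha
      have : k + 1 - a = (k - a) + 1 := by omega
      rw [this, pow_succ]
      noncomm_ring
    · simp

omit [DecidableEq Y] [Fintype Y] in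
lemma Te_C_D_pow [NeZero m] (hL : ∀ f f', D (f * f') = D f * val_ f' + val_ f * D f')
    (g : NCSeries Y K) (G : RL Z Y m K) (hG : sR Z Y m K G = G) (e : ℤ) (he : (m : ℤ) ∣ e) (k : ℕ) :
    Te e ((SL.C G : KT Z K Y m) * D (g ^ (k + 1))) =
      (k + 1) • Te e ((SL.C G : KT Z K Y m) * (val_ g) ^ k * D g) := by
  rw [D_pow hL, Finset.mul_sum, Te_sum]
  have hterm : ∀ a ∈ Finset.range (k + 1),
      Te e ((SL.C G : KT Z K Y m) * ((val_ g) ^ a * D g * (val_ g) ^ (k - a))) =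
        Te e ((SL.C G : KT Z K Y m) * (val_ g) ^ k * D g) := by
    intro a ha
    have ha' : a ≤ k := Nat.lt_succ_iff.1 (Finset.mem_range.1 ha)
    have e1 : (SL.C G : KT Z K Y m) * ((val_ g) ^ a * D g * (val_ g) ^ (k - a)) =
        ((SL.C G : KT Z K Y m) * (val_ g) ^ a * D g) * (val_ g) ^ (k - a) := by
      noncomm_ring
    rw [e1, Te_comm e he]
    congr 1
    have e2 : (val_ g) ^ (k - a) * ((SL.C G : KT Z K Y m) * (val_ g) ^ a * D g) =
        ((val_ g) ^ (k - a) * (SL.C G : KT Z K Y m)) * (val_ g) ^ a * D g := by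
      noncomm_ring
    rw [e2, ← C_central G hG, mul_assoc ((SL.C G : KT Z K Y m)), ← pow_add]
    have : k - a + a = k := by omega
    rw [this]
  rw [Finset.sum_congr rfl hterm]
  simp

omit [DecidableEq Y] [Fintype Y] in
lemma lam_mul_tmul (G : RL Z Y m K) (l : L0 Z Y m) (a : K) :
    lamK Z K Y m (G * (l ⊗ₜ[Z] a)) =
      l * Stab.trL (Z := Z) (K := K) (L0 Z Y m) (G * ((1 : L0 Z Y m) ⊗ₜ[Z] a)) := by
  have h : (l ⊗ₜ[Z] a : RL Z Y m K) = l • ((1 : L0 Z Y m) ⊗ₜ[Z] a) := by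
    rw [TensorProduct.smul_tmul', smul_eq_mul, mul_one]
  rw [h, mul_smul_comm, map_smul, smul_eq_mul, lamK_eq_trL]

/-- A relation gives the vanishing of the pairing with the potential. -/
theorem tr_pot_eq_zero [NeZero m] [CharZero Z] (h : DirData b x0 j val_ D) (g : NCSeries Y K)
    (x : KT Z K Y m) (β : ℕ → RL Z Y m K) (hβ : ∀ k, sR Z Y m K (β k) = β k) (N : ℕ)
    (hd : (m : ℤ) ∣ (j : ℤ) + N)
    (hexp : (x - ∑ k ∈ Finset.range (N + 1), (SL.C (β k) : KT Z K Y m) * (val_ g) ^ k).LB ((N : ℤ) + 1))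
    (hrel : Te ((j : ℤ) + N) (x * D g) = 0) :
    tr Z Y m (∑ w ∈ words (N + 1),
      Stab.potL (Z := Z) (K := K) (L0 Z Y m) g
        (fun n => ((n : L0 Z Y m)⁻¹) • β (n - 1)) w * dW Z m b x0 j w) = 0 := by
  classical
  haveI : CharZero (L0 Z Y m) := charZero_of_injective_algebraMap (algebraMap Z (L0 Z Y m)).injective
  set G : ℕ → RL Z Y m K := fun n => ((n : L0 Z Y m)⁻¹) • β (n - 1) with hGdef
  set e : ℤ := (j : ℤ) + N with he
  have hGfix : ∀ n, sR Z Y m K (G n) = G n := by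
    intro n
    simp only [hGdef, sR_smul]
    rw [hβ]
    congr 1
    simp
  -- step 1: remove the tail
  have hr : ((x - ∑ k ∈ Finset.range (N + 1), (SL.C (β k) : KT Z K Y m) * (val_ g) ^ k) * D g).coeff e = 0 := by
    apply (hexp.mul (h.lb g)) e
    rw [he]
    omega
  have h1 : Te e (x * D g) = ∑ k ∈ Finset.range (N + 1),
      Te e ((SL.C (β k) : KT Z K Y m) * (val_ g) ^ k * D g) := by
    have e1 : x * D g = (x - ∑ k ∈ Finset.range (N + 1), (SL.C (β k) : KT Z K Y m) * (val_ g) ^ k) * D g +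
        ∑ k ∈ Finset.range (N + 1), (SL.C (β k) : KT Z K Y m) * (val_ g) ^ k * D g := by
      rw [← Finset.sum_mul, ← add_mul, sub_add_cancel]
    rw [e1, Te_add, Te_sum]
    have : Te e ((x - ∑ k ∈ Finset.range (N + 1), (SL.C (β k) : KT Z K Y m) * (val_ g) ^ k) * D g) = 0 := by
      simp only [Te]
      rw [hr, map_zero, tr_zero']
    rw [this, zero_add]
  -- step 2: powers
  have h2 : ∀ k, Te e ((SL.C (β k) : KT Z K Y m) * (val_ g) ^ k * D g) =
      Te e ((SL.C (G (k + 1)) : KT Z K Y m) * D (g ^ (k + 1))) := by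
    intro k
    rw [Te_C_D_pow h.leibniz g (G (k + 1)) (hGfix _) e hd k, ← Te_nsmul]
    congr 1
    have hne : ((k + 1 : ℕ) : L0 Z Y m) ≠ 0 := Nat.cast_ne_zero.2 (Nat.succ_ne_zero k)
    have hβG : β k = (k + 1) • G (k + 1) := by
      simp only [hGdef, Nat.add_sub_cancel]
      rw [← Nat.cast_smul_eq_nsmul (L0 Z Y m), smul_smul, mul_inv_cancel₀ hne, one_smul]
    rw [hβG]
    have hc : (SL.C ((k + 1) • G (k + 1)) : KT Z K Y m) = (k + 1) • SL.C (G (k + 1)) := map_nsmul _ _ _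
    rw [hc]
    simp only [nsmul_eq_mul]
    noncomm_ring
  -- step 3: coefficient formula
  have h3 : ∀ n, Te e ((SL.C (G n) : KT Z K Y m) * D (g ^ n)) =
      tr Z Y m (∑ w ∈ words (N + 1), Stab.trL (Z := Z) (K := K) (L0 Z Y m)
        (G n * ((1 : L0 Z Y m) ⊗ₜ[Z] coeff w (g ^ n))) * dW Z m b x0 j w) := by
    intro n
    simp only [Te]
    rw [SL.coeff_C_mul, h.coeff_eq, Finset.mul_sum, map_sum]
    congr 1
    refine Finset.sum_congr rfl fun w _ => ?_
    rw [lam_mul_tmul, mul_comm]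
  rw [h1] at hrel
  simp only [h2, h3] at hrel
  rw [← tr_sum'] at hrel
  -- identify with potL
  rw [← hrel]
  congr 1
  rw [Finset.sum_comm]
  refine Finset.sum_congr rfl fun w hw => ?_
  have hlen := mem_words.1 hw
  rw [← Finset.sum_mul]
  congr 1
  simp only [Stab.potL, hlen]
  rw [Finset.sum_range_succ']
  have hzero : Stab.trL (Z := Z) (K := K) (L0 Z Y m) (G 0 * ((1 : L0 Z Y m) ⊗ₜ[Z] coeff w (g ^ 0))) = 0 := by
    have : coeff w (g ^ 0) = 0 := by
      rw [pow_zero]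
      cases w with
      | nil => simp at hlen
      | cons a v => rfl
    rw [this, TensorProduct.tmul_zero, mul_zero, map_zero]
  rw [hzero, add_zero]

/-- `s`-invariance of `potL`. -/
lemma potL_mem_Z0 [NeZero m] (g : NCSeries Y K) (G : ℕ → RL Z Y m K) (hG : ∀ n, sR Z Y m K (G n) = G n)
    (w : List Y) : Stab.potL (Z := Z) (K := K) (L0 Z Y m) g G w ∈ Z0 Z Y m := by
  unfold Stab.potL
  refine sum_mem fun n _ => ?_
  rw [mem_Z0, ← lamK_eq_trL, ← lam_sR, map_mul, hG]
  congr 2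
  simp

/-- **H1, abstract form.** For the generic base: a relation with expansion `β` has all cyclic sums of the
potential `P` vanishing in low degree. -/
theorem cycSum_potL_eq_zero [NeZero m] [CharZero Z] {val_ : NCSeries Y K →+* KT Z K Y m}
    (g : NCSeries Y K) (x : KT Z K Y m) (β : ℕ → RL Z Y m K) (hβ : ∀ k, sR Z Y m K (β k) = β k)
    (hexp : ∀ N : ℕ, (x - ∑ k ∈ Finset.range N, (SL.C (β k) : KT Z K Y m) * (val_ g) ^ k).LB (N : ℤ))
    (hD : ∀ (x0 : Y → L0 Z Y m) (j : ℕ) (N : ℕ), (m : ℤ) ∣ (j : ℤ) + N → 1 ≤ j → ∃ D : NCSeries Y K →+ KT Z K Y m,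
      DirData (T Z Y m 0) x0 j val_ D ∧ Te ((j : ℤ) + N) (x * D g) = 0)
    (N : ℕ) (hm : (Fintype.card Y) ^ N * N ≤ m) (y : Y) (v : List Y) (hv : v.length = N) :
    Stab.cycSum (Stab.potL (Z := Z) (K := K) (L0 Z Y m) g
        (fun n => ((n : L0 Z Y m)⁻¹) • β (n - 1))) (y :: v) = 0 := by
  classical
  haveI : CharZero (L0 Z Y m) := charZero_of_injective_algebraMap (algebraMap Z (L0 Z Y m)).injective
  have hmpos : 0 < m := Nat.pos_of_ne_zero (NeZero.ne m)
  -- choose j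
  let j : ℕ := m * (N + 1) - N
  have hjN : j + N = m * (N + 1) := by
    have : N ≤ m * (N + 1) := by nlinarith
    omega
  have hj1 : 1 ≤ j := by
    have : N + 1 ≤ m * (N + 1) := Nat.le_mul_of_pos_left _ hmpos
    omega
  have hdvd : (m : ℤ) ∣ (j : ℤ) + N := by
    have : ((j + N : ℕ) : ℤ) = (j : ℤ) + N := by push_cast; rfl
    rw [← this, hjN]
    exact ⟨((N + 1 : ℕ) : ℤ), by push_cast; ring⟩
  have hdvd' : m ∣ j + N := ⟨N + 1, hjN⟩
  have hGfix : ∀ n : ℕ, sR Z Y m K (((n : L0 Z Y m)⁻¹) • β (n - 1)) = ((n : L0 Z Y m)⁻¹) • β (n - 1) := by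
    intro n
    rw [sR_smul, hβ]
    congr 1
    simp
  refine cycSum_eq_zero_generic Z m _ (potL_mem_Z0 g _ hGfix) j N hdvd' hm ?_ y v hv
  intro x0
  obtain ⟨D, hDD, hrel⟩ := hD x0 j N hdvd hj1
  exact tr_pot_eq_zero hDD g x β hβ N hdvd (by simpa using hexp (N + 1)) hrel

end Main

/-! ### Instantiation on `PsiCore.Base` -/

section Inst

open PsiCore

variable [NeZero m] [CharZero Z]

/-- The ring hom `ι = 1 ⊗ · `. -/
noncomputable abbrev iotaR (Z K Y : Type) (m : ℕ) [Field Z] [Field K] [Algebra Z K] :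
    K →+* RL Z Y m K := (iota Z Y m K : K →ₐ[Z] RL Z Y m K).toRingHom

/-- A monomial base on `K̃` with base `b : Y → L0`. -/
abbrev MonBase (B : Base K (RL Z Y m K) (sR Z Y m K) Y) (b : Y → L0 Z Y m) : Prop :=
  IsMonBase B (fun y => iotaL Z Y m K (b y)) (iotaR Z K Y m)

/-- The direction `x0 ϖ^j`. -/
noncomputable abbrev monDir (x0 : Y → L0 Z Y m) (j : ℤ) : Y → KT Z K Y m :=
  fun y => SL.mon (iotaL Z Y m K (x0 y)) j

omit [Fintype Y] [DecidableEq Y] [NeZero m] [CharZero Z] in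
lemma iotaL_mul_iota (l : L0 Z Y m) (a : K) :
    iotaL Z Y m K l * iotaR Z K Y m a = l ⊗ₜ[Z] a := by
  simp [iotaL, iota, Algebra.TensorProduct.tmul_mul_tmul]

omit [Fintype Y] [DecidableEq Y] [NeZero m] [CharZero Z] in
lemma sR_zpow_iotaL (z : ℕ) (l : L0 Z Y m) :
    ((sR Z Y m K) ^ z) (iotaL Z Y m K l) = iotaL Z Y m K ((s Z Y m ^ z) l) := by
  induction z generalizing l with
  | zero => simp
  | succ z ih =>
    rw [pow_succ, RingAut.mul_apply, sR_iotaL, ih, pow_succ, AlgEquiv.mul_apply]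

omit [Fintype Y] [DecidableEq Y] [CharZero Z] in
lemma lw_iotaL (b : Y → L0 Z Y m) (w : List Y) :
    lw (sR Z Y m K) (fun y => iotaL Z Y m K (b y)) w = iotaL Z Y m K (lb Z m b w) := by
  induction w with
  | nil => simp [lw]
  | cons y w ih => simp [lw, lb, ih, sR_iotaL]

omit [Fintype Y] [DecidableEq Y] [CharZero Z] in
lemma zpow_natCast_apply (j : ℕ) (x : RL Z Y m K) :
    ((sR Z Y m K) ^ (j : ℤ)) x = ((sR Z Y m K) ^ j) x := by
  rw [zpow_natCast]

omit [Fintype Y] [DecidableEq Y] [CharZero Z] in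
lemma dw_iotaL (b x0 : Y → L0 Z Y m) (j : ℕ) (w : List Y) :
    dw (sR Z Y m K) (fun y => iotaL Z Y m K (b y)) (fun y => iotaL Z Y m K (x0 y)) (j : ℤ) w =
      iotaL Z Y m K (dW Z m b x0 j w) := by
  induction w with
  | nil => simp [dw]
  | cons y w ih =>
    simp only [dw, dW_cons, map_add, map_mul, ih, sR_iotaL, lw_iotaL, zpow_natCast_apply,
      sR_zpow_iotaL]

omit [DecidableEq Y] [NeZero m] [CharZero Z] in
lemma wordsLen_eq_words [DecidableEq Y] (n : ℕ) : (wordsLen n : Finset (List Y)) = words n := by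
  ext w
  rw [mem_wordsLen, mem_words]

/-- The direction derivative as an additive map. -/
noncomputable def dirHom (B : Base K (RL Z Y m K) (sR Z Y m K) Y) (x : Y → KT Z K Y m) :
    NCSeries Y K →+ KT Z K Y m where
  toFun f := B.dir x f
  map_zero' := by
    have h := B.dirW_add_f [x] (0 : NCSeries Y K) 0
    rw [add_zero] at h
    exact left_eq_add.1 h
  map_add' f g := B.dirW_add_f [x] f g

/-- The `DirData` of a monomial base. -/
theorem dirData_of_monBase {B : Base K (RL Z Y m K) (sR Z Y m K) Y} {b : Y → L0 Z Y m} (hB : MonBase B b)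
    (x0 : Y → L0 Z Y m) (j : ℕ) :
    DirData b x0 j B.valueHom (dirHom B (monDir x0 (j : ℤ))) where
  leibniz f f' := by
    have hcomm : ∀ r y, B.ρ r * (monDir (Z := Z) (K := K) x0 (j : ℤ)) y = monDir x0 (j : ℤ) y * B.ρ r := by
      intro r y
      rw [hB.ρ]
      simp only [monDir]
      have h1 : (SL.C (iotaR Z K Y m r) : KT Z K Y m) * SL.mon (iotaL Z Y m K (x0 y)) (j : ℤ) =
          SL.mon (iotaR Z K Y m r * iotaL Z Y m K (x0 y)) (j : ℤ) := SL.C_mul_mon _ _ _
      have h2 : (SL.mon (iotaL Z Y m K (x0 y)) (j : ℤ) : KT Z K Y m) * SL.C (iotaR Z K Y m r) =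
          SL.mon (iotaL Z Y m K (x0 y) * ((sR Z Y m K) ^ (j : ℤ)) (iotaR Z K Y m r)) (j : ℤ) :=
        SL.mon_mul_C _ _ _
      rw [h1, h2, hB.zpow_fix, mul_comm]
    show B.dir _ (f * f') = B.dir _ f * B.valueHom f' + B.valueHom f * B.dir _ f'
    rw [B.dir_mul _ hcomm, Base.valueHom_apply, Base.valueHom_apply, add_comm]
  lb f := hB.dir_LB f
  coeff_eq f N := by
    show (B.dir _ f).coeff ((j : ℤ) + N) = _
    rw [hB.coeff_dir, wordsLen_eq_words]
    refine Finset.sum_congr rfl fun w _ => ?_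
    rw [dw_iotaL, iotaL_mul_iota]

/-- **H1** on a monomial base with generic `b`: expansion and relation give vanishing cyclic sums. -/
theorem cycSum_of_monBase {B : Base K (RL Z Y m K) (sR Z Y m K) Y} (hB : MonBase B (T Z Y m 0))
    (g : NCSeries Y K) (x : KT Z K Y m) (β : ℕ → RL Z Y m K) (hβ : ∀ k, sR Z Y m K (β k) = β k)
    (hexp : ∀ N : ℕ, (x - ∑ k ∈ Finset.range N, (SL.C (β k) : KT Z K Y m) * (B.value g) ^ k).LB (N : ℤ))
    (hrel : ∀ (x0 : Y → L0 Z Y m) (j N : ℕ), (m : ℤ) ∣ (j : ℤ) + N → 1 ≤ j →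
      Te ((j : ℤ) + N) (x * B.dir (monDir x0 (j : ℤ)) g) = 0)
    (N : ℕ) (hm : (Fintype.card Y) ^ N * N ≤ m) (y : Y) (v : List Y) (hv : v.length = N) :
    Stab.cycSum (Stab.potL (Z := Z) (K := K) (L0 Z Y m) g
        (fun n => ((n : L0 Z Y m)⁻¹) • β (n - 1))) (y :: v) = 0 := by
  refine cycSum_potL_eq_zero (val_ := B.valueHom) g x β hβ ?_ ?_ N hm y v hv
  · intro N
    simpa only [Base.valueHom_apply] using hexp N
  · intro x0 j N hd hj
    exact ⟨dirHom B (monDir x0 (j : ℤ)), dirData_of_monBase hB x0 j, hrel x0 j N hd hj⟩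

omit [DecidableEq Y] in
/-- `a_j ≠ 0`. -/
lemma aRL_ne_zero [FiniteDimensional Z K] (f : Y → K) (hf : ∃ y, f y ≠ 0) (j : ZMod m) : Mono.aRL Z Y m f j ≠ 0 := by
  classical
  obtain ⟨y0, hy0⟩ := hf
  intro h0
  rw [← Mono.iotaPol_aPol] at h0
  have h1 : Mono.aPol Z Y m f j = 0 := by
    apply iotaPol_injective Z Y m K
    rw [h0, map_zero]
  have h2 := Mono.evalPol_aPol Z Y m f (fun p => if p = (j, y0) then 1 else 0) j
  rw [h1, map_zero] at h2
  rw [Finset.sum_eq_single y0] at h2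
  · simp only [if_true, one_smul] at h2
    exact hy0 h2.symm
  · intro y _ hne
    have : ¬ (j, y) = (j, y0) := fun h => hne (Prod.ext_iff.1 h).2
    simp [this]
  · simp

omit [DecidableEq Y] in
/-- The coefficient of `ξ` at `1`. -/
lemma coeff_value_one {B : Base K (RL Z Y m K) (sR Z Y m K) Y} (hB : MonBase B (T Z Y m 0))
    (g : NCSeries Y K) :
    (B.value g).coeff 1 = Mono.aRL Z Y m (fun y => coeff [y] g) 0 := by
  classical
  have h := hB.coeff_value 1 g
  simp only [Nat.cast_one] at h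
  rw [h, sum_wordsLen_succ]
  simp only [sum_wordsLen_zero, Mono.aRL]
  refine Finset.sum_congr rfl fun y _ => ?_
  simp only [lw, map_one, mul_one]
  exact iotaL_mul_iota _ _

omit [DecidableEq Y] in
/-- The coefficient of a monomial derivative at its bottom. -/
lemma coeff_dir_bottom {B : Base K (RL Z Y m K) (sR Z Y m K) Y} {b : Y → L0 Z Y m} (hB : MonBase B b)
    (x0 : Y → L0 Z Y m) (j : ℤ) (g : NCSeries Y K) :
    (B.dir (monDir x0 j) g).coeff j = ∑ y, x0 y ⊗ₜ[Z] coeff [y] g := by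
  classical
  have h := hB.coeff_dir (fun y => iotaL Z Y m K (x0 y)) j 0 g
  simp only [Nat.cast_zero, add_zero, zero_add] at h
  rw [h, sum_wordsLen_succ]
  simp only [sum_wordsLen_zero]
  refine Finset.sum_congr rfl fun y _ => ?_
  simp only [dw, lw, map_one, mul_one, map_zero, mul_zero, add_zero]
  exact iotaL_mul_iota _ _

/-- **H2 (Lemma Lead + C1).** `x` commuting with `ξ = value g`, `val x ≥ c`, `k0 - 1 ≤ c < m`, relation:
the coefficient of `x` at `c` vanishes. -/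
theorem lead_eq_zero [FiniteDimensional Z K] {B : Base K (RL Z Y m K) (sR Z Y m K) Y}
    (hB : MonBase B (T Z Y m 0))
    (g : NCSeries Y K) (hg0 : coeff [] g = 0) (x : KT Z K Y m) (c : ℕ) (hx : x.LB (c : ℤ))
    (hcomm : B.value g * x = x * B.value g)
    (w0 w1 : K) (hw0 : w0 ∈ Submodule.span Z (Set.range fun y => coeff [y] g))
    (hw1 : w1 ∈ Submodule.span Z (Set.range fun y => coeff [y] g)) (h0 : w0 ≠ 0)
    (hu : IntermediateField.adjoin Z {w1 / w0} = ⊤) (k0 : ℕ)
    (hk0 : (Submodule.span Z (Set.range fun y => coeff [y] g)) ^ k0 = ⊤)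
    (hm : (Module.finrank Z K) ^ (Module.finrank Z K + 1) ≤ m) (hk0c : k0 ≤ c + 1) (hcm : c + 1 ≤ m)
    (hrel : ∀ (x0 : Y → L0 Z Y m) (j : ℕ), (m : ℤ) ∣ (c : ℤ) + j → 1 ≤ j →
      Te ((c : ℤ) + j) (x * B.dir (monDir x0 (j : ℤ)) g) = 0) :
    x.coeff (c : ℤ) = 0 := by
  classical
  haveI : Infinite Z := inferInstance
  haveI : CharZero (L0 Z Y m) := charZero_of_injective_algebraMap (algebraMap Z (L0 Z Y m)).injective
  set f : Y → K := fun y => coeff [y] g with hf
  set xc : RL Z Y m K := x.coeff (c : ℤ) with hxc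
  have hmpos : 0 < m := Nat.pos_of_ne_zero (NeZero.ne m)
  -- f ≠ 0
  have hfne : ∃ y, f y ≠ 0 := by
    by_contra hcon
    push Not at hcon
    have : Submodule.span Z (Set.range fun y => coeff [y] g) = ⊥ := by
      rw [Submodule.span_eq_bot]
      rintro _ ⟨y, rfl⟩
      exact hcon y
    rw [this] at hw0
    exact h0 ((Submodule.mem_bot Z).1 hw0)
  -- choose j
  let j : ℕ := m * (c + 1) - c
  have hjc : c + j = m * (c + 1) := by
    have : c ≤ m * (c + 1) := by nlinarith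
    omega
  have hj1 : 1 ≤ j := by
    have : c + 1 ≤ m * (c + 1) := Nat.le_mul_of_pos_left _ hmpos
    omega
  have hdvd : (m : ℤ) ∣ (c : ℤ) + j := by
    have : ((c + j : ℕ) : ℤ) = (c : ℤ) + j := by push_cast; rfl
    rw [← this, hjc]
    exact ⟨((c + 1 : ℕ) : ℤ), by push_cast; ring⟩
  -- step 1: Tr_K (x_c f_y) = 0
  have hstep1 : ∀ y, lamK Z K Y m (xc * ((1 : L0 Z Y m) ⊗ₜ[Z] f y)) = 0 := by
    intro y
    apply PotCore.eq_zero_of_tr_mul Z m
    intro ξ
    let ξ' : L0 Z Y m := ((s Z Y m ^ c)⁻¹) ξ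
    have hξ' : (s Z Y m ^ c) ξ' = ξ := by
      simp only [ξ']
      rw [← AlgEquiv.mul_apply, mul_inv_cancel]
      rfl
    let x0 : Y → L0 Z Y m := fun y' => if y' = y then ξ' else 0
    have h1 := hrel x0 j hdvd hj1
    have hD := hB.dir_LB (xx := fun y => iotaL Z Y m K (x0 y)) (j := (j : ℤ)) g
    unfold Te at h1
    rw [SL.coeff_mul_add hx hD, coeff_dir_bottom hB x0 (j : ℤ) g, Finset.sum_eq_single y] at h1
    · simp only [x0, if_true] at h1
      have e2 : ((sR Z Y m K) ^ (c : ℤ)) (ξ' ⊗ₜ[Z] coeff [y] g) = ξ ⊗ₜ[Z] f y := by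
        rw [zpow_natCast, sR_pow_tmul, hξ']
      rw [e2, lam_mul_tmul, ← lamK_eq_trL, mul_comm] at h1
      exact h1
    · intro y' _ hne
      simp [x0, hne]
    · simp
  -- products
  let a : ℕ → RL Z Y m K := fun i => Mono.aRL Z Y m f (i : ZMod m)
  have hane : ∀ i, a i ≠ 0 := fun i => aRL_ne_zero f hfne _
  have hσa : ∀ i, sR Z Y m K (a i) = a (i + 1) := by
    intro i
    simp only [a]
    rw [Mono.sR_aRL]
    push_cast
    rfl
  let N : RL Z Y m K := ∏ i ∈ Finset.range c, a i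
  have hNne : N ≠ 0 := Finset.prod_ne_zero_iff.2 fun i _ => hane i
  obtain ⟨N', hN'⟩ := exists_mul_eq_one Z Y m K hNne
  -- b
  let b' : RL Z Y m K := xc * N'
  have hbN : b' * N = xc := by
    simp only [b']
    rw [mul_assoc, mul_comm N', hN', mul_one]
  -- the commutation
  have hξLB : (B.value g).LB 1 := by
    have h1 : g ∈ ordGE Y K 1 := by
      intro v hv
      have : v = [] := List.length_eq_zero_iff.1 (by omega)
      subst this
      exact hg0
    simpa using B.value_LB_order h1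
  have hξ1 : (B.value g).coeff 1 = a 0 := by
    rw [coeff_value_one hB g]
    simp [a, hf]
  have hcomm1 : a 0 * sR Z Y m K xc = xc * a c := by
    have h1 := congrArg (fun v : KT Z K Y m => v.coeff (1 + (c : ℤ))) hcomm
    rw [SL.coeff_mul_add hξLB hx, add_comm (1 : ℤ) (c : ℤ), SL.coeff_mul_add hx hξLB, hξ1] at h1
    have h2 : ((sR Z Y m K) ^ (c : ℤ)) (a 0) = a c := by
      rw [zpow_natCast]
      simp only [a]
      rw [Mono.sR_pow_aRL]
      simp
    rw [zpow_one, h2] at h1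
    exact h1
  have hNsucc : a 0 * sR Z Y m K N = N * a c := by
    simp only [N]
    rw [map_prod]
    have h1 : ∏ i ∈ Finset.range c, sR Z Y m K (a i) = ∏ i ∈ Finset.range c, a (i + 1) :=
      Finset.prod_congr rfl fun i _ => hσa i
    rw [h1, ← Finset.prod_range_succ, Finset.prod_range_succ' a c, mul_comm]
  have hbfix : sR Z Y m K b' = b' := by
    have h1 : (sR Z Y m K b' - b') * (a 0 * sR Z Y m K N) = 0 := by
      have hs : sR Z Y m K xc = sR Z Y m K b' * sR Z Y m K N := by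
        rw [← hbN, map_mul]
      have e1 : sR Z Y m K b' * (a 0 * sR Z Y m K N) = a 0 * sR Z Y m K xc := by
        rw [hs]
        ring
      have e2 : b' * (a 0 * sR Z Y m K N) = xc * a c := by
        rw [hNsucc, ← mul_assoc, hbN]
      rw [sub_mul, e1, e2, hcomm1, sub_self]
    have h2 : a 0 * sR Z Y m K N ≠ 0 :=
      mul_ne_zero (hane 0) (by
        intro h3
        exact hNne ((map_eq_zero_iff _ (sR Z Y m K).injective).1 h3))
    exact sub_eq_zero.1 ((mul_eq_zero.1 h1).resolve_right h2)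
  have hσb : ∀ n : ℕ, ((sR Z Y m K) ^ n) b' = b' := by
    intro n
    induction n with
    | zero => rfl
    | succ n ih => rw [pow_succ, RingAut.mul_apply, hbfix, ih]
  have hσι : ∀ (n : ℕ) (k : K), ((sR Z Y m K) ^ n) (iota Z Y m K k) = iota Z Y m K k := by
    intro n k
    induction n with
    | zero => rfl
    | succ n ih => rw [pow_succ, RingAut.mul_apply, sR_iota, ih]
  -- the functional vanishes on the spanning family
  have hspan := Mono.span_fN_of_C1 Z Y m f w0 w1 hw0 hw1 h0 hu k0 hk0 hm c hk0c hcm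
  let ψ : RL Z Y m K →ₗ[L0 Z Y m] L0 Z Y m :=
    (lamK Z K Y m).comp (LinearMap.mulLeft (L0 Z Y m) b')
  have hψ : ψ = 0 := by
    refine LinearMap.ext_on_range hspan ?_
    rintro ⟨y, r⟩
    show lamK Z K Y m (b' * (iota Z Y m K (f y) * ∏ i ∈ Finset.range c, Mono.aRL Z Y m f (r + (i : ZMod m)))) = 0
    obtain ⟨n, rfl⟩ : ∃ n : ℕ, (n : ZMod m) = r := ⟨r.val, by simp⟩
    have e1 : ∏ i ∈ Finset.range c, Mono.aRL Z Y m f ((n : ZMod m) + (i : ZMod m)) =
        ((sR Z Y m K) ^ n) N := by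
      simp only [N, map_prod, a]
      refine Finset.prod_congr rfl fun i _ => ?_
      rw [Mono.sR_pow_aRL, add_comm]
    have e2 : b' * (iota Z Y m K (f y) * ((sR Z Y m K) ^ n) N) =
        ((sR Z Y m K) ^ n) (xc * ((1 : L0 Z Y m) ⊗ₜ[Z] f y)) := by
      have e3 : ((1 : L0 Z Y m) ⊗ₜ[Z] f y : RL Z Y m K) = iota Z Y m K (f y) := rfl
      rw [e3, map_mul, hσι, ← hbN, map_mul, hσb]
      ring
    rw [e1, e2, lam_pow_sR, hstep1, map_zero]
  have hb0 : b' = 0 := by
    by_contra hne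
    obtain ⟨z, hz⟩ := exists_mul_eq_one Z Y m K hne
    have h1 : ψ z = 0 := by rw [hψ]; rfl
    have h2 : ψ z = lamK Z K Y m 1 := by
      show lamK Z K Y m (b' * z) = _
      rw [hz]
    rw [h2] at h1
    have h3 : (1 : RL Z Y m K) = (1 : L0 Z Y m) ⊗ₜ[Z] (1 : K) := rfl
    rw [h3, lam_tmul] at h1
    have h4 : Algebra.trace Z K 1 = (Module.finrank Z K : Z) := by
      have := Algebra.trace_algebraMap (R := Z) (S := K) (1 : Z)
      simpa using this
    rw [h4] at h1
    have hne0 : (Module.finrank Z K : Z) ≠ 0 := Nat.cast_ne_zero.2 Module.finrank_pos.ne'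
    exact (smul_ne_zero hne0 one_ne_zero) h1
  rw [← hbN, hb0, zero_mul]

end Inst

end Crest.Agent.Lib.Kurosh.Potential
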