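import Mathlib
import Crest.Agent.Lib.Kurosh.SkewLaurent
import Crest.Agent.Lib.Kurosh.RatExt
import Crest.Agent.Lib.Kurosh.PsiCore

/-!
# Abstract core of Lemma IND′ (blueprint section 2)

Setting: `E` a `Z`-algebra, `q : J → E` with centraliser `Z`, tangents `Φ : Y' → J → E` that are
`Z`-independent modulo inner derivations at `q`.

* `lead_core`: the leading-term comparison in `L0 ⊗ E`: an identity
  `∑ y, ℓ y ⊗ Φ y j = [1 ⊗ q j, u]` with `(id ⊗ ρ) u = 0` forces `ℓ = 0`, `u = 0`.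
* `ind_core`: the valuation induction in `SL (L0 ⊗ E) (s ⊗ 1)`: if `D j = [q' j, u]`, with `q' j ≡ q j`
  mod `ϖ`, `D` has the leading-term property in the direction `x` and `(id ⊗ ρ) u = 0` coefficientwise,
  then `x = 0`, `u = 0`.
-/

set_option autoImplicit false

open scoped TensorProduct

namespace Crest.Agent.Lib.Kurosh.IndCore

open RatExt

variable {Z : Type*} [Field Z] {Yb : Type*} {m : ℕ}
variable {E : Type*} [Ring E] [Algebra Z E]

section Functional

variable {M : Type*} [AddCommGroup M] [Module Z M]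

/-- The contraction `c ⊗ e ↦ λ(c) • e`. -/
noncomputable def contr (lam0 : M →ₗ[Z] Z) : M ⊗[Z] E →ₗ[Z] E :=
  (TensorProduct.lid Z E).toLinearMap ∘ₗ lam0.rTensor E

@[simp] theorem contr_tmul (lam0 : M →ₗ[Z] Z) (c : M) (e : E) :
    contr lam0 (c ⊗ₜ[Z] e) = lam0 c • e := by
  simp [contr]

/-- All contractions vanish only on zero. -/
theorem eq_zero_of_contr (x : M ⊗[Z] E) (h : ∀ lam0 : M →ₗ[Z] Z, contr lam0 x = 0) : x = 0 := by
  classical
  let b := Module.Basis.ofVectorSpace Z M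
  apply (TensorProduct.equivFinsuppOfBasisLeft b).injective
  rw [map_zero]
  ext i
  rw [TensorProduct.equivFinsuppOfBasisLeft_apply, Finsupp.zero_apply]
  exact h (b.coord i)

end Functional

section Left

/-- `contr` on `L0 ⊗ E` is left `E`-linear. -/
theorem contr_iota_mul (lam0 : L0 Z Yb m →ₗ[Z] Z) (r : E) (x : RL Z Yb m E) :
    contr lam0 (iota Z Yb m E r * x) = r * contr lam0 x := by
  induction x using TensorProduct.induction_on with
  | zero => simp
  | add a b ha hb => simp only [mul_add, map_add, ha, hb]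
  | tmul c e =>
    simp [iota, Algebra.TensorProduct.tmul_mul_tmul, contr_tmul]

/-- `contr` on `L0 ⊗ E` is right `E`-linear. -/
theorem contr_mul_iota (lam0 : L0 Z Yb m →ₗ[Z] Z) (r : E) (x : RL Z Yb m E) :
    contr lam0 (x * iota Z Yb m E r) = contr lam0 x * r := by
  induction x using TensorProduct.induction_on with
  | zero => simp
  | add a b ha hb => simp only [add_mul, map_add, ha, hb]
  | tmul c e =>
    simp [iota, Algebra.TensorProduct.tmul_mul_tmul, contr_tmul]

/-- Compatibility of the two contractions. -/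
theorem rho_contr (lam0 : L0 Z Yb m →ₗ[Z] Z) (ρ : E →ₗ[Z] Z) (x : RL Z Yb m E) :
    ρ (contr lam0 x) = lam0 (lam Z Yb m ρ x) := by
  induction x using TensorProduct.induction_on with
  | zero => simp
  | add a b ha hb => simp only [map_add, ha, hb]
  | tmul c e =>
    simp only [contr_tmul, map_smul, lam_tmul, smul_eq_mul]
    ring

end Left

variable {Y' J : Type*} [Fintype Y']

/-- **Leading-term comparison**. -/
theorem lead_core (q : J → E) (Φ : Y' → J → E)
    (hcent : ∀ e : E, (∀ j, q j * e = e * q j) → ∃ z : Z, e = algebraMap Z E z)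
    (hind : ∀ (a : Y' → Z) (e : E), (∀ j, ∑ y, a y • Φ y j = q j * e - e * q j) → ∀ y, a y = 0)
    (ρ : E →ₗ[Z] Z) (hρ : ρ 1 = 1)
    (ℓ : Y' → L0 Z Yb m) (u : RL Z Yb m E) (hu : lam Z Yb m ρ u = 0)
    (h : ∀ j, ∑ y, ℓ y ⊗ₜ[Z] Φ y j = iota Z Yb m E (q j) * u - u * iota Z Yb m E (q j)) :
    (∀ y, ℓ y = 0) ∧ u = 0 := by
  -- apply a functional
  have key : ∀ (lam0 : L0 Z Yb m →ₗ[Z] Z) (j : J),
      ∑ y, lam0 (ℓ y) • Φ y j = q j * contr lam0 u - contr lam0 u * q j := by
    intro lam0 j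
    have := congrArg (contr lam0) (h j)
    rw [map_sum, map_sub, contr_iota_mul, contr_mul_iota] at this
    simpa only [contr_tmul] using this
  have hℓ : ∀ y, ℓ y = 0 := by
    intro y
    rw [← Module.forall_dual_apply_eq_zero_iff Z (ℓ y)]
    intro lam0
    exact hind (fun y => lam0 (ℓ y)) (contr lam0 u) (key lam0) y
  refine ⟨hℓ, eq_zero_of_contr u fun lam0 => ?_⟩
  have hcomm : ∀ j, q j * contr lam0 u = contr lam0 u * q j := by
    intro j
    have := key lam0 j
    simp only [hℓ, map_zero, zero_smul, Finset.sum_const_zero] at this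
    exact sub_eq_zero.mp this.symm
  obtain ⟨z, hz⟩ := hcent _ hcomm
  have h1 : ρ (contr lam0 u) = 0 := by
    rw [rho_contr, hu, map_zero]
  rw [hz, Algebra.algebraMap_eq_smul_one, map_smul, hρ, smul_eq_mul, mul_one] at h1
  rw [hz, h1, map_zero]

/-- The twist `(s ⊗ 1)^v` fixes `1 ⊗ E`. -/
theorem sR_zpow_iota (v : ℤ) (r : E) :
    (sR Z Yb m E ^ v) (iota Z Yb m E r) = iota Z Yb m E r := by
  have h1 : ∀ n : ℕ, (sR Z Yb m E ^ n) (iota Z Yb m E r) = iota Z Yb m E r := by
    intro n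
    induction n with
    | zero => rfl
    | succ n ih =>
      rw [pow_succ]
      change (sR Z Yb m E ^ n) (sR Z Yb m E (iota Z Yb m E r)) = _
      rw [sR_iota, ih]
  cases v with
  | ofNat n => simpa using h1 n
  | negSucc n =>
    rw [zpow_negSucc]
    change ((sR Z Yb m E ^ (n + 1))⁻¹) (iota Z Yb m E r) = _
    have := h1 (n + 1)
    exact (RingEquiv.symm_apply_eq _).mpr this.symm

/-- **IND′ core**: valuation induction. -/
theorem ind_core (q : J → E) (Φ : Y' → J → E)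
    (hcent : ∀ e : E, (∀ j, q j * e = e * q j) → ∃ z : Z, e = algebraMap Z E z)
    (hind : ∀ (a : Y' → Z) (e : E), (∀ j, ∑ y, a y • Φ y j = q j * e - e * q j) → ∀ y, a y = 0)
    (ρ : E →ₗ[Z] Z) (hρ : ρ 1 = 1)
    (q' : J → SL (RL Z Yb m E) (sR Z Yb m E)) (hq' : ∀ j, (q' j).LB 0)
    (hq0 : ∀ j, (q' j).coeff 0 = iota Z Yb m E (q j))
    (x : Y' → ℤ → L0 Z Yb m) (hx0 : ∃ v₀ : ℤ, ∀ y i, i < v₀ → x y i = 0)
    (D : J → SL (RL Z Yb m E) (sR Z Yb m E))
    (hlead : ∀ v : ℤ, (∀ y i, i < v → x y i = 0) →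
      ∀ j, (D j).coeff v = ∑ y, x y v ⊗ₜ[Z] Φ y j)
    (u : SL (RL Z Yb m E) (sR Z Yb m E)) (hρu : ∀ i, lam Z Yb m ρ (u.coeff i) = 0)
    (hD : ∀ j, D j = q' j * u - u * q' j) :
    (∀ y i, x y i = 0) ∧ u = 0 := by
  obtain ⟨v₀, hv₀⟩ := hx0
  obtain ⟨v₁, hv₁⟩ := u.exists_LB
  -- the common lower bound
  set v₂ := min v₀ v₁ with hv₂
  have hbase : (∀ y i, i < v₂ → x y i = 0) ∧ u.LB v₂ :=
    ⟨fun y i hi => hv₀ y i (lt_of_lt_of_le hi (min_le_left _ _)),
      fun i hi => hv₁ i (lt_of_lt_of_le hi (min_le_right _ _))⟩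
  have hstep : ∀ v : ℤ, ((∀ y i, i < v → x y i = 0) ∧ u.LB v) →
      ((∀ y i, i < v + 1 → x y i = 0) ∧ u.LB (v + 1)) := by
    rintro v ⟨h1, h2⟩
    have hl := lead_core (Yb := Yb) (m := m) q Φ hcent hind ρ hρ (fun y => x y v) (u.coeff v) (hρu v)
      (fun j => by
        rw [← hlead v h1 j, hD j, SL.coeff_sub]
        have e1 := SL.coeff_mul_add (hq' j) h2
        have e2 := SL.coeff_mul_add h2 (hq' j)
        rw [zero_add, zpow_zero, hq0 j] at e1
        rw [add_zero, hq0 j, sR_zpow_iota] at e2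
        rw [e1, e2]
        rfl)
    constructor
    · intro y i hi
      rcases lt_or_eq_of_le (Int.lt_add_one_iff.mp hi) with hlt | rfl
      · exact h1 y i hlt
      · exact hl.1 y
    · intro i hi
      rcases lt_or_eq_of_le (Int.lt_add_one_iff.mp hi) with hlt | rfl
      · exact h2 i hlt
      · exact hl.2
  have hall : ∀ k : ℕ, (∀ y i, i < v₂ + k → x y i = 0) ∧ u.LB (v₂ + k) := by
    intro k
    induction k with
    | zero => simpa using hbase
    | succ k ih =>
      have := hstep _ ih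
      simpa [add_assoc] using this
  have hlarge : ∀ i : ℤ, ∃ k : ℕ, i < v₂ + k := by
    intro i
    refine ⟨(i - v₂ + 1).toNat, ?_⟩
    have := Int.self_le_toNat (i - v₂ + 1)
    omega
  constructor
  · intro y i
    obtain ⟨k, hk⟩ := hlarge i
    exact (hall k).1 y i hk
  · apply SL.ext
    funext i
    obtain ⟨k, hk⟩ := hlarge i
    exact (hall k).2 i hk

section Base

open PsiCore NCSeries

variable {Y : Type*} [Fintype Y]

/-- The leading coefficient of a directional derivative in a direction of val `≥ v`. -/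
theorem coeff_dir_lead {R S : Type*} [Ring R] [Ring S] {σ : RingAut S}
    {B : Base R S σ Y} {b : Y → S} {ι : R →+* S} (h : IsMonBase B b ι)
    {x : Y → SL S σ} {v : ℤ} (hx : ∀ y, (x y).LB v) (f : NCS R Y) :
    (B.dir x f).coeff v = ∑ y, (x y).coeff v * ι (coeff [y] f) := by
  rw [B.dir_rec, SL.coeff_add, SL.coeff_sum, SL.coeff_sum]
  have h2 : ∀ y, (B.τ y * B.dir x (dl y f)).coeff v = 0 := by
    intro y
    have h3 : ∀ g : NCS R Y, (B.dir x g).LB v := by
      intro g
      have := dirW_cons_LB (B := B) (x := x) (xs := []) (a := v) (c := 0) hx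
        (fun f => B.value_LB f) g
      simpa using this
    have := (B.hτ y).mul (h3 (dl y f))
    exact this v (by omega)
  simp only [h2, Finset.sum_const_zero, add_zero]
  refine Finset.sum_congr rfl fun y _ => ?_
  have e1 := SL.coeff_mul_add (hx y) (B.value_LB (dl y f))
  rw [add_zero] at e1
  rw [e1]
  have e2 := h.coeff_value 0 (dl y f)
  simp only [sum_wordsLen_zero, lw, one_mul, Nat.cast_zero, coeff_dl] at e2
  rw [e2, h.zpow_fix]

/-- **IND′** for a monomial base over `L0 ⊗ E`. -/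
theorem ind_base [Nontrivial E] {B : Base E (RL Z Yb m E) (sR Z Yb m E) Y} {b : Y → RL Z Yb m E}
    (hB : IsMonBase B b ((iota Z Yb m E : E →ₐ[Z] RL Z Yb m E) : E →+* RL Z Yb m E))
    (Φ : J → NCS E Y)
    (hcent : ∀ e : E, (∀ j, coeff [] (Φ j) * e = e * coeff [] (Φ j)) → ∃ z : Z, e = algebraMap Z E z)
    (hind : ∀ (a : Y → Z) (e : E),
      (∀ j, ∑ y, a y • coeff [y] (Φ j) = coeff [] (Φ j) * e - e * coeff [] (Φ j)) → ∀ y, a y = 0)
    (ρ : E →ₗ[Z] Z) (hρ : ρ 1 = 1)
    (x : Y → SL (RL Z Yb m E) (sR Z Yb m E)) (ξ : Y → ℤ → L0 Z Yb m)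
    (hξ : ∀ y i, (x y).coeff i = iotaL Z Yb m E (ξ y i))
    (u : SL (RL Z Yb m E) (sR Z Yb m E)) (hρu : ∀ i, lam Z Yb m ρ (u.coeff i) = 0)
    (hD : ∀ j, B.dir x (Φ j) = B.value (Φ j) * u - u * B.value (Φ j)) :
    (∀ y, x y = 0) ∧ u = 0 := by
  obtain ⟨a, ha⟩ := exists_LB_fintype x
  have hinj : Function.Injective (iotaL Z Yb m E) := iotaL_injective Z Yb m E
  have hlead : ∀ v : ℤ, (∀ y i, i < v → ξ y i = 0) →
      ∀ j, (B.dir x (Φ j)).coeff v = ∑ y, ξ y v ⊗ₜ[Z] coeff [y] (Φ j) := by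
    intro v hv j
    have hxv : ∀ y, (x y).LB v := fun y i hi => by rw [hξ, hv y i hi, map_zero]
    rw [coeff_dir_lead hB hxv]
    refine Finset.sum_congr rfl fun y _ => ?_
    rw [hξ]
    simp [iotaL, iota]
  have hval0 : ∀ j, (B.value (Φ j)).coeff 0 = iota Z Yb m E (coeff [] (Φ j)) := by
    intro j
    have := hB.coeff_value 0 (Φ j)
    simpa [lw] using this
  obtain ⟨h1, h2⟩ := ind_core (Y' := Y) (fun j => coeff [] (Φ j)) (fun y j => coeff [y] (Φ j))
    hcent hind ρ hρ (fun j => B.value (Φ j)) (fun j => B.value_LB _) hval0 ξ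
    ⟨a, fun y i hi => hinj (by rw [← hξ, ha y i hi, map_zero])⟩
    (fun j => B.dir x (Φ j)) hlead u hρu hD
  refine ⟨fun y => ?_, h2⟩
  apply SL.ext
  funext i
  rw [hξ, h1 y i, map_zero]
  rfl

end Base

end Crest.Agent.Lib.Kurosh.IndCore
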