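import Mathlib
import Crest.Agent.Lib.Kurosh.SkewLaurent

/-!
# Lemma Kp: the centraliser of an element of `SL L s`

`L` is a field, `s` a ring automorphism of `L`.  Let `ζ ∈ SL L s` have valuation `1`.
Then the centraliser of `ζ` is commutative and each element of it has a unique expansion
`∑_{i ≥ i₀} β_i ζ^i` with `β_i` fixed by `s`.  For `ξ` of valuation `d` coprime to `m` with
`s ^ m = 1`, the Bezout element `ζ = ξ^u ϖ^(m v)` has valuation `1` and the same centraliser.

Also: convergent sums of series in `SL S σ`; the trace `T (∑ c_i ϖ^i) = ∑_{m ∣ i} tr (c_i) ϖ^i`.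
-/

set_option autoImplicit false

namespace Crest.Agent.Lib.Kurosh.KPrime

open Finset Crest.Agent.Lib.Kurosh Crest.Agent.Lib.Kurosh.SL

/-! ### Convergent sums -/

section Sum

variable {S : Type*} [Ring S] {σ : RingAut S}

/-- The sum of a sequence `f k` with `(f k).LB (a + k)`; coefficient `i` is the sum of the
coefficients `(f k).coeff i` for `k ≤ i - a`. -/
noncomputable def seriesSum (f : ℕ → SL S σ) (a : ℤ) : SL S σ where
  coeff i := ∑ k ∈ range (i - a + 1).toNat, (f k).coeff i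
  bdd' := ⟨a, fun i hi => by
    have : (i - a + 1).toNat = 0 := by omega
    rw [this, range_zero, sum_empty]⟩

lemma lB_sum {ι : Type*} (t : Finset ι) (f : ι → SL S σ) (a : ℤ) (h : ∀ k ∈ t, (f k).LB a) :
    (∑ k ∈ t, f k).LB a := by
  classical
  induction t using Finset.induction_on with
  | empty => simpa using lB_zero a
  | insert x t hx ih =>
    rw [sum_insert hx]
    exact (h x (mem_insert_self _ _)).add (ih fun k hk => h k (mem_insert_of_mem hk))

@[simp] lemma coeff_sum {ι : Type*} (t : Finset ι) (f : ι → SL S σ) (i : ℤ) :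
    (∑ k ∈ t, f k).coeff i = ∑ k ∈ t, (f k).coeff i := by
  classical
  induction t using Finset.induction_on with
  | empty => simp
  | insert x t hx ih => rw [sum_insert hx, sum_insert hx, coeff_add, ih]

/-- The defining property of `seriesSum`: the tails are small. -/
lemma lB_seriesSum_sub (f : ℕ → SL S σ) (a : ℤ) (hf : ∀ k, (f k).LB (a + k)) (N : ℕ) :
    (seriesSum f a - ∑ k ∈ range N, f k).LB (a + N) := by
  intro i hi
  rw [coeff_sub, coeff_sum]
  show ∑ k ∈ range (i - a + 1).toNat, (f k).coeff i - _ = 0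
  by_cases h0 : i < a
  · have h1 : (i - a + 1).toNat = 0 := by omega
    rw [h1, range_zero, sum_empty, zero_sub, neg_eq_zero]
    exact sum_eq_zero fun k _ => hf k i (by omega)
  · have hle : (i - a + 1).toNat ≤ N := by omega
    rw [sub_eq_zero]
    apply sum_subset (range_subset_range.mpr hle)
    intro k _ hk
    rw [mem_range, not_lt] at hk
    exact hf k i (by omega)

lemma lB_seriesSum (f : ℕ → SL S σ) (a : ℤ) (hf : ∀ k, (f k).LB (a + k)) :
    (seriesSum f a).LB a := by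
  simpa using lB_seriesSum_sub f a hf 0

/-- A series with `LB` at every level vanishes. -/
lemma eq_zero_of_forall_LB {g : SL S σ} (h : ∀ N : ℤ, g.LB N) : g = 0 := by
  apply SL.ext
  funext i
  exact h (i + 1) i (by omega)

/-- Uniqueness of the sum. -/
lemma eq_seriesSum {f : ℕ → SL S σ} {a : ℤ} (hf : ∀ k, (f k).LB (a + k)) {g : SL S σ}
    (hg : ∀ N : ℕ, (g - ∑ k ∈ range N, f k).LB (a + N)) : g = seriesSum f a := by
  rw [← sub_eq_zero]
  apply eq_zero_of_forall_LB
  intro M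
  have key : ∀ N : ℕ, (g - seriesSum f a).LB (a + N) := by
    intro N
    have : g - seriesSum f a =
        (g - ∑ k ∈ range N, f k) - (seriesSum f a - ∑ k ∈ range N, f k) := by abel
    rw [this]
    exact (hg N).sub (lB_seriesSum_sub f a hf N)
  refine (key (M - a).toNat).mono ?_
  omega

end Sum

/-! ### Valuation of powers -/

section Val

variable {S : Type*} [DivisionRing S] {σ : RingAut S}

lemma val_one : val (1 : SL S σ) = 0 :=
  val_eq_of (by rw [coeff_one, if_pos rfl]; exact one_ne_zero) lB_one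

lemma val_inv {f : SL S σ} (hf : f ≠ 0) : val f⁻¹ = - val f := by
  have h := val_mul hf (inv_ne_zero hf)
  rw [mul_inv_cancel₀ hf, val_one] at h
  omega

lemma val_zpow {f : SL S σ} (hf : f ≠ 0) (k : ℤ) : val (f ^ k) = k * val f := by
  induction k using Int.induction_on with
  | zero => simp [val_one]
  | succ n ih =>
    rw [zpow_add_one₀ hf, val_mul (zpow_ne_zero _ hf) hf, ih]; ring
  | pred n ih =>
    rw [zpow_sub_one₀ hf, val_mul (zpow_ne_zero _ hf) (inv_ne_zero hf), ih, val_inv hf]; ring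

lemma lB_zpow {f : SL S σ} (hf : f ≠ 0) (k : ℤ) : (f ^ k).LB (k * val f) := by
  rw [← val_zpow hf]
  exact lB_val _

lemma lB_zpow_of_val_one {f : SL S σ} (hf : f ≠ 0) (h1 : val f = 1) (k : ℤ) : (f ^ k).LB k := by
  have := lB_zpow hf k
  rwa [h1, mul_one] at this

lemma val_ne_zero_ne {f : SL S σ} (h : val f ≠ 0) : f ≠ 0 := by
  rintro rfl
  apply h
  rw [SL.val, dif_pos rfl]

end Val

/-! ### Central constants -/

section Fixed

variable {L : Type*} [Field L] {s : RingAut L}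

lemma zpow_apply_fixed {b : L} (hb : s b = b) (n : ℤ) : (s ^ n) b = b := by
  have hb' : s⁻¹ b = b := by
    conv_lhs => rw [← hb]
    exact RingEquiv.symm_apply_apply s b
  induction n using Int.induction_on with
  | zero => simp
  | succ n ih =>
    rw [zpow_add_apply, zpow_one, hb, ih]
  | pred n ih =>
    have : (-(n : ℤ) - 1) = -(n : ℤ) + (-1) := by ring
    rw [this, zpow_add_apply, zpow_neg_one, hb', ih]

/-- `C b` is central when `b` is fixed. -/
lemma C_comm_of_fixed {b : L} (hb : s b = b) (f : SL L s) : (C b : SL L s) * f = f * C b := by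
  apply SL.ext
  funext n
  rw [coeff_C_mul, coeff_mul_C, zpow_apply_fixed hb, mul_comm]

/-- If `c` commutes with `ζ` of valuation `1` and has `LB 0`, its residue is fixed by `s`. -/
lemma coeff_zero_fixed {ζ c : SL L s} (hζ : ζ ≠ 0) (h1 : val ζ = 1) (hc : c.LB 0)
    (h : ζ * c = c * ζ) : s (c.coeff 0) = c.coeff 0 := by
  have hζLB : ζ.LB 1 := h1 ▸ lB_val ζ
  have hne : ζ.coeff 1 ≠ 0 := h1 ▸ coeff_val_ne hζ
  have e1 := coeff_mul_add hζLB hc
  have e2 := coeff_mul_add hc hζLB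
  rw [h] at e1
  rw [add_comm (0 : ℤ) 1, e1] at e2
  simp only [zpow_zero, zpow_one, RingAut.one_apply] at e2
  have e3 : ζ.coeff 1 * s (c.coeff 0) = ζ.coeff 1 * c.coeff 0 := by
    rw [e2, mul_comm]
  exact mul_left_cancel₀ hne e3

end Fixed

/-! ### The centraliser and the expansion -/

section Expansion

variable {L : Type*} [Field L] {s : RingAut L}

/-- The centraliser `K' = C(ξ)` in `SL L s` (the same subring as used in the Hensel file). -/
noncomputable abbrev Cent (ξ : SL L s) : Subring (SL L s) := Subring.centralizer ({ξ} : Set (SL L s))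

lemma mem_Cent {ξ c : SL L s} : c ∈ Cent ξ ↔ ξ * c = c * ξ := by
  rw [Subring.mem_centralizer_iff]
  simp

lemma self_mem_Cent (ξ : SL L s) : ξ ∈ Cent ξ := mem_Cent.mpr rfl

lemma C_mem_Cent {b : L} (hb : s b = b) (ξ : SL L s) : (C b : SL L s) ∈ Cent ξ :=
  mem_Cent.mpr (C_comm_of_fixed hb ξ).symm

lemma zpow_mem_Cent {ξ c : SL L s} (hc : c ∈ Cent ξ) (k : ℤ) : c ^ k ∈ Cent ξ := by
  have h : Commute ξ c := mem_Cent.mp hc
  exact mem_Cent.mpr (h.zpow_right₀ k)

lemma inv_mem_Cent {ξ c : SL L s} (hc : c ∈ Cent ξ) : c⁻¹ ∈ Cent ξ := by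
  simpa using zpow_mem_Cent hc (-1)

/-- `zpow`s of `ξ` have the same (or a larger) centraliser. -/
lemma mem_Cent_zpow {ξ c : SL L s} (hc : c ∈ Cent ξ) (k : ℤ) : c ∈ Cent (ξ ^ k) := by
  have h : Commute ξ c := mem_Cent.mp hc
  exact mem_Cent.mpr (h.zpow_left₀ k)

/-- One peeling step. -/
lemma peel {ζ c : SL L s} (hζ : ζ ≠ 0) (h1 : SL.val ζ = 1) (hc : c ∈ Cent ζ) {n : ℤ}
    (hn : c.LB n) : ∃ b, s b = b ∧ (c - C b * ζ ^ n).LB (n + 1) := by
  set d := c * ζ ^ (-n) with hd
  have hdLB : d.LB 0 := by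
    have := hn.mul (lB_zpow_of_val_one hζ h1 (-n))
    rwa [add_neg_cancel] at this
  have hmem : d ∈ Cent ζ := (Cent ζ).mul_mem hc (zpow_mem_Cent (self_mem_Cent ζ) _)
  refine ⟨d.coeff 0, coeff_zero_fixed hζ h1 hdLB (mem_Cent.mp hmem), ?_⟩
  have e : c - C (d.coeff 0) * ζ ^ n = (d - C (d.coeff 0)) * ζ ^ n := by
    rw [sub_mul, hd, mul_assoc, ← zpow_add₀ hζ]
    simp
  rw [e]
  have h2 : (d - C (d.coeff 0)).LB 1 := by
    intro i hi
    rw [coeff_sub, C_apply, coeff_mon]
    by_cases h0 : i = 0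
    · subst h0
      simp
    · rw [if_neg h0, sub_zero]
      exact hdLB i (by omega)
  have := h2.mul (lB_zpow_of_val_one hζ h1 n)
  rwa [add_comm] at this

/-- `β` is the expansion `∑_{k ≥ 0} β_k ζ^(n+k)` of `c`. -/
structure IsExpansion (ζ c : SL L s) (n : ℤ) (β : ℕ → L) : Prop where
  fixed : ∀ k, s (β k) = β k
  approx : ∀ N : ℕ, (c - ∑ k ∈ range N, C (β k) * ζ ^ (n + k)).LB (n + N)

/-- Every element of the centraliser of `ζ` (of valuation `1`) has an expansion. -/
theorem exists_expansion {ζ c : SL L s} (hζ : ζ ≠ 0) (h1 : SL.val ζ = 1) (hc : c ∈ Cent ζ) {n : ℤ}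
    (hn : c.LB n) : ∃ β : ℕ → L, IsExpansion ζ c n β := by
  classical
  -- the state after `k` steps
  let P : ℕ → SL L s → Prop := fun k x => x ∈ Cent ζ ∧ x.LB (n + k)
  have step : ∀ (k : ℕ) (x : SL L s), P k x →
      ∃ b, s b = b ∧ P (k + 1) (x - C b * ζ ^ (n + k)) := by
    intro k x hx
    obtain ⟨b, hb, hLB⟩ := peel hζ h1 hx.1 hx.2
    refine ⟨b, hb, (Cent ζ).sub_mem hx.1 ((Cent ζ).mul_mem (C_mem_Cent hb ζ)
      (zpow_mem_Cent (self_mem_Cent ζ) _)), ?_⟩
    push_cast
    rwa [← add_assoc]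
  -- the sequence of remainders
  let seq : (k : ℕ) → {x : SL L s // P k x} := fun k =>
    Nat.rec (motive := fun k => {x : SL L s // P k x})
      ⟨c, hc, by simpa using hn⟩
      (fun k x => ⟨x.1 - C (Classical.choose (step k x.1 x.2)) * ζ ^ (n + k),
        (Classical.choose_spec (step k x.1 x.2)).2⟩) k
  let β : ℕ → L := fun k => Classical.choose (step k (seq k).1 (seq k).2)
  have hfixed : ∀ k, s (β k) = β k := fun k =>
    (Classical.choose_spec (step k (seq k).1 (seq k).2)).1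
  have hseq : ∀ N, (seq N).1 = c - ∑ k ∈ range N, C (β k) * ζ ^ (n + k) := by
    intro N
    induction N with
    | zero => simp [seq]
    | succ N ih =>
      rw [sum_range_succ, ← sub_sub, ← ih]
  refine ⟨β, hfixed, fun N => ?_⟩
  rw [← hseq]
  exact (seq N).2.2

lemma coeff_zpow_self_ne {ζ : SL L s} (hζ : ζ ≠ 0) (h1 : SL.val ζ = 1) (k : ℤ) :
    (ζ ^ k).coeff k ≠ 0 := by
  have h := coeff_val_ne (zpow_ne_zero k hζ)
  rwa [val_zpow hζ, h1, mul_one] at h

lemma lB_C_mul_zpow {ζ : SL L s} (hζ : ζ ≠ 0) (h1 : SL.val ζ = 1) (b : L) (k : ℤ) :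
    (C b * ζ ^ k : SL L s).LB k := by
  have := (lB_zero 1 : (0 : SL L s).LB 1)
  intro i hi
  rw [coeff_C_mul, lB_zpow_of_val_one hζ h1 k i hi, mul_zero]

/-- Coefficient test: `b ζ^k` has `LB (k+1)` only when `b = 0`. -/
lemma eq_zero_of_lB_C_mul_zpow {ζ : SL L s} (hζ : ζ ≠ 0) (h1 : SL.val ζ = 1) {b : L} {k : ℤ}
    (h : (C b * ζ ^ k : SL L s).LB (k + 1)) : b = 0 := by
  have h2 := h k (by omega)
  rw [coeff_C_mul] at h2
  exact (mul_eq_zero.mp h2).resolve_right (coeff_zpow_self_ne hζ h1 k)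

namespace IsExpansion

variable {ζ c c' : SL L s} {n : ℤ} {β β' : ℕ → L}

/-- `c` has `LB (n+k)` iff the first `k` coefficients of its expansion vanish. -/
lemma lB_iff (h : IsExpansion ζ c n β) (hζ : ζ ≠ 0) (h1 : SL.val ζ = 1) (k : ℕ) :
    c.LB (n + k) ↔ ∀ j < k, β j = 0 := by
  constructor
  · intro hc j
    induction j using Nat.strong_induction_on with
    | _ j ih =>
      intro hj
      have hsum : ∑ i ∈ range (j + 1), (C (β i) * ζ ^ (n + i) : SL L s) = C (β j) * ζ ^ (n + j) := by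
        rw [sum_range_succ, sum_eq_zero, zero_add]
        intro i hi
        rw [ih i (mem_range.mp hi) (by have := mem_range.mp hi; omega), map_zero, zero_mul]
      have h2 := h.approx (j + 1)
      rw [hsum] at h2
      have hc' : c.LB (n + (j + 1 : ℕ)) := hc.mono (by push_cast; omega)
      have h3 : (C (β j) * ζ ^ (n + j) : SL L s).LB (n + (j + 1 : ℕ)) := by
        have := hc'.sub h2
        simpa using this
      refine eq_zero_of_lB_C_mul_zpow hζ h1 (k := n + j) ?_
      convert h3 using 1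
      push_cast
      ring
  · intro h0
    have h2 := h.approx k
    rwa [sum_eq_zero, sub_zero] at h2
    intro i hi
    rw [h0 i (mem_range.mp hi), map_zero, zero_mul]

/-- Uniqueness of the expansion. -/
theorem unique (h : IsExpansion ζ c n β) (h' : IsExpansion ζ c n β') (hζ : ζ ≠ 0)
    (h1 : SL.val ζ = 1) : β = β' := by
  funext k
  induction k using Nat.strong_induction_on with
  | _ k ih =>
    have e : ∑ i ∈ range k, (C (β i) * ζ ^ (n + i) : SL L s)
        = ∑ i ∈ range k, (C (β' i) * ζ ^ (n + i) : SL L s) := by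
      refine sum_congr rfl fun i hi => ?_
      rw [ih i (mem_range.mp hi)]
    have a1 := h.approx (k + 1)
    have a2 := h'.approx (k + 1)
    rw [sum_range_succ, e] at a1
    rw [sum_range_succ] at a2
    have a3 := a2.sub a1
    have e2 : (c - (∑ i ∈ range k, (C (β' i) * ζ ^ (n + i) : SL L s) + C (β' k) * ζ ^ (n + k))) -
        (c - (∑ i ∈ range k, (C (β' i) * ζ ^ (n + i) : SL L s) + C (β k) * ζ ^ (n + k))) =
        C (β k - β' k) * ζ ^ (n + k) := by
      rw [map_sub, sub_mul]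
      abel
    rw [e2] at a3
    exact sub_eq_zero.mp (eq_zero_of_lB_C_mul_zpow hζ h1 (k := n + k)
      (by convert a3 using 1; push_cast; ring))

/-- `c = 0` iff all coefficients of its expansion vanish. -/
lemma eq_zero_iff (h : IsExpansion ζ c n β) (hζ : ζ ≠ 0) (h1 : SL.val ζ = 1) :
    c = 0 ↔ ∀ k, β k = 0 := by
  constructor
  · rintro rfl k
    exact (h.lB_iff hζ h1 (k + 1)).mp (lB_zero _) k (by omega)
  · intro h0
    apply eq_zero_of_forall_LB
    intro M
    refine ((h.lB_iff hζ h1 (M - n).toNat).mpr fun j _ => h0 j).mono ?_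
    omega

/-- If `k` is the first index with nonzero coefficient, then `val c = n + k`. -/
lemma val_eq (h : IsExpansion ζ c n β) (hζ : ζ ≠ 0) (h1 : SL.val ζ = 1) {k : ℕ}
    (h0 : ∀ j < k, β j = 0) (hk : β k ≠ 0) : SL.val c = n + k := by
  have hc : c ≠ 0 := fun e => hk ((h.eq_zero_iff hζ h1).mp e k)
  apply le_antisymm
  · by_contra hlt
    push Not at hlt
    have : c.LB (n + (k + 1 : ℕ)) := (lB_val c).mono (by push_cast; omega)
    exact hk ((h.lB_iff hζ h1 (k + 1)).mp this k (by omega))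
  · exact val_ge_of_LB hc ((h.lB_iff hζ h1 k).mpr h0)

/-- Leading coefficient. -/
lemma coeff_lead (h : IsExpansion ζ c n β) {k : ℕ}
    (h0 : ∀ j < k, β j = 0) : c.coeff (n + k) = β k * (ζ ^ (n + (k : ℤ))).coeff (n + k) := by
  have hsum : ∑ i ∈ range (k + 1), (C (β i) * ζ ^ (n + i) : SL L s) = C (β k) * ζ ^ (n + k) := by
    rw [sum_range_succ, sum_eq_zero, zero_add]
    intro i hi
    rw [h0 i (mem_range.mp hi), map_zero, zero_mul]
  have h2 := h.approx (k + 1)
  rw [hsum] at h2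
  have h3 := h2 (n + k) (by push_cast; omega)
  rw [coeff_sub, coeff_C_mul, sub_eq_zero] at h3
  exact h3

/-- The tail of an expansion. -/
lemma tail (h : IsExpansion ζ c n β) (t : ℕ) :
    IsExpansion ζ (c - ∑ k ∈ range t, C (β k) * ζ ^ (n + k)) (n + t) (fun k => β (t + k)) := by
  refine ⟨fun k => h.fixed _, fun N => ?_⟩
  have e : c - ∑ k ∈ range t, C (β k) * ζ ^ (n + k) -
      ∑ k ∈ range N, C (β (t + k)) * ζ ^ (n + t + k) =
      c - ∑ k ∈ range (t + N), C (β k) * ζ ^ (n + k) := by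
    rw [sum_range_add, sub_sub]
    congr 2
    refine sum_congr rfl fun k _ => ?_
    push_cast
    rw [add_assoc]
  rw [e]
  have := h.approx (t + N)
  push_cast at this ⊢
  rwa [← add_assoc] at this

lemma add (h : IsExpansion ζ c n β) (h' : IsExpansion ζ c' n β') :
    IsExpansion ζ (c + c') n (fun k => β k + β' k) := by
  refine ⟨fun k => by rw [map_add, h.fixed, h'.fixed], fun N => ?_⟩
  have e : c + c' - ∑ k ∈ range N, (C (β k + β' k) * ζ ^ (n + k) : SL L s) =
      (c - ∑ k ∈ range N, C (β k) * ζ ^ (n + k)) +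
        (c' - ∑ k ∈ range N, C (β' k) * ζ ^ (n + k)) := by
    have : ∀ k, (C (β k + β' k) * ζ ^ (n + (k : ℤ)) : SL L s) =
        C (β k) * ζ ^ (n + k) + C (β' k) * ζ ^ (n + k) := fun k => by
      rw [map_add, add_mul]
    simp only [this, sum_add_distrib]
    abel
  rw [e]
  exact (h.approx N).add (h'.approx N)

lemma neg (h : IsExpansion ζ c n β) : IsExpansion ζ (-c) n (fun k => - β k) := by
  refine ⟨fun k => by rw [map_neg, h.fixed], fun N => ?_⟩
  have e : -c - ∑ k ∈ range N, (C (- β k) * ζ ^ (n + k) : SL L s) =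
      -(c - ∑ k ∈ range N, C (β k) * ζ ^ (n + k)) := by
    simp only [map_neg, neg_mul, sum_neg_distrib]
    abel
  rw [e]
  exact (h.approx N).neg

lemma sub (h : IsExpansion ζ c n β) (h' : IsExpansion ζ c' n β') :
    IsExpansion ζ (c - c') n (fun k => β k - β' k) := by
  have := h.add h'.neg
  simpa [sub_eq_add_neg] using this

/-- Scaling by a fixed constant. -/
lemma const_mul (h : IsExpansion ζ c n β) {b : L} (hb : s b = b) :
    IsExpansion ζ (C b * c) n (fun k => b * β k) := by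
  refine ⟨fun k => by rw [map_mul, hb, h.fixed], fun N => ?_⟩
  have e : C b * c - ∑ k ∈ range N, (C (b * β k) * ζ ^ (n + k) : SL L s) =
      C b * (c - ∑ k ∈ range N, C (β k) * ζ ^ (n + k)) := by
    rw [mul_sub, mul_sum]
    congr 1
    refine sum_congr rfl fun k _ => ?_
    rw [map_mul, mul_assoc]
  rw [e]
  intro i hi
  rw [coeff_C_mul, h.approx N i hi, mul_zero]

/-- The expansion of a power of `ζ`. -/
lemma zpow_self (hζ : ζ ≠ 0) (h1 : SL.val ζ = 1) (k : ℕ) : IsExpansion ζ (ζ ^ (n + (k : ℤ))) n (fun j => if j = k then 1 else 0) := by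
  refine ⟨fun j => ?_, fun N => ?_⟩
  · by_cases h : j = k
    · simp [h]
    · simp [h]
  · by_cases hN : k < N
    · have : ∑ j ∈ range N, (C (if j = k then (1 : L) else 0) * ζ ^ (n + j) : SL L s) =
          ζ ^ (n + (k : ℤ)) := by
        rw [sum_eq_single k]
        · simp
        · intro j _ hj
          simp [hj]
        · intro hk
          exact absurd (mem_range.mpr hN) hk
      rw [this, sub_self]
      exact lB_zero _
    · have : ∑ j ∈ range N, (C (if j = k then (1 : L) else 0) * ζ ^ (n + j) : SL L s) = 0 := by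
        refine sum_eq_zero fun j hj => ?_
        have : j ≠ k := by have := mem_range.mp hj; omega
        simp [this]
      rw [this, sub_zero]
      exact (lB_zpow_of_val_one hζ h1 _).mono (by omega)

end IsExpansion

/-- Members of the centraliser of `ζ` commute (Lemma Kp: the centraliser is a field). -/
theorem Cent_comm {ζ c c' : SL L s} (hζ : ζ ≠ 0) (h1 : SL.val ζ = 1) (hc : c ∈ Cent ζ)
    (hc' : c' ∈ Cent ζ) : c * c' = c' * c := by
  obtain ⟨n, hn⟩ := c.exists_LB
  obtain ⟨n', hn'⟩ := c'.exists_LB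
  obtain ⟨β, hβ⟩ := exists_expansion hζ h1 hc hn
  rw [← sub_eq_zero]
  apply eq_zero_of_forall_LB
  intro M
  set N : ℕ := (M - n - n').toNat with hN
  set S : SL L s := ∑ k ∈ range N, C (β k) * ζ ^ (n + k) with hS
  have hScomm : S * c' = c' * S := by
    rw [hS, sum_mul, mul_sum]
    refine sum_congr rfl fun k _ => ?_
    have a1 : (C (β k) : SL L s) * c' = c' * C (β k) := C_comm_of_fixed (hβ.fixed k) c'
    have a2 : ζ ^ (n + (k : ℤ)) * c' = c' * ζ ^ (n + (k : ℤ)) :=
      (show Commute ζ c' from mem_Cent.mp hc').zpow_left₀ _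
    rw [mul_assoc, a2, ← mul_assoc, a1, mul_assoc]
  have e : c * c' - c' * c = (c - S) * c' - c' * (c - S) := by
    rw [sub_mul, mul_sub, hScomm]
    abel
  rw [e]
  have hr : (c - S).LB (n + N) := hβ.approx N
  have h2 : ((c - S) * c').LB (n + N + n') := hr.mul hn'
  have h3 : (c' * (c - S)).LB (n' + (n + N)) := hn'.mul hr
  have h4 : (c' * (c - S)).LB (n + N + n') := by rwa [add_comm] at h3
  refine (h2.sub h4).mono ?_
  omega

/-- The element with a given expansion: `∑_{k ≥ 0} β_k ζ^(n+k)`. -/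
noncomputable def evalSeries (ζ : SL L s) (n : ℤ) (β : ℕ → L) : SL L s :=
  seriesSum (fun k => C (β k) * ζ ^ (n + k)) n

/-- `evalSeries` is the element with the expansion `β`. -/
lemma isExpansion_evalSeries {ζ : SL L s} (hζ : ζ ≠ 0) (h1 : SL.val ζ = 1) (n : ℤ) {β : ℕ → L}
    (hβ : ∀ k, s (β k) = β k) : IsExpansion ζ (evalSeries ζ n β) n β :=
  ⟨hβ, fun N => lB_seriesSum_sub _ n (fun _ => lB_C_mul_zpow hζ h1 _ _) N⟩

lemma lB_evalSeries {ζ : SL L s} (hζ : ζ ≠ 0) (h1 : SL.val ζ = 1) (n : ℤ) (β : ℕ → L) :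
    (evalSeries ζ n β).LB n :=
  lB_seriesSum _ n (fun _ => lB_C_mul_zpow hζ h1 _ _)

/-- An element with an expansion in `ζ` lies in the centraliser of `ζ`. -/
lemma IsExpansion.mem_Cent {ζ c : SL L s} {n : ℤ} {β : ℕ → L} (h : IsExpansion ζ c n β)
    (h1 : SL.val ζ = 1) : c ∈ Cent ζ := by
  rw [KPrime.mem_Cent, ← sub_eq_zero]
  apply eq_zero_of_forall_LB
  intro M
  set N : ℕ := (M - n - 1).toNat with hN
  set S : SL L s := ∑ k ∈ range N, C (β k) * ζ ^ (n + k) with hS
  have hScomm : ζ * S = S * ζ := by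
    rw [hS, sum_mul, mul_sum]
    refine sum_congr rfl fun k _ => ?_
    have a1 : (C (β k) : SL L s) * ζ = ζ * C (β k) := C_comm_of_fixed (h.fixed k) ζ
    have a2 : ζ ^ (n + (k : ℤ)) * ζ = ζ * ζ ^ (n + (k : ℤ)) :=
      ((Commute.refl ζ).zpow_left₀ _)
    calc ζ * (C (β k) * ζ ^ (n + (k : ℤ))) = (ζ * C (β k)) * ζ ^ (n + (k : ℤ)) :=
          (mul_assoc _ _ _).symm
      _ = (C (β k) * ζ) * ζ ^ (n + (k : ℤ)) := by rw [a1]
      _ = C (β k) * (ζ * ζ ^ (n + (k : ℤ))) := mul_assoc _ _ _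
      _ = C (β k) * (ζ ^ (n + (k : ℤ)) * ζ) := by rw [a2]
      _ = _ := (mul_assoc _ _ _).symm
  have e : ζ * c - c * ζ = ζ * (c - S) - (c - S) * ζ := by
    rw [sub_mul, mul_sub, hScomm]
    abel
  rw [e]
  have hr : (c - S).LB (n + N) := h.approx N
  have hz : ζ.LB 1 := h1 ▸ lB_val ζ
  have h2 : (ζ * (c - S)).LB (1 + (n + N)) := hz.mul hr
  have h3 : ((c - S) * ζ).LB (n + N + 1) := hr.mul hz
  rw [add_comm] at h3
  refine (h2.sub h3).mono ?_
  omega

end Expansion

/-! ### `ϖ^m` and the Bezout element -/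

section Bezout

variable {L : Type*} [Field L] {s : RingAut L}

lemma ϖz_ne_zero (i : ℤ) : (ϖz i : SL L s) ≠ 0 := by
  intro h
  have := congrArg (fun f => SL.coeff f i) h
  simp [ϖz] at this

lemma val_ϖz (i : ℤ) : SL.val (ϖz i : SL L s) = i :=
  val_eq_of (by simp [ϖz]) (lB_mon _ _)

/-- `ϖ^(m k)` is central when `s ^ m = 1`. -/
lemma ϖz_comm {m : ℕ} (hm : s ^ m = 1) (k : ℤ) (f : SL L s) :
    (ϖz ((m : ℤ) * k) : SL L s) * f = f * ϖz ((m : ℤ) * k) := by
  apply SL.ext
  funext n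
  rw [coeff_ϖz_mul, coeff_mul_ϖz, zpow_mul, zpow_natCast, hm, one_zpow]
  rfl

lemma ϖz_mem_Cent {m : ℕ} (hm : s ^ m = 1) (k : ℤ) (ξ : SL L s) :
    (ϖz ((m : ℤ) * k) : SL L s) ∈ Cent ξ :=
  mem_Cent.mpr (ϖz_comm hm k ξ).symm

/-- The Bezout element `ζ = ξ^u ϖ^(m v)`. -/
noncomputable def bezout (ξ : SL L s) (m : ℕ) (u v : ℤ) : SL L s := ξ ^ u * ϖz ((m : ℤ) * v)

lemma bezout_ne_zero {ξ : SL L s} (hξ : ξ ≠ 0) (m : ℕ) (u v : ℤ) : bezout ξ m u v ≠ 0 :=
  mul_ne_zero (zpow_ne_zero _ hξ) (ϖz_ne_zero _)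

/-- The Bezout element has valuation `1`. -/
lemma val_bezout {ξ : SL L s} (hξ : ξ ≠ 0) {m : ℕ} {u v : ℤ}
    (huv : u * SL.val ξ + (m : ℤ) * v = 1) : SL.val (bezout ξ m u v) = 1 := by
  rw [bezout, val_mul (zpow_ne_zero _ hξ) (ϖz_ne_zero _), val_zpow hξ, val_ϖz, huv]

/-- `C(ξ) = C(ζ)` for the Bezout element. -/
theorem Cent_bezout {ξ : SL L s} (hξ : ξ ≠ 0) {m : ℕ} (hm : s ^ m = 1) {u v : ℤ}
    (huv : u * SL.val ξ + (m : ℤ) * v = 1) : Cent ξ = Cent (bezout ξ m u v) := by
  have hζ := bezout_ne_zero hξ m u v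
  have h1 := val_bezout hξ huv
  apply le_antisymm
  · intro c hc
    rw [mem_Cent] at hc ⊢
    have h2 : ξ ^ u * c = c * ξ ^ u := (show Commute ξ c from hc).zpow_left₀ u
    rw [bezout, mul_assoc, ϖz_comm hm v c, ← mul_assoc, h2, mul_assoc]
  · intro c hc
    have hξmem : ξ ∈ Cent (bezout ξ m u v) := by
      rw [mem_Cent, bezout]
      have a2 : ξ ^ u * ξ = ξ * ξ ^ u := (Commute.refl ξ).zpow_left₀ u
      calc ξ ^ u * ϖz ((m : ℤ) * v) * ξ = ξ ^ u * (ϖz ((m : ℤ) * v) * ξ) := mul_assoc _ _ _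
        _ = ξ ^ u * (ξ * ϖz ((m : ℤ) * v)) := by rw [ϖz_comm hm v ξ]
        _ = (ξ ^ u * ξ) * ϖz ((m : ℤ) * v) := (mul_assoc _ _ _).symm
        _ = (ξ * ξ ^ u) * ϖz ((m : ℤ) * v) := by rw [a2]
        _ = _ := mul_assoc _ _ _
    rw [mem_Cent]
    exact Cent_comm hζ h1 hξmem hc

/-- The centraliser of `ξ` of valuation coprime to `m` (`s ^ m = 1`) is commutative. -/
theorem Cent_comm_of_coprime {ξ c c' : SL L s} (hξ : ξ ≠ 0) {m : ℕ} (hm : s ^ m = 1)
    (hcop : IsCoprime (SL.val ξ) (m : ℤ)) (hc : c ∈ Cent ξ) (hc' : c' ∈ Cent ξ) :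
    c * c' = c' * c := by
  obtain ⟨u, v, huv⟩ := hcop
  rw [Cent_bezout hξ hm (u := u) (v := v) (by linarith)] at hc hc'
  exact Cent_comm (bezout_ne_zero hξ m u v) (val_bezout hξ (by linarith)) hc hc'

/-- The expansion in the Bezout element: existence for all elements of `K' = C(ξ)`. -/
theorem exists_expansion_of_coprime {ξ c : SL L s} (hξ : ξ ≠ 0) {m : ℕ} (hm : s ^ m = 1)
    {u v : ℤ} (huv : u * SL.val ξ + (m : ℤ) * v = 1) (hc : c ∈ Cent ξ) {n : ℤ} (hn : c.LB n) :
    ∃ β : ℕ → L, IsExpansion (bezout ξ m u v) c n β := by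
  rw [Cent_bezout hξ hm huv] at hc
  exact exists_expansion (bezout_ne_zero hξ m u v) (val_bezout hξ huv) hc hn

/-- The residue of a `val ≥ 0` element of `K' = C(ξ)`, `val ξ` coprime to `m`, is `s`-fixed. -/
theorem coeff_zero_fixed_of_coprime {ξ c : SL L s} (hξ : ξ ≠ 0) {m : ℕ} (hm : s ^ m = 1)
    (hcop : IsCoprime (SL.val ξ) (m : ℤ)) (hc : c ∈ Cent ξ) (h0 : c.LB 0) :
    s (c.coeff 0) = c.coeff 0 := by
  obtain ⟨u, v, huv⟩ := hcop
  have huv' : u * SL.val ξ + (m : ℤ) * v = 1 := by linarith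
  rw [Cent_bezout hξ hm huv'] at hc
  exact coeff_zero_fixed (bezout_ne_zero hξ m u v) (val_bezout hξ huv') h0 (mem_Cent.mp hc)

/-- The `Field` structure on a commutative centraliser. -/
@[reducible] noncomputable def centField (ξ : SL L s)
    (hcomm : ∀ c c' : SL L s, c ∈ Cent ξ → c' ∈ Cent ξ → c * c' = c' * c) : Field (Cent ξ) :=
  { (inferInstance : Ring (Cent ξ)) with
    mul_comm := fun a b => Subtype.ext (hcomm a.1 b.1 a.2 b.2)
    inv := fun a => ⟨a.1⁻¹, inv_mem_Cent a.2⟩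
    inv_zero := Subtype.ext inv_zero
    exists_pair_ne := ⟨0, 1, fun h => zero_ne_one (congrArg Subtype.val h)⟩
    mul_inv_cancel := fun a ha => Subtype.ext
      (mul_inv_cancel₀ (fun h => ha (Subtype.ext h)))
    nnqsmul := _
    nnqsmul_def := fun _ _ => rfl
    qsmul := _
    qsmul_def := fun _ _ => rfl }

/-- `K' = C(ξ)` as a field, `val ξ` coprime to `m`, `s ^ m = 1`. -/
@[reducible] noncomputable def fieldOfCoprime {ξ : SL L s} (hξ : ξ ≠ 0) {m : ℕ} (hm : s ^ m = 1)
    (hcop : IsCoprime (SL.val ξ) (m : ℤ)) : Field (Cent ξ) :=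
  centField ξ fun _ _ hc hc' => Cent_comm_of_coprime hξ hm hcop hc hc'

end Bezout

/-! ### The trace `T (∑ c_i ϖ^i) = ∑_{m ∣ i} tr (c_i) ϖ^i` -/

section Trace

variable {L : Type*} [Field L] {s : RingAut L} {m : ℕ}

/-- The trace `tr x = ∑_{j<m} s^j x` (`s ^ m = 1`). -/
def trL (m : ℕ) (s : RingAut L) (x : L) : L := ∑ j ∈ range m, (s ^ j) x

lemma trL_add (x y : L) : trL m s (x + y) = trL m s x + trL m s y := by
  simp [trL, sum_add_distrib]

lemma trL_zero : trL m s 0 = 0 := by simp [trL]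

lemma trL_neg (x : L) : trL m s (-x) = - trL m s x := by simp [trL]

lemma trL_sub (x y : L) : trL m s (x - y) = trL m s x - trL m s y := by
  simp [trL, sum_sub_distrib]

lemma trL_sum {ι : Type*} (t : Finset ι) (f : ι → L) :
    trL m s (∑ i ∈ t, f i) = ∑ i ∈ t, trL m s (f i) := by
  simp only [trL, map_sum]
  exact sum_comm

lemma trL_s (hm : s ^ m = 1) (x : L) : trL m s (s x) = trL m s x := by
  have h1 : ∀ j : ℕ, (s ^ j) (s x) = (s ^ (j + 1)) x := fun j => by
    rw [pow_succ]; rfl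
  simp only [trL, h1]
  have a1 := sum_range_succ' (fun j => (s ^ j) x) m
  have a2 := sum_range_succ (fun j => (s ^ j) x) m
  rw [a1] at a2
  simp only [hm, pow_zero, RingAut.one_apply] at a2
  exact add_right_cancel a2

lemma trL_zpow (hm : s ^ m = 1) (i : ℤ) (x : L) : trL m s ((s ^ i) x) = trL m s x := by
  induction i using Int.induction_on generalizing x with
  | zero => simp
  | succ n ih =>
    rw [zpow_add_apply, zpow_one, ih]
    exact trL_s hm x
  | pred n ih =>
    have e : (-(n : ℤ) - 1) = -(n : ℤ) + (-1) := by ring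
    rw [e, zpow_add_apply, ih, zpow_neg_one]
    have := trL_s hm (s⁻¹ x)
    rw [← this]
    congr 1
    exact RingEquiv.apply_symm_apply s x

lemma s_trL (hm : s ^ m = 1) (x : L) : s (trL m s x) = trL m s x := by
  conv_rhs => rw [← trL_s hm x]
  simp only [trL, map_sum]
  refine sum_congr rfl fun j _ => ?_
  have : ∀ (k : ℕ) (y : L), s ((s ^ k) y) = (s ^ k) (s y) := by
    intro k y
    have h1 : s * s ^ k = s ^ k * s := (Commute.refl s).pow_right k
    exact congrArg (fun g : RingAut L => g y) h1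
  exact this j x

lemma trL_const_mul {b : L} (hb : s b = b) (x : L) : trL m s (b * x) = b * trL m s x := by
  simp only [trL, mul_sum, map_mul]
  refine sum_congr rfl fun j _ => ?_
  have := zpow_apply_fixed hb j
  simp only [zpow_natCast] at this
  rw [this]

lemma trL_fixed {b : L} (hb : s b = b) : trL m s b = (m : L) * b := by
  have : ∀ j ∈ range m, (s ^ j) b = b := fun j _ => by
    have := zpow_apply_fixed hb j
    simpa only [zpow_natCast] using this
  rw [trL, sum_congr rfl this, sum_const, card_range, nsmul_eq_mul]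

/-- `T (∑ c_i ϖ^i) = ∑_{m ∣ i} tr (c_i) ϖ^i`. -/
noncomputable def T (m : ℕ) (f : SL L s) : SL L s where
  coeff i := if (m : ℤ) ∣ i then trL m s (f.coeff i) else 0
  bdd' := by
    obtain ⟨a, ha⟩ := f.exists_LB
    refine ⟨a, fun i hi => ?_⟩
    rw [ha i hi, trL_zero, ite_self]

lemma coeff_T (f : SL L s) (i : ℤ) :
    (T m f).coeff i = if (m : ℤ) ∣ i then trL m s (f.coeff i) else 0 := rfl

lemma T_add (x y : SL L s) : T m (x + y) = T m x + T m y := by
  apply SL.ext
  funext i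
  rw [coeff_add, coeff_T, coeff_T, coeff_T, coeff_add]
  split_ifs
  · exact trL_add _ _
  · simp

lemma T_zero : T m (0 : SL L s) = 0 := by
  apply SL.ext
  funext i
  rw [coeff_T]
  simp [trL_zero]

lemma T_neg (x : SL L s) : T m (-x) = - T m x := by
  apply SL.ext
  funext i
  rw [coeff_neg, coeff_T, coeff_T, coeff_neg]
  split_ifs
  · exact trL_neg _
  · simp

lemma T_sub (x y : SL L s) : T m (x - y) = T m x - T m y := by
  rw [sub_eq_add_neg, T_add, T_neg, ← sub_eq_add_neg]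

lemma T_sum {ι : Type*} (t : Finset ι) (f : ι → SL L s) :
    T m (∑ i ∈ t, f i) = ∑ i ∈ t, T m (f i) := by
  classical
  induction t using Finset.induction_on with
  | empty => simp [T_zero]
  | insert x t hx ih => rw [sum_insert hx, sum_insert hx, T_add, ih]

lemma LB.T {f : SL L s} {a : ℤ} (h : f.LB a) : (T m f).LB a := by
  intro i hi
  rw [coeff_T, h i hi, trL_zero, ite_self]

lemma zpow_eq_one_of_dvd (hm : s ^ m = 1) {i : ℤ} (h : (m : ℤ) ∣ i) : s ^ i = 1 := by
  obtain ⟨k, rfl⟩ := h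
  rw [zpow_mul, zpow_natCast, hm, one_zpow]

/-- The trace is cyclic. -/
theorem T_mul_comm (hm : s ^ m = 1) (x y : SL L s) : T m (x * y) = T m (y * x) := by
  apply SL.ext
  funext n
  rw [coeff_T, coeff_T]
  split_ifs with hn
  swap
  · rfl
  obtain ⟨a, ha⟩ := x.exists_LB
  obtain ⟨b, hb⟩ := y.exists_LB
  rw [coeff_mul ha hb, coeff_mul hb ha, trL_sum, trL_sum]
  have hsn : s ^ n = 1 := zpow_eq_one_of_dvd hm hn
  refine sum_nbij' (fun i => n - i) (fun j => n - j) ?_ ?_ ?_ ?_ ?_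
  · intro i hi
    rw [mem_Icc] at hi ⊢
    omega
  · intro i hi
    rw [mem_Icc] at hi ⊢
    omega
  · intro i _
    ring
  · intro i _
    ring
  · intro i _
    have e1 : n - (n - i) = i := by ring
    rw [e1, ← trL_zpow hm (-i) (x.coeff i * (s ^ i) (y.coeff (n - i))), map_mul,
      ← zpow_add_apply, neg_add_cancel, zpow_zero, RingAut.one_apply, mul_comm]
    rw [← trL_zpow hm n]
    rw [map_mul, ← zpow_add_apply, hsn]
    simp only [RingAut.one_apply]
    congr 2

/-- `z` belongs to `Z' = K0((ϖ^m))`: coefficients `s`-fixed, supported on multiples of `m`. -/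
structure IsZ (m : ℕ) (z : SL L s) : Prop where
  fixed : ∀ i, s (z.coeff i) = z.coeff i
  supp : ∀ i, ¬ (m : ℤ) ∣ i → z.coeff i = 0

lemma T_isZ (hm : s ^ m = 1) (x : SL L s) : IsZ m (T m x) := by
  refine ⟨fun i => ?_, fun i hi => ?_⟩
  · rw [coeff_T]
    split_ifs
    · exact s_trL hm _
    · exact map_zero _
  · rw [coeff_T, if_neg hi]

/-- The trace on `Z'` is multiplication by `m`. -/
lemma T_of_isZ {z : SL L s} (hz : IsZ m z) : T m z = (m : ℕ) • z := by
  apply SL.ext
  funext i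
  rw [coeff_T, coeff_nsmul]
  split_ifs with hi
  · rw [trL_fixed (hz.fixed i), nsmul_eq_mul]
  · rw [hz.supp i hi, smul_zero]

lemma isZ_C {b : L} (hb : s b = b) : IsZ m (C b : SL L s) := by
  refine ⟨fun i => ?_, fun i hi => ?_⟩
  · rw [C_apply, coeff_mon]
    split_ifs
    · exact hb
    · exact map_zero _
  · rw [C_apply, coeff_mon, if_neg]
    rintro rfl
    exact hi (dvd_zero _)

lemma isZ_ϖz (k : ℤ) : IsZ m (ϖz ((m : ℤ) * k) : SL L s) := by
  refine ⟨fun i => ?_, fun i hi => ?_⟩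
  · rw [ϖz, coeff_mon]
    split_ifs
    · exact map_one _
    · exact map_zero _
  · rw [ϖz, coeff_mon, if_neg]
    rintro rfl
    exact hi (dvd_mul_right _ _)

lemma IsZ.add {z w : SL L s} (hz : IsZ m z) (hw : IsZ m w) : IsZ m (z + w) := by
  refine ⟨fun i => ?_, fun i hi => ?_⟩
  · rw [coeff_add, map_add, hz.fixed, hw.fixed]
  · rw [coeff_add, hz.supp i hi, hw.supp i hi, add_zero]

/-- Elements of `Z'` are central. -/
lemma IsZ.comm (hm : s ^ m = 1) {z : SL L s} (hz : IsZ m z) (f : SL L s) : z * f = f * z := by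
  apply SL.ext
  funext n
  obtain ⟨a, ha⟩ := z.exists_LB
  obtain ⟨b, hb⟩ := f.exists_LB
  rw [coeff_mul ha hb, coeff_mul hb ha]
  refine sum_nbij' (fun i => n - i) (fun j => n - j) ?_ ?_ ?_ ?_ ?_
  · intro i hi
    rw [mem_Icc] at hi ⊢
    omega
  · intro i hi
    rw [mem_Icc] at hi ⊢
    omega
  · intro i _
    ring
  · intro i _
    ring
  · intro i _
    have e1 : n - (n - i) = i := by ring
    rw [e1, zpow_apply_fixed (hz.fixed i)]
    by_cases hi : (m : ℤ) ∣ i
    · rw [zpow_eq_one_of_dvd hm hi, RingAut.one_apply, mul_comm]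
    · rw [hz.supp i hi, zero_mul, mul_zero]

/-- `T` is `Z'`-linear. -/
theorem T_mul_of_isZ (hm : s ^ m = 1) {z : SL L s} (hz : IsZ m z) (x : SL L s) :
    T m (z * x) = z * T m x := by
  apply SL.ext
  funext n
  obtain ⟨a, ha⟩ := z.exists_LB
  obtain ⟨b, hb⟩ := x.exists_LB
  rw [coeff_T, coeff_mul ha hb, coeff_mul ha (LB.T hb)]
  split_ifs with hn
  · rw [trL_sum]
    refine sum_congr rfl fun i _ => ?_
    by_cases hi : (m : ℤ) ∣ i
    · rw [trL_const_mul (hz.fixed i), zpow_eq_one_of_dvd hm hi, RingAut.one_apply,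
        RingAut.one_apply, coeff_T, if_pos (dvd_sub hn hi)]
    · rw [hz.supp i hi, zero_mul, trL_zero, zero_mul]
  · symm
    refine sum_eq_zero fun i _ => ?_
    by_cases hi : (m : ℤ) ∣ i
    · rw [coeff_T, if_neg, map_zero, mul_zero]
      intro h
      exact hn (by simpa using dvd_add h hi)
    · rw [hz.supp i hi, zero_mul]

theorem T_mul_of_isZ_right (hm : s ^ m = 1) {z : SL L s} (hz : IsZ m z) (x : SL L s) :
    T m (x * z) = T m x * z := by
  rw [← hz.comm hm x, T_mul_of_isZ hm hz, hz.comm hm]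

/-- `Tr (B B⁻¹ β) = m β`: the key of the nondegeneracy on `K'`. -/
theorem T_mul_inv_mul {B z : SL L s} (hB : B ≠ 0) (hz : IsZ m z) :
    T m (B * (B⁻¹ * z)) = (m : ℕ) • z := by
  rw [← mul_assoc, mul_inv_cancel₀ hB, one_mul, T_of_isZ hz]

/-- Nondegeneracy of `T` on `K' = C(ξ)` (or on any subring closed under inverses containing
`Z'`): for `B ≠ 0` in `K'` and `z` in `Z'`, `y = B⁻¹ z` is in `K'` and `T (B y) = m z`. -/
theorem T_nondeg {ξ B z : SL L s} (hB : B ≠ 0) (hBmem : B ∈ Cent ξ) (hm : s ^ m = 1)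
    (hz : IsZ m z) : ∃ y ∈ Cent ξ, T m (B * y) = (m : ℕ) • z :=
  ⟨B⁻¹ * z, (Cent ξ).mul_mem (inv_mem_Cent hBmem) (mem_Cent.mpr (hz.comm hm ξ).symm),
    T_mul_inv_mul hB hz⟩

end Trace

end Crest.Agent.Lib.Kurosh.KPrime
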