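import Crest.Agent.Lib.Kurosh.SkewLaurentHat

/-!
# S0270, blueprint Section 3, Step 2: comparison lemmas

Abstract (on `SL S σ`) part of (N1) and (N2b):

* `coeff_pow_self`: the leading coefficient of `ξ^k` is the norm product `N_k`.
* `pow_expansion`: for `ζ = θ + A + E`, `A` of order `D ≥ 2`, `E` of order `D+1`, `θ` of order `1`
  commuting with `A`: `ζ^n ≡ θ^n + n θ^(n-1) A` modulo order `n + D`.
* `peel`: an element of a subfield `𝒵` all of whose residues lie in `K0` is a series in `ζ`.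
* `comparison`: (N2b) if `𝒵 ∋ ζ, ϖ^m` and all residues lie in `K0`, then `m a ∈ K0`.
* `exists_residue_not_mem`: the version conjugated by a principal unit `w`.
-/

set_option autoImplicit false

namespace Crest.Agent.Lib.Kurosh.NonComm

open SL Finset

section RingCase

variable {S : Type*} [Ring S] {σ : RingAut S}

/-- Ordered norm products `N_k = a σ(a) ⋯ σ^(k-1)(a)`. -/
noncomputable def normProd (σ : RingAut S) (a : S) : ℕ → S
  | 0 => 1
  | k + 1 => normProd σ a k * (σ ^ (k : ℤ)) a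

@[simp] lemma normProd_zero (a : S) : normProd σ a 0 = 1 := rfl

lemma normProd_succ (a : S) (k : ℕ) :
    normProd σ a (k + 1) = normProd σ a k * (σ ^ (k : ℤ)) a := rfl

lemma lB_pow {ξ : SL S σ} {d : ℤ} (h : ξ.LB d) (k : ℕ) : (ξ ^ k).LB (k * d) := by
  induction k with
  | zero =>
    simpa using (lB_one : (1 : SL S σ).LB 0)
  | succ k ih =>
    rw [pow_succ]
    have := ih.mul h
    have e : ((k + 1 : ℕ) : ℤ) * d = (k : ℤ) * d + d := by push_cast; ring
    rw [e]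
    exact this

/-- The coefficient at `k` of `ξ^k` is the norm product of the coefficient at `1`. -/
lemma coeff_pow_self {ξ : SL S σ} (h : ξ.LB 1) (k : ℕ) :
    (ξ ^ k).coeff k = normProd σ (ξ.coeff 1) k := by
  induction k with
  | zero =>
    simp [coeff_one]
  | succ k ih =>
    have h1 : (ξ ^ k).LB (k : ℤ) := by simpa using lB_pow h k
    rw [pow_succ, normProd_succ, ← ih]
    have := coeff_mul_add h1 h
    push_cast
    exact this

/-- Reduction in a division-free way: the coefficient at `0` of `ξ^m ϖ^{-m}` is the norm. -/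
lemma coeff_pow_mul_ϖz {ξ : SL S σ} (h : ξ.LB 1) (m : ℕ) :
    (ξ ^ m * ϖz (-(m : ℤ))).coeff 0 = normProd σ (ξ.coeff 1) m := by
  rw [coeff_mul_ϖz]
  simp only [zero_sub, neg_neg]
  exact coeff_pow_self h m

lemma lB_pow_mul_ϖz {ξ : SL S σ} (h : ξ.LB 1) (m : ℕ) :
    (ξ ^ m * ϖz (-(m : ℤ))).LB 0 := by
  have h1 : (ξ ^ m).LB (m : ℤ) := by simpa using lB_pow h m
  have h2 : (ϖz (-(m : ℤ)) : SL S σ).LB (-(m : ℤ)) := lB_mon _ _
  simpa using h1.mul h2

lemma natCast_mul_coeff (n : ℕ) (f : SL S σ) (i : ℤ) :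
    ((n : SL S σ) * f).coeff i = (n : S) * f.coeff i := by
  induction n with
  | zero => simp
  | succ n ih =>
    push_cast
    rw [add_mul, one_mul, coeff_add, ih, add_mul, one_mul]

lemma normProd_one (n : ℕ) : normProd σ (1 : S) n = 1 := by
  induction n with
  | zero => rfl
  | succ n ih => rw [normProd_succ, ih, map_one, one_mul]

lemma LB.natCast_mul {f : SL S σ} {a : ℤ} (h : f.LB a) (n : ℕ) :
    ((n : SL S σ) * f).LB a := by
  intro i hi
  induction n with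
  | zero => simp
  | succ n ih =>
    push_cast
    rw [add_mul, one_mul, coeff_add, ih, h i hi, add_zero]

/-- The power expansion `ζ^n ≡ θ^n + n θ^(n-1) A` modulo order `n + D`. -/
theorem pow_expansion {θ A E : SL S σ} {D : ℤ} (hD : 2 ≤ D)
    (hθ : θ.LB 1) (hA : A.LB D) (hE : E.LB (D + 1)) (hc : θ * A = A * θ) (n : ℕ) :
    ((θ + A + E) ^ (n + 1) - θ ^ (n + 1) - ((n + 1 : ℕ) : SL S σ) * (θ ^ n * A)).LB
      ((n + 1 : ℕ) + D) := by
  have hcn : ∀ k : ℕ, θ ^ k * A = A * θ ^ k := by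
    intro k
    induction k with
    | zero => simp
    | succ k ih => rw [pow_succ, mul_assoc, hc, ← mul_assoc, ih, mul_assoc]
  induction n with
  | zero =>
    have e : (θ + A + E) ^ (0 + 1) - θ ^ (0 + 1) - ((0 + 1 : ℕ) : SL S σ) * (θ ^ 0 * A) = E := by
      simp only [zero_add, pow_one, Nat.cast_one, one_mul, pow_zero]
      abel
    rw [e]
    have e' : (((0 + 1 : ℕ) : ℤ)) + D = D + 1 := by push_cast; ring
    rw [e']
    exact hE
  | succ n ih =>
    set ζ := θ + A + E with hζ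
    set F := ζ ^ (n + 1) - θ ^ (n + 1) - ((n + 1 : ℕ) : SL S σ) * (θ ^ n * A) with hF
    have hζLB : ζ.LB 1 := by
      have h1 : A.LB 1 := hA.mono (by omega)
      have h2 : E.LB 1 := hE.mono (by omega)
      exact (hθ.add h1).add h2
    have hpow : ζ ^ (n + 1) = θ ^ (n + 1) + ((n + 1 : ℕ) : SL S σ) * (θ ^ n * A) + F := by
      rw [hF]; abel
    have hθn : (θ ^ n).LB (n : ℤ) := by simpa using lB_pow hθ n
    have hθn1 : (θ ^ (n + 1)).LB ((n + 1 : ℕ) : ℤ) := by simpa using lB_pow hθ (n + 1)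
    -- the expansion
    have key : ζ ^ (n + 1 + 1) - θ ^ (n + 1 + 1) - ((n + 1 + 1 : ℕ) : SL S σ) * (θ ^ (n + 1) * A)
        = θ ^ (n + 1) * E + ((n + 1 : ℕ) : SL S σ) * (θ ^ n * (A * A))
          + ((n + 1 : ℕ) : SL S σ) * (θ ^ n * (A * E)) + F * ζ := by
      have hcomm : ((n + 1 : ℕ) : SL S σ) * (θ ^ n * A) * θ
          = ((n + 1 : ℕ) : SL S σ) * (θ ^ (n + 1) * A) := by
        rw [mul_assoc, mul_assoc, pow_succ, mul_assoc, hc]
      have e2 : ((n + 1 + 1 : ℕ) : SL S σ) = ((n + 1 : ℕ) : SL S σ) + 1 := Nat.cast_succ _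
      rw [pow_succ ζ (n + 1), hpow, e2, pow_succ θ (n + 1)]
      rw [add_mul ((θ ^ (n + 1) + ((n + 1 : ℕ) : SL S σ) * (θ ^ n * A))) F ζ,
        add_mul (θ ^ (n + 1)) _ ζ]
      have e3 : ((n + 1 : ℕ) : SL S σ) * (θ ^ n * A) * ζ
          = ((n + 1 : ℕ) : SL S σ) * (θ ^ (n + 1) * A)
            + ((n + 1 : ℕ) : SL S σ) * (θ ^ n * (A * A))
            + ((n + 1 : ℕ) : SL S σ) * (θ ^ n * (A * E)) := by
        rw [hζ, mul_add, mul_add, hcomm]
        simp only [mul_assoc]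
      rw [e3, hζ]
      simp only [add_mul, mul_add, one_mul]
      abel
    rw [key]
    have t1 : (θ ^ (n + 1) * E).LB (((n + 1 + 1 : ℕ) : ℤ) + D) := by
      have := hθn1.mul hE
      have e : ((n + 1 : ℕ) : ℤ) + (D + 1) = ((n + 1 + 1 : ℕ) : ℤ) + D := by push_cast; ring
      rwa [e] at this
    have t2 : (((n + 1 : ℕ) : SL S σ) * (θ ^ n * (A * A))).LB (((n + 1 + 1 : ℕ) : ℤ) + D) := by
      apply LB.natCast_mul
      have := hθn.mul (hA.mul hA)
      refine this.mono ?_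
      push_cast
      omega
    have t3 : (((n + 1 : ℕ) : SL S σ) * (θ ^ n * (A * E))).LB (((n + 1 + 1 : ℕ) : ℤ) + D) := by
      apply LB.natCast_mul
      have := hθn.mul (hA.mul hE)
      refine this.mono ?_
      push_cast
      omega
    have t4 : (F * ζ).LB (((n + 1 + 1 : ℕ) : ℤ) + D) := by
      have := ih.mul hζLB
      refine this.mono ?_
      push_cast
      omega
    exact ((t1.add t2).add t3).add t4

end RingCase

section Comparison

variable {S : Type*} [DivisionRing S] {σ : RingAut S}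

/-- One peeling step. -/
lemma peel_step {𝒵 : Subring (SL S σ)} {K0 : Set S}
    (hres : ∀ c ∈ 𝒵, c.LB 0 → c.coeff 0 ∈ K0) (hC : ∀ k ∈ K0, C k ∈ 𝒵)
    {ζ : SL S σ} (hζ : ζ ∈ 𝒵) (hinv : ζ⁻¹ ∈ 𝒵) (hζLB : ζ.LB 1) (hζ1 : ζ.coeff 1 = 1)
    {x : SL S σ} (hx : x ∈ 𝒵) (n : ℕ) (hxLB : x.LB n) :
    ∃ β ∈ K0, x - C β * ζ ^ n ∈ 𝒵 ∧ (x - C β * ζ ^ n).LB ((n : ℤ) + 1) := by
  classical
  have hζ0 : ζ ≠ 0 := by
    intro h
    rw [h] at hζ1
    exact one_ne_zero (by simpa using hζ1.symm : (1 : S) = 0)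
  have hval : val ζ = 1 := val_eq_of (by rw [hζ1]; exact one_ne_zero) hζLB
  have hinvLB : (ζ⁻¹).LB (-1) := by
    have h0 : ζ⁻¹ ≠ 0 := inv_ne_zero hζ0
    have hv : val (ζ⁻¹) = -1 := by
      have := val_mul hζ0 h0
      rw [mul_inv_cancel₀ hζ0, hval] at this
      have h1 : val (1 : SL S σ) = 0 :=
        val_eq_of (by simp [coeff_one]) lB_one
      omega
    rw [← hv]
    exact lB_val _
  have hpowinv : ((ζ⁻¹) ^ n).LB (-(n : ℤ)) := by
    have := lB_pow hinvLB n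
    simpa using this
  set y := x * (ζ⁻¹) ^ n with hy
  have hyLB : y.LB 0 := by
    have := hxLB.mul hpowinv
    rwa [add_neg_cancel] at this
  have hy𝒵 : y ∈ 𝒵 := 𝒵.mul_mem hx (𝒵.pow_mem hinv n)
  refine ⟨y.coeff 0, hres y hy𝒵 hyLB, ?_, ?_⟩
  · exact 𝒵.sub_mem hx (𝒵.mul_mem (hC _ (hres y hy𝒵 hyLB)) (𝒵.pow_mem hζ n))
  · have hx' : x = y * ζ ^ n := by
      rw [hy, mul_assoc, inv_pow, inv_mul_cancel₀ (pow_ne_zero n hζ0), mul_one]
    have e : x - C (y.coeff 0) * ζ ^ n = (y - C (y.coeff 0)) * ζ ^ n := by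
      rw [sub_mul]; rw [← hx']
    rw [e]
    have h1 : (y - C (y.coeff 0)).LB 1 := by
      intro i hi
      rw [coeff_sub, C_apply, coeff_mon]
      by_cases h : i = 0
      · subst h; simp
      · rw [if_neg h, sub_zero]
        exact hyLB i (by omega)
    have h2 : (ζ ^ n).LB (n : ℤ) := by simpa using lB_pow hζLB n
    have := h1.mul h2
    rwa [add_comm] at this

/-- Iterated peeling: an element of `𝒵` of order `M` is a `K0`-series in `ζ` modulo any order. -/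
theorem peel {𝒵 : Subring (SL S σ)} {K0 : Set S}
    (hres : ∀ c ∈ 𝒵, c.LB 0 → c.coeff 0 ∈ K0) (hC : ∀ k ∈ K0, C k ∈ 𝒵)
    {ζ : SL S σ} (hζ : ζ ∈ 𝒵) (hinv : ζ⁻¹ ∈ 𝒵) (hζLB : ζ.LB 1) (hζ1 : ζ.coeff 1 = 1)
    {x : SL S σ} (hx : x ∈ 𝒵) (M : ℕ) (hxLB : x.LB M) (N : ℕ) :
    ∃ β : ℕ → S, (∀ i, β i ∈ K0 ∨ β i = 0) ∧
      (x - ∑ i ∈ range N, C (β i) * ζ ^ (M + i)) ∈ 𝒵 ∧
      (x - ∑ i ∈ range N, C (β i) * ζ ^ (M + i)).LB ((M : ℤ) + N) := by
  induction N with
  | zero =>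
    refine ⟨fun _ => 0, fun _ => Or.inr rfl, ?_, ?_⟩
    · simpa using hx
    · simpa using hxLB
  | succ N ih =>
    obtain ⟨β, hβ, h1, h2⟩ := ih
    have h2' : (x - ∑ i ∈ range N, C (β i) * ζ ^ (M + i)).LB ((M + N : ℕ) : ℤ) := by
      simpa using h2
    obtain ⟨b, hb, h3, h4⟩ := peel_step hres hC hζ hinv hζLB hζ1 h1 (M + N) h2'
    refine ⟨Function.update β N b, ?_, ?_, ?_⟩
    · intro i
      by_cases h : i = N
      · subst h; left; simpa using hb
      · rw [Function.update_of_ne h]; exact hβ i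
    · rw [sum_range_succ, Function.update_self]
      have e : ∑ i ∈ range N, C (Function.update β N b i) * ζ ^ (M + i)
          = ∑ i ∈ range N, C (β i) * ζ ^ (M + i) := by
        refine sum_congr rfl fun i hi => ?_
        rw [Function.update_of_ne (by exact (mem_range.mp hi).ne)]
      rw [e, ← sub_sub]
      exact h3
    · rw [sum_range_succ, Function.update_self]
      have e : ∑ i ∈ range N, C (Function.update β N b i) * ζ ^ (M + i)
          = ∑ i ∈ range N, C (β i) * ζ ^ (M + i) := by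
        refine sum_congr rfl fun i hi => ?_
        rw [Function.update_of_ne (by exact (mem_range.mp hi).ne)]
      rw [e, ← sub_sub]
      have e2 : (M : ℤ) + ((N + 1 : ℕ) : ℤ) = ((M + N : ℕ) : ℤ) + 1 := by push_cast; ring
      rw [e2]
      exact h4

lemma zpow_apply_of_fixed {x : S} (hx : σ x = x) (j : ℤ) : (σ ^ j) x = x := by
  have hinv : (σ⁻¹ : RingAut S) x = x := by
    conv_lhs => rw [← hx]
    change (σ⁻¹ * σ) x = x
    rw [inv_mul_cancel]; rfl
  induction j using Int.induction_on with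
  | zero => rw [zpow_zero]; rfl
  | succ i ih =>
    rw [zpow_add_one]
    change (σ ^ (i : ℤ)) (σ x) = x
    rw [hx, ih]
  | pred i ih =>
    rw [zpow_sub_one]
    change (σ ^ (-(i : ℤ))) ((σ⁻¹ : RingAut S) x) = x
    rw [hinv, ih]

/-- `K0`-coefficients are stable under powers. -/
lemma coeff_pow_mem {K0 : Subring S} (hfix : ∀ k ∈ K0, σ k = k) {θ : SL S σ}
    (hθ : ∀ i, θ.coeff i ∈ K0) (n : ℕ) (i : ℤ) : (θ ^ n).coeff i ∈ K0 := by
  induction n generalizing i with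
  | zero =>
    rw [pow_zero, coeff_one]
    split_ifs
    · exact K0.one_mem
    · exact K0.zero_mem
  | succ n ih =>
    obtain ⟨a, ha⟩ := (θ ^ n).exists_LB
    obtain ⟨b, hb⟩ := θ.exists_LB
    rw [pow_succ, coeff_mul ha hb]
    refine K0.sum_mem fun j _ => K0.mul_mem (ih j) ?_
    rw [zpow_apply_of_fixed (hfix _ (hθ _))]
    exact hθ _

/-- `σ`-fixed coefficient: `mon a D` commutes with `K0`-coefficient series. -/
lemma comm_mon {K0 : Set S} (hfix : ∀ k ∈ K0, σ k = k) (hcen : ∀ k ∈ K0, ∀ x : S, k * x = x * k)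
    {θ : SL S σ} (hθ : ∀ i, θ.coeff i ∈ K0) {a : S} (ha : σ a = a) (D : ℤ) :
    θ * mon a D = mon a D * θ := by
  apply SL.ext
  funext n
  rw [coeff_mul_mon, coeff_mon_mul, zpow_apply_of_fixed ha, zpow_apply_of_fixed (hfix _ (hθ _)),
    hcen _ (hθ _)]

/-- **(N2b) comparison.** Let `ζ = θ + a ϖ^D + E` where `θ` has coefficients in the central,
`σ`-fixed subring `K0`, `θ = ϖ + ...`, `a` is `σ`-fixed, `D ≥ 2`, `E` of order `D + 1`. If
`𝒵 ∋ ζ, ζ⁻¹, ϖ^m, K0` and all residues of order-`≥0` elements of `𝒵` lie in `K0`, then `m a ∈ K0`. -/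
theorem comparison {K0 : Subring S} (hfix : ∀ k ∈ K0, σ k = k)
    (hcen : ∀ k ∈ K0, ∀ x : S, k * x = x * k)
    {θ E : SL S σ} (hθ : ∀ i, θ.coeff i ∈ K0) (hθLB : θ.LB 1) (hθ1 : θ.coeff 1 = 1)
    {a : S} (ha : σ a = a) {D : ℕ} (hD : 2 ≤ D) (hE : E.LB ((D : ℤ) + 1))
    {𝒵 : Subring (SL S σ)} (hres : ∀ c ∈ 𝒵, c.LB 0 → c.coeff 0 ∈ K0)
    (hC : ∀ k ∈ K0, C k ∈ 𝒵)
    (hζ : θ + mon a D + E ∈ 𝒵) (hinv : (θ + mon a D + E)⁻¹ ∈ 𝒵)
    {m : ℕ} (hm : 0 < m) (hϖ : (ϖz (m : ℤ) : SL S σ) ∈ 𝒵) :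
    (m : S) * a ∈ K0 := by
  classical
  set A : SL S σ := mon a D with hA
  set ζ := θ + A + E with hζdef
  have hD' : (2 : ℤ) ≤ (D : ℤ) := by exact_mod_cast hD
  have hALB : A.LB (D : ℤ) := lB_mon _ _
  have hζLB : ζ.LB 1 := by
    have h1 : A.LB 1 := hALB.mono (by omega)
    have h2 : E.LB 1 := hE.mono (by omega)
    exact (hθLB.add h1).add h2
  have hζ1 : ζ.coeff 1 = 1 := by
    have h1 : A.coeff 1 = 0 := hALB 1 (by omega)
    have h2 : E.coeff 1 = 0 := hE 1 (by omega)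
    rw [hζdef, coeff_add, coeff_add, hθ1, h1, h2, add_zero, add_zero]
  have hc : θ * A = A * θ := comm_mon (K0 := (K0 : Set S)) hfix hcen hθ ha _
  -- peel
  have hϖLB : (ϖz (m : ℤ) : SL S σ).LB ((m : ℕ) : ℤ) := lB_mon _ _
  obtain ⟨β, hβ, -, hLB⟩ := peel (K0 := (K0 : Set S)) hres hC hζ hinv hζLB hζ1 hϖ m hϖLB D
  have hβ' : ∀ i, β i ∈ K0 := fun i => (hβ i).elim id (fun h => h ▸ K0.zero_mem)
  -- coefficient of the power of ζ at `m + D - 1`
  have hpow : ∀ i : ℕ, i ∈ range D → ∃ k ∈ K0, (ζ ^ (m + i)).coeff ((m : ℤ) + D - 1)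
      = k + (if i = 0 then (m : S) * a else 0) := by
    intro i hi
    have hi' := mem_range.mp hi
    obtain ⟨n, hn⟩ : ∃ n, m + i = n + 1 := ⟨m + i - 1, by omega⟩
    have hexp := pow_expansion (by exact_mod_cast hD : (2 : ℤ) ≤ (D : ℤ)) hθLB hALB hE hc n
    have hlt : (m : ℤ) + D - 1 < ((n + 1 : ℕ) : ℤ) + D := by
      have : ((n + 1 : ℕ) : ℤ) = (m : ℤ) + i := by rw [← hn]; push_cast; ring
      omega
    have h0 := hexp _ hlt
    rw [coeff_sub, coeff_sub, sub_eq_zero, sub_eq_iff_eq_add] at h0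
    rw [hn]
    refine ⟨(θ ^ (n + 1)).coeff ((m : ℤ) + D - 1), coeff_pow_mem hfix hθ _ _, ?_⟩
    rw [h0, add_comm]
    congr 1
    -- the term `(n+1) θ^n A`
    have hθn : (θ ^ n).LB (n : ℤ) := by simpa using lB_pow hθLB n
    have hn1 : ((n + 1 : ℕ) : SL S σ) * (θ ^ n * A) = ((n + 1 : ℕ) : SL S σ) * (θ ^ n * A) := rfl
    by_cases h : i = 0
    · subst h
      rw [if_pos rfl]
      have hmn : n + 1 = m := by omega
      have e : (m : ℤ) + D - 1 = (n : ℤ) + D := by rw [← hmn]; push_cast; ring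
      rw [e, natCast_mul_coeff, coeff_mul_add hθn hALB, coeff_mon_self, zpow_apply_of_fixed ha,
        coeff_pow_self hθLB n, hθ1, normProd_one, one_mul, hmn]
    · rw [if_neg h, natCast_mul_coeff]
      have : ((θ ^ n * A).coeff ((m : ℤ) + D - 1)) = 0 := by
        apply (hθn.mul hALB)
        have : ((n + 1 : ℕ) : ℤ) = (m : ℤ) + i := by rw [← hn]; push_cast; ring
        push_cast at this
        omega
      rw [this, mul_zero]
  -- the coefficient at `m`: `β 0 = 1`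
  have hcoeff : ∀ j : ℤ, j < (m : ℤ) + D →
      (ϖz (m : ℤ) : SL S σ).coeff j = ∑ i ∈ range D, β i * (ζ ^ (m + i)).coeff j := by
    intro j hj
    have h0 := hLB j hj
    rw [coeff_sub, sub_eq_zero, coeff_sum] at h0
    rw [h0]
    refine sum_congr rfl fun i _ => ?_
    rw [coeff_C_mul]
  have hβ0 : β 0 = 1 := by
    have h1 := hcoeff (m : ℤ) (by omega)
    rw [ϖz, coeff_mon_self, sum_eq_single_of_mem 0 (mem_range.mpr (by omega))] at h1
    · rw [add_zero, coeff_pow_self hζLB, hζ1, normProd_one, mul_one] at h1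
      exact h1.symm
    · intro i _ hi
      have : (ζ ^ (m + i)).coeff (m : ℤ) = 0 := by
        have h2 : (ζ ^ (m + i)).LB (((m + i : ℕ) : ℤ) * 1) := lB_pow hζLB _
        apply h2
        push_cast
        omega
      rw [this, mul_zero]
  have h1 := hcoeff ((m : ℤ) + D - 1) (by omega)
  have h2 : (ϖz (m : ℤ) : SL S σ).coeff ((m : ℤ) + D - 1) = 0 := by
    rw [ϖz, coeff_mon, if_neg (by omega)]
  rw [h2] at h1
  have hmem : ∀ i ∈ range D, β i * (ζ ^ (m + i)).coeff ((m : ℤ) + D - 1)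
      - (if i = 0 then (m : S) * a else 0) ∈ K0 := by
    intro i hi
    obtain ⟨k, hk, hk'⟩ := hpow i hi
    rw [hk']
    by_cases h : i = 0
    · subst h
      simp only [if_true, hβ0, one_mul, add_sub_cancel_right]
      exact hk
    · simp only [if_neg h, add_zero, sub_zero]
      exact K0.mul_mem (hβ' i) hk
  have hsum := K0.sum_mem hmem
  rw [sum_sub_distrib, ← h1, sum_ite_eq' (range D) 0, if_pos (mem_range.mpr (by omega)),
    zero_sub] at hsum
  simpa using K0.neg_mem hsum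

/-- Conjugation by a principal unit `w` preserves residues. -/
lemma coeff_conj_zero {w c : SL S σ} (hw : w.LB 0) (hw0 : w.coeff 0 = 1)
    (hw' : (w⁻¹).LB 0) (hw0' : (w⁻¹).coeff 0 = 1) (hc : c.LB 0) :
    (w * c * w⁻¹).coeff 0 = c.coeff 0 := by
  have h1 := coeff_mul_add (hw.mul hc) hw'
  have h2 := coeff_mul_add hw hc
  simp only [add_zero] at h1 h2
  rw [h1, h2, hw0, hw0']
  simp

/-- Inverse of a principal unit is principal. -/
lemma inv_principal {w : SL S σ} (hw : w.LB 0) (hw0 : w.coeff 0 = 1) :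
    (w⁻¹).LB 0 ∧ (w⁻¹).coeff 0 = 1 := by
  classical
  have hw00 : w ≠ 0 := by
    rintro rfl
    exact one_ne_zero (α := S) (hw0.symm.trans rfl)
  have hval : val w = 0 := val_eq_of (by rw [hw0]; exact one_ne_zero) hw
  have h0 : w⁻¹ ≠ 0 := inv_ne_zero hw00
  have hv : val (w⁻¹) = 0 := by
    have := val_mul hw00 h0
    rw [mul_inv_cancel₀ hw00, hval] at this
    have h1 : val (1 : SL S σ) = 0 := val_eq_of (by simp [coeff_one]) lB_one
    omega
  have hLB : (w⁻¹).LB 0 := by rw [← hv]; exact lB_val _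
  refine ⟨hLB, ?_⟩
  have := coeff_mul_add hw hLB
  rw [mul_inv_cancel₀ hw00] at this
  simpa [coeff_one, hw0] using this.symm

/-- **(N2b), conjugated form.** Let `w` be a principal unit, `ξ ∈ 𝒵` with
`w ξ w⁻¹ = θ + a ϖ^D + E`, `𝒵 ∋ ξ⁻¹`, with `ϖ^m` central in `𝒵`'s ambient ring and the `C k`
(`k ∈ K0`) in `𝒵`. If `m a ∉ K0`, then some element of `𝒵` of order `≥ 0` has residue outside `K0`. -/
theorem exists_residue_not_mem {K0 : Subring S} (hfix : ∀ k ∈ K0, σ k = k)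
    (hcen : ∀ k ∈ K0, ∀ x : S, k * x = x * k)
    {θ E : SL S σ} (hθ : ∀ i, θ.coeff i ∈ K0) (hθLB : θ.LB 1) (hθ1 : θ.coeff 1 = 1)
    {a : S} (ha : σ a = a) {D : ℕ} (hD : 2 ≤ D) (hE : E.LB ((D : ℤ) + 1))
    {𝒵 : Subring (SL S σ)}
    (hC : ∀ k ∈ K0, C k ∈ 𝒵)
    {w ξ : SL S σ} (hw : w.LB 0) (hw0 : w.coeff 0 = 1)
    (hξ : ξ ∈ 𝒵) (hinv : ξ⁻¹ ∈ 𝒵)
    (hconj : w * ξ * w⁻¹ = θ + mon a D + E)
    {m : ℕ} (hm : 0 < m) (hϖ : (ϖz (m : ℤ) : SL S σ) ∈ 𝒵)
    (hϖc : ∀ x : SL S σ, (ϖz (m : ℤ) : SL S σ) * x = x * ϖz (m : ℤ))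
    (hnot : (m : S) * a ∉ K0) :
    ∃ c ∈ 𝒵, c.LB 0 ∧ c.coeff 0 ∉ K0 := by
  classical
  by_contra hcon
  push Not at hcon
  have hw00 : w ≠ 0 := by
    rintro rfl
    exact one_ne_zero (α := S) (hw0.symm.trans rfl)
  obtain ⟨hw', hw0'⟩ := inv_principal hw hw0
  -- the conjugate subring
  let 𝒵' : Subring (SL S σ) :=
    { carrier := {x | w⁻¹ * x * w ∈ 𝒵}
      mul_mem' := by
        intro x y hx hy
        have := 𝒵.mul_mem hx hy
        have e : w⁻¹ * (x * y) * w = w⁻¹ * x * w * (w⁻¹ * y * w) := by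
          have : w * w⁻¹ = 1 := mul_inv_cancel₀ hw00
          calc w⁻¹ * (x * y) * w = w⁻¹ * x * (w * w⁻¹) * y * w := by rw [this]; noncomm_ring
            _ = _ := by noncomm_ring
        simpa [e] using this
      one_mem' := by
        change w⁻¹ * 1 * w ∈ 𝒵
        rw [mul_one, inv_mul_cancel₀ hw00]
        exact 𝒵.one_mem
      add_mem' := by
        intro x y hx hy
        have := 𝒵.add_mem hx hy
        change w⁻¹ * (x + y) * w ∈ 𝒵
        rwa [mul_add, add_mul]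
      zero_mem' := by
        change w⁻¹ * 0 * w ∈ 𝒵
        rw [mul_zero, zero_mul]
        exact 𝒵.zero_mem
      neg_mem' := by
        intro x hx
        have := 𝒵.neg_mem hx
        change w⁻¹ * (-x) * w ∈ 𝒵
        rwa [mul_neg, neg_mul] }
  have hmem' : ∀ x, x ∈ 𝒵' ↔ w⁻¹ * x * w ∈ 𝒵 := fun _ => Iff.rfl
  have hinvinv : (w⁻¹)⁻¹ = w := inv_inv w
  have hres' : ∀ c ∈ 𝒵', c.LB 0 → c.coeff 0 ∈ K0 := by
    intro c hc hcLB
    have h1 : (w⁻¹ * c * (w⁻¹)⁻¹).coeff 0 = c.coeff 0 := by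
      apply coeff_conj_zero hw' hw0' _ _ hcLB
      · rw [hinvinv]; exact hw
      · rw [hinvinv]; exact hw0
    rw [← h1, hinvinv]
    refine hcon _ ((hmem' c).mp hc) ?_
    have := (hw'.mul hcLB).mul hw
    simpa using this
  have hC' : ∀ k ∈ K0, C k ∈ 𝒵' := by
    intro k hk
    rw [hmem']
    have hc : ∀ x : SL S σ, C k * x = x * C k := by
      intro x
      apply SL.ext
      funext n
      rw [coeff_C_mul, coeff_mul_C, hcen k hk, zpow_apply_of_fixed (hfix k hk)]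
    have e : w⁻¹ * C k * w = C k := by
      rw [mul_assoc, hc w, ← mul_assoc, inv_mul_cancel₀ hw00, one_mul]
    rw [e]
    exact hC k hk
  have hζ' : w * ξ * w⁻¹ ∈ 𝒵' := by
    rw [hmem']
    have e : w⁻¹ * (w * ξ * w⁻¹) * w = ξ := by
      have h1 : w⁻¹ * w = 1 := inv_mul_cancel₀ hw00
      calc w⁻¹ * (w * ξ * w⁻¹) * w = (w⁻¹ * w) * ξ * (w⁻¹ * w) := by noncomm_ring
        _ = ξ := by rw [h1]; simp
    rw [e]
    exact hξ
  have hinv' : (w * ξ * w⁻¹)⁻¹ ∈ 𝒵' := by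
    rw [hmem']
    have e : w⁻¹ * (w * ξ * w⁻¹)⁻¹ * w = ξ⁻¹ := by
      have h1 : w⁻¹ * w = 1 := inv_mul_cancel₀ hw00
      rw [mul_inv_rev, mul_inv_rev, inv_inv]
      calc w⁻¹ * (w * (ξ⁻¹ * w⁻¹)) * w = (w⁻¹ * w) * ξ⁻¹ * (w⁻¹ * w) := by noncomm_ring
        _ = ξ⁻¹ := by rw [h1]; simp
    rw [e]
    exact hinv
  have hϖ' : (ϖz (m : ℤ) : SL S σ) ∈ 𝒵' := by
    rw [hmem']
    have e : w⁻¹ * ϖz (m : ℤ) * w = ϖz (m : ℤ) := by
      rw [mul_assoc, hϖc w, ← mul_assoc, inv_mul_cancel₀ hw00, one_mul]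
    rw [e]
    exact hϖ
  rw [hconj] at hζ' hinv'
  exact hnot (comparison hfix hcen hθ hθLB hθ1 ha hD hE hres' hC' hζ' hinv' hm hϖ')

/-- The leading-term conjugation of (N2b). `θ = ϖ + ...`, `ζ₀ = θ + l ϖ^D + E`, `σ b - b = l - a`,
`v = 1 + b ϖ^(D-1)`: then `v ζ₀ v⁻¹ = θ + a ϖ^D + E'` with `E'` of order `D + 1`. -/
theorem conj_leading {θ E : SL S σ} (hθLB : θ.LB 1) (hθ1 : θ.coeff 1 = 1)
    {D : ℤ} (hD : 2 ≤ D) (hE : E.LB (D + 1)) {l a b : S} (hb : σ b - b = l - a) :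
    (1 + mon b (D - 1) : SL S σ) ≠ 0 ∧
    ∃ E' : SL S σ, E'.LB (D + 1) ∧
      (1 + mon b (D - 1)) * (θ + mon l D + E) * (1 + mon b (D - 1))⁻¹ = θ + mon a D + E' := by
  classical
  set B : SL S σ := mon b (D - 1) with hB
  set v : SL S σ := 1 + B with hv
  have hBLB : B.LB (D - 1) := lB_mon _ _
  have hBLB1 : B.LB 1 := hBLB.mono (by omega)
  have hBLB0 : B.LB 0 := hBLB.mono (by omega)
  have hvLB : v.LB 0 := lB_one.add hBLB0
  have hv0 : v.coeff 0 = 1 := by
    rw [hv, coeff_add, coeff_one, if_pos rfl, hBLB 0 (by omega), add_zero]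
  have hv00 : v ≠ 0 := by
    intro h
    rw [h] at hv0
    exact one_ne_zero (α := S) (hv0.symm.trans rfl)
  refine ⟨hv00, ?_⟩
  obtain ⟨hvi, -⟩ := inv_principal hvLB hv0
  -- write `θ = ϖ + θ'`
  set θ' : SL S σ := θ - ϖz 1 with hθ'
  have hθ'LB : θ'.LB 2 := by
    intro i hi
    rw [hθ', coeff_sub, ϖz, coeff_mon]
    by_cases h : i = 1
    · subst h; rw [if_pos rfl, hθ1, sub_self]
    · rw [if_neg h, sub_zero]; exact hθLB i (by omega)
  have hθeq : θ = ϖz 1 + θ' := by rw [hθ']; abel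
  -- the commutator
  have hcomm : B * ϖz 1 - ϖz 1 * B + mon l D - mon a D = 0 := by
    have e1 : B * ϖz 1 = mon b D := by
      rw [hB, ϖz, mon_mul_mon, map_one, mul_one]
      congr 1; ring
    have e2 : (ϖz 1 : SL S σ) * B = mon (σ b) D := by
      rw [hB, ϖz, mon_mul_mon, one_mul, zpow_one]
      congr 1; ring
    have e3 : (mon l D : SL S σ) - mon a D = mon (l - a) D := by
      apply SL.ext; funext n
      simp only [coeff_sub, coeff_mon]
      split_ifs <;> simp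
    have e4 : (mon b D : SL S σ) - mon (σ b) D = mon (b - σ b) D := by
      apply SL.ext; funext n
      simp only [coeff_sub, coeff_mon]
      split_ifs <;> simp
    rw [e1, e2, e4, add_sub_assoc, e3, ← mon_add, ← hb]
    simp
  -- the error term
  set G : SL S σ := v * (θ + mon l D + E) - (θ + mon a D) * v with hG
  have hGeq : G = (B * θ' - θ' * B) + E + B * mon l D + B * E - mon a D * B := by
    have hcomm' : mon l D = mon a D + (ϖz 1 * B - B * ϖz 1) := by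
      have := hcomm
      have h2 : (mon l D : SL S σ) = (B * ϖz 1 - ϖz 1 * B + mon l D - mon a D) + mon a D
          + (ϖz 1 * B - B * ϖz 1) := by abel
      rw [hcomm] at h2
      rw [h2]
      abel
    rw [hG, hv, hθeq, hcomm']
    noncomm_ring
  have hGLB : G.LB (D + 1) := by
    rw [hGeq]
    have t1 : (B * θ').LB (D + 1) := by
      have := hBLB.mul hθ'LB
      refine this.mono (by omega)
    have t2 : (θ' * B).LB (D + 1) := by
      have := hθ'LB.mul hBLB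
      refine this.mono (by omega)
    have t3 : (B * mon l D).LB (D + 1) := by
      have := hBLB.mul (lB_mon l D)
      refine this.mono (by omega)
    have t4 : (B * E).LB (D + 1) := by
      have := hBLB.mul hE
      refine this.mono (by omega)
    have t5 : (mon a D * B).LB (D + 1) := by
      have := (lB_mon a D : (mon a D : SL S σ).LB D).mul hBLB
      refine this.mono (by omega)
    exact ((((t1.sub t2).add hE).add t3).add t4).sub t5
  refine ⟨G * v⁻¹, ?_, ?_⟩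
  · have := hGLB.mul hvi
    rwa [add_zero] at this
  · have h1 : v * (θ + mon l D + E) = (θ + mon a D) * v + G := by rw [hG]; abel
    rw [h1, add_mul, mul_assoc, mul_inv_cancel₀ hv00, mul_one]

/-- Conjugation by a principal unit: `u (l ϖ^D) u⁻¹ ≡ l ϖ^D` modulo order `D + 1`. -/
lemma conj_mon {u : SL S σ} (hu : u.LB 0) (hu0 : u.coeff 0 = 1) {X : SL S σ} {D : ℤ}
    (hX : X.LB D) : ∃ E : SL S σ, E.LB (D + 1) ∧ u * X * u⁻¹ = X + E := by
  classical
  have hu00 : u ≠ 0 := by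
    rintro rfl
    exact one_ne_zero (α := S) (hu0.symm.trans rfl)
  obtain ⟨hui, -⟩ := inv_principal hu hu0
  have hu1 : (u - 1).LB 1 := by
    intro i hi
    rw [coeff_sub, coeff_one]
    by_cases h : i = 0
    · subst h; rw [if_pos rfl, hu0, sub_self]
    · rw [if_neg h, sub_zero]; exact hu i (by omega)
  refine ⟨((u - 1) * X - X * (u - 1)) * u⁻¹, ?_, ?_⟩
  · have t1 := hu1.mul hX
    have t2 := hX.mul hu1
    rw [add_comm] at t1
    have := (t1.sub t2).mul hui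
    rwa [add_zero] at this
  · have e : (u - 1) * X - X * (u - 1) = u * X - X * u := by noncomm_ring
    rw [e, sub_mul, mul_assoc X u, mul_inv_cancel₀ hu00, mul_one]
    abel

/-- The combined conjugation: `ξ = ξ_K + l ϖ^D + E₀`, `u ξ_K u⁻¹ = θ`, `σ b - b = l - a`;
then `w = (1 + b ϖ^(D-1)) u` is principal and `w ξ w⁻¹ = θ + a ϖ^D + E'`. -/
theorem conj_form {θ ξK E₀ u : SL S σ} (hθLB : θ.LB 1) (hθ1 : θ.coeff 1 = 1)
    (hu : u.LB 0) (hu0 : u.coeff 0 = 1) (hconj : u * ξK * u⁻¹ = θ)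
    {D : ℤ} (hD : 2 ≤ D) (hE₀ : E₀.LB (D + 1)) {l a b : S} (hb : σ b - b = l - a) :
    ∃ w E' : SL S σ, w.LB 0 ∧ w.coeff 0 = 1 ∧ E'.LB (D + 1) ∧
      w * (ξK + mon l D + E₀) * w⁻¹ = θ + mon a D + E' := by
  classical
  have hu00 : u ≠ 0 := by
    rintro rfl
    exact one_ne_zero (α := S) (hu0.symm.trans rfl)
  obtain ⟨hui, -⟩ := inv_principal hu hu0
  -- first step
  obtain ⟨E₁, hE₁, hE₁'⟩ := conj_mon hu hu0 (lB_mon l D)
  have h1 : u * (ξK + mon l D + E₀) * u⁻¹ = θ + mon l D + (E₁ + u * E₀ * u⁻¹) := by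
    rw [mul_add, mul_add, add_mul, add_mul, hconj, hE₁']
    abel
  have hE₂ : (E₁ + u * E₀ * u⁻¹).LB (D + 1) := by
    refine hE₁.add ?_
    have := (hu.mul hE₀).mul hui
    simpa using this
  obtain ⟨hv00, E', hE', hE''⟩ := conj_leading hθLB hθ1 hD hE₂ hb
  set v : SL S σ := 1 + mon b (D - 1) with hv
  have hvLB : v.LB 0 := lB_one.add ((lB_mon b (D - 1)).mono (by omega))
  have hv0 : v.coeff 0 = 1 := by
    rw [hv, coeff_add, coeff_one, if_pos rfl, (lB_mon b (D - 1)) 0 (by omega), add_zero]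
  refine ⟨v * u, E', ?_, ?_, hE', ?_⟩
  · have := hvLB.mul hu
    simpa using this
  · have := coeff_mul_add hvLB hu
    simpa [hv0, hu0] using this
  · rw [← hE'', ← h1, mul_inv_rev]
    noncomm_ring

end Comparison

section Hilbert

variable {S : Type*} [Ring S] {σ : RingAut S}

/-- Additive Hilbert 90: for any `x`, with `t x = ∑_{r<m} σ^r x`, there is `c` with
`σ c - c = m x - t x`. -/
theorem exists_delta_inv (m : ℕ) (x : S) :
    ∃ c : S, σ c - c = (m : S) * x - ∑ r ∈ range m, (σ ^ r) x := by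
  -- `y i = ∑_{j<i} σ^j x`
  let y : ℕ → S := fun i => ∑ j ∈ range i, (σ ^ j) x
  have hy : ∀ i, σ (y i) = y (i + 1) - x := by
    intro i
    simp only [y]
    rw [map_sum, sum_range_succ']
    simp only [pow_zero]
    have : ∀ j, σ ((σ ^ j) x) = (σ ^ (j + 1)) x := by
      intro j
      rw [pow_succ']
      rfl
    simp only [this]
    change _ = _ + x - x
    rw [add_sub_cancel_right]
  have hym : y m = ∑ r ∈ range m, (σ ^ r) x := rfl
  have hy0 : y 0 = 0 := by simp [y]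
  refine ⟨- ∑ i ∈ range m, y i, ?_⟩
  rw [map_neg, map_sum]
  simp only [hy]
  have h1 : ∑ i ∈ range m, (y (i + 1) - x) = ∑ i ∈ range m, y (i + 1) - (m : S) * x := by
    rw [sum_sub_distrib]
    simp
  have h2 : ∑ i ∈ range m, y (i + 1) = ∑ i ∈ range m, y i + y m := by
    have h3 := sum_range_succ y m
    have h4 := sum_range_succ' y m
    rw [h3, hy0, add_zero] at h4
    exact h4.symm
  rw [h1, h2, ← hym]
  abel

/-- The same with `m` invertible: `σ b - b = x - m⁻¹ t x`. -/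
theorem exists_delta_inv' {S : Type*} [DivisionRing S] {σ : RingAut S} (m : ℕ) (hm : (m : S) ≠ 0)
    (x : S) : ∃ b : S, σ b - b = x - (m : S)⁻¹ * ∑ r ∈ range m, (σ ^ r) x := by
  obtain ⟨c, hc⟩ := exists_delta_inv (σ := σ) m x
  refine ⟨(m : S)⁻¹ * c, ?_⟩
  rw [map_mul, map_inv₀, map_natCast, ← mul_sub, hc, mul_sub, ← mul_assoc, inv_mul_cancel₀ hm,
    one_mul]

end Hilbert

end Crest.Agent.Lib.Kurosh.NonComm
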