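import Mathlib
import Crest.Agent.Lib.Kurosh.RatExt
import Crest.Agent.Lib.Kurosh.FieldRL
import Crest.Agent.Lib.Kurosh.KPrime
import Crest.Agent.Lib.Kurosh.Mono
import Crest.Agent.Lib.Kurosh.NonComm
import Crest.Agent.Lib.Kurosh.PotCore

/-!
# Lemma Lead + C1 (S0270, blueprint 5(c))

`lead_core`: if `B` commutes with `ξ = a_0 ϖ + ...`, `val B ≥ c` and the pairing of `B` with all directions
`x0 ϖ^(m-c)` vanishes at order `ϖ^m`, then the coefficient of `B` at `c` vanishes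
as soon as `k0 ≤ c + 1 ≤ m`.
-/

set_option autoImplicit false

open scoped TensorProduct

namespace Crest.Agent.Lib.Kurosh.RelLead

open RatExt KPrime SL

set_option linter.unusedSectionVars false

variable {Z : Type} [Field Z] [CharZero Z] {Y : Type} [Fintype Y] [DecidableEq Y] {m : ℕ} [NeZero m]
  {K : Type} [Field K] [Algebra Z K] [FiniteDimensional Z K]

theorem normProd_aRL (f : Y → K) (c : ℕ) :
    NonComm.normProd (sR Z Y m K) (Mono.aRL Z Y m f 0) c =
      ∏ i ∈ Finset.range c, Mono.aRL Z Y m f ((i : ℕ) : ZMod m) := by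
  induction c with
  | zero => simp
  | succ c ih =>
    rw [NonComm.normProd_succ, ih, Finset.prod_range_succ, zpow_natCast, Mono.sR_pow_aRL, zero_add]

theorem sR_pow_prod (f : Y → K) (c r : ℕ) :
    (sR Z Y m K ^ r) (∏ i ∈ Finset.range c, Mono.aRL Z Y m f ((i : ℕ) : ZMod m)) =
      ∏ i ∈ Finset.range c, Mono.aRL Z Y m f ((r : ZMod m) + ((i : ℕ) : ZMod m)) := by
  rw [map_prod]
  refine Finset.prod_congr rfl fun i _ => ?_
  rw [Mono.sR_pow_aRL, add_comm]

theorem lam_sR_pow (l : K →ₗ[Z] Z) (r : ℕ) (x : RL Z Y m K) :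
    lam Z Y m l ((sR Z Y m K ^ r) x) = (s Z Y m ^ r) (lam Z Y m l x) := by
  induction r generalizing x with
  | zero => rfl
  | succ r ih =>
    rw [pow_succ, pow_succ]
    show lam Z Y m l ((sR Z Y m K ^ r) (sR Z Y m K x)) = (s Z Y m ^ r) (s Z Y m (lam Z Y m l x))
    rw [ih, lam_sR]

theorem sR_pow_iota (r : ℕ) (a : K) : (sR Z Y m K ^ r) (iota Z Y m K a) = iota Z Y m K a := by
  induction r with
  | zero => rfl
  | succ r ih =>
    rw [pow_succ]
    show (sR Z Y m K ^ r) (sR Z Y m K (iota Z Y m K a)) = _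
    rw [sR_iota, ih]

/-- The pairing `x ↦ Tr_K (b x)` on `L0 ⊗ K` is nondegenerate. -/
theorem eq_zero_of_lam_mul {b : RL Z Y m K} (h : ∀ x, lam Z Y m (Algebra.trace Z K) (b * x) = 0) :
    b = 0 := by
  by_contra hb
  have h1 := h b⁻¹
  rw [mul_inv_cancel₀ hb] at h1
  have h2 : (1 : RL Z Y m K) = (1 : L0 Z Y m) ⊗ₜ[Z] (1 : K) := rfl
  rw [h2, lam_tmul] at h1
  have h3 : Algebra.trace Z K (1 : K) ≠ 0 := by
    have e : (1 : K) = algebraMap Z K 1 := (map_one _).symm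
    rw [e, Algebra.trace_algebraMap, nsmul_eq_mul, mul_one]
    exact Nat.cast_ne_zero.mpr (Module.finrank_pos (R := Z) (M := K)).ne'
  have h4 : (Algebra.trace Z K (1 : K)) • (1 : L0 Z Y m) ≠ 0 := by
    rw [Algebra.smul_def, mul_one]
    exact (map_ne_zero _).mpr h3
  exact h4 h1

/-- **Lemma Lead + C1**. -/
theorem lead_core (f : Y → K) (w0 w1 : K) (hw0 : w0 ∈ Submodule.span Z (Set.range f))
    (hw1 : w1 ∈ Submodule.span Z (Set.range f)) (h0 : w0 ≠ 0)
    (hu : IntermediateField.adjoin Z {w1 / w0} = ⊤) (k0 : ℕ)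
    (hk0 : (Submodule.span Z (Set.range f)) ^ k0 = ⊤)
    (hm : (Module.finrank Z K) ^ (Module.finrank Z K + 1) ≤ m)
    {ξ B : SL (RL Z Y m K) (sR Z Y m K)} (hξ1 : ξ.LB 1)
    (hξa : ξ.coeff 1 = Mono.aRL Z Y m f 0) (hξ0 : ξ ≠ 0) (hval : SL.val ξ = 1)
    (hB : B ∈ Cent ξ) {c : ℕ} (hc : B.LB (c : ℤ)) (hc0 : k0 ≤ c + 1) (hcm : c + 1 ≤ m)
    (hdir : ∀ (y : Y) (x0 : L0 Z Y m),
      tr Z Y m (lam Z Y m (Algebra.trace Z K)
        (B.coeff (c : ℤ) * iotaL Z Y m K x0 * iota Z Y m K (f y))) = 0) :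
    B.coeff (c : ℤ) = 0 := by
  obtain ⟨β, hβ⟩ := exists_expansion hξ0 hval hB hc
  have hlead := hβ.coeff_lead (k := 0) (fun j hj => absurd hj (Nat.not_lt_zero j))
  have e0 : ((c : ℤ) + ((0 : ℕ) : ℤ)) = (c : ℤ) := by simp
  rw [e0, zpow_natCast, NonComm.coeff_pow_self hξ1, hξa, normProd_aRL] at hlead
  set N := ∏ i ∈ Finset.range c, Mono.aRL Z Y m f ((i : ℕ) : ZMod m) with hN
  set b0 := β 0 with hb0
  have hfix : sR Z Y m K b0 = b0 := hβ.fixed 0
  have hfixr : ∀ r : ℕ, (sR Z Y m K ^ r) b0 = b0 := by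
    intro r
    induction r with
    | zero => rfl
    | succ r ih =>
      rw [pow_succ]
      show (sR Z Y m K ^ r) (sR Z Y m K b0) = _
      rw [hfix, ih]
  -- first consequence
  have h1 : ∀ y, lam Z Y m (Algebra.trace Z K) (B.coeff (c : ℤ) * iota Z Y m K (f y)) = 0 := by
    intro y
    apply PotCore.eq_zero_of_tr_mul
    intro x0
    have := hdir y x0
    have e : B.coeff (c : ℤ) * iotaL Z Y m K x0 * iota Z Y m K (f y) =
        iotaL Z Y m K x0 * (B.coeff (c : ℤ) * iota Z Y m K (f y)) := by ring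
    rw [e, lam_iotaL_mul, mul_comm] at this
    exact this
  -- shifted
  have h2 : ∀ (y : Y) (r : ℕ), lam Z Y m (Algebra.trace Z K)
      (b0 * (iota Z Y m K (f y) * ∏ i ∈ Finset.range c,
        Mono.aRL Z Y m f ((r : ZMod m) + ((i : ℕ) : ZMod m)))) = 0 := by
    intro y r
    have h3 := h1 y
    rw [hlead] at h3
    have h4 : lam Z Y m (Algebra.trace Z K) ((sR Z Y m K ^ r) (b0 * N * iota Z Y m K (f y))) = 0 := by
      rw [lam_sR_pow, h3, map_zero]
    have e5 : (sR Z Y m K ^ r) (b0 * N * iota Z Y m K (f y)) =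
        b0 * (iota Z Y m K (f y) * ∏ i ∈ Finset.range c,
          Mono.aRL Z Y m f ((r : ZMod m) + ((i : ℕ) : ZMod m))) := by
      rw [map_mul (sR Z Y m K ^ r), map_mul (sR Z Y m K ^ r), hfixr, sR_pow_iota, hN, sR_pow_prod]
      ring
    rw [← e5]
    exact h4
  -- spanning
  have hspan := Mono.span_fN_of_C1 Z Y m f w0 w1 hw0 hw1 h0 hu k0 hk0 hm c hc0 hcm
  have hker : Submodule.span (L0 Z Y m) (Set.range fun p : Y × ZMod m =>
      (iota Z Y m K (f p.1)) * ∏ i ∈ Finset.range c, Mono.aRL Z Y m f (p.2 + (i : ZMod m))) ≤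
      LinearMap.ker ((lam Z Y m (Algebra.trace Z K)) ∘ₗ (LinearMap.mulLeft (L0 Z Y m) b0)) := by
    refine Submodule.span_le.mpr ?_
    rintro _ ⟨⟨y, r⟩, rfl⟩
    have := h2 y r.val
    rw [ZMod.natCast_zmod_val] at this
    exact this
  have hall : ∀ x, lam Z Y m (Algebra.trace Z K) (b0 * x) = 0 := by
    intro x
    have hx : x ∈ Submodule.span (L0 Z Y m) (Set.range fun p : Y × ZMod m =>
      (iota Z Y m K (f p.1)) * ∏ i ∈ Finset.range c, Mono.aRL Z Y m f (p.2 + (i : ZMod m))) := by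
      rw [hspan]; trivial
    exact hker hx
  rw [hlead, eq_zero_of_lam_mul hall, zero_mul]

end Crest.Agent.Lib.Kurosh.RelLead
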