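import Mathlib
import Crest.Agent.Lib.Kurosh.PsiCore
import Crest.Agent.Lib.Kurosh.RelLead
import Crest.Agent.Lib.Kurosh.IndCore

/-!
# S0270, blueprint 5(c): `Rel` pairs to zero with ALL directions (helper77)

* `conj_coeff`: from `U h U' = C ξ + G`, `U(0) = 1`, `G(0) = 0`: `h(0) = ξ` and `h_t = G_t + [ξ, U_t]`.
* `tr_mul_coeff_single`: a cyclic functional kills `s * h_t` as soon as it kills `s * G_t`, when `s` commutes with `ξ`.
* `pairKer`, `tr_dir_of_span`: the pairing with `X t` and with inner directions gives the pairing with all directions.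
* `rel_hdir`: the input of `RelLead.lead_core`.
-/

set_option autoImplicit false

namespace Crest.Agent.Lib.Kurosh.RelDir

open PsiCore

section Conj

open NCSeries

variable {A : Type*} [Ring A] {Y' : Type*}

theorem coeff_single_mul (t : Y') (f g : NCS A Y') :
    coeff [t] (f * g) = coeff [] f * coeff [t] g + coeff [t] f * coeff [] g := by
  rw [coeff_mul_cons, coeff_mul_nil, coeff_dl]

theorem coeff_nil_C (ξ : A) : coeff ([] : List Y') (C ξ) = ξ := rfl

theorem coeff_single_C (t : Y') (ξ : A) : coeff [t] (C ξ : NCS A Y') = 0 := rfl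

/-- The constant term and the linear coefficients of the conjugated series. -/
theorem conj_coeff {U U' h G : NCS A Y'} (h1 : coeff [] U = 1) (hu : U' * U = 1) {ξ : A}
    (hG : coeff [] G = 0) (hc : U * h * U' = C ξ + G) :
    coeff [] h = ξ ∧ ∀ t, coeff [t] h = coeff [t] G + ξ * coeff [t] U - coeff [t] U * ξ := by
  have hc' : U * h = (C ξ + G) * U := by
    rw [← hc, mul_assoc (U * h), hu, mul_one]
  have h0 : coeff [] h = ξ := by
    have := congrArg (coeff []) hc'
    rw [coeff_mul_nil, coeff_mul_nil, h1, one_mul, mul_one, coeff_add, hG, add_zero, coeff_nil_C] at this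
    exact this
  refine ⟨h0, fun t => ?_⟩
  have := congrArg (coeff [t]) hc'
  rw [coeff_single_mul, coeff_single_mul, h1, one_mul, mul_one, h0, coeff_add, coeff_add, hG, add_zero,
    coeff_nil_C, coeff_single_C, zero_add] at this
  rw [eq_sub_iff_add_eq, this, add_comm]

variable {M : Type*} [AddCommGroup M] (Tr : A →+ M) (hTr : ∀ a b, Tr (a * b) = Tr (b * a))
include hTr

/-- A cyclic functional kills the commutator `[ξ, a]` multiplied by an element commuting with `ξ`. -/
theorem tr_mul_comm_zero {s ξ : A} (hs : s * ξ = ξ * s) (a : A) : Tr (s * (ξ * a - a * ξ)) = 0 := by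
  rw [mul_sub, map_sub, ← mul_assoc s ξ a, hs, mul_assoc ξ s a, hTr ξ (s * a), ← mul_assoc s a ξ, sub_self]

theorem tr_mul_coeff_single {U U' h G : NCS A Y'} (h1 : coeff [] U = 1) (hu : U' * U = 1) {ξ : A}
    (hG : coeff [] G = 0) (hc : U * h * U' = C ξ + G) {s : A} (hs : s * ξ = ξ * s) (t : Y')
    (ht : Tr (s * coeff [t] G) = 0) : Tr (s * coeff [t] h) = 0 := by
  rw [(conj_coeff h1 hu hG hc).2 t, add_sub_assoc, mul_add, map_add, ht, zero_add]
  exact tr_mul_comm_zero Tr hTr hs _

end Conj

section Dir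

variable {R : Type*} [Ring R] {S : Type*} [Ring S] {σ : RingAut S} {Y : Type*} [Fintype Y]
variable (B : Base R S σ Y)
variable {F : Type*} [CommRing F] [Algebra F (SL S σ)] {M : Type*} [AddCommGroup M] [Module F M]

/-- Directions that pair to zero with `s` along `f`. -/
def pairKer (Tr : SL S σ →ₗ[F] M) (s : SL S σ) (f : NCS R Y) : Submodule F (Y → SL S σ) where
  carrier := {x | Tr (s * B.dir x f) = 0}
  add_mem' := by
    intro a b ha hb
    have e : B.dir (a + b) f = B.dir a f + B.dir b f := B.dir_add a b f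
    change Tr (s * B.dir a f) = 0 at ha
    change Tr (s * B.dir b f) = 0 at hb
    show Tr (s * B.dir (a + b) f) = 0
    rw [e, mul_add, map_add, ha, hb, add_zero]
  zero_mem' := by
    have e := B.dir_add (0 : Y → SL S σ) 0 f
    have h' : (fun y => (0 : Y → SL S σ) y + (0 : Y → SL S σ) y) = 0 := by
      funext y
      simp
    rw [h'] at e
    have e0 : B.dir (0 : Y → SL S σ) f = 0 := left_eq_add.mp e
    show Tr (s * B.dir 0 f) = 0
    rw [e0, mul_zero, map_zero]
  smul_mem' := by
    intro c a ha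
    have e : B.dir (c • a) f = algebraMap F (SL S σ) c * B.dir a f := by
      have := B.dir_mul_left (algebraMap F (SL S σ) c) (fun g => Algebra.commutes c g) a f
      rw [← this]
      congr 1
      funext y
      simp [Algebra.smul_def]
    change Tr (s * B.dir a f) = 0 at ha
    show Tr (s * B.dir (c • a) f) = 0
    rw [e, ← mul_assoc, ← Algebra.commutes c s, mul_assoc, ← Algebra.smul_def, map_smul, ha, smul_zero]

variable {B}

theorem mem_pairKer {Tr : SL S σ →ₗ[F] M} {s : SL S σ} {f : NCS R Y} {x : Y → SL S σ} :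
    x ∈ pairKer B Tr s f ↔ Tr (s * B.dir x f) = 0 := Iff.rfl

/-- Inner directions pair to zero with anything commuting with the value. -/
theorem inn_mem_pairKer {Tr : SL S σ →ₗ[F] M} (hTr : ∀ a b, Tr (a * b) = Tr (b * a))
    {s : SL S σ} {f : NCS R Y} (hs : s * B.value f = B.value f * s) (c : SL S σ)
    (hc : ∀ r, B.ρ r * c = c * B.ρ r) :
    (fun y => B.τ y * c - c * B.τ y) ∈ pairKer B Tr s f := by
  rw [mem_pairKer, B.dir_inn c hc f]
  exact tr_mul_comm_zero (Tr : SL S σ →+ M) hTr hs c

/-- A module of directions spanned by `X t` modulo inner directions. -/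
theorem tr_dir_of_span {T C' ι : Type*} [AddCommGroup T] [Module F T] [AddCommGroup C'] [Module F C']
    (emb : T →ₗ[F] (Y → SL S σ)) (X : ι → T) (I : C' →ₗ[F] T)
    (hc : Submodule.span F (Set.range X) ⊔ LinearMap.range I = ⊤)
    {Tr : SL S σ →ₗ[F] M} (hTr : ∀ a b, Tr (a * b) = Tr (b * a))
    {s : SL S σ} {f : NCS R Y} (hs : s * B.value f = B.value f * s)
    (hX : ∀ t, Tr (s * B.dir (emb (X t)) f) = 0)
    (hI : ∀ c, ∃ c' : SL S σ, emb (I c) = (fun y => B.τ y * c' - c' * B.τ y) ∧ ∀ r, B.ρ r * c' = c' * B.ρ r)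
    (x : T) : Tr (s * B.dir (emb x) f) = 0 := by
  have hle : (⊤ : Submodule F T) ≤ (pairKer B Tr s f).comap emb := by
    rw [← hc, sup_le_iff]
    constructor
    · rw [Submodule.span_le]
      rintro _ ⟨t, rfl⟩
      exact hX t
    · rintro _ ⟨c, rfl⟩
      obtain ⟨c', h1, h2⟩ := hI c
      show emb (I c) ∈ pairKer B Tr s f
      rw [h1]
      exact inn_mem_pairKer hTr hs c' h2
  exact hle Submodule.mem_top

end Dir

section Lead

open RatExt KPrime

set_option linter.unusedSectionVars false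

variable {Z : Type} [Field Z] [CharZero Z] {Y : Type} [Fintype Y] [DecidableEq Y] {m : ℕ} [NeZero m]
  {K : Type} [Field K] [Algebra Z K] [FiniteDimensional Z K]

theorem sR_pow_iotaL (c : ℕ) (a : L0 Z Y m) :
    (sR Z Y m K ^ c) (iotaL Z Y m K a) = iotaL Z Y m K ((s Z Y m ^ c) a) :=
  sR_pow_tmul Z Y m K c a 1

/-- The input `hdir` of `lead_core`, from the pairing with all monomial directions (level `0`). -/
theorem rel_hdir {B : Base K (RL Z Y m K) (sR Z Y m K) Y} {b : Y → RL Z Y m K}
    (hB : IsMonBase B b (iota Z Y m K : K →+* RL Z Y m K)) (g : NCS K Y)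
    {x : SL (RL Z Y m K) (sR Z Y m K)} {c : ℕ} (hc : x.LB (c : ℤ))
    (hpair : ∀ (xx : Y → L0 Z Y m), tr Z Y m (lam Z Y m (Algebra.trace Z K)
      ((x * B.dir (fun y => SL.mon (iotaL Z Y m K (xx y)) (-(c : ℤ))) g).coeff 0)) = 0)
    (y : Y) (x0 : L0 Z Y m) :
    tr Z Y m (lam Z Y m (Algebra.trace Z K)
      (x.coeff (c : ℤ) * iotaL Z Y m K x0 * iota Z Y m K (NCSeries.coeff [y] g))) = 0 := by
  classical
  let x1 : L0 Z Y m := ((s Z Y m ^ c)⁻¹) x0
  have hx1 : (s Z Y m ^ c) x1 = x0 := by
    simp only [x1]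
    rw [← AlgEquiv.mul_apply, mul_inv_cancel]
    rfl
  have h := hpair (fun y' => if y' = y then x1 else 0)
  have hLB : ∀ y', (SL.mon (iotaL Z Y m K (if y' = y then x1 else 0)) (-(c : ℤ)) :
      SL (RL Z Y m K) (sR Z Y m K)).LB (-(c : ℤ)) := fun y' => SL.lB_mon _ _
  have hD := IndCore.coeff_dir_lead hB hLB g
  rw [Finset.sum_eq_single y] at hD
  · have hDLB : (B.dir (fun y' => SL.mon (iotaL Z Y m K (if y' = y then x1 else 0)) (-(c : ℤ))) g).LB
        (-(c : ℤ)) := by
      have := dirW_cons_LB (B := B)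
        (x := fun y' => SL.mon (iotaL Z Y m K (if y' = y then x1 else 0)) (-(c : ℤ))) (xs := [])
        (a := -(c : ℤ)) (c := 0) hLB (fun f => B.value_LB f) g
      simpa using this
    have e := SL.coeff_mul_add hc hDLB
    have em : (c : ℤ) + (-(c : ℤ)) = 0 := by ring
    rw [em] at e
    rw [e, hD] at h
    simp only [if_true, SL.coeff_mon_self] at h
    rw [zpow_natCast, map_mul (sR Z Y m K ^ c), sR_pow_iotaL, hx1] at h
    have e3 : (sR Z Y m K ^ c) ((iota Z Y m K : K →+* RL Z Y m K) (NCSeries.coeff [y] g)) =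
        iota Z Y m K (NCSeries.coeff [y] g) := RelLead.sR_pow_iota c _
    rw [e3, ← mul_assoc] at h
    exact h
  · intro y' _ hne
    simp [hne]
  · simp

end Lead

end Crest.Agent.Lib.Kurosh.RelDir
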