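import Mathlib
import Crest.Agent.Lib.Kurosh.FieldC1

/-!
# Field lemmas around Theorem R (S0270, blueprint 5(c),(d))

`perp φ W`, `finrank_perp`; a subspace `W` of small codimension (the condition `Rich`) satisfies
`W * W = ⊤` and contains a primitive ratio; a primitive ratio gives `W ^ e = ⊤`.
-/

set_option autoImplicit false

namespace Crest.Agent.Lib.Kurosh.RichField

open Module

variable {Z K : Type*} [Field Z] [Field K] [Algebra Z K]

/-- The orthogonal of `W` for the form `(s, w) ↦ φ (s * w)`. -/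
def perp (φ : K →ₗ[Z] Z) (W : Submodule Z K) : Submodule Z K where
  carrier := {s | ∀ w ∈ W, φ (s * w) = 0}
  add_mem' := by
    intro a b ha hb w hw
    rw [add_mul, map_add, ha w hw, hb w hw, add_zero]
  zero_mem' := by
    intro w _
    rw [zero_mul, map_zero]
  smul_mem' := by
    intro c a ha w hw
    rw [smul_mul_assoc, map_smul, ha w hw, smul_zero]

theorem mem_perp {φ : K →ₗ[Z] Z} {W : Submodule Z K} {s : K} :
    s ∈ perp φ W ↔ ∀ w ∈ W, φ (s * w) = 0 := Iff.rfl

variable [FiniteDimensional Z K]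

/-- The bilinear form. -/
noncomputable def formOf (φ : K →ₗ[Z] Z) : LinearMap.BilinForm Z K :=
  (LinearMap.mul Z K).compr₂ φ

omit [FiniteDimensional Z K] in
theorem formOf_apply (φ : K →ₗ[Z] Z) (a b : K) : formOf φ a b = φ (a * b) := rfl

omit [FiniteDimensional Z K] in
theorem formOf_nondegenerate {φ : K →ₗ[Z] Z} (hφ : φ ≠ 0) : (formOf φ).Nondegenerate := by
  obtain ⟨a, ha⟩ : ∃ a, φ a ≠ 0 := by
    by_contra h
    push Not at h
    exact hφ (LinearMap.ext h)
  constructor
  · intro x hx
    by_contra hx0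
    apply ha
    have := hx (x⁻¹ * a)
    rw [formOf_apply, ← mul_assoc, mul_inv_cancel₀ hx0, one_mul] at this
    exact this
  · intro x hx
    by_contra hx0
    apply ha
    have := hx (a * x⁻¹)
    rw [formOf_apply, mul_assoc, inv_mul_cancel₀ hx0, mul_one] at this
    exact this

/-- `dim W^⊥ = dim K - dim W`. -/
theorem finrank_perp {φ : K →ₗ[Z] Z} (hφ : φ ≠ 0) (W : Submodule Z K) :
    finrank Z (perp φ W) = finrank Z K - finrank Z W := by
  have h := LinearMap.BilinForm.finrank_orthogonal (formOf_nondegenerate hφ) W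
  have e : (formOf φ).orthogonal W = perp φ W := by
    ext s
    simp only [LinearMap.BilinForm.mem_orthogonal_iff, mem_perp, formOf_apply]
    constructor
    · intro hs w hw
      rw [mul_comm]
      exact hs w hw
    · intro hs w hw
      rw [mul_comm]
      exact hs w hw
  rw [← e, h]

/-- The condition `Rich`: the codimension of `W` is small. -/
def Rich (W : Submodule Z K) : Prop :=
  7 * (finrank Z K - finrank Z W) + 1 ≤ finrank Z K

omit [FiniteDimensional Z K] in
theorem finrank_map_mulLeft (w0 : K) (hw0 : w0 ≠ 0) (W : Submodule Z K) :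
    finrank Z (W.map (LinearMap.mulLeft Z w0)) = finrank Z W := by
  have hinj : Function.Injective (LinearMap.mulLeft Z w0) := by
    intro a b hab
    exact mul_left_cancel₀ hw0 hab
  exact (Submodule.equivMapOfInjective _ hinj W).finrank_eq.symm

theorem exists_ne_zero_of_rich {W : Submodule Z K} (hW : Rich W) : ∃ w0 ∈ W, w0 ≠ 0 := by
  have he : 0 < finrank Z K := finrank_pos
  have hd : finrank Z W ≠ 0 := by
    intro h0
    unfold Rich at hW
    omega
  have hne : W ≠ ⊥ := by
    rintro rfl
    exact hd (finrank_bot Z K)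
  exact (Submodule.ne_bot_iff _).mp hne

/-- `Rich W` forces `W * W = ⊤`. -/
theorem mul_self_eq_top {W : Submodule Z K} (hW : Rich W) : W * W = ⊤ := by
  by_contra hne
  have hlt : W * W < ⊤ := lt_top_iff_ne_top.mpr hne
  obtain ⟨f, hf0, hf⟩ := Submodule.exists_le_ker_of_lt_top _ hlt
  have hle : W ≤ perp f W := fun w hw v hv => hf (Submodule.mul_mem_mul hw hv)
  have h1 := Submodule.finrank_mono hle
  rw [finrank_perp hf0] at h1
  have he : 0 < finrank Z K := finrank_pos
  have hd : finrank Z W ≤ finrank Z K := Submodule.finrank_le W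
  unfold Rich at hW
  omega

theorem finrank_two_mul_le_of_ne_top (F : IntermediateField Z K) (hF : F ≠ ⊤) :
    2 * finrank Z F ≤ finrank Z K := by
  have h1 := Module.finrank_mul_finrank Z F K
  have h2 : finrank F K ≠ 1 := fun h => hF (IntermediateField.finrank_eq_one_iff_eq_top.mp h)
  have h3 : 0 < finrank F K := finrank_pos
  have h4 : 2 ≤ finrank F K := by omega
  rw [← h1, mul_comm]
  exact Nat.mul_le_mul_left _ h4

/-- `Rich W` gives a primitive ratio. -/
theorem exists_prim [CharZero Z] {W : Submodule Z K} (hW : Rich W) :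
    ∃ w0 ∈ W, ∃ w1 ∈ W, w0 ≠ 0 ∧ IntermediateField.adjoin Z {w1 / w0} = ⊤ := by
  classical
  obtain ⟨w0, hw0, h0⟩ := exists_ne_zero_of_rich hW
  have hfin : Finite (IntermediateField Z K) :=
    Field.finite_intermediateField_of_exists_primitive_element Z K (Field.exists_primitive_element Z K)
  have := Fintype.ofFinite (IntermediateField Z K)
  -- the proper subspaces of `W`
  let P : IntermediateField Z K → Submodule Z W := fun F =>
    (F.toSubalgebra.toSubmodule.map (LinearMap.mulLeft Z w0)).comap W.subtype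
  let s : Finset (Submodule Z W) := (Finset.univ.filter (fun F => F ≠ ⊤)).image P
  have htop : (⊤ : Submodule Z W) ∉ s := by
    intro hmem
    obtain ⟨F, hF, hP⟩ := Finset.mem_image.mp hmem
    have hF' : F ≠ ⊤ := (Finset.mem_filter.mp hF).2
    have hle : W ≤ F.toSubalgebra.toSubmodule.map (LinearMap.mulLeft Z w0) := by
      intro w hw
      have : (⟨w, hw⟩ : W) ∈ P F := by rw [hP]; trivial
      exact this
    have h1 := Submodule.finrank_mono hle
    rw [finrank_map_mulLeft w0 h0] at h1
    have h2 := finrank_two_mul_le_of_ne_top F hF'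
    have h3 : finrank Z F.toSubalgebra.toSubmodule = finrank Z F := rfl
    rw [h3] at h1
    have he : 0 < finrank Z K := finrank_pos
    have hd : finrank Z W ≤ finrank Z K := Submodule.finrank_le W
    unfold Rich at hW
    omega
  have hne := Subspace.biUnion_ne_univ_of_top_notMem htop
  obtain ⟨x, hx⟩ := (Set.ne_univ_iff_exists_notMem _).mp hne
  refine ⟨w0, hw0, x.1, x.2, h0, ?_⟩
  by_contra hF
  apply hx
  have hmem : P (IntermediateField.adjoin Z {x.1 / w0}) ∈ s :=
    Finset.mem_image.mpr ⟨_, Finset.mem_filter.mpr ⟨Finset.mem_univ _, hF⟩, rfl⟩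
  refine Set.mem_biUnion hmem ?_
  refine ⟨x.1 / w0, IntermediateField.mem_adjoin_simple_self Z _, ?_⟩
  show w0 * (x.1 / w0) = x.1
  field_simp

/-- A primitive ratio gives `W ^ e = ⊤`. -/
theorem pow_eq_top_of_prim {W : Submodule Z K} {w0 w1 : K} (hw0 : w0 ∈ W) (hw1 : w1 ∈ W)
    (h0 : w0 ≠ 0) (hu : IntermediateField.adjoin Z {w1 / w0} = ⊤) :
    W ^ finrank Z K = ⊤ := by
  have hspan := FieldC1.span_mul_top (Z := Z) (w0 ^ finrank Z K) (pow_ne_zero _ h0)
    _ (FieldC1.span_powers_eq_top (w1 / w0) hu)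
  rw [eq_top_iff, ← hspan, Submodule.span_le]
  rintro _ ⟨c, rfl⟩
  have hc : (c : ℕ) ≤ finrank Z K := c.2.le
  have e : w0 ^ finrank Z K * (w1 / w0) ^ (c : ℕ) = w0 ^ (finrank Z K - c) * w1 ^ (c : ℕ) := by
    rw [div_pow]
    have : w0 ^ finrank Z K = w0 ^ (finrank Z K - c) * w0 ^ (c : ℕ) := by
      rw [← pow_add, Nat.sub_add_cancel hc]
    rw [this]
    field_simp
  show w0 ^ finrank Z K * (w1 / w0) ^ (c : ℕ) ∈ W ^ finrank Z K
  rw [e]
  have : W ^ finrank Z K = W ^ (finrank Z K - c) * W ^ (c : ℕ) := by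
    rw [← pow_add, Nat.sub_add_cancel hc]
  rw [this]
  exact Submodule.mul_mem_mul (Submodule.pow_mem_pow _ hw0 _) (Submodule.pow_mem_pow _ hw1 _)

end Crest.Agent.Lib.Kurosh.RichField
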