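import Crest.Agent.Lib.Kurosh.NCSeries

/-!
# Section 6.1 of the S0270 blueprint: the conjugation normal form

`A` a ring, `Y` letters with a distinguished letter `z`.  Let `g` have zero constant term and linear
part exactly `z`.  Then `g` is conjugate, by a unit `U` with constant term `1` which is trivial on
words in the single letter `z`, to a series `f` with
* `f` has the same coefficients as `g` on the words `z^k`;
* `f` vanishes on every word which ends in `z` and contains a letter other than `z`.

So `f = z + Func_{≥2}(z) + ∑ A_{t,c} z^t c`, where `c` runs over the core words (words that start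
and end with a letter different from `z`), see `exists_core`.

The construction is an explicit recursion on the length of the words, no division is needed.
-/

set_option autoImplicit false

namespace Crest.Agent.Lib.Kurosh.NormalForm

open NCSeries

universe u v

variable {A : Type v} [Ring A] {Y : Type u} [DecidableEq Y]

/-- `Pure z w`: all letters of `w` are `z`. -/
def Pure (z : Y) (w : List Y) : Prop := ∀ a ∈ w, a = z

instance (z : Y) (w : List Y) : Decidable (Pure z w) := by
  unfold Pure; exact inferInstance

/-- The telescoping sum over the rotations of leading `z`'s. -/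
def rs (z : Y) (T : List Y → A) : List Y → List Y → A
  | [], _ => 0
  | p :: x, tl => T (p :: x ++ tl) + if p = z then rs z T x (tl ++ [z]) else 0

theorem rs_congr (z : Y) {T T' : List Y → A} (x tl : List Y)
    (h : ∀ w : List Y, w.length = x.length + tl.length → T w = T' w) :
    rs z T x tl = rs z T' x tl := by
  induction x generalizing tl with
  | nil => rfl
  | cons p x ih =>
    simp only [rs]
    rw [h _ (by simp; omega)]
    congr 1
    split_ifs
    · exact ih _ (fun w hw => h w (by simp at hw ⊢; omega))
    · rfl

/-- Moving the non-leading part to the tail. -/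
theorem rs_append (z : Y) (T : List Y → A) (a b tl : List Y) (ha : ¬ Pure z a) :
    rs z T (a ++ b) tl = rs z T a (b ++ tl) := by
  induction a generalizing tl with
  | nil => exact absurd (fun x hx => by simp at hx) ha
  | cons p a ih =>
    simp only [List.cons_append, rs, List.append_assoc]
    congr 1
    by_cases hp : p = z
    · subst hp
      have : ¬ Pure p a := fun h => ha (fun x hx => by
        rcases List.mem_cons.1 hx with rfl | hx
        · rfl
        · exact h x hx)
      simp only [if_true]
      rw [ih _ this]
    · simp [hp]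

/-- The inhomogeneous term. -/
def T (g : NCS A Y) (U f : List Y → A) (w : List Y) : A :=
  ∑ i ∈ Finset.range (w.length - 1), U (w.take i) * coeff (w.drop i) g
    - ∑ i ∈ Finset.Ico 2 w.length, f (w.take i) * U (w.drop i)

/-- The new value of `U`. -/
def Unew (z : Y) (TT : List Y → A) (x : List Y) : A :=
  if Pure z x then 0 else - rs z TT x [z]

/-- The new value of `f`. -/
def fnew (z : Y) (TT : List Y → A) (w : List Y) : A :=
  if Pure z w then TT w else if w.getLast? = some z then 0 else rs z TT w []

/-- The recursion on the length. -/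
def st (z : Y) (g : NCS A Y) : ℕ → (List Y → A) × (List Y → A)
  | 0 => (fun w => if w = [] then 1 else 0, fun w => if w = [] then 0 else if w = [z] then 1 else 0)
  | D + 1 =>
    (fun w => if w.length = D + 1 then Unew z (T g (st z g D).1 (st z g D).2) w else (st z g D).1 w,
     fun w => if w.length = D + 2 then fnew z (T g (st z g D).1 (st z g D).2) w else (st z g D).2 w)

/-- The conjugator, as a function on words. -/
def Uf (z : Y) (g : NCS A Y) (w : List Y) : A := (st z g w.length).1 w

/-- The conjugate, as a function on words. -/
def ff (z : Y) (g : NCS A Y) (w : List Y) : A := (st z g w.length).2 w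

theorem st_fst_stable (z : Y) (g : NCS A Y) (w : List Y) {n : ℕ} (h : w.length ≤ n) :
    (st z g n).1 w = Uf z g w := by
  induction n, h using Nat.le_induction with
  | base => rfl
  | succ n hn ih =>
    have : w.length ≠ n + 1 := by omega
    simp only [st, if_neg this]
    exact ih

theorem st_snd_stable (z : Y) (g : NCS A Y) (w : List Y) {n : ℕ} (h : w.length ≤ n) :
    (st z g n).2 w = ff z g w := by
  induction n, h using Nat.le_induction with
  | base => rfl
  | succ n hn ih =>
    have : w.length ≠ n + 2 := by omega
    simp only [st, if_neg this]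
    exact ih

theorem st_snd_stable' (z : Y) (g : NCS A Y) (w : List Y) {n : ℕ} (h : w.length = n + 1) :
    (st z g n).2 w = ff z g w := by
  have h2 : ff z g w = (st z g (n + 1)).2 w := by
    rw [ff, h]
  have : w.length ≠ n + 2 := by omega
  rw [h2]
  simp only [st, if_neg this]

theorem T_st (z : Y) (g : NCS A Y) (D : ℕ) (w : List Y) (hw : w.length = D + 2) :
    T g (st z g D).1 (st z g D).2 w = T g (Uf z g) (ff z g) w := by
  unfold T
  congr 1
  · refine Finset.sum_congr rfl fun i hi => ?_
    rw [Finset.mem_range] at hi
    rw [st_fst_stable z g _ (by rw [List.length_take]; omega)]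
  · refine Finset.sum_congr rfl fun i hi => ?_
    rw [Finset.mem_Ico] at hi
    rw [st_fst_stable z g (w.drop i) (by rw [List.length_drop]; omega)]
    have hlen : (w.take i).length ≤ D + 1 := by rw [List.length_take]; omega
    by_cases hi' : (w.take i).length = D + 1
    · rw [st_snd_stable' z g _ hi']
    · rw [st_snd_stable z g _ (by omega)]

theorem Uf_succ (z : Y) (g : NCS A Y) {x : List Y} (hx : x ≠ []) :
    Uf z g x = Unew z (T g (Uf z g) (ff z g)) x := by
  obtain ⟨D, hD⟩ : ∃ D, x.length = D + 1 := ⟨x.length - 1, by
    have := List.length_pos_iff.mpr hx; omega⟩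
  rw [Uf, hD]
  simp only [st, if_pos hD]
  unfold Unew
  split_ifs with hp
  · rfl
  · rw [rs_congr z (T := T g (st z g D).1 (st z g D).2) (T' := T g (Uf z g) (ff z g)) x [z]
      (fun w hw => T_st z g D w (by simpa [hD] using hw))]

theorem ff_succ (z : Y) (g : NCS A Y) {w : List Y} (hw : 2 ≤ w.length) :
    ff z g w = fnew z (T g (Uf z g) (ff z g)) w := by
  obtain ⟨D, hD⟩ : ∃ D, w.length = D + 2 := ⟨w.length - 2, by omega⟩
  have h0 : ff z g w = (st z g (D + 1)).2 w := (st_snd_stable' z g w (n := D + 1) (by omega)).symm
  rw [h0]
  simp only [st, if_pos hD]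
  unfold fnew
  split_ifs with hp hl
  · exact T_st z g D w hD
  · rfl
  · exact rs_congr z w [] (fun v hv => T_st z g D v (by simpa [hD] using hv))


@[simp] theorem Uf_nil (z : Y) (g : NCS A Y) : Uf z g [] = 1 := by
  simp [Uf, st]

@[simp] theorem ff_nil (z : Y) (g : NCS A Y) : ff z g [] = 0 := by
  simp [ff, st]

theorem ff_single (z : Y) (g : NCS A Y) (l : Y) : ff z g [l] = if l = z then 1 else 0 := by
  simp [ff, st]

theorem Uf_pure (z : Y) (g : NCS A Y) {x : List Y} (hx : x ≠ []) (hp : Pure z x) : Uf z g x = 0 := by
  rw [Uf_succ z g hx, Unew, if_pos hp]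

theorem Uf_not_pure (z : Y) (g : NCS A Y) {x : List Y} (hp : ¬ Pure z x) :
    Uf z g x = - rs z (T g (Uf z g) (ff z g)) x [z] := by
  have hx : x ≠ [] := by
    rintro rfl
    exact hp (fun a ha => by simp at ha)
  rw [Uf_succ z g hx, Unew, if_neg hp]

/-- Membership in a pure word. -/
theorem pure_cons {z a : Y} {x : List Y} : Pure z (a :: x) ↔ a = z ∧ Pure z x := by
  simp [Pure]

theorem pure_append {z : Y} {x y : List Y} : Pure z (x ++ y) ↔ Pure z x ∧ Pure z y := by
  unfold Pure
  simp only [List.mem_append]
  constructor
  · intro h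
    exact ⟨fun a ha => h a (Or.inl ha), fun a ha => h a (Or.inr ha)⟩
  · rintro ⟨h1, h2⟩ a (ha | ha)
    · exact h1 a ha
    · exact h2 a ha

/-- The master equation (E). -/
theorem master (z : Y) (g : NCS A Y) (a : Y) (x : List Y) (l : Y) :
    ff z g (a :: x ++ [l]) = (if l = z then Uf z g (a :: x) else 0)
      - (if a = z then Uf z g (x ++ [l]) else 0) + T g (Uf z g) (ff z g) (a :: x ++ [l]) := by
  have hlen : 2 ≤ (a :: x ++ [l]).length := by simp
  rw [ff_succ z g hlen, fnew]
  by_cases hp : Pure z (a :: x ++ [l])
  · -- pure word
    rw [if_pos hp]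
    have hp' : Pure z (a :: x) ∧ Pure z [l] := by
      have : a :: x ++ [l] = (a :: x) ++ [l] := rfl
      rw [this] at hp
      exact pure_append.1 hp
    have ha : a = z := (pure_cons.1 hp'.1).1
    have hl : l = z := hp'.2 l (by simp)
    have hx : Pure z x := (pure_cons.1 hp'.1).2
    rw [if_pos hl, if_pos ha, Uf_pure z g (by simp) hp'.1,
      Uf_pure z g (by simp) (pure_append.2 ⟨hx, hp'.2⟩)]
    simp
  · rw [if_neg hp]
    by_cases hl : l = z
    · -- ends in z, contains another letter
      subst hl
      have hlast : (a :: x ++ [l]).getLast? = some l := by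
        have : a :: x ++ [l] = (a :: x) ++ [l] := rfl
        rw [this, List.getLast?_concat]
      rw [if_pos hlast, if_pos rfl]
      have hax : ¬ Pure l (a :: x) := fun h => hp (by
        have : a :: x ++ [l] = (a :: x) ++ [l] := rfl
        rw [this]
        exact pure_append.2 ⟨h, fun b hb => by simpa using hb⟩)
      rw [Uf_not_pure l g hax]
      by_cases ha : a = l
      · subst ha
        have hx : ¬ Pure a x := fun h => hax (pure_cons.2 ⟨rfl, h⟩)
        have hxl : ¬ Pure a (x ++ [a]) := fun h => hx (pure_append.1 h).1
        rw [if_pos rfl, Uf_not_pure a g hxl, rs_append a _ x [a] [a] hx]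
        simp only [rs, if_true]
        simp only [List.cons_append, List.nil_append]
        abel_nf
        try simp
      · rw [if_neg ha]
        simp only [rs, if_neg ha]
        simp only [List.cons_append]
        abel_nf
        try simp
    · -- ends in a letter other than z
      have hlast : ¬ (a :: x ++ [l]).getLast? = some z := by
        have : a :: x ++ [l] = (a :: x) ++ [l] := rfl
        rw [this, List.getLast?_concat]
        simpa using hl
      rw [if_neg hlast, if_neg hl]
      by_cases ha : a = z
      · subst ha
        have hx : ¬ Pure a (x ++ [l]) := fun h => hp (by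
          have : a :: x ++ [l] = a :: (x ++ [l]) := rfl
          rw [this]
          exact pure_cons.2 ⟨rfl, h⟩)
        rw [if_pos rfl, Uf_not_pure a g hx]
        simp only [List.cons_append, rs, if_true, List.nil_append, List.append_nil]
        abel_nf
      · rw [if_neg ha]
        simp only [List.cons_append, rs, if_neg ha, List.append_nil]
        abel_nf


/-- Splitting a sum over the splittings of a word of length `n + 2`. -/
theorem sum_range_three {M : Type*} [AddCommMonoid M] (n : ℕ) (φ : ℕ → M) :
    ∑ i ∈ Finset.range (n + 3), φ i = φ 0 + φ 1 + ∑ i ∈ Finset.Ico 2 (n + 2), φ i + φ (n + 2) := by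
  rw [Finset.sum_range_succ, Finset.range_eq_Ico, Finset.sum_eq_sum_Ico_succ_bot (by omega),
    Finset.sum_eq_sum_Ico_succ_bot (by omega)]
  simp only [zero_add, add_assoc]

variable (z : Y) (g : NCS A Y)

/-- The conjugator `U` as a series. -/
def conjU : NCS A Y := Uf z g

/-- The normal form `f` as a series. -/
def conjF : NCS A Y := ff z g

@[simp] theorem coeff_conjU (w : List Y) : coeff w (conjU z g) = Uf z g w := rfl
@[simp] theorem coeff_conjF (w : List Y) : coeff w (conjF z g) = ff z g w := rfl

variable {z g}

/-- The key relation `U g = f U`. -/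
theorem conjU_mul (hg0 : coeff [] g = 0) (hg1 : ∀ l, coeff [l] g = if l = z then 1 else 0) :
    conjU z g * g = conjF z g * conjU z g := by
  ext w
  rcases w with _ | ⟨a, w⟩
  · simp [coeff_mul_nil, hg0]
  · rcases List.eq_nil_or_concat w with rfl | ⟨x, l, rfl⟩
    · rw [coeff_mul, coeff_mul]
      simp [Finset.sum_range_succ, hg0, hg1, ff_single]
    · rw [List.concat_eq_append]
      have hlen : (a :: (x ++ [l])).length = x.length + 2 := by simp
      have hm := master z g a x l
      have hcons : a :: x ++ [l] = a :: (x ++ [l]) := rfl
      rw [hcons] at hm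
      rw [coeff_mul, coeff_mul, hlen]
      rw [sum_range_three (x.length) (fun i => coeff (List.take i (a :: (x ++ [l]))) (conjF z g) *
        coeff (List.drop i (a :: (x ++ [l]))) (conjU z g)),
        Finset.sum_range_succ, Finset.sum_range_succ]
      have t0 : (a :: (x ++ [l])).take 0 = [] := rfl
      have t1 : (a :: (x ++ [l])).take 1 = [a] := by simp
      have d0 : (a :: (x ++ [l])).drop 0 = a :: (x ++ [l]) := rfl
      have d1 : (a :: (x ++ [l])).drop 1 = x ++ [l] := by simp
      have t2 : (a :: (x ++ [l])).take (x.length + 2) = a :: (x ++ [l]) := by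
        apply List.take_of_length_le; simp
      have d2 : (a :: (x ++ [l])).drop (x.length + 2) = [] := by
        apply List.drop_of_length_le; simp
      have t3 : (a :: (x ++ [l])).take (x.length + 1) = a :: x := by
        simp
      have d3 : (a :: (x ++ [l])).drop (x.length + 1) = [l] := by
        simp
      simp only [t0, t1, d0, d1, t2, d2, t3, d3]
      simp only [coeff_conjU, coeff_conjF, Uf_nil, ff_nil, zero_mul, zero_add, mul_one, hg0,
        mul_zero, add_zero, ff_single, hg1]
      rw [hm]
      unfold T
      rw [hlen]
      have e1 : x.length + 2 - 1 = x.length + 1 := rfl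
      rw [e1]
      set S1 := ∑ i ∈ Finset.range (x.length + 1), Uf z g (List.take i (a :: (x ++ [l]))) *
        coeff (List.drop i (a :: (x ++ [l]))) g
      set S2 := ∑ i ∈ Finset.Ico 2 (x.length + 2), ff z g (List.take i (a :: (x ++ [l]))) *
        Uf z g (List.drop i (a :: (x ++ [l])))
      by_cases ha : a = z <;> by_cases hl : l = z <;> simp only [ha, hl, if_true, if_false, one_mul, zero_mul, mul_one, mul_zero] <;> abel

/-- The unit `U` and its inverse. -/
theorem exists_inv (U : NCS A Y) (hU : coeff [] U = 1) : ∃ U' : NCS A Y, U * U' = 1 ∧ U' * U = 1 := by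
  have : IsUnit U := isUnit_of_isUnit_coeff_nil (by rw [hU]; exact isUnit_one)
  obtain ⟨u, rfl⟩ := this
  exact ⟨(u⁻¹ : (NCS A Y)ˣ), u.mul_inv, u.inv_mul⟩

omit [DecidableEq Y] in
theorem pure_replicate (z : Y) (k : ℕ) : Pure z (List.replicate k z) := by
  intro a ha
  exact List.eq_of_mem_replicate ha

omit [DecidableEq Y] in
theorem Pure.take {z : Y} {w : List Y} (h : Pure z w) (i : ℕ) : Pure z (w.take i) :=
  fun a ha => h a (List.mem_of_mem_take ha)

omit [DecidableEq Y] in
theorem Pure.drop {z : Y} {w : List Y} (h : Pure z w) (i : ℕ) : Pure z (w.drop i) :=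
  fun a ha => h a (List.mem_of_mem_drop ha)

/-- On words in the letter `z` only the conjugation changes nothing. -/
theorem ff_pure (hg0 : coeff [] g = 0) (hg1 : ∀ l, coeff [l] g = if l = z then 1 else 0)
    {w : List Y} (hw : Pure z w) : ff z g w = coeff w g := by
  rcases w with _ | ⟨a, w⟩
  · simp [hg0]
  · rcases w with _ | ⟨b, w⟩
    · rw [ff_single, hg1]
    · have hlen : 2 ≤ (a :: b :: w).length := by simp
      rw [ff_succ z g hlen, fnew, if_pos hw, T]
      have h2 : ∑ i ∈ Finset.Ico 2 (a :: b :: w).length,
          ff z g ((a :: b :: w).take i) * Uf z g ((a :: b :: w).drop i) = 0 := by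
        refine Finset.sum_eq_zero fun i hi => ?_
        rw [Finset.mem_Ico] at hi
        rw [Uf_pure z g ?_ (hw.drop i), mul_zero]
        intro h
        have := congrArg List.length h
        rw [List.length_drop, List.length_nil] at this
        omega
      rw [h2, sub_zero]
      have hl : (a :: b :: w).length - 1 = w.length + 1 := by simp
      rw [hl, Finset.sum_range_succ']
      have h3 : ∑ i ∈ Finset.range w.length,
          Uf z g ((a :: b :: w).take (i + 1)) * coeff ((a :: b :: w).drop (i + 1)) g = 0 := by
        refine Finset.sum_eq_zero fun i hi => ?_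
        rw [Uf_pure z g ?_ (hw.take (i + 1)), zero_mul]
        simp
      rw [h3, zero_add]
      simp

/-- **Normal form (Section 6.1).** -/
theorem exists_normalForm (z : Y) (g : NCS A Y) (hg0 : coeff [] g = 0)
    (hg1 : ∀ l, coeff [l] g = if l = z then 1 else 0) :
    ∃ U U' f : NCS A Y, U * U' = 1 ∧ U' * U = 1 ∧ coeff [] U = 1 ∧ f = U * g * U' ∧ U * g = f * U ∧
      (∀ w, w ≠ [] → Pure z w → coeff w U = 0) ∧
      coeff [] f = 0 ∧ (∀ l, coeff [l] f = if l = z then 1 else 0) ∧
      (∀ w, Pure z w → coeff w f = coeff w g) ∧
      (∀ x, ¬ Pure z x → coeff (x ++ [z]) f = 0) := by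
  obtain ⟨U', h1, h2⟩ := exists_inv (conjU z g) (by simp)
  have hrel := conjU_mul hg0 hg1
  refine ⟨conjU z g, U', conjF z g, h1, h2, by simp, ?_, hrel, ?_, by simp, ?_, ?_, ?_⟩
  · rw [hrel, mul_assoc, h1, mul_one]
  · intro w hw hp
    exact Uf_pure z g hw hp
  · intro l
    exact ff_single z g l
  · intro w hw
    exact ff_pure hg0 hg1 hw
  · intro x hx
    rcases x with _ | ⟨a, x⟩
    · exact absurd (fun b hb => by simp at hb) hx
    · have hlen : 2 ≤ (a :: x ++ [z]).length := by simp
      have hnp : ¬ Pure z (a :: x ++ [z]) := fun h => hx (by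
        have : a :: x ++ [z] = (a :: x) ++ [z] := rfl
        rw [this] at h
        exact (pure_append.1 h).1)
      have hlast : (a :: x ++ [z]).getLast? = some z := by
        have : a :: x ++ [z] = (a :: x) ++ [z] := rfl
        rw [this, List.getLast?_concat]
      show ff z g (a :: x ++ [z]) = 0
      rw [ff_succ z g hlen, fnew, if_neg hnp, if_pos hlast]

/-- Every word which is not a power of `z` and does not end in `z` is `z^t c` with `c` a core word,
i.e. a word whose first and last letters differ from `z`. -/
theorem exists_core (z : Y) {w : List Y} (hw : ¬ Pure z w) (hl : w.getLast? ≠ some z) :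
    ∃ t c, w = List.replicate t z ++ c ∧ c ≠ [] ∧ c.head? ≠ some z ∧ c.getLast? ≠ some z := by
  induction w with
  | nil => exact absurd (fun b hb => by simp at hb) hw
  | cons a w ih =>
    by_cases ha : a = z
    · subst ha
      have hw' : ¬ Pure a w := fun h => hw (pure_cons.2 ⟨rfl, h⟩)
      have hne : w ≠ [] := by
        rintro rfl
        exact hw' (fun b hb => by simp at hb)
      have hl' : w.getLast? ≠ some a := by
        intro h
        apply hl
        obtain ⟨x, y, rfl⟩ := List.exists_cons_of_ne_nil hne
        rw [List.getLast?_cons_cons]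
        exact h
      obtain ⟨t, c, hc, hc0, hc1, hc2⟩ := ih hw' hl'
      exact ⟨t + 1, c, by rw [hc, List.replicate_succ]; rfl, hc0, hc1, hc2⟩
    · exact ⟨0, a :: w, rfl, by simp, by simpa using ha, hl⟩

/-! ### Coefficients stay in a subring -/

theorem rs_mem (S : Subring A) (z : Y) {TT : List Y → A} (x tl : List Y)
    (h : ∀ w : List Y, w.length = x.length + tl.length → TT w ∈ S) : rs z TT x tl ∈ S := by
  induction x generalizing tl with
  | nil => exact S.zero_mem
  | cons p x ih =>
    simp only [rs]
    refine S.add_mem (h _ (by simp; omega)) ?_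
    split_ifs
    · exact ih _ (fun w hw => h w (by simp at hw ⊢; omega))
    · exact S.zero_mem

/-- If the coefficients of `g` lie in a subring then so do those of `U` and `f`. -/
theorem coeff_mem (S : Subring A) (z : Y) (g : NCS A Y) (hg : ∀ w, coeff w g ∈ S) :
    ∀ n, (∀ w : List Y, w.length ≤ n → Uf z g w ∈ S) ∧ (∀ w : List Y, w.length ≤ n + 1 → ff z g w ∈ S) := by
  have hT : ∀ n, (∀ w : List Y, w.length ≤ n → Uf z g w ∈ S) →
      (∀ w : List Y, w.length ≤ n + 1 → ff z g w ∈ S) →
      ∀ w : List Y, w.length = n + 2 → T g (Uf z g) (ff z g) w ∈ S := by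
    intro n h1 h2 w hw
    unfold T
    refine S.sub_mem (S.sum_mem fun i hi => ?_) (S.sum_mem fun i hi => ?_)
    · rw [Finset.mem_range] at hi
      exact S.mul_mem (h1 _ (by rw [List.length_take]; omega)) (hg _)
    · rw [Finset.mem_Ico] at hi
      exact S.mul_mem (h2 _ (by rw [List.length_take]; omega)) (h1 _ (by rw [List.length_drop]; omega))
  intro n
  induction n with
  | zero =>
    constructor
    · intro w hw
      have : w = [] := List.eq_nil_of_length_eq_zero (by omega)
      subst this
      simp [S.one_mem]
    · intro w hw
      rcases w with _ | ⟨a, w⟩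
      · simp [S.zero_mem]
      · have : w = [] := by simpa using hw
        subst this
        rw [ff_single]
        split_ifs
        · exact S.one_mem
        · exact S.zero_mem
  | succ n ih =>
    obtain ⟨h1, h2⟩ := ih
    have hTn := hT n h1 h2
    constructor
    · intro w hw
      by_cases hlen : w.length ≤ n
      · exact h1 w hlen
      · have hwn : w.length = n + 1 := by omega
        have hne : w ≠ [] := by
          rintro rfl
          simp at hwn
        rw [Uf_succ z g hne, Unew]
        split_ifs
        · exact S.zero_mem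
        · exact S.neg_mem (rs_mem S z w [z] (fun v hv => hTn v (by simpa [hwn] using hv)))
    · intro w hw
      by_cases hlen : w.length ≤ n + 1
      · exact h2 w hlen
      · have hwn : w.length = n + 2 := by omega
        rw [ff_succ z g (by omega), fnew]
        split_ifs
        · exact hTn w hwn
        · exact S.zero_mem
        · exact rs_mem S z w [] (fun v hv => hTn v (by simpa [hwn] using hv))

theorem coeff_conjU_mem (S : Subring A) (z : Y) (g : NCS A Y) (hg : ∀ w, coeff w g ∈ S) (w : List Y) :
    coeff w (conjU z g) ∈ S := (coeff_mem S z g hg w.length).1 w le_rfl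

theorem coeff_conjF_mem (S : Subring A) (z : Y) (g : NCS A Y) (hg : ∀ w, coeff w g ∈ S) (w : List Y) :
    coeff w (conjF z g) ∈ S := (coeff_mem S z g hg w.length).2 w (by omega)

end Crest.Agent.Lib.Kurosh.NormalForm
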