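import Crest.Agent.Lib.Kurosh.Section
import Crest.Agent.Lib.Kurosh.NormalForm
import Crest.Agent.Lib.Kurosh.SeriesComp

/-!
# Kill + scale + normal form; the case `N2a` (blueprint Section 3, step 2, and 5(b))

* `exists_kill_normalForm`: `f` with zero constant term, `κ` an invertible central element in the
  `Z`-span of the linear coefficients of `f`.  A linear section to the letters `Option (Fin n)` and
  a conjugation by a unit give `C κ * g`, with `g` in normal form with respect to the letter `none`.
* `exists_lift`: a series with all coefficients in the range of `j` is a `map j`.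
* `n2a`: if `g = map j gK` with `gK` over a field `K` with linear coefficient `1` at `z`, then
  `C β + C (j κ) * map j gK` is a series in `map j H`, with `H(z,0) = z`.
-/

set_option autoImplicit false

namespace Crest.Agent.Lib.Kurosh.KillNF

open NCSeries NormalForm SeriesComp
open scoped PowerSeries

universe u v w

section Kill

variable {Z : Type u} [Field Z] {A : Type v} [Ring A] [Algebra Z A] [Nontrivial A]
  {Y : Type w} [Fintype Y] [DecidableEq Y]

/-- **Kill + scale + normal form.** -/
theorem exists_kill_normalForm (f : NCS A Y) (hf0 : coeff [] f = 0) (κ κ' : A) (h1 : κ * κ' = 1)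
    (h2 : κ' * κ = 1) (hc : ∀ a : A, κ * a = a * κ)
    (hκ : κ ∈ Submodule.span Z (Set.range fun y => coeff [y] f)) :
    ∃ (n : ℕ) (v : Option (Fin n) → Y → Z) (U U' g : NCS A (Option (Fin n))),
      n + Module.finrank Z (Submodule.span Z (Set.range fun y => coeff [y] f)) = Fintype.card Y ∧
      LinearIndependent Z v ∧ U * U' = 1 ∧ U' * U = 1 ∧ coeff [] U = 1 ∧
      U * sec (lin v) (coeff_lin_nil v) f * U' = C κ * g ∧
      coeff [] g = 0 ∧ (∀ l, coeff [l] g = if l = none then 1 else 0) ∧
      (∀ w, Pure none w → coeff w g = κ' * coeff w (sec (lin v) (coeff_lin_nil v) f)) ∧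
      (∀ x, ¬ Pure none x → coeff (x ++ [none]) g = 0) := by
  classical
  have hκ0 : κ ≠ 0 := by
    rintro rfl
    rw [mul_zero] at h2
    exact zero_ne_one h2
  obtain ⟨n, v, hn, hv, hk1, hk2⟩ := exists_kill (Z := Z) f κ hκ0 hκ
  set F := sec (lin v) (coeff_lin_nil v) f with hF
  have hF0 : coeff [] F = 0 := by rw [hF, coeff_nil_sec, hf0]
  have hg0 : coeff [] (C κ' * F : NCS A (Option (Fin n))) = 0 := by
    rw [C_mul_coeff, hF0, mul_zero]
  have hg1 : ∀ l, coeff [l] (C κ' * F : NCS A (Option (Fin n))) = if l = none then 1 else 0 := by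
    intro l
    rw [C_mul_coeff]
    cases l with
    | none => rw [hk1, h2]; simp
    | some p => rw [hk2 p, mul_zero]; simp
  obtain ⟨U, U', g, hU1, hU2, hU0, hg, _, _, hg2, hg3, hg4, hg5⟩ := exists_normalForm none _ hg0 hg1
  refine ⟨n, v, U, U', g, hn, hv, hU1, hU2, hU0, ?_, hg2, hg3, ?_, hg5⟩
  · have hCc : ∀ x : NCS A (Option (Fin n)), C κ * x = x * C κ := by
      intro x
      ext w
      rw [C_mul_coeff, coeff_mul_C, hc]
    have hFe : F = C κ * (C κ' * F) := by
      rw [← mul_assoc, ← C_mul, h1, C_one, one_mul]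
    rw [hg, ← hF]
    conv_lhs => rw [hFe]
    rw [← mul_assoc, ← hCc U]
    simp only [mul_assoc]
  · intro w hw
    rw [hg4 w hw, C_mul_coeff]

end Kill

section N2a

variable {K : Type u} [Field K] {A : Type v} [Ring A] {Y : Type w}

/-- A series with all coefficients in the range of `j` is in the image of `map j`. -/
theorem exists_lift (j : K →+* A) (g : NCS A Y) (h : ∀ w, coeff w g ∈ j.range) :
    ∃ gK : NCS K Y, map j gK = g := by
  choose c hc using h
  refine ⟨c, ?_⟩
  ext w
  rw [coeff_map]
  exact hc w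

/-- **Case N2a.**  The purely-`z` part of `gK` is a one variable series `F`, and
`C β + C (j κ) * map j gK` is the series `∑ C (φ r) (map j H)^r` with `φ 0 = β`,
`φ r = j (κ * F_r)`, where `H = F⁻¹ ∘ gK` has `H(z,0) = z`. -/
theorem n2a (j : K →+* A) (z : Y) (gK : NCS K Y) (h0 : coeff [] gK = 0) (h1 : coeff [z] gK = 1)
    (β : A) (κ : K) :
    ∃ H : NCS K Y, coeff [] H = 0 ∧ (∀ y, coeff [y] H = coeff [y] gK) ∧
      (∀ k, coeff (List.replicate k z) H = if k = 1 then 1 else 0) ∧
      C β + C (j κ) * map j gK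
        = sumPow (fun r => if r = 0 then β else j (κ * coeff (List.replicate r z) gK)) (map j H) := by
  classical
  set F : K⟦X⟧ := PowerSeries.mk (fun k => coeff (List.replicate k z) gK) with hFdef
  have hF0 : PowerSeries.constantCoeff F = 0 := by
    rw [← PowerSeries.coeff_zero_eq_constantCoeff_apply, hFdef, PowerSeries.coeff_mk]
    simpa using h0
  have hF1 : PowerSeries.coeff 1 F = 1 := by
    rw [hFdef, PowerSeries.coeff_mk]
    simpa using h1
  have hH0 := solve_nil F h0
  refine ⟨solve F gK, hH0, coeff_solve_single F h0, ?_, ?_⟩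
  · apply coeff_solve_replicate z F hF0 hF1 h0
    intro k
    rw [hFdef, PowerSeries.coeff_mk]
  · have hmap : coeff [] (map j (solve F gK)) = 0 := by rw [coeff_map, hH0, map_zero]
    have e : gK = evalP F (solve F gK) := (evalP_solve F hF0 hF1 h0).symm
    conv_lhs => rw [e]
    rw [evalP, map_sumPow, C_mul_sumPow, C_add_sumPow hmap]
    congr 1
    funext r
    by_cases hr : r = 0
    · subst hr
      simp only [if_true]
      have hc0 : PowerSeries.coeff 0 F = 0 := by
        rw [PowerSeries.coeff_zero_eq_constantCoeff_apply, hF0]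
      rw [hc0, map_zero, mul_zero, add_zero]
    · simp only [hr, if_false]
      rw [hFdef, PowerSeries.coeff_mk, map_mul]

end N2a

section NFKappa

variable {A : Type v} [Ring A] {Y : Type w} [DecidableEq Y]

omit [DecidableEq Y] in
/-- The inverse of a series with constant term `1` and coefficients in a subring has coefficients in
the subring. -/
theorem coeff_inverse_mem (S : Subring A) {U U' : NCS A Y} (hU0 : coeff [] U = 1) (h : U' * U = 1)
    (hU : ∀ w, coeff w U ∈ S) (w : List Y) : coeff w U' ∈ S := by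
  induction' hn : w.length using Nat.strong_induction_on with n ih generalizing w
  rcases w with _ | ⟨a, x⟩
  · have := congrArg (coeff []) h
    rw [coeff_mul_nil, hU0, mul_one] at this
    rw [this]
    simp [S.one_mem]
  · have h1 := congrArg (coeff (a :: x)) h
    have hone : coeff (a :: x) (1 : NCS A Y) = 0 := rfl
    rw [coeff_mul, hone] at h1
    rw [Finset.sum_range_succ, List.take_length, List.drop_length, hU0, mul_one] at h1
    have h2 := eq_neg_of_add_eq_zero_right h1
    rw [h2]
    refine S.neg_mem (S.sum_mem fun i hi => ?_)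
    rw [Finset.mem_range] at hi
    refine S.mul_mem (ih (List.take i (a :: x)).length ?_ _ rfl) (hU _)
    rw [List.length_take]
    omega

/-- **Normal form, with a central unit as linear coefficient** (the form used in the pipeline). -/
theorem exists_normalForm_kappa (f : NCS A Y) (z : Y) (κ : A) (hu : IsUnit κ)
    (hc : ∀ a, κ * a = a * κ) (h0 : coeff [] f = 0) (hz : coeff [z] f = κ)
    (hp : ∀ p, p ≠ z → coeff [p] f = 0) :
    ∃ U U' : NCS A Y, U * U' = 1 ∧ U' * U = 1 ∧ coeff [] U = 1 ∧
      (∀ w, w.getLast? = some z → (∃ p ∈ w, p ≠ z) → coeff w (U * f * U') = 0) ∧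
      (∀ k, coeff (List.replicate k z) (U * f * U') = coeff (List.replicate k z) f) ∧
      (coeff [] (U * f * U') = 0) ∧ (coeff [z] (U * f * U') = κ) ∧
      (∀ p, p ≠ z → coeff [p] (U * f * U') = 0) ∧
      (∀ S : Subring A, (∀ w, coeff w f ∈ S) → (∀ k, κ * k = 1 → k ∈ S) →
        ∀ w, coeff w (U * f * U') ∈ S ∧ coeff w U ∈ S ∧ coeff w U' ∈ S) := by
  obtain ⟨κu, rfl⟩ := hu
  set κ : A := (κu : A) with hκ
  set κ' : A := ((κu⁻¹ : Aˣ) : A) with hκ'
  have h1 : κ * κ' = 1 := κu.mul_inv
  have h2 : κ' * κ = 1 := κu.inv_mul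
  set g : NCS A Y := C κ' * f with hg
  have hg0 : coeff [] g = 0 := by rw [hg, C_mul_coeff, h0, mul_zero]
  have hg1 : ∀ l, coeff [l] g = if l = z then 1 else 0 := by
    intro l
    rw [hg, C_mul_coeff]
    by_cases hl : l = z
    · subst hl; rw [hz, h2, if_pos rfl]
    · rw [hp l hl, mul_zero, if_neg hl]
  obtain ⟨U', hU1, hU2⟩ := exists_inv (conjU z g) (by simp)
  have hrel := conjU_mul hg0 hg1
  have hCc : ∀ x : NCS A Y, C κ * x = x * C κ := by
    intro x
    ext w
    rw [C_mul_coeff, coeff_mul_C, hc]
  have hfe : f = C κ * g := by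
    rw [hg, ← mul_assoc, ← C_mul, h1, C_one, one_mul]
  have hmain : conjU z g * f * U' = C κ * conjF z g := by
    rw [hfe, ← mul_assoc, ← hCc, mul_assoc (C κ), hrel, mul_assoc, mul_assoc, hU1, mul_one]
  have hco : ∀ w, coeff w (conjU z g * f * U') = κ * coeff w (conjF z g) := by
    intro w
    rw [hmain, C_mul_coeff]
  have hgw : ∀ w, coeff w g = κ' * coeff w f := fun w => by rw [hg, C_mul_coeff]
  refine ⟨conjU z g, U', hU1, hU2, by simp, ?_, ?_, ?_, ?_, ?_, ?_⟩
  · rintro w hw ⟨p, hpw, hpz⟩
    rw [hco]
    have hnp : ¬ Pure z w := fun h => hpz (h p hpw)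
    have hlen : 2 ≤ w.length := by
      rcases w with _ | ⟨a, _ | ⟨b, x⟩⟩
      · simp at hpw
      · simp at hpw hw
        subst hpw
        exact absurd hw hpz
      · simp
    have : coeff w (conjF z g) = 0 := by
      show ff z g w = 0
      rw [ff_succ z g hlen, fnew, if_neg hnp, if_pos hw]
    rw [this, mul_zero]
  · intro k
    rw [hco]
    have : coeff (List.replicate k z) (conjF z g) = coeff (List.replicate k z) g :=
      ff_pure hg0 hg1 (pure_replicate z k)
    rw [this, hgw, ← mul_assoc, h1, one_mul]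
  · rw [hco]
    have : coeff [] (conjF z g) = 0 := by simp
    rw [this, mul_zero]
  · rw [hco]
    have : coeff [z] (conjF z g) = 1 := by
      show ff z g [z] = 1
      rw [ff_single, if_pos rfl]
    rw [this, mul_one]
  · intro q hq
    rw [hco]
    have : coeff [q] (conjF z g) = 0 := by
      show ff z g [q] = 0
      rw [ff_single, if_neg hq]
    rw [this, mul_zero]
  · intro S hS hk w
    have hκ'S : κ' ∈ S := hk κ' h1
    have hκS : κ ∈ S := by rw [← hz]; exact hS _
    have hgS : ∀ w, coeff w g ∈ S := fun w => by rw [hgw]; exact S.mul_mem hκ'S (hS w)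
    refine ⟨?_, coeff_conjU_mem S z g hgS w, ?_⟩
    · rw [hco]
      exact S.mul_mem hκS (coeff_conjF_mem S z g hgS w)
    · exact coeff_inverse_mem S (by simp) hU2 (coeff_conjU_mem S z g hgS) w

end NFKappa

end Crest.Agent.Lib.Kurosh.KillNF
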