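import Mathlib
import Crest.Agent.Lib.Kurosh.Section
import Crest.Agent.Lib.Kurosh.SeriesComp

/-!
# Section moves: the fields of `Stage.section`, and small lemmas on `sumPow` (= Skeleton's `compo`)

Everything here is stated without the `Stage` structure, so that `Skeleton.lean` can import this file.
-/

set_option autoImplicit false

namespace Crest.Agent.Lib.Kurosh

open NCSeries SeriesComp

universe u v w

namespace StageSection

section Fields

variable {Z : Type u} [Field Z] {E : Type v} [Ring E] [Algebra Z E]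
  {Y Y' : Type*} [Fintype Y] [Fintype Y']

/-- The constant terms do not change: GEN passes to sections. -/
theorem sec_gen {ι : Type*} (Φ : ι → NCSeries Y E) (θ : Y → NCSeries Y' Z)
    (hθ : ∀ y, coeff [] (θ y) = 0)
    (h : Algebra.adjoin Z (Set.range fun i => coeff [] (Φ i)) = ⊤) :
    Algebra.adjoin Z (Set.range fun i => coeff [] (sec θ hθ (Φ i))) = ⊤ := by
  simpa only [coeff_nil_sec] using h

/-- IND passes to sections with independent tangents. -/
theorem sec_ind {ι : Type*} (Φ : ι → NCSeries Y E) (θ : Y → NCSeries Y' Z)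
    (hθ : ∀ y, coeff [] (θ y) = 0)
    (hli : LinearIndependent Z (fun y' : Y' => fun y : Y => coeff [y'] (θ y)))
    (h : ∀ (α : Y → Z) (u : E), (∀ i, ∑ y, algebraMap Z E (α y) * coeff [y] (Φ i) =
      coeff [] (Φ i) * u - u * coeff [] (Φ i)) → α = 0)
    (α : Y' → Z) (u : E)
    (hα : ∀ i, ∑ y', algebraMap Z E (α y') * coeff [y'] (sec θ hθ (Φ i)) =
      coeff [] (sec θ hθ (Φ i)) * u - u * coeff [] (sec θ hθ (Φ i))) : α = 0 := by
  have key : (fun y => ∑ y', α y' * coeff [y'] (θ y)) = 0 := by
    refine h _ u fun i => ?_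
    have := hα i
    simp only [coeff_nil_sec, coeff_single_sec] at this
    rw [← this]
    simp only [map_sum, Finset.sum_mul, Finset.mul_sum, Algebra.smul_def, map_mul]
    rw [Finset.sum_comm]
    refine Finset.sum_congr rfl fun y' _ => Finset.sum_congr rfl fun y _ => ?_
    rw [mul_assoc]
  rw [Fintype.linearIndependent_iff] at hli
  funext y'
  refine hli α (funext fun y => ?_) y'
  have := congrFun key y
  simp only [Pi.zero_apply] at this ⊢
  rw [Finset.sum_apply]
  simpa [smul_eq_mul] using this

variable [DecidableEq Y] [DecidableEq Y']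

/-- The projection section to two letters. -/
theorem exists_section_two (Z : Type u) [Field Z] (h2 : 2 ≤ Fintype.card Y) :
    ∃ θ : Y → NCSeries (Fin 2) Z, (∀ y, coeff [] (θ y) = 0) ∧
      LinearIndependent Z (fun y' : Fin 2 => fun y : Y => coeff [y'] (θ y)) := by
  classical
  obtain ⟨e⟩ : Nonempty (Fin 2 ↪ Y) :=
    Function.Embedding.nonempty_of_card_le (by simpa using h2)
  let v : Fin 2 → Y → Z := fun i y => if y = e i then 1 else 0
  refine ⟨lin v, coeff_lin_nil v, ?_⟩
  simp only [coeff_lin_single]
  rw [Fintype.linearIndependent_iff]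
  intro g hg i
  have := congrFun hg (e i)
  simp only [Finset.sum_apply, Pi.smul_apply, smul_eq_mul, Pi.zero_apply, v] at this
  rw [Finset.sum_eq_single i] at this
  · simpa using this
  · intro b _ hb
    have : e i ≠ e b := fun h => hb (e.injective h).symm
    simp [this]
  · intro h
    exact absurd (Finset.mem_univ i) h

/-- KILL in the form used by the skeleton. -/
theorem exists_kill' {A : Type v} [Ring A] [Algebra Z A] (f : NCSeries Y A)
    (hW : Submodule.span Z (Set.range fun y => coeff [y] f) ≠ ⊥)
    (hY : Module.finrank Z (Submodule.span Z (Set.range fun y => coeff [y] f)) + 1 ≤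
      Fintype.card Y) :
    ∃ (n : ℕ) (θ : Y → NCSeries (Option (Fin n)) Z) (hθ : ∀ y, coeff [] (θ y) = 0) (κ : A),
      LinearIndependent Z (fun y' : Option (Fin n) => fun y : Y => coeff [y'] (θ y)) ∧
      κ ∈ Submodule.span Z (Set.range fun y => coeff [y] f) ∧ κ ≠ 0 ∧
      2 ≤ n + 1 ∧
      coeff [none] (sec θ hθ f) = κ ∧ ∀ p : Fin n, coeff [some p] (sec θ hθ f) = 0 := by
  classical
  obtain ⟨κ, hκ, hκ0⟩ := (Submodule.ne_bot_iff _).mp hW
  obtain ⟨n, v, hn, hli, h1, h2⟩ := exists_kill (Z := Z) f κ hκ0 hκ
  refine ⟨n, lin v, coeff_lin_nil v, κ, ?_, hκ, hκ0, by omega, h1, h2⟩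
  simp only [coeff_lin_single]
  exact hli

end Fields

section SumPow

variable {A : Type v} [Ring A] {Y : Type u}

theorem sumPow_zero' (φ : ℕ → A) : sumPow φ (0 : NCSeries Y A) = C (φ 0) := by
  classical
  ext w
  rw [coeff_sumPow_def]
  rw [Finset.sum_eq_single 0]
  · simp only [pow_zero]
    cases w with
    | nil => simp
    | cons a t => simp
  · intro n _ hn
    have : (0 : NCSeries Y A) ^ n = 0 := zero_pow hn
    rw [this]
    simp
  · intro h
    exact absurd (Finset.mem_range.mpr (Nat.succ_pos _)) h

/-- Conjugation by a unit whose coefficients commute with the `φ n`. -/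
theorem sumPow_conj (φ : ℕ → A) (g U U' : NCSeries Y A) (h1 : U * U' = 1) (h2 : U' * U = 1)
    (hg : coeff [] (U * g * U') = 0)
    (hU : ∀ n w, φ n * coeff w U = coeff w U * φ n) :
    U * sumPow φ g * U' = sumPow φ (U * g * U') := by
  have h1' : coeff [] U * coeff [] U' = 1 := by
    have := congrArg (coeff []) h1
    simpa [coeff_mul_nil] using this
  have h2' : coeff [] U' * coeff [] U = 1 := by
    have := congrArg (coeff []) h2
    simpa [coeff_mul_nil] using this
  have hg0 : coeff [] g = 0 := by
    have : coeff [] U * coeff [] g * coeff [] U' = 0 := by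
      simpa [coeff_mul_nil] using hg
    calc coeff [] g = (coeff [] U' * coeff [] U) * coeff [] g * (coeff [] U' * coeff [] U) := by
          rw [h2', one_mul, mul_one]
      _ = coeff [] U' * (coeff [] U * coeff [] g * coeff [] U') * coeff [] U := by noncomm_ring
      _ = 0 := by rw [this]; simp
  exact (conj_sumPow hg0 φ h1 h2 hU).2

/-- Adding a constant to a series in `map j G`. -/
theorem add_C_map_sumPow {K : Type*} [Ring K] (j : K →+* A) (β : A)
    (F : ℕ → K) (hF0 : F 0 = 0) (G : NCSeries Y K) :
    C β + map j (sumPow F G) = sumPow (fun n => if n = 0 then β else j (F n)) (map j G) := by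
  classical
  ext w
  rw [coeff_add, coeff_map, coeff_sumPow_def, coeff_sumPow_def, map_sum,
    Finset.sum_range_succ', Finset.sum_range_succ']
  have hc : coeff w ((C β : NCSeries Y A)) = β * coeff w ((map j G) ^ 0) := by
    cases w with
    | nil => simp
    | cons a t => simp
  simp only [if_true, hF0, map_zero, map_mul, zero_mul, add_zero, hc, Nat.succ_ne_zero, if_false]
  rw [add_comm]
  congr 1
  refine Finset.sum_congr rfl fun n _ => ?_
  rw [← map_pow, coeff_map]

/-- Compositional inverse over a field, with invertible linear coefficient. -/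
theorem exists_sumPow_inverse {K : Type v} [Field K] (F : ℕ → K) (hF0 : F 0 = 0) (hF1 : F 1 ≠ 0)
    (f : NCSeries Y K) (hf : coeff [] f = 0) :
    ∃ G : NCSeries Y K, coeff [] G = 0 ∧ sumPow F G = f := by
  classical
  -- normalise
  let a : K := (F 1)⁻¹
  let p : PowerSeries K := PowerSeries.mk fun n => a * F n
  have hp0 : PowerSeries.constantCoeff p = 0 := by
    have : PowerSeries.coeff 0 p = a * F 0 := PowerSeries.coeff_mk _ _
    rw [PowerSeries.coeff_zero_eq_constantCoeff_apply, hF0, mul_zero] at this
    exact this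
  have hp1 : PowerSeries.coeff 1 p = 1 := by
    have : PowerSeries.coeff 1 p = a * F 1 := PowerSeries.coeff_mk _ _
    rw [this]
    exact inv_mul_cancel₀ hF1
  have hf' : coeff [] ((C a : NCSeries Y K) * f) = 0 := by
    rw [C_mul_coeff, hf, mul_zero]
  refine ⟨solve p ((C a : NCSeries Y K) * f), solve_nil p hf', ?_⟩
  have h := evalP_solve p hp0 hp1 hf'
  have h2 : (C a : NCSeries Y K) * sumPow F (solve p ((C a : NCSeries Y K) * f)) =
      (C a : NCSeries Y K) * f := by
    rw [C_mul_sumPow]
    conv_rhs => rw [← h]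
    unfold evalP
    congr 1
    funext n
    simp [p]
  have hac : ((C (F 1) : NCSeries Y K)) * (C a : NCSeries Y K) = 1 := by
    rw [← C_mul, show F 1 * a = 1 from mul_inv_cancel₀ hF1, C_one]
  calc sumPow F (solve p ((C a : NCSeries Y K) * f))
      = ((C (F 1) : NCSeries Y K) * (C a : NCSeries Y K)) *
          sumPow F (solve p ((C a : NCSeries Y K) * f)) := by rw [hac, one_mul]
    _ = (C (F 1) : NCSeries Y K) * ((C a : NCSeries Y K) * f) := by rw [mul_assoc, h2]
    _ = f := by rw [← mul_assoc, hac, one_mul]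

/-- Compositional inverse with its linear part and its pure powers. -/
theorem exists_sumPow_inverse' {K : Type v} [Field K] (F : ℕ → K) (hF0 : F 0 = 0) (hF1 : F 1 ≠ 0)
    (f : NCSeries Y K) (hf : coeff [] f = 0) :
    ∃ G : NCSeries Y K, coeff [] G = 0 ∧ sumPow F G = f ∧
      (∀ y, coeff [y] G = (F 1)⁻¹ * coeff [y] f) ∧
      ∀ z : Y, (∀ k, coeff (List.replicate k z) f = F k) →
        ∀ k, coeff (List.replicate k z) G = if k = 1 then 1 else 0 := by
  classical
  let a : K := (F 1)⁻¹
  let p : PowerSeries K := PowerSeries.mk fun n => a * F n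
  have hcp : ∀ n, PowerSeries.coeff n p = a * F n := fun n => PowerSeries.coeff_mk _ _
  have hp0 : PowerSeries.constantCoeff p = 0 := by
    have := hcp 0
    rw [PowerSeries.coeff_zero_eq_constantCoeff_apply, hF0, mul_zero] at this
    exact this
  have hp1 : PowerSeries.coeff 1 p = 1 := by
    rw [hcp]
    exact inv_mul_cancel₀ hF1
  have hf' : coeff [] ((C a : NCSeries Y K) * f) = 0 := by
    rw [C_mul_coeff, hf, mul_zero]
  have hac : ((C (F 1) : NCSeries Y K)) * (C a : NCSeries Y K) = 1 := by
    rw [← C_mul, show F 1 * a = 1 from mul_inv_cancel₀ hF1, C_one]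
  refine ⟨solve p ((C a : NCSeries Y K) * f), solve_nil p hf', ?_, fun y => ?_, fun z hz k => ?_⟩
  · have h := evalP_solve p hp0 hp1 hf'
    have h2 : (C a : NCSeries Y K) * sumPow F (solve p ((C a : NCSeries Y K) * f)) =
        (C a : NCSeries Y K) * f := by
      rw [C_mul_sumPow]
      conv_rhs => rw [← h]
      unfold evalP
      congr 1
      funext n
      simp [hcp]
    calc sumPow F (solve p ((C a : NCSeries Y K) * f))
        = ((C (F 1) : NCSeries Y K) * (C a : NCSeries Y K)) *
            sumPow F (solve p ((C a : NCSeries Y K) * f)) := by rw [hac, one_mul]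
      _ = (C (F 1) : NCSeries Y K) * ((C a : NCSeries Y K) * f) := by rw [mul_assoc, h2]
      _ = f := by rw [← mul_assoc, hac, one_mul]
  · rw [coeff_solve_single p hf', C_mul_coeff]
  · refine coeff_solve_replicate z p hp0 hp1 hf' (fun k => ?_) k
    rw [C_mul_coeff, hz, hcp]

end SumPow

section SecSumPow

variable {Z : Type u} [Field Z] {E : Type v} [Ring E] [Algebra Z E]
  {Y Y' : Type*} [Fintype Y]

/-- A section commutes with series in an element. -/
theorem sec_sumPow (θ : Y → NCSeries Y' Z) (hθ : ∀ y, coeff [] (θ y) = 0) (φ : ℕ → E)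
    (f : NCSeries Y E) (hf : coeff [] f = 0) :
    sec θ hθ (sumPow φ f) = sumPow φ (sec θ hθ f) := by
  have hf' : coeff [] (sec θ hθ f) = 0 := by rw [coeff_nil_sec, hf]
  apply eq_sumPow_of_isSeriesIn hf'
  intro N
  have h := sec_mem_ordGE θ hθ (isSeriesIn_sumPow hf φ N)
  rw [map_sub, map_sum] at h
  simpa only [map_mul, map_pow, sec_C] using h

end SecSumPow

end StageSection

end Crest.Agent.Lib.Kurosh
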