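import Mathlib
import Crest.Agent.Lib.Kurosh.LevelStub
import Crest.Agent.Lib.Kurosh.StageSection
import Crest.Agent.Lib.Kurosh.Section
import Crest.Agent.Lib.Kurosh.SeriesComp
import Crest.Agent.Lib.Kurosh.NormalForm
import Crest.Agent.Lib.Kurosh.KillNF

/-!
# S0270: definitions of the pipeline (helper59)

Stage, Move, Frozen, SectionOK, substZ, section moves, compo, SeriesIn, KConf, LevelStep, AConf, AStep, IsK0.
No `sorry` here (beyond what `LevelStub` still stubs). Module targets are stated in `Skeleton.lean`.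
-/

set_option autoImplicit false

namespace Crest.Agent.Lib.Kurosh

open NCSeries Module

/-! ## Stages and moves -/

/-- Evaluation of a word polynomial with central letters. -/
noncomputable def evT {E : Type} [Ring E] {κ : Type} (q : Fin 2 → E) (z : κ → E) :
    FreeAlgebra ℤ (Fin 2 ⊕ κ) →ₐ[ℤ] E :=
  FreeAlgebra.lift ℤ (Sum.elim q z)

/-- A stage: `E` f.d. central division over `Z`, family `Φ` in letters `Y`, GEN and IND. -/
structure Stage (Y : Type) [Fintype Y] [DecidableEq Y] where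
  Z : Type
  E : Type
  [fZ : Field Z]
  [cZ : CharZero Z]
  [dE : DivisionRing E]
  [aE : Algebra Z E]
  [cE : Algebra.IsCentral Z E]
  [fE : FiniteDimensional Z E]
  Φ : Fin 2 → NCS E Y
  two : 2 ≤ Fintype.card Y
  gen : Algebra.adjoin Z (Set.range fun i => coeff [] (Φ i)) = ⊤
  ind : ∀ (α : Y → Z) (u : E), (∀ i, ∑ y, algebraMap Z E (α y) * coeff [y] (Φ i) =
      coeff [] (Φ i) * u - u * coeff [] (Φ i)) → α = 0

attribute [instance] Stage.fZ Stage.cZ Stage.dE Stage.aE Stage.cE Stage.fE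

variable {Y Y' Y'' : Type} [Fintype Y] [DecidableEq Y] [Fintype Y'] [DecidableEq Y']
  [Fintype Y''] [DecidableEq Y'']

/-- Constant terms. -/
noncomputable def Stage.q (S : Stage Y) (i : Fin 2) : S.E := coeff [] (S.Φ i)

/-- A move between stages. -/
structure Move (S : Stage Y) (S' : Stage Y') where
  ιZ : S.Z →+* S'.Z
  ι : S.E →+* S'.E
  ι_alg : ∀ z, ι (algebraMap S.Z S.E z) = algebraMap S'.Z S'.E (ιZ z)
  Ψ : NCS S.E Y →+* NCS S'.E Y'
  Ψ_C : ∀ e, Ψ (C e) = C (ι e)
  Ψ_Φ : ∀ i, Ψ (S.Φ i) = S'.Φ i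
  red : ∀ {κ : Type} (a : FreeAlgebra ℤ (Fin 2 ⊕ κ)) (z : κ → S.Z),
    evT S'.q (fun k => algebraMap S'.Z S'.E (ιZ (z k))) a = 0 →
    evT S.q (fun k => algebraMap S.Z S.E (z k)) a = 0
  dim_le : finrank S.Z S.E ≤ finrank S'.Z S'.E

/-- Identity / composition of moves. -/
noncomputable def Move.comp {S : Stage Y} {S' : Stage Y'} {S'' : Stage Y''} (μ : Move S S') (ν : Move S' S'') : Move S S'' where
  ιZ := ν.ιZ.comp μ.ιZ
  ι := ν.ι.comp μ.ι
  ι_alg z := by simp [μ.ι_alg, ν.ι_alg]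
  Ψ := ν.Ψ.comp μ.Ψ
  Ψ_C e := by simp [μ.Ψ_C, ν.Ψ_C]
  Ψ_Φ i := by simp [μ.Ψ_Φ, ν.Ψ_Φ]
  red a z h := μ.red a z (ν.red a (fun k => μ.ιZ (z k)) h)
  dim_le := μ.dim_le.trans ν.dim_le

/-- `b` is frozen. -/
def Frozen (S : Stage Y) (b : NCS S.E Y) : Prop :=
  ∃ (S' : Stage (Fin 2)) (μ : Move S S'), 2 * finrank S.Z S.E ≤ finrank S'.Z S'.E ∧
    ∃ (U U' : NCS S'.E (Fin 2)) (c : S'.E), U * U' = 1 ∧ U' * U = 1 ∧ U * μ.Ψ b * U' = C c

/-- Trivial rule: frozen after a move and a conjugation implies frozen. -/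
theorem Frozen.of_move {S : Stage Y} {S' : Stage Y'} (μ : Move S S') {b : NCS S.E Y}
    (U U' : NCS S'.E Y') (h1 : U * U' = 1) (h2 : U' * U = 1)
    (h : Frozen S' (U * μ.Ψ b * U')) : Frozen S b := by
  obtain ⟨S'', ν, hd, V, V', c, hV1, hV2, hc⟩ := h
  refine ⟨S'', μ.comp ν, (Nat.mul_le_mul_left 2 μ.dim_le).trans hd, V * ν.Ψ U, ν.Ψ U' * V', c, ?_, ?_, ?_⟩
  · calc V * ν.Ψ U * (ν.Ψ U' * V') = V * (ν.Ψ (U * U')) * V' := by rw [map_mul]; noncomm_ring
      _ = 1 := by rw [h1, map_one, mul_one, hV1]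
  · calc ν.Ψ U' * V' * (V * ν.Ψ U) = ν.Ψ U' * (V' * V) * ν.Ψ U := by noncomm_ring
      _ = 1 := by rw [hV2, mul_one, ← map_mul, h2, map_one]
  · have : (μ.comp ν).Ψ b = ν.Ψ (μ.Ψ b) := rfl
    rw [this]
    rw [← hc, map_mul, map_mul]
    noncomm_ring

/-- Section data: `θ y` has zero constant term; the tangent vectors of the new letters are independent. -/
structure SectionOK {Z : Type} [Field Z] (θ : Y → NCS Z Y') : Prop where
  zero : ∀ y, coeff [] (θ y) = 0
  indep : LinearIndependent Z (fun y' : Y' => fun y : Y => coeff [y'] (θ y))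

/-- Substitution of `Z`-coefficient series (helper89's `sec`). -/
noncomputable def substZ {Z : Type} [Field Z] (θ : Y → NCS Z Y') (hθ : ∀ y, coeff [] (θ y) = 0)
    (R : Type) [Ring R] [Algebra Z R] : NCS R Y →+* NCS R Y' := sec θ hθ

theorem substZ_C {Z : Type} [Field Z] (θ : Y → NCS Z Y') (hθ : ∀ y, coeff [] (θ y) = 0)
    (R : Type) [Ring R] [Algebra Z R] (r : R) : substZ θ hθ R (C r) = C r := sec_C θ hθ r

/-- The section stage (helper98). -/
noncomputable def Stage.section (S : Stage Y) (θ : Y → NCS S.Z Y') (hθ : SectionOK θ)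
    (h2 : 2 ≤ Fintype.card Y') : Stage Y' :=
  { Z := S.Z
    E := S.E
    Φ := fun i => substZ θ hθ.zero S.E (S.Φ i)
    two := h2
    gen := StageSection.sec_gen S.Φ θ hθ.zero S.gen
    ind := StageSection.sec_ind S.Φ θ hθ.zero hθ.indep S.ind }

noncomputable def Stage.sectionMove (S : Stage Y) (θ : Y → NCS S.Z Y') (hθ : SectionOK θ)
    (h2 : 2 ≤ Fintype.card Y') : Move S (S.section θ hθ h2) :=
  { ιZ := RingHom.id _
    ι := RingHom.id _
    ι_alg := fun _ => rfl
    Ψ := substZ θ hθ.zero S.E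
    Ψ_C := substZ_C θ hθ.zero S.E
    Ψ_Φ := fun _ => rfl
    red := by
      intro κ a z h
      have hq : (S.section θ hθ h2).q = S.q := by
        funext i
        exact coeff_nil_sec θ hθ.zero (S.Φ i)
      rw [hq] at h
      exact h
    dim_le := le_rfl }

/-! ## Series in an element (passive elements, potentials) -/

open SeriesComp in
/-- `Σ_n C(φ_n) g^n`, coefficientwise finite when `g` has zero constant term (helper37's `sumPow`). -/
noncomputable abbrev compo {R : Type} [Ring R] (φ : ℕ → R) (g : NCS R Y) : NCS R Y := SeriesComp.sumPow φ g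

/-- `b` is a series in `map j G` with coefficients commuting with `j K`. -/
def SeriesIn {R K : Type} [Ring R] [Field K] (j : K →+* R) (G : NCS K Y) (b : NCS R Y) : Prop :=
  ∃ φ : ℕ → R, (∀ n k, φ n * j k = j k * φ n) ∧ b = compo φ (map j G)

/-! ## K-configurations and level steps -/

/-- A commutative-coefficient configuration. -/
structure KConf (Z : Type) [Field Z] (Y : Type) where
  K : Type
  [fK : Field K]
  [aK : Algebra Z K]
  [dK : FiniteDimensional Z K]
  g : NCS K Y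
  g0 : coeff [] g = 0

attribute [instance] KConf.fK KConf.aK KConf.dK

/-- Span of the linear coefficients. -/
def KConf.W {Z : Type} [Field Z] (c : KConf Z Y) : Submodule Z c.K :=
  Submodule.span Z (Set.range fun y => coeff [y] c.g)

section KLevel

variable {Z : Type} [Field Z] [CharZero Z] {m : ℕ} [Fact m.Prime]

/-- One level-up of a `K`-configuration: Hensel conjugation into `K' = C_{K̃}(ξ)`. -/
structure LevelStep (d : LevelData Z Y m) (c : KConf Z Y) (c' : KConf (Zp Z Y m) (Fin d.n)) where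
  jp : c'.K →ₐ[Zp Z Y m] Tilde Z Y m c.K
  ξ : c'.K
  hξ : jp ξ = value d c.K c.g
  jp_range : ∀ x : Tilde Z Y m c.K, x ∈ jp.range ↔ x * jp ξ = jp ξ * x
  U : NCS (Tilde Z Y m c.K) (Fin d.n)
  U' : NCS (Tilde Z Y m c.K) (Fin d.n)
  UU' : U * U' = 1
  U'U : U' * U = 1
  U1 : coeff [] U = 1
  conj : U * psi d c.K c.g * U' = C (jp ξ) + map (jp : c'.K →+* Tilde Z Y m c.K) c'.g

/-- The scalar substitution into a `K'`-configuration's series (`θ` has coefficients in the base field). -/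
noncomputable def KConf.comp {Y' : Type} [Fintype Y'] [DecidableEq Y'] (c : KConf Z Y) (θ : Y → NCS Z Y')
    (hθ : ∀ y, coeff [] (θ y) = 0) : NCS c.K Y' := substZ θ hθ c.K c.g

/-- `W` has a primitive ratio. -/
def KConf.PrimRatio (c : KConf Z Y) : Prop :=
  ∃ w0 ∈ c.W, ∃ w1 ∈ c.W, w0 ≠ 0 ∧ IntermediateField.adjoin Z {w1 / w0} = ⊤

/-- The richness condition (E1), blueprint 5(c)-(d). -/
def KConf.Rich (c : KConf Z Y) : Prop :=
  7 * (finrank Z c.K - finrank Z c.W) + 1 ≤ finrank Z c.K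

/-- Theorem B (blueprint 6.2): clock level-up of a normal form with `K` generated by the data gives a primitive ratio.
Normal form: the coefficient of `z` is `1`, and all other words with nonzero coefficient end in a letter `≠ z`. -/
def KConf.IsNF (c : KConf Z Y) (z : Y) : Prop :=
  coeff [z] c.g = 1 ∧ (∀ p, p ≠ z → coeff [p] c.g = 0) ∧ ∀ w, w ≠ [z] → w.getLast? = some z → coeff w c.g = 0

end KLevel

/-! ## The A-level (noncommutative coefficients) -/

/-- A configuration with noncommutative coefficients. -/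
structure AConf (Z : Type) [Field Z] (Y : Type) where
  A : Type
  [dA : DivisionRing A]
  [aA : Algebra Z A]
  [fA : FiniteDimensional Z A]
  f : NCS A Y
  f0 : coeff [] f = 0

attribute [instance] AConf.dA AConf.aA AConf.fA

/-- The measure `d(A) = dim_{center A} A`. -/
noncomputable def AConf.deg {Z : Type} [Field Z] (c : AConf Z Y) : ℕ :=
  finrank (Subring.center c.A) c.A

section ALevel

variable {Z : Type} [Field Z] [CharZero Z] {m : ℕ} [Fact m.Prime]

/-- One level-up of an `A`-configuration. `A' = C_{Ã}(ξ)`. -/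
structure AStep (d : LevelData Z Y m) (c : AConf Z Y) (c' : AConf (Zp Z Y m) (Fin d.n)) where
  jp : c'.A →ₐ[Zp Z Y m] Tilde Z Y m c.A
  ξ : c'.A
  hξ : jp ξ = value d c.A c.f
  jp_range : ∀ x : Tilde Z Y m c.A, x ∈ jp.range ↔ x * jp ξ = jp ξ * x
  U : NCS (Tilde Z Y m c.A) (Fin d.n)
  U' : NCS (Tilde Z Y m c.A) (Fin d.n)
  UU' : U * U' = 1
  U'U : U' * U = 1
  U1 : coeff [] U = 1
  conj : U * psi d c.A c.f * U' = C (jp ξ) + map (jp : c'.A →+* Tilde Z Y m c.A) c'.f

/-- Span of the linear coefficients. -/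
def AConf.W (c : AConf Z Y) : Submodule Z c.A :=
  Submodule.span Z (Set.range fun y => coeff [y] c.f)

/-- `K0`-membership test in `L0 ⊗ A`: fixed and central. -/
def IsK0 (A : Type) [Ring A] [Algebra Z A] (Y : Type) (m : ℕ) (r : RL Z Y m A) : Prop :=
  sR Z Y m A r = r ∧ ∀ x, r * x = x * r

end ALevel

end Crest.Agent.Lib.Kurosh
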