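import Crest.Agent.Lib.Kurosh.NCSeries

/-!
# S0270, blueprint Section 4: Hensel conjugation into the centraliser of the constant term

`B` is a ring, `ξ : B`, and `SplitData ξ` is a splitting `c = π c + [ξ, A c]` with `π c` commuting
with `ξ` (for a f.d. division algebra over a field of characteristic 0 this is Lemma Split).

Given `h : NCSeries Y B` with constant term `ξ`, we construct by recursion on word length a series
`U` with constant term `1` and a series `f` with coefficients in the centraliser of `ξ` and
constant term `ξ`, with `U * h = f * U`; the recursion is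

  `E w = h w + ∑_{w = u v, u,v ≠ []} (U u * h v - f u * U v)`,  `f w = π (E w)`,  `U w = A (E w)`.

In particular
  `f [t] = π (h [t])`, `U [t] = A (h [t])`,
  `f [t, t'] = π (h [t, t'] + A (h [t]) * h [t'] - π (h [t]) * A (h [t']))`,
the formula used in Section 5(d).
-/

set_option autoImplicit false

namespace Crest.Agent.Lib.Kurosh.Hensel

open NCSeries

universe u v

variable {Y : Type u} {B : Type v} [Ring B]

/-- A splitting of `B` along `ξ`: `c = π c + [ξ, A c]`, with `π c` commuting with `ξ`. -/
structure SplitData (ξ : B) where
  /-- projection to the centraliser -/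
  π : B → B
  /-- a primitive of `c - π c` under `ad ξ` -/
  A : B → B
  comm : ∀ c, ξ * π c = π c * ξ
  split : ∀ c, ξ * A c - A c * ξ = c - π c

variable {ξ : B} (D : SplitData ξ) (h : NCSeries Y B)

/-- Correction term at a word, from given data on shorter words. -/
def corr (u f : List Y → B) (w : List Y) : B :=
  coeff w h + ∑ i ∈ Finset.Ioo 0 w.length,
    (u (w.take i) * coeff (w.drop i) h - f (w.take i) * u (w.drop i))

/-- Fuelled recursion. -/
def aux : ℕ → List Y → B × B
  | 0, _ => (1, ξ)
  | n + 1, w =>
    if w = [] then (1, ξ) else
      let E := corr h (fun v => (aux n v).1) (fun v => (aux n v).2) w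
      (D.A E, D.π E)

theorem aux_nil (n : ℕ) : aux D h n ([] : List Y) = (1, ξ) := by
  cases n <;> simp [aux]

theorem corr_congr {u f u' f' : List Y → B} (w : List Y)
    (hu : ∀ v : List Y, v.length < w.length → u v = u' v)
    (hf : ∀ v : List Y, v.length < w.length → f v = f' v) :
    corr h u f w = corr h u' f' w := by
  unfold corr
  congr 1
  refine Finset.sum_congr rfl fun i hi => ?_
  obtain ⟨h0, h1⟩ := Finset.mem_Ioo.mp hi
  have ht : (w.take i).length < w.length := by simp; omega
  have hd : (w.drop i).length < w.length := by simp; omega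
  rw [hu _ ht, hf _ ht, hu _ hd]

/-- Stability of the fuelled recursion. -/
theorem aux_stable (n : ℕ) : ∀ (m : ℕ) (w : List Y), w.length ≤ n → w.length ≤ m →
    aux D h n w = aux D h m w := by
  induction n with
  | zero =>
    intro m w hn _
    have : w = [] := List.length_eq_zero_iff.mp (by omega)
    subst this
    rw [aux_nil, aux_nil]
  | succ n ih =>
    intro m w hn hm
    cases w with
    | nil => rw [aux_nil, aux_nil]
    | cons a w =>
      cases m with
      | zero => simp at hm
      | succ m =>
        have hu := corr_congr h (u := fun v => (aux D h n v).1) (f := fun v => (aux D h n v).2)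
          (u' := fun v => (aux D h m v).1) (f' := fun v => (aux D h m v).2) (a :: w)
          (fun v hv => by
            have : v.length ≤ w.length := by simpa using Nat.lt_succ_iff.mp (by simpa using hv)
            simp only [List.length_cons] at hn hm
            rw [ih m v (by omega) (by omega)])
          (fun v hv => by
            have : v.length ≤ w.length := by simpa using Nat.lt_succ_iff.mp (by simpa using hv)
            simp only [List.length_cons] at hn hm
            rw [ih m v (by omega) (by omega)])
        simp only [aux, reduceCtorEq, if_false, hu]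

/-- The conjugator. -/
def U : NCSeries Y B := fun w => (aux D h w.length w).1

/-- The conjugated series, with coefficients in the centraliser of `ξ`. -/
def f : NCSeries Y B := fun w => (aux D h w.length w).2

theorem aux_eq_of_le {n : ℕ} {w : List Y} (hn : w.length ≤ n) :
    aux D h n w = (coeff w (U D h), coeff w (f D h)) := by
  rw [aux_stable D h n w.length w hn le_rfl]
  rfl

@[simp] theorem coeff_U_nil : coeff [] (U D h : NCSeries Y B) = 1 := by
  show (aux D h 0 []).1 = 1
  rw [aux_nil]

@[simp] theorem coeff_f_nil : coeff [] (f D h : NCSeries Y B) = ξ := by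
  show (aux D h 0 []).2 = ξ
  rw [aux_nil]

/-- The recursion, in closed form. -/
theorem corr_eq_of_ne (a : Y) (w : List Y) :
    corr h (fun v => (aux D h w.length v).1) (fun v => (aux D h w.length v).2) (a :: w) =
      corr h (fun v => coeff v (U D h)) (fun v => coeff v (f D h)) (a :: w) := by
  refine corr_congr h (a :: w) (fun v hv => ?_) (fun v hv => ?_)
  · have : v.length ≤ w.length := Nat.lt_succ_iff.mp (by simpa using hv)
    rw [aux_eq_of_le D h this]
  · have : v.length ≤ w.length := Nat.lt_succ_iff.mp (by simpa using hv)
    rw [aux_eq_of_le D h this]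

theorem coeff_U_cons (a : Y) (w : List Y) :
    coeff (a :: w) (U D h) =
      D.A (corr h (fun v => coeff v (U D h)) (fun v => coeff v (f D h)) (a :: w)) := by
  show (aux D h (w.length + 1) (a :: w)).1 = _
  simp only [aux, reduceCtorEq, if_false]
  rw [corr_eq_of_ne]

theorem coeff_f_cons (a : Y) (w : List Y) :
    coeff (a :: w) (f D h) =
      D.π (corr h (fun v => coeff v (U D h)) (fun v => coeff v (f D h)) (a :: w)) := by
  show (aux D h (w.length + 1) (a :: w)).2 = _
  simp only [aux, reduceCtorEq, if_false]
  rw [corr_eq_of_ne]

/-- Coefficients of `f` commute with `ξ`. -/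
theorem coeff_f_comm (w : List Y) : ξ * coeff w (f D h) = coeff w (f D h) * ξ := by
  cases w with
  | nil => simp
  | cons a w => rw [coeff_f_cons]; exact D.comm _

/-- Splitting a sum over all factorisations into the two ends and the interior. -/
theorem sum_range_split {M : Type*} [AddCommMonoid M] (n : ℕ) (F : ℕ → M) (hn : 0 < n) :
    ∑ i ∈ Finset.range (n + 1), F i = F 0 + F n + ∑ i ∈ Finset.Ioo 0 n, F i := by
  have h1 : Finset.range (n + 1) = insert 0 (insert n (Finset.Ioo 0 n)) := by
    ext i
    simp only [Finset.mem_range, Finset.mem_insert, Finset.mem_Ioo]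
    omega
  rw [h1, Finset.sum_insert, Finset.sum_insert, add_assoc]
  · simp
  · simp only [Finset.mem_insert, Finset.mem_Ioo]
    omega

/-- The intertwining relation `U * h = f * U`. -/
theorem U_mul_eq (h0 : coeff [] h = ξ) : U D h * h = f D h * U D h := by
  ext w
  cases w with
  | nil =>
    rw [coeff_mul_nil, coeff_mul_nil, coeff_U_nil, coeff_f_nil, h0]
    simp
  | cons a w =>
    set W := a :: w with hW
    have hlen : 0 < W.length := by simp [hW]
    rw [coeff_mul, coeff_mul, sum_range_split _ _ hlen, sum_range_split _ _ hlen]
    simp only [List.take_zero, List.drop_zero, List.take_length, List.drop_length, coeff_U_nil,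
      coeff_f_nil, h0, one_mul, mul_one]
    have hsplit := D.split (corr h (fun v => coeff v (U D h)) (fun v => coeff v (f D h)) W)
    rw [← coeff_U_cons, ← coeff_f_cons] at hsplit
    rw [← hW] at hsplit
    have hE : corr h (fun v => coeff v (U D h)) (fun v => coeff v (f D h)) W =
      coeff W h + ∑ i ∈ Finset.Ioo 0 W.length,
        (coeff (W.take i) (U D h) * coeff (W.drop i) h -
          coeff (W.take i) (f D h) * coeff (W.drop i) (U D h)) := rfl
    rw [hE, Finset.sum_sub_distrib] at hsplit
    have : coeff W h + coeff W (U D h) * ξ +
        ∑ x ∈ Finset.Ioo 0 W.length, coeff (W.take x) (U D h) * coeff (W.drop x) h -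
        (ξ * coeff W (U D h) + coeff W (f D h) +
          ∑ x ∈ Finset.Ioo 0 W.length, coeff (W.take x) (f D h) * coeff (W.drop x) (U D h)) = 0 := by
      have h3 : ξ * coeff W (U D h) - coeff W (U D h) * ξ - (coeff W h +
        (∑ x ∈ Finset.Ioo 0 W.length, coeff (W.take x) (U D h) * coeff (W.drop x) h -
        ∑ x ∈ Finset.Ioo 0 W.length, coeff (W.take x) (f D h) * coeff (W.drop x) (U D h)) -
        coeff W (f D h)) = 0 := sub_eq_zero.mpr hsplit
      rw [← neg_eq_zero, ← h3]
      abel
    exact sub_eq_zero.mp this

theorem isUnit_U : IsUnit (U D h) := by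
  rw [isUnit_iff, coeff_U_nil]
  exact isUnit_one

/-- The main statement: `U * h * V = f`, with `V` the inverse of `U`. -/
theorem exists_conj (h0 : coeff [] h = ξ) :
    ∃ V : NCSeries Y B, U D h * V = 1 ∧ V * U D h = 1 ∧ U D h * h * V = f D h ∧
      V * f D h * U D h = h := by
  obtain ⟨u, hu⟩ := isUnit_U D h
  refine ⟨(↑u⁻¹ : NCSeries Y B), ?_, ?_, ?_, ?_⟩
  · rw [← hu]; exact u.mul_inv
  · rw [← hu]; exact u.inv_mul
  · rw [U_mul_eq D h h0, mul_assoc]
    have : U D h * (↑u⁻¹ : NCSeries Y B) = 1 := by rw [← hu]; exact u.mul_inv
    rw [this, mul_one]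
  · rw [mul_assoc, ← U_mul_eq D h h0, ← mul_assoc]
    have : (↑u⁻¹ : NCSeries Y B) * U D h = 1 := by rw [← hu]; exact u.inv_mul
    rw [this, one_mul]

/-- Degree-one coefficients. -/
theorem corr_single (u g : List Y → B) (t : Y) : corr h u g [t] = coeff [t] h := by
  have h1 : Finset.Ioo 0 ([t] : List Y).length = ∅ := by
    simp only [List.length_cons, List.length_nil]; decide
  simp only [corr, h1, Finset.sum_empty, add_zero]

theorem corr_pair (u g : List Y → B) (t t' : Y) :
    corr h u g [t, t'] = coeff [t, t'] h + (u [t] * coeff [t'] h - g [t] * u [t']) := by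
  have h1 : Finset.Ioo 0 ([t, t'] : List Y).length = {1} := by
    simp only [List.length_cons, List.length_nil]; decide
  simp only [corr, h1, Finset.sum_singleton, List.take_succ_cons, List.take_zero,
    List.drop_succ_cons, List.drop_zero]

theorem coeff_f_single (t : Y) : coeff [t] (f D h) = D.π (coeff [t] h) := by
  rw [coeff_f_cons, corr_single]

theorem coeff_U_single (t : Y) : coeff [t] (U D h) = D.A (coeff [t] h) := by
  rw [coeff_U_cons, corr_single]

/-- Degree-two coefficients (the formula of Section 4). -/
theorem coeff_f_pair (t t' : Y) :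
    coeff [t, t'] (f D h) =
      D.π (coeff [t, t'] h + D.A (coeff [t] h) * coeff [t'] h
        - D.π (coeff [t] h) * D.A (coeff [t'] h)) := by
  rw [coeff_f_cons, corr_pair, coeff_U_single, coeff_f_single, coeff_U_single]
  congr 1
  abel

/-- Degree-two coefficients of `U`. -/
theorem coeff_U_pair (t t' : Y) :
    coeff [t, t'] (U D h) =
      D.A (coeff [t, t'] h + D.A (coeff [t] h) * coeff [t'] h
        - D.π (coeff [t] h) * D.A (coeff [t'] h)) := by
  rw [coeff_U_cons, corr_pair, coeff_U_single, coeff_f_single, coeff_U_single]
  congr 1
  abel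

/-- If `h` and the split data respect a subset `S` (a subring of `B`), so do `U` and `f`.
This is the truncation/field-of-definition principle: if `ξ` lies in `S`, `h` has coefficients in
`S`, and `π`, `A` preserve `S`, then `U` and `f` have coefficients in `S`. -/
theorem coeff_mem {S : Subring B} (hξ : ξ ∈ S) (hh : ∀ w, coeff w h ∈ S)
    (hπ : ∀ c ∈ S, D.π c ∈ S) (hA : ∀ c ∈ S, D.A c ∈ S) (w : List Y) :
    coeff w (U D h) ∈ S ∧ coeff w (f D h) ∈ S := by
  induction hn : w.length using Nat.strong_induction_on generalizing w with
  | _ n ih =>
    cases w with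
    | nil => simp only [coeff_U_nil, coeff_f_nil]; exact ⟨S.one_mem, hξ⟩
    | cons a v =>
      have hE : corr h (fun v => coeff v (U D h)) (fun v => coeff v (f D h)) (a :: v) ∈ S := by
        refine S.add_mem (hh _) (S.sum_mem fun i hi => ?_)
        obtain ⟨h0, h1⟩ := Finset.mem_Ioo.mp hi
        have h1' : i < v.length + 1 := by simpa using h1
        have hn' : v.length + 1 = n := by simpa using hn
        have ht : ((a :: v).take i).length < n := by
          rw [List.length_take, List.length_cons]; omega
        have hd : ((a :: v).drop i).length < n := by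
          rw [List.length_drop, List.length_cons]; omega
        exact S.sub_mem (S.mul_mem (ih _ ht _ rfl).1 (hh _))
          (S.mul_mem (ih _ ht _ rfl).2 (ih _ hd _ rfl).1)
      rw [coeff_U_cons, coeff_f_cons]
      exact ⟨hA _ hE, hπ _ hE⟩

/-- Uniqueness-free truncation: `U` and `f` on a word depend only on `h` on factors of that word,
in particular on words of length `≤ w.length`. -/
theorem coeff_congr_of_agree {h' : NCSeries Y B} (N : ℕ)
    (hag : ∀ v : List Y, v.length ≤ N → coeff v h = coeff v h') (w : List Y)
    (hw : w.length ≤ N) :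
    coeff w (U D h) = coeff w (U D h') ∧ coeff w (f D h) = coeff w (f D h') := by
  induction hn : w.length using Nat.strong_induction_on generalizing w with
  | _ n ih =>
    cases w with
    | nil => simp
    | cons a v =>
      have hE : corr h (fun v => coeff v (U D h)) (fun v => coeff v (f D h)) (a :: v) =
          corr h' (fun v => coeff v (U D h')) (fun v => coeff v (f D h')) (a :: v) := by
        unfold corr
        rw [hag _ hw]
        congr 1
        refine Finset.sum_congr rfl fun i hi => ?_
        obtain ⟨h0, h1⟩ := Finset.mem_Ioo.mp hi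
        have h1' : i < v.length + 1 := by simpa using h1
        have hn' : v.length + 1 = n := by simpa using hn
        have hw' : v.length + 1 ≤ N := by simpa using hw
        have ht : ((a :: v).take i).length < n := by
          rw [List.length_take, List.length_cons]; omega
        have hd : ((a :: v).drop i).length < n := by
          rw [List.length_drop, List.length_cons]; omega
        have ht' : ((a :: v).take i).length ≤ N := by omega
        have hd' : ((a :: v).drop i).length ≤ N := by omega
        show coeff _ (U D h) * _ - coeff _ (f D h) * coeff _ (U D h) =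
          coeff _ (U D h') * _ - coeff _ (f D h') * coeff _ (U D h')
        rw [(ih _ ht _ ht' rfl).1, (ih _ ht _ ht' rfl).2, (ih _ hd _ hd' rfl).1, hag _ hd']
      rw [coeff_U_cons, coeff_f_cons, coeff_U_cons, coeff_f_cons, hE]
      exact ⟨rfl, rfl⟩

/-- Lift a series whose coefficients all lie in a subring to a series over that subring. -/
def liftSub (S : Subring B) (g : NCSeries Y B) (hg : ∀ w, coeff w g ∈ S) : NCSeries Y S :=
  fun w => ⟨coeff w g, hg w⟩

@[simp] theorem map_liftSub (S : Subring B) (g : NCSeries Y B) (hg : ∀ w, coeff w g ∈ S) :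
    NCSeries.map S.subtype (liftSub S g hg) = g := by
  ext w
  rfl

/-- The centraliser form: `f` as a series over `Subring.centralizer {ξ}`. -/
def fCent : NCSeries Y (Subring.centralizer ({ξ} : Set B)) :=
  liftSub _ (f D h) (fun w => by
    rw [Subring.mem_centralizer_iff]
    intro g hg
    rw [Set.mem_singleton_iff.mp hg]
    exact coeff_f_comm D h w)

@[simp] theorem map_fCent :
    NCSeries.map (Subring.centralizer ({ξ} : Set B)).subtype (fCent D h) = f D h :=
  map_liftSub _ _ _

end Crest.Agent.Lib.Kurosh.Hensel
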