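import Mathlib
import Crest.Agent.Lib.Kurosh.StageDefs
import Crest.Agent.Lib.Kurosh.Hensel
import Crest.Agent.Lib.Kurosh.CentDiv
import Crest.Agent.Lib.Kurosh.DivSplit
import Crest.Agent.Lib.Kurosh.KPrime
import Crest.Agent.Lib.Kurosh.FieldRL

/-!
# Hensel steps: `exists_hensel`, `exists_aStep`, `exists_levelStep` (S0270, helper59)
-/

set_option autoImplicit false

namespace Crest.Agent.Lib.Kurosh.Steps

open NCSeries Module

variable {Y' : Type} [Fintype Y'] [DecidableEq Y']

/-- The split data of a f.d. division algebra along `ξ`. -/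
noncomputable def splitData (F : Type) {D : Type} [Field F] [CharZero F] [DivisionRing D] [Algebra F D]
    [FiniteDimensional F D] (ξ : D) : Hensel.SplitData ξ where
  π := fun c => Classical.choose (DivSplit.exists_split F ξ c)
  A := fun c => Classical.choose (Classical.choose_spec (DivSplit.exists_split F ξ c))
  comm := fun c => (Classical.choose_spec (Classical.choose_spec (DivSplit.exists_split F ξ c))).1
  split := fun c => by
    have := (Classical.choose_spec (Classical.choose_spec (DivSplit.exists_split F ξ c))).2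
    rw [eq_sub_iff_add_eq]
    rw [add_comm]
    exact this.symm

/-- Conjugation into the centralizer. -/
theorem hensel_cent {Z₁ E : Type} [Field Z₁] [CharZero Z₁] [DivisionRing E] [Algebra Z₁ E]
    [FiniteDimensional Z₁ E] (h : NCS E Y') :
    ∃ (f' : NCS (Subring.centralizer ({coeff [] h} : Set E)) Y') (U U' : NCS E Y'),
      coeff [] f' = 0 ∧ U * U' = 1 ∧ U' * U = 1 ∧ coeff [] U = 1 ∧
      U * h * U' = C (coeff [] h) + map (Subring.centralizer ({coeff [] h} : Set E)).subtype f' := by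
  classical
  set μ := coeff [] h with hμ
  let D := splitData Z₁ μ
  obtain ⟨V, h1, h2, h3, -⟩ := Hensel.exists_conj D h rfl
  have hμmem : μ ∈ Subring.centralizer ({μ} : Set E) := by
    rw [Subring.mem_centralizer_iff]
    intro g hg
    rw [Set.mem_singleton_iff.mp hg]
  let f' : NCS (Subring.centralizer ({μ} : Set E)) Y' := Hensel.fCent D h - C ⟨μ, hμmem⟩
  have hf'0 : coeff [] f' = 0 := by
    apply Subtype.ext
    show coeff [] (Hensel.f D h) - μ = 0
    rw [Hensel.coeff_f_nil, sub_self]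
  refine ⟨f', Hensel.U D h, V, hf'0, h1, h2, Hensel.coeff_U_nil D h, ?_⟩
  rw [h3]
  have : map (Subring.centralizer ({μ} : Set E)).subtype f' = Hensel.f D h - C μ := by
    rw [map_sub, Hensel.map_fCent]
    congr 1
    ext w
    cases w <;> simp [coeff_map, coeff_C_nil, coeff_C_cons]
  rw [this]
  abel

/-- Finite dimensionality of a centralizer. -/
theorem finite_centralizer {Z₁ E : Type} [Field Z₁] [DivisionRing E] [Algebra Z₁ E]
    [FiniteDimensional Z₁ E] (μ : E) : FiniteDimensional Z₁ (Subring.centralizer ({μ} : Set E)) :=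
  FiniteDimensional.of_injective (CentDiv.incl μ Z₁).toLinearMap Subtype.val_injective

/-- Abstract Hensel. -/
theorem exists_hensel {Z₁ E : Type} [Field Z₁] [CharZero Z₁] [DivisionRing E]
    [Algebra Z₁ E] [FiniteDimensional Z₁ E] (h : NCS E Y') :
    ∃ (c' : AConf Z₁ Y') (jp : c'.A →ₐ[Z₁] E) (U U' : NCS E Y'), U * U' = 1 ∧ U' * U = 1 ∧ coeff [] U = 1 ∧
      (∀ x : E, x ∈ jp.range ↔ x * coeff [] h = coeff [] h * x) ∧
      U * h * U' = C (coeff [] h) + map (jp : c'.A →+* E) c'.f := by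
  obtain ⟨f', U, U', hf0, h1, h2, h3, h4⟩ := hensel_cent (Z₁ := Z₁) h
  haveI := finite_centralizer (Z₁ := Z₁) (coeff [] h)
  let c' : AConf Z₁ Y' := { A := Subring.centralizer ({coeff [] h} : Set E), f := f', f0 := hf0 }
  refine ⟨c', CentDiv.incl (coeff [] h) Z₁, U, U', h1, h2, h3, CentDiv.mem_range_incl _ _, h4⟩

variable {Y : Type} [Fintype Y] [DecidableEq Y] {Z : Type} [Field Z] [CharZero Z] {m : ℕ} [Fact m.Prime]

/-- Existence of an `A`-step. -/
theorem exists_aStep (d : LevelData Z Y m) (c : AConf Z Y) : ∃ c', Nonempty (AStep d c c') := by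
  obtain ⟨f', U, U', hf0, h1, h2, h3, h4⟩ := hensel_cent (Z₁ := Zp Z Y m) (psi d c.A c.f)
  haveI := finite_centralizer (Z₁ := Zp Z Y m) (coeff [] (psi d c.A c.f))
  let c' : AConf (Zp Z Y m) (Fin d.n) :=
    { A := Subring.centralizer ({coeff [] (psi d c.A c.f)} : Set (Tilde Z Y m c.A)), f := f', f0 := hf0 }
  have hself : coeff [] (psi d c.A c.f) ∈ Subring.centralizer ({coeff [] (psi d c.A c.f)} : Set (Tilde Z Y m c.A)) := by
    rw [Subring.mem_centralizer_iff]
    intro g hg
    rw [Set.mem_singleton_iff.mp hg]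
  exact ⟨c', ⟨AStep.mk (CentDiv.incl (coeff [] (psi d c.A c.f)) (Zp Z Y m)) ⟨_, hself⟩ rfl
    (fun x => CentDiv.mem_range_incl _ _ _) U U' h1 h2 h3 h4⟩⟩

/-- Existence of a level step when `val ξ` is coprime to `m`. -/
theorem exists_levelStep (d : LevelData Z Y m) (c : KConf Z Y)
    (hξ : ¬ ((m : ℤ) ∣ SL.val (value d c.K c.g))) (hξ0 : value d c.K c.g ≠ 0) :
    ∃ c', Nonempty (LevelStep d c c') := by
  obtain ⟨f', U, U', hf0, h1, h2, h3, h4⟩ := hensel_cent (Z₁ := Zp Z Y m) (psi d c.K c.g)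
  haveI := finite_centralizer (Z₁ := Zp Z Y m) (coeff [] (psi d c.K c.g))
  let ξ₀ := coeff [] (psi d c.K c.g)
  have hsm : (RatExt.sR Z Y m c.K) ^ m = 1 := RatExt.sR_pow_m Z Y m c.K
  have hcop : IsCoprime (SL.val ξ₀) (m : ℤ) := by
    have hp : Nat.Prime m := Fact.out
    have := (Nat.prime_iff_prime_int.1 hp)
    exact (this.coprime_iff_not_dvd.2 hξ).symm
  have hcomm : ∀ a b : Subring.centralizer ({ξ₀} : Set (Tilde Z Y m c.K)), a * b = b * a := by
    intro a b
    apply Subtype.ext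
    have ha : a.1 ∈ KPrime.Cent ξ₀ := a.2
    have hb : b.1 ∈ KPrime.Cent ξ₀ := b.2
    exact KPrime.Cent_comm_of_coprime hξ0 hsm hcop ha hb
  letI fK : Field (Subring.centralizer ({ξ₀} : Set (Tilde Z Y m c.K))) :=
    { CentDiv.instDivisionRingCentralizer ξ₀ with mul_comm := hcomm }
  let c' : KConf (Zp Z Y m) (Fin d.n) :=
    { K := Subring.centralizer ({ξ₀} : Set (Tilde Z Y m c.K)), g := f', g0 := hf0 }
  have hself : ξ₀ ∈ Subring.centralizer ({ξ₀} : Set (Tilde Z Y m c.K)) := by
    rw [Subring.mem_centralizer_iff]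
    intro g hg
    rw [Set.mem_singleton_iff.mp hg]
  exact ⟨c', ⟨LevelStep.mk (CentDiv.incl ξ₀ (Zp Z Y m)) ⟨_, hself⟩ rfl
    (fun x => CentDiv.mem_range_incl _ _ _) U U' h1 h2 h3 h4⟩⟩

end Crest.Agent.Lib.Kurosh.Steps
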