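import Crest.Agent.Lib.Kurosh.SkewLaurent
import Crest.Agent.Lib.Kurosh.NCSeries

/-!
# S0270, blueprint Section 5.0: the Transport Lemma, abstract core

We work with noncommutative series `NCS (SL S σ) Y'` over a skew Laurent ring.

Suppose `Bb ≡ ∑_{n<N} C(φ n) Hs^n` in the sense that the coefficient of `v` of the difference has
valuation at least `N - |v|` (this is what the level-up map `ψ` does to a congruence modulo order
`N`), and `Uh * Hs * Vh = C ξ + G` where `Uh`, `Vh` are mutually inverse, `G` has zero constant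
term, `ξ` has valuation `≥ 1` and commutes with the coefficients of `G`, and `C (φ n)` commutes
with `Uh`.  Then

  `Uh * Bb * Vh ≡ ∑_{r<N} C (φ' r) G^r`  modulo order `N`, for every `N`,

where `φ' r = ∑_n binom(n,r) φ n ξ^(n-r)` (convergent in `SL`).
-/

set_option autoImplicit false

namespace Crest.Agent.Lib.Kurosh.Transport

open NCSeries

universe u v w

variable {S : Type u} [Ring S] {σ : RingAut S}

/-! ### Sums in `SL` -/

lemma coeff_sum_SL {ι : Type*} (s : Finset ι) (t : ι → SL S σ) (i : ℤ) :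
    (∑ n ∈ s, t n).coeff i = ∑ n ∈ s, (t n).coeff i := by
  classical
  induction s using Finset.induction_on with
  | empty => simp
  | insert a s ha ih => rw [Finset.sum_insert ha, Finset.sum_insert ha, SL.coeff_add, ih]

lemma LB_sum {ι : Type*} (s : Finset ι) (t : ι → SL S σ) (a : ℤ) (h : ∀ n ∈ s, (t n).LB a) :
    (∑ n ∈ s, t n).LB a := by
  intro i hi
  rw [coeff_sum_SL]
  exact Finset.sum_eq_zero fun n hn => h n hn i hi

/-- The sum of a family `t` with `(t n).LB (a + n)`. -/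
noncomputable def sumSL (t : ℕ → SL S σ) (a : ℤ) : SL S σ :=
  ⟨fun i => if i < a then 0 else ∑ n ∈ Finset.range ((i - a).toNat + 1), (t n).coeff i,
    a, fun _ hi => if_pos hi⟩

lemma lB_sumSL (t : ℕ → SL S σ) (a : ℤ) : (sumSL t a).LB a := fun _ hi => if_pos hi

/-- Finite partial sums agree with the infinite sum in low degrees. -/
lemma coeff_partial_eq {t : ℕ → SL S σ} {a : ℤ} (ht : ∀ n, (t n).LB (a + n)) {N : ℕ} {i : ℤ}
    (hi : i < a + N) : (∑ n ∈ Finset.range N, t n).coeff i = (sumSL t a).coeff i := by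
  rw [coeff_sum_SL]
  show _ = if i < a then 0 else _
  split_ifs with h
  · refine Finset.sum_eq_zero fun n _ => ht n i ?_
    have : (0 : ℤ) ≤ n := Int.natCast_nonneg n
    omega
  · have hM : (i - a).toNat + 1 ≤ N := by omega
    symm
    refine Finset.sum_subset (Finset.range_subset_range.mpr hM) fun n _ hn => ht n i ?_
    have : (i - a).toNat + 1 ≤ n := by simpa using hn
    omega

lemma lB_partial_sub {t : ℕ → SL S σ} {a : ℤ} (ht : ∀ n, (t n).LB (a + n)) (N : ℕ) :
    ((∑ n ∈ Finset.range N, t n) - sumSL t a).LB (a + N) := by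
  intro i hi
  rw [SL.coeff_sub, coeff_partial_eq ht hi, sub_self]

/-- If all terms commute with `x`, so does the infinite sum. -/
lemma sumSL_comm {t : ℕ → SL S σ} {a : ℤ} (ht : ∀ n, (t n).LB (a + n)) (x : SL S σ)
    (h : ∀ n, x * t n = t n * x) : x * sumSL t a = sumSL t a * x := by
  obtain ⟨b, hb⟩ := x.exists_LB
  apply SL.ext
  funext i
  have hpart : ∀ N : ℕ, x * (∑ n ∈ Finset.range N, t n) = (∑ n ∈ Finset.range N, t n) * x := by
    intro N
    rw [Finset.mul_sum, Finset.sum_mul]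
    exact Finset.sum_congr rfl fun n _ => h n
  obtain ⟨N, hN⟩ : ∃ N : ℕ, i < b + (a + (N : ℤ)) := ⟨(i - a - b + 1).toNat, by omega⟩
  have h1 := (hb.mul (lB_partial_sub ht N)) i hN
  have h2 := ((lB_partial_sub ht N).mul hb) i (by omega)
  have h3 := hpart N
  rw [mul_sub] at h1
  rw [sub_mul] at h2
  rw [SL.coeff_sub] at h1 h2
  rw [h3] at h1
  have := sub_eq_zero.mp h1
  have h4 := sub_eq_zero.mp h2
  rw [← this, h4]

lemma LB_pow {x : SL S σ} (h : x.LB 1) (k : ℕ) : (x ^ k).LB k := by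
  induction k with
  | zero => simpa using SL.lB_one (σ := σ)
  | succ k ih =>
    rw [pow_succ]
    have := ih.mul h
    simpa using this

lemma LB_natCast_mul (k : ℕ) {x : SL S σ} {a : ℤ} (h : x.LB a) : (((k : ℕ) : SL S σ) * x).LB a := by
  have h1 : ∀ k : ℕ, (((k : ℕ) : SL S σ)).LB 0 := by
    intro k
    induction k with
    | zero => simpa using SL.lB_zero 0
    | succ k ih =>
      rw [Nat.cast_succ]
      exact ih.add SL.lB_one
  simpa using (h1 k).mul h

/-! ### The terms `binom(n,r) φ n ξ^(n-r)` -/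

/-- The `n`-th term of `φ' r`. -/
noncomputable def tTerm (φ : ℕ → SL S σ) (ξ : SL S σ) (r n : ℕ) : SL S σ :=
  ((n.choose r : ℕ) : SL S σ) * (φ n * ξ ^ (n - r))

/-- `φ' r = ∑_n binom(n,r) φ n ξ^(n-r)`. -/
noncomputable def phiLim (φ : ℕ → SL S σ) (ξ : SL S σ) (r : ℕ) : SL S σ :=
  sumSL (tTerm φ ξ r) (-(r : ℤ))

lemma lB_tTerm {φ : ℕ → SL S σ} {ξ : SL S σ} (hφ : ∀ n, (φ n).LB 0) (hξ : ξ.LB 1) (r n : ℕ) :
    (tTerm φ ξ r n).LB (-(r : ℤ) + n) := by
  unfold tTerm
  by_cases h : n < r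
  · rw [Nat.choose_eq_zero_of_lt h]
    simpa using SL.lB_zero _
  · apply LB_natCast_mul
    have := (hφ n).mul (LB_pow hξ (n - r))
    have h2 : ((n - r : ℕ) : ℤ) = n - r := by
      push_cast [Nat.cast_sub (not_lt.mp h)]
      ring
    rw [zero_add, h2] at this
    convert this using 1
    ring

lemma lB_phiLim (φ : ℕ → SL S σ) (ξ : SL S σ) (r : ℕ) : (phiLim φ ξ r).LB (-(r : ℤ)) :=
  lB_sumSL _ _

/-- `φ' r` commutes with everything that commutes with all `φ n` and with `ξ`. -/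
lemma phiLim_comm {φ : ℕ → SL S σ} {ξ : SL S σ} (hφ : ∀ n, (φ n).LB 0) (hξ : ξ.LB 1)
    (x : SL S σ) (h1 : ∀ n, x * φ n = φ n * x) (h2 : x * ξ = ξ * x) (r : ℕ) :
    x * phiLim φ ξ r = phiLim φ ξ r * x := by
  refine sumSL_comm (lB_tTerm hφ hξ r) x fun n => ?_
  unfold tTerm
  have hc : Commute x ((n.choose r : ℕ) : SL S σ) := (Nat.cast_commute _ _).symm
  have hp : Commute x (ξ ^ (n - r)) := Commute.pow_right h2 _
  have hf : Commute x (φ n) := h1 n
  exact hc.mul_right (hf.mul_right hp)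

/-! ### Uniform lower bounds -/

lemma exists_forall_finset {ι : Type*} (s : Finset ι) (P : ι → ℤ → Prop)
    (hmono : ∀ i a b, b ≤ a → P i a → P i b) (h : ∀ i ∈ s, ∃ a, P i a) :
    ∃ a, ∀ i ∈ s, P i a := by
  classical
  induction s using Finset.induction_on with
  | empty => exact ⟨0, by simp⟩
  | insert i s hi ih =>
    obtain ⟨a, ha⟩ := h i (Finset.mem_insert_self _ _)
    obtain ⟨b, hb⟩ := ih fun j hj => h j (Finset.mem_insert_of_mem hj)
    refine ⟨min a b, fun j hj => ?_⟩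
    rcases Finset.mem_insert.mp hj with rfl | hj
    · exact hmono _ _ _ (min_le_left _ _) ha
    · exact hmono _ _ _ (min_le_right _ _) (hb j hj)

section Series

variable {Y' : Type v}

/-- Left multiplication by a fixed series loses only a word-dependent amount of valuation. -/
lemma exists_lb_mul_left (P : NCS (SL S σ) Y') (w : List Y') :
    ∃ a : ℤ, ∀ (N : ℤ) (E : NCS (SL S σ) Y'),
      (∀ v : List Y', v.length ≤ w.length → (coeff v E).LB (N - v.length)) →
      (coeff w (P * E)).LB (N + a) := by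
  obtain ⟨a, ha⟩ := exists_forall_finset (Finset.range (w.length + 1))
    (fun i a => (coeff (w.take i) P).LB a) (fun _ _ _ hba h => SL.LB.mono h hba)
    (fun i _ => (coeff (w.take i) P).exists_LB)
  refine ⟨a - w.length, fun N E hE => ?_⟩
  rw [coeff_mul]
  refine LB_sum _ _ _ fun i hi => ?_
  have h1 := ha i hi
  have h2 := hE (w.drop i) (by simp)
  have h3 := h1.mul h2
  refine SL.LB.mono h3 ?_
  have : ((w.drop i).length : ℤ) ≤ w.length := by simp
  omega

/-- Two-sided multiplication by fixed series loses only a word-dependent amount of valuation. -/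
lemma exists_lb_mul_two (P Q : NCS (SL S σ) Y') (w : List Y') :
    ∃ c : ℤ, ∀ (N : ℤ) (E : NCS (SL S σ) Y'),
      (∀ v : List Y', v.length ≤ w.length → (coeff v E).LB (N - v.length)) →
      (coeff w (P * E * Q)).LB (N - c) := by
  obtain ⟨a, ha⟩ := exists_forall_finset (Finset.range (w.length + 1))
    (fun i a => ∀ (N : ℤ) (E : NCS (SL S σ) Y'),
      (∀ v : List Y', v.length ≤ (w.take i).length → (coeff v E).LB (N - v.length)) →
      (coeff (w.take i) (P * E)).LB (N + a))
    (fun _ a b hba h N E hE => SL.LB.mono (h N E hE) (by omega))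
    (fun i _ => exists_lb_mul_left P (w.take i))
  obtain ⟨b, hb⟩ := exists_forall_finset (Finset.range (w.length + 1))
    (fun i a => (coeff (w.drop i) Q).LB a) (fun _ _ _ hba h => SL.LB.mono h hba)
    (fun i _ => (coeff (w.drop i) Q).exists_LB)
  refine ⟨-(a + b), fun N E hE => ?_⟩
  rw [coeff_mul]
  refine LB_sum _ _ _ fun i hi => ?_
  have h1 := ha i hi N E (fun v hv => hE v (le_trans hv (by simp)))
  have h2 := hb i hi
  have h3 := h1.mul h2
  refine SL.LB.mono h3 ?_
  omega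

/-! ### Binomial expansion -/

lemma coeff_pow_eq_zero {G : NCS (SL S σ) Y'} (hG0 : coeff [] G = 0) {r : ℕ} {w : List Y'}
    (h : w.length < r) : coeff w (G ^ r) = 0 := by
  have hG : G ∈ ordGE Y' (SL S σ) 1 := by
    intro v hv
    have : v = [] := List.length_eq_zero_iff.mp (by omega)
    subst this
    exact hG0
  exact pow_mem_ordGE hG r w h

lemma coeff_sum_NCS {ι : Type*} (w : List Y') (s : Finset ι) (f : ι → NCS (SL S σ) Y') :
    coeff w (∑ x ∈ s, f x) = ∑ x ∈ s, coeff w (f x) :=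
  map_sum (coeffHom w) f s

lemma C_pow (ξ : SL S σ) (k : ℕ) : (C ξ : NCS (SL S σ) Y') ^ k = C (ξ ^ k) := by
  have := map_pow (CHom (Y := Y') (A := SL S σ)) ξ k
  exact this.symm

lemma coeff_mul_natCast (f : NCS (SL S σ) Y') (k : ℕ) (w : List Y') :
    coeff w (f * (k : NCS (SL S σ) Y')) = coeff w f * (k : SL S σ) := by
  have : (k : NCS (SL S σ) Y') = C (k : SL S σ) :=
    (map_natCast (CHom (Y := Y') (A := SL S σ)) k).symm
  rw [this, coeff_mul_C]

lemma commute_C_of_coeff {ξ : SL S σ} {G : NCS (SL S σ) Y'} (h : ∀ w, ξ * coeff w G = coeff w G * ξ) :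
    Commute (C ξ : NCS (SL S σ) Y') G := by
  show C ξ * G = G * C ξ
  apply NCSeries.ext
  intro w
  rw [C_mul_coeff, coeff_mul_C]
  exact h w

lemma coeff_comm_of_commute {ξ : SL S σ} {G : NCS (SL S σ) Y'}
    (h : Commute (C ξ : NCS (SL S σ) Y') G) (w : List Y') :
    ξ * coeff w G = coeff w G * ξ := by
  have h1 : coeff w (C ξ * G) = coeff w (G * C ξ) := congrArg (coeff w) h.eq
  have e1 := C_mul_coeff ξ G w
  have e2 := coeff_mul_C G ξ w
  exact e1.symm.trans (h1.trans e2)

/-- Binomial expansion at the level of coefficients. -/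
lemma coeff_add_pow {ξ : SL S σ} {G : NCS (SL S σ) Y'} (h : ∀ w, ξ * coeff w G = coeff w G * ξ)
    (n : ℕ) (w : List Y') :
    coeff w ((C ξ + G) ^ n) = ∑ r ∈ Finset.range (n + 1),
      ((n.choose r : ℕ) : SL S σ) * (ξ ^ (n - r) * coeff w (G ^ r)) := by
  have hc := commute_C_of_coeff h
  have hpow : ∀ r k : ℕ, Commute (C (ξ ^ k) : NCS (SL S σ) Y') (G ^ r) := by
    intro r k
    rw [← C_pow]
    exact (hc.pow_right r).pow_left k
  rw [add_comm, hc.symm.add_pow]
  rw [coeff_sum_NCS]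
  refine Finset.sum_congr rfl fun r _ => ?_
  rw [coeff_mul_natCast, C_pow, coeff_mul_C]
  have h3 := coeff_comm_of_commute (hpow r (n - r)) w
  have : ξ ^ (n - r) * coeff w (G ^ r) = coeff w (G ^ r) * ξ ^ (n - r) := by
    have h4 : Commute (C (ξ ^ (n - r)) : NCS (SL S σ) Y') (G ^ r) := hpow r (n - r)
    exact coeff_comm_of_commute h4 w
  rw [this]
  exact (Nat.cast_commute _ _).symm.eq

/-- Resummation: `∑_{n<N} φ n * (C ξ + G)^n` at the word `w`. -/
lemma partial_resum {φ : ℕ → SL S σ} {ξ : SL S σ} {G : NCS (SL S σ) Y'}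
    (hG0 : coeff [] G = 0) (h : ∀ w, ξ * coeff w G = coeff w G * ξ) (N : ℕ) (w : List Y') :
    ∑ n ∈ Finset.range N, φ n * coeff w ((C ξ + G) ^ n) =
      ∑ r ∈ Finset.range (w.length + 1),
        (∑ n ∈ Finset.range N, tTerm φ ξ r n) * coeff w (G ^ r) := by
  simp_rw [Finset.sum_mul]
  rw [Finset.sum_comm]
  refine Finset.sum_congr rfl fun n _ => ?_
  rw [coeff_add_pow h, Finset.mul_sum]
  -- both sums equal the sum over a large range
  have hL : ∑ r ∈ Finset.range (n + 1),
      φ n * (((n.choose r : ℕ) : SL S σ) * (ξ ^ (n - r) * coeff w (G ^ r))) =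
      ∑ r ∈ Finset.range (n + w.length + 2), tTerm φ ξ r n * coeff w (G ^ r) := by
    have e : ∀ r, φ n * (((n.choose r : ℕ) : SL S σ) * (ξ ^ (n - r) * coeff w (G ^ r))) =
        tTerm φ ξ r n * coeff w (G ^ r) := by
      intro r
      unfold tTerm
      have hc : Commute (φ n) ((n.choose r : ℕ) : SL S σ) := (Nat.cast_commute _ _).symm
      calc φ n * (((n.choose r : ℕ) : SL S σ) * (ξ ^ (n - r) * coeff w (G ^ r)))
          = (φ n * ((n.choose r : ℕ) : SL S σ)) * (ξ ^ (n - r) * coeff w (G ^ r)) := by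
            rw [mul_assoc]
        _ = (((n.choose r : ℕ) : SL S σ) * φ n) * (ξ ^ (n - r) * coeff w (G ^ r)) := by
            rw [hc.eq]
        _ = ((n.choose r : ℕ) : SL S σ) * (φ n * ξ ^ (n - r)) * coeff w (G ^ r) := by
            simp only [mul_assoc]
    simp_rw [e]
    refine Finset.sum_subset (Finset.range_subset_range.mpr (by omega)) fun r _ hr => ?_
    have : n < r := by simpa [Nat.lt_succ_iff] using hr
    unfold tTerm
    rw [Nat.choose_eq_zero_of_lt this]
    simp
  have hR : ∑ r ∈ Finset.range (w.length + 1), tTerm φ ξ r n * coeff w (G ^ r) =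
      ∑ r ∈ Finset.range (n + w.length + 2), tTerm φ ξ r n * coeff w (G ^ r) := by
    refine Finset.sum_subset (Finset.range_subset_range.mpr (by omega)) fun r _ hr => ?_
    have : w.length < r := by simpa [Nat.lt_succ_iff] using hr
    rw [coeff_pow_eq_zero hG0 this, mul_zero]
  rw [hL, hR]

/-! ### The main theorem -/

/-- **Transport Lemma, abstract core.** Coefficientwise form. -/
theorem coeff_transport (Bb Hs Uh Vh G : NCS (SL S σ) Y') (φ : ℕ → SL S σ) (ξ : SL S σ)
    (hφ : ∀ n, (φ n).LB 0) (hξ : ξ.LB 1)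
    (hE : ∀ (N : ℕ) (v : List Y'),
      (coeff v (Bb - ∑ n ∈ Finset.range N, C (φ n) * Hs ^ n)).LB ((N : ℤ) - v.length))
    (huv : Uh * Vh = 1) (hvu : Vh * Uh = 1)
    (hφU : ∀ n, (C (φ n) : NCS (SL S σ) Y') * Uh = Uh * C (φ n))
    (hG0 : coeff [] G = 0) (hξG : ∀ w, ξ * coeff w G = coeff w G * ξ)
    (hconj : Uh * Hs * Vh = C ξ + G) (w : List Y') :
    coeff w (Uh * Bb * Vh) =
      ∑ r ∈ Finset.range (w.length + 1), phiLim φ ξ r * coeff w (G ^ r) := by
  -- rewriting of the conjugated error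
  let u : (NCS (SL S σ) Y')ˣ := ⟨Uh, Vh, huv, hvu⟩
  have hconjpow : ∀ n, Uh * Hs ^ n * Vh = (C ξ + G) ^ n := by
    intro n
    rw [← hconj]
    exact (Units.conj_pow u Hs n).symm
  have herr : ∀ N : ℕ, Uh * (Bb - ∑ n ∈ Finset.range N, C (φ n) * Hs ^ n) * Vh =
      Uh * Bb * Vh - ∑ n ∈ Finset.range N, C (φ n) * (C ξ + G) ^ n := by
    intro N
    rw [mul_sub, sub_mul, Finset.mul_sum, Finset.sum_mul]
    congr 1
    refine Finset.sum_congr rfl fun n _ => ?_
    rw [← hconjpow n, ← mul_assoc, ← hφU n]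
    simp only [mul_assoc]
  obtain ⟨c, hc⟩ := exists_lb_mul_two Uh Vh w
  -- the coefficient bound on the conjugated error
  have hbound : ∀ N : ℕ, (coeff w (Uh * Bb * Vh) -
      ∑ n ∈ Finset.range N, φ n * coeff w ((C ξ + G) ^ n)).LB ((N : ℤ) - c) := by
    intro N
    have := hc N _ (fun v _ => hE N v)
    rw [herr N] at this
    have e : coeff w (Uh * Bb * Vh - ∑ n ∈ Finset.range N, C (φ n) * (C ξ + G) ^ n) =
        coeff w (Uh * Bb * Vh) - ∑ n ∈ Finset.range N, φ n * coeff w ((C ξ + G) ^ n) := by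
      have e1 := (coeffHom w).map_sub (Uh * Bb * Vh) (∑ n ∈ Finset.range N, C (φ n) * (C ξ + G) ^ n)
      have e2 := map_sum (coeffHom w) (fun n => (C (φ n) : NCS (SL S σ) Y') * (C ξ + G) ^ n)
        (Finset.range N)
      have e3 : ∀ n, coeffHom w ((C (φ n) : NCS (SL S σ) Y') * (C ξ + G) ^ n) =
          φ n * coeff w ((C ξ + G) ^ n) := fun n => C_mul_coeff _ _ _
      simp only [e3] at e2
      exact e1.trans (congrArg _ e2)
    rwa [e] at this
  -- lower bounds of the coefficients of powers of G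
  obtain ⟨d, hd⟩ := exists_forall_finset (Finset.range (w.length + 1))
    (fun r a => (coeff w (G ^ r)).LB a) (fun _ _ _ hba h => SL.LB.mono h hba)
    (fun r _ => (coeff w (G ^ r)).exists_LB)
  -- compare at each coefficient
  rw [← sub_eq_zero]
  apply SL.ext
  funext i
  obtain ⟨N, hN⟩ : ∃ N : ℕ, i < (N : ℤ) - c ∧ i < -(w.length : ℤ) + N + d :=
    ⟨(i + |c| + w.length + |d| + 1).toNat, by
      have h1 := le_abs_self c
      have h2 := neg_abs_le d
      have h3 := abs_nonneg c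
      have h4 := abs_nonneg d
      constructor <;> omega⟩
  have hres := partial_resum (φ := φ) hG0 hξG N w
  have hdecomp : coeff w (Uh * Bb * Vh) -
        ∑ r ∈ Finset.range (w.length + 1), phiLim φ ξ r * coeff w (G ^ r) =
      (coeff w (Uh * Bb * Vh) - ∑ n ∈ Finset.range N, φ n * coeff w ((C ξ + G) ^ n)) +
      ∑ r ∈ Finset.range (w.length + 1),
        ((∑ n ∈ Finset.range N, tTerm φ ξ r n) - phiLim φ ξ r) * coeff w (G ^ r) := by
    rw [hres]
    simp_rw [sub_mul]
    rw [Finset.sum_sub_distrib]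
    abel
  rw [hdecomp, SL.coeff_add, (hbound N) i hN.1, zero_add]
  have hlast : (∑ r ∈ Finset.range (w.length + 1),
      ((∑ n ∈ Finset.range N, tTerm φ ξ r n) - phiLim φ ξ r) * coeff w (G ^ r)).LB
        (-(w.length : ℤ) + N + d) := by
    refine LB_sum _ _ _ fun r hr => ?_
    have h1 := lB_partial_sub (lB_tTerm hφ hξ r) N
    have h2 := hd r hr
    have h3 := h1.mul h2
    have hr' : (r : ℤ) ≤ w.length := by
      have := Finset.mem_range.mp hr
      omega
    exact SL.LB.mono h3 (by omega)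
  exact hlast i hN.2

/-- **Transport Lemma, abstract core.** Congruence form: `Uh * Bb * Vh ≡ ∑_{r<N} C(φ' r) G^r`
modulo order `N`, for all `N`. -/
theorem transport (Bb Hs Uh Vh G : NCS (SL S σ) Y') (φ : ℕ → SL S σ) (ξ : SL S σ)
    (hφ : ∀ n, (φ n).LB 0) (hξ : ξ.LB 1)
    (hE : ∀ (N : ℕ) (v : List Y'),
      (coeff v (Bb - ∑ n ∈ Finset.range N, C (φ n) * Hs ^ n)).LB ((N : ℤ) - v.length))
    (huv : Uh * Vh = 1) (hvu : Vh * Uh = 1)
    (hφU : ∀ n, (C (φ n) : NCS (SL S σ) Y') * Uh = Uh * C (φ n))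
    (hG0 : coeff [] G = 0) (hξG : ∀ w, ξ * coeff w G = coeff w G * ξ)
    (hconj : Uh * Hs * Vh = C ξ + G) (N : ℕ) :
    Uh * Bb * Vh - ∑ r ∈ Finset.range N, C (phiLim φ ξ r) * G ^ r ∈ ordGE Y' (SL S σ) N := by
  intro w hw
  have h1 := coeff_transport Bb Hs Uh Vh G φ ξ hφ hξ hE huv hvu hφU hG0 hξG hconj w
  have e : coeff w (Uh * Bb * Vh - ∑ r ∈ Finset.range N, C (phiLim φ ξ r) * G ^ r) =
      coeff w (Uh * Bb * Vh) - ∑ r ∈ Finset.range N, phiLim φ ξ r * coeff w (G ^ r) := by
    have e1 := (coeffHom w).map_sub (Uh * Bb * Vh) (∑ r ∈ Finset.range N, C (phiLim φ ξ r) * G ^ r)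
    have e2 := map_sum (coeffHom w) (fun r => (C (phiLim φ ξ r) : NCS (SL S σ) Y') * G ^ r)
      (Finset.range N)
    have e3 : ∀ r, coeffHom w ((C (phiLim φ ξ r) : NCS (SL S σ) Y') * G ^ r) =
        phiLim φ ξ r * coeff w (G ^ r) := fun r => C_mul_coeff _ _ _
    simp only [e3] at e2
    exact e1.trans (congrArg _ e2)
  rw [e, h1, sub_eq_zero]
  refine Finset.sum_subset (Finset.range_subset_range.mpr (by omega)) fun r _ hr => ?_
  have : w.length < r := by simpa [Nat.lt_succ_iff] using hr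
  rw [coeff_pow_eq_zero hG0 this, mul_zero]

/-- `φ' 0 = ∑_n φ n ξ^n` and more generally the partial sums of `φ' r` approximate it. -/
lemma phiLim_sub_partial_LB {φ : ℕ → SL S σ} {ξ : SL S σ} (hφ : ∀ n, (φ n).LB 0) (hξ : ξ.LB 1)
    (r N : ℕ) :
    ((∑ n ∈ Finset.range N, tTerm φ ξ r n) - phiLim φ ξ r).LB (-(r : ℤ) + N) :=
  lB_partial_sub (lB_tTerm hφ hξ r) N

end Series

end Crest.Agent.Lib.Kurosh.Transport
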