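import Crest.Agent.Lib.Kurosh.GrMeas
import Crest.Agent.Lib.Kurosh.Stab
import Crest.Agent.Lib.Kurosh.RatExt
import Crest.Agent.Lib.Kurosh.NCComm
import Crest.Agent.Lib.Kurosh.KPrime
import Crest.Agent.Lib.Kurosh.Transport

/-!
# Theorem R (blueprint sec 5(c)), abstract core

A `Lau F`-subspace of `SL S σ` is determined by its graded pieces: to show that `span (B i) = V`
it is enough that each leading coefficient of `V` (at levels `0 ≤ c < m`) is a leading coefficient of the span.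
-/

set_option autoImplicit false

open scoped TensorProduct

namespace Crest.Agent.Lib.Kurosh.TheoremR

open SL

section GrPart

variable {F : Type*} [Field F] {S : Type*} [Ring S] [Algebra F S] {σ : RingAut S} {m : ℕ}
variable [Module.Finite F S]

variable (h : StretchData (algebraMap F S) σ m)
variable [Algebra (Lau F) (SL S σ)]
  (hA : ∀ c : Lau F, algebraMap (Lau F) (SL S σ) c = stretch h c)

include h hA

/-- Two nested `Lau F`-subspaces with the same leading coefficients coincide. -/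
theorem eq_of_leading {V0 V : Submodule (Lau F) (SL S σ)} (hle : V0 ≤ V)
    (hlead : ∀ c : Fin m, ∀ x ∈ V, x.LB ((c : ℕ) : ℤ) →
      ∃ x0 ∈ V0, x0.LB ((c : ℕ) : ℤ) ∧ x0.coeff ((c : ℕ) : ℤ) = x.coeff ((c : ℕ) : ℤ)) :
    V0 = V := by
  have := GrMeas.finite_SL h hA
  have hGr : ∀ c : Fin m, GrMeas.Gr h hA V ((c : ℕ) : ℤ) = GrMeas.Gr h hA V0 ((c : ℕ) : ℤ) := by
    intro c
    apply le_antisymm
    · rintro _ ⟨x, hx, hxL, rfl⟩
      obtain ⟨x0, hx0, hx0L, hc⟩ := hlead c x hx hxL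
      exact ⟨x0, hx0, hx0L, hc⟩
    · rintro _ ⟨x, hx, hxL, rfl⟩
      exact ⟨x, hle hx, hxL, rfl⟩
  have hrank : Module.finrank (Lau F) V0 = Module.finrank (Lau F) V := by
    rw [GrMeas.finrank_eq_sum_Gr h hA V0, GrMeas.finrank_eq_sum_Gr h hA V]
    exact Finset.sum_congr rfl fun c _ => by rw [hGr c]
  exact Submodule.eq_of_le_of_finrank_eq hle hrank

/-- Version for a span. -/
theorem span_eq_of_leading {ι : Type*} {V : Submodule (Lau F) (SL S σ)} (B : ι → SL S σ)
    (hB : ∀ i, B i ∈ V)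
    (hlead : ∀ c : Fin m, ∀ x ∈ V, x.LB ((c : ℕ) : ℤ) →
      ∃ x0 ∈ Submodule.span (Lau F) (Set.range B), x0.LB ((c : ℕ) : ℤ) ∧
        x0.coeff ((c : ℕ) : ℤ) = x.coeff ((c : ℕ) : ℤ)) :
    Submodule.span (Lau F) (Set.range B) = V :=
  eq_of_leading h hA (Submodule.span_le.mpr (by rintro _ ⟨i, rfl⟩; exact hB i)) hlead

end GrPart

section Abstract

open KPrime

variable {F : Type*} [Field F] {L : Type*} [Field L] [Algebra F L] {s : RingAut L} {m : ℕ}
variable [Module.Finite F L]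
variable (h : StretchData (algebraMap F L) s m)
variable [Algebra (Lau F) (SL L s)]
  (hA : ∀ c : Lau F, algebraMap (Lau F) (SL L s) c = stretch h c)

omit [Module.Finite F L] [Algebra (Lau F) (SL L s)] in
theorem stretch_C (a : F) : stretch h (C a : Lau F) = C (algebraMap F L a) := by
  have hm : (m : ℤ) ≠ 0 := by exact_mod_cast h.pos.ne'
  apply SL.ext
  funext n
  by_cases hn : (m : ℤ) ∣ n
  · obtain ⟨k, rfl⟩ := hn
    rw [coeff_stretch_mul, C_apply, C_apply, coeff_mon, coeff_mon]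
    by_cases hk : k = 0
    · subst hk; simp
    · have : (m : ℤ) * k ≠ 0 := mul_ne_zero hm hk
      simp [hk, this]
  · rw [coeff_stretch_of_not_dvd h _ hn, C_apply, coeff_mon, if_neg]
    rintro rfl
    exact hn (dvd_zero _)

include hA in
/-- Abstract Theorem R: a `Lau F`-subspace `V` of the centraliser of `ξ` (val `1`) is the span of the
elements with given expansions `β i`, provided (Stab) the first `k0` coefficients of the expansion of any `x ∈ V` are
an `F`-combination of those of the `β i`, and (Lead) leading coefficients vanish at levels `k0 - 1 ≤ c < m`. -/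
theorem rel_eq_span_abstract {ξ : SL L s} (hξ : ξ ≠ 0) (h1 : SL.val ξ = 1)
    {V : Submodule (Lau F) (SL L s)} (hV : ∀ x ∈ V, x ∈ Cent ξ)
    {ι : Type*} [Fintype ι] (β : ι → ℕ → L) (hβfix : ∀ i k, s (β i k) = β i k)
    (hB : ∀ i, evalSeries ξ 0 (β i) ∈ V) (k0 : ℕ)
    (hStab : ∀ x ∈ V, x.LB 0 → ∀ b : ℕ → L, IsExpansion ξ x 0 b →
      ∃ l : ι → F, ∀ k < k0, b k = ∑ i, l i • β i k)
    (hLead : ∀ c : ℕ, k0 ≤ c + 1 → c < m → ∀ x ∈ V, x.LB (c : ℤ) → x.coeff (c : ℤ) = 0) :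
    Submodule.span (Lau F) (Set.range fun i => evalSeries ξ 0 (β i)) = V := by
  classical
  refine span_eq_of_leading h hA _ hB ?_
  intro c x hx hxL
  by_cases hc : k0 ≤ (c : ℕ) + 1
  · refine ⟨0, Submodule.zero_mem _, SL.lB_zero _, ?_⟩
    rw [hLead c hc c.2 x hx hxL]
    rfl
  have hc' : (c : ℕ) < k0 := by omega
  have hx0 : x.LB 0 := hxL.mono (by positivity)
  obtain ⟨b, hb⟩ := exists_expansion hξ h1 (hV x hx) hx0
  obtain ⟨l, hl⟩ := hStab x hx hx0 b hb
  let x0 : SL L s := ∑ i, (C (l i) : Lau F) • evalSeries ξ 0 (β i)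
  have hx0mem : x0 ∈ Submodule.span (Lau F) (Set.range fun i => evalSeries ξ 0 (β i)) :=
    Submodule.sum_mem _ fun i _ => Submodule.smul_mem _ _ (Submodule.subset_span ⟨i, rfl⟩)
  -- expansion of x0
  have hfixF : ∀ a : F, s (algebraMap F L a) = algebraMap F L a := h.fixed
  have hterm : ∀ i, IsExpansion ξ ((C (l i) : Lau F) • evalSeries ξ 0 (β i)) 0
      (fun k => algebraMap F L (l i) * β i k) := by
    intro i
    rw [GrMeas.smul_eq h hA, stretch_C]
    exact (isExpansion_evalSeries hξ h1 0 (hβfix i)).const_mul (hfixF _)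
  -- difference
  have hdiff : (x - x0).LB (k0 : ℤ) := by
    have hxapp := hb.approx k0
    have hsum : ∀ N : ℕ, (x0 - ∑ k ∈ Finset.range N,
        (C (∑ i, algebraMap F L (l i) * β i k) : SL L s) * ξ ^ ((0 : ℤ) + k)).LB ((0 : ℤ) + N) := by
      intro N
      have e : x0 - ∑ k ∈ Finset.range N,
          (C (∑ i, algebraMap F L (l i) * β i k) : SL L s) * ξ ^ ((0 : ℤ) + k) =
          ∑ i, (((C (l i) : Lau F) • evalSeries ξ 0 (β i)) - ∑ k ∈ Finset.range N,
            (C (algebraMap F L (l i) * β i k) : SL L s) * ξ ^ ((0 : ℤ) + k)) := by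
        rw [Finset.sum_sub_distrib]
        congr 1
        rw [Finset.sum_comm]
        refine Finset.sum_congr rfl fun k _ => ?_
        rw [map_sum, Finset.sum_mul]
      rw [e]
      exact KPrime.lB_sum _ _ _ fun i _ => (hterm i).approx N
    have e2 : x - x0 = (x - ∑ k ∈ Finset.range k0, (C (b k) : SL L s) * ξ ^ ((0 : ℤ) + k)) -
        (x0 - ∑ k ∈ Finset.range k0,
          (C (∑ i, algebraMap F L (l i) * β i k) : SL L s) * ξ ^ ((0 : ℤ) + k)) := by
      have : ∑ k ∈ Finset.range k0, (C (b k) : SL L s) * ξ ^ ((0 : ℤ) + k) =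
          ∑ k ∈ Finset.range k0,
            (C (∑ i, algebraMap F L (l i) * β i k) : SL L s) * ξ ^ ((0 : ℤ) + k) := by
        refine Finset.sum_congr rfl fun k hk => ?_
        rw [hl k (Finset.mem_range.mp hk)]
        simp only [Algebra.smul_def]
      rw [this]
      abel
    rw [e2]
    have := (hxapp).sub (hsum k0)
    simpa using this
  refine ⟨x0, hx0mem, ?_, ?_⟩
  · have e3 : x0 = x - (x - x0) := by abel
    rw [e3]
    refine hxL.sub (hdiff.mono ?_)
    exact_mod_cast hc'.le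
  · have := hdiff ((c : ℕ) : ℤ) (by exact_mod_cast hc')
    rw [SL.coeff_sub] at this
    exact (sub_eq_zero.mp this).symm

/-- `φ' 1 = ∑_n n c_n ξ^(n-1)` has the expected expansion. -/
theorem isExpansion_phiLim_one {ξ : SL L s} (hξ : ξ.LB 1) (c : ℕ → L) (hc : ∀ n, s (c n) = c n) :
    IsExpansion ξ (Transport.phiLim (fun n => (C (c n) : SL L s)) ξ 1) 0
      (fun k => ((k + 1 : ℕ) : L) * c (k + 1)) := by
  have hφ : ∀ n, ((C (c n) : SL L s)).LB 0 := fun n i hi => by
    rw [C_apply, coeff_mon, if_neg (ne_of_lt hi)]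
  refine ⟨fun k => by rw [map_mul, hc, map_natCast], fun N => ?_⟩
  have hsum : ∑ k ∈ Finset.range N, (C (((k + 1 : ℕ) : L) * c (k + 1)) : SL L s) * ξ ^ ((0 : ℤ) + k) =
      ∑ n ∈ Finset.range (N + 1), Transport.tTerm (fun n => (C (c n) : SL L s)) ξ 1 n := by
    rw [Finset.sum_range_succ']
    have h0 : Transport.tTerm (fun n => (C (c n) : SL L s)) ξ 1 0 = 0 := by
      simp [Transport.tTerm]
    rw [h0, add_zero]
    refine Finset.sum_congr rfl fun k _ => ?_
    unfold Transport.tTerm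
    simp only [Nat.choose_one_right, Nat.add_sub_cancel, zero_add, zpow_natCast, map_mul, map_natCast]
    rw [mul_assoc]
  rw [hsum]
  have h := Transport.lB_partial_sub (Transport.lB_tTerm hφ hξ 1) (N + 1)
  have e : (-((1 : ℕ) : ℤ)) + ((N + 1 : ℕ) : ℤ) = (0 : ℤ) + (N : ℤ) := by push_cast; ring
  rw [e] at h
  have h2 := h.neg
  rw [neg_sub] at h2
  exact h2

end Abstract

section Fixed

open RatExt

variable {Z K : Type} [Field Z] [Field K] [Algebra Z K] {Y : Type} {m : ℕ}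
variable {ι : Type} [Fintype ι]

/-- If `β = ∑ l i • (1 ⊗ c i)` for several `c` and the `β` are fixed by `s ⊗ 1`, then by independence the `l i`
are fixed by `s`. -/
theorem coeffs_fixed {J : Type} (c : ι → J → K)
    (hind : ∀ l : ι → L0 Z Y m, (∀ j, ∑ i, l i • ((1 : L0 Z Y m) ⊗ₜ[Z] c i j) = 0) → l = 0)
    (l : ι → L0 Z Y m)
    (hfix : ∀ j, sR Z Y m K (∑ i, l i • ((1 : L0 Z Y m) ⊗ₜ[Z] c i j)) =
      ∑ i, l i • ((1 : L0 Z Y m) ⊗ₜ[Z] c i j)) (i : ι) :
    s Z Y m (l i) = l i := by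
  have h0 := hind (fun i => s Z Y m (l i) - l i) (fun j => by
    have h1 := hfix j
    rw [map_sum] at h1
    have h2 : ∀ i, sR Z Y m K (l i • ((1 : L0 Z Y m) ⊗ₜ[Z] c i j)) =
        s Z Y m (l i) • ((1 : L0 Z Y m) ⊗ₜ[Z] c i j) := fun i => by
      rw [sR_smul, sR_tmul, map_one]
    simp only [h2] at h1
    have h3 : ∑ i, (s Z Y m (l i) - l i) • ((1 : L0 Z Y m) ⊗ₜ[Z] c i j) =
        ∑ i, s Z Y m (l i) • ((1 : L0 Z Y m) ⊗ₜ[Z] c i j) -
          ∑ i, l i • ((1 : L0 Z Y m) ⊗ₜ[Z] c i j) := by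
      rw [← Finset.sum_sub_distrib]
      refine Finset.sum_congr rfl fun i _ => ?_
      have e : ∀ a : L0 Z Y m, a • ((1 : L0 Z Y m) ⊗ₜ[Z] c i j) = a ⊗ₜ[Z] c i j := fun a => by
        rw [TensorProduct.smul_tmul', smul_eq_mul, mul_one]
      rw [e, e, e, TensorProduct.sub_tmul]
    exact h3.trans (sub_eq_zero.mpr h1))
  exact sub_eq_zero.mp (congrFun h0 i)

/-- From expansion coefficients `b k` to the sequence `G n = b (n-1) / n` of Stab. -/
noncomputable def Gof (b : ℕ → RL Z Y m K) (n : ℕ) : RL Z Y m K :=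
  if n = 0 then 0 else ((n : L0 Z Y m)⁻¹) • b (n - 1)

/-- Output of `Stab` for fixed sequences: the coefficients lie in `Z0`. -/
theorem stab_fixed [CharZero Z] [DecidableEq ι] (gs : ι → ℕ → K) (k0 : ℕ)
    (hind : ∀ l : ι → L0 Z Y m, (∀ n, 1 ≤ n → n ≤ k0 →
      ∑ i, l i • ((1 : L0 Z Y m) ⊗ₜ[Z] gs i n) = 0) → l = 0)
    (b : ℕ → RL Z Y m K) (hb : ∀ k, sR Z Y m K (b k) = b k)
    (hexp : ∃ l : ι → L0 Z Y m, ∀ n, 1 ≤ n → n ≤ k0 →
      Gof b n = ∑ i, l i • ((1 : L0 Z Y m) ⊗ₜ[Z] gs i n)) :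
    ∃ l : ι → L0 Z Y m, (∀ i, s Z Y m (l i) = l i) ∧ ∀ k, k < k0 →
      b k = ∑ i, l i • (((k + 1 : ℕ) : L0 Z Y m) • ((1 : L0 Z Y m) ⊗ₜ[Z] gs i (k + 1))) := by
  obtain ⟨l, hl⟩ := hexp
  refine ⟨l, ?_, ?_⟩
  · -- invariance
    intro i
    have hind' : ∀ l' : ι → L0 Z Y m,
        (∀ j : {n : ℕ // 1 ≤ n ∧ n ≤ k0}, ∑ i, l' i • ((1 : L0 Z Y m) ⊗ₜ[Z] gs i j.1) = 0) → l' = 0 :=
      fun l' h => hind l' fun n h1 h2 => h ⟨n, h1, h2⟩
    refine coeffs_fixed (fun i (j : {n : ℕ // 1 ≤ n ∧ n ≤ k0}) => gs i j.1) hind' l ?_ i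
    rintro ⟨n, h1, h2⟩
    show sR Z Y m K (∑ i, l i • ((1 : L0 Z Y m) ⊗ₜ[Z] gs i n)) = ∑ i, l i • ((1 : L0 Z Y m) ⊗ₜ[Z] gs i n)
    rw [← hl n h1 h2]
    unfold Gof
    have hn : n ≠ 0 := by omega
    rw [if_neg hn, sR_smul, hb, map_inv₀, map_natCast]
  · intro k hk
    have h := hl (k + 1) (by omega) (by omega)
    unfold Gof at h
    rw [if_neg (by omega), Nat.add_sub_cancel] at h
    have hne : ((k + 1 : ℕ) : L0 Z Y m) ≠ 0 := by
      have : CharZero (L0 Z Y m) := charZero_of_injective_algebraMap (algebraMap Z (L0 Z Y m)).injective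
      exact_mod_cast Nat.succ_ne_zero k
    have h2 := congrArg (fun x => ((k + 1 : ℕ) : L0 Z Y m) • x) h
    simp only [smul_smul, mul_inv_cancel₀ hne, one_smul] at h2
    rw [h2, Finset.smul_sum]
    refine Finset.sum_congr rfl fun i _ => ?_
    rw [smul_smul, smul_smul, mul_comm]

end Fixed

section Exact

open NCSeries

/-- Hom images of cyc-null series stay cyc-null after a cyclic functional (noncommutative target). -/
theorem cycNull_tmap_hom {Y Y' : Type*} [Fintype Y] [DecidableEq Y] {F : Type*} [Field F]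
    [CharZero F] {c : NCSeries Y F} (hc : CycNull c) (h0 : coeff [] c = 0)
    {CC : Type*} [Ring CC] {M : Type*} [AddCommGroup M] (τ : CC →+ M)
    (hτ : ∀ a b, τ (a * b) = τ (b * a)) (ψ : NCSeries Y F →+* NCSeries Y' CC) :
    CycNull (tmap τ (ψ c)) := by
  rw [eq_sum_commutator hc h0, map_sum, tmap_sum]
  refine CycNull.sum _ _ fun y _ => ?_
  rw [map_sub, map_mul, map_mul]
  exact cycNull_trace_commutator τ hτ _ _

/-- Conjugation does not change the class modulo cyc-null series. -/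
theorem cycNull_tmap_conj {Y' : Type*} {R : Type*} [Ring R] {M : Type*} [AddCommGroup M]
    (τ : R →+ M) (hτ : ∀ a b, τ (a * b) = τ (b * a)) {H U V : NCSeries Y' R}
    (hvu : V * U = 1) (hH : CycNull (tmap τ H)) :
    CycNull (tmap τ (U * H * V)) := by
  have e : U * H * V = (U * (H * V) - (H * V) * U) + H := by
    rw [mul_assoc (H) V U, hvu, mul_one, sub_add_cancel, mul_assoc]
  rw [e, tmap_add]
  exact (cycNull_trace_commutator τ hτ _ _).add hH

end Exact

end Crest.Agent.Lib.Kurosh.TheoremR
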