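import Crest.Agent.Lib.Kurosh.LevelUp

/-!
# Small facts on `Tilde` (`Rmap_comm_Tmap`, `Rmap_central`), against the names of `TildeStub`.
-/

set_option autoImplicit false

namespace Crest.Agent.Lib.Kurosh.TildeFacts

open TensorProduct

variable {Z : Type} [Field Z] {Y : Type} {m : ℕ} [NeZero m]

/-- A central element of `R` gives a central element of `R_L`. -/
theorem iota_central {R : Type} [Ring R] [Algebra Z R] (κ : R) (hκ : ∀ a, κ * a = a * κ)
    (x : RL Z Y m R) : RatExt.iota Z Y m R κ * x = x * RatExt.iota Z Y m R κ := by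
  induction x using TensorProduct.induction_on with
  | zero => simp
  | add a b ha hb => rw [mul_add, add_mul, ha, hb]
  | tmul c r =>
    show ((1 : L0 Z Y m) ⊗ₜ[Z] κ) * (c ⊗ₜ[Z] r) = (c ⊗ₜ[Z] r) * ((1 : L0 Z Y m) ⊗ₜ[Z] κ)
    simp [hκ r]

/-- **`Rmap_central`.** -/
theorem Rmap_central' {R : Type} [Ring R] [Algebra Z R] (κ : R) (hκ : ∀ a, κ * a = a * κ)
    (x : Tilde Z Y m R) : Rmap Z Y m R κ * x = x * Rmap Z Y m R κ := by
  apply SL.ext
  funext i
  rw [Rmap_apply, SL.coeff_C_mul, SL.coeff_mul_C]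
  rw [sR_zpow_iota]
  exact iota_central κ hκ _

/-- `β` commuting with `j R`: `1 ⊗ β` commutes with `(id ⊗ j) (R_L)`. -/
theorem iota_comm_mapRL {R R' : Type} [Ring R] [Algebra Z R] [Ring R'] [Algebra Z R'] (j : R →ₐ[Z] R')
    (β : R') (hβ : ∀ a, β * j a = j a * β) (x : RL Z Y m R) :
    RatExt.iota Z Y m R' β * RatExt.mapRL Z Y m j x = RatExt.mapRL Z Y m j x * RatExt.iota Z Y m R' β := by
  induction x using TensorProduct.induction_on with
  | zero => simp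
  | add a b ha hb => rw [map_add, mul_add, add_mul, ha, hb]
  | tmul c r =>
    show ((1 : L0 Z Y m) ⊗ₜ[Z] β) * (RatExt.mapRL Z Y m j (c ⊗ₜ[Z] r)) =
      (RatExt.mapRL Z Y m j (c ⊗ₜ[Z] r)) * ((1 : L0 Z Y m) ⊗ₜ[Z] β)
    have : RatExt.mapRL Z Y m j (c ⊗ₜ[Z] r) = c ⊗ₜ[Z] (j r) := by
      simp [RatExt.mapRL]
    rw [this]
    simp [hβ r]

/-- **`Rmap_comm_Tmap`.** -/
theorem Rmap_comm_Tmap' {R R' : Type} [Ring R] [Algebra Z R] [Ring R'] [Algebra Z R'] (j : R →ₐ[Z] R')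
    (β : R') (hβ : ∀ a, β * j a = j a * β) (x : Tilde Z Y m R) :
    Rmap Z Y m R' β * Tmap Z Y m j x = Tmap Z Y m j x * Rmap Z Y m R' β := by
  apply SL.ext
  funext i
  rw [Rmap_apply, SL.coeff_C_mul, SL.coeff_mul_C, sR_zpow_iota, Tmap_coeff]
  exact iota_comm_mapRL j β hβ _

end Crest.Agent.Lib.Kurosh.TildeFacts
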