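import Crest.Agent.Lib.Kurosh.Transport
import Crest.Agent.Lib.Kurosh.SeriesComp

/-!
# S0270, blueprint 5.0: Transport Lemma for an abstract level-up map

`ψ : NCS R Y →+* NCS (SL S σ) Y'` is any ring homomorphism with `ψ (C r) = C (ρ r)`, `ρ r` of
valuation `≥ 0`, and the valuation estimate of level-up maps: the coefficient at `w'` of the image of
a series of order `≥ N` has valuation `≥ N - |w'|`.  If `b ≡ ∑ C(φ n) G₀ⁿ` and
`Uh * ψ G₀ * Vh = C ξ + G` then `Uh * ψ b * Vh ≡ ∑ C(φ' r) Gʳ`, with `φ' = phiLim (ρ ∘ φ) ξ`.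
-/

set_option autoImplicit false

namespace Crest.Agent.Lib.Kurosh.Transport

open NCSeries SeriesComp

universe u v w x y

variable {S : Type u} [Ring S] {σ : RingAut S}
variable {R : Type v} [Ring R] {Y : Type w} {Y' : Type x}

/-- The hypothesis `hE` of `transport`, from the valuation estimate of `ψ`. -/
theorem transport_hE (ψ : NCS R Y →+* NCS (SL S σ) Y') (ρ : R → SL S σ)
    (hρ : ∀ r, ψ (C r) = C (ρ r))
    (hval : ∀ (N : ℕ) (f : NCS R Y), f ∈ ordGE Y R N →
      ∀ w' : List Y', (coeff w' (ψ f)).LB ((N : ℤ) - w'.length))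
    {φ : ℕ → R} {G₀ b : NCS R Y} (hser : IsSeriesIn φ G₀ b) (N : ℕ) (v : List Y') :
    (coeff v (ψ b - ∑ n ∈ Finset.range N, C (ρ (φ n)) * ψ G₀ ^ n)).LB ((N : ℤ) - v.length) := by
  have h := hval N _ (hser N) v
  have e : ψ (b - ∑ n ∈ Finset.range N, C (φ n) * G₀ ^ n) =
      ψ b - ∑ n ∈ Finset.range N, C (ρ (φ n)) * ψ G₀ ^ n := by
    rw [map_sub, map_sum]
    congr 1
    refine Finset.sum_congr rfl fun n _ => ?_
    rw [map_mul, map_pow, hρ]
  rwa [e] at h

/-- **Transport Lemma** for an abstract level-up map. -/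
theorem transport_isSeriesIn (ψ : NCS R Y →+* NCS (SL S σ) Y') (ρ : R → SL S σ)
    (hρ : ∀ r, ψ (C r) = C (ρ r)) (hρ0 : ∀ r, (ρ r).LB 0)
    (hval : ∀ (N : ℕ) (f : NCS R Y), f ∈ ordGE Y R N →
      ∀ w' : List Y', (coeff w' (ψ f)).LB ((N : ℤ) - w'.length))
    {φ : ℕ → R} {G₀ b : NCS R Y} (hser : IsSeriesIn φ G₀ b)
    {G Uh Vh : NCS (SL S σ) Y'} {ξ : SL S σ} (hξ : ξ.LB 1)
    (huv : Uh * Vh = 1) (hvu : Vh * Uh = 1)
    (hφU : ∀ n : ℕ, (C (ρ (φ n)) : NCS (SL S σ) Y') * Uh = Uh * C (ρ (φ n)))
    (hG0 : coeff [] G = 0) (hξG : ∀ w, ξ * coeff w G = coeff w G * ξ)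
    (hconj : Uh * ψ G₀ * Vh = C ξ + G) :
    IsSeriesIn (phiLim (fun n => ρ (φ n)) ξ) G (Uh * ψ b * Vh) := fun N =>
  transport (ψ b) (ψ G₀) Uh Vh G (fun n => ρ (φ n)) ξ (fun n => hρ0 _) hξ
    (transport_hE ψ ρ hρ hval hser) huv hvu hφU hG0 hξG hconj N

end Crest.Agent.Lib.Kurosh.Transport

namespace Crest.Agent.Lib.Kurosh.Transport

open NCSeries SeriesComp

/-- **Conclusion of 5(d)**: let `r` have zero constant term. If for each index `t` the polynomial
combination `∑_k P t k (r^k)` of functionals vanishes coefficientwise (`k ≤ |w|`), and the linear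
functionals `P t 1` jointly separate points, then `r = 0`: look at the lowest homogeneous part. -/
theorem eq_zero_of_functionals {K : Type*} [Ring K] {Y : Type*} {F : Type*} [AddCommGroup F]
    {ι : Type*} (P : ι → ℕ → K →+ F) (hsep : ∀ x : K, (∀ t, P t 1 x = 0) → x = 0)
    {r : NCS K Y} (hr0 : coeff [] r = 0)
    (hvan : ∀ t (w : List Y), w ≠ [] →
      ∑ k ∈ Finset.range (w.length + 1), P t k (coeff w (r ^ k)) = 0) :
    r = 0 := by
  have key : ∀ n : ℕ, r ∈ ordGE Y K n := by
    intro n
    induction n with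
    | zero => intro w hw; exact absurd hw (Nat.not_lt_zero _)
    | succ n ih =>
      intro w hw
      rcases Nat.lt_succ_iff_lt_or_eq.mp hw with h | h
      · exact ih w h
      · rcases w with _ | ⟨a, w⟩
        · exact hr0
        · have hne : (a :: w) ≠ [] := List.cons_ne_nil _ _
          have hn : 1 ≤ n := by simp at h; omega
          refine hsep _ fun t => ?_
          have h1 := hvan t (a :: w) hne
          rw [Finset.sum_eq_single 1] at h1
          · simpa using h1
          · intro k hk hk1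
            rcases k with _ | _ | k
            · have : coeff (a :: w) ((r : NCS K Y) ^ 0) = 0 := by
                rw [pow_zero]; exact coeff_one_cons _ _
              rw [this, map_zero]
            · exact absurd rfl hk1
            · have h1' : r ∈ ordGE Y K 1 := ordGE_mono hn ih
              have hmem : r ^ k * (r * r) ∈ ordGE Y K (k + (n + n)) :=
                mul_mem_ordGE (pow_mem_ordGE h1' k) (mul_mem_ordGE ih ih)
              have hlt : (a :: w).length < k + (n + n) := by
                rw [h]; omega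
              have e : r ^ (k + 1 + 1) = r ^ k * (r * r) := by
                rw [pow_succ, pow_succ, mul_assoc]
              rw [e, hmem _ hlt, map_zero]
          · intro hh
            simp at hh
  ext w
  rw [key (w.length + 1) w (Nat.lt_succ_self _)]
  simp

end Crest.Agent.Lib.Kurosh.Transport
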