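import Mathlib
import Crest.Agent.Lib.Kurosh.StageDefs
import Crest.Agent.Lib.Kurosh.Steps
import Crest.Agent.Lib.Kurosh.TildeFacts
import Crest.Agent.Lib.Kurosh.Stab
import Crest.Agent.Lib.Kurosh.RichField
import Crest.Agent.Lib.Kurosh.TheoremR
import Crest.Agent.Lib.Kurosh.Transport
import Crest.Agent.Lib.Kurosh.TransportSeries
import Crest.Agent.Lib.Kurosh.CompoLemmas
import Crest.Agent.Lib.Kurosh.RelDir
import Crest.Agent.Lib.Kurosh.Potential
import Crest.Agent.Lib.Kurosh.MeasInst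
import Crest.Agent.Lib.Kurosh.FieldRL
import Crest.Agent.Lib.Kurosh.AStepLevel

/-!
# S0270: Theorem R in Skeleton's form (helper77)

`rel_core` is what both `theoremR` and `finish` use; `theoremR_core` is the Skeleton target `theoremR`.
-/

set_option autoImplicit false

open scoped TensorProduct

namespace Crest.Agent.Lib.Kurosh.TheoremRC

open NCSeries Module

section TildeIface

variable (Z : Type) [Field Z] (Y : Type) (m : ℕ) [NeZero m]

theorem TrL_eq {R : Type} [Ring R] [Algebra Z R] (lam : R →ₗ[Z] Z) (z : Tilde Z Y m R) :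
    TrL Z Y m lam z = trC Z Y m (TLinZ Z Y m lam z) := TrL_apply Z Y m lam z

theorem trC_cyc (a b : CC Z Y m) : trC Z Y m (a * b) = trC Z Y m (b * a) := trC_mul_comm Z Y m a b

theorem TrL_coeff {R : Type} [Ring R] [Algebra Z R] (lam : R →ₗ[Z] Z) (z : Tilde Z Y m R) (k : ℤ) :
    (((TrL Z Y m lam z).coeff k : Z0 Z Y m) : L0 Z Y m) =
      RatExt.tr Z Y m (RatExt.lam Z Y m lam (z.coeff ((m : ℤ) * k))) := TrL_coeff_coe Z Y m lam z k

end TildeIface

variable {Z : Type} [Field Z] [CharZero Z] {Y : Type} [Fintype Y] [DecidableEq Y]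
variable {m : ℕ} [Fact m.Prime]

section Exact

variable {K : Type} [Field K] [Algebra Z K] [FiniteDimensional Z K]

omit [Fintype Y] [DecidableEq Y] [CharZero Z] [FiniteDimensional Z K] in
theorem cycNull_of_isPot (g : NCS K Y) (G : ℕ → K) (hG : Stab.IsPot Z g G) :
    CycNull (tmap (Algebra.trace Z K : K →ₗ[Z] Z).toAddMonoidHom (compo G g)) := by
  intro w
  have h := hG w
  rw [← h]
  unfold cycSum Stab.cycSum
  refine Finset.sum_congr rfl fun i _ => ?_
  rw [coeff_tmap]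
  show Algebra.trace Z K (∑ n ∈ Finset.range ((w.rotate i).length + 1), G n * coeff (w.rotate i) (g ^ n)) = _
  rw [map_sum]
  rfl

/-- `Tr_K`-exactness passes to the level-up. -/
theorem cycNull_psi (d : LevelData Z Y m) {G : NCS K Y}
    (hc : CycNull (tmap (Algebra.trace Z K : K →ₗ[Z] Z).toAddMonoidHom G)) (h0 : coeff [] G = 0) :
    CycNull (tmap (TrL Z Y m (Algebra.trace Z K)).toAddMonoidHom (psi d K G)) := by
  have e : tmap (TrL Z Y m (Algebra.trace Z K)).toAddMonoidHom (psi d K G) =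
      tmap (trC Z Y m).toAddMonoidHom
        (psiC d (tmap (Algebra.trace Z K : K →ₗ[Z] Z).toAddMonoidHom G)) := by
    funext w
    show TrL Z Y m (Algebra.trace Z K) (coeff w (psi d K G)) = trC Z Y m _
    rw [TrL_eq, TLinZ_coeff_psi]
    rfl
  rw [e]
  refine TheoremR.cycNull_tmap_hom hc ?_ _ (fun a b => trC_cyc Z Y m a b) _
  rw [coeff_tmap, h0, map_zero]


/-- The trace functional on `K' = C(ξ)`: `Tr_K ∘ T` restricted via `jp`. -/
noncomputable def phiK {d : LevelData Z Y m} {c : KConf Z Y} {c' : KConf (Zp Z Y m) (Fin d.n)}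
    (st : LevelStep d c c') : c'.K →ₗ[Zp Z Y m] Zp Z Y m :=
  (TrL Z Y m (Algebra.trace Z c.K)).comp st.jp.toLinearMap

/-- `Rel = W'^⊥`. -/
noncomputable def Rel {d : LevelData Z Y m} {c : KConf Z Y} {c' : KConf (Zp Z Y m) (Fin d.n)}
    (st : LevelStep d c c') : Submodule (Zp Z Y m) c'.K :=
  RichField.perp (phiK st) c'.W

end Exact

section Step

variable {K : Type} [Field K] [Algebra Z K]

/-- `Rmap` of a commutative ring is central in `Tilde`. -/
theorem Rmap_central'' (κ : K) (x : Tilde Z Y m K) :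
    Rmap Z Y m K κ * x = x * Rmap Z Y m K κ :=
  TildeFacts.Rmap_central' κ (fun a => mul_comm κ a) x

variable {d : LevelData Z Y m} {c : KConf Z Y} {c' : KConf (Zp Z Y m) (Fin d.n)}

theorem xi_LB (st : LevelStep d c c') : (st.jp st.ξ).LB 1 := by
  rw [st.hξ, value_eq]
  exact valueB_LB_order _ (SeriesComp.mem_ordGE_one c.g0)

theorem commute_jp (st : LevelStep d c c') (k k' : c'.K) : st.jp k * st.jp k' = st.jp k' * st.jp k := by
  rw [← map_mul, ← map_mul, mul_comm]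

/-- The transport formula for `j = id`. -/
theorem conj_compo (st : LevelStep d c c') (φ : ℕ → c.K) :
    st.U * psi d c.K (compo φ c.g) * st.U' =
      compo (Transport.phiLim (fun n => Rmap Z Y m c.K (φ n)) (st.jp st.ξ))
        (map (st.jp : c'.K →+* Tilde Z Y m c.K) c'.g) := by
  set G : NCS (Tilde Z Y m c.K) (Fin d.n) := map (st.jp : c'.K →+* Tilde Z Y m c.K) c'.g with hGdef
  have hG0 : coeff [] G = 0 := by rw [hGdef, coeff_map, c'.g0, map_zero]
  have hser : SeriesComp.IsSeriesIn φ c.g (compo φ c.g) := SeriesComp.isSeriesIn_sumPow c.g0 φ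
  have hφU : ∀ n : ℕ, (C (Rmap Z Y m c.K (φ n)) : NCS (Tilde Z Y m c.K) (Fin d.n)) * st.U =
      st.U * C (Rmap Z Y m c.K (φ n)) := by
    intro n
    ext w
    rw [C_mul_coeff, coeff_mul_C, Rmap_central'']
  have hξG : ∀ w, st.jp st.ξ * coeff w G = coeff w G * st.jp st.ξ := by
    intro w
    rw [hGdef, coeff_map]
    exact commute_jp st _ _
  have key := Transport.transport_isSeriesIn (psi d c.K) (Rmap Z Y m c.K) (psi_C d c.K) (Rmap_LB (R := c.K))
    (fun N f hf w' => coeff_psi_LB d c.K w' hf) hser (xi_LB st) st.UU' st.U'U hφU hG0 hξG st.conj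
  exact SeriesComp.eq_sumPow_of_isSeriesIn hG0 key

/-- The transported coefficients lie in `K'`. -/
theorem exists_phi (st : LevelStep d c c') (φ : ℕ → c.K) :
    ∃ φ' : ℕ → c'.K, ∀ r, st.jp (φ' r) =
      Transport.phiLim (fun n => Rmap Z Y m c.K (φ n)) (st.jp st.ξ) r := by
  have h : ∀ r, ∃ k, st.jp k = Transport.phiLim (fun n => Rmap Z Y m c.K (φ n)) (st.jp st.ξ) r := by
    intro r
    have hm : Transport.phiLim (fun n => Rmap Z Y m c.K (φ n)) (st.jp st.ξ) r ∈ st.jp.range := by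
      rw [st.jp_range]
      exact (Transport.phiLim_comm (fun n => Rmap_LB _) (xi_LB st) (st.jp st.ξ)
        (fun n => (Rmap_central'' _ _).symm) rfl r).symm
    exact hm
  choose φ' hφ' using h
  exact ⟨φ', hφ'⟩

/-- `TrL` is cyclic for a field. -/
theorem TrL_cyc (a b : Tilde Z Y m c.K) :
    TrL Z Y m (Algebra.trace Z c.K) (a * b) = TrL Z Y m (Algebra.trace Z c.K) (b * a) := by
  apply SL.ext
  funext k
  apply Subtype.ext
  have h1 := TrL_coeff Z Y m (Algebra.trace Z c.K) (a * b) k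
  have h2 := TrL_coeff Z Y m (Algebra.trace Z c.K) (b * a) k
  have h3 := Potential.Te_comm (Z := Z) (K := c.K) (Y := Y) (m := m) ((m : ℤ) * k) (dvd_mul_right _ _) a b
  exact h1.trans (h3.trans h2.symm)

/-- Exactness of the transported potential. -/
theorem cycNull_phi [FiniteDimensional Z c.K] (st : LevelStep d c c') {φ : ℕ → c.K} (φ0 : φ 0 = 0)
    (hφ : CycNull (tmap (Algebra.trace Z c.K : c.K →ₗ[Z] Z).toAddMonoidHom (compo φ c.g)))
    {φ' : ℕ → c'.K}
    (hφ' : ∀ r, st.jp (φ' r) = Transport.phiLim (fun n => Rmap Z Y m c.K (φ n)) (st.jp st.ξ) r) :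
    CycNull (tmap (phiK st).toAddMonoidHom (compo φ' c'.g)) := by
  have h0 : coeff [] (compo φ c.g) = 0 := by
    show ∑ n ∈ Finset.range (([] : List Y).length + 1), φ n * coeff [] (c.g ^ n) = 0
    simp [φ0]
  have h1 := cycNull_psi d hφ h0
  have h2 := TheoremR.cycNull_tmap_conj (TrL Z Y m (Algebra.trace Z c.K)).toAddMonoidHom
    (fun a b => TrL_cyc a b) st.U'U h1
  rw [conj_compo] at h2
  have e : tmap (phiK st).toAddMonoidHom (compo φ' c'.g) =
      tmap (TrL Z Y m (Algebra.trace Z c.K)).toAddMonoidHom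
        (compo (Transport.phiLim (fun n => Rmap Z Y m c.K (φ n)) (st.jp st.ξ))
          (map (st.jp : c'.K →+* Tilde Z Y m c.K) c'.g)) := by
    have e1 : Transport.phiLim (fun n => Rmap Z Y m c.K (φ n)) (st.jp st.ξ) =
        fun r => (st.jp : c'.K →+* Tilde Z Y m c.K) (φ' r) := by
      funext r
      exact (hφ' r).symm
    rw [e1]
    have e2 := CompoLemmas.map_compo (st.jp : c'.K →+* Tilde Z Y m c.K) φ' c'.g
    have e3 : compo (fun r => (st.jp : c'.K →+* Tilde Z Y m c.K) (φ' r))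
        (map (st.jp : c'.K →+* Tilde Z Y m c.K) c'.g) =
        map (st.jp : c'.K →+* Tilde Z Y m c.K) (compo φ' c'.g) := e2.symm
    rw [e3]
    funext w
    rfl
  rw [e]
  exact h2

/-- A `CycNull` series has zero coefficients at one-letter words. -/
theorem coeff_single_of_cycNull {M : Type} [AddCommGroup M] {f : NCS M (Fin d.n)} (hf : CycNull f) (t : Fin d.n) :
    coeff [t] f = 0 := by
  have := hf [t]
  simpa [cycSum] using this

/-- The transported first coefficient is in `Rel`. -/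
theorem phi_mem_rel (st : LevelStep d c c') {φ' : ℕ → c'.K}
    (h : CycNull (tmap (phiK st).toAddMonoidHom (compo φ' c'.g))) : φ' 1 ∈ Rel st := by
  have h1 : ∀ t, phiK st (φ' 1 * coeff [t] c'.g) = 0 := by
    intro t
    have h2 := coeff_single_of_cycNull h t
    rw [coeff_tmap] at h2
    have e : coeff [t] (compo φ' c'.g) = φ' 1 * coeff [t] c'.g := by
      show ∑ n ∈ Finset.range (([t] : List (Fin d.n)).length + 1), φ' n * coeff [t] (c'.g ^ n) = _
      simp [Finset.sum_range_succ]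
    rw [e] at h2
    exact h2
  have hle : c'.W ≤ LinearMap.ker ((phiK st).comp (LinearMap.mulLeft (Zp Z Y m) (φ' 1))) := by
    refine Submodule.span_le.mpr ?_
    rintro _ ⟨t, rfl⟩
    exact h1 t
  intro w hw
  exact hle hw

/-- **(a)**: elements of `Rel` pair to zero with ALL directions. -/
theorem rel_dir (st : LevelStep d c c') {s : c'.K} (hs : s ∈ Rel st) (x : Y → CC Z Y m) :
    TrL Z Y m (Algebra.trace Z c.K) (st.jp s * dirB c.K d.b x c.g) = 0 := by
  set τ := TrL Z Y m (Algebra.trace Z c.K) with hτ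
  have hcomm : st.jp s * st.jp st.ξ = st.jp st.ξ * st.jp s := commute_jp st _ _
  let P : Submodule (Zp Z Y m) (Y → CC Z Y m) :=
    LinearMap.ker (τ.comp ((LinearMap.mulLeft (Zp Z Y m) (st.jp s)).comp (AStepLevel.dirLin d c.g)))
  have hX : ∀ t, d.X t ∈ P := by
    intro t
    have h1 : τ (st.jp s * coeff [t] (map (st.jp : c'.K →+* Tilde Z Y m c.K) c'.g)) = 0 := by
      rw [coeff_map]
      have := hs _ (Submodule.subset_span ⟨t, rfl⟩)
      have e : phiK st (s * coeff [t] c'.g) =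
          τ (st.jp s * (st.jp : c'.K →+* Tilde Z Y m c.K) (coeff [t] c'.g)) := by
        show τ (st.jp (s * coeff [t] c'.g)) = _
        rw [map_mul]
        rfl
      rw [← e]
      exact this
    have h2 := RelDir.tr_mul_coeff_single τ.toAddMonoidHom (fun a b => TrL_cyc a b) st.U1 st.U'U
      (h := psi d c.K c.g) (G := map (st.jp : c'.K →+* Tilde Z Y m c.K) c'.g)
      (by rw [coeff_map, c'.g0, map_zero]) st.conj hcomm t h1
    rw [coeff_single_psi] at h2
    exact h2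
  have hI : LinearMap.range (Inn d.b) ≤ P := by
    rintro _ ⟨c0, rfl⟩
    show τ (st.jp s * dirB c.K d.b (Inn d.b c0) c.g) = 0
    rw [dirB_Inn, ← value_eq, ← st.hξ]
    exact RelDir.tr_mul_comm_zero τ.toAddMonoidHom (fun a b => TrL_cyc a b) hcomm _
  have htop : P = ⊤ := by
    rw [eq_top_iff, ← d.hcompl.sup_eq_top, sup_le_iff]
    exact ⟨Submodule.span_le.mpr (by rintro _ ⟨t, rfl⟩; exact hX t), hI⟩
  have : x ∈ P := by
    rw [htop]
    trivial
  exact this

end Step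



open NCSeries Module

section Main

variable {Z : Type} [Field Z] [CharZero Z] {Y : Type} [Fintype Y] [DecidableEq Y]
variable {m : ℕ} [Fact m.Prime]
variable {d : LevelData Z Y m} {c : KConf Z Y} {c' : KConf (Zp Z Y m) (Fin d.n)}

theorem monBase_generic (hd : d.b = genericBase Z Y m) :
    Potential.MonBase (Z := Z) (K := c.K) (Y := Y) (m := m) (baseOf c.K d.b) (RatExt.T Z Y m 0) := by
  have h := isMonBase (R := c.K) d.b
  have e : (fun y => algebraMap (L0 Z Y m) (RL Z Y m c.K) (d.b y)) =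
      fun y => RatExt.iotaL Z Y m c.K (RatExt.T Z Y m 0 y) := by
    funext y
    rw [hd]
    rfl
  rw [e] at h
  exact h

theorem rel_hrel (st : LevelStep d c c') {s : c'.K} (hs : s ∈ Rel st) (x0 : Y → L0 Z Y m) (j : ℤ)
    {e : ℤ} (he : (m : ℤ) ∣ e) :
    Potential.Te e (st.jp s * (baseOf c.K d.b).dir (Potential.monDir x0 j) c.g) = 0 := by
  obtain ⟨k, rfl⟩ := he
  have h := rel_dir st hs (fun y => SL.mon (x0 y) j)
  have e1 : dirB c.K d.b (fun y => SL.mon (x0 y) j) c.g =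
      (baseOf c.K d.b).dir (Potential.monDir x0 j) c.g := by
    unfold dirB
    congr 1
    funext y
    exact Cmap_mon _ _
  rw [e1] at h
  have h2 := TrL_coeff Z Y m (Algebra.trace Z c.K)
    (st.jp s * (baseOf c.K d.b).dir (Potential.monDir x0 j) c.g) k
  rw [h] at h2
  exact h2.symm

theorem rel_stab_core {ι : Type} [Fintype ι] (gs : ι → ℕ → c.K) (k0 D0 : ℕ)
    (hL : ∀ (β : ℕ → L0 Z Y m ⊗[Z] c.K) (D1 : ℕ), D0 ≤ D1 →
      (∀ w : List Y, w.length ≤ D1 → Stab.cycSum (Stab.potL (Z := Z) (K := c.K) (L0 Z Y m) c.g β) w = 0) →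
      ∃ l : ι → L0 Z Y m, ∀ n, 1 ≤ n → n ≤ k0 → β n = ∑ i, l i • ((1 : L0 Z Y m) ⊗ₜ[Z] gs i n))
    (hm : (Fintype.card Y) ^ D0 * D0 ≤ m) (hd : d.b = genericBase Z Y m) (st : LevelStep d c c')
    {s : c'.K} (hs : s ∈ Rel st) {b : ℕ → L0 Z Y m ⊗[Z] c.K}
    (hb : KPrime.IsExpansion (st.jp st.ξ) (st.jp s) 0 b) :
    ∃ l : ι → L0 Z Y m, ∀ n, 1 ≤ n → n ≤ k0 →
      TheoremR.Gof b n = ∑ i, l i • ((1 : L0 Z Y m) ⊗ₜ[Z] gs i n) := by
  have hGof : TheoremR.Gof (Z := Z) (K := c.K) (Y := Y) (m := m) b =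
      fun n : ℕ => ((n : L0 Z Y m)⁻¹) • b (n - 1) := by
    funext n
    unfold TheoremR.Gof
    split_ifs with h0
    · subst h0
      simp
    · rfl
  refine hL _ D0 le_rfl ?_
  rw [hGof]
  intro w hw
  cases w with
  | nil => simp [Stab.cycSum]
  | cons y v =>
    have hv : v.length + 1 ≤ D0 := by simpa using hw
    have hpos : 0 < Fintype.card Y := Fintype.card_pos_iff.mpr ⟨y⟩
    have hm' : (Fintype.card Y) ^ v.length * v.length ≤ m := by
      refine le_trans (Nat.mul_le_mul (Nat.pow_le_pow_right hpos (by omega)) (by omega)) hm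
    refine Potential.cycSum_of_monBase (monBase_generic hd) c.g (st.jp s) b hb.fixed ?_ ?_ v.length hm' y v rfl
    · intro N
      have h := hb.approx N
      simp only [zero_add, zpow_natCast] at h
      rw [st.hξ, value_eq] at h
      exact h
    · intro x0 j N hdvd _
      exact rel_hrel st hs x0 j hdvd

theorem xi_val (hd : d.b = genericBase Z Y m) (st : LevelStep d c c') (hW : ∃ y, coeff [y] c.g ≠ 0) :
    st.jp st.ξ ≠ 0 ∧ SL.val (st.jp st.ξ) = 1 := by
  have hξ : st.jp st.ξ = (baseOf c.K d.b).value c.g := by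
    rw [st.hξ, value_eq]
    rfl
  have h1 := Potential.coeff_value_one (monBase_generic hd) c.g
  have h2 := Potential.aRL_ne_zero (Z := Z) (Y := Y) (m := m) (K := c.K) (fun y => coeff [y] c.g) hW 0
  have hLB := xi_LB st
  rw [hξ] at hLB ⊢
  have hne : ((baseOf c.K d.b).value c.g).coeff 1 ≠ 0 := fun h => h2 (h1.symm.trans h)
  refine ⟨fun h => hne (by rw [h]; rfl), SL.val_eq_of hne hLB⟩

end Main

section AbsM

open SL in
/-- A subfield of `SL S σ` containing an element of valuation one has dimension at least `m` over `Lau F`. -/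
theorem m_le_finrank_abs {F : Type*} [Field F] {S : Type*} [DivisionRing S] [Algebra F S] {σ : RingAut S} {m : ℕ}
    (h : StretchData (algebraMap F S) σ m) [Algebra (Lau F) (SL S σ)]
    (hA : ∀ c : Lau F, algebraMap (Lau F) (SL S σ) c = stretch h c) [FiniteDimensional F S]
    {K' : Type*} [Field K'] [Algebra (Lau F) K'] (j : K' →ₐ[Lau F] SL S σ) (ξ : K') (h0 : j ξ ≠ 0)
    (h1 : SL.val (j ξ) = 1) : m ≤ finrank (Lau F) K' := by
  have hinv : (j ξ)⁻¹ = j ξ⁻¹ := (map_inv₀ j ξ).symm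
  have e1 := GrMeas.finrank_eq_mul_Gr_zero h hA (LinearMap.range j.toLinearMap) h0 h1
    (by
      rintro _ ⟨b, rfl⟩
      exact ⟨b * ξ, map_mul j b ξ⟩)
    (by
      rintro _ ⟨b, rfl⟩
      rw [hinv]
      exact ⟨b * ξ⁻¹, map_mul j b ξ⁻¹⟩)
  have e3 : Module.finrank (Lau F) (LinearMap.range j.toLinearMap) = Module.finrank (Lau F) K' :=
    LinearMap.finrank_range_of_inj j.toRingHom.injective
  rw [e3] at e1
  rw [e1]
  have hGr : 1 ≤ Module.finrank F (GrMeas.Gr h hA (LinearMap.range j.toLinearMap) 0) := by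
    rw [Submodule.one_le_finrank_iff]
    intro hbot
    have h1mem : (1 : S) ∈ GrMeas.Gr h hA (LinearMap.range j.toLinearMap) 0 :=
      ⟨1, ⟨1, map_one j⟩, fun i hi => by
        show (1 : SL S σ).coeff i = 0
        exact SL.lB_one i hi, by
        show (1 : SL S σ).coeff 0 = 1
        rw [SL.coeff_one, if_pos rfl]⟩
    rw [hbot] at h1mem
    exact one_ne_zero ((Submodule.mem_bot _).1 h1mem)
  exact Nat.le_mul_of_pos_right m hGr

end AbsM

section Stretch

variable (Z : Type) [Field Z] [CharZero Z] (Y : Type) [Nonempty Y] (m : ℕ) [NeZero m]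
variable (K : Type) [Field K] [Algebra Z K] [FiniteDimensional Z K]

theorem algebraMap_eq_stretch (c : Zp Z Y m) :
    algebraMap (Zp Z Y m) (Tilde Z Y m K) c =
      SL.stretch (MeasInst.stretchData_RL Z Y m (A' := K)) c := rfl

end Stretch

section Main2

variable {Z : Type} [Field Z] [CharZero Z] {Y : Type} [Fintype Y] [DecidableEq Y]
variable {m : ℕ} [Fact m.Prime]
variable {d : LevelData Z Y m} {c : KConf Z Y} {c' : KConf (Zp Z Y m) (Fin d.n)}

theorem rel_eq_span {ι : Type} [Fintype ι] (gs : ι → ℕ → c.K) (k0 D0 : ℕ)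
    (hind : ∀ l : ι → L0 Z Y m, (∀ n, 1 ≤ n → n ≤ k0 →
      ∑ i, l i • ((1 : L0 Z Y m) ⊗ₜ[Z] gs i n) = 0) → l = 0)
    (hL : ∀ (β : ℕ → L0 Z Y m ⊗[Z] c.K) (D1 : ℕ), D0 ≤ D1 →
      (∀ w : List Y, w.length ≤ D1 → Stab.cycSum (Stab.potL (Z := Z) (K := c.K) (L0 Z Y m) c.g β) w = 0) →
      ∃ l : ι → L0 Z Y m, ∀ n, 1 ≤ n → n ≤ k0 → β n = ∑ i, l i • ((1 : L0 Z Y m) ⊗ₜ[Z] gs i n))
    (hm : (Fintype.card Y) ^ D0 * D0 ≤ m) (hd : d.b = genericBase Z Y m) (st : LevelStep d c c')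
    (w0 w1 : c.K) (hw0 : w0 ∈ c.W) (hw1 : w1 ∈ c.W) (h0 : w0 ≠ 0)
    (hu : IntermediateField.adjoin Z {w1 / w0} = ⊤) (hk0 : c.W ^ k0 = ⊤)
    (hm2 : (finrank Z c.K) ^ (finrank Z c.K + 1) ≤ m)
    (φ : ι → ℕ → c'.K)
    (hφ : ∀ i r, st.jp (φ i r) = Transport.phiLim (fun n => Rmap Z Y m c.K (gs i n)) (st.jp st.ξ) r)
    (hrel : ∀ i, φ i 1 ∈ Rel st) :
    Rel st = Submodule.span (Zp Z Y m) (Set.range fun i => φ i 1) := by
  classical
  have hW : ∃ y, coeff [y] c.g ≠ 0 := by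
    by_contra hcon
    push Not at hcon
    have : c.W = ⊥ := by
      refine (Submodule.span_eq_bot).mpr ?_
      rintro _ ⟨y, rfl⟩
      exact hcon y
    rw [this] at hw0
    exact h0 ((Submodule.mem_bot _).1 hw0)
  haveI : Nonempty Y := by
    obtain ⟨y, _⟩ := hW
    exact ⟨y⟩
  obtain ⟨hξ0, hξ1⟩ := xi_val hd st hW
  let V : Submodule (Zp Z Y m) (Tilde Z Y m c.K) := (Rel st).map st.jp.toLinearMap
  let β : ι → ℕ → L0 Z Y m ⊗[Z] c.K := fun i k =>
    ((k + 1 : ℕ) : L0 Z Y m) • ((1 : L0 Z Y m) ⊗ₜ[Z] gs i (k + 1))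
  have hβfix : ∀ i k, sR Z Y m c.K (β i k) = β i k := by
    intro i k
    show RatExt.sR Z Y m c.K (β i k) = β i k
    simp only [β]
    rw [RatExt.sR_smul, RatExt.sR_tmul, map_natCast, map_one]
  have hexp : ∀ i, st.jp (φ i 1) = KPrime.evalSeries (st.jp st.ξ) 0 (β i) := by
    intro i
    rw [hφ]
    have h1 := TheoremR.isExpansion_phiLim_one (xi_LB st)
      (fun n => RatExt.iota Z Y m c.K (gs i n)) (fun n => sR_iota _)
    have h2 := KPrime.isExpansion_evalSeries hξ0 hξ1 0 (hβfix i)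
    have h3 := h1.sub h2
    have h4 := (h3.eq_zero_iff hξ0 hξ1).2 (fun k => by
      simp only [β]
      rw [sub_eq_zero, Nat.cast_smul_eq_nsmul, nsmul_eq_mul]
      rfl)
    exact sub_eq_zero.mp h4
  have hV : ∀ x ∈ V, x ∈ KPrime.Cent (st.jp st.ξ) := by
    rintro _ ⟨s, _, rfl⟩
    exact KPrime.mem_Cent.mpr (commute_jp st _ _)
  have hB : ∀ i, KPrime.evalSeries (st.jp st.ξ) 0 (β i) ∈ V := by
    intro i
    rw [← hexp]
    exact ⟨φ i 1, hrel i, rfl⟩
  have hStab : ∀ x ∈ V, x.LB 0 → ∀ b : ℕ → L0 Z Y m ⊗[Z] c.K, KPrime.IsExpansion (st.jp st.ξ) x 0 b →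
      ∃ l : ι → Z0 Z Y m, ∀ k < k0, b k = ∑ i, l i • β i k := by
    rintro _ ⟨s, hs, rfl⟩ _ b hb
    obtain ⟨l, hl⟩ := rel_stab_core gs k0 D0 hL hm hd st hs hb
    obtain ⟨l', hfix, hl'⟩ := TheoremR.stab_fixed gs k0 hind b hb.fixed ⟨l, hl⟩
    refine ⟨fun i => ⟨l' i, (RatExt.mem_Z0 Z Y m).2 (hfix i)⟩, fun k hk => ?_⟩
    rw [hl' k hk]
    rfl
  have hLead : ∀ c0 : ℕ, k0 ≤ c0 + 1 → c0 < m → ∀ x ∈ V, x.LB (c0 : ℤ) → x.coeff (c0 : ℤ) = 0 := by
    rintro c0 hc0 hcm _ ⟨s, hs, rfl⟩ hLB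
    have hcomm : (baseOf c.K d.b).value c.g * st.jp s = st.jp s * (baseOf c.K d.b).value c.g := by
      have e : (baseOf c.K d.b).value c.g = st.jp st.ξ := by
        rw [st.hξ, value_eq]
        rfl
      rw [e]
      exact commute_jp st _ _
    exact Potential.lead_eq_zero (monBase_generic hd) c.g c.g0 (st.jp s) c0 hLB hcomm w0 w1 hw0 hw1 h0 hu
      k0 hk0 hm2 hc0 (by omega) (fun x0 j hdvd _ => rel_hrel st hs x0 j hdvd)
  haveI hfd0 : FiniteDimensional (Z0 Z Y m) (L0 Z Y m ⊗[Z] c.K) :=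
    Module.Finite.trans (L0 Z Y m) (L0 Z Y m ⊗[Z] c.K)
  have hspan := @TheoremR.rel_eq_span_abstract (Z0 Z Y m) _ (L0 Z Y m ⊗[Z] c.K) _ _
    (RatExt.sR Z Y m c.K) m hfd0 (MeasInst.stretchData_RL Z Y m (A' := c.K))
    (inferInstance : Algebra (Zp Z Y m) (Tilde Z Y m c.K))
    (algebraMap_eq_stretch Z Y m c.K) (st.jp st.ξ) hξ0 hξ1 V hV ι _ β hβfix hB k0 hStab hLead
  have e1 : Submodule.span (Zp Z Y m) (Set.range fun i => KPrime.evalSeries (st.jp st.ξ) 0 (β i)) =
      (Submodule.span (Zp Z Y m) (Set.range fun i => φ i 1)).map st.jp.toLinearMap := by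
    rw [Submodule.map_span]
    congr 1
    ext x
    constructor
    · rintro ⟨i, rfl⟩
      exact ⟨φ i 1, ⟨i, rfl⟩, hexp i⟩
    · rintro ⟨_, ⟨i, rfl⟩, rfl⟩
      exact ⟨i, (hexp i).symm⟩
  exact (Submodule.map_injective_of_injective (f := st.jp.toLinearMap) st.jp.toRingHom.injective
    (e1.symm.trans hspan)).symm

/-- **Core of Theorem R** (fixed `k0`, `W^k0 = ⊤`, primitive ratio): potentials `gs` chosen before `m`;
the transported potentials `φ i r` (`φ' r = ∑_n binom(n,r) gs_n ξ^(n-r)`) are exact at the next level and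
the `φ i 1` (`B_i`) span `Rel`. -/
theorem rel_core (c : KConf Z Y) (k0 : ℕ) (hk0 : 1 ≤ k0) (hW : c.W ^ k0 = ⊤) (hP : c.PrimRatio)
    (_h2 : 2 ≤ Fintype.card Y) :
    ∃ (M : ℕ) (ι : Type) (_ : Fintype ι) (gs : ι → ℕ → c.K),
      (∀ i, gs i 0 = 0) ∧
      (∀ i, CycNull (tmap (Algebra.trace Z c.K : c.K →ₗ[Z] Z).toAddMonoidHom (compo (gs i) c.g))) ∧
      (∀ (a : ι → Z), (∀ n, 1 ≤ n → n ≤ k0 → ∑ i, a i • gs i n = 0) → a = 0) ∧
      ∀ (m : ℕ) [Fact m.Prime], M ≤ m → ∀ d : LevelData Z Y m, d.b = genericBase Z Y m →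
        ∀ (c' : KConf (Zp Z Y m) (Fin d.n)) (st : LevelStep d c c'),
          ∃ φ : ι → ℕ → c'.K,
            (∀ i r, st.jp (φ i r) = Transport.phiLim (fun n => Rmap Z Y m c.K (gs i n)) (st.jp st.ξ) r) ∧
            (∀ i, CycNull (tmap (phiK st).toAddMonoidHom (compo (φ i) c'.g))) ∧
            Rel st = Submodule.span (Zp Z Y m) (Set.range fun i => φ i 1) := by
  classical
  obtain ⟨w0, hw0, w1, hw1, h0, hu⟩ := hP
  obtain ⟨D0, ι, _, gs, hgs0, hgsP, hL⟩ := Stab.exists_stable_potentials (Z := Z) c.g c.g0 hk0 hW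
  refine ⟨max ((finrank Z c.K) ^ (finrank Z c.K + 1)) ((Fintype.card Y) ^ D0 * D0), ι, inferInstance, gs, hgs0,
    fun i => cycNull_of_isPot c.g (gs i) (hgsP i), ?_, ?_⟩
  · intro a ha
    refine (hL Z).1 a fun n h1 h2 => ?_
    have e : ∑ i, a i • ((1 : Z) ⊗ₜ[Z] gs i n) = (1 : Z) ⊗ₜ[Z] (∑ i, a i • gs i n) := by
      simp [TensorProduct.tmul_sum, TensorProduct.tmul_smul]
    rw [e, ha n h1 h2, TensorProduct.tmul_zero]
  · intro m _ hm d hd c' st
    have hm1 := le_trans (le_max_left _ _) hm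
    have hm2 := le_trans (le_max_right _ _) hm
    choose φ hφ using fun i => exists_phi st (gs i)
    have hcyc : ∀ i, CycNull (tmap (phiK st).toAddMonoidHom (compo (φ i) c'.g)) :=
      fun i => cycNull_phi st (hgs0 i) (cycNull_of_isPot c.g (gs i) (hgsP i)) (hφ i)
    exact ⟨φ, fun i r => hφ i r, hcyc, rel_eq_span gs k0 D0 (hL (L0 Z Y m)).1 (hL (L0 Z Y m)).2 hm2 hd st
      w0 w1 hw0 hw1 h0 hu hW hm1 φ hφ (fun i => phi_mem_rel st (hcyc i))⟩

/-- The trace functional on `K'` is nonzero. -/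
theorem phiK_ne_zero (st : LevelStep d c c') : phiK st ≠ 0 := by
  intro h
  have h1 : phiK st 1 = 0 := by rw [h]; rfl
  have h2 : TrL Z Y m (Algebra.trace Z c.K) 1 = 0 := by
    have e : phiK st 1 = TrL Z Y m (Algebra.trace Z c.K) (st.jp 1) := rfl
    rw [e, map_one] at h1
    exact h1
  have h3 := TrL_coeff Z Y m (Algebra.trace Z c.K) (1 : Tilde Z Y m c.K) 0
  rw [h2] at h3
  have e1 : ((1 : Tilde Z Y m c.K)).coeff ((m : ℤ) * 0) = (1 : L0 Z Y m ⊗[Z] c.K) := by
    rw [mul_zero]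
    rfl
  rw [e1] at h3
  have h4 := AStepW.lamTr_one (Z := Z) (Y := Y) (m := m) (Algebra.trace Z c.K)
  rw [AStepW.lamTr_apply] at h4
  have h5 : (RatExt.tr Z Y m (RatExt.lam Z Y m (Algebra.trace Z c.K) (1 : L0 Z Y m ⊗[Z] c.K))) = 0 := h3.symm
  rw [h5] at h4
  have h6 := AStepW.nsmul_lamTr_one_ne (Z := Z) (Y := Y) (m := m) (A := c.K) (Algebra.trace Z c.K) ?_ (d := 1) one_ne_zero
  · apply h6
    rw [one_smul, AStepW.lamTr_apply]
    exact h5
  · rw [← map_one (algebraMap Z c.K), Algebra.trace_algebraMap, nsmul_eq_mul, mul_one]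
    exact Nat.cast_ne_zero.mpr (finrank_pos (R := Z) (M := c.K)).ne'

/-- `K'` has dimension at least `m` over `Zp`: it contains `ξ` of valuation one. -/
theorem m_le_finrank (hd : d.b = genericBase Z Y m) (st : LevelStep d c c') (hW : ∃ y, coeff [y] c.g ≠ 0) :
    m ≤ finrank (Zp Z Y m) c'.K := by
  obtain ⟨hξ0, hξ1⟩ := xi_val hd st hW
  haveI : Nonempty Y := by
    obtain ⟨y, _⟩ := hW
    exact ⟨y⟩
  haveI hfd0 : FiniteDimensional (Z0 Z Y m) (L0 Z Y m ⊗[Z] c.K) :=
    Module.Finite.trans (L0 Z Y m) (L0 Z Y m ⊗[Z] c.K)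
  exact @m_le_finrank_abs (Z0 Z Y m) _ (L0 Z Y m ⊗[Z] c.K) _ _
    (RatExt.sR Z Y m c.K) m (MeasInst.stretchData_RL Z Y m (A' := c.K))
    (inferInstance : Algebra (Zp Z Y m) (Tilde Z Y m c.K))
    (algebraMap_eq_stretch Z Y m c.K) hfd0 c'.K _ _ st.jp st.ξ hξ0 hξ1

/-- **Theorem R** (Skeleton form). -/
theorem theoremR_core (c : KConf Z Y) (hP : c.PrimRatio) (h2 : 2 ≤ Fintype.card Y) :
    ∃ M, ∀ (m : ℕ) [Fact m.Prime], M ≤ m → ∀ d : LevelData Z Y m, d.b = genericBase Z Y m →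
      ∃ (c' : KConf (Zp Z Y m) (Fin d.n)) (_ : LevelStep d c c'), c'.Rich := by
  classical
  have hP' := hP
  obtain ⟨w0, hw0, w1, hw1, h0, hu⟩ := hP'
  have hW : ∃ y, coeff [y] c.g ≠ 0 := by
    by_contra hcon
    push Not at hcon
    have : c.W = ⊥ := by
      refine (Submodule.span_eq_bot).mpr ?_
      rintro _ ⟨y, rfl⟩
      exact hcon y
    rw [this] at hw0
    exact h0 ((Submodule.mem_bot _).1 hw0)
  obtain ⟨M0, ι, _, gs, _, _, _, hmain⟩ := rel_core c (finrank Z c.K) finrank_pos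
    (RichField.pow_eq_top_of_prim hw0 hw1 h0 hu) hP h2
  refine ⟨max (max M0 (7 * Fintype.card ι + 1)) 2, fun m _ hm d hd => ?_⟩
  have hm0 : M0 ≤ m := le_trans (le_trans (le_max_left _ _) (le_max_left _ _)) hm
  have hm1 : 7 * Fintype.card ι + 1 ≤ m := le_trans (le_trans (le_max_right _ _) (le_max_left _ _)) hm
  have hm2 : 2 ≤ m := le_trans (le_max_right _ _) hm
  -- the value has valuation one
  have hξval : value d c.K c.g ≠ 0 ∧ SL.val (value d c.K c.g) = 1 := by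
    have e : value d c.K c.g = (baseOf c.K d.b).value c.g := value_eq d c.K c.g
    have h1 := Potential.coeff_value_one (monBase_generic (c := c) hd) c.g
    have h2' := Potential.aRL_ne_zero (Z := Z) (Y := Y) (m := m) (K := c.K) (fun y => coeff [y] c.g) hW 0
    have e' : (value d c.K c.g).coeff 1 = Mono.aRL Z Y m (fun y => coeff [y] c.g) 0 := by
      rw [e]
      exact h1
    have hne : (value d c.K c.g).coeff 1 ≠ 0 := fun h => h2' (e'.symm.trans h)
    have hLB : (value d c.K c.g).LB 1 := by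
      rw [value_eq]
      exact valueB_LB_order _ (SeriesComp.mem_ordGE_one c.g0)
    exact ⟨fun h => hne (by rw [h]; rfl), SL.val_eq_of hne hLB⟩
  obtain ⟨c', ⟨st⟩⟩ := Steps.exists_levelStep d c (by
    rw [hξval.2]
    intro hdvd
    have := Int.le_of_dvd one_pos hdvd
    omega) hξval.1
  refine ⟨c', st, ?_⟩
  obtain ⟨φ, _, _, hrel⟩ := hmain m hm0 d hd c' st
  have h1 : finrank (Zp Z Y m) (Rel st) ≤ Fintype.card ι := by
    rw [hrel]
    exact (finrank_range_le_card _)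
  have h3 : finrank (Zp Z Y m) (Rel st) = finrank (Zp Z Y m) c'.K - finrank (Zp Z Y m) c'.W :=
    RichField.finrank_perp (phiK_ne_zero st) c'.W
  have h4 := m_le_finrank hd st hW
  unfold KConf.Rich
  omega

end Main2

end Crest.Agent.Lib.Kurosh.TheoremRC
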