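import Mathlib
import Crest.Agent.Lib.Kurosh.TheoremRC
import Crest.Agent.Lib.Kurosh.FinishCore
import Crest.Agent.Lib.Kurosh.FormsInn
import Crest.Agent.Lib.Kurosh.AStepLevel
import Crest.Agent.Lib.Kurosh.GenPrime

/-!
# `finish` (blueprint 5(d)) from Theorem R, `finish_rel` and the rank bound

The Skeleton target `finish` follows from: `rel_core` (helper77), `FinishCore.finish_rel`, the rank input
`RankInput` (helper52), and the targets `exists_levelStep`, `meas` (finrank of `K'`), `LevelData.n_eq`.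
-/

set_option autoImplicit false
set_option linter.unusedSectionVars false

namespace Crest.Agent.Lib.Kurosh.FinishTop

open NCSeries Module SeriesComp FinishCore TheoremRC

variable {Z : Type} [Field Z] [CharZero Z] {Y : Type} [Fintype Y] [DecidableEq Y]

/-- Nondegeneracy of a functional on a field. -/
theorem nondeg_of_one {F K : Type*} [Field F] [Field K] [Algebra F K] (Tr : K →ₗ[F] F) (h1 : Tr 1 ≠ 0)
    (x : K) (h : ∀ y, Tr (y * x) = 0) : x = 0 := by
  by_contra hx
  apply h1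
  have := h x⁻¹
  rwa [inv_mul_cancel₀ hx] at this

/-- Nondegeneracy of a nonzero functional on a field. -/
theorem nondeg_of_ne {F K : Type*} [Field F] [Field K] [Algebra F K] (Tr : K →ₗ[F] F) (h1 : Tr ≠ 0)
    (x : K) (h : ∀ y, Tr (y * x) = 0) : x = 0 := by
  by_contra hx
  apply h1
  ext z
  have := h (z * x⁻¹)
  rwa [mul_assoc, inv_mul_cancel₀ hx, mul_one] at this

/-- The trace of `1` does not vanish. -/
theorem trace_one_ne (K : Type*) [Field K] [Algebra Z K] [FiniteDimensional Z K] :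
    Algebra.trace Z K 1 ≠ 0 := by
  have h := Algebra.trace_algebraMap (R := Z) (S := K) (1 : Z)
  rw [map_one] at h
  rw [h]
  simp [finrank_pos.ne']

/-- A `K`-configuration whose potentials have `W * W = ⊤`: the first coefficients of the potentials are independent. -/
theorem indep_first (c : KConf Z Y) (hW : c.W * c.W = ⊤) {ι : Type} [Fintype ι] (gs : ι → ℕ → c.K)
    (hcyc : ∀ i, CycNull (tmap (Algebra.trace Z c.K : c.K →ₗ[Z] Z).toAddMonoidHom (compo (gs i) c.g)))
    (hind : ∀ a : ι → Z, (∀ n, 1 ≤ n → n ≤ 2 → ∑ i, a i • gs i n = 0) → a = 0)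
    (a : ι → Z) (ha : ∑ i, a i • gs i 1 = 0) : a = 0 := by
  classical
  apply hind a
  intro n h1 h2
  have hn : n = 1 ∨ n = 2 := by omega
  rcases hn with rfl | rfl
  · exact ha
  set G2 : c.K := ∑ i, a i • gs i 2 with hG2
  set tr := Algebra.trace Z c.K with htr
  -- the skew-symmetry at a pair
  have h3 : ∀ y y', tr (G2 * (coeff [y] c.g * coeff [y'] c.g)) +
      tr (G2 * (coeff [y'] c.g * coeff [y] c.g)) = 0 := by
    intro y y'
    have h4 : ∀ i, tr (gs i 1 * coeff [y, y'] c.g + gs i 2 * (coeff [y] c.g * coeff [y'] c.g)) +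
        tr (gs i 1 * coeff [y', y] c.g + gs i 2 * (coeff [y'] c.g * coeff [y] c.g)) = 0 := by
      intro i
      have := CycNull.coeff_pair (hcyc i) y y'
      simp only [coeff_tmap] at this
      rw [FormsInn.coeff_sumPow_pair (gs i) c.g0, FormsInn.coeff_sumPow_pair (gs i) c.g0] at this
      have e : ∀ x : c.K, (tr : c.K →ₗ[Z] Z).toAddMonoidHom x = tr x := fun _ => rfl
      rw [e, e] at this
      rw [this]
      ring
    have h5 := Finset.sum_eq_zero (s := Finset.univ) (f := fun i => a i • (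
      tr (gs i 1 * coeff [y, y'] c.g + gs i 2 * (coeff [y] c.g * coeff [y'] c.g)) +
        tr (gs i 1 * coeff [y', y] c.g + gs i 2 * (coeff [y'] c.g * coeff [y] c.g))))
      (fun i _ => by rw [h4 i, smul_zero])
    have h6 : ∀ u v : c.K, ∑ i, a i • tr (gs i 1 * u + gs i 2 * v) =
        tr ((∑ i, a i • gs i 1) * u) + tr (G2 * v) := by
      intro u v
      rw [hG2, ← map_add, Finset.sum_mul, Finset.sum_mul, ← Finset.sum_add_distrib, map_sum]
      refine Finset.sum_congr rfl fun i _ => ?_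
      rw [← map_smul, smul_add, smul_mul_assoc, smul_mul_assoc]
    simp only [smul_add, Finset.sum_add_distrib] at h5
    rw [h6, h6, ha, zero_mul, zero_mul, map_zero, zero_add, zero_add] at h5
    exact h5
  have h7 : ∀ y y', tr (G2 * (coeff [y] c.g * coeff [y'] c.g)) = 0 := by
    intro y y'
    have h8 := h3 y y'
    rw [mul_comm (coeff [y'] c.g), ← two_mul] at h8
    exact (mul_eq_zero.mp h8).resolve_left two_ne_zero
  -- extend to `W * W`
  have h9 : ∀ x ∈ c.W * c.W, tr (G2 * x) = 0 := by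
    intro x hx
    induction hx using Submodule.mul_induction_on' with
    | mem_mul_mem u hu v hv =>
      induction hu using Submodule.span_induction with
      | mem u hu =>
        obtain ⟨y, rfl⟩ := hu
        induction hv using Submodule.span_induction with
        | mem v hv =>
          obtain ⟨y', rfl⟩ := hv
          exact h7 y y'
        | zero => simp
        | add v v' _ _ h h' => rw [mul_add, mul_add, map_add, h, h', add_zero]
        | smul r v _ h => rw [mul_smul_comm, mul_smul_comm, map_smul, h, smul_zero]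
      | zero => simp
      | add u u' _ _ h h' => rw [add_mul, mul_add, map_add, h, h', add_zero]
      | smul r u _ h => rw [smul_mul_assoc, mul_smul_comm, map_smul, h, smul_zero]
    | add x _ y _ h h' => rw [mul_add, map_add, h, h', add_zero]
  by_contra hne
  apply trace_one_ne (Z := Z) c.K
  have := h9 (G2⁻¹) (by rw [hW]; trivial)
  rwa [mul_inv_cancel₀ hne] at this

section Phi

open Transport

variable {S : Type*} [Ring S] {σ : RingAut S}

lemma phiLim_one_LB {φ : ℕ → SL S σ} {ξ : SL S σ} (hφ : ∀ n, (φ n).LB 0) (hξ : ξ.LB 1) :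
    (phiLim φ ξ 1).LB 0 := by
  intro i hi
  by_cases h : i < -1
  · exact lB_phiLim φ ξ 1 i (by simpa using h)
  have hi' : i = -1 := by omega
  subst hi'
  have h1 := coeff_partial_eq (lB_tTerm hφ hξ 1) (N := 1) (i := -1) (by norm_num)
  have h2 : (sumSL (tTerm φ ξ 1) (-((1 : ℕ) : ℤ))).coeff (-1) = (phiLim φ ξ 1).coeff (-1) := rfl
  rw [← h2, ← h1]
  simp [tTerm]

lemma phiLim_one_coeff {φ : ℕ → SL S σ} {ξ : SL S σ} (hφ : ∀ n, (φ n).LB 0) (hξ : ξ.LB 1) :
    (phiLim φ ξ 1).coeff 0 = (φ 1).coeff 0 := by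
  have h1 := coeff_partial_eq (lB_tTerm hφ hξ 1) (N := 2) (i := 0) (by norm_num)
  have h2 : (sumSL (tTerm φ ξ 1) (-((1 : ℕ) : ℤ))).coeff 0 = (phiLim φ ξ 1).coeff 0 := rfl
  rw [← h2, ← h1]
  simp [tTerm, Finset.sum_range_succ]

end Phi

variable {m : ℕ} [Fact m.Prime]

/-- The rank bound (helper52's `FormsConcrete`). -/
def RankInput (c : KConf Z Y) : Prop :=
  ∀ (m : ℕ) [Fact m.Prime] (d : LevelData Z Y m), d.b = genericBase Z Y m →
    ∀ (c' : KConf (Zp Z Y m) (Fin d.n)) (st : LevelStep d c c') (ι : Type) [Fintype ι]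
      (φ : ι → ℕ → c'.K) (gs1 : ι → c.K),
      (∀ i, (st.jp (φ i 1)).LB 0) →
      (∀ i, (st.jp (φ i 1)).coeff 0 = RatExt.iota Z Y m c.K (gs1 i)) →
      (∀ i x, phiK st (φ i 1 * coeff [x] c'.g) = 0) →
      (∀ a : ι → Z, ∑ i, a i • gs1 i = 0 → a = 0) →
      3 * finrank Z c.K + 3 * Fintype.card ι ≤ m →
      ∀ a : ι → Zp Z Y m, a ≠ 0 → 3 * Fintype.card ι ≤ finrank (Zp Z Y m) (LinearMap.range
        (GoodPair.comb (fun i => (form2 (RR (phiK st) (φ i) c'.g)).domRestrict₁₂
          (LinearMap.ker (hLin (F := Zp Z Y m) c'.g)) (LinearMap.ker (hLin (F := Zp Z Y m) c'.g))) a))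

/-- **`finish`**, from its inputs. -/
theorem finish_of (c : KConf Z Y) (hE : c.Rich) (h2 : 2 ≤ Fintype.card Y)
    (hdim : ∀ (m : ℕ) [Fact m.Prime] (d : LevelData Z Y m) (c' : KConf (Zp Z Y m) (Fin d.n))
      (st : LevelStep d c c'), st.jp st.ξ ≠ 0 → ¬ ((m : ℤ) ∣ SL.val (st.jp st.ξ)) →
      finrank (Zp Z Y m) c'.K ≤ m * finrank Z c.K)
    (hn : ∀ (m : ℕ) [Fact m.Prime] (d : LevelData Z Y m), d.n + m ^ 2 = Fintype.card Y * m ^ 2 + 1)
    (hrank : RankInput c) :
    ∃ M, ∀ (m : ℕ) [Fact m.Prime], M ≤ m → ∀ d : LevelData Z Y m, d.b = genericBase Z Y m →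
      ∃ (c' : KConf (Zp Z Y m) (Fin d.n)) (_ : LevelStep d c c') (θ : Fin d.n → NCS (Zp Z Y m) (Fin 2))
        (hθ : SectionOK θ), c'.comp θ hθ.zero = 0 := by
  classical
  have hW2 : c.W * c.W = ⊤ := RichField.mul_self_eq_top hE
  have hWp : c.W ^ 2 = ⊤ := by rw [pow_two, hW2]
  have hP : c.PrimRatio := RichField.exists_prim hE
  obtain ⟨M, ι, fι, gs, g0, gcyc, gind, main⟩ := rel_core c 2 (by norm_num) hWp hP h2
  refine ⟨max M (max (finrank Z c.K + 2) (3 * finrank Z c.K + 3 * Fintype.card ι)), ?_⟩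
  intro m _ hm d hd
  have hmM : M ≤ m := le_trans (le_max_left _ _) hm
  have hme : finrank Z c.K + 2 ≤ m := le_trans (le_trans (le_max_left _ _) (le_max_right _ _)) hm
  have hmr : 3 * finrank Z c.K + 3 * Fintype.card ι ≤ m :=
    le_trans (le_trans (le_max_right _ _) (le_max_right _ _)) hm
  -- the value
  obtain ⟨w0, hw0, h0⟩ := RichField.exists_ne_zero_of_rich hE
  have hgm : c.g ∉ ordGE Y c.K m := by
    intro hg
    apply h0
    have hW0 : c.W = ⊥ := by
      refine (Submodule.span_eq_bot).mpr ?_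
      rintro _ ⟨y, rfl⟩
      exact hg [y] (by simp; omega)
    rw [hW0] at hw0
    exact (Submodule.mem_bot Z).mp hw0
  obtain ⟨hv0, hv1⟩ := AStepLevel.value_val_generic' d hd c.g c.g0 hgm
  obtain ⟨c', ⟨st⟩⟩ := Steps.exists_levelStep d c hv1 hv0
  obtain ⟨φ, hφ, hcyc', hrel⟩ := main m hmM d hd c' st
  -- the value has val `≥ 1`
  have hξLB : (st.jp st.ξ).LB 1 := by
    rw [st.hξ, value_eq]
    exact GenPrime.value_LB_one _ c.g0
  have hRLB : ∀ i n, (Rmap Z Y m c.K (gs i n)).LB 0 := fun i n => Rmap_LB _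
  have hLB : ∀ i, (st.jp (φ i 1)).LB 0 := by
    intro i
    rw [hφ]
    exact phiLim_one_LB (hRLB i) hξLB
  have hcoeff0 : ∀ i, (st.jp (φ i 1)).coeff 0 = RatExt.iota Z Y m c.K (gs i 1) := by
    intro i
    rw [hφ, phiLim_one_coeff (hRLB i) hξLB, Rmap_apply, SL.C_apply, SL.coeff_mon, if_pos rfl]
  -- relations
  have hmemRel : ∀ i, φ i 1 ∈ Rel st := by
    intro i
    rw [hrel]
    exact Submodule.subset_span ⟨i, rfl⟩
  have hB1 : ∀ i x, phiK st (φ i 1 * coeff [x] c'.g) = 0 := fun i x =>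
    hmemRel i _ (Submodule.subset_span ⟨x, rfl⟩)
  have hRel : ∀ s : c'.K, (∀ x, phiK st (s * coeff [x] c'.g) = 0) →
      s ∈ Submodule.span (Zp Z Y m) (Set.range fun i => φ i 1) := by
    intro s hs
    rw [← hrel]
    intro w hw
    induction hw using Submodule.span_induction with
    | mem w hw =>
      obtain ⟨x, rfl⟩ := hw
      exact hs x
    | zero => simp
    | add u v _ _ h h' => rw [mul_add, map_add, h, h', add_zero]
    | smul r u _ h => rw [mul_smul_comm, map_smul, h, smul_zero]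
  -- the trace
  have hTr : ∀ x : c'.K, (∀ y, phiK st (y * x) = 0) → x = 0 :=
    nondeg_of_ne (phiK st) (phiK_ne_zero st)
  -- the letter count
  have hK : finrank (Zp Z Y m) c'.K ≤ m * finrank Z c.K := by
    refine hdim m d c' st ?_ ?_
    · rw [st.hξ]; exact hv0
    · rw [st.hξ]; exact hv1
  have h2' : 2 ≤ finrank (Zp Z Y m) (LinearMap.ker (hLin (F := Zp Z Y m) c'.g)) := by
    have h3 := LinearMap.finrank_range_add_finrank_ker (hLin (F := Zp Z Y m) c'.g)
    rw [Module.finrank_fintype_fun_eq_card, Fintype.card_fin] at h3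
    have h4 : finrank (Zp Z Y m) (LinearMap.range (hLin (F := Zp Z Y m) c'.g)) ≤
        finrank (Zp Z Y m) c'.K := Submodule.finrank_le _
    have h5 := hn m d
    have h6 : 2 * m ^ 2 ≤ Fintype.card Y * m ^ 2 := Nat.mul_le_mul_right _ h2
    have h7 : m * finrank Z c.K + 2 * m ≤ m ^ 2 := by
      rw [pow_two, mul_comm 2 m, ← mul_add]
      exact Nat.mul_le_mul_left _ (by omega)
    have h8 : 2 ≤ m := by omega
    omega
  obtain ⟨θ, h00, hli, hzero⟩ := finish_rel (phiK st) hTr c'.g0 φ hcyc' hB1 hRel h2'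
    (hrank m d hd c' st ι φ (fun i => gs i 1) hLB hcoeff0 hB1
      (indep_first c hW2 gs gcyc gind) hmr)
  exact ⟨c', st, θ, ⟨h00, hli⟩, hzero⟩

end Crest.Agent.Lib.Kurosh.FinishTop
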