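import Crest.Agent.Lib.Kurosh.PsiCore
import Crest.Agent.Lib.Kurosh.SeriesComp
import Crest.Agent.Lib.Kurosh.FinishCore

/-!
# S0270, Section 5(d): the relation forms in terms of directional derivatives

* `dir2_inn_left`, `dir2_inn_right`: the derivation identities for one inner direction;
* `h1L`, `h2L`: directional derivatives as linear maps over a central field;
* `omega_invariant`: inner directions are in the radical;
* `coeff_one_conj`, `coeff_two_conj`: Hensel conjugation in degrees one and two;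
* `form2_RR_of_ker`: the two-form of `Tr ∑ φ_n g^n` on the kernel of the linear part.
-/

set_option autoImplicit false
set_option linter.unusedSectionVars false

namespace Crest.Agent.Lib.Kurosh.Forms

open Finset Module NCSeries PsiCore PsiCore.Base

section DirInn

variable {R : Type*} [Ring R] {S : Type*} [Ring S] {σ : RingAut S} {Y : Type*} [Fintype Y]
  (B : Base R S σ Y)

/-- `D²f[Inn c, x] = Df[c x] - c Df[x]`. -/
theorem dir2_inn_left (c : SL S σ) (x : Y → SL S σ) (f : NCS R Y) :
    B.dir2 (fun y => B.τ y * c - c * B.τ y) x f =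
      B.dir (fun y => c * x y) f - c * B.dir x f := by
  symm
  refine B.dirW_unique _ [x] (D := fun f => B.dir (fun y => c * x y) f - c * B.dir x f)
    (bounded_sub (B.dirW_bounded _) (bounded_mul_left c (B.dirW_bounded _))) (fun g => ?_) f
  conv_lhs => rw [B.dir_rec (fun y => c * x y) g, B.dir_rec x g]
  simp only [mul_add, mul_sub, sub_mul, Finset.mul_sum, Finset.sum_sub_distrib, mul_assoc]
  abel

/-- `D²f[x, Inn c] = Df[x] c - Df[x c]`. -/
theorem dir2_inn_right (c : SL S σ) (hc : ∀ r, B.ρ r * c = c * B.ρ r) (x : Y → SL S σ)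
    (f : NCS R Y) :
    B.dir2 x (fun y => B.τ y * c - c * B.τ y) f =
      B.dir x f * c - B.dir (fun y => x y * c) f := by
  symm
  refine B.dirW_unique _ [fun y => B.τ y * c - c * B.τ y]
    (D := fun f => B.dir x f * c - B.dir (fun y => x y * c) f)
    (bounded_sub (bounded_mul_right c (B.dirW_bounded _)) (B.dirW_bounded _)) (fun g => ?_) f
  conv_lhs => rw [B.dir_rec x g, B.dir_rec (fun y => x y * c) g]
  simp only [B.dir_inn c hc]
  simp only [add_mul, mul_sub, Finset.sum_mul, Finset.sum_sub_distrib, mul_assoc]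
  abel

variable {K : Type*} [Field K] [Algebra K (SL S σ)]

/-- The directional derivative as a linear map. -/
noncomputable def h1L (f : NCS R Y) : (Y → SL S σ) →ₗ[K] SL S σ where
  toFun x := B.dir x f
  map_add' x x' := B.dir_add x x' f
  map_smul' c x := by
    have e : c • x = fun y => algebraMap K (SL S σ) c * x y := by
      funext y
      exact Algebra.smul_def c (x y)
    rw [e, B.dir_mul_left _ (Algebra.commutes c)]
    exact (Algebra.smul_def c _).symm

lemma h1L_apply (f : NCS R Y) (x : Y → SL S σ) : h1L (K := K) B f x = B.dir x f := rfl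

/-- The second directional derivative as a bilinear map. -/
noncomputable def h2L (f : NCS R Y) : (Y → SL S σ) →ₗ[K] (Y → SL S σ) →ₗ[K] SL S σ :=
  LinearMap.mk₂ K (fun x x' => B.dir2 x x' f)
    (fun x x₁ x' => B.dir2_add_left x x₁ x' f)
    (fun c x x' => by
      have e : c • x = fun y => algebraMap K (SL S σ) c * x y := by
        funext y
        exact Algebra.smul_def c (x y)
      rw [e, B.dir2_mul_left _ (Algebra.commutes c)]
      exact (Algebra.smul_def c _).symm)
    (fun x x' x₁ => B.dir2_add_right x x' x₁ f)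
    (fun c x x' => by
      have e : c • x' = fun y => algebraMap K (SL S σ) c * x' y := by
        funext y
        exact Algebra.smul_def c (x' y)
      rw [e, B.dir2_mul_right _ (Algebra.commutes c)]
      exact (Algebra.smul_def c _).symm)

lemma h2L_apply (f : NCS R Y) (x x' : Y → SL S σ) :
    h2L (K := K) B f x x' = B.dir2 x x' f := rfl

end DirInn

section Invariant

variable {K A T C' : Type*} [Field K] [Ring A] [Algebra K A] [AddCommGroup T] [Module K T]

/-- Inner directions are in the radical on the kernel of `π h₁`. -/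
theorem omega_invariant (Tr : A →ₗ[K] K) (hcyc : ∀ x y, Tr (x * y) = Tr (y * x)) {ξ Β : A}
    (hΒ : ξ * Β = Β * ξ) (h1 : T →ₗ[K] A) (h2 : T →ₗ[K] T →ₗ[K] A)
    (ι : C' → A) (Inn : C' → T) (mulL mulR : C' → T → T)
    (hInn : ∀ c, h1 (Inn c) = ξ * ι c - ι c * ξ)
    (hL : ∀ c X, h2 (Inn c) X = h1 (mulL c X) - ι c * h1 X)
    (hR : ∀ c X, h2 X (Inn c) = h1 X * ι c - h1 (mulR c X))
    (hrel : ∀ X, Tr (Β * h1 X) = 0)
    (x x' : T) (c c' : C') (A0 Ap : A)
    (hA0 : ξ * A0 - A0 * ξ = h1 x) (hA : ξ * Ap - Ap * ξ = h1 (x + Inn c))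
    (hT2 : ∀ β, ξ * β = β * ξ → Tr (β * h1 (x' + Inn c')) = 0) :
    Tr (Β * h2 (x + Inn c) (x' + Inn c')) + Tr (Β * Ap * h1 (x' + Inn c')) =
      Tr (Β * h2 x x') + Tr (Β * A0 * h1 x') := by
  -- the centraliser element
  set κ := Ap - ι c - A0 with hκ
  have hκc : ξ * κ = κ * ξ := by
    have h3 : ξ * Ap - Ap * ξ = h1 x + (ξ * ι c - ι c * ξ) := by
      rw [hA, map_add, hInn]
    rw [hκ]
    have : ξ * (Ap - ι c - A0) - (Ap - ι c - A0) * ξ =
        (ξ * Ap - Ap * ξ) - (ξ * ι c - ι c * ξ) - (ξ * A0 - A0 * ξ) := by noncomm_ring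
    rw [← sub_eq_zero, this, h3, hA0]
    abel
  have hAp : Ap = A0 + ι c + κ := by
    rw [hκ]; abel
  have hκ0 : Tr (Β * κ * h1 (x' + Inn c')) = 0 := by
    refine hT2 _ ?_
    calc ξ * (Β * κ) = (ξ * Β) * κ := by rw [mul_assoc]
      _ = Β * (ξ * κ) := by rw [hΒ, mul_assoc]
      _ = Β * (κ * ξ) := by rw [hκc]
      _ = Β * κ * ξ := by rw [mul_assoc]
  -- expansion of the first term
  have e1 : Tr (Β * h2 (x + Inn c) (x' + Inn c')) =
      Tr (Β * h2 x x') + Tr (Β * (h1 x * ι c')) - Tr (Β * (ι c * h1 x')) -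
        Tr (Β * (ι c * h1 (Inn c'))) := by
    have e2 : h2 (x + Inn c) (x' + Inn c') = h2 x x' + (h1 x * ι c' - h1 (mulR c' x)) +
        (h1 (mulL c x') - ι c * h1 x') + (h1 (mulL c (Inn c')) - ι c * h1 (Inn c')) := by
      rw [map_add h2, LinearMap.add_apply, map_add (h2 x), map_add (h2 (Inn c)), hR, hL, hL]
      abel
    rw [e2]
    simp only [mul_add, mul_sub, map_add, map_sub, hrel]
    abel
  have e3 : Tr (Β * Ap * h1 (x' + Inn c')) =
      Tr (Β * A0 * h1 x') + Tr (Β * A0 * h1 (Inn c')) + Tr (Β * (ι c * h1 x')) +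
        Tr (Β * (ι c * h1 (Inn c'))) := by
    rw [hAp]
    have : Β * (A0 + ι c + κ) * h1 (x' + Inn c') =
        Β * κ * h1 (x' + Inn c') + (Β * A0 * h1 x' + Β * A0 * h1 (Inn c') +
          Β * (ι c * h1 x') + Β * (ι c * h1 (Inn c'))) := by
      rw [map_add]
      noncomm_ring
    rw [this, map_add, hκ0, zero_add]
    simp only [map_add]
  have e4 : Tr (Β * A0 * h1 (Inn c')) = - Tr (Β * (h1 x * ι c')) := by
    rw [hInn, ← hA0]
    have e5 : Β * A0 * (ξ * ι c' - ι c' * ξ) = (Β * A0 * ξ) * ι c' - (Β * A0 * ι c') * ξ := by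
      noncomm_ring
    have e6 : Tr ((Β * A0 * ι c') * ξ) = Tr (ξ * Β * A0 * ι c') := by
      rw [hcyc]
      congr 1
      noncomm_ring
    have e7 : Β * ((ξ * A0 - A0 * ξ) * ι c') = ξ * Β * A0 * ι c' - Β * A0 * ξ * ι c' := by
      rw [hΒ]
      noncomm_ring
    rw [e5, map_sub, e6, e7, map_sub]
    abel
  rw [e1, e3, e4]
  abel

end Invariant

section Conj

variable {Λ : Type*} [Ring Λ] {Y' : Type*}

lemma coeff_two_mul (t t' : Y') (f g : NCS Λ Y') :
    coeff [t, t'] (f * g) =
      coeff [] f * coeff [t, t'] g + coeff [t] f * coeff [t'] g + coeff [t, t'] f * coeff [] g := by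
  rw [coeff_mul_cons, coeff_mul_cons, coeff_mul_nil, coeff_dl, coeff_dl, coeff_dl, add_assoc]

lemma coeff_one_mul (t : Y') (f g : NCS Λ Y') :
    coeff [t] (f * g) = coeff [] f * coeff [t] g + coeff [t] f * coeff [] g := by
  rw [coeff_mul_cons, coeff_mul_nil, coeff_dl]

variable {U U' h G : NCS Λ Y'} {ξ : Λ}

/-- Hensel conjugation in degree one. -/
lemma coeff_one_conj (hU'U : U' * U = 1) (hU1 : coeff [] U = 1) (h0 : coeff [] h = ξ)
    (hG0 : coeff [] G = 0) (hconj : U * h * U' = C ξ + G) (t : Y') :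
    coeff [t] G = coeff [t] h + coeff [t] U * ξ - ξ * coeff [t] U := by
  have e : U * h = (C ξ + G) * U := by
    rw [← hconj, mul_assoc, hU'U, mul_one]
  have e1 := congrArg (coeff [t]) e
  rw [coeff_one_mul, coeff_one_mul, hU1, h0, coeff_add, coeff_add, coeff_C_nil, hG0, add_zero,
    one_mul, mul_one] at e1
  simp only [coeff_C_cons, zero_add] at e1
  rw [eq_sub_iff_add_eq, add_comm, ← e1]

/-- Hensel conjugation in degree two. -/
lemma coeff_two_conj (hU'U : U' * U = 1) (hU1 : coeff [] U = 1) (h0 : coeff [] h = ξ)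
    (hG0 : coeff [] G = 0) (hconj : U * h * U' = C ξ + G) (t t' : Y') :
    coeff [t, t'] G = coeff [t, t'] h + coeff [t] U * coeff [t'] h + coeff [t, t'] U * ξ -
      ξ * coeff [t, t'] U - coeff [t] G * coeff [t'] U := by
  have e : U * h = (C ξ + G) * U := by
    rw [← hconj, mul_assoc, hU'U, mul_one]
  have e1 := congrArg (coeff [t, t']) e
  rw [coeff_two_mul, coeff_two_mul, hU1, h0, coeff_add, coeff_add, coeff_C_nil, hG0, add_zero,
    one_mul, mul_one] at e1
  simp only [coeff_add, coeff_C_cons, zero_add] at e1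
  rw [e1]
  abel

end Conj

section Form2

variable {F : Type*} [Field F] {K' : Type*} [Ring K'] [Algebra F K'] {L' : Type*} [Fintype L']
  [DecidableEq L']

open SeriesComp FinishCore

lemma coeff_two_sumPow {g : NCS K' L'} (hg : coeff [] g = 0) (φ : ℕ → K') (x x' : L') :
    coeff [x, x'] (sumPow φ g) = φ 1 * coeff [x, x'] g + φ 2 * (coeff [x] g * coeff [x'] g) := by
  rw [coeff_sumPow_def]
  have e : ([x, x'] : List L').length + 1 = 3 := rfl
  rw [e, Finset.sum_range_succ, Finset.sum_range_succ, Finset.sum_range_one]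
  have e0 : coeff [x, x'] (g ^ 0) = 0 := by simp
  have e1 : coeff [x, x'] (g ^ 1) = coeff [x, x'] g := by simp
  have e2 : coeff [x, x'] (g ^ 2) = coeff [x] g * coeff [x'] g := by
    rw [pow_two, coeff_two_mul, hg, zero_mul, mul_zero, zero_add, add_zero]
  rw [e0, e1, e2, mul_zero, zero_add]

/-- The two-form of `Tr ∑ φ_n g^n` on the kernel of the linear part. -/
theorem form2_RR_of_ker (Tr : K' →ₗ[F] F) {g : NCS K' L'} (hg : coeff [] g = 0) (φ : ℕ → K')
    (z z' : L' → F) (hz : hLin (F := F) g z = 0) :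
    form2 (RR Tr φ g) z z' =
      Tr (φ 1 * ∑ x, ∑ x', (z x * z' x') • coeff [x, x'] g) := by
  rw [form2_apply]
  have e1 : ∀ x x', coeff [x, x'] (RR Tr φ g) =
      Tr (φ 1 * coeff [x, x'] g) + Tr (φ 2 * (coeff [x] g * coeff [x'] g)) := by
    intro x x'
    change Tr (coeff [x, x'] (sumPow φ g)) = _
    rw [coeff_two_sumPow hg, map_add]
  simp only [e1, add_mul, Finset.sum_add_distrib]
  have e2 : ∑ x, ∑ x', Tr (φ 2 * (coeff [x] g * coeff [x'] g)) * (z x * z' x') = 0 := by
    have e3 : ∑ x, ∑ x', Tr (φ 2 * (coeff [x] g * coeff [x'] g)) * (z x * z' x') =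
        Tr (φ 2 * (hLin (F := F) g z * hLin (F := F) g z')) := by
      rw [hLin_apply, hLin_apply, Finset.sum_mul, Finset.mul_sum, map_sum]
      refine Finset.sum_congr rfl fun x _ => ?_
      rw [Finset.mul_sum, Finset.mul_sum, map_sum]
      refine Finset.sum_congr rfl fun x' _ => ?_
      rw [smul_mul_smul_comm, mul_smul_comm, map_smul, smul_eq_mul, mul_comm]
    rw [e3, hz, zero_mul, mul_zero, map_zero]
  rw [e2, add_zero, Finset.mul_sum, map_sum]
  refine Finset.sum_congr rfl fun x _ => ?_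
  rw [Finset.mul_sum, map_sum]
  refine Finset.sum_congr rfl fun x' _ => ?_
  rw [mul_smul_comm, map_smul, smul_eq_mul, mul_comm]

end Form2

end Crest.Agent.Lib.Kurosh.Forms
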