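import Crest.Agent.Lib.Kurosh.FormsMain
import Crest.Agent.Lib.Kurosh.FormsOmega

/-!
# S0270, Section 5(d): assembling the rank bound on `PsiCore`

`rank_forms_core`: the rank of the relation form on `ker hLin` from the blocks.
-/

set_option autoImplicit false
set_option linter.unusedSectionVars false

namespace Crest.Agent.Lib.Kurosh.Forms

open Finset Module NCSeries PsiCore PsiCore.Base FinishCore
open SL (Lau)

section Core

variable {F L : Type*} [Field F] [Field L] [Algebra F L] [FiniteDimensional F L] {σ : RingAut L}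
  {m : ℕ} [Algebra (Lau F) (SL L σ)]
  {R : Type*} [Ring R] {Y : Type*} [Fintype Y] (B0 : Base R L σ Y) (f : NCS R Y)
  {T C' : Type*} [AddCommGroup T] [Module (Lau F) T]
  (D : T →ₗ[Lau F] (Y → SL L σ))

/-- `h₁ X = Df(τ)[X]`. -/
noncomputable abbrev h1T : T →ₗ[Lau F] SL L σ := (h1L (K := Lau F) B0 f) ∘ₗ D

/-- `h₂ X X' = D²f(τ)[X, X']`. -/
noncomputable abbrev h2T : T →ₗ[Lau F] T →ₗ[Lau F] SL L σ := (h2L (K := Lau F) B0 f).compl₁₂ D D

variable (ι : C' → SL L σ) (Inn : C' → T) (mulL mulR : C' → T → T)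
  (hInnD : ∀ c y, D (Inn c) y = B0.τ y * ι c - ι c * B0.τ y)
  (hLD : ∀ c X y, D (mulL c X) y = ι c * D X y)
  (hRD : ∀ c X y, D (mulR c X) y = D X y * ι c)
  (hιρ : ∀ c r, B0.ρ r * ι c = ι c * B0.ρ r)

include hInnD hιρ in
lemma h1T_inn (c : C') :
    h1T B0 f D (Inn c) = B0.value f * ι c - ι c * B0.value f := by
  have e : D (Inn c) = fun y => B0.τ y * ι c - ι c * B0.τ y := funext (hInnD c)
  change B0.dir (D (Inn c)) f = _
  rw [e, B0.dir_inn (ι c) (hιρ c)]

include hInnD hLD in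
lemma h2T_inn_left (c : C') (X : T) :
    h2T B0 f D (Inn c) X = h1T B0 f D (mulL c X) - ι c * h1T B0 f D X := by
  have e : D (Inn c) = fun y => B0.τ y * ι c - ι c * B0.τ y := funext (hInnD c)
  have e' : D (mulL c X) = fun y => ι c * D X y := funext (hLD c X)
  change B0.dir2 (D (Inn c)) (D X) f = B0.dir (D (mulL c X)) f - ι c * B0.dir (D X) f
  rw [e, e', dir2_inn_left]

include hInnD hRD hιρ in
lemma h2T_inn_right (c : C') (X : T) :
    h2T B0 f D X (Inn c) = h1T B0 f D X * ι c - h1T B0 f D (mulR c X) := by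
  have e : D (Inn c) = fun y => B0.τ y * ι c - ι c * B0.τ y := funext (hInnD c)
  have e' : D (mulR c X) = fun y => D X y * ι c := funext (hRD c X)
  change B0.dir2 (D X) (D (Inn c)) f = B0.dir (D X) f * ι c - B0.dir (D (mulR c X)) f
  rw [e, e', dir2_inn_right _ _ (hιρ c)]

variable {Y' : Type*} [Fintype Y'] [DecidableEq Y'] (Xl : Y' → T)
  (hx : B0.IsDirs (fun t => D (Xl t)))
  {Kp : Type*} [Field Kp] [Algebra (Lau F) Kp] (jp : Kp →ₐ[Lau F] SL L σ)
  {g : NCS Kp Y'} (hg0 : coeff [] g = 0)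
  {U U' : NCS (SL L σ) Y'} (hU'U : U' * U = 1) (hU1 : coeff [] U = 1)
  (hconj : U * Base.psi hx f * U' =
    C (B0.value f) + NCSeries.map (jp : Kp →+* SL L σ) g)

include hg0 hU'U hU1 hconj in
lemma jp_single (t : Y') :
    jp (coeff [t] g) = h1T B0 f D (Xl t) + coeff [t] U * B0.value f - B0.value f * coeff [t] U := by
  have h := coeff_one_conj (h := Base.psi hx f) (ξ := B0.value f)
    (G := NCSeries.map (jp : Kp →+* SL L σ) g) hU'U hU1 (Base.coeff_nil_psi hx f)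
    (by rw [coeff_map, hg0]; exact map_zero _) hconj t
  rw [coeff_map, Base.coeff_single_psi] at h
  exact h

include hg0 hU'U hU1 hconj in
lemma jp_pair (t t' : Y') :
    jp (coeff [t, t'] g) = h2T B0 f D (Xl t) (Xl t') + coeff [t] U * h1T B0 f D (Xl t') +
      coeff [t, t'] U * B0.value f - B0.value f * coeff [t, t'] U -
        jp (coeff [t] g) * coeff [t'] U := by
  have h := coeff_two_conj (h := Base.psi hx f) (ξ := B0.value f)
    (G := NCSeries.map (jp : Kp →+* SL L σ) g) hU'U hU1 (Base.coeff_nil_psi hx f)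
    (by rw [coeff_map, hg0]; exact map_zero _) hconj t t'
  rw [coeff_map, coeff_map, Base.coeff_single_psi, Base.coeff_pair_psi] at h
  exact h

/-- The combination of the letter directions. -/
noncomputable abbrev chi : (Y' → Lau F) →ₗ[Lau F] T := Fintype.linearCombination (Lau F) Xl

/-- The combination of the degree one coefficients of `U`. -/
noncomputable def Az (U : NCS (SL L σ) Y') (z : Y' → Lau F) : SL L σ :=
  ∑ t, z t • coeff [t] U

/-- The double combination of the degree two coefficients of `U`. -/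
noncomputable def Ez (U : NCS (SL L σ) Y') (z z' : Y' → Lau F) : SL L σ :=
  ∑ t, ∑ t', (z t * z' t') • coeff [t, t'] U

lemma h1T_chi (z : Y' → Lau F) :
    h1T B0 f D (chi Xl z) = ∑ t, z t • h1T B0 f D (Xl t) := by
  rw [chi, Fintype.linearCombination_apply, map_sum]
  exact Finset.sum_congr rfl fun t _ => map_smul _ _ _

lemma h2T_chi (z z' : Y' → Lau F) :
    h2T B0 f D (chi Xl z) (chi Xl z') =
      ∑ t, ∑ t', (z t * z' t') • h2T B0 f D (Xl t) (Xl t') := by
  rw [chi, Fintype.linearCombination_apply, Fintype.linearCombination_apply,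
    map_sum (h2T B0 f D), LinearMap.sum_apply]
  refine Finset.sum_congr rfl fun t _ => ?_
  rw [map_sum]
  refine Finset.sum_congr rfl fun t' _ => ?_
  rw [map_smul, LinearMap.map_smul₂, smul_smul, mul_comm]

include hg0 hU'U hU1 hconj in
lemma jp_hLin (z : Y' → Lau F) :
    jp (hLin (F := Lau F) g z) = h1T B0 f D (chi Xl z) + Az U z * B0.value f -
      B0.value f * Az U z := by
  rw [hLin_apply, map_sum, h1T_chi, Az, Finset.sum_mul, Finset.mul_sum,
    ← Finset.sum_add_distrib, ← Finset.sum_sub_distrib]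
  refine Finset.sum_congr rfl fun t _ => ?_
  rw [map_smul, jp_single B0 f D Xl hx jp hg0 hU'U hU1 hconj t, smul_sub, smul_add,
    smul_mul_assoc, mul_smul_comm]

include hg0 hU'U hU1 hconj in
lemma jp_S (z z' : Y' → Lau F) :
    jp (∑ t, ∑ t', (z t * z' t') • coeff [t, t'] g) =
      h2T B0 f D (chi Xl z) (chi Xl z') + Az U z * h1T B0 f D (chi Xl z') +
        Ez U z z' * B0.value f - B0.value f * Ez U z z' -
          jp (hLin (F := Lau F) g z) * Az U z' := by
  have e1 : Az U z * h1T B0 f D (chi Xl z') =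
      ∑ t, ∑ t', (z t * z' t') • (coeff [t] U * h1T B0 f D (Xl t')) := by
    rw [h1T_chi, Az, Finset.sum_mul]
    refine Finset.sum_congr rfl fun t _ => ?_
    rw [Finset.mul_sum]
    refine Finset.sum_congr rfl fun t' _ => ?_
    rw [smul_mul_assoc, mul_smul_comm, smul_smul]
  have e2 : Ez U z z' * B0.value f =
      ∑ t, ∑ t', (z t * z' t') • (coeff [t, t'] U * B0.value f) := by
    rw [Ez, Finset.sum_mul]
    refine Finset.sum_congr rfl fun t _ => ?_
    rw [Finset.sum_mul]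
    refine Finset.sum_congr rfl fun t' _ => ?_
    rw [smul_mul_assoc]
  have e3 : B0.value f * Ez U z z' =
      ∑ t, ∑ t', (z t * z' t') • (B0.value f * coeff [t, t'] U) := by
    rw [Ez, Finset.mul_sum]
    refine Finset.sum_congr rfl fun t _ => ?_
    rw [Finset.mul_sum]
    refine Finset.sum_congr rfl fun t' _ => ?_
    rw [mul_smul_comm]
  have e4 : jp (hLin (F := Lau F) g z) * Az U z' =
      ∑ t, ∑ t', (z t * z' t') • (jp (coeff [t] g) * coeff [t'] U) := by
    rw [hLin_apply, map_sum, Az, Finset.sum_mul]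
    refine Finset.sum_congr rfl fun t _ => ?_
    rw [Finset.mul_sum]
    refine Finset.sum_congr rfl fun t' _ => ?_
    rw [map_smul, smul_mul_assoc, mul_smul_comm, smul_smul]
  rw [e1, e2, e3, e4, h2T_chi, map_sum, ← Finset.sum_add_distrib, ← Finset.sum_add_distrib,
    ← Finset.sum_sub_distrib, ← Finset.sum_sub_distrib]
  refine Finset.sum_congr rfl fun t _ => ?_
  rw [map_sum, ← Finset.sum_add_distrib, ← Finset.sum_add_distrib,
    ← Finset.sum_sub_distrib, ← Finset.sum_sub_distrib]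
  refine Finset.sum_congr rfl fun t' _ => ?_
  rw [map_smul, jp_pair B0 f D Xl hx jp hg0 hU'U hU1 hconj t t']
  simp only [smul_sub, smul_add]

variable (hσF : ∀ c : F, σ (algebraMap F L c) = algebraMap F L c)
  (hσ : σ ^ m = 1) (hm : (m : L) ≠ 0) (hm0 : 0 < m)
  (Θ : L →ₗ[F] F) (hΘσ : ∀ x, Θ (σ x) = Θ x)
  (Tr : SL L σ →ₗ[Lau F] Lau F) (hTr : ∀ x q, (Tr x).coeff q = Θ (x.coeff ((m : ℤ) * q)))
  (hcyc : ∀ x y, Tr (x * y) = Tr (y * x))
  (hξ : (B0.value f).LB 1) (ha : (B0.value f).coeff 1 ≠ 0)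
  (hsplit : ∀ c : SL L σ, ∃ p A, B0.value f * p = p * B0.value f ∧
    c = p + (B0.value f * A - A * B0.value f))
  (hnd : ∀ p : SL L σ, B0.value f * p = p * B0.value f →
    (∀ β, B0.value f * β = β * B0.value f → Tr (β * p) = 0) → p = 0)
  (hjpξ : ∀ y, B0.value f * jp y = jp y * B0.value f)
  (proj : T →ₗ[Lau F] (Y' → Lau F))
  (hdecomp : ∀ X, ∃ c, X = chi Xl (proj X) + Inn c)
  {Βk : Kp} (hBrel : ∀ t, Tr (jp Βk * jp (coeff [t] g)) = 0)
  {s : L} (hB : (jp Βk).LB 0) (hB0 : (jp Βk).coeff 0 = s) (hs : σ s = s)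
  (ω : LinearMap.ker (hLin (F := Lau F) g) →ₗ[Lau F]
    LinearMap.ker (hLin (F := Lau F) g) →ₗ[Lau F] Lau F)
  (hωdef : ∀ z z' : LinearMap.ker (hLin (F := Lau F) g), ω z z' =
    Tr (jp Βk * jp (∑ t, ∑ t', ((z : Y' → Lau F) t * (z' : Y' → Lau F) t') • coeff [t, t'] g)))
  {Λ : Type*} [Fintype Λ] [LinearOrder Λ] (j : Λ → ℤ) (hj : StrictMono j)
  (hj1 : ∀ l, 0 < j l) (hjm : ∀ l, j l ≤ m)
  {DD DD' : Λ → Type*} [∀ l, AddCommGroup (DD l)] [∀ l, Module F (DD l)]
  [∀ l, FiniteDimensional F (DD l)] [∀ l, AddCommGroup (DD' l)] [∀ l, Module F (DD' l)]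
  [∀ l, FiniteDimensional F (DD' l)]
  (X : ∀ l, DD l → T) (X' : ∀ l, DD' l → T)
  (φ : ∀ l, DD l →ₗ[F] L) (φ' : ∀ l, DD' l →ₗ[F] L)
  (hX : ∀ l x, (h1T B0 f D (X l x)).LB (j l))
  (hXc : ∀ l x, (h1T B0 f D (X l x)).coeff (j l) = NN (B0.value f) (j l) * φ l x)
  (hX' : ∀ l x', (h1T B0 f D (X' l x')).LB (m + 1 - j l))
  (hX'c : ∀ l x', (h1T B0 f D (X' l x')).coeff (m + 1 - j l) =
    NN (B0.value f) (m + 1 - j l) * φ' l x')
  (hd : ∀ l l' x x', (h2T B0 f D (X l x) (X' l' x')).LB (j l + (m + 1 - j l')))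

include hInnD hιρ hg0 hU'U hU1 hconj hcyc hjpξ hdecomp hBrel in
/-- A relation pairs to zero with all directions. -/
theorem rel_all (X : T) : Tr (jp Βk * h1T B0 f D X) = 0 := by
  classical
  set ξ := B0.value f with hξdef
  have hcomm0 : ∀ β, ξ * β = β * ξ → ∀ y, Tr (β * (ξ * y - y * ξ)) = 0 := by
    intro β hβ y
    rw [mul_sub, map_sub, sub_eq_zero]
    have e1 : β * (y * ξ) = (β * y) * ξ := (mul_assoc _ _ _).symm
    have e2 : β * (ξ * y) = ξ * (β * y) := by rw [← mul_assoc, ← mul_assoc, hβ]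
    rw [e1, e2, hcyc]
  have hB' : ξ * jp Βk = jp Βk * ξ := hjpξ Βk
  have hchi : ∀ z : Y' → Lau F, h1T B0 f D (chi Xl z) =
      jp (hLin (F := Lau F) g z) + (ξ * Az U z - Az U z * ξ) := by
    intro z
    rw [jp_hLin B0 f D Xl hx jp hg0 hU'U hU1 hconj z]
    abel
  have hh1 : ∀ (z : Y' → Lau F) (c : C'), h1T B0 f D (chi Xl z + Inn c) =
      jp (hLin (F := Lau F) g z) + (ξ * Az U z - Az U z * ξ) + (ξ * ι c - ι c * ξ) := by
    intro z c
    rw [map_add, hchi, h1T_inn B0 f D ι Inn hInnD hιρ]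
  obtain ⟨c, hc⟩ := hdecomp X
  rw [hc, hh1, mul_add, mul_add, map_add, map_add, hcomm0 _ hB', hcomm0 _ hB', add_zero,
    add_zero, hLin_apply, map_sum, Finset.mul_sum, map_sum]
  refine Finset.sum_eq_zero fun t _ => ?_
  rw [map_smul, mul_smul_comm, map_smul, hBrel, smul_zero]

include hInnD hLD hRD hιρ hg0 hU'U hU1 hconj hσ hm hm0 hΘσ hTr hcyc hξ ha hsplit hnd hjpξ hdecomp
  hBrel hB hB0 hs hωdef hj hj1 hjm hX hXc hX' hX'c hd in
/-- **The rank of the relation form, from the blocks.** -/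
theorem rank_forms_core :
    ∑ l, finrank F (LinearMap.range
        (blockForm hσF m Θ (s * NN (B0.value f) m) (φ l) (φ' l) (j l - 1))) ≤
      finrank (Lau F) (LinearMap.range ω) +
        2 * finrank (Lau F) (LinearMap.range (hLin (F := Lau F) g)) := by
  classical
  set ξ := B0.value f with hξdef
  have hcomm0 : ∀ β, ξ * β = β * ξ → ∀ y, Tr (β * (ξ * y - y * ξ)) = 0 := by
    intro β hβ y
    rw [mul_sub, map_sub, sub_eq_zero]
    have e1 : β * (y * ξ) = (β * y) * ξ := (mul_assoc _ _ _).symm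
    have e2 : β * (ξ * y) = ξ * (β * y) := by rw [← mul_assoc, ← mul_assoc, hβ]
    rw [e1, e2, hcyc]
  have hB' : ξ * jp Βk = jp Βk * ξ := hjpξ Βk
  -- `h₁ (χ z)` in terms of `hLin`
  have hchi : ∀ z : Y' → Lau F, h1T B0 f D (chi Xl z) =
      jp (hLin (F := Lau F) g z) + (ξ * Az U z - Az U z * ξ) := by
    intro z
    rw [jp_hLin B0 f D Xl hx jp hg0 hU'U hU1 hconj z]
    abel
  have hh1 : ∀ (z : Y' → Lau F) (c : C'), h1T B0 f D (chi Xl z + Inn c) =
      jp (hLin (F := Lau F) g z) + (ξ * Az U z - Az U z * ξ) + (ξ * ι c - ι c * ξ) := by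
    intro z c
    rw [map_add, hchi, h1T_inn B0 f D ι Inn hInnD hιρ]
  have hrel : ∀ X, Tr (jp Βk * h1T B0 f D X) = 0 := fun X =>
    rel_all B0 f D ι Inn hInnD hιρ Xl hx jp hg0 hU'U hU1 hconj Tr hcyc hjpξ proj hdecomp hBrel X
  -- the linear map `π₁`
  let W' : Submodule (Lau F) Kp := LinearMap.range (hLin (F := Lau F) g)
  let bW := finBasis (Lau F) W'
  let π1 : T →ₗ[Lau F] (Fin (finrank (Lau F) W') → Lau F) :=
    bW.equivFun.toLinearMap ∘ₗ (hLin (F := Lau F) g).rangeRestrict ∘ₗ proj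
  have hπ1 : ∀ X, π1 X = 0 → hLin (F := Lau F) g (proj X) = 0 := by
    intro X hX0
    have h1 : (hLin (F := Lau F) g).rangeRestrict (proj X) = 0 :=
      bW.equivFun.injective (by rw [map_zero]; exact hX0)
    exact congrArg (fun y : W' => (y : Kp)) h1
  have hT2 : ∀ X, π1 X = 0 → ∀ β, ξ * β = β * ξ → Tr (β * h1T B0 f D X) = 0 := by
    intro X hX0 β hβ
    obtain ⟨c, hc⟩ := hdecomp X
    rw [hc, hh1, hπ1 X hX0, map_zero, zero_add, mul_add, map_add, hcomm0 _ hβ, hcomm0 _ hβ,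
      add_zero]
  let pr : LinearMap.ker π1 →ₗ[Lau F] LinearMap.ker (hLin (F := Lau F) g) :=
    LinearMap.codRestrict _ (proj.domRestrict (LinearMap.ker π1)) (fun X => hπ1 _ X.2)
  have hω : ∀ (Y1 Y2 : LinearMap.ker π1) (A : SL L σ), ξ * A - A * ξ = h1T B0 f D Y1 →
      ω (pr Y1) (pr Y2) = Tr (jp Βk * h2T B0 f D Y1 Y2) + Tr (jp Βk * A * h1T B0 f D Y2) := by
    intro Y1 Y2 A hA
    have hz : hLin (F := Lau F) g (proj (Y1 : T)) = 0 := hπ1 _ Y1.2
    have hz' : hLin (F := Lau F) g (proj (Y2 : T)) = 0 := hπ1 _ Y2.2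
    obtain ⟨c, hc⟩ := hdecomp (Y1 : T)
    obtain ⟨c', hc'⟩ := hdecomp (Y2 : T)
    have hinv := omega_invariant Tr hcyc hB' (h1T B0 f D) (h2T B0 f D) ι Inn mulL mulR
      (h1T_inn B0 f D ι Inn hInnD hιρ) (h2T_inn_left B0 f D ι Inn mulL hInnD hLD)
      (h2T_inn_right B0 f D ι Inn mulR hInnD hRD hιρ) hrel
      (chi Xl (proj (Y1 : T))) (chi Xl (proj (Y2 : T))) c c' (Az U (proj (Y1 : T))) A
      (by
        have := hchi (proj (Y1 : T))
        rw [hz, map_zero, zero_add] at this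
        exact this.symm)
      (by rw [← hc]; exact hA)
      (by
        rw [← hc']
        exact hT2 _ Y2.2)
    rw [← hc, ← hc'] at hinv
    rw [hinv, hωdef]
    have hS := jp_S B0 f D Xl hx jp hg0 hU'U hU1 hconj (proj (Y1 : T)) (proj (Y2 : T))
    rw [hz, map_zero, zero_mul, sub_zero] at hS
    change Tr (jp Βk * jp (∑ t, ∑ t', (proj (Y1 : T) t * proj (Y2 : T) t') • coeff [t, t'] g)) = _
    rw [hS]
    have e : h2T B0 f D (chi Xl (proj (Y1 : T))) (chi Xl (proj (Y2 : T))) +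
        Az U (proj (Y1 : T)) * h1T B0 f D (chi Xl (proj (Y2 : T))) +
          Ez U (proj (Y1 : T)) (proj (Y2 : T)) * ξ - ξ * Ez U (proj (Y1 : T)) (proj (Y2 : T)) =
        h2T B0 f D (chi Xl (proj (Y1 : T))) (chi Xl (proj (Y2 : T))) +
        Az U (proj (Y1 : T)) * h1T B0 f D (chi Xl (proj (Y2 : T))) -
          (ξ * Ez U (proj (Y1 : T)) (proj (Y2 : T)) -
            Ez U (proj (Y1 : T)) (proj (Y2 : T)) * ξ) := by abel
    rw [e, mul_sub, map_sub, hcomm0 _ hB', sub_zero, mul_add, map_add, mul_assoc]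
  have hmain := rank_of_blocks hσF hσ hm hm0 Θ hΘσ Tr hTr hcyc hξ ha hsplit hnd hB hB0 hs
    (h1T B0 f D) (h2T B0 f D) π1 hT2 pr ω hω j hj hj1 hjm X X' φ φ' hX hXc hX' hX'c hd
  simpa [W'] using hmain

end Core

end Crest.Agent.Lib.Kurosh.Forms
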