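import Crest.Agent.Lib.Kurosh.FormsField

/-!
# S0270, Section 5(d): the pairing `P` and its rank

`Θ` a nondegenerate `σ`-invariant linear form on the field `L` over `F0`.
-/

set_option autoImplicit false
set_option linter.unusedSectionVars false

namespace Crest.Agent.Lib.Kurosh.Forms

open Finset Module

variable {F0 L : Type*} [Field F0] [Field L] [Algebra F0 L] {σ : RingAut L} {m : ℕ}

section Linear

variable (hσF : ∀ c : F0, σ (algebraMap F0 L c) = algebraMap F0 L c)
include hσF

lemma pow_algebraMap (c : F0) (r : ℕ) : (σ ^ r) (algebraMap F0 L c) = algebraMap F0 L c := by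
  induction r with
  | zero => rfl
  | succ r ih => rw [pow_succ_apply', hσF, ih]

lemma pow_smul (c : F0) (x : L) (r : ℕ) : (σ ^ r) (c • x) = c • (σ ^ r) x := by
  rw [Algebra.smul_def, map_mul, pow_algebraMap hσF, Algebra.smul_def]

lemma apply_smul (c : F0) (x : L) : σ (c • x) = c • σ x := by
  rw [Algebra.smul_def, map_mul, hσF, Algebra.smul_def]

lemma tr_smul (c : F0) (x : L) : tr σ m (c • x) = c • tr σ m x := by
  rw [Algebra.smul_def, tr_fixed_mul (hσF c), Algebra.smul_def]

lemma psum_add (u v : L) (i : ℕ) : psum σ (u + v) i = psum σ u i + psum σ v i := by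
  simp [psum, Finset.sum_add_distrib]

lemma psum_smul (c : F0) (u : L) (i : ℕ) : psum σ (c • u) i = c • psum σ u i := by
  simp only [psum, Finset.smul_sum]
  exact Finset.sum_congr rfl fun r _ => pow_smul hσF c u r

lemma ssum_add (u v : L) : ssum σ m (u + v) = ssum σ m u + ssum σ m v := by
  simp [ssum, psum_add hσF, Finset.sum_add_distrib]

lemma ssum_smul (c : F0) (u : L) : ssum σ m (c • u) = c • ssum σ m u := by
  simp only [ssum, Finset.smul_sum]
  exact Finset.sum_congr rfl fun r _ => psum_smul hσF c u r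

lemma dinv_add (u v : L) : dinv σ m (u + v) = dinv σ m u + dinv σ m v := by
  simp only [dinv, ssum_add hσF]; ring

lemma dinv_smul (c : F0) (u : L) : dinv σ m (c • u) = c • dinv σ m u := by
  rw [dinv, dinv, ssum_smul hσF]; simp only [Algebra.smul_def]; ring

lemma bz_add (u v : L) : bz σ m (u + v) = bz σ m u + bz σ m v := by
  simp only [bz, dinv_add hσF, tr_add]; ring

lemma bz_smul (c : F0) (u : L) : bz σ m (c • u) = c • bz σ m u := by
  rw [bz, bz, dinv_smul hσF, tr_smul hσF]; simp only [Algebra.smul_def]; ring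

lemma prU_add (u v : L) : prU σ m (u + v) = prU σ m u + prU σ m v := by
  simp only [prU, tr_add]; ring

lemma prU_smul (c : F0) (u : L) : prU σ m (c • u) = c • prU σ m u := by
  rw [prU, prU, tr_smul hσF]; simp only [Algebra.smul_def]; ring

/-- `bz` as a linear map. -/
noncomputable def bzL : L →ₗ[F0] L where
  toFun := bz σ m
  map_add' := bz_add hσF
  map_smul' := bz_smul hσF

/-- `prU` as a linear map. -/
noncomputable def prUL : L →ₗ[F0] L where
  toFun := prU σ m
  map_add' := prU_add hσF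
  map_smul' := prU_smul hσF

/-- The trace as a linear map. -/
noncomputable def trL : L →ₗ[F0] L where
  toFun := tr σ m
  map_add' := tr_add σ m
  map_smul' := tr_smul hσF

/-- `σ^z` as a linear map. -/
noncomputable def zpowL (z : ℤ) : L →ₗ[F0] L where
  toFun := fun x => (σ ^ z : RingAut L) x
  map_add' := fun x y => map_add (σ ^ z : RingAut L) x y
  map_smul' := by
    intro c x
    have h : ∀ z : ℤ, (σ ^ z) (algebraMap F0 L c) = algebraMap F0 L c := by
      intro z
      have hinv : σ⁻¹ (algebraMap F0 L c) = algebraMap F0 L c := by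
        have h : σ⁻¹ (σ (algebraMap F0 L c)) = algebraMap F0 L c := by
          rw [← RingAut.mul_apply, inv_mul_cancel]; rfl
        rwa [hσF] at h
      induction z using Int.induction_on with
      | zero => simp
      | succ i ih => rw [zpow_add_one, RingAut.mul_apply, hσF, ih]
      | pred i ih => rw [zpow_sub_one, RingAut.mul_apply, hinv, ih]
    simp only [RingHom.id_apply, Algebra.smul_def]
    rw [map_mul, h]

end Linear

section Rank

/-- A general rank bound: `Q` nondegenerate bilinear on `L`, `A, B` subspaces. -/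
theorem rank_pair_bound {V : Type*} [AddCommGroup V] [Module F0 V] [FiniteDimensional F0 V]
    (Ψ : V →ₗ[F0] Dual F0 V) (hΨ : Function.Injective Ψ) (A B : Submodule F0 V) :
    finrank F0 A + finrank F0 B ≤
      finrank F0 V + finrank F0 (LinearMap.range
        ((B.subtype.dualMap) ∘ₗ Ψ ∘ₗ A.subtype)) := by
  set g := (B.subtype.dualMap) ∘ₗ Ψ ∘ₗ A.subtype with hg
  have h1 := LinearMap.finrank_range_add_finrank_ker g
  -- the kernel of restriction
  set Ψ' := (B.subtype.dualMap) ∘ₗ Ψ with hΨ'
  have h2 := LinearMap.finrank_range_add_finrank_ker Ψ'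
  have hsurj : Function.Surjective Ψ' := by
    have hbij : Function.Bijective Ψ := by
      refine ⟨hΨ, ?_⟩
      have hdim : finrank F0 V = finrank F0 (Dual F0 V) := (Subspace.dual_finrank_eq).symm
      exact (LinearMap.injective_iff_surjective_of_finrank_eq_finrank hdim).1 hΨ
    intro f
    obtain ⟨f', hf'⟩ := LinearMap.exists_extend f
    obtain ⟨v, hv⟩ := hbij.2 f'
    refine ⟨v, ?_⟩
    simp only [hΨ', LinearMap.comp_apply, hv]
    ext x
    simpa using congrArg (fun ψ : B →ₗ[F0] F0 => ψ x) hf'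
  have h3 : finrank F0 (LinearMap.range Ψ') = finrank F0 B := by
    rw [LinearMap.range_eq_top.2 hsurj, finrank_top, Subspace.dual_finrank_eq]
  -- kernel of `g` embeds in kernel of `Ψ'`
  have h4 : finrank F0 (LinearMap.ker g) ≤ finrank F0 (LinearMap.ker Ψ') := by
    let j : LinearMap.ker g →ₗ[F0] LinearMap.ker Ψ' :=
      { toFun := fun x => ⟨(x.1 : V), LinearMap.mem_ker.2 (LinearMap.mem_ker.1 x.2)⟩
        map_add' := fun _ _ => rfl
        map_smul' := fun _ _ => rfl }
    refine LinearMap.finrank_le_finrank_of_injective (f := j) ?_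
    intro x y hxy
    apply Subtype.ext
    apply Subtype.ext
    exact congrArg (fun z : LinearMap.ker Ψ' => (z : V)) hxy
  omega

end Rank

section Main

variable [FiniteDimensional F0 L] (hσF : ∀ c : F0, σ (algebraMap F0 L c) = algebraMap F0 L c)
  (hσ : σ ^ m = 1) (hm : (m : L) ≠ 0)
  (Θ : L →ₗ[F0] F0) (hΘσ : ∀ x, Θ (σ x) = Θ x)

/-- The submodule of fixed elements. -/
def fixedS (hσF : ∀ c : F0, σ (algebraMap F0 L c) = algebraMap F0 L c) : Submodule F0 L where
  carrier := {x | σ x = x}
  add_mem' := by intro a b ha hb; simp only [Set.mem_ofPred_eq] at *; rw [map_add, ha, hb]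
  zero_mem' := by simp
  smul_mem' := by
    intro c x hx
    simp only [Set.mem_ofPred_eq] at *
    rw [apply_smul hσF, hx]

/-- The kernel of the trace. -/
noncomputable def traceKer (hσF : ∀ c : F0, σ (algebraMap F0 L c) = algebraMap F0 L c) (m : ℕ) :
    Submodule F0 L :=
  LinearMap.ker (trL (m := m) hσF)

include hσF hσ hm

lemma mem_traceKer_bz (η : L) : bz σ m η ∈ traceKer hσF m := by
  change tr σ m (bz σ m η) = 0
  exact tr_bz hσ hm η

lemma ker_bzL_le : LinearMap.ker (bzL (m := m) hσF) ≤ fixedS hσF := by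
  intro η hη
  have h0 : bz σ m η = 0 := hη
  have h1 := delta_bz hσ hm η
  rw [h0, map_zero, sub_zero] at h1
  -- prU η = 0, so η = tr η / m is fixed
  have h2 : η = (m : L)⁻¹ * tr σ m η := by
    unfold prU at h1
    exact (sub_eq_zero.mp h1.symm)
  change σ η = η
  rw [h2, map_mul, apply_tr hσ]
  simp

lemma ker_prUL_le : LinearMap.ker (prUL (m := m) hσF) ≤ fixedS hσF := by
  intro η hη
  have h1 : prU σ m η = 0 := hη
  have h2 : η = (m : L)⁻¹ * tr σ m η := by
    unfold prU at h1
    exact (sub_eq_zero.mp h1)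
  change σ η = η
  rw [h2, map_mul, apply_tr hσ]
  simp

lemma trL_eq_mul_of_fixed {x : L} (hx : x ∈ fixedS hσF) : tr σ m x = (m : L) * x :=
  tr_of_fixed hx

lemma fixed_inf_trace : fixedS hσF ⊓ traceKer hσF m = ⊥ := by
  rw [eq_bot_iff]
  rintro x ⟨h1, h2⟩
  have h3 : tr σ m x = 0 := h2
  rw [tr_of_fixed h1] at h3
  exact (mul_eq_zero.mp h3).resolve_left hm

omit hσ hm in
include hΘσ in
lemma Θ_pow (x : L) (r : ℕ) : Θ ((σ ^ r) x) = Θ x := by
  induction r with
  | zero => rfl
  | succ r ih => rw [pow_succ_apply'', hΘσ, ih]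

omit hσ hm in
include hΘσ in
lemma Θ_tr (x : L) : Θ (tr σ m x) = (m : F0) * Θ x := by
  unfold tr
  rw [map_sum]
  simp only [Θ_pow hσF Θ hΘσ, Finset.sum_const, Finset.card_range, nsmul_eq_mul]

include hΘσ in
lemma Θ_eq_zero_of_tr {x : L} (hx : tr σ m x = 0) : Θ x = 0 := by
  have h := Θ_tr hσF Θ hΘσ (m := m) x
  rw [hx, map_zero] at h
  have hm' : (m : F0) ≠ 0 := by
    intro h0
    apply hm
    have : algebraMap F0 L (m : F0) = (m : L) := map_natCast _ _
    rw [← this, h0, map_zero]
  exact (mul_eq_zero.mp h.symm).resolve_left hm'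

end Main

section Rank2

variable [FiniteDimensional F0 L] (hσF : ∀ c : F0, σ (algebraMap F0 L c) = algebraMap F0 L c)
  (hσ : σ ^ m = 1) (hm : (m : L) ≠ 0)
  (Θ : L →ₗ[F0] F0) (hΘσ : ∀ x, Θ (σ x) = Θ x)
  (hΘ : ∀ x : L, x ≠ 0 → ∃ y, Θ (x * y) ≠ 0)
  {κ : L} (hκ : κ ≠ 0) (hκσ : σ κ = κ)

/-- The bilinear form `(u, v) ↦ Θ(κ u v)`, as a map to the dual. -/
noncomputable def psiQ (Θ : L →ₗ[F0] F0) (κ : L) : L →ₗ[F0] Dual F0 L where
  toFun u :=
    { toFun := fun v => Θ (κ * u * v)
      map_add' := by intro a b; rw [mul_add, map_add]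
      map_smul' := by
        intro c a
        rw [Algebra.smul_def, ← mul_assoc, mul_comm _ (algebraMap F0 L c), mul_assoc,
          ← Algebra.smul_def, map_smul]; rfl }
  map_add' := by
    intro a b; ext v
    simp only [LinearMap.coe_mk, AddHom.coe_mk, LinearMap.add_apply]
    rw [mul_add, add_mul, map_add]
  map_smul' := by
    intro c a; ext v
    simp only [LinearMap.coe_mk, AddHom.coe_mk, LinearMap.smul_apply, RingHom.id_apply]
    rw [Algebra.smul_def, ← mul_assoc, mul_comm κ, mul_assoc, mul_assoc, ← Algebra.smul_def,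
      map_smul, mul_assoc]

include hΘ hκ in
lemma psiQ_injective : Function.Injective (psiQ Θ κ) := by
  rw [injective_iff_map_eq_zero]
  intro u hu
  by_contra hne
  obtain ⟨y, hy⟩ := hΘ (κ * u) (mul_ne_zero hκ hne)
  exact hy (by simpa [psiQ] using congrArg (fun f : Dual F0 L => f y) hu)

include hσF hσ hm hΘσ hΘ hκ hκσ in
/-- **Field level rank bound.** With `A, B ⊆ ker tr`:
`dim A + dim B + dim Fix ≤ dim L + rank`. -/
theorem rank_pair_field (A B : Submodule F0 L) (hA : A ≤ traceKer hσF m) (hB : B ≤ traceKer hσF m) :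
    finrank F0 A + finrank F0 B + finrank F0 (fixedS hσF) ≤
      finrank F0 L + finrank F0 (LinearMap.range
        ((B.subtype.dualMap) ∘ₗ (psiQ Θ κ) ∘ₗ A.subtype)) := by
  classical
  set g := (B.subtype.dualMap) ∘ₗ (psiQ Θ κ) ∘ₗ A.subtype with hg
  set Ψ' := (B.subtype.dualMap) ∘ₗ (psiQ Θ κ) with hΨ'
  have h1 := LinearMap.finrank_range_add_finrank_ker g
  have h2 := LinearMap.finrank_range_add_finrank_ker Ψ'
  have hbij : Function.Bijective (psiQ Θ κ) := by
    refine ⟨psiQ_injective Θ hΘ hκ, ?_⟩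
    have hdim : finrank F0 L = finrank F0 (Dual F0 L) := (Subspace.dual_finrank_eq).symm
    exact (LinearMap.injective_iff_surjective_of_finrank_eq_finrank hdim).1
      (psiQ_injective Θ hΘ hκ)
  have hsurj : Function.Surjective Ψ' := by
    intro f
    obtain ⟨f', hf'⟩ := LinearMap.exists_extend f
    obtain ⟨v, hv⟩ := hbij.2 f'
    refine ⟨v, ?_⟩
    simp only [hΨ', LinearMap.comp_apply, hv]
    ext x
    simpa using congrArg (fun ψ : B →ₗ[F0] F0 => ψ x) hf'
  have h3 : finrank F0 (LinearMap.range Ψ') = finrank F0 B := by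
    rw [LinearMap.range_eq_top.2 hsurj, finrank_top, Subspace.dual_finrank_eq]
  -- fixed elements are in the kernel of `Ψ'`
  have hfixker : fixedS hσF ≤ LinearMap.ker Ψ' := by
    intro f hf
    rw [LinearMap.mem_ker]
    ext ⟨v, hv⟩
    simp only [hΨ', LinearMap.comp_apply, LinearMap.dualMap_apply, Submodule.subtype_apply,
      LinearMap.zero_apply]
    change Θ (κ * f * v) = 0
    apply Θ_eq_zero_of_tr hσF hσ hm Θ hΘσ
    have hfix : σ (κ * f) = κ * f := by rw [map_mul, hκσ, show σ f = f from hf]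
    rw [tr_fixed_mul hfix]
    have : tr σ m v = 0 := hB hv
    rw [this, mul_zero]
  -- the kernel of `g` sits in `traceKer ⊓ ker Ψ'`
  have h4 : finrank F0 (LinearMap.ker g) + finrank F0 (fixedS hσF) ≤
      finrank F0 (LinearMap.ker Ψ') := by
    let K1 : Submodule F0 L := (LinearMap.ker g).map A.subtype
    have hK1 : finrank F0 K1 = finrank F0 (LinearMap.ker g) :=
      LinearEquiv.finrank_eq (Submodule.equivMapOfInjective _ A.injective_subtype _).symm
    have hK1le : K1 ≤ LinearMap.ker Ψ' := by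
      rintro _ ⟨x, hx, rfl⟩
      exact LinearMap.mem_ker.2 (LinearMap.mem_ker.1 hx)
    have hK1tr : K1 ≤ traceKer hσF m := by
      rintro _ ⟨x, _, rfl⟩
      exact hA x.2
    have hdisj : K1 ⊓ fixedS hσF = ⊥ := by
      rw [eq_bot_iff]
      rintro x ⟨hx1, hx2⟩
      have := fixed_inf_trace hσF hσ hm
      rw [eq_bot_iff] at this
      exact this ⟨hx2, hK1tr hx1⟩
    have h5 := Submodule.finrank_sup_add_finrank_inf_eq K1 (fixedS hσF)
    rw [hdisj, finrank_bot, add_zero] at h5
    have h6 : finrank F0 ↥(K1 ⊔ fixedS hσF) ≤ finrank F0 (LinearMap.ker Ψ') :=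
      Submodule.finrank_mono (sup_le hK1le hfixker)
    omega
  omega

end Rank2

end Crest.Agent.Lib.Kurosh.Forms
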