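import Crest.Agent.Lib.Kurosh.SkewLaurent

/-!
# Skew Laurent series: the central Laurent subfield, centre and dimension

For a field `F` we write `Lau F = SL F 1`, the ordinary Laurent series field.
If `φ : F → S` is central with `σ`-fixed image and `σ ^ m = 1`, then `stretch` embeds
`Lau F` in `SL S σ` via `ϖ ↦ ϖ^m`.
-/

set_option autoImplicit false

namespace Crest.Agent.Lib.Kurosh

open Finset

namespace SL

section Laurent

variable {F : Type*} [Field F]

/-- Ordinary Laurent series. -/
abbrev Lau (F : Type*) [Field F] := SL F (1 : RingAut F)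

lemma one_zpow_apply (i : ℤ) (x : F) : ((1 : RingAut F) ^ i) x = x := by
  rw [one_zpow]; rfl

protected lemma lau_mul_comm (f g : Lau F) : f * g = g * f := by
  obtain ⟨a, ha⟩ := f.exists_LB
  obtain ⟨b, hb⟩ := g.exists_LB
  apply SL.ext
  funext n
  rw [coeff_mul ha hb, coeff_mul hb ha]
  refine Finset.sum_nbij' (fun i => n - i) (fun i => n - i) ?_ ?_ ?_ ?_ ?_
  · intro i hi
    simp only [Finset.mem_Icc] at hi ⊢
    omega
  · intro i hi
    simp only [Finset.mem_Icc] at hi ⊢
    omega
  · intro i _
    ring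
  · intro i _
    ring
  · intro i _
    rw [one_zpow_apply, one_zpow_apply, sub_sub_cancel, mul_comm]

noncomputable instance instFieldLau : Field (Lau F) :=
  { (instDivisionRing : DivisionRing (SL F (1 : RingAut F))) with
    mul_comm := SL.lau_mul_comm }

end Laurent

section Stretch

variable {F : Type*} [Field F] {S : Type*} [Ring S] {σ : RingAut S}

/-- Hypotheses for the stretch: `φ` central with `σ`-fixed image, `σ^m=1`. -/
structure StretchData (φ : F →+* S) (σ : RingAut S) (m : ℕ) : Prop where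
  pos : 0 < m
  pow : σ ^ m = 1
  fixed : ∀ c, σ (φ c) = φ c
  central : ∀ c x, φ c * x = x * φ c

variable {φ : F →+* S} {m : ℕ}

lemma StretchData.zpow_fixed (h : StretchData φ σ m) (i : ℤ) (c : F) : (σ ^ i) (φ c) = φ c := by
  have h' : ∀ c, σ⁻¹ (φ c) = φ c := by
    intro c
    have e : σ⁻¹ (σ (φ c)) = φ c := by
      show (σ⁻¹ * σ) _ = _
      rw [inv_mul_cancel]; rfl
    rw [h.fixed] at e
    exact e
  induction i using Int.induction_on with
  | zero => simp
  | succ k ih => rw [zpow_add_one, RingAut.mul_apply, h.fixed, ih]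
  | pred k ih => rw [zpow_sub_one, RingAut.mul_apply, h', ih]

lemma StretchData.zpow_mul_eq_one (h : StretchData φ σ m) (k : ℤ) : σ ^ ((m : ℤ) * k) = 1 := by
  rw [zpow_mul, zpow_natCast, h.pow, one_zpow]

lemma StretchData.zpow_of_dvd (h : StretchData φ σ m) {i : ℤ} (hi : (m : ℤ) ∣ i) (x : S) :
    (σ ^ i) x = x := by
  obtain ⟨k, rfl⟩ := hi
  rw [h.zpow_mul_eq_one]; rfl

open Classical in
/-- Coefficient function of the stretch. -/
noncomputable def stretchCoeff (φ : F →+* S) (m : ℕ) (f : Lau F) (n : ℤ) : S :=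
  if (m : ℤ) ∣ n then φ (f.coeff (n / m)) else 0

variable (φ) in
/-- The stretch, as a function. -/
noncomputable def stretchFun (hm : 0 < m) (f : Lau F) : SL S σ :=
  ⟨stretchCoeff φ m f, by
    obtain ⟨a, ha⟩ := f.exists_LB
    refine ⟨a * m, fun i hi => ?_⟩
    unfold stretchCoeff
    split_ifs with h
    · obtain ⟨k, rfl⟩ := h
      have hm' : (0 : ℤ) < m := by exact_mod_cast hm
      have : k < a := by nlinarith only [hi, hm']
      rw [Int.mul_ediv_cancel_left _ hm'.ne', ha k this, map_zero]
    · rfl⟩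

lemma coeff_stretchFun_mul (hm : 0 < m) (f : Lau F) (k : ℤ) :
    (stretchFun φ hm f : SL S σ).coeff ((m : ℤ) * k) = φ (f.coeff k) := by
  have hm' : (m : ℤ) ≠ 0 := by exact_mod_cast hm.ne'
  show stretchCoeff φ m f _ = _
  unfold stretchCoeff
  rw [if_pos (dvd_mul_right _ _), Int.mul_ediv_cancel_left _ hm']

lemma coeff_stretchFun_of_not_dvd (hm : 0 < m) (f : Lau F) {n : ℤ} (hn : ¬ (m : ℤ) ∣ n) :
    (stretchFun φ hm f : SL S σ).coeff n = 0 := by
  show stretchCoeff φ m f _ = _
  unfold stretchCoeff
  rw [if_neg hn]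

lemma LB.stretchFun (hm : 0 < m) {f : Lau F} {a : ℤ} (ha : f.LB a) :
    (SL.stretchFun φ hm f : SL S σ).LB (m * a) := by
  intro i hi
  by_cases h : (m : ℤ) ∣ i
  · obtain ⟨k, rfl⟩ := h
    have hm' : (0 : ℤ) < m := by exact_mod_cast hm
    have : k < a := by nlinarith only [hi, hm']
    rw [coeff_stretchFun_mul, ha k this, map_zero]
  · exact coeff_stretchFun_of_not_dvd hm f h

/-- The stretch ring homomorphism `Lau F → SL S σ`. -/
noncomputable def stretch (h : StretchData φ σ m) : Lau F →+* SL S σ where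
  toFun := stretchFun φ h.pos
  map_one' := by
    apply SL.ext; funext n
    have hm' : (m : ℤ) ≠ 0 := by exact_mod_cast h.pos.ne'
    by_cases hn : (m : ℤ) ∣ n
    · obtain ⟨k, rfl⟩ := hn
      rw [coeff_stretchFun_mul, coeff_one, coeff_one]
      by_cases hk : k = 0
      · simp [hk]
      · rw [if_neg hk, if_neg (mul_ne_zero hm' hk), map_zero]
    · rw [coeff_stretchFun_of_not_dvd h.pos _ hn, coeff_one, if_neg]
      rintro rfl
      exact hn (dvd_zero _)
  map_mul' f g := by
    obtain ⟨a, ha⟩ := f.exists_LB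
    obtain ⟨b, hb⟩ := g.exists_LB
    have hm' : (0 : ℤ) < m := by exact_mod_cast h.pos
    apply SL.ext; funext n
    rw [coeff_mul (ha.stretchFun h.pos) (hb.stretchFun h.pos)]
    have e1 : ∀ i, (stretchFun φ h.pos f : SL S σ).coeff i *
        (σ ^ i) ((stretchFun φ h.pos g : SL S σ).coeff (n - i)) =
        (stretchFun φ h.pos f : SL S σ).coeff i *
          (stretchFun φ h.pos g : SL S σ).coeff (n - i) := by
      intro i
      by_cases hi : (m : ℤ) ∣ i
      · rw [h.zpow_of_dvd hi]
      · rw [coeff_stretchFun_of_not_dvd h.pos f hi, zero_mul, zero_mul]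
    simp only [e1]
    by_cases hn : (m : ℤ) ∣ n
    · obtain ⟨k, rfl⟩ := hn
      rw [coeff_stretchFun_mul, coeff_mul ha hb, map_sum]
      symm
      have hinj : Set.InjOn (fun i : ℤ => (m : ℤ) * i) (Finset.Icc a (k - b) : Set ℤ) := by
        intro x _ y _ hxy
        exact mul_left_cancel₀ hm'.ne' hxy
      have hsub : (Finset.Icc a (k - b)).image (fun i : ℤ => (m : ℤ) * i) ⊆
          Finset.Icc ((m : ℤ) * a) ((m : ℤ) * k - (m : ℤ) * b) := by
        intro x hx
        simp only [Finset.mem_image, Finset.mem_Icc] at hx ⊢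
        obtain ⟨i, ⟨h1, h2⟩, rfl⟩ := hx
        constructor <;> nlinarith only [h1, h2, hm']
      have key : ∑ x ∈ (Finset.Icc a (k - b)).image (fun i : ℤ => (m : ℤ) * i),
          (stretchFun φ h.pos f : SL S σ).coeff x *
            (stretchFun φ h.pos g : SL S σ).coeff ((m : ℤ) * k - x) =
          ∑ x ∈ Finset.Icc ((m : ℤ) * a) ((m : ℤ) * k - (m : ℤ) * b),
            (stretchFun φ h.pos f : SL S σ).coeff x *
              (stretchFun φ h.pos g : SL S σ).coeff ((m : ℤ) * k - x) :=
        Finset.sum_subset hsub (by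
        intro x hx hnot
        by_cases hx' : (m : ℤ) ∣ x
        · obtain ⟨i, rfl⟩ := hx'
          exfalso
          apply hnot
          simp only [Finset.mem_image, Finset.mem_Icc] at hx ⊢
          refine ⟨i, ⟨?_, ?_⟩, rfl⟩
          · nlinarith only [hx.1, hm']
          · nlinarith only [hx.2, hm']
        · show (stretchFun φ h.pos f : SL S σ).coeff x * _ = 0
          rw [coeff_stretchFun_of_not_dvd h.pos f hx', zero_mul])
      rw [← key, Finset.sum_image hinj]
      refine Finset.sum_congr rfl fun i _ => ?_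
      have : (m : ℤ) * k - (m : ℤ) * i = (m : ℤ) * (k - i) := by ring
      rw [this, coeff_stretchFun_mul, coeff_stretchFun_mul, map_mul, one_zpow_apply]
    · rw [coeff_stretchFun_of_not_dvd h.pos _ hn]
      symm
      refine Finset.sum_eq_zero fun i _ => ?_
      by_cases hi : (m : ℤ) ∣ i
      · have : ¬ (m : ℤ) ∣ n - i := by
          intro h2
          exact hn ((Int.dvd_iff_dvd_of_dvd_sub h2).mpr hi)
        rw [coeff_stretchFun_of_not_dvd h.pos g this, mul_zero]
      · rw [coeff_stretchFun_of_not_dvd h.pos f hi, zero_mul]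
  map_zero' := by
    apply SL.ext; funext n
    by_cases hn : (m : ℤ) ∣ n
    · obtain ⟨k, rfl⟩ := hn
      rw [coeff_stretchFun_mul, coeff_zero, coeff_zero, map_zero]
    · rw [coeff_stretchFun_of_not_dvd h.pos _ hn, coeff_zero]
  map_add' f g := by
    apply SL.ext; funext n
    by_cases hn : (m : ℤ) ∣ n
    · obtain ⟨k, rfl⟩ := hn
      rw [coeff_add, coeff_stretchFun_mul, coeff_stretchFun_mul, coeff_stretchFun_mul,
        coeff_add, map_add]
    · rw [coeff_add, coeff_stretchFun_of_not_dvd h.pos _ hn, coeff_stretchFun_of_not_dvd h.pos _ hn,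
        coeff_stretchFun_of_not_dvd h.pos _ hn, add_zero]

lemma coeff_stretch_mul (h : StretchData φ σ m) (f : Lau F) (k : ℤ) :
    (stretch h f).coeff ((m : ℤ) * k) = φ (f.coeff k) := coeff_stretchFun_mul h.pos f k

lemma coeff_stretch_of_not_dvd (h : StretchData φ σ m) (f : Lau F) {n : ℤ}
    (hn : ¬ (m : ℤ) ∣ n) : (stretch h f).coeff n = 0 := coeff_stretchFun_of_not_dvd h.pos f hn

lemma lB_stretch (h : StretchData φ σ m) {f : Lau F} {a : ℤ} (ha : f.LB a) :
    (stretch h f).LB (m * a) := ha.stretchFun h.pos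

lemma stretch_coeff_fixed (h : StretchData φ σ m) (f : Lau F) (i j : ℤ) :
    (σ ^ i) ((stretch h f).coeff j) = (stretch h f).coeff j := by
  by_cases hj : (m : ℤ) ∣ j
  · obtain ⟨k, rfl⟩ := hj
    rw [coeff_stretch_mul, h.zpow_fixed]
  · rw [coeff_stretch_of_not_dvd h f hj, map_zero]

lemma stretch_coeff_central (h : StretchData φ σ m) (f : Lau F) (j : ℤ) (x : S) :
    (stretch h f).coeff j * x = x * (stretch h f).coeff j := by
  by_cases hj : (m : ℤ) ∣ j
  · obtain ⟨k, rfl⟩ := hj
    rw [coeff_stretch_mul, h.central]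
  · rw [coeff_stretch_of_not_dvd h f hj, zero_mul, mul_zero]

/-- The image of the stretch is central. -/
lemma stretch_comm (h : StretchData φ σ m) (f : Lau F) (g : SL S σ) :
    stretch h f * g = g * stretch h f := by
  obtain ⟨a, ha⟩ := f.exists_LB
  obtain ⟨b, hb⟩ := g.exists_LB
  have ha' := lB_stretch h ha
  apply SL.ext; funext n
  rw [coeff_mul ha' hb, coeff_mul hb ha']
  refine Finset.sum_nbij' (fun i => n - i) (fun i => n - i) ?_ ?_ ?_ ?_ ?_
  · intro i hi
    simp only [Finset.mem_Icc] at hi ⊢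
    omega
  · intro i hi
    simp only [Finset.mem_Icc] at hi ⊢
    omega
  · intro i _
    ring
  · intro i _
    ring
  · intro i _
    rw [sub_sub_cancel, stretch_coeff_fixed, stretch_coeff_central]
    by_cases hi : (m : ℤ) ∣ i
    · rw [h.zpow_of_dvd hi]
    · rw [coeff_stretch_of_not_dvd h f hi, mul_zero, mul_zero]

/-- The Laurent field acts: the algebra structure determined by a stretch. -/
@[reducible] noncomputable def stretchAlgebra (h : StretchData φ σ m) : Algebra (Lau F) (SL S σ) :=
  (stretch h).toAlgebra' (fun f g => stretch_comm h f g)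

end Stretch

/-! ### The centre -/

section Center

variable {S : Type*} [Ring S] {σ : RingAut S}

/-- Coefficientwise description of centrality. -/
lemma central_coeff {f : SL S σ} (hf : ∀ g, f * g = g * f) (a : S) (i : ℤ) :
    f.coeff i * (σ ^ i) a = a * f.coeff i := by
  have h := hf (C a)
  have h' := congrArg (fun g => SL.coeff g i) h
  simp only [coeff_mul_C, coeff_C_mul] at h'
  exact h'

lemma central_fixed {f : SL S σ} (hf : ∀ g, f * g = g * f) (i : ℤ) :
    σ (f.coeff i) = f.coeff i := by
  have h := hf (ϖz 1)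
  have h' := congrArg (fun g => SL.coeff g (i + 1)) h
  simp only [coeff_mul_ϖz, coeff_ϖz_mul, add_sub_cancel_right, zpow_one] at h'
  exact h'.symm

end Center

section CenterField

variable {F : Type*} [Field F] {S : Type*} [DivisionRing S] {σ : RingAut S}
variable {φ : F →+* S} {m : ℕ}

/-- The centre of `SL S σ` is the image of the stretch, assuming `σ` acts with exact period `m`
on the centre of `S` and `φ` has image the `σ`-fixed part of the centre. -/
theorem central_iff_range (h : StretchData φ σ m)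
    (hsep : ∀ i : ℤ, ¬ (m : ℤ) ∣ i → ∃ a : S, (∀ x, a * x = x * a) ∧ (σ ^ i) a ≠ a)
    (hfix : ∀ x : S, (∀ y, x * y = y * x) → σ x = x → x ∈ φ.range)
    (f : SL S σ) : (∀ g, f * g = g * f) ↔ f ∈ (stretch h).range := by
  constructor
  · intro hf
    have hm' : (m : ℤ) ≠ 0 := by exact_mod_cast h.pos.ne'
    -- coefficients vanish off `mℤ`
    have hv : ∀ i, ¬ (m : ℤ) ∣ i → f.coeff i = 0 := by
      intro i hi
      obtain ⟨a, ha, ha'⟩ := hsep i hi
      have := central_coeff hf a i
      rw [ha, ← sub_eq_zero, ← mul_sub] at this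
      by_contra hne
      exact ha' (sub_eq_zero.mp ((mul_eq_zero.mp (by
        rw [← sub_eq_zero] at *; simpa using this)).resolve_left hne))
    have hc : ∀ k : ℤ, f.coeff ((m : ℤ) * k) ∈ φ.range := by
      intro k
      refine hfix _ (fun y => ?_) (central_fixed hf _)
      have := central_coeff hf y ((m : ℤ) * k)
      rw [h.zpow_of_dvd (dvd_mul_right _ _)] at this
      exact this
    choose c hc' using hc
    have hinj : Function.Injective φ := φ.injective
    obtain ⟨a, ha⟩ := f.exists_LB
    have hm0 : (0 : ℤ) < m := by exact_mod_cast h.pos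
    refine ⟨⟨c, a / m, fun k hk => ?_⟩, ?_⟩
    · apply hinj
      rw [hc', map_zero]
      have h1 := (Int.le_ediv_iff_mul_le hm0).mp (show k + 1 ≤ a / m from hk)
      exact ha _ (by nlinarith only [h1, hm0])
    · apply SL.ext; funext n
      by_cases hn : (m : ℤ) ∣ n
      · obtain ⟨k, rfl⟩ := hn
        rw [coeff_stretch_mul, hc']
      · rw [coeff_stretch_of_not_dvd h _ hn, hv n hn]
  · rintro ⟨g, rfl⟩ k
    exact stretch_comm h g k

end CenterField

/-! ### Finite dimensionality over the Laurent field -/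

section Dim

variable {F : Type*} [Field F] {S : Type*} [Ring S] [Algebra F S] {σ : RingAut S} {m : ℕ}

/-- Coefficient at `n` as an additive homomorphism. -/
def coeffHom (n : ℤ) : SL S σ →+ S where
  toFun f := f.coeff n
  map_zero' := rfl
  map_add' _ _ := rfl

lemma coeff_sum {ι : Type*} (s : Finset ι) (f : ι → SL S σ) (n : ℤ) :
    (∑ i ∈ s, f i).coeff n = ∑ i ∈ s, (f i).coeff n :=
  map_sum (coeffHom (σ := σ) n) f s

variable [Module.Finite F S] (h : StretchData (algebraMap F S) σ m)

/-- The basis-indexed `Lau F`-linear map onto `SL S σ`. -/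
noncomputable def stretchMap : letI := stretchAlgebra h
    (Fin (Module.finrank F S) × Fin m → Lau F) →ₗ[Lau F] SL S σ :=
  letI := stretchAlgebra h
  { toFun := fun c => ∑ p, stretch h (c p) * C (Module.finBasis F S p.1) * ϖz (p.2 : ℤ)
    map_add' := fun c c' => by
      rw [← Finset.sum_add_distrib]
      refine Finset.sum_congr rfl fun p _ => ?_
      rw [Pi.add_apply, map_add, add_mul, add_mul]
    map_smul' := fun g c => by
      rw [RingHom.id_apply, Finset.smul_sum]
      refine Finset.sum_congr rfl fun p _ => ?_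
      show stretch h (g * c p) * _ * _ = stretch h g * _
      rw [map_mul, mul_assoc, mul_assoc, mul_assoc] }

lemma coeff_stretchMap_term (c : Lau F) (b : S) (k : ℕ) (hk : k < m) (q : ℤ) (k' : ℕ) (hk' : k' < m) :
    (stretch h c * C b * (ϖz (k : ℤ) : SL S σ)).coeff ((m : ℤ) * q + k') =
      if k = k' then c.coeff q • b else 0 := by
  rw [coeff_mul_ϖz, coeff_mul_C]
  have hm : (0 : ℤ) < m := by exact_mod_cast h.pos
  by_cases hkk : k = k'
  · subst hkk
    have e : (m : ℤ) * q + (k : ℤ) - k = (m : ℤ) * q := by ring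
    rw [if_pos rfl, e, coeff_stretch_mul, h.zpow_of_dvd (dvd_mul_right _ _), Algebra.smul_def]
  · rw [if_neg hkk, coeff_stretch_of_not_dvd h c, zero_mul]
    intro hd
    have h1 : (m : ℤ) ∣ (k' : ℤ) - k := by
      have : (k' : ℤ) - k = ((m : ℤ) * q + k' - k) - (m : ℤ) * q := by ring
      rw [this]
      exact dvd_sub hd (dvd_mul_right _ _)
    have h2 : (k' : ℤ) - k = 0 := by
      apply Int.eq_zero_of_abs_lt_dvd h1
      rw [abs_lt]
      constructor <;> omega
    omega

lemma coeff_stretchMap (c : Fin (Module.finrank F S) × Fin m → Lau F) (q : ℤ) (k' : Fin m) :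
    (stretchMap h c).coeff ((m : ℤ) * q + (k' : ℕ)) =
      ∑ j, (c (j, k')).coeff q • Module.finBasis F S j := by
  letI := stretchAlgebra h
  show (∑ p, stretch h (c p) * C (Module.finBasis F S p.1) * ϖz ((p.2 : ℕ) : ℤ)).coeff _ = _
  rw [coeff_sum, Fintype.sum_prod_type]
  refine Finset.sum_congr rfl fun j _ => ?_
  rw [Finset.sum_eq_single k']
  · rw [coeff_stretchMap_term h _ _ _ k'.2 _ _ k'.2, if_pos rfl]
  · intro k _ hk
    rw [coeff_stretchMap_term h _ _ _ k.2 _ _ k'.2, if_neg]
    intro e
    exact hk (Fin.ext e)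
  · intro hk
    exact absurd (Finset.mem_univ _) hk

/-- Every integer is `m q + k`. -/
lemma exists_div_form (hm : 0 < m) (n : ℤ) : ∃ (q : ℤ) (k : Fin m), n = (m : ℤ) * q + (k : ℕ) := by
  have hm' : (0 : ℤ) < m := by exact_mod_cast hm
  refine ⟨n / m, ⟨(n % m).toNat, ?_⟩, ?_⟩
  · have := Int.emod_lt_of_pos n hm'
    have h0 := Int.emod_nonneg n hm'.ne'
    omega
  · have h0 := Int.emod_nonneg n hm'.ne'
    simp only [Int.toNat_of_nonneg h0]
    exact (Int.mul_ediv_add_emod n m).symm

lemma stretchMap_injective : Function.Injective (stretchMap h) := by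
  letI := stretchAlgebra h
  rw [← LinearMap.ker_eq_bot, LinearMap.ker_eq_bot']
  intro c hc
  funext p
  apply SL.ext
  funext q
  have h1 := coeff_stretchMap h c q p.2
  rw [hc, coeff_zero] at h1
  have h2 := (Module.finBasis F S).linearIndependent
  have h3 := Fintype.linearIndependent_iff.mp h2 (fun j => (c (j, p.2)).coeff q) h1.symm p.1
  exact h3

lemma stretchMap_surjective : Function.Surjective (stretchMap h) := by
  intro f
  have hm0 : (0 : ℤ) < m := by exact_mod_cast h.pos
  obtain ⟨a, ha⟩ := f.exists_LB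
  let c : Fin (Module.finrank F S) × Fin m → Lau F := fun p =>
    ⟨fun q => (Module.finBasis F S).repr (f.coeff ((m : ℤ) * q + (p.2 : ℕ))) p.1, a / m, by
      intro q hq
      have h1 := (Int.le_ediv_iff_mul_le hm0).mp (show q + 1 ≤ a / m from hq)
      have h2 : ((p.2 : ℕ) : ℤ) < m := by exact_mod_cast p.2.2
      rw [ha _ (by nlinarith only [h1, h2])]
      simp⟩
  refine ⟨c, ?_⟩
  apply SL.ext
  funext n
  obtain ⟨q, k, rfl⟩ := exists_div_form h.pos n
  rw [coeff_stretchMap]
  exact (Module.finBasis F S).sum_repr (f.coeff ((m : ℤ) * q + (k : ℕ)))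

/-- The coordinate isomorphism. -/
noncomputable def stretchEquiv : letI := stretchAlgebra h
    (Fin (Module.finrank F S) × Fin m → Lau F) ≃ₗ[Lau F] SL S σ :=
  letI := stretchAlgebra h
  LinearEquiv.ofBijective (stretchMap h) ⟨stretchMap_injective h, stretchMap_surjective h⟩

/-- `SL S σ` is finite over `Lau F`, of dimension `dim_F S * m`. -/
theorem finite_stretch : letI := stretchAlgebra h
    Module.Finite (Lau F) (SL S σ) := by
  letI := stretchAlgebra h
  exact Module.Finite.equiv (stretchEquiv h)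

theorem finrank_stretch : letI := stretchAlgebra h
    Module.finrank (Lau F) (SL S σ) = Module.finrank F S * m := by
  letI := stretchAlgebra h
  rw [← LinearEquiv.finrank_eq (stretchEquiv h), Module.finrank_fintype_fun_eq_card]
  simp

end Dim

end SL

end Crest.Agent.Lib.Kurosh
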