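import Crest.Agent.Lib.Kurosh.FormsLead
import Crest.Agent.Lib.Kurosh.FormsPair
import Crest.Agent.Lib.Kurosh.SkewLaurentHat

/-!
# S0270, Section 5(d): block entries, triangular rank over `Lau F0`
-/

set_option autoImplicit false
set_option linter.unusedSectionVars false

namespace Crest.Agent.Lib.Kurosh.Forms

open Finset Module SL

section TrZpow

variable {L : Type*} [Field L] {σ : RingAut L} {m : ℕ}

/-- The trace is invariant under integer shifts. -/
lemma tr_zpow (hσ : σ ^ m = 1) (z : ℤ) (y : L) : tr σ m ((σ ^ z : RingAut L) y) = tr σ m y := by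
  induction z using Int.induction_on generalizing y with
  | zero => simp
  | succ i ih =>
    rw [zpow_add_one, RingAut.mul_apply, ih, tr_apply hσ]
  | pred i ih =>
    rw [zpow_sub_one, RingAut.mul_apply, ih]
    have h1 : σ (σ⁻¹ y) = y := by rw [← RingAut.mul_apply, mul_inv_cancel]; rfl
    have h2 := tr_apply (m := m) hσ (σ⁻¹ y)
    rw [h1] at h2
    exact h2.symm

end TrZpow

section FieldRank

variable {F0 L : Type*} [Field F0] [Field L] [Algebra F0 L] {σ : RingAut L} {m : ℕ}
variable [FiniteDimensional F0 L] (hσF : ∀ c : F0, σ (algebraMap F0 L c) = algebraMap F0 L c)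
  (hσ : σ ^ m = 1) (hm : (m : L) ≠ 0)
  (Θ : L →ₗ[F0] F0) (hΘσ : ∀ x, Θ (σ x) = Θ x)
  (hΘ : ∀ x : L, x ≠ 0 → ∃ y, Θ (x * y) ≠ 0)
  {κ : L} (hκ : κ ≠ 0) (hκσ : σ κ = κ)
  {D D' : Type*} [AddCommGroup D] [Module F0 D] [AddCommGroup D'] [Module F0 D']
  (φ : D →ₗ[F0] L) (φ' : D' →ₗ[F0] L) (z : ℤ)

/-- The block form `Π(x, x') = Θ(κ · bz(φ x) · σ^z(prU(φ' x')))`. -/
noncomputable def blockForm (hσF : ∀ c : F0, σ (algebraMap F0 L c) = algebraMap F0 L c)
    (m : ℕ) (Θ : L →ₗ[F0] F0) (κ : L) (φ : D →ₗ[F0] L) (φ' : D' →ₗ[F0] L) (z : ℤ) :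
    D →ₗ[F0] D' →ₗ[F0] F0 :=
  (((zpowL (σ := σ) hσF z) ∘ₗ (prUL (m := m) hσF) ∘ₗ φ').dualMap) ∘ₗ (psiQ Θ κ) ∘ₗ
    (bzL (m := m) hσF) ∘ₗ φ

lemma blockForm_apply (x : D) (x' : D') :
    blockForm hσF m Θ κ φ φ' z x x' =
      Θ (κ * bz σ m (φ x) * (σ ^ z : RingAut L) (prU σ m (φ' x'))) := rfl

include hσ hm hΘσ hΘ hκ hκσ in
/-- **Rank bound of a block.** -/
theorem rank_block :
    finrank F0 (LinearMap.range φ) + finrank F0 (LinearMap.range φ') ≤
      finrank F0 L + finrank F0 (fixedS hσF) +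
        finrank F0 (LinearMap.range (blockForm hσF m Θ κ φ φ' z)) := by
  classical
  set A : Submodule F0 L := LinearMap.range ((bzL (m := m) hσF) ∘ₗ φ) with hAdef
  set b : D' →ₗ[F0] L := (zpowL (σ := σ) hσF z) ∘ₗ (prUL (m := m) hσF) ∘ₗ φ' with hbdef
  set B : Submodule F0 L := LinearMap.range b with hBdef
  have hA : A ≤ traceKer hσF m := by
    rintro _ ⟨x, rfl⟩
    exact mem_traceKer_bz hσF hσ hm _
  have hB : B ≤ traceKer hσF m := by
    rintro _ ⟨x, rfl⟩
    change tr σ m ((σ ^ z : RingAut L) (prU σ m (φ' x))) = 0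
    rw [tr_zpow hσ]
    exact tr_prU hσ hm _
  -- dimension of `A`
  have hdimA : finrank F0 (LinearMap.range φ) ≤ finrank F0 A + finrank F0 (fixedS hσF) := by
    have h1 : A = (LinearMap.range φ).map (bzL (m := m) hσF) := by
      rw [hAdef, LinearMap.range_comp]
    have h2 := LinearMap.finrank_range_add_finrank_ker
      ((bzL (m := m) hσF).domRestrict (LinearMap.range φ))
    have h3 : LinearMap.range ((bzL (m := m) hσF).domRestrict (LinearMap.range φ)) = A := by
      rw [h1, LinearMap.range_domRestrict]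
    have h4 : finrank F0 (LinearMap.ker ((bzL (m := m) hσF).domRestrict (LinearMap.range φ))) ≤
        finrank F0 (fixedS hσF) := by
      let j : LinearMap.ker ((bzL (m := m) hσF).domRestrict (LinearMap.range φ)) →ₗ[F0] fixedS hσF :=
        { toFun := fun x => ⟨((x.1 : LinearMap.range φ) : L), ker_bzL_le hσF hσ hm (by
            have := LinearMap.mem_ker.1 x.2
            exact LinearMap.mem_ker.2 this)⟩
          map_add' := fun _ _ => rfl
          map_smul' := fun _ _ => rfl }
      refine LinearMap.finrank_le_finrank_of_injective (f := j) ?_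
      intro x y hxy
      apply Subtype.ext
      apply Subtype.ext
      exact congrArg (fun z : fixedS hσF => (z : L)) hxy
    rw [h3] at h2
    omega
  have hdimB : finrank F0 (LinearMap.range φ') ≤ finrank F0 B + finrank F0 (fixedS hσF) := by
    have hz : Function.Injective (zpowL (σ := σ) hσF z) := (σ ^ z : RingAut L).injective
    have h1 : B = ((LinearMap.range φ').map (prUL (m := m) hσF)).map (zpowL (σ := σ) hσF z) := by
      rw [hBdef, hbdef, LinearMap.range_comp, LinearMap.range_comp]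
    have h0 : finrank F0 B = finrank F0 ((LinearMap.range φ').map (prUL (m := m) hσF)) := by
      rw [h1]
      exact LinearEquiv.finrank_eq (Submodule.equivMapOfInjective _ hz _).symm
    have h2 := LinearMap.finrank_range_add_finrank_ker
      ((prUL (m := m) hσF).domRestrict (LinearMap.range φ'))
    have h3 : LinearMap.range ((prUL (m := m) hσF).domRestrict (LinearMap.range φ')) =
        (LinearMap.range φ').map (prUL (m := m) hσF) := by
      rw [LinearMap.range_domRestrict]
    have h4 : finrank F0 (LinearMap.ker ((prUL (m := m) hσF).domRestrict (LinearMap.range φ'))) ≤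
        finrank F0 (fixedS hσF) := by
      let j : LinearMap.ker ((prUL (m := m) hσF).domRestrict (LinearMap.range φ')) →ₗ[F0]
          fixedS hσF :=
        { toFun := fun x => ⟨((x.1 : LinearMap.range φ') : L), ker_prUL_le hσF hσ hm (by
            have := LinearMap.mem_ker.1 x.2
            exact LinearMap.mem_ker.2 this)⟩
          map_add' := fun _ _ => rfl
          map_smul' := fun _ _ => rfl }
      refine LinearMap.finrank_le_finrank_of_injective (f := j) ?_
      intro x y hxy
      apply Subtype.ext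
      apply Subtype.ext
      exact congrArg (fun z : fixedS hσF => (z : L)) hxy
    rw [h3] at h2
    omega
  have hmain := rank_pair_field hσF hσ hm Θ hΘσ hΘ hκ hκσ A B hA hB
  -- compare the ranges
  set g := (B.subtype.dualMap) ∘ₗ (psiQ Θ κ) ∘ₗ A.subtype with hg
  have hcomp : finrank F0 (LinearMap.range g) ≤
      finrank F0 (LinearMap.range (blockForm hσF m Θ κ φ φ' z)) := by
    -- `b` surjects onto `B`, so the dual map is injective
    let bB : D' →ₗ[F0] B := b.rangeRestrict
    have hbB : Function.Surjective bB := LinearMap.surjective_rangeRestrict b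
    have hinj : Function.Injective bB.dualMap := LinearMap.dualMap_injective_of_surjective hbB
    let aA : D →ₗ[F0] A := ((bzL (m := m) hσF) ∘ₗ φ).rangeRestrict
    have haA : Function.Surjective aA := LinearMap.surjective_rangeRestrict _
    have hfac : blockForm hσF m Θ κ φ φ' z = bB.dualMap ∘ₗ g ∘ₗ aA := by
      ext x x'
      rfl
    have hr : LinearMap.range (g ∘ₗ aA) = LinearMap.range g :=
      LinearMap.range_comp_of_range_eq_top _ (LinearMap.range_eq_top.2 haA)
    have hr2 : LinearMap.range (bB.dualMap ∘ₗ (g ∘ₗ aA)) =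
        (LinearMap.range (g ∘ₗ aA)).map bB.dualMap :=
      LinearMap.range_comp (g ∘ₗ aA) bB.dualMap
    rw [hfac, hr2, hr]
    exact le_of_eq (LinearEquiv.finrank_eq (Submodule.equivMapOfInjective _ hinj _))
  omega

end FieldRank

section Entry

variable {L : Type*} [Field L] {σ : RingAut L} {m : ℕ} {ξ : SL L σ}
  (hξ : ξ.LB 1) (ha : ξ.coeff 1 ≠ 0)

include hξ ha in
/-- The leading coefficient of `B (d + A c')`. -/
theorem entry_lead {B c' d A : SL L σ} {j j' : ℤ} {η η' : L}
    (hB : B.LB 0) (hc' : c'.LB j') (hd : d.LB (j + j')) (hA : A.LB (j - 1))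
    (hAj : A.coeff (j - 1) = NN ξ (j - 1) * bz σ m η)
    (hc'j : c'.coeff j' = NN ξ j' * η') :
    (B * (d + A * c')).LB (j + j' - 1) ∧
    (B * (d + A * c')).coeff (j + j' - 1) =
      B.coeff 0 * NN ξ (j + j' - 1) * (bz σ m η * (σ ^ (j - 1)) η') := by
  have e1 : j - 1 + j' = j + j' - 1 := by ring
  have h1 : (A * c').LB (j + j' - 1) := by
    have := hA.mul hc'
    rwa [e1] at this
  have h3 : d.LB (j + j' - 1) := hd.mono (by omega)
  have hin : (d + A * c').LB (j + j' - 1) := h3.add h1
  have hLB : (B * (d + A * c')).LB (j + j' - 1) := by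
    have := hB.mul hin
    rwa [zero_add] at this
  refine ⟨hLB, ?_⟩
  have h4 : (B * (d + A * c')).coeff (0 + (j + j' - 1)) =
      B.coeff 0 * (σ ^ (0 : ℤ)) ((d + A * c').coeff (j + j' - 1)) :=
    coeff_mul_add hB hin
  rw [zero_add, zpow_zero] at h4
  have h5 : d.coeff (j + j' - 1) = 0 := hd _ (by omega)
  have h6 : (A * c').coeff (j + j' - 1) = A.coeff (j - 1) * (σ ^ (j - 1)) (c'.coeff j') := by
    rw [← e1]; exact coeff_mul_add hA hc'
  rw [h4]
  change B.coeff 0 * ((d + A * c').coeff (j + j' - 1)) = _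
  rw [coeff_add, h5, h6, hAj, hc'j, map_mul, zero_add]
  have h8 : NN ξ (j + j' - 1) = NN ξ (j - 1) * (σ ^ (j - 1)) (NN ξ j') := by
    rw [← e1, NN_add hξ ha]
  rw [h8]
  ring

include hξ ha in
/-- The norm `N_m` is `σ`-fixed when `σ^m = 1`. -/
lemma NN_fixed (hσ : σ ^ m = 1) : σ (NN ξ m) = NN ξ m := by
  have h1 := NN_succ_left hξ ha (m : ℤ)
  have h2 := NN_succ_right hξ ha (m : ℤ)
  have h3 : (σ ^ (m : ℤ)) (ξ.coeff 1) = ξ.coeff 1 := by
    rw [zpow_natCast, hσ]; rfl
  rw [h3] at h2
  have h4 : ξ.coeff 1 * (σ (NN ξ m) - NN ξ m) = 0 := by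
    rw [mul_sub, ← h1, h2]; ring
  rcases mul_eq_zero.1 h4 with h | h
  · exact (ha h).elim
  · exact sub_eq_zero.1 h

end Entry

end Crest.Agent.Lib.Kurosh.Forms
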