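import Crest.Agent.Lib.Kurosh.RatExt
import Crest.Agent.Lib.Kurosh.GrMeas

/-!
# Lemma Meas instantiated on `L0 ⊗ A`

`K0` is the fixed part of the centre of `L0 ⊗[Z] A`; its dimension over `Z0` is `[center A : Z]`.
-/

set_option autoImplicit false

namespace Crest.Agent.Lib.Kurosh.MeasInst

open Crest.Agent.Lib.Kurosh.RatExt Crest.Agent.Lib.Kurosh.GrMeas Crest.Agent.Lib.Kurosh.SL
open scoped TensorProduct

variable (Z : Type*) [Field Z] (Y : Type*) (m : ℕ)
variable (A : Type*) [Ring A] [Algebra Z A]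

/-- The `Z0`-form `K0` of the centre: fixed and central elements of `L0 ⊗ A`. -/
noncomputable def K0sub [NeZero m] : Subalgebra (Z0 Z Y m) (RL Z Y m A) where
  carrier := {r | sR Z Y m A r = r ∧ ∀ x, r * x = x * r}
  mul_mem' := by
    rintro a b ⟨ha, ha'⟩ ⟨hb, hb'⟩
    refine ⟨by rw [map_mul, ha, hb], fun x => ?_⟩
    rw [mul_assoc, hb', ← mul_assoc, ha', mul_assoc]
  add_mem' := by
    rintro a b ⟨ha, ha'⟩ ⟨hb, hb'⟩
    refine ⟨by rw [map_add, ha, hb], fun x => ?_⟩
    rw [add_mul, mul_add, ha', hb']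
  algebraMap_mem' := by
    intro c
    refine ⟨?_, fun x => Algebra.commutes c x⟩
    have e : algebraMap (Z0 Z Y m) (RL Z Y m A) c = iotaL Z Y m A (c : L0 Z Y m) := by
      rw [iotaL_eq_algebraMap]
      rfl
    rw [e, sR_iotaL, (mem_Z0 Z Y m).1 c.2]

lemma mem_K0sub [NeZero m] {r : RL Z Y m A} :
    r ∈ K0sub Z Y m A ↔ sR Z Y m A r = r ∧ ∀ x, r * x = x * r := Iff.rfl

section Finrank

variable [NeZero m]
variable [Module.Finite Z A]

/-- Central elements of `L0 ⊗ A` come from `L0 ⊗ center A`. -/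
lemma exists_mapRL_center {r : RL Z Y m A} (hr : ∀ x, r * x = x * r) :
    ∃ w : RL Z Y m (Subalgebra.center Z A), mapRL Z Y m (Subalgebra.center Z A).val w = r := by
  have h1 : r ∈ Subalgebra.centralizer Z
      ((Algebra.TensorProduct.includeRight : A →ₐ[Z] (L0 Z Y m) ⊗[Z] A).range : Set (RL Z Y m A)) := by
    rw [Subalgebra.mem_centralizer_iff]
    intro g _
    exact (hr g).symm
  rw [Subalgebra.centralizer_range_includeRight_eq_center_tensorProduct] at h1
  exact h1

/-- The coordinate map `Z0^e → K0`. -/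
noncomputable def Phi : (Fin (Module.finrank Z (Subalgebra.center Z A)) → Z0 Z Y m) →ₗ[Z0 Z Y m]
    RL Z Y m A where
  toFun c := mapRL Z Y m (Subalgebra.center Z A).val
    (∑ i, ((c i : Z0 Z Y m) : L0 Z Y m) •
      basisRL Z Y m (Subalgebra.center Z A) (Module.finBasis Z (Subalgebra.center Z A)) i)
  map_add' c c' := by
    rw [← map_add, ← Finset.sum_add_distrib]
    congr 1
    refine Finset.sum_congr rfl fun i _ => ?_
    rw [Pi.add_apply, ← add_smul]
    rfl
  map_smul' a c := by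
    have e : ∀ x : RL Z Y m A, a • x = (a : L0 Z Y m) • x := fun x => rfl
    rw [RingHom.id_apply, e, ← mapRL_smul, Finset.smul_sum]
    congr 2
    funext i
    rw [Pi.smul_apply, smul_smul]
    rfl

lemma Phi_mem (c) : Phi Z Y m A c ∈ K0sub Z Y m A := by
  refine ⟨?_, fun x => mapRL_central Z Y m _ (fun a b => ?_) _ _⟩
  · show sR Z Y m A (mapRL Z Y m _ _) = mapRL Z Y m _ _
    rw [← mapRL_sR]
    congr 1
    rw [sR_fixed_iff Z Y m _ (Module.finBasis Z (Subalgebra.center Z A))]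
    intro i
    rw [map_sum, Finsupp.coe_finsetSum, Finset.sum_apply]
    have : ∀ j, ((basisRL Z Y m (Subalgebra.center Z A)
        (Module.finBasis Z (Subalgebra.center Z A))).repr
        (((c j : Z0 Z Y m) : L0 Z Y m) • basisRL Z Y m (Subalgebra.center Z A)
          (Module.finBasis Z (Subalgebra.center Z A)) j)) i =
        if j = i then ((c j : Z0 Z Y m) : L0 Z Y m) else 0 := by
      intro j
      rw [map_smul, Module.Basis.repr_self, Finsupp.smul_apply, Finsupp.single_apply]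
      split_ifs <;> simp
    simp only [this, Finset.sum_ite_eq', Finset.mem_univ, if_true]
    exact (c i).2
  · exact (Subalgebra.mem_center_iff.mp a.2 b).symm

lemma Phi_injective : Function.Injective (Phi Z Y m A) := by
  rw [injective_iff_map_eq_zero]
  intro c hc
  have h1 := mapRL_injective Z Y m (f := (Subalgebra.center Z A).val) Subtype.val_injective
  have h2 : (∑ i, ((c i : Z0 Z Y m) : L0 Z Y m) •
      basisRL Z Y m (Subalgebra.center Z A) (Module.finBasis Z (Subalgebra.center Z A)) i) = 0 :=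
    h1 (by rw [map_zero]; exact hc)
  have h3 := Fintype.linearIndependent_iff.mp
    (basisRL Z Y m (Subalgebra.center Z A) (Module.finBasis Z (Subalgebra.center Z A))).linearIndependent
    (fun i => ((c i : Z0 Z Y m) : L0 Z Y m)) h2
  funext i
  exact Subtype.ext (h3 i)

lemma Phi_surj {r : RL Z Y m A} (hr : r ∈ K0sub Z Y m A) : ∃ c, Phi Z Y m A c = r := by
  obtain ⟨h1, h2⟩ := hr
  obtain ⟨w, rfl⟩ := exists_mapRL_center Z Y m A h2
  have hinj := mapRL_injective Z Y m (f := (Subalgebra.center Z A).val) Subtype.val_injective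
  have hw : sR Z Y m _ w = w := by
    apply hinj
    rw [mapRL_sR]
    exact h1
  have hfix := (sR_fixed_iff Z Y m _ (Module.finBasis Z (Subalgebra.center Z A)) w).mp hw
  refine ⟨fun i => ⟨_, hfix i⟩, ?_⟩
  show mapRL Z Y m _ _ = _
  congr 1
  exact (basisRL Z Y m (Subalgebra.center Z A) (Module.finBasis Z (Subalgebra.center Z A))).sum_repr w

/-- The linear equivalence `Z0^e ≃ K0`. -/
noncomputable def PhiEquiv : (Fin (Module.finrank Z (Subalgebra.center Z A)) → Z0 Z Y m) ≃ₗ[Z0 Z Y m]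
    K0sub Z Y m A :=
  LinearEquiv.ofBijective
    ((Phi Z Y m A).codRestrict (Subalgebra.toSubmodule (K0sub Z Y m A)) (Phi_mem Z Y m A))
    ⟨fun a b h => Phi_injective Z Y m A (congrArg Subtype.val h),
      fun r => by
        obtain ⟨c, hc⟩ := Phi_surj Z Y m A r.2
        exact ⟨c, Subtype.ext hc⟩⟩

/-- `[K0 : Z0] = [center A : Z]`. -/
theorem finrank_K0sub : Module.finrank (Z0 Z Y m) (K0sub Z Y m A) =
    Module.finrank Z (Subalgebra.center Z A) := by
  rw [← (PhiEquiv Z Y m A).finrank_eq, Module.finrank_fin_fun]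

end Finrank

section Dim

variable {Z Y m A}

/-- `[center A : Z] * d(A) = dim_Z A`, in the form used in `meas_le`. -/
lemma finrank_center_mul {A : Type*} [DivisionRing A] [Algebra Z A] [FiniteDimensional Z A] :
    Module.finrank Z A = Module.finrank Z (Subalgebra.center Z A) *
      Module.finrank (Subring.center A) A := by
  have h := finrank_eq_center_mul Z A
  have e : Subalgebra.toSubmodule (Subalgebra.center Z A) = centerSub Z A := by
    ext x
    rw [mem_centerSub, Subring.mem_center_iff]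
    show x ∈ Subalgebra.center Z A ↔ _
    rw [Subalgebra.mem_center_iff]
  rw [h, ← e]
  rfl

end Dim

section Inst

variable [NeZero m] [Nonempty Y] [Infinite Z]
variable {A' : Type*} [DivisionRing A'] [Algebra Z A'] [FiniteDimensional Z A']

/-- The stretch data on `L0 ⊗ A`. -/
theorem stretchData_RL : StretchData (algebraMap (Z0 Z Y m) (RL Z Y m A')) (sR Z Y m A') m where
  pos := Nat.pos_of_ne_zero (NeZero.ne m)
  pow := sR_pow_m Z Y m A'
  fixed := fun c => by
    have e : algebraMap (Z0 Z Y m) (RL Z Y m A') c = iotaL Z Y m A' (c : L0 Z Y m) := by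
      rw [iotaL_eq_algebraMap]
      rfl
    rw [e, sR_iotaL, (mem_Z0 Z Y m).1 c.2]
  central := fun c x => Algebra.commutes c x

/-- `s` as a ring automorphism. -/
noncomputable def sAut : RingAut (L0 Z Y m) := (s Z Y m).toRingEquiv

lemma sAut_apply (l : L0 Z Y m) : sAut Z Y m l = s Z Y m l := rfl

lemma sAut_pow (k : ℕ) (l : L0 Z Y m) : (sAut Z Y m ^ k) l = (s Z Y m ^ k) l := by
  induction k generalizing l with
  | zero => rfl
  | succ k ih =>
    rw [pow_succ, pow_succ, RingAut.mul_apply, AlgEquiv.mul_apply, sAut_apply, ih]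

lemma sAut_pow_m : sAut Z Y m ^ m = 1 := by
  ext l
  rw [sAut_pow, s_pow_m]
  rfl

end Inst

section Final

variable [Fact m.Prime] [Nonempty Y] [Infinite Z]
variable {A' : Type*} [DivisionRing A'] [Algebra Z A'] [FiniteDimensional Z A']

instance instNeZeroOfFact : NeZero m := ⟨(Fact.out : m.Prime).ne_zero⟩

lemma isCoprime_of_not_dvd {v : ℤ} (hv : ¬ (m : ℤ) ∣ v) : IsCoprime v (m : ℤ) := by
  have hp : Prime (m : ℤ) := Nat.prime_iff_prime_int.mp Fact.out
  exact ((Prime.coprime_iff_not_dvd hp).mpr hv).symm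

variable [Algebra (Lau (Z0 Z Y m)) (SL (RL Z Y m A') (sR Z Y m A'))]
  (hA : ∀ c : Lau (Z0 Z Y m), algebraMap (Lau (Z0 Z Y m)) (SL (RL Z Y m A') (sR Z Y m A')) c =
    stretch (stretchData_RL Z Y m) c)
variable {B : Type*} [DivisionRing B] [Algebra (Lau (Z0 Z Y m)) B]
  (j : B →ₐ[Lau (Z0 Z Y m)] SL (RL Z Y m A') (sR Z Y m A'))
  {ξ : SL (RL Z Y m A') (sR Z Y m A')}

include hA in
/-- **Lemma Meas on `L0 ⊗ A`**, the statement of the pipeline skeleton. -/
theorem meas_inst (hj : ∀ x, x ∈ j.range ↔ x * ξ = ξ * x) (hξ : ξ ≠ 0)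
    (hval : ¬ (m : ℤ) ∣ val ξ) :
    Module.finrank (Subring.center B) B ≤ Module.finrank (Subring.center A') A' ∧
    ((∃ x : B, (∀ y : B, x * y = y * x) ∧ (j x).LB 0 ∧
        ¬ (sR Z Y m A' ((j x).coeff 0) = (j x).coeff 0 ∧
            ∀ y, (j x).coeff 0 * y = y * (j x).coeff 0)) →
      2 * Module.finrank (Subring.center B) B ≤ Module.finrank (Subring.center A') A') := by
  have hs : ∀ l, sR Z Y m A' (algebraMap (L0 Z Y m) (RL Z Y m A') l) =
      algebraMap (L0 Z Y m) (RL Z Y m A') (sAut Z Y m l) := fun l => by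
    rw [← iotaL_eq_algebraMap, sR_iotaL, iotaL_eq_algebraMap]
    rfl
  have hfix : ∀ l, sAut Z Y m l = l → l ∈ (algebraMap (Z0 Z Y m) (L0 Z Y m)).range := fun l hl =>
    ⟨⟨l, (mem_Z0 Z Y m).2 hl⟩, rfl⟩
  have hcop := isCoprime_of_not_dvd m hval
  have hKc : ∀ k ∈ K0sub Z Y m A', ∀ x, k * x = x * k := fun k hk x => hk.2 x
  have hK : ∀ k ∈ K0sub Z Y m A', sR Z Y m A' k = k := fun k hk => hk.1
  have hdim : Module.finrank (L0 Z Y m) (RL Z Y m A') =
      Module.finrank (Z0 Z Y m) (K0sub Z Y m A') * Module.finrank (Subring.center A') A' := by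
    rw [finrank_RL, finrank_K0sub, ← finrank_center_mul]
  have hfd0 : FiniteDimensional (Z0 Z Y m) (RL Z Y m A') :=
    Module.Finite.trans (L0 Z Y m) (RL Z Y m A')
  refine ⟨meas_le' (stretchData_RL Z Y m) hA j (sAut Z Y m) hs (sAut_pow_m Z Y m) hfix hfd0 hj hξ
    hcop hKc hK hdim, ?_⟩
  rintro ⟨x, hx, hxL, hxK⟩
  have hinv : ∀ k ∈ K0sub Z Y m A', k⁻¹ ∈ K0sub Z Y m A' := by
    intro k hk
    refine ⟨?_, fun y => ?_⟩
    · rw [map_inv₀, hk.1]
    · by_cases hk0 : k = 0
      · simp [hk0]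
      · calc k⁻¹ * y = k⁻¹ * y * (k * k⁻¹) := by rw [mul_inv_cancel₀ hk0, mul_one]
          _ = k⁻¹ * (y * k) * k⁻¹ := by noncomm_ring
          _ = k⁻¹ * (k * y) * k⁻¹ := by rw [hk.2 y]
          _ = y * k⁻¹ := by rw [← mul_assoc, inv_mul_cancel₀ hk0, one_mul]
  exact meas_half' (stretchData_RL Z Y m) hA j (sAut Z Y m) hs (sAut_pow_m Z Y m) hfix hfd0 hj hξ
    hcop hKc hK hinv hdim (z := x) (Subring.mem_center_iff.mpr fun g => (hx g).symm) hxL hxK

end Final

section Budget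

variable [Fact m.Prime] [Nonempty Y] [Infinite Z]
variable {A' : Type*} [DivisionRing A'] [Algebra Z A'] [FiniteDimensional Z A']
variable [Algebra (Lau (Z0 Z Y m)) (SL (RL Z Y m A') (sR Z Y m A'))]
  (hA : ∀ c : Lau (Z0 Z Y m), algebraMap (Lau (Z0 Z Y m)) (SL (RL Z Y m A') (sR Z Y m A')) c =
    stretch (stretchData_RL Z Y m) c)
variable {B : Type*} [DivisionRing B] [Algebra (Lau (Z0 Z Y m)) B]
  (j : B →ₐ[Lau (Z0 Z Y m)] SL (RL Z Y m A') (sR Z Y m A'))
  {ξ : SL (RL Z Y m A') (sR Z Y m A')}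

include hA in
/-- The letter budget on `L0 ⊗ A`: `finrank Zp A' ≤ m * finrank Z A`. -/
theorem finrank_le_mul_inst (hj : ∀ x, x ∈ j.range ↔ x * ξ = ξ * x) (hξ : ξ ≠ 0)
    (hval : ¬ (m : ℤ) ∣ val ξ) :
    Module.finrank (Lau (Z0 Z Y m)) B ≤ m * Module.finrank Z A' := by
  have hs : ∀ l, sR Z Y m A' (algebraMap (L0 Z Y m) (RL Z Y m A') l) =
      algebraMap (L0 Z Y m) (RL Z Y m A') (sAut Z Y m l) := fun l => by
    rw [← iotaL_eq_algebraMap, sR_iotaL, iotaL_eq_algebraMap]
    rfl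
  have hfix : ∀ l, sAut Z Y m l = l → l ∈ (algebraMap (Z0 Z Y m) (L0 Z Y m)).range := fun l hl =>
    ⟨⟨l, (mem_Z0 Z Y m).2 hl⟩, rfl⟩
  have hfd0 : FiniteDimensional (Z0 Z Y m) (RL Z Y m A') :=
    Module.Finite.trans (L0 Z Y m) (RL Z Y m A')
  have := finrank_le_mul (stretchData_RL Z Y m) hA j (sAut Z Y m) hs (sAut_pow_m Z Y m) hfix hfd0 hj
    hξ (isCoprime_of_not_dvd m hval)
  rwa [finrank_RL] at this

end Budget

end Crest.Agent.Lib.Kurosh.MeasInst
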