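import Crest.Agent.Lib.Kurosh.FieldRL
import Crest.Agent.Lib.Kurosh.MeasInst
import Crest.Agent.Lib.Kurosh.FormsPair
import Crest.Agent.Lib.Kurosh.AStepW

/-!
# S0270, Section 5(d): dimensions over `Z0`

`x ↦ ∑_y x_y ⊗ f_y` has image of `Z0`-dimension `m · dim_Z W`; the fixed part of `L0 ⊗ K` has
`Z0`-dimension at most `[K : Z]`.
-/

set_option autoImplicit false
set_option linter.unusedSectionVars false

namespace Crest.Agent.Lib.Kurosh.Forms

open Module RatExt
open scoped TensorProduct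

variable (Z : Type*) [Field Z] [Infinite Z] (Y : Type*) (m : ℕ) [NeZero m] [Nonempty Y]
  {K : Type*} [Field K] [Algebra Z K] [FiniteDimensional Z K]

section Phi0

variable [Fintype Y] (f : Y → K)

/-- `x ↦ ∑_y x_y ⊗ f_y`. -/
noncomputable def phi0 : (Y → RatExt.L0 Z Y m) →ₗ[RatExt.Z0 Z Y m] RatExt.RL Z Y m K where
  toFun x := ∑ y, x y ⊗ₜ[Z] f y
  map_add' x x' := by
    simp only [Pi.add_apply, TensorProduct.add_tmul, Finset.sum_add_distrib]
  map_smul' c x := by
    simp only [Pi.smul_apply, RingHom.id_apply, Finset.smul_sum]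
    rfl

lemma phi0_apply (x : Y → RatExt.L0 Z Y m) : phi0 Z Y m f x = ∑ y, x y ⊗ₜ[Z] f y := rfl

/-- **The image has `Z0`-dimension `m · dim W`.** -/
theorem finrank_range_phi0 :
    finrank (RatExt.Z0 Z Y m) (LinearMap.range (phi0 Z Y m f)) =
      m * finrank Z (Submodule.span Z (Set.range f)) := by
  classical
  set W := Submodule.span Z (Set.range f) with hW
  let i : RatExt.L0 Z Y m ⊗[Z] W →ₗ[RatExt.L0 Z Y m] RatExt.RL Z Y m K :=
    W.subtype.baseChange (RatExt.L0 Z Y m)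
  have hinj : Function.Injective i := by
    have : Function.Injective (W.subtype.lTensor (RatExt.L0 Z Y m)) :=
      Module.Flat.lTensor_preserves_injective_linearMap _ W.injective_subtype
    intro a b hab
    apply this
    exact hab
  have h1 : finrank (RatExt.L0 Z Y m) (LinearMap.range i) = finrank Z W := by
    rw [LinearMap.finrank_range_of_inj hinj, Module.finrank_baseChange]
  have hset : ((LinearMap.range (phi0 Z Y m f) : Submodule _ _) : Set (RatExt.RL Z Y m K)) =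
      (LinearMap.range i : Set (RatExt.RL Z Y m K)) := by
    ext v
    constructor
    · rintro ⟨x, rfl⟩
      refine ⟨∑ y, x y ⊗ₜ[Z] (⟨f y, Submodule.subset_span ⟨y, rfl⟩⟩ : W), ?_⟩
      rw [phi0_apply, map_sum]
      exact Finset.sum_congr rfl fun y _ => by
        rw [LinearMap.baseChange_tmul]; rfl
    · rintro ⟨t, rfl⟩
      induction t using TensorProduct.induction_on with
      | zero => exact ⟨0, by rw [map_zero, map_zero]⟩
      | tmul a w =>
        obtain ⟨c, hc⟩ := (Submodule.mem_span_range_iff_exists_fun Z).1 w.2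
        refine ⟨fun y => c y • a, ?_⟩
        rw [phi0_apply, LinearMap.baseChange_tmul]
        have e : W.subtype w = ∑ y, c y • f y := hc.symm
        rw [e, TensorProduct.tmul_sum]
        exact Finset.sum_congr rfl fun y _ => by rw [TensorProduct.smul_tmul]
      | add a b ha hb =>
        obtain ⟨x, hx⟩ := ha
        obtain ⟨x', hx'⟩ := hb
        exact ⟨x + x', by rw [map_add, map_add, hx, hx']⟩
  have h2 : finrank (RatExt.Z0 Z Y m) (LinearMap.range (phi0 Z Y m f)) =
      finrank (RatExt.Z0 Z Y m) (LinearMap.range i) := by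
    have e : LinearMap.range (phi0 Z Y m f) =
        (LinearMap.range i).restrictScalars (RatExt.Z0 Z Y m) := by
      apply SetLike.coe_injective
      rw [hset]
      rfl
    rw [e]
    rfl
  rw [h2, ← Module.finrank_mul_finrank (RatExt.Z0 Z Y m) (RatExt.L0 Z Y m) (LinearMap.range i),
    RatExt.finrank_Z0, h1]

end Phi0

/-- `[L0 ⊗ K : Z0] = m e`. -/
theorem finrank_RL_Z0 :
    finrank (RatExt.Z0 Z Y m) (RatExt.RL Z Y m K) = m * finrank Z K := by
  rw [← Module.finrank_mul_finrank (RatExt.Z0 Z Y m) (RatExt.L0 Z Y m) (RatExt.RL Z Y m K),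
    RatExt.finrank_Z0, RatExt.finrank_RL]

section Fixed

/-- `σ` fixes `Z0` in `L0 ⊗ K`. -/
lemma sR_algebraMap_Z0 (c : RatExt.Z0 Z Y m) :
    RatExt.sR Z Y m K (algebraMap (RatExt.Z0 Z Y m) (RatExt.RL Z Y m K) c) =
      algebraMap (RatExt.Z0 Z Y m) (RatExt.RL Z Y m K) c :=
  (MeasInst.stretchData_RL Z Y m).fixed c

omit [NeZero m] [Nonempty Y] in
/-- A basis of a submodule, as a family in the ambient space. -/
lemma exists_fam_aux {F0 V0 : Type*} [Field F0] [AddCommGroup V0] [Module F0 V0]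
    [FiniteDimensional F0 V0] (V : Submodule F0 V0) :
    ∃ v : Fin (finrank F0 V) → V0, LinearIndependent F0 v ∧ ∀ i, v i ∈ V := by
  let b := finBasis F0 V
  exact ⟨fun i => (b i : V0), b.linearIndependent.map' V.subtype (Submodule.ker_subtype _),
    fun i => (b i).2⟩

/-- **The fixed part has `Z0`-dimension at most `e`.** -/
theorem finrank_fixedS_le :
    finrank (RatExt.Z0 Z Y m) (fixedS (σ := RatExt.sR Z Y m K) (sR_algebraMap_Z0 Z Y m)) ≤
      finrank Z K := by
  classical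
  have hfd0 : FiniteDimensional (RatExt.Z0 Z Y m) (RatExt.RL Z Y m K) :=
    Module.Finite.trans (RatExt.L0 Z Y m) (RatExt.RL Z Y m K)
  obtain ⟨v, hv, hvV⟩ := @exists_fam_aux (RatExt.Z0 Z Y m) (RatExt.RL Z Y m K) _ _ _ hfd0
    (fixedS (σ := RatExt.sR Z Y m K) (sR_algebraMap_Z0 Z Y m))
  let τ : RatExt.RL Z Y m K →+ RatExt.RL Z Y m K := (RatExt.sR Z Y m K).toAddMonoidHom
  have hL : LinearIndependent (RatExt.L0 Z Y m) v := by
    refine artin_independent τ (d := 1) (by simp) ?_ v hvV hv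
    intro l x
    rw [pow_one]
    exact RatExt.sR_smul Z Y m K l x
  have h := hL.fintype_card_le_finrank
  rwa [Fintype.card_fin, RatExt.finrank_RL] at h

end Fixed

section Theta

variable (lamK : K →ₗ[Z] Z)

/-- The functional `Θ = tr ∘ λ` on `L0 ⊗ K`. -/
noncomputable def ThetaK : RatExt.RL Z Y m K →ₗ[RatExt.Z0 Z Y m] RatExt.Z0 Z Y m :=
  (RatExt.trLin Z Y m) ∘ₗ ((RatExt.lam Z Y m lamK).restrictScalars (RatExt.Z0 Z Y m))

lemma ThetaK_coe (x : RatExt.RL Z Y m K) :
    ((ThetaK Z Y m lamK x : RatExt.Z0 Z Y m) : RatExt.L0 Z Y m) =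
      RatExt.tr Z Y m (RatExt.lam Z Y m lamK x) := rfl

lemma ThetaK_sR (x : RatExt.RL Z Y m K) :
    ThetaK Z Y m lamK (RatExt.sR Z Y m K x) = ThetaK Z Y m lamK x := by
  apply Subtype.ext
  rw [ThetaK_coe, ThetaK_coe, RatExt.lam_sR, AStepW.tr_s]

lemma ThetaK_nondeg [CharZero Z] (h1 : lamK 1 ≠ 0) {x : RatExt.RL Z Y m K} (hx : x ≠ 0) :
    ∃ y, ThetaK Z Y m lamK (x * y) ≠ 0 := by
  refine ⟨x⁻¹, ?_⟩
  rw [mul_inv_cancel₀ hx]
  intro h0
  have h2 := congrArg (fun c : RatExt.Z0 Z Y m => (c : RatExt.L0 Z Y m)) h0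
  simp only [ThetaK_coe] at h2
  have h3 : RatExt.lam Z Y m lamK (1 : RatExt.RL Z Y m K) = algebraMap Z (RatExt.L0 Z Y m) (lamK 1) := by
    have : (1 : RatExt.RL Z Y m K) = (1 : RatExt.L0 Z Y m) ⊗ₜ[Z] (1 : K) := rfl
    rw [this, RatExt.lam_tmul, Algebra.smul_def, mul_one]
  rw [h3, RatExt.tr_of_mem Z Y m ((RatExt.mem_Z0 Z Y m).2 (by simp))] at h2
  have hm : ((m : ℕ) : RatExt.L0 Z Y m) ≠ 0 := by
    have : CharZero (RatExt.L0 Z Y m) := charZero_of_injective_algebraMap (algebraMap Z _).injective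
    exact Nat.cast_ne_zero.2 (NeZero.ne m)
  have h4 : algebraMap Z (RatExt.L0 Z Y m) (lamK 1) ≠ 0 := by
    rwa [Ne, map_eq_zero]
  exact mul_ne_zero hm h4 h2

end Theta

end Crest.Agent.Lib.Kurosh.Forms
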