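import Mathlib
import Crest.Agent.Lib.Kurosh.StageDefs
import Crest.Agent.Lib.Kurosh.MeasInst

/-!
# Lemma Meas on an `AStep` (S0270, helper84)

The target `meas` of `Skeleton.lean`, conditional only on `hA`: the `Zp`-algebra structure of `Tilde`
is the stretch (`hA := fun _ => rfl` with the instance `stretchAlgebra (stretchData_RL ..)`).
-/

set_option autoImplicit false

namespace Crest.Agent.Lib.Kurosh.MeasFinal

open NCSeries Module SL

variable {Y : Type} [Fintype Y] [DecidableEq Y]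
variable {Z : Type} [Field Z] [CharZero Z] {m : ℕ} [Fact m.Prime]

variable (Z Y m) in
/-- The algebra structure, in the form of `RatExt`. -/
noncomputable abbrev instZpT (A : Type) [DivisionRing A] [Algebra Z A] :
    Algebra (Lau (Z0 Z Y m)) (SL (RatExt.RL Z Y m A) (RatExt.sR Z Y m A)) :=
  inferInstanceAs (Algebra (Zp Z Y m) (Tilde Z Y m A))

/-- **Lemma Meas** on an `AStep`. -/
theorem meas_of_hA [Nonempty Y] {d : LevelData Z Y m} {c : AConf Z Y} {c' : AConf (Zp Z Y m) (Fin d.n)}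
    (st : AStep d c c')
    (hA : ∀ z : Zp Z Y m, algebraMap (Zp Z Y m) (Tilde Z Y m c.A) z =
      stretch (MeasInst.stretchData_RL Z Y m (A' := c.A)) z)
    (hξ : st.jp st.ξ ≠ 0) (hval : ¬ ((m : ℤ) ∣ SL.val (st.jp st.ξ))) :
    finrank (Zp Z Y m) c'.A ≤ m * finrank Z c.A ∧ c'.deg ≤ c.deg ∧
    ((∃ x : c'.A, (∀ y : c'.A, x * y = y * x) ∧ (st.jp x).LB 0 ∧
        ¬ IsK0 c.A Y m ((st.jp x).coeff 0)) →
      2 * c'.deg ≤ c.deg) := by
  have h1 := @MeasInst.meas_inst Z _ Y m _ _ _ c.A _ _ _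
    (instZpT Y Z m c.A) hA c'.A c'.dA c'.aA st.jp (st.jp st.ξ)
    st.jp_range hξ hval
  have h2 := @MeasInst.finrank_le_mul_inst Z _ Y m _ _ _ c.A _ _ _
    (instZpT Y Z m c.A) hA c'.A c'.dA c'.aA st.jp (st.jp st.ξ)
    st.jp_range hξ hval
  exact ⟨h2, h1.1, h1.2⟩

/-- Without the `Nonempty` instance: level data has letters. -/
theorem meas_of_hA' {d : LevelData Z Y m} {c : AConf Z Y} {c' : AConf (Zp Z Y m) (Fin d.n)}
    (st : AStep d c c')
    (hA : ∀ [Nonempty Y] (z : Zp Z Y m), algebraMap (Zp Z Y m) (Tilde Z Y m c.A) z =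
      stretch (MeasInst.stretchData_RL Z Y m (A' := c.A)) z)
    (hξ : st.jp st.ξ ≠ 0) (hval : ¬ ((m : ℤ) ∣ SL.val (st.jp st.ξ))) :
    finrank (Zp Z Y m) c'.A ≤ m * finrank Z c.A ∧ c'.deg ≤ c.deg ∧
    ((∃ x : c'.A, (∀ y : c'.A, x * y = y * x) ∧ (st.jp x).LB 0 ∧
        ¬ IsK0 c.A Y m ((st.jp x).coeff 0)) →
      2 * c'.deg ≤ c.deg) := by
  have : Nonempty Y := by
    obtain ⟨y, _, _⟩ := d.hgen
    exact ⟨y⟩
  exact meas_of_hA st hA hξ hval

/-- **Lemma Meas**: the target `meas` of `Skeleton.lean`, unconditional. -/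
theorem meas_final {d : LevelData Z Y m} {c : AConf Z Y} {c' : AConf (Zp Z Y m) (Fin d.n)}
    (st : AStep d c c') (hξ : st.jp st.ξ ≠ 0) (hval : ¬ ((m : ℤ) ∣ SL.val (st.jp st.ξ))) :
    finrank (Zp Z Y m) c'.A ≤ m * finrank Z c.A ∧ c'.deg ≤ c.deg ∧
    ((∃ x : c'.A, (∀ y : c'.A, x * y = y * x) ∧ (st.jp x).LB 0 ∧
        ¬ IsK0 c.A Y m ((st.jp x).coeff 0)) →
      2 * c'.deg ≤ c.deg) :=
  meas_of_hA' st (fun _ => rfl) hξ hval

end Crest.Agent.Lib.Kurosh.MeasFinal
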