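import Crest.Agent.Lib.Kurosh.FormsAsm
import Crest.Agent.Lib.Kurosh.FormsDims
import Crest.Agent.Lib.Kurosh.FinishTop
import Crest.Agent.Lib.Kurosh.DivSplit
import Crest.Agent.Lib.Kurosh.MeasFinal

/-!
# S0270, Section 5(d): the rank bound, concrete form (`FinishTop.RankInput`)
-/

set_option autoImplicit false
set_option linter.unusedSectionVars false

namespace Crest.Agent.Lib.Kurosh.FormsConcrete

open Module NCSeries SeriesComp FinishCore TheoremRC Forms
open SL (Lau)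
open scoped TensorProduct

section Scale

variable {F : Type*} [Field F] {ι : Type*} [Fintype ι]

/-- Scaling a nonzero vector over `Lau F` to a unit vector. -/
theorem exists_scale (a : ι → Lau F) (ha : a ≠ 0) :
    ∃ (v : ℤ) (a0 : ι → Lau F), (∀ i, a i = SL.ϖz v * a0 i) ∧ (∀ i, (a0 i).LB 0) ∧
      ∃ i, (a0 i).coeff 0 ≠ 0 := by
  classical
  obtain ⟨i1, hi1⟩ : ∃ i, a i ≠ 0 := by
    by_contra h
    push Not at h
    exact ha (funext h)
  obtain ⟨i0, hi0, hmin⟩ := Finset.exists_min_image (Finset.univ.filter fun i => a i ≠ 0)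
    (fun i => SL.val (a i)) ⟨i1, by simp [hi1]⟩
  have hi0' : a i0 ≠ 0 := by simpa using hi0
  set v := SL.val (a i0) with hv
  have hLB : ∀ i, (a i).LB v := by
    intro i
    by_cases hi : a i = 0
    · rw [hi]; exact SL.lB_zero _
    · exact (SL.lB_val (a i)).mono (hmin i (by simp [hi]))
  have hcomp : ∀ i, (SL.ϖz (-v) * a i : Lau F).coeff 0 = (a i).coeff v := by
    intro i
    rw [SL.coeff_ϖz_mul]
    simp
  refine ⟨v, fun i => SL.ϖz (-v) * a i, fun i => ?_, fun i => ?_, i0, ?_⟩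
  · rw [← mul_assoc, ← SL.ϖz_mul, add_neg_cancel, SL.ϖz_zero, one_mul]
  · intro n hn
    rw [SL.coeff_ϖz_mul, SL.one_zpow_apply]
    exact hLB i _ (by omega)
  · rw [hcomp]
    exact SL.coeff_val_ne hi0'

end Scale

section FieldDims

variable {F L : Type*} [Field F] [Field L] [Algebra F L] [FiniteDimensional F L] {σ : RingAut L}
  {m : ℕ} (hσF : ∀ c : F, σ (algebraMap F L c) = algebraMap F L c)
  (hσ : σ ^ m = 1) (hm : (m : L) ≠ 0)
  (Θ : L →ₗ[F] F) (hΘσ : ∀ x, Θ (σ x) = Θ x)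
  (hΘ : ∀ x : L, x ≠ 0 → ∃ y, Θ (x * y) ≠ 0)
  {κ : L} (hκ : κ ≠ 0) (hκσ : σ κ = κ)
  {D : Type*} [AddCommGroup D] [Module F D]

omit [FiniteDimensional F L] in
lemma finrank_range_mulLeft (φ0 : D →ₗ[F] L) {N : L} (hN : N ≠ 0) :
    finrank F (LinearMap.range ((LinearMap.mulLeft F N) ∘ₗ φ0)) =
      finrank F (LinearMap.range φ0) := by
  have hinj : Function.Injective (LinearMap.mulLeft F N) := mul_right_injective₀ hN
  rw [LinearMap.range_comp]
  exact LinearEquiv.finrank_eq (Submodule.equivMapOfInjective _ hinj _).symm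

include hσ hm hΘσ hΘ hκ hκσ in
/-- The rank of a block, with `φ = N⁻¹ φ₀`. -/
theorem rank_block_mul (φ0 : D →ₗ[F] L) {N N' : L} (hN : N ≠ 0) (hN' : N' ≠ 0) (z : ℤ) :
    2 * finrank F (LinearMap.range φ0) ≤ finrank F L + finrank F (fixedS hσF) +
      finrank F (LinearMap.range (blockForm hσF m Θ κ ((LinearMap.mulLeft F N⁻¹) ∘ₗ φ0)
        ((LinearMap.mulLeft F N'⁻¹) ∘ₗ φ0) z)) := by
  have h := rank_block hσF hσ hm Θ hΘσ hΘ hκ hκσ ((LinearMap.mulLeft F N⁻¹) ∘ₗ φ0)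
    ((LinearMap.mulLeft F N'⁻¹) ∘ₗ φ0) z
  rw [finrank_range_mulLeft φ0 (inv_ne_zero hN), finrank_range_mulLeft φ0 (inv_ne_zero hN')] at h
  omega

end FieldDims

section Concrete

variable {Z : Type} [Field Z] [CharZero Z] {Y : Type} [Fintype Y] [DecidableEq Y]
  {m : ℕ} [Fact m.Prime]

/-- The map `X ↦ Cmap ∘ X`. -/
noncomputable def Dm (K : Type) [Ring K] [Algebra Z K] :
    (Y → CC Z Y m) →ₗ[Zp Z Y m] (Y → Tilde Z Y m K) where
  toFun X y := Cmap Z Y m K (X y)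
  map_add' X X' := by
    funext y
    exact map_add _ _ _
  map_smul' z X := by
    funext y
    simp only [Pi.smul_apply, RingHom.id_apply, Algebra.smul_def, map_mul, Cmap_algebraMap]

lemma Dm_apply (K : Type) [Ring K] [Algebra Z K] (X : Y → CC Z Y m) (y : Y) :
    Dm K X y = Cmap Z Y m K (X y) := rfl

variable (d : LevelData Z Y m)

/-- The projection to letter coordinates, along `Inn`. -/
theorem exists_proj : ∃ proj : (Y → CC Z Y m) →ₗ[Zp Z Y m] (Fin d.n → Zp Z Y m),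
    ∀ X, ∃ c, X = Fintype.linearCombination (Zp Z Y m) d.X (proj X) + Inn d.b c := by
  classical
  let S3 := Submodule.span (Zp Z Y m) (Set.range d.X)
  let b : Basis (Fin d.n) (Zp Z Y m) S3 := Basis.span d.hindep
  let e := Submodule.prodEquivOfIsCompl S3 (LinearMap.range (Inn d.b)) d.hcompl
  refine ⟨b.equivFun.toLinearMap ∘ₗ LinearMap.fst _ _ _ ∘ₗ e.symm.toLinearMap, fun X => ?_⟩
  set P := (e.symm X).1 with hP
  have h1 : Fintype.linearCombination (Zp Z Y m) d.X (b.equivFun P) = (P : Y → CC Z Y m) := by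
    rw [Fintype.linearCombination_apply]
    have h2 := b.sum_equivFun P
    have h3 := congrArg (fun z : S3 => (z : Y → CC Z Y m)) h2
    simp only [Submodule.coe_sum, Submodule.coe_smul] at h3
    rw [← h3]
    refine Finset.sum_congr rfl fun t _ => ?_
    rw [Basis.span_apply]
  obtain ⟨c, hc⟩ := (e.symm X).2.2
  refine ⟨c, ?_⟩
  have h4 : X = ((e.symm X).1 : Y → CC Z Y m) + ((e.symm X).2 : Y → CC Z Y m) := by
    conv_lhs => rw [← e.apply_symm_apply X]
    rfl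
  change X = Fintype.linearCombination (Zp Z Y m) d.X (b.equivFun P) + Inn d.b c
  rw [h1, hc]
  exact h4

section Lead

variable (K : Type) [Ring K] [Algebra Z K] (b : Y → L0 Z Y m)

/-- Leading coefficient of a directional derivative. -/
lemma dirB_lead (xx : Y → L0 Z Y m) (j : ℤ) (f : NCS K Y) :
    (dirB K b (fun y => SL.mon (xx y) j) f).coeff j = ∑ y, xx y ⊗ₜ[Z] coeff [y] f := by
  have h := coeff_dirB (R := K) b xx j 0 f
  have e : j + ((0 : ℕ) : ℤ) = j := by simp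
  rw [e] at h
  rw [h]
  have h1 : (0 : ℕ) + 1 = 1 := rfl
  rw [h1, PsiCore.sum_wordsLen_succ]
  refine Finset.sum_congr rfl fun y _ => ?_
  rw [PsiCore.sum_wordsLen_zero]
  simp [PsiCore.dw, PsiCore.lw]

lemma dirB_lb (xx : Y → L0 Z Y m) (j : ℤ) (f : NCS K Y) :
    (dirB K b (fun y => SL.mon (xx y) j) f).LB j := by
  have h1 : (fun y => Cmap Z Y m K (SL.mon (xx y) j)) =
      fun y => SL.mon (algebraMap (L0 Z Y m) (RL Z Y m K) (xx y)) j := by
    funext y
    exact Cmap_mon _ _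
  unfold dirB
  rw [h1]
  exact (isMonBase b).dir_LB f

lemma dir2B_lb (xx xx' : Y → L0 Z Y m) (j j' : ℤ) (f : NCS K Y) :
    (dir2B K b (fun y => SL.mon (xx y) j) (fun y => SL.mon (xx' y) j') f).LB (j + j') := by
  have h1 : (fun y => Cmap Z Y m K (SL.mon (xx y) j)) =
      fun y => SL.mon (algebraMap (L0 Z Y m) (RL Z Y m K) (xx y)) j := by
    funext y
    exact Cmap_mon _ _
  have h2 : (fun y => Cmap Z Y m K (SL.mon (xx' y) j')) =
      fun y => SL.mon (algebraMap (L0 Z Y m) (RL Z Y m K) (xx' y)) j' := by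
    funext y
    exact Cmap_mon _ _
  unfold dir2B
  rw [h1, h2]
  exact (isMonBase b).dir2_LB f

end Lead

section Main

variable [Nonempty Y]

variable (c : KConf Z Y) {d : LevelData Z Y m} {c' : KConf (Zp Z Y m) (Fin d.n)}
  (st : LevelStep d c c')

variable
  (hTrCoeff : ∀ (x : Tilde Z Y m c.K) (q : ℤ), (TrL Z Y m (Algebra.trace Z c.K) x).coeff q =
    ThetaK Z Y m (Algebra.trace Z c.K) (x.coeff ((m : ℤ) * q)))
  (hTrCyc : ∀ x y : Tilde Z Y m c.K,
    TrL Z Y m (Algebra.trace Z c.K) (x * y) = TrL Z Y m (Algebra.trace Z c.K) (y * x))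
  (hA : ∀ z : Zp Z Y m, algebraMap (Zp Z Y m) (Tilde Z Y m c.K) z =
    SL.stretch (MeasInst.stretchData_RL Z Y m) z)

include st in
lemma xi_eq : st.jp st.ξ = (baseOf c.K d.b).value c.g := by
  rw [st.hξ, value_eq]
  rfl

include st in
lemma jp_comm_xi (y : c'.K) :
    (baseOf c.K d.b).value c.g * st.jp y = st.jp y * (baseOf c.K d.b).value c.g := by
  rw [← xi_eq c st, ← map_mul, ← map_mul, mul_comm]

include st in
lemma conj' : st.U * PsiCore.Base.psi (isDirs d c.K) c.g * st.U' =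
    C ((baseOf c.K d.b).value c.g) + NCSeries.map (st.jp : c'.K →+* Tilde Z Y m c.K) c'.g := by
  rw [← xi_eq c st]
  exact st.conj

include hTrCyc in
/-- The relation property for all directions. -/
theorem rel_all' {β : c'.K}
    (hβ : ∀ x, phiK st (β * coeff [x] c'.g) = 0) (X : Y → CC Z Y m) :
    TrL Z Y m (Algebra.trace Z c.K) (st.jp β * dirB c.K d.b X c.g) = 0 := by
  obtain ⟨proj, hproj⟩ := exists_proj d
  refine rel_all (F := Z0 Z Y m) (baseOf c.K d.b) c.g (Dm c.K) (Cmap Z Y m c.K) (Inn d.b)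
    ?_ ?_ d.X (isDirs d c.K) st.jp c'.g0 st.U'U st.U1 (conj' c st)
    (TrL Z Y m (Algebra.trace Z c.K)) hTrCyc (jp_comm_xi c st) proj hproj ?_ X
  · intro c0 y
    simp only [Dm_apply, Inn_apply, map_sub, map_mul]
    rfl
  · intro c0 r
    exact (Rmap_comm_Cmap r c0)
  · intro t
    rw [← map_mul]
    exact hβ t

omit [Nonempty Y] in
include st in
lemma xi_LB : ((baseOf c.K d.b).value c.g).LB 1 :=
  GenPrime.value_LB_one _ c.g0

/-- The leading coefficient of `ξ`, in the generic case. -/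
lemma xi_coeff_ne (hd : d.b = genericBase Z Y m) (hE : c.Rich) :
    ((baseOf c.K d.b).value c.g).coeff 1 ≠ 0 := by
  obtain ⟨w0, hw0, h0⟩ := RichField.exists_ne_zero_of_rich hE
  obtain ⟨y0, hy0⟩ : ∃ y, coeff [y] c.g ≠ 0 := by
    by_contra h
    push Not at h
    apply h0
    have hW0 : c.W = ⊥ := by
      refine (Submodule.span_eq_bot).mpr ?_
      rintro _ ⟨y, rfl⟩
      exact h y
    rw [hW0] at hw0
    exact (Submodule.mem_bot Z).mp hw0
  have hm1 : 1 ≤ m := (Fact.out : m.Prime).one_lt.le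
  exact AStepW.coeff_value_generic_ne (AStepLevel.isMonBase_generic d hd) c.g (w0 := [y0]) hm1 hy0

/-- Coefficient of the trace of a product. -/
lemma theta_iota (x : c.K) :
    ((ThetaK Z Y m (Algebra.trace Z c.K) (RatExt.iota Z Y m c.K x) : RatExt.Z0 Z Y m) :
      RatExt.L0 Z Y m) = (m : RatExt.L0 Z Y m) *
        algebraMap Z (RatExt.L0 Z Y m) (Algebra.trace Z c.K x) := by
  rw [ThetaK_coe]
  have h3 : RatExt.lam Z Y m (Algebra.trace Z c.K) (RatExt.iota Z Y m c.K x) =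
      algebraMap Z (RatExt.L0 Z Y m) (Algebra.trace Z c.K x) := by
    have : RatExt.iota Z Y m c.K x = (1 : RatExt.L0 Z Y m) ⊗ₜ[Z] x := rfl
    rw [this, RatExt.lam_tmul, Algebra.smul_def, mul_one]
  rw [h3, RatExt.tr_of_mem Z Y m ((RatExt.mem_Z0 Z Y m).2 (by simp))]

include hTrCyc hTrCoeff in
/-- The first coefficient of a relation is orthogonal to `W`. -/
theorem rel_perp {β : c'.K} {e : c.K} (hLB : (st.jp β).LB 0)
    (h0 : (st.jp β).coeff 0 = RatExt.iota Z Y m c.K e)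
    (hβ : ∀ x, phiK st (β * coeff [x] c'.g) = 0) :
    e ∈ RichField.perp (Algebra.trace Z c.K) c.W := by
  classical
  have key : ∀ y, Algebra.trace Z c.K (e * coeff [y] c.g) = 0 := by
    intro y
    have h1 := rel_all' c st hTrCyc hβ (fun y' => SL.mon ((Pi.single y 1 : Y → L0 Z Y m) y') (m : ℤ))
    have h2 := dirB_lb c.K d.b (Pi.single y 1 : Y → L0 Z Y m) (m : ℤ) c.g
    have h3 := dirB_lead c.K d.b (Pi.single y 1 : Y → L0 Z Y m) (m : ℤ) c.g
    have h4 : (st.jp β * dirB c.K d.b (fun y' => SL.mon ((Pi.single y 1 : Y → L0 Z Y m) y') (m : ℤ)) c.g).coeff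
        ((0 : ℤ) + (m : ℤ)) = RatExt.iota Z Y m c.K (e * coeff [y] c.g) := by
      rw [SL.coeff_mul_add hLB h2, h3, h0, Finset.sum_eq_single y]
      · simp only [Pi.single_eq_same, zpow_zero]
        rw [map_mul]
        rfl
      · intro y' _ hy'
        simp [Pi.single_eq_of_ne hy']
      · simp
    have h5 := hTrCoeff (st.jp β * dirB c.K d.b (fun y' => SL.mon ((Pi.single y 1 : Y → L0 Z Y m) y') (m : ℤ)) c.g) 1
    rw [h1, mul_one] at h5
    rw [zero_add] at h4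
    rw [h4] at h5
    have h6 := congrArg (fun q : RatExt.Z0 Z Y m => (q : RatExt.L0 Z Y m)) h5
    simp only [SL.coeff_zero] at h6
    have h7 := theta_iota (m := m) c (e * coeff [y] c.g)
    have h8 : (m : RatExt.L0 Z Y m) *
        algebraMap Z (RatExt.L0 Z Y m) (Algebra.trace Z c.K (e * coeff [y] c.g)) = 0 := by
      rw [← h7, ← h6]
      rfl
    have hm : ((m : ℕ) : RatExt.L0 Z Y m) ≠ 0 := by
      have : CharZero (RatExt.L0 Z Y m) :=
        charZero_of_injective_algebraMap (algebraMap Z _).injective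
      exact Nat.cast_ne_zero.2 (Fact.out : m.Prime).ne_zero
    have h9 := (mul_eq_zero.mp h8).resolve_left hm
    rwa [map_eq_zero] at h9
  rw [RichField.mem_perp]
  intro w hw
  induction hw using Submodule.span_induction with
  | mem w hw =>
    obtain ⟨y, rfl⟩ := hw
    exact key y
  | zero => simp
  | add u v _ _ hu hv => rw [mul_add, map_add, hu, hv, add_zero]
  | smul r u _ hu => rw [mul_smul_comm, map_smul, hu, smul_zero]

include hTrCyc hTrCoeff in
/-- The number of relations is bounded by the codimension of `W`. -/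
theorem card_le_codim {ι : Type} [Fintype ι] (φ : ι → ℕ → c'.K) (gs1 : ι → c.K)
    (hLB : ∀ i, (st.jp (φ i 1)).LB 0)
    (hcoeff : ∀ i, (st.jp (φ i 1)).coeff 0 = RatExt.iota Z Y m c.K (gs1 i))
    (hB1 : ∀ i x, phiK st (φ i 1 * coeff [x] c'.g) = 0)
    (hind : ∀ a : ι → Z, ∑ i, a i • gs1 i = 0 → a = 0) :
    Fintype.card ι + finrank Z c.W ≤ finrank Z c.K := by
  classical
  have hli : LinearIndependent Z gs1 := by
    rw [Fintype.linearIndependent_iff]
    intro a ha i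
    exact congrFun (hind a ha) i
  have h1 : Submodule.span Z (Set.range gs1) ≤ RichField.perp (Algebra.trace Z c.K) c.W := by
    rw [Submodule.span_le]
    rintro _ ⟨i, rfl⟩
    exact rel_perp c st hTrCoeff hTrCyc (hLB i) (hcoeff i) (hB1 i)
  have h2 := Submodule.finrank_mono h1
  rw [finrank_span_eq_card hli, RichField.finrank_perp ?_] at h2
  · have h3 := Submodule.finrank_le c.W
    omega
  · intro h0
    apply FinishTop.trace_one_ne (Z := Z) c.K
    rw [h0]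
    rfl


omit [CharZero Z] [Nonempty Y] in
lemma rank_comb_scale {F V U ι : Type*} [Field F] [Fintype ι] [DecidableEq ι] [AddCommGroup V]
    [Module F V] [AddCommGroup U] [Module F U] (ω : ι → V →ₗ[F] U →ₗ[F] F) {u : F} (hu : u ≠ 0)
    (a a0 : ι → F) (h : ∀ i, a i = u * a0 i) :
    LinearMap.range (GoodPair.comb ω a) = LinearMap.range (GoodPair.comb ω a0) := by
  have e : GoodPair.comb ω a = u • GoodPair.comb ω a0 := by
    simp only [GoodPair.comb, Finset.smul_sum, smul_smul, h]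
  rw [e, LinearMap.range_smul _ _ hu]

include hA in
lemma smul_lead (a : Zp Z Y m) (ha : a.LB 0) (x : Tilde Z Y m c.K) (hx : x.LB 0) :
    (a • x).LB 0 ∧ (a • x).coeff 0 = algebraMap (Z0 Z Y m) (RL Z Y m c.K) (a.coeff 0) * x.coeff 0 := by
  rw [Algebra.smul_def]
  set t : Tilde Z Y m c.K := algebraMap (Zp Z Y m) (Tilde Z Y m c.K) a with ht
  have ht' := hA a
  rw [← ht] at ht'
  have hl : t.LB 0 := by
    have := SL.lB_stretch (MeasInst.stretchData_RL (A' := c.K) Z Y m) ha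
    rw [mul_zero] at this
    rw [ht']
    exact this
  have h0 : t.coeff 0 = algebraMap (Z0 Z Y m) (RL Z Y m c.K) (a.coeff 0) := by
    have := SL.coeff_stretch_mul (MeasInst.stretchData_RL (A' := c.K) Z Y m) a 0
    rw [mul_zero] at this
    rw [ht']
    exact this
  constructor
  · simpa using hl.mul hx
  · have h1 := SL.coeff_mul_add hl hx
    rw [add_zero] at h1
    rw [h1, h0]
    simp

include hA in
/-- The leading term of a combination of relations. -/
theorem jp_comb_lead {ι : Type} [Fintype ι] (φ : ι → c'.K) (gs1 : ι → c.K)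
    (hLB : ∀ i, (st.jp (φ i)).LB 0)
    (hcoeff : ∀ i, (st.jp (φ i)).coeff 0 = RatExt.iota Z Y m c.K (gs1 i))
    (a0 : ι → Zp Z Y m) (ha0 : ∀ i, (a0 i).LB 0) :
    (st.jp (∑ i, a0 i • φ i)).LB 0 ∧ (st.jp (∑ i, a0 i • φ i)).coeff 0 =
      ∑ i, algebraMap (Z0 Z Y m) (RL Z Y m c.K) ((a0 i).coeff 0) * RatExt.iota Z Y m c.K (gs1 i) := by
  classical
  have hh := fun i => smul_lead c hA (a0 i) (ha0 i) _ (hLB i)
  rw [map_sum]
  simp only [map_smul]
  constructor
  · exact PsiCore.lB_sum _ _ fun i _ => (hh i).1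
  · rw [SL.coeff_sum]
    refine Finset.sum_congr rfl fun i _ => ?_
    rw [(hh i).2, hcoeff]

/-- The leading term is not zero. -/
theorem lead_ne {ι : Type} [Fintype ι] (gs1 : ι → c.K)
    (hind : ∀ a : ι → Z, ∑ i, a i • gs1 i = 0 → a = 0)
    (a0 : ι → Z0 Z Y m) (ha0 : a0 ≠ 0) :
    ∑ i, algebraMap (Z0 Z Y m) (RL Z Y m c.K) (a0 i) * RatExt.iota Z Y m c.K (gs1 i) ≠ 0 := by
  classical
  intro h
  apply ha0
  have hli : LinearIndependent Z gs1 := by
    rw [Fintype.linearIndependent_iff]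
    intro a ha i
    exact congrFun (hind a ha) i
  have h1 : LinearIndependent (L0 Z Y m) (fun i => (1 : L0 Z Y m) ⊗ₜ[Z] gs1 i) :=
    Module.Flat.linearIndependent_one_tmul hli
  have h2 : LinearIndependent (Z0 Z Y m) (fun i => (1 : L0 Z Y m) ⊗ₜ[Z] gs1 i) := by
    refine h1.restrict_scalars ?_
    intro x y hxy
    have hxy' : (x : L0 Z Y m) * 1 = (y : L0 Z Y m) * 1 := hxy
    rw [mul_one, mul_one] at hxy'
    exact Subtype.ext hxy'
  rw [Fintype.linearIndependent_iff] at h2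
  funext i
  exact h2 a0 (by
    rw [← h]
    refine Finset.sum_congr rfl fun i _ => ?_
    have e2 : algebraMap (Z0 Z Y m) (RL Z Y m c.K) (a0 i) =
        ((a0 i : Z0 Z Y m) : L0 Z Y m) ⊗ₜ[Z] (1 : c.K) := rfl
    rw [e2]
    change _ = (((a0 i : Z0 Z Y m) : L0 Z Y m) ⊗ₜ[Z] (1 : c.K)) * ((1 : L0 Z Y m) ⊗ₜ[Z] gs1 i)
    rw [Algebra.TensorProduct.tmul_mul_tmul, mul_one, one_mul]
    change (((a0 i : Z0 Z Y m) : L0 Z Y m) • (1 : L0 Z Y m)) ⊗ₜ[Z] gs1 i = _
    rw [smul_eq_mul, mul_one]) i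

lemma lead_fixed {ι : Type} [Fintype ι] (gs1 : ι → c.K) (a0 : ι → Z0 Z Y m) :
    sR Z Y m c.K (∑ i, algebraMap (Z0 Z Y m) (RL Z Y m c.K) (a0 i) * RatExt.iota Z Y m c.K (gs1 i)) =
      ∑ i, algebraMap (Z0 Z Y m) (RL Z Y m c.K) (a0 i) * RatExt.iota Z Y m c.K (gs1 i) := by
  rw [map_sum]
  refine Finset.sum_congr rfl fun i _ => ?_
  rw [map_mul]
  congr 1
  · exact sR_algebraMap_Z0 Z Y m _
  · exact RatExt.sR_iota Z Y m c.K _

/-- The form of the combination on the kernel. -/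
theorem comb_form {ι : Type} [Fintype ι] [DecidableEq ι] (φ : ι → ℕ → c'.K) (a0 : ι → Zp Z Y m)
    (z z' : LinearMap.ker (hLin (F := Zp Z Y m) c'.g)) :
    GoodPair.comb (fun i => (form2 (RR (phiK st) (φ i) c'.g)).domRestrict₁₂
      (LinearMap.ker (hLin (F := Zp Z Y m) c'.g)) (LinearMap.ker (hLin (F := Zp Z Y m) c'.g))) a0 z z' =
    TrL Z Y m (Algebra.trace Z c.K) (st.jp (∑ i, a0 i • φ i 1) *
      st.jp (∑ t, ∑ t', ((z : Fin d.n → Zp Z Y m) t * (z' : Fin d.n → Zp Z Y m) t') •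
        coeff [t, t'] c'.g)) := by
  rw [GoodPair.comb_apply]
  simp only [LinearMap.domRestrict₁₂_apply]
  have h1 : ∀ i, form2 (RR (phiK st) (φ i) c'.g) (z : Fin d.n → Zp Z Y m)
      (z' : Fin d.n → Zp Z Y m) = phiK st (φ i 1 * ∑ t, ∑ t',
        ((z : Fin d.n → Zp Z Y m) t * (z' : Fin d.n → Zp Z Y m) t') • coeff [t, t'] c'.g) :=
    fun i => form2_RR_of_ker (phiK st) c'.g0 (φ i) _ _ z.2
  simp only [h1]
  rw [← map_mul, Finset.sum_mul]
  change _ = phiK st _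
  rw [map_sum]
  refine Finset.sum_congr rfl fun i _ => ?_
  rw [smul_mul_assoc, map_smul, smul_eq_mul]

lemma comb_rel {ι : Type} [Fintype ι] (φ : ι → ℕ → c'.K) (a0 : ι → Zp Z Y m)
    (hB1 : ∀ i x, phiK st (φ i 1 * coeff [x] c'.g) = 0) (t : Fin d.n) :
    phiK st ((∑ i, a0 i • φ i 1) * coeff [t] c'.g) = 0 := by
  rw [Finset.sum_mul, map_sum]
  refine Finset.sum_eq_zero fun i _ => ?_
  rw [smul_mul_assoc, map_smul, hB1, smul_zero]


include hTrCoeff in
lemma TrL_one_ne : TrL Z Y m (Algebra.trace Z c.K) 1 ≠ 0 := by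
  intro h0
  have h1 := hTrCoeff 1 0
  rw [h0, mul_zero] at h1
  have h2 := congrArg (fun q : RatExt.Z0 Z Y m => (q : RatExt.L0 Z Y m)) h1
  have h3 := theta_iota (m := m) c 1
  have h4 : RatExt.iota Z Y m c.K 1 = ((1 : Tilde Z Y m c.K).coeff 0) := by
    rw [map_one]
    rfl
  rw [h4] at h3
  have h5 : (m : RatExt.L0 Z Y m) * algebraMap Z (RatExt.L0 Z Y m) (Algebra.trace Z c.K 1) = 0 := by
    rw [← h3]
    exact h2.symm
  have hm : ((m : ℕ) : RatExt.L0 Z Y m) ≠ 0 := by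
    have : CharZero (RatExt.L0 Z Y m) :=
      charZero_of_injective_algebraMap (algebraMap Z _).injective
    exact Nat.cast_ne_zero.2 (Fact.out : m.Prime).ne_zero
  have h9 := (mul_eq_zero.mp h5).resolve_left hm
  rw [map_eq_zero] at h9
  exact FinishTop.trace_one_ne c.K h9

include hTrCoeff hTrCyc hA in
/-- The rank of the combination, given the Tilde facts. -/
theorem rank_bound_core (hd : d.b = genericBase Z Y m) (hE : c.Rich)
    (hdim : finrank (Zp Z Y m) c'.K ≤ m * finrank Z c.K)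
    {ι : Type} [Fintype ι] (φ : ι → ℕ → c'.K) (gs1 : ι → c.K)
    (hLB : ∀ i, (st.jp (φ i 1)).LB 0)
    (hcoeff : ∀ i, (st.jp (φ i 1)).coeff 0 = RatExt.iota Z Y m c.K (gs1 i))
    (hB1 : ∀ i x, phiK st (φ i 1 * coeff [x] c'.g) = 0)
    (hind : ∀ a : ι → Z, ∑ i, a i • gs1 i = 0 → a = 0)
    (hm3 : 3 * finrank Z c.K + 3 * Fintype.card ι ≤ m)
    (a : ι → Zp Z Y m) (ha : a ≠ 0) :
    3 * Fintype.card ι ≤ finrank (Zp Z Y m) (LinearMap.range
      (GoodPair.comb (fun i => (form2 (RR (phiK st) (φ i) c'.g)).domRestrict₁₂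
        (LinearMap.ker (hLin (F := Zp Z Y m) c'.g)) (LinearMap.ker (hLin (F := Zp Z Y m) c'.g))) a)) := by
  classical
  obtain ⟨v, a0, hav, ha0, i0, hi0⟩ := exists_scale a ha
  have hϖ : (SL.ϖz v : Lau (Z0 Z Y m)) ≠ 0 := by
    intro h0
    have h1 : (SL.ϖz v : Lau (Z0 Z Y m)) * SL.ϖz (-v) = 1 := by
      rw [← SL.ϖz_mul, add_neg_cancel, SL.ϖz_zero]
    rw [h0, zero_mul] at h1
    exact zero_ne_one h1
  rw [rank_comb_scale _ hϖ a a0 hav]
  set e := finrank Z c.K with he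
  set w := finrank Z c.W with hw
  set r := Fintype.card ι with hr
  set ξ := (baseOf c.K d.b).value c.g with hξdef
  have hξLB : ξ.LB 1 := xi_LB c st
  have hξ1 : ξ.coeff 1 ≠ 0 := xi_coeff_ne c hd hE
  have hcard : r + w ≤ e := card_le_codim c st hTrCoeff hTrCyc φ gs1 hLB hcoeff hB1 hind
  have hrich : 7 * (e - w) + 1 ≤ e := hE
  set Βk : c'.K := ∑ i, a0 i • φ i 1 with hΒk
  obtain ⟨hB, hB0⟩ := jp_comb_lead c st hA (fun i => φ i 1) gs1 hLB hcoeff a0 ha0
  set s := ∑ i, algebraMap (Z0 Z Y m) (RL Z Y m c.K) ((a0 i).coeff 0) * RatExt.iota Z Y m c.K (gs1 i) with hs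
  have hsne : s ≠ 0 := by
    refine lead_ne c gs1 hind (fun i => (a0 i).coeff 0) ?_
    intro h0
    exact hi0 (congrFun h0 i0)
  have hsfix : sR Z Y m c.K s = s := lead_fixed c gs1 _
  -- the form
  set ω := GoodPair.comb (fun i => (form2 (RR (phiK st) (φ i) c'.g)).domRestrict₁₂
        (LinearMap.ker (hLin (F := Zp Z Y m) c'.g)) (LinearMap.ker (hLin (F := Zp Z Y m) c'.g))) a0 with hω
  have hωdef := comb_form c st φ a0
  have hBrel : ∀ t, TrL Z Y m (Algebra.trace Z c.K) (st.jp Βk * st.jp (coeff [t] c'.g)) = 0 := by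
    intro t
    rw [← map_mul]
    exact comb_rel c st φ a0 hB1 t
  obtain ⟨proj, hproj⟩ := exists_proj d
  have hσF := sR_algebraMap_Z0 (K := c.K) Z Y m
  have hm0 : 0 < m := Nat.pos_of_ne_zero (NeZero.ne m)
  have hσ : (RatExt.sR Z Y m c.K) ^ m = 1 := (MeasInst.stretchData_RL Z Y m).pow
  have hmL : ((m : ℕ) : RatExt.RL Z Y m c.K) ≠ 0 := by
    have : CharZero (RatExt.RL Z Y m c.K) :=
      charZero_of_injective_algebraMap (algebraMap Z _).injective
    exact Nat.cast_ne_zero.2 (NeZero.ne m)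
  have hsplit : ∀ x : Tilde Z Y m c.K, ∃ p A, ξ * p = p * ξ ∧ x = p + (ξ * A - A * ξ) :=
    fun x => DivSplit.exists_split (Zp Z Y m) ξ x
  have hone : TrL Z Y m (Algebra.trace Z c.K) 1 ≠ 0 := TrL_one_ne c hTrCoeff
  have hnd : ∀ p : Tilde Z Y m c.K, ξ * p = p * ξ →
      (∀ β, ξ * β = β * ξ → TrL Z Y m (Algebra.trace Z c.K) (β * p) = 0) → p = 0 := by
    intro p hp h
    by_contra hp0
    apply hone
    have h1 := h p⁻¹ (Commute.inv_right₀ hp)
    rwa [inv_mul_cancel₀ hp0] at h1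
  have htr1 : Algebra.trace Z c.K 1 ≠ 0 := FinishTop.trace_one_ne c.K
  set Θ := ThetaK Z Y m (Algebra.trace Z c.K) with hΘ
  have hΘσ : ∀ x, Θ (RatExt.sR Z Y m c.K x) = Θ x := ThetaK_sR Z Y m _
  have hΘnd : ∀ x : RL Z Y m c.K, x ≠ 0 → ∃ y, Θ (x * y) ≠ 0 := fun x hx =>
    ThetaK_nondeg Z Y m _ htr1 hx
  set κ := s * NN ξ m with hκ
  have hκ0 : κ ≠ 0 := mul_ne_zero hsne (NN_ne hξLB hξ1 _)
  have hκσ : RatExt.sR Z Y m c.K κ = κ := by
    rw [hκ, map_mul]
    congr 1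
    exact NN_fixed hξLB hξ1 hσ
  -- the map `x ↦ ∑ x_y ⊗ f_y`
  let φ0 : (Y → L0 Z Y m) →ₗ[Z0 Z Y m] RL Z Y m c.K := phi0 Z Y m (fun y => coeff [y] c.g)
  have hφ0 : finrank (Z0 Z Y m) (LinearMap.range φ0) = m * w :=
    finrank_range_phi0 Z Y m (fun y => coeff [y] c.g)
  have hdimL : finrank (Z0 Z Y m) (RL Z Y m c.K) = m * e := finrank_RL_Z0 Z Y m
  have hfix : finrank (Z0 Z Y m) (fixedS hσF) ≤ e := finrank_fixedS_le Z Y m
  have hme : 0 < e := Module.finrank_pos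
  have hm3' : 3 ≤ m := by omega
  -- the block data
  let j : Fin 3 → ℤ := fun l => ((l : ℕ) : ℤ) + 1
  have hj : StrictMono j := by
    intro l l' hl
    have : (l : ℕ) < (l' : ℕ) := hl
    simp only [j]
    omega
  have hj1 : ∀ l, 0 < j l := fun l => by
    simp only [j]
    omega
  have hjm : ∀ l, j l ≤ m := fun l => by
    have : (l : ℕ) < 3 := l.2
    simp only [j]
    omega
  let φ1 : Fin 3 → ((Y → L0 Z Y m) →ₗ[Z0 Z Y m] RL Z Y m c.K) := fun l =>
    (LinearMap.mulLeft (Z0 Z Y m) (NN ξ (j l))⁻¹) ∘ₗ φ0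
  let φ2 : Fin 3 → ((Y → L0 Z Y m) →ₗ[Z0 Z Y m] RL Z Y m c.K) := fun l =>
    (LinearMap.mulLeft (Z0 Z Y m) (NN ξ ((m : ℤ) + 1 - j l))⁻¹) ∘ₗ φ0
  have hXc : ∀ (j0 : ℤ) (x : Y → L0 Z Y m), (dirB c.K d.b (fun y => SL.mon (x y) j0) c.g).coeff j0 =
      NN ξ j0 * ((LinearMap.mulLeft (Z0 Z Y m) (NN ξ j0)⁻¹) ∘ₗ φ0) x := by
    intro j0 x
    rw [dirB_lead]
    have e1 : ((LinearMap.mulLeft (Z0 Z Y m) (NN ξ j0)⁻¹) ∘ₗ φ0) x = (NN ξ j0)⁻¹ * φ0 x := rfl
    rw [e1, mul_inv_cancel_left₀ (NN_ne hξLB hξ1 _)]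
    rfl
  have key : ∑ l, finrank (Z0 Z Y m) (LinearMap.range
      (blockForm hσF m Θ (s * NN ξ m) (φ1 l) (φ2 l) (j l - 1))) ≤
      finrank (Zp Z Y m) (LinearMap.range ω) +
        2 * finrank (Zp Z Y m) (LinearMap.range (hLin (F := Zp Z Y m) c'.g)) := rank_forms_core (F := Z0 Z Y m) (L := RL Z Y m c.K) (σ := sR Z Y m c.K) (m := m)
    (baseOf c.K d.b) c.g (Dm c.K) (Cmap Z Y m c.K) (Inn d.b)
    (fun c0 X y => c0 * X y) (fun c0 X y => X y * c0) ?_ ?_ ?_ ?_
    d.X (isDirs d c.K) st.jp c'.g0 st.U'U st.U1 (conj' c st) hσF hσ hmL hm0 Θ hΘσ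
    (TrL Z Y m (Algebra.trace Z c.K)) hTrCoeff hTrCyc hξLB hξ1 hsplit hnd (jp_comm_xi c st) proj hproj
    hBrel hB hB0 hsfix ω hωdef j hj hj1 hjm
    (DD := fun _ => Y → L0 Z Y m) (DD' := fun _ => Y → L0 Z Y m)
    (fun l x y => SL.mon (x y) (j l)) (fun l x y => SL.mon (x y) ((m : ℤ) + 1 - j l)) φ1 φ2 ?_ ?_ ?_ ?_ ?_
  · have hblock : ∀ l, 2 * (m * w) ≤ m * e + e + finrank (Z0 Z Y m) (LinearMap.range
        (blockForm hσF m Θ (s * NN ξ m) (φ1 l) (φ2 l) (j l - 1))) := by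
      intro l
      have h : 2 * finrank (Z0 Z Y m) (LinearMap.range φ0) ≤ finrank (Z0 Z Y m) (RL Z Y m c.K) +
          finrank (Z0 Z Y m) (fixedS hσF) + finrank (Z0 Z Y m) (LinearMap.range
          (blockForm hσF m Θ (s * NN ξ m) (φ1 l) (φ2 l) (j l - 1))) :=
        rank_block_mul hσF hσ hmL Θ hΘσ hΘnd hκ0 hκσ φ0 (NN_ne hξLB hξ1 (j l))
          (NN_ne hξLB hξ1 ((m : ℤ) + 1 - j l)) (j l - 1)
      rw [hφ0, hdimL] at h
      omega
    have hlin : finrank (Zp Z Y m) (LinearMap.range (hLin (F := Zp Z Y m) c'.g)) ≤ m * e :=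
      le_trans (Submodule.finrank_le _) hdim
    rw [Fin.sum_univ_three] at key
    have h0 := hblock 0
    have h1 := hblock 1
    have h2 := hblock 2
    obtain ⟨ρ, hρ⟩ : ∃ ρ, e = w + ρ := ⟨e - w, by omega⟩
    have hρ' : e - w = ρ := by omega
    rw [hρ'] at hrich
    have h3 : m * e = m * w + m * ρ := by rw [hρ, mul_add]
    have h4 : m * (6 * ρ + 1) ≤ m * w := Nat.mul_le_mul_left m (by omega)
    have h5 : m * (6 * ρ + 1) = 6 * (m * ρ) + m := by ring
    rw [h5] at h4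
    omega
  · intro c0 y
    simp only [Dm_apply, Inn_apply, map_sub, map_mul]
    rfl
  · intro c0 X y
    simp only [Dm_apply, map_mul]
  · intro c0 X y
    simp only [Dm_apply, map_mul]
  · intro c0 r
    exact Rmap_comm_Cmap r c0
  · intro l x
    exact dirB_lb c.K d.b x (j l) c.g
  · intro l x
    exact hXc (j l) x
  · intro l x
    exact dirB_lb c.K d.b x ((m : ℤ) + 1 - j l) c.g
  · intro l x
    exact hXc ((m : ℤ) + 1 - j l) x
  · intro l l' x x'
    exact dir2B_lb c.K d.b x x' (j l) ((m : ℤ) + 1 - j l') c.g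


end Main

/-- The coefficients of `TrL`. -/
theorem TrL_coeff_theta [Nonempty Y] (K : Type) [Field K] [Algebra Z K] [FiniteDimensional Z K]
    (lam : K →ₗ[Z] Z) (x : Tilde Z Y m K) (q : ℤ) :
    (TrL Z Y m lam x).coeff q = ThetaK Z Y m lam (x.coeff ((m : ℤ) * q)) := by
  apply Subtype.ext
  rw [TrL_coeff_coe, ThetaK_coe]

/-- **The rank input `FinishTop.RankInput`**. -/
theorem rank_input (c : KConf Z Y) (hE : c.Rich)
    (hdim : ∀ (m : ℕ) [Fact m.Prime] (d : LevelData Z Y m) (c' : KConf (Zp Z Y m) (Fin d.n))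
      (st : LevelStep d c c'), st.jp st.ξ ≠ 0 → ¬ ((m : ℤ) ∣ SL.val (st.jp st.ξ)) →
      finrank (Zp Z Y m) c'.K ≤ m * finrank Z c.K) :
    FinishTop.RankInput c := by
  intro m _ d hd c' st ι _ φ gs1 hLB hcoeff hB1 hind hm3 a ha
  have hne : Nonempty Y := by
    obtain ⟨w0, hw0, h0⟩ := RichField.exists_ne_zero_of_rich hE
    by_contra h
    apply h0
    have hW0 : c.W = ⊥ := by
      refine (Submodule.span_eq_bot).mpr ?_
      rintro _ ⟨y, rfl⟩
      exact absurd ⟨y⟩ h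
    rw [hW0] at hw0
    exact (Submodule.mem_bot Z).mp hw0
  have hξ : st.jp st.ξ = (baseOf c.K d.b).value c.g := xi_eq c st
  have h1 := xi_LB c st
  have h2 := xi_coeff_ne c hd hE
  have hv : SL.val (st.jp st.ξ) = 1 := by
    rw [hξ]
    exact SL.val_eq_of h2 h1
  have hdim' := hdim m d c' st
    (by
      rw [hξ]
      exact Forms.xi_ne h2)
    (by
      rw [hv]
      intro h
      have h3 : m ∣ 1 := by exact_mod_cast h
      exact (Fact.out : m.Prime).one_lt.ne' (Nat.dvd_one.mp h3))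
  exact rank_bound_core c st (TrL_coeff_theta c.K _)
    (TrL_mul_comm Z Y m _ (fun x y => by rw [mul_comm])) (fun z => rfl) hd hE hdim' φ gs1 hLB hcoeff
    hB1 hind hm3 a ha

/-- The letter budget for a `K`-level step. -/
theorem finrank_le_K {d : LevelData Z Y m} {c : KConf Z Y} {c' : KConf (Zp Z Y m) (Fin d.n)}
    (st : LevelStep d c c') (hξ : st.jp st.ξ ≠ 0) (hval : ¬ ((m : ℤ) ∣ SL.val (st.jp st.ξ))) :
    finrank (Zp Z Y m) c'.K ≤ m * finrank Z c.K := by
  have : Nonempty Y := by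
    obtain ⟨y, _, _⟩ := d.hgen
    exact ⟨y⟩
  exact @MeasInst.finrank_le_mul_inst Z _ Y m _ _ _ c.K _ _ _
    (MeasFinal.instZpT Y Z m c.K) (fun _ => rfl) c'.K _ _ st.jp (st.jp st.ξ) st.jp_range hξ hval

/-- **The rank input**, unconditional. -/
theorem rank_input' (c : KConf Z Y) (hE : c.Rich) : FinishTop.RankInput c :=
  rank_input c hE (fun _ _ _ _ st h1 h2 => finrank_le_K st h1 h2)

end Concrete

end Crest.Agent.Lib.Kurosh.FormsConcrete
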