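import Mathlib

/-!
# S0270, Section 5(d), field level

`L` a field, `σ` an automorphism with `σ^m = 1`, `(m : L) ≠ 0`.
`tr = ∑_{r<m} σ^r`, additive Hilbert 90 with an explicit inverse, normalised so that `tr = 0`.
-/

set_option autoImplicit false

namespace Crest.Agent.Lib.Kurosh.Forms

open Finset

variable {L : Type*} [Field L] (σ : RingAut L) (m : ℕ)

/-- `tr = ∑_{r<m} σ^r`. -/
def tr (x : L) : L := ∑ r ∈ range m, (σ ^ r) x

lemma pow_succ_apply' (r : ℕ) (x : L) : (σ ^ (r + 1)) x = (σ ^ r) (σ x) := by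
  rw [pow_succ]; rfl

lemma pow_succ_apply'' (r : ℕ) (x : L) : (σ ^ (r + 1)) x = σ ((σ ^ r) x) := by
  rw [pow_succ']; rfl

lemma tr_add (x y : L) : tr σ m (x + y) = tr σ m x + tr σ m y := by
  simp [tr, Finset.sum_add_distrib]

lemma tr_sub (x y : L) : tr σ m (x - y) = tr σ m x - tr σ m y := by
  simp [tr, Finset.sum_sub_distrib]

lemma tr_neg (x : L) : tr σ m (-x) = - tr σ m x := by
  simp [tr]

lemma tr_zero : tr σ m (0 : L) = 0 := by
  simp [tr]

variable {σ m}

lemma tr_fixed_mul {β : L} (hβ : σ β = β) (x : L) : tr σ m (β * x) = β * tr σ m x := by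
  have hβ' : ∀ r : ℕ, (σ ^ r) β = β := by
    intro r
    induction r with
    | zero => simp
    | succ r ih => rw [pow_succ_apply', hβ, ih]
  unfold tr
  rw [Finset.mul_sum]
  refine Finset.sum_congr rfl fun r _ => ?_
  rw [map_mul, hβ']

lemma tr_mul_fixed {β : L} (hβ : σ β = β) (x : L) : tr σ m (x * β) = tr σ m x * β := by
  rw [mul_comm, tr_fixed_mul hβ, mul_comm]

lemma tr_of_fixed {β : L} (hβ : σ β = β) : tr σ m β = (m : L) * β := by
  have h := tr_fixed_mul (m := m) hβ 1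
  rw [mul_one] at h
  rw [h]
  have h1 : tr σ m (1 : L) = (m : L) := by
    unfold tr
    simp only [map_one, Finset.sum_const, Finset.card_range, nsmul_eq_mul, mul_one]
  rw [h1, mul_comm]

section Order

variable (hσ : σ ^ m = 1)
include hσ

lemma tr_apply (x : L) : tr σ m (σ x) = tr σ m x := by
  unfold tr
  have h1 : ∑ r ∈ range m, (σ ^ r) (σ x) = ∑ r ∈ range m, (σ ^ (r + 1)) x :=
    Finset.sum_congr rfl fun r _ => (pow_succ_apply' σ r x).symm
  rw [h1]
  have h2 := Finset.sum_range_succ (fun r => (σ ^ r) x) m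
  have h3 := Finset.sum_range_succ' (fun r => (σ ^ r) x) m
  have h4 : (σ ^ m) x = x := by rw [hσ]; rfl
  simp only [pow_zero] at h3
  have h5 : (1 : RingAut L) x = x := rfl
  rw [h5] at h3
  rw [h4] at h2
  have := h2.symm.trans h3
  exact (add_right_cancel this).symm

lemma apply_tr (x : L) : σ (tr σ m x) = tr σ m x := by
  have : σ (tr σ m x) = tr σ m (σ x) := by
    simp only [tr, map_sum]
    refine Finset.sum_congr rfl fun r _ => ?_
    rw [← pow_succ_apply'', pow_succ_apply']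
  rw [this, tr_apply hσ]

lemma tr_delta (x : L) : tr σ m (σ x - x) = 0 := by
  rw [tr_sub, tr_apply hσ, sub_self]

lemma tr_pow_apply (k : ℕ) (x : L) : tr σ m ((σ ^ k) x) = tr σ m x := by
  induction k with
  | zero => simp
  | succ k ih => rw [pow_succ_apply'', tr_apply hσ, ih]

end Order

variable (σ m)

/-- Partial sums. -/
def psum (u : L) (i : ℕ) : L := ∑ k ∈ range i, (σ ^ k) u

/-- Sum of the partial sums. -/
def ssum (u : L) : L := ∑ i ∈ range m, psum σ u i

variable {σ m}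

lemma apply_psum (u : L) (i : ℕ) : σ (psum σ u i) = psum σ u (i + 1) - u := by
  unfold psum
  rw [Finset.sum_range_succ', map_sum]
  simp only [pow_zero, RingAut.one_apply]
  rw [add_sub_cancel_right]
  refine Finset.sum_congr rfl fun k _ => ?_
  rw [pow_succ_apply'']

lemma delta_ssum (hσ : σ ^ m = 1) (u : L) :
    σ (ssum σ m u) - ssum σ m u = tr σ m u - (m : L) * u := by
  unfold ssum
  rw [map_sum]
  have h1 : ∑ i ∈ range m, σ (psum σ u i) = ∑ i ∈ range m, psum σ u (i + 1) - (m : L) * u := by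
    simp_rw [apply_psum]
    rw [Finset.sum_sub_distrib]
    simp
  rw [h1]
  have h2 := Finset.sum_range_succ (fun i => psum σ u i) m
  have h3 := Finset.sum_range_succ' (fun i => psum σ u i) m
  have h4 : psum σ u 0 = 0 := by simp [psum]
  have h5 : psum σ u m = tr σ m u := rfl
  rw [h4, add_zero] at h3
  rw [h5] at h2
  have h6 : ∑ i ∈ range m, psum σ u (i + 1) = ∑ i ∈ range m, psum σ u i + tr σ m u :=
    h3.symm.trans h2
  rw [h6]
  ring

/-- Explicit inverse of `Δ = σ - 1` on `tr = 0`, any `u`: `Δ (dinv u) = u - tr u / m`. -/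
noncomputable def dinv (σ : RingAut L) (m : ℕ) (u : L) : L :=
  -((m : L)⁻¹) * ssum σ m u

/-- Normalised inverse: `bz η` has `tr = 0` and `Δ (bz η) = η - tr η / m`. -/
noncomputable def bz (σ : RingAut L) (m : ℕ) (η : L) : L :=
  dinv σ m η - (m : L)⁻¹ * tr σ m (dinv σ m η)

/-- `prU η = η - tr η / m`. -/
noncomputable def prU (σ : RingAut L) (m : ℕ) (η : L) : L := η - (m : L)⁻¹ * tr σ m η

section Inv

variable (hσ : σ ^ m = 1) (hm : (m : L) ≠ 0)
include hσ hm

lemma delta_dinv (u : L) : σ (dinv σ m u) - dinv σ m u = prU σ m u := by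
  unfold dinv prU
  have hmfix : σ ((m : L)⁻¹) = (m : L)⁻¹ := by simp
  rw [map_mul, map_neg, hmfix]
  have := delta_ssum hσ u
  have h2 : -(m : L)⁻¹ * σ (ssum σ m u) - -(m : L)⁻¹ * ssum σ m u =
      -(m : L)⁻¹ * (σ (ssum σ m u) - ssum σ m u) := by ring
  rw [h2, this]
  field_simp
  ring

lemma delta_bz (η : L) : σ (bz σ m η) - bz σ m η = prU σ m η := by
  unfold bz
  have hmfix : σ ((m : L)⁻¹) = (m : L)⁻¹ := by simp
  rw [map_sub, map_mul, hmfix, apply_tr hσ]
  have := delta_dinv hσ hm η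
  linear_combination this

lemma tr_bz (η : L) : tr σ m (bz σ m η) = 0 := by
  unfold bz
  have hmfix : σ ((m : L)⁻¹) = (m : L)⁻¹ := by simp
  have h2 : σ (tr σ m (dinv σ m η)) = tr σ m (dinv σ m η) := apply_tr hσ _
  have h3 : σ ((m : L)⁻¹ * tr σ m (dinv σ m η)) = (m : L)⁻¹ * tr σ m (dinv σ m η) := by
    rw [map_mul, hmfix, h2]
  rw [tr_sub, tr_of_fixed h3]
  field_simp
  ring

lemma tr_prU (η : L) : tr σ m (prU σ m η) = 0 := by
  unfold prU
  have hmfix : σ ((m : L)⁻¹) = (m : L)⁻¹ := by simp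
  have h2 : σ (tr σ m η) = tr σ m η := apply_tr hσ _
  have h3 : σ ((m : L)⁻¹ * tr σ m η) = (m : L)⁻¹ * tr σ m η := by
    rw [map_mul, hmfix, h2]
  rw [tr_sub, tr_of_fixed h3]
  field_simp
  ring

end Inv

end Crest.Agent.Lib.Kurosh.Forms
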