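import Crest.Agent.Lib.Kurosh.SkewLaurent
import Crest.Agent.Lib.Kurosh.FormsField

/-!
# S0270, Section 5(d): leading terms of the Hensel splitting

`ξ = a ϖ + …` in `SL L σ`. For `c = p + [ξ, A]` with `p` commuting with `ξ` and `c` of valuation
`≥ j`: `p` has valuation `≥ j`, and after changing `A` by an element of the centraliser,
`A` has valuation `≥ j - 1` with leading coefficient `N_{j-1} · bz (c_j / N_j)`,
and `p_j = N_j · tr(c_j / N_j) / m`.
-/

set_option autoImplicit false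

namespace Crest.Agent.Lib.Kurosh.Forms

open Finset

variable {L : Type*} [Field L] {σ : RingAut L} {m : ℕ}

open SL

lemma zpow_fixed {β : L} (hβ : σ β = β) (i : ℤ) : (σ ^ i) β = β := by
  have hinv : σ⁻¹ β = β := by
    have h : σ⁻¹ (σ β) = β := by
      rw [← RingAut.mul_apply, inv_mul_cancel]; rfl
    rwa [hβ] at h
  induction i using Int.induction_on with
  | zero => simp
  | succ i ih =>
    rw [zpow_add_one, RingAut.mul_apply, hβ, ih]
  | pred i ih =>
    rw [zpow_sub_one, RingAut.mul_apply, hinv, ih]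

section Lead

variable (ξ : SL L σ)

/-- `N v` = leading coefficient of `ξ^v`. -/
noncomputable def NN (v : ℤ) : L := (ξ ^ v).coeff v

variable {ξ}

lemma xi_ne (ha : ξ.coeff 1 ≠ 0) : ξ ≠ 0 := by
  rintro rfl
  exact ha rfl

lemma val_xi (hξ : ξ.LB 1) (ha : ξ.coeff 1 ≠ 0) : val ξ = 1 := val_eq_of ha hξ

lemma val_one' : val (1 : SL L σ) = 0 := by
  apply val_eq_of
  · rw [coeff_one, if_pos rfl]; exact one_ne_zero
  · exact lB_one

lemma val_zpow (hξ : ξ.LB 1) (ha : ξ.coeff 1 ≠ 0) (v : ℤ) : val (ξ ^ v) = v := by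
  have hx := xi_ne ha
  have hv := val_xi hξ ha
  have hinv : val (ξ⁻¹) = -1 := by
    have h1 : ξ * ξ⁻¹ = 1 := mul_inv_cancel₀ hx
    have h2 : val (ξ * ξ⁻¹) = val ξ + val (ξ⁻¹) := val_mul hx (inv_ne_zero hx)
    rw [h1, val_one', hv] at h2
    omega
  induction v using Int.induction_on with
  | zero => simpa using val_one'
  | succ i ih =>
    rw [zpow_add_one₀ hx, val_mul (zpow_ne_zero _ hx) hx, ih, hv]
  | pred i ih =>
    rw [zpow_sub_one₀ hx, val_mul (zpow_ne_zero _ hx) (inv_ne_zero hx), ih, hinv]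
    ring

lemma lB_zpow (hξ : ξ.LB 1) (ha : ξ.coeff 1 ≠ 0) (v : ℤ) : (ξ ^ v).LB v := by
  have := lB_val (ξ ^ v)
  rwa [val_zpow hξ ha] at this

lemma NN_ne (hξ : ξ.LB 1) (ha : ξ.coeff 1 ≠ 0) (v : ℤ) : NN ξ v ≠ 0 := by
  have h := coeff_val_ne (zpow_ne_zero v (xi_ne ha))
  rwa [val_zpow hξ ha] at h

lemma NN_zero : NN ξ 0 = 1 := by
  simp [NN, coeff_one]

lemma NN_one : NN ξ 1 = ξ.coeff 1 := by
  simp [NN]

lemma NN_add (hξ : ξ.LB 1) (ha : ξ.coeff 1 ≠ 0) (u v : ℤ) :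
    NN ξ (u + v) = NN ξ u * (σ ^ u) (NN ξ v) := by
  unfold NN
  rw [zpow_add₀ (xi_ne ha), coeff_mul_add (lB_zpow hξ ha u) (lB_zpow hξ ha v)]

lemma zpow_one_apply (x : L) : (σ ^ (1 : ℤ)) x = σ x := by
  rw [zpow_one]

lemma NN_succ_left (hξ : ξ.LB 1) (ha : ξ.coeff 1 ≠ 0) (v : ℤ) :
    NN ξ (v + 1) = ξ.coeff 1 * σ (NN ξ v) := by
  rw [add_comm, NN_add hξ ha, NN_one, zpow_one_apply]

lemma NN_succ_right (hξ : ξ.LB 1) (ha : ξ.coeff 1 ≠ 0) (v : ℤ) :
    NN ξ (v + 1) = NN ξ v * (σ ^ v) (ξ.coeff 1) := by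
  rw [NN_add hξ ha, NN_one]

/-- Leading coefficient of a commutator. -/
lemma comm_coeff (hξ : ξ.LB 1) (ha : ξ.coeff 1 ≠ 0) {A : SL L σ} {v : ℤ} (hA : A.LB v) :
    (ξ * A - A * ξ).coeff (v + 1) =
      NN ξ (v + 1) * (σ (A.coeff v / NN ξ v) - A.coeff v / NN ξ v) := by
  have h1 : (ξ * A).coeff (1 + v) = ξ.coeff 1 * (σ ^ (1 : ℤ)) (A.coeff v) := coeff_mul_add hξ hA
  have h2 : (A * ξ).coeff (v + 1) = A.coeff v * (σ ^ v) (ξ.coeff 1) := coeff_mul_add hA hξ
  rw [add_comm 1 v, zpow_one_apply] at h1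
  rw [coeff_sub, h1, h2]
  have hN := NN_ne hξ ha v
  have hN' : σ (NN ξ v) ≠ 0 := by
    intro h
    exact hN ((map_eq_zero_iff _ σ.injective).mp h)
  rw [map_div₀, NN_succ_left hξ ha]
  have h3 : ξ.coeff 1 * σ (NN ξ v) = NN ξ v * (σ ^ v) (ξ.coeff 1) := by
    rw [← NN_succ_left hξ ha, NN_succ_right hξ ha]
  have e1 : ξ.coeff 1 * σ (NN ξ v) * (σ (A.coeff v) / σ (NN ξ v) - A.coeff v / NN ξ v)
      = ξ.coeff 1 * σ (A.coeff v) - (ξ.coeff 1 * σ (NN ξ v)) * (A.coeff v / NN ξ v) := by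
    field_simp
  rw [e1, h3]
  field_simp

/-- The leading coefficient of an element of the centraliser. -/
lemma centr_lead (hξ : ξ.LB 1) (ha : ξ.coeff 1 ≠ 0) {p : SL L σ} {u : ℤ} (hp : p.LB u)
    (hc : ξ * p = p * ξ) : σ (p.coeff u / NN ξ u) = p.coeff u / NN ξ u := by
  have h := comm_coeff hξ ha hp
  rw [hc, sub_self, coeff_zero] at h
  have hN := NN_ne hξ ha (u + 1)
  have := (mul_eq_zero.mp h.symm).resolve_left hN
  exact sub_eq_zero.mp this

lemma C_comm_xi {e : L} (he : σ e = e) : (C e : SL L σ) * ξ = ξ * C e := by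
  apply SL.ext
  funext n
  rw [coeff_C_mul, coeff_mul_C, zpow_fixed he, mul_comm]

/-- Centraliser elements from a fixed scalar and a power of `ξ`. -/
lemma centr_C_zpow {e : L} (he : σ e = e) (v : ℤ) :
    ξ * ((C e : SL L σ) * ξ ^ v) = ((C e : SL L σ) * ξ ^ v) * ξ := by
  rw [← mul_assoc, ← C_comm_xi he, mul_assoc, mul_assoc]
  congr 1
  exact (Commute.zpow_right₀ (Commute.refl ξ) v).eq

section Split

variable (hξ : ξ.LB 1) (ha : ξ.coeff 1 ≠ 0) (hσ : σ ^ m = 1) (hm : (m : L) ≠ 0)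
include hξ ha hσ hm

/-- One step of the lowering. -/
lemma split_step {c p A : SL L σ} {u : ℤ} (hcu : c.coeff u = 0) (hpu : p.LB u)
    (hAu : A.LB (u - 1)) (hcomm : ξ * p = p * ξ) (heq : c = p + (ξ * A - A * ξ)) :
    p.LB (u + 1) ∧ ∃ κ : SL L σ, ξ * κ = κ * ξ ∧ (A - κ).LB u := by
  set β := p.coeff u / NN ξ u with hβ
  set e := A.coeff (u - 1) / NN ξ (u - 1) with he
  have hβfix : σ β = β := centr_lead hξ ha hpu hcomm
  have h1 : (ξ * A - A * ξ).coeff u = NN ξ u * (σ e - e) := by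
    have := comm_coeff hξ ha hAu
    rwa [sub_add_cancel] at this
  have hNu := NN_ne hξ ha u
  have h2 : p.coeff u = NN ξ u * β := by
    rw [hβ]; field_simp
  have h3 : β + (σ e - e) = 0 := by
    have : c.coeff u = NN ξ u * (β + (σ e - e)) := by
      rw [heq, coeff_add, h1, h2]; ring
    rw [hcu] at this
    exact (mul_eq_zero.mp this.symm).resolve_left hNu
  -- apply the trace
  have h4 : tr σ m β = 0 := by
    have h5 : tr σ m (β + (σ e - e)) = 0 := by rw [h3, tr_zero]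
    rw [tr_add, tr_delta hσ, add_zero] at h5
    exact h5
  have h5 : β = 0 := by
    rw [tr_of_fixed hβfix] at h4
    exact (mul_eq_zero.mp h4).resolve_left hm
  have h6 : σ e = e := by
    rw [h5, zero_add] at h3
    exact sub_eq_zero.mp h3
  constructor
  · intro i hi
    rcases lt_or_eq_of_le (Int.lt_add_one_iff.mp hi) with hlt | rfl
    · exact hpu i hlt
    · rw [h2, h5, mul_zero]
  · refine ⟨C e * ξ ^ (u - 1), centr_C_zpow h6 _, ?_⟩
    intro i hi
    have hLB : ((C e : SL L σ) * ξ ^ (u - 1)).LB (u - 1) := by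
      intro k hk
      rw [coeff_C_mul, lB_zpow hξ ha _ k hk, mul_zero]
    rcases lt_or_eq_of_le (Int.le_sub_one_of_lt hi) with hlt | rfl
    · rw [coeff_sub, hAu i hlt, hLB i hlt, sub_zero]
    · rw [coeff_sub, coeff_C_mul]
      change A.coeff (u - 1) - e * NN ξ (u - 1) = 0
      rw [he]
      have := NN_ne hξ ha (u - 1)
      field_simp
      ring

/-- Lowering: `p` has valuation `≥ j` and `A` can be normalised to valuation `≥ j - 1`. -/
lemma split_lower {c p A : SL L σ} {j : ℤ} (hc : c.LB j) (hcomm : ξ * p = p * ξ)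
    (heq : c = p + (ξ * A - A * ξ)) :
    p.LB j ∧ ∃ κ : SL L σ, ξ * κ = κ * ξ ∧ (A - κ).LB (j - 1) := by
  obtain ⟨a1, ha1⟩ := p.exists_LB
  obtain ⟨a2, ha2⟩ := A.exists_LB
  -- lower bound
  have key : ∀ (n : ℕ) (u : ℤ) (A' : SL L σ), u + n = j → p.LB u → A'.LB (u - 1) →
      c = p + (ξ * A' - A' * ξ) →
      p.LB j ∧ ∃ κ : SL L σ, ξ * κ = κ * ξ ∧ (A' - κ).LB (j - 1) := by
    intro n
    induction n with
    | zero =>
      intro u A' hu hp hA' _
      have : u = j := by simpa using hu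
      subst this
      exact ⟨hp, 0, by simp, by simpa using hA'⟩
    | succ n ih =>
      intro u A' hu hp hA' heq'
      have hcu : c.coeff u = 0 := hc u (by push_cast at hu; omega)
      obtain ⟨hp1, κ, hκ, hκA⟩ := split_step hξ ha hσ hm hcu hp hA' hcomm heq'
      have heq2 : c = p + (ξ * (A' - κ) - (A' - κ) * ξ) := by
        rw [heq', mul_sub, sub_mul, hκ]
        noncomm_ring
      obtain ⟨hpj, κ2, hκ2, hκ2A⟩ := ih (u + 1) (A' - κ) (by push_cast at hu; omega) hp1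
        (by simpa using hκA) heq2
      refine ⟨hpj, κ + κ2, ?_, ?_⟩
      · rw [mul_add, add_mul, hκ, hκ2]
      · have : A' - (κ + κ2) = A' - κ - κ2 := by abel
        rw [this]
        exact hκ2A
  set u := min j (min a1 (a2 + 1)) with hu
  have hu1 : u ≤ j := min_le_left _ _
  have hu2 : u ≤ a1 := (min_le_right _ _).trans (min_le_left _ _)
  have hu3 : u ≤ a2 + 1 := (min_le_right _ _).trans (min_le_right _ _)
  exact key (j - u).toNat u A (by omega) (ha1.mono hu2) (ha2.mono (by omega)) heq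

/-- Full normal form: `p.LB j`, `A* := A - κ` has valuation `≥ j-1`, with normalised leading
coefficient; `p_j = N_j tr(η)/m`, `A*_{j-1} = N_{j-1} bz(η)`, `η = c_j / N_j`. -/
theorem split_normal {c p A : SL L σ} {j : ℤ} (hc : c.LB j) (hcomm : ξ * p = p * ξ)
    (heq : c = p + (ξ * A - A * ξ)) :
    ∃ A' : SL L σ, (∃ κ : SL L σ, ξ * κ = κ * ξ ∧ A' = A - κ) ∧
      c = p + (ξ * A' - A' * ξ) ∧ p.LB j ∧ A'.LB (j - 1) ∧
      p.coeff j = NN ξ j * ((m : L)⁻¹ * tr σ m (c.coeff j / NN ξ j)) ∧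
      A'.coeff (j - 1) = NN ξ (j - 1) * bz σ m (c.coeff j / NN ξ j) := by
  obtain ⟨hpj, κ, hκ, hκA⟩ := split_lower hξ ha hσ hm hc hcomm heq
  set η := c.coeff j / NN ξ j with hη
  set A1 := A - κ with hA1
  have heq1 : c = p + (ξ * A1 - A1 * ξ) := by
    rw [heq, hA1, mul_sub, sub_mul, hκ]
    noncomm_ring
  set e := A1.coeff (j - 1) / NN ξ (j - 1) with he
  set β := p.coeff j / NN ξ j with hβ
  have hβfix : σ β = β := centr_lead hξ ha hpj hcomm
  have hNj := NN_ne hξ ha j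
  have hNj1 := NN_ne hξ ha (j - 1)
  have h1 : (ξ * A1 - A1 * ξ).coeff j = NN ξ j * (σ e - e) := by
    have := comm_coeff hξ ha hκA
    rwa [sub_add_cancel] at this
  have h2 : η = β + (σ e - e) := by
    have h3 : c.coeff j = p.coeff j + NN ξ j * (σ e - e) := by
      conv_lhs => rw [heq1]
      rw [coeff_add, h1]
    rw [hη, h3, hβ]
    field_simp
  have htr : tr σ m η = (m : L) * β := by
    rw [h2, tr_add, tr_delta hσ, add_zero, tr_of_fixed hβfix]
  have hβ2 : β = (m : L)⁻¹ * tr σ m η := by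
    rw [htr]; field_simp
  -- difference from `bz`
  have h3 : σ (e - bz σ m η) = e - bz σ m η := by
    rw [map_sub]
    have h4 := delta_bz hσ hm η
    have h5 : prU σ m η = η - β := by
      unfold prU
      rw [hβ2]
    rw [h5] at h4
    linear_combination -h4 - h2
  set f := e - bz σ m η with hf
  refine ⟨A1 - C f * ξ ^ (j - 1), ⟨κ + C f * ξ ^ (j - 1), ?_, ?_⟩, ?_, hpj, ?_, ?_, ?_⟩
  · rw [mul_add, add_mul, hκ, centr_C_zpow h3]
  · rw [hA1]; abel
  · have hX : ξ * ((C f : SL L σ) * ξ ^ (j - 1)) = ((C f : SL L σ) * ξ ^ (j - 1)) * ξ :=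
      centr_C_zpow h3 _
    have : ξ * (A1 - (C f : SL L σ) * ξ ^ (j - 1)) - (A1 - (C f : SL L σ) * ξ ^ (j - 1)) * ξ
        = ξ * A1 - A1 * ξ := by
      rw [mul_sub, sub_mul, hX]; abel
    rw [this]
    exact heq1
  · intro i hi
    rw [coeff_sub, hκA i hi, coeff_C_mul, lB_zpow hξ ha _ i hi, mul_zero, sub_zero]
  · have : p.coeff j = NN ξ j * β := by rw [hβ]; field_simp
    rw [this, hβ2]
  · rw [coeff_sub, coeff_C_mul]
    change A1.coeff (j - 1) - f * NN ξ (j - 1) = _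
    have : A1.coeff (j - 1) = NN ξ (j - 1) * e := by rw [he]; field_simp
    rw [this, hf]
    ring

end Split

end Lead

end Crest.Agent.Lib.Kurosh.Forms
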