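import Mathlib
import Crest.Agent.Lib.Kurosh.SkewLaurentHat

/-!
# S0270, Section 5(d): the linear algebra of the rank bound

* `lau_rows_indep`: a matrix over `Lau F` with entries of valuation `≥ 1` whose coefficient
  matrix at `1` has `F`-independent rows has `Lau F`-independent rows;
* `triangular_indep`: block triangular matrices;
* `rank_restrict`: the rank of a bilinear form restricted to subspaces of bounded codimension.
-/

set_option autoImplicit false

namespace Crest.Agent.Lib.Kurosh.Forms

open Finset Module SL

section Lau

variable {F : Type*} [Field F]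

lemma lau_coeff_mul_add {x y : Lau F} {a b : ℤ} (hx : x.LB a) (hy : y.LB b) :
    (x * y).coeff (a + b) = x.coeff a * y.coeff b := by
  rw [coeff_mul_add hx hy, one_zpow_apply]

lemma lau_eq_zero_of_forall_LB {x : Lau F} (a : ℤ) (h : ∀ n : ℕ, x.LB (a + n)) : x = 0 := by
  apply SL.ext
  funext i
  by_cases hi : i < a
  · exact h 0 i (by simpa using hi)
  · have : i < a + ((i - a + 1).toNat : ℕ) := by
      have h1 : ((i - a + 1).toNat : ℤ) = i - a + 1 := Int.toNat_of_nonneg (by omega)
      rw [h1]
      omega
    exact h _ i this

/-- Leading coefficient criterion for independence of rows. -/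
theorem lau_rows_indep {I J : Type*} [Fintype I] [Fintype J] (M : I → J → Lau F)
    (hLB : ∀ i k, (M i k).LB 1)
    (hrows : LinearIndependent F (fun i k => (M i k).coeff 1)) :
    LinearIndependent (Lau F) M := by
  classical
  rw [Fintype.linearIndependent_iff]
  intro c hc
  -- a common lower bound of the `c i`
  obtain ⟨a, ha⟩ : ∃ a : ℤ, ∀ i, (c i).LB a := by
    choose f hf using fun i => (c i).exists_LB
    by_cases hI : Nonempty I
    · refine ⟨(Finset.univ.image f).min' ((Finset.univ_nonempty).image f), fun i => (hf i).mono ?_⟩
      exact Finset.min'_le _ _ (Finset.mem_image_of_mem f (Finset.mem_univ i))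
    · exact ⟨0, fun i => (hI ⟨i⟩).elim⟩
  have key : ∀ n : ℕ, ∀ i, (c i).LB (a + n) := by
    intro n
    induction n with
    | zero => simpa using ha
    | succ n ih =>
      -- the coefficients at `a + n` vanish
      have h0 : ∀ i, (c i).coeff (a + n) = 0 := by
        have hsum : ∑ i, (c i).coeff (a + n) • (fun k => (M i k).coeff 1) = 0 := by
          funext k
          have h1 := congrFun hc k
          have h2 : (∑ i, c i • M i) k = ∑ i, c i * M i k := by
            simp [Finset.sum_apply]
          rw [h2] at h1
          have h3 : (∑ i, c i * M i k).coeff (a + n + 1) = 0 := by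
            rw [h1]; rfl
          have h4 : (∑ i, c i * M i k).coeff (a + n + 1) =
              ∑ i, (c i * M i k).coeff (a + n + 1) := by
            rw [SL.coeff_sum]
          rw [h4] at h3
          have h5 : ∀ i, (c i * M i k).coeff (a + n + 1) = (c i).coeff (a + n) * (M i k).coeff 1 :=
            fun i => lau_coeff_mul_add (ih i) (hLB i k)
          simp only [h5] at h3
          simpa [Finset.sum_apply] using h3
        have := Fintype.linearIndependent_iff.1 hrows _ hsum
        exact this
      intro i j hj
      by_cases hj' : j < a + n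
      · exact ih i j hj'
      · have : j = a + n := by push_cast at hj; omega
        rw [this]; exact h0 i
  intro i
  exact lau_eq_zero_of_forall_LB a (fun n => key n i)

end Lau

section Triangular

variable {F : Type*} [Field F]

/-- Block triangular matrices with independent diagonal rows have independent rows. -/
theorem triangular_indep {Λ : Type*} [LinearOrder Λ] [Finite Λ] {I J : Λ → Type*}
    [Fintype Λ] [∀ l, Fintype (I l)] [∀ l, Fintype (J l)]
    (M : (Σ l, I l) → (Σ l, J l) → F)
    (h0 : ∀ l l' i k, l' < l → M ⟨l, i⟩ ⟨l', k⟩ = 0)
    (hd : ∀ l, LinearIndependent F (fun (i : I l) (k : J l) => M ⟨l, i⟩ ⟨l, k⟩)) :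
    LinearIndependent F M := by
  classical
  rw [Fintype.linearIndependent_iff]
  intro c hc
  have key : ∀ l, ∀ i : I l, c ⟨l, i⟩ = 0 := by
    intro l
    induction l using (Finite.to_wellFoundedLT (α := Λ)).wf.induction with
    | _ l ih =>
      have hsum : ∑ i : I l, c ⟨l, i⟩ • (fun k : J l => M ⟨l, i⟩ ⟨l, k⟩) = 0 := by
        funext k
        have h1 := congrFun hc ⟨l, k⟩
        simp only [Finset.sum_apply, Pi.smul_apply, smul_eq_mul, Pi.zero_apply] at h1 ⊢
        rw [Fintype.sum_sigma] at h1
        rw [Finset.sum_eq_single l] at h1
        · exact h1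
        · intro l' _ hl'
          apply Finset.sum_eq_zero
          intro i _
          rcases lt_or_gt_of_ne hl' with h | h
          · rw [ih l' h i, zero_mul]
          · rw [h0 l' l i k h, mul_zero]
        · intro h; exact (h (Finset.mem_univ l)).elim
      exact Fintype.linearIndependent_iff.1 (hd l) _ hsum
  rintro ⟨l, i⟩
  exact key l i

end Triangular

section Restrict

variable {K : Type*} [Field K]

/-- Rank of a bilinear form from a matrix with independent rows, restricted to subspaces. -/
theorem rank_restrict {I J : Type*} [Fintype I] [Fintype J] [DecidableEq I] [DecidableEq J]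
    (M : I → J → K) (hM : LinearIndependent K M)
    (P : Submodule K (I → K)) (Q : Submodule K (J → K))
    {V V' : Type*} [AddCommGroup V] [Module K V] [FiniteDimensional K V]
    [AddCommGroup V'] [Module K V']
    (ω : V →ₗ[K] V' →ₗ[K] K) (α : P →ₗ[K] V) (α' : Q →ₗ[K] V')
    (hα : ∀ (v : P) (w : Q), ∑ i, ∑ k, (v : I → K) i * (w : J → K) k * M i k = ω (α v) (α' w)) :
    finrank K P + finrank K Q ≤ finrank K (LinearMap.range ω) + Fintype.card J := by
  classical
  -- the matrix as a bilinear form
  let pair : (I → K) →ₗ[K] (J → K) →ₗ[K] K :=
    LinearMap.mk₂ K (fun v w => ∑ i, ∑ k, v i * w k * M i k)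
      (fun v v' w => by
        simp only [Pi.add_apply, add_mul, Finset.sum_add_distrib])
      (fun c v w => by
        simp only [Pi.smul_apply, smul_eq_mul, Finset.mul_sum]
        refine Finset.sum_congr rfl fun i _ => Finset.sum_congr rfl fun k _ => by ring)
      (fun v w w' => by
        simp only [Pi.add_apply, mul_add, add_mul, Finset.sum_add_distrib])
      (fun c v w => by
        simp only [Pi.smul_apply, smul_eq_mul, Finset.mul_sum]
        refine Finset.sum_congr rfl fun i _ => Finset.sum_congr rfl fun k _ => by ring)
  have hpair : ∀ v w, pair v w = ∑ i, ∑ k, v i * w k * M i k := fun _ _ => rfl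
  have hinj : ∀ v, pair v = 0 → v = 0 := by
    intro v hv
    have h1 : ∑ i, v i • M i = 0 := by
      funext k
      have h2 : pair v (Pi.single k 1) = 0 := by rw [hv]; rfl
      rw [hpair] at h2
      simp only [Finset.sum_apply, Pi.smul_apply, smul_eq_mul, Pi.zero_apply]
      rw [← h2]
      refine Finset.sum_congr rfl fun i _ => ?_
      rw [Finset.sum_eq_single k]
      · simp
      · intro b _ hb
        simp [Pi.single_eq_of_ne hb]
      · intro h; exact (h (Finset.mem_univ k)).elim
    funext i
    exact Fintype.linearIndependent_iff.1 hM v h1 i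
  -- restriction
  let γ : P →ₗ[K] Dual K Q := Q.subtype.dualMap ∘ₗ pair ∘ₗ P.subtype
  have hγ : ∀ (v : P) (w : Q), γ v w = ω (α v) (α' w) := fun v w => hα v w
  -- upper bound
  have hup : finrank K (LinearMap.range γ) ≤ finrank K (LinearMap.range ω) := by
    let g : V →ₗ[K] Dual K Q := α'.dualMap ∘ₗ ω
    have h1 : LinearMap.range γ ≤ LinearMap.range g := by
      rintro _ ⟨v, rfl⟩
      refine ⟨α v, ?_⟩
      ext w
      exact (hγ v w).symm
    have h2 : LinearMap.range g = (LinearMap.range ω).map α'.dualMap :=
      LinearMap.range_comp ω α'.dualMap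
    calc finrank K (LinearMap.range γ) ≤ finrank K (LinearMap.range g) :=
          Submodule.finrank_mono h1
      _ ≤ finrank K (LinearMap.range ω) := by
          rw [h2]; exact Submodule.finrank_map_le _ _
  -- kernel bound
  have hker : finrank K (LinearMap.ker γ) ≤ finrank K Q.dualAnnihilator := by
    let i : LinearMap.ker γ →ₗ[K] Q.dualAnnihilator :=
      { toFun := fun v => ⟨pair ((v : P) : I → K), by
          rw [Submodule.mem_dualAnnihilator]
          intro w hw
          have h1 : γ (v : P) = 0 := v.2
          have h2 := congrArg (fun f : Dual K Q => f ⟨w, hw⟩) h1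
          exact h2⟩
        map_add' := fun x y => by
          apply Subtype.ext
          simp
        map_smul' := fun c x => by
          apply Subtype.ext
          simp }
    refine LinearMap.finrank_le_finrank_of_injective (f := i) ?_
    intro x y hxy
    have h1 : pair ((x : P) : I → K) = pair ((y : P) : I → K) :=
      congrArg (fun z : Q.dualAnnihilator => (z : Dual K (J → K))) hxy
    have h2 : ((x : P) : I → K) - ((y : P) : I → K) = 0 := by
      apply hinj
      rw [map_sub, h1, sub_self]
    apply Subtype.ext
    apply Subtype.ext
    exact sub_eq_zero.1 h2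
  have h3 := LinearMap.finrank_range_add_finrank_ker γ
  have h4 : finrank K Q + finrank K Q.dualAnnihilator = Fintype.card J := by
    have := Subspace.finrank_add_finrank_dualAnnihilator_eq Q
    rwa [Module.finrank_fintype_fun_eq_card] at this
  omega

end Restrict

end Crest.Agent.Lib.Kurosh.Forms
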