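import Crest.Agent.Lib.Kurosh.FormsBlock
import Crest.Agent.Lib.Kurosh.FormsRank

/-!
# S0270, Section 5(d): the rank of the relation forms, abstract version

`rank_of_blocks`: from blocks `X = x ϖ^j`, `X' = x' ϖ^{m+1-j}`, the rank of the form `ω` on the
kernel of `π h₁` is at least the sum of the ranks of the blocks minus twice the codimension.
-/

set_option autoImplicit false
set_option linter.unusedSectionVars false

namespace Crest.Agent.Lib.Kurosh.Forms

open Finset Module SL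

section Eval

variable {F0 L : Type*} [Field F0] [Field L] [Algebra F0 L] [FiniteDimensional F0 L]
  {σ : RingAut L} {m : ℕ}

/-- The diagonal entry. -/
lemma theta_diag (hσF : ∀ c : F0, σ (algebraMap F0 L c) = algebraMap F0 L c)
    (hσ : σ ^ m = 1) (hm : (m : L) ≠ 0)
    (Θ : L →ₗ[F0] F0) (hΘσ : ∀ x, Θ (σ x) = Θ x)
    {κ : L} (hκ : σ κ = κ) (η η' : L) (z : ℤ) :
    Θ (κ * (bz σ m η * (σ ^ z) η')) = Θ (κ * bz σ m η * (σ ^ z : RingAut L) (prU σ m η')) := by
  have hfix : σ ((m : L)⁻¹ * tr σ m η') = (m : L)⁻¹ * tr σ m η' := by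
    rw [map_mul, apply_tr hσ, map_inv₀, map_natCast]
  have h1 : (σ ^ z : RingAut L) η' =
      (σ ^ z : RingAut L) (prU σ m η') + (m : L)⁻¹ * tr σ m η' := by
    have : η' = prU σ m η' + (m : L)⁻¹ * tr σ m η' := by
      simp [prU]
    conv_lhs => rw [this]
    rw [map_add, zpow_fixed hfix]
  rw [h1]
  have h2 : κ * (bz σ m η * ((σ ^ z : RingAut L) (prU σ m η') + (m : L)⁻¹ * tr σ m η')) =
      κ * bz σ m η * (σ ^ z : RingAut L) (prU σ m η') +
        (κ * ((m : L)⁻¹ * tr σ m η')) * bz σ m η := by ring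
  rw [h2, map_add]
  have h3 : Θ ((κ * ((m : L)⁻¹ * tr σ m η')) * bz σ m η) = 0 := by
    refine Θ_eq_zero_of_tr hσF hσ hm Θ hΘσ ?_
    have hf : σ (κ * ((m : L)⁻¹ * tr σ m η')) = κ * ((m : L)⁻¹ * tr σ m η') := by
      rw [map_mul, hκ, hfix]
    rw [tr_fixed_mul hf, tr_bz hσ hm, mul_zero]
  rw [h3, add_zero]

end Eval

section Blocks

variable {F L : Type*} [Field F] [Field L] [Algebra F L] [FiniteDimensional F L] {σ : RingAut L}
  {m : ℕ} [Algebra (Lau F) (SL L σ)]

omit [FiniteDimensional F L] in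
lemma exists_rows_aux {D E : Type*} [AddCommGroup D] [Module F D] [AddCommGroup E] [Module F E]
    [FiniteDimensional F D] (f : D →ₗ[F] E) :
    ∃ x : Fin (finrank F (LinearMap.range f)) → D,
      LinearIndependent F (fun i => f (x i)) := by
  classical
  let b := finBasis F (LinearMap.range f)
  have hb : ∀ i, ∃ x, f x = (b i : E) := fun i => (b i).2
  choose x hx using hb
  refine ⟨x, ?_⟩
  simp only [hx]
  exact b.linearIndependent.map' (LinearMap.range f).subtype (Submodule.ker_subtype _)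

omit [FiniteDimensional F L] in
/-- Rows of a bilinear form: independent rows from the rank. -/
lemma exists_rows {D D' : Type*} [AddCommGroup D] [Module F D] [AddCommGroup D'] [Module F D']
    [FiniteDimensional F D] [FiniteDimensional F D'] (PF : D →ₗ[F] D' →ₗ[F] F) :
    ∃ x : Fin (finrank F (LinearMap.range PF)) → D,
      LinearIndependent F (fun i (k : Fin (finrank F D')) => PF (x i) (finBasis F D' k)) := by
  classical
  obtain ⟨x, hx⟩ := exists_rows_aux PF
  refine ⟨x, ?_⟩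
  rw [Fintype.linearIndependent_iff]
  intro c hc
  have h1 : ∑ i, c i • PF (x i) = 0 := by
    apply (finBasis F D').ext
    intro k
    have h2 := congrFun hc k
    simp only [Finset.sum_apply, Pi.smul_apply, smul_eq_mul, Pi.zero_apply] at h2
    simpa [LinearMap.sum_apply] using h2
  exact Fintype.linearIndependent_iff.1 hx c h1

variable (hσF : ∀ c : F, σ (algebraMap F L c) = algebraMap F L c)
  (hσ : σ ^ m = 1) (hm : (m : L) ≠ 0) (hm0 : 0 < m)
  (Θ : L →ₗ[F] F) (hΘσ : ∀ x, Θ (σ x) = Θ x)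
  (Tr : SL L σ →ₗ[Lau F] Lau F) (hTr : ∀ x q, (Tr x).coeff q = Θ (x.coeff ((m : ℤ) * q)))
  (hcyc : ∀ x y, Tr (x * y) = Tr (y * x))
  {ξ : SL L σ} (hξ : ξ.LB 1) (ha : ξ.coeff 1 ≠ 0)
  (hsplit : ∀ c : SL L σ, ∃ p A, ξ * p = p * ξ ∧ c = p + (ξ * A - A * ξ))
  (hnd : ∀ p : SL L σ, ξ * p = p * ξ → (∀ β, ξ * β = β * ξ → Tr (β * p) = 0) → p = 0)
  {B : SL L σ} (hB : B.LB 0) {s : L} (hB0 : B.coeff 0 = s) (hs : σ s = s)
  {T V : Type*} [AddCommGroup T] [Module (Lau F) T] [AddCommGroup V] [Module (Lau F) V]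
  [FiniteDimensional (Lau F) V]
  (h1 : T →ₗ[Lau F] SL L σ) (h2 : T →ₗ[Lau F] T →ₗ[Lau F] SL L σ)
  {R : Type*} [Fintype R] (π1 : T →ₗ[Lau F] (R → Lau F))
  (hT2 : ∀ X, π1 X = 0 → ∀ β, ξ * β = β * ξ → Tr (β * h1 X) = 0)
  (pr : LinearMap.ker π1 →ₗ[Lau F] V) (ω : V →ₗ[Lau F] V →ₗ[Lau F] Lau F)
  (hω : ∀ (X X' : LinearMap.ker π1) (A : SL L σ), ξ * A - A * ξ = h1 X →
    ω (pr X) (pr X') = Tr (B * h2 X X') + Tr (B * A * h1 X'))
  {Λ : Type*} [Fintype Λ] [LinearOrder Λ] (j : Λ → ℤ) (hj : StrictMono j)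
  (hj1 : ∀ l, 0 < j l) (hjm : ∀ l, j l ≤ m)
  {D D' : Λ → Type*} [∀ l, AddCommGroup (D l)] [∀ l, Module F (D l)]
  [∀ l, FiniteDimensional F (D l)] [∀ l, AddCommGroup (D' l)] [∀ l, Module F (D' l)]
  [∀ l, FiniteDimensional F (D' l)]
  (X : ∀ l, D l → T) (X' : ∀ l, D' l → T)
  (φ : ∀ l, D l →ₗ[F] L) (φ' : ∀ l, D' l →ₗ[F] L)
  (hX : ∀ l x, (h1 (X l x)).LB (j l))
  (hXc : ∀ l x, (h1 (X l x)).coeff (j l) = NN ξ (j l) * φ l x)
  (hX' : ∀ l x', (h1 (X' l x')).LB (m + 1 - j l))
  (hX'c : ∀ l x', (h1 (X' l x')).coeff (m + 1 - j l) = NN ξ (m + 1 - j l) * φ' l x')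
  (hd : ∀ l l' x x', (h2 (X l x) (X' l' x')).LB (j l + (m + 1 - j l')))

include hσF hσ hm hm0 hΘσ hTr hcyc hξ ha hsplit hnd hB hB0 hs hT2 hω hj hj1 hjm hX hXc hX' hX'c hd in
/-- **Rank of the form from the blocks.** -/
theorem rank_of_blocks :
    ∑ l, finrank F (LinearMap.range (blockForm hσF m Θ (s * NN ξ m) (φ l) (φ' l) (j l - 1))) ≤
      finrank (Lau F) (LinearMap.range ω) + 2 * Fintype.card R := by
  classical
  -- index sets
  let PF : ∀ l, D l →ₗ[F] D' l →ₗ[F] F :=
    fun l => blockForm hσF m Θ (s * NN ξ m) (φ l) (φ' l) (j l - 1)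
  have hrows := fun l => exists_rows (PF l)
  choose x hx using hrows
  let I := Σ l, Fin (finrank F (LinearMap.range (PF l)))
  let J := Σ l, Fin (finrank F (D' l))
  let Xi : I → T := fun i => X i.1 (x i.1 i.2)
  let Xk : J → T := fun k => X' k.1 (finBasis F (D' k.1) k.2)
  -- split normal forms for the rows
  have hnormal : ∀ i : I, ∃ p A : SL L σ, ξ * p = p * ξ ∧ h1 (Xi i) = p + (ξ * A - A * ξ) ∧
      A.LB (j i.1 - 1) ∧
      A.coeff (j i.1 - 1) = NN ξ (j i.1 - 1) * bz σ m (φ i.1 (x i.1 i.2)) := by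
    intro i
    obtain ⟨p, A, hp, hc⟩ := hsplit (h1 (Xi i))
    obtain ⟨A', -, hc', -, hA', -, hA'c⟩ := split_normal (m := m) hξ ha hσ hm (hX i.1 _) hp hc
    refine ⟨p, A', hp, hc', hA', ?_⟩
    rw [hA'c, hXc, mul_div_cancel_left₀ _ (NN_ne hξ ha _)]
  choose p A hp hc hA hAc using hnormal
  -- the matrix
  let M : I → J → Lau F := fun i k => Tr (B * (h2 (Xi i) (Xk k) + A i * h1 (Xk k)))
  have hTrLB : ∀ (y : SL L σ) (u : ℤ), 0 < u → y.LB u → (Tr y).LB 1 := by
    intro y u hu hy q hq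
    rw [hTr]
    have h0 : (m : ℤ) * q ≤ 0 := by
      have : q ≤ 0 := by omega
      exact mul_nonpos_of_nonneg_of_nonpos (by positivity) this
    rw [hy _ (by omega), map_zero]
  have hmposZ : (0 : ℤ) < m := by exact_mod_cast hm0
  have hentry : ∀ (i : I) (k : J),
      (B * (h2 (Xi i) (Xk k) + A i * h1 (Xk k))).LB (j i.1 + (m + 1 - j k.1) - 1) ∧
      (B * (h2 (Xi i) (Xk k) + A i * h1 (Xk k))).coeff (j i.1 + (m + 1 - j k.1) - 1) =
        B.coeff 0 * NN ξ (j i.1 + (m + 1 - j k.1) - 1) *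
          (bz σ m (φ i.1 (x i.1 i.2)) *
            (σ ^ (j i.1 - 1)) (φ' k.1 (finBasis F (D' k.1) k.2))) :=
    fun i k => entry_lead (m := m) hξ ha hB (hX' k.1 _) (hd i.1 k.1 _ _) (hA i) (hAc i)
      (hX'c k.1 _)
  have hMLB : ∀ i k, (M i k).LB 1 := by
    intro i k
    refine hTrLB _ _ ?_ (hentry i k).1
    have h1 := hj1 i.1
    have h2 := hjm k.1
    omega
  have hMcoeff : ∀ i k, (M i k).coeff 1 =
      Θ ((B * (h2 (Xi i) (Xk k) + A i * h1 (Xk k))).coeff (m : ℤ)) := by
    intro i k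
    rw [hTr, mul_one]
  have hbar : LinearIndependent F (fun i k => (M i k).coeff 1) := by
    refine triangular_indep (I := fun l => Fin (finrank F (LinearMap.range (PF l))))
      (J := fun l => Fin (finrank F (D' l))) _ ?_ ?_
    · intro l l' a b hl
      have hlt := hj hl
      change (M ⟨l, a⟩ ⟨l', b⟩).coeff 1 = 0
      rw [hMcoeff]
      rw [(hentry ⟨l, a⟩ ⟨l', b⟩).1 _ (by
        have : j l' < j l := hlt
        simp only
        omega), map_zero]
    · intro l
      have hfun : (fun (a : Fin (finrank F (LinearMap.range (PF l))))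
          (b : Fin (finrank F (D' l))) => (M ⟨l, a⟩ ⟨l, b⟩).coeff 1) =
          fun a b => PF l (x l a) (finBasis F (D' l) b) := by
        funext a b
        rw [hMcoeff]
        have h3 := (hentry ⟨l, a⟩ ⟨l, b⟩).2
        have e : j l + (m + 1 - j l) - 1 = (m : ℤ) := by ring
        simp only at h3
        rw [e, hB0] at h3
        simp only [Xi, Xk]
        rw [h3]
        have hκ : σ (s * NN ξ m) = s * NN ξ m := by
          rw [map_mul, hs, NN_fixed hξ ha hσ]
        have h4 := theta_diag hσF hσ hm Θ hΘσ hκ (φ l (x l a)) (φ' l (finBasis F (D' l) b))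
          (j l - 1)
        rw [h4]
        rfl
      rw [hfun]
      exact hx l
  have hM : LinearIndependent (Lau F) M := lau_rows_indep M hMLB hbar
  -- combinations
  let LI : (I → Lau F) →ₗ[Lau F] T := Fintype.linearCombination (Lau F) Xi
  let LJ : (J → Lau F) →ₗ[Lau F] T := Fintype.linearCombination (Lau F) Xk
  have hLI : ∀ v, LI v = ∑ i, v i • Xi i := fun v => Fintype.linearCombination_apply _ _ _
  have hLJ : ∀ v, LJ v = ∑ k, v k • Xk k := fun v => Fintype.linearCombination_apply _ _ _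
  let P : Submodule (Lau F) (I → Lau F) := LinearMap.ker (π1 ∘ₗ LI)
  let Q : Submodule (Lau F) (J → Lau F) := LinearMap.ker (π1 ∘ₗ LJ)
  let α1 : P →ₗ[Lau F] LinearMap.ker π1 :=
    (LI.domRestrict P).codRestrict (LinearMap.ker π1) (fun v => v.2)
  let α2 : Q →ₗ[Lau F] LinearMap.ker π1 :=
    (LJ.domRestrict Q).codRestrict (LinearMap.ker π1) (fun v => v.2)
  have hα : ∀ (v : P) (w : Q), ∑ i, ∑ k, (v : I → Lau F) i * (w : J → Lau F) k * M i k =
      ω (pr (α1 v)) (pr (α2 w)) := by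
    intro v w
    set Av : SL L σ := ∑ i, (v : I → Lau F) i • A i with hAv
    set pv : SL L σ := ∑ i, (v : I → Lau F) i • p i with hpv
    have hh1 : h1 (LI v) = pv + (ξ * Av - Av * ξ) := by
      rw [hLI, map_sum, hpv, hAv, Finset.mul_sum, Finset.sum_mul, ← Finset.sum_sub_distrib,
        ← Finset.sum_add_distrib]
      refine Finset.sum_congr rfl fun i _ => ?_
      rw [map_smul, hc i, mul_smul_comm, smul_mul_assoc, ← smul_sub, ← smul_add]
    have hcomm : ξ * pv = pv * ξ := by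
      rw [hpv, Finset.mul_sum, Finset.sum_mul]
      refine Finset.sum_congr rfl fun i _ => ?_
      rw [mul_smul_comm, smul_mul_assoc, hp i]
    have hpv0 : pv = 0 := by
      refine hnd pv hcomm fun β hβ => ?_
      have h3 : Tr (β * h1 (LI v)) = 0 := hT2 _ v.2 β hβ
      rw [hh1, mul_add, map_add] at h3
      have h4 : Tr (β * (ξ * Av - Av * ξ)) = 0 := by
        rw [mul_sub, map_sub, sub_eq_zero]
        have e1 : β * (Av * ξ) = (β * Av) * ξ := by rw [mul_assoc]
        have e2 : β * (ξ * Av) = ξ * (β * Av) := by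
          rw [← mul_assoc, ← mul_assoc, hβ]
        rw [e1, e2, hcyc]
      rwa [h4, add_zero] at h3
    have hprim : ξ * Av - Av * ξ = h1 (LI v) := by
      rw [hh1, hpv0, zero_add]
    have hΩ := hω (α1 v) (α2 w) Av hprim
    rw [hΩ]
    change ∑ i, ∑ k, (v : I → Lau F) i * (w : J → Lau F) k * M i k =
      Tr (B * h2 (LI v) (LJ w)) + Tr (B * Av * h1 (LJ w))
    have e1 : B * h2 (LI v) (LJ w) =
        ∑ i, ∑ k, ((v : I → Lau F) i * (w : J → Lau F) k) • (B * h2 (Xi i) (Xk k)) := by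
      rw [hLI, hLJ, map_sum h2, LinearMap.sum_apply, Finset.mul_sum]
      refine Finset.sum_congr rfl fun i _ => ?_
      rw [map_smul h2, LinearMap.smul_apply, map_sum, Finset.smul_sum, Finset.mul_sum]
      refine Finset.sum_congr rfl fun k _ => ?_
      rw [map_smul, mul_smul_comm, mul_smul_comm, smul_smul]
    have e2 : B * Av * h1 (LJ w) =
        ∑ i, ∑ k, ((v : I → Lau F) i * (w : J → Lau F) k) • (B * (A i * h1 (Xk k))) := by
      have e4 : B * Av = ∑ i, (v : I → Lau F) i • (B * A i) := by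
        rw [hAv, Finset.mul_sum]
        exact Finset.sum_congr rfl fun i _ => mul_smul_comm _ _ _
      rw [e4, Finset.sum_mul]
      refine Finset.sum_congr rfl fun i _ => ?_
      rw [hLJ, map_sum h1, Finset.mul_sum]
      refine Finset.sum_congr rfl fun k _ => ?_
      rw [map_smul h1, mul_smul_comm, smul_mul_assoc, smul_smul, mul_assoc,
        mul_comm ((w : J → Lau F) k)]
    rw [e1, e2]
    simp only [map_sum, map_smul, smul_eq_mul]
    rw [← Finset.sum_add_distrib]
    refine Finset.sum_congr rfl fun i _ => ?_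
    rw [← Finset.sum_add_distrib]
    refine Finset.sum_congr rfl fun k _ => ?_
    have e3 : M i k = Tr (B * h2 (Xi i) (Xk k)) + Tr (B * (A i * h1 (Xk k))) := by
      simp only [M, mul_add, map_add]
    rw [e3]
    ring
  have hrr := rank_restrict M hM P Q ω (pr ∘ₗ α1) (pr ∘ₗ α2) hα
  have hP : Fintype.card I ≤ finrank (Lau F) P + Fintype.card R := by
    have h3 := LinearMap.finrank_range_add_finrank_ker (π1 ∘ₗ LI)
    rw [Module.finrank_fintype_fun_eq_card] at h3
    have h4 : finrank (Lau F) (LinearMap.range (π1 ∘ₗ LI)) ≤ Fintype.card R := by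
      have := Submodule.finrank_le (LinearMap.range (π1 ∘ₗ LI))
      rwa [Module.finrank_fintype_fun_eq_card] at this
    change finrank (Lau F) (LinearMap.range (π1 ∘ₗ LI)) + finrank (Lau F) P = _ at h3
    omega
  have hQ : Fintype.card J ≤ finrank (Lau F) Q + Fintype.card R := by
    have h3 := LinearMap.finrank_range_add_finrank_ker (π1 ∘ₗ LJ)
    rw [Module.finrank_fintype_fun_eq_card] at h3
    have h4 : finrank (Lau F) (LinearMap.range (π1 ∘ₗ LJ)) ≤ Fintype.card R := by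
      have := Submodule.finrank_le (LinearMap.range (π1 ∘ₗ LJ))
      rwa [Module.finrank_fintype_fun_eq_card] at this
    change finrank (Lau F) (LinearMap.range (π1 ∘ₗ LJ)) + finrank (Lau F) Q = _ at h3
    omega
  have hcard : Fintype.card I = ∑ l, finrank F (LinearMap.range (PF l)) := by
    simp [I, Fintype.card_sigma]
  change ∑ l, finrank F (LinearMap.range (PF l)) ≤ _
  rw [← hcard]
  omega

end Blocks

end Crest.Agent.Lib.Kurosh.Forms
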