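import Mathlib
import Crest.Agent.Lib.Kurosh.GrMeas

/-!
# Kernel of the inner map and the letter count (S0270, helper75)

`c ∈ SL L s` commuting with all `τ_y = b_y ϖ`, with some ratio `b_y'/b_y` not fixed by `s`, lies in
the image of the stretch (the centre). Hence the inner map `c ↦ ([τ_y, c])_y` has rank `m² - 1` and a
complement of its range has dimension `|Y| m² - m² + 1`.
-/

set_option autoImplicit false

namespace Crest.Agent.Lib.Kurosh.InnKer

open SL Module

variable {F L : Type*} [Field F] [Field L] [Algebra F L] {s : RingAut L} {m : ℕ}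

/-- Coefficient form of commutation with `a ϖ`. -/
lemma coeff_comm {a : L} {c : SL L s} (hc : mon a 1 * c = c * mon a 1) (i : ℤ) :
    a * s (c.coeff i) = c.coeff i * (s ^ i) a := by
  have := congrArg (fun g => SL.coeff g (i + 1)) hc
  simpa [coeff_mon_mul, coeff_mul_mon] using this

/-- If `s ^ i` fixes `u`, `m ∤ i`, `m` prime and `s ^ m = 1`, then `s` fixes `u`. -/
lemma fixed_of_zpow_fixed (hm : m.Prime) (hpow : s ^ m = 1) {u : L} {i : ℤ}
    (hi : ¬ (m : ℤ) ∣ i) (hu : (s ^ i) u = u) : s u = u := by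
  have hcop : IsCoprime i (m : ℤ) := by
    have : IsCoprime (m : ℤ) i := by
      rw [Int.isCoprime_iff_gcd_eq_one]
      have h1 : Int.gcd (m : ℤ) i = Nat.gcd m i.natAbs := by simp [Int.gcd]
      rw [h1]
      refine (Nat.Prime.coprime_iff_not_dvd hm).2 fun hd => hi ?_
      exact Int.natCast_dvd.2 hd
    exact this.symm
  obtain ⟨k, l, hkl⟩ := hcop
  let G : Subgroup (RingAut L) :=
    { carrier := {g | g u = u}
      mul_mem' := by
        intro a b ha hb
        show (a * b) u = u
        rw [RingAut.mul_apply] at *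
        rw [show b u = u from hb]
        exact ha
      one_mem' := rfl
      inv_mem' := by
        intro a ha
        show a⁻¹ u = u
        have ha' : a u = u := ha
        conv_lhs => rw [← ha']
        exact a.symm_apply_apply u }
  have h1 : s ^ i ∈ G := hu
  have hmG : s ^ (m : ℤ) ∈ G := by
    rw [zpow_natCast, hpow]
    exact G.one_mem
  have h2 : s = (s ^ i) ^ k * (s ^ (m : ℤ)) ^ l := by
    rw [← zpow_mul, ← zpow_mul, ← zpow_add]
    have : i * k + (m : ℤ) * l = 1 := by linarith
    rw [this, zpow_one]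
  have h3 : s ∈ G := by
    rw [h2]
    exact G.mul_mem (G.zpow_mem h1 k) (G.zpow_mem hmG l)
  exact h3

/-- The commutant of `{b_y ϖ}` is the image of the stretch, when a ratio is not fixed. -/
theorem mem_range_stretch (h : StretchData (algebraMap F L) s m) (hm : m.Prime)
    (hfix : ∀ x : L, s x = x → x ∈ (algebraMap F L).range)
    {Y : Type*} (b : Y → L) (hb : ∀ y, b y ≠ 0) {y y' : Y}
    (hgen : s (b y' * (b y)⁻¹) ≠ b y' * (b y)⁻¹)
    (c : SL L s) (hc : ∀ y, mon (b y) 1 * c = c * mon (b y) 1) : c ∈ (stretch h).range := by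
  have hv : ∀ i : ℤ, ¬ (m : ℤ) ∣ i → c.coeff i = 0 := by
    intro i hi
    by_contra hne
    apply hgen
    refine fixed_of_zpow_fixed hm h.pow hi ?_
    have e1 := coeff_comm (hc y) i
    have e2 := coeff_comm (hc y') i
    have hsne : s (c.coeff i) ≠ 0 := by
      intro h0
      exact hne ((map_eq_zero_iff s s.injective).1 h0)
    have hby := hb y
    have hby' := hb y'
    have e3 : (s ^ i) (b y) = b y * s (c.coeff i) * (c.coeff i)⁻¹ := by
      rw [e1]; field_simp
    have e4 : (s ^ i) (b y') = b y' * s (c.coeff i) * (c.coeff i)⁻¹ := by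
      rw [e2]; field_simp
    rw [map_mul, map_inv₀, e3, e4]
    field_simp
  have hc' : ∀ k : ℤ, c.coeff ((m : ℤ) * k) ∈ (algebraMap F L).range := by
    intro k
    refine hfix _ ?_
    have e1 := coeff_comm (hc y) ((m : ℤ) * k)
    rw [h.zpow_of_dvd (dvd_mul_right _ _), mul_comm] at e1
    exact mul_right_cancel₀ (hb y) e1
  choose f hf using hc'
  have hinj : Function.Injective (algebraMap F L) := (algebraMap F L).injective
  obtain ⟨a, ha⟩ := c.exists_LB
  have hm0 : (0 : ℤ) < m := by exact_mod_cast h.pos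
  refine ⟨⟨f, a / m, fun k hk => ?_⟩, ?_⟩
  · apply hinj
    rw [hf, map_zero]
    have h1 := (Int.le_ediv_iff_mul_le hm0).mp (show k + 1 ≤ a / m from hk)
    exact ha _ (by nlinarith only [h1, hm0])
  · apply SL.ext; funext n
    by_cases hn : (m : ℤ) ∣ n
    · obtain ⟨k, rfl⟩ := hn
      rw [coeff_stretch_mul, hf]
    · rw [coeff_stretch_of_not_dvd h _ hn, hv n hn]

variable [Module.Finite F L] (h : StretchData (algebraMap F L) s m)
variable [Algebra (Lau F) (SL L s)] (hA : ∀ c : Lau F, algebraMap (Lau F) (SL L s) c = stretch h c)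

include hA in
/-- Dimension of `SL L s` over the Laurent field of `F`. -/
theorem finrank_SL : finrank (Lau F) (SL L s) = finrank F L * m := by
  have : ‹Algebra (Lau F) (SL L s)› = stretchAlgebra h :=
    Algebra.algebra_ext _ _ (fun r => by
      rw [hA]
      rfl)
  subst this
  exact finrank_stretch h

include hA in
/-- Rank of the inner map. -/
theorem finrank_ker_inn (hm : m.Prime)
    (hfix : ∀ x : L, s x = x → x ∈ (algebraMap F L).range)
    {Y : Type*} (b : Y → L) (hb : ∀ y, b y ≠ 0) {y y' : Y}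
    (hgen : s (b y' * (b y)⁻¹) ≠ b y' * (b y)⁻¹)
    (Inn : SL L s →ₗ[Lau F] (Y → SL L s))
    (hInn : ∀ c, Inn c = 0 ↔ ∀ y, mon (b y) 1 * c = c * mon (b y) 1) :
    finrank (Lau F) (LinearMap.ker Inn) = 1 := by
  have hk : LinearMap.ker Inn = Submodule.span (Lau F) {(1 : SL L s)} := by
    ext c
    rw [LinearMap.mem_ker, hInn, Submodule.mem_span_singleton]
    constructor
    · intro hc
      obtain ⟨f, hf⟩ := mem_range_stretch h hm hfix b hb hgen c hc
      refine ⟨f, ?_⟩
      rw [Algebra.smul_def, mul_one, hA]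
      exact hf
    · rintro ⟨f, rfl⟩ y
      rw [Algebra.smul_def, mul_one]
      exact (Algebra.commutes f _).symm
  rw [hk]
  exact finrank_span_singleton one_ne_zero

include hA in
/-- Letter count for a complement of the inner directions. -/
theorem n_eq_abstract (hm : m.Prime) (hdim : finrank F L = m)
    (hfix : ∀ x : L, s x = x → x ∈ (algebraMap F L).range)
    {Y : Type*} [Fintype Y] (b : Y → L) (hb : ∀ y, b y ≠ 0) {y y' : Y}
    (hgen : s (b y' * (b y)⁻¹) ≠ b y' * (b y)⁻¹)
    (Inn : SL L s →ₗ[Lau F] (Y → SL L s))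
    (hInn : ∀ c, Inn c = 0 ↔ ∀ y, mon (b y) 1 * c = c * mon (b y) 1)
    {n : ℕ} (X : Fin n → Y → SL L s) (hindep : LinearIndependent (Lau F) X)
    (hcompl : IsCompl (Submodule.span (Lau F) (Set.range X)) (LinearMap.range Inn)) :
    n + m ^ 2 = Fintype.card Y * m ^ 2 + 1 := by
  have : Module.Finite (Lau F) (SL L s) := GrMeas.finite_SL h hA
  have hSL : finrank (Lau F) (SL L s) = m ^ 2 := by
    rw [finrank_SL h hA, hdim, sq]
  have h1 := LinearMap.finrank_range_add_finrank_ker Inn
  rw [finrank_ker_inn h hA hm hfix b hb hgen Inn hInn, hSL] at h1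
  have h2 := Submodule.finrank_add_eq_of_isCompl hcompl
  rw [finrank_span_eq_card hindep, Module.finrank_pi_fintype] at h2
  simp only [hSL, Finset.sum_const, Finset.card_univ, smul_eq_mul, Fintype.card_fin] at h2
  omega

end Crest.Agent.Lib.Kurosh.InnKer
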