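import Mathlib
import Crest.Agent.Lib.Kurosh.SkewLaurentHat
import Crest.Agent.Lib.Kurosh.RatExt
import Crest.Agent.Lib.Kurosh.GrMeas

/-!
# Existence of level data: complement, basis, valuation scaling (helper75)
-/

set_option autoImplicit false

namespace Crest.Agent.Lib.Kurosh.LevelDataExists

open Crest.Agent.Lib.Kurosh SL

/-- Abstract core: a complement of `W` with a basis of vectors satisfying `P`, where every vector
can be scaled into `P`. -/
theorem exists_scaled_complement {K V : Type*} [Field K] [AddCommGroup V] [Module K V]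
    [FiniteDimensional K V] (W : Submodule K V) (P : V → Prop)
    (hP : ∀ v, ∃ c : K, c ≠ 0 ∧ P (c • v)) :
    ∃ (n : ℕ) (X : Fin n → V), LinearIndependent K X ∧
      IsCompl (Submodule.span K (Set.range X)) W ∧ ∀ t, P (X t) := by
  obtain ⟨W', hW'⟩ := Submodule.exists_isCompl W
  let b := Module.finBasis K W'
  choose c hc0 hcP using hP
  let X : Fin (Module.finrank K W') → V := fun t => c (b t : V) • (b t : V)
  have hb : LinearIndependent K (fun t => (b t : V)) :=
    b.linearIndependent.map' W'.subtype (Submodule.ker_subtype _)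
  have hX : LinearIndependent K X := by
    let u : Fin (Module.finrank K W') → Kˣ := fun t => Units.mk0 _ (hc0 (b t : V))
    exact hb.units_smul u
  have hspan : Submodule.span K (Set.range X) = W' := by
    apply le_antisymm
    · rw [Submodule.span_le]
      rintro _ ⟨t, rfl⟩
      exact W'.smul_mem _ (b t).2
    · intro v hv
      have h1 : ∑ t, (b.repr ⟨v, hv⟩ t) • (b t : V) = v := by
        have h := congrArg (W'.subtype) (b.sum_repr ⟨v, hv⟩)
        simpa only [map_sum, map_smul, Submodule.subtype_apply] using h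
      rw [← h1]
      refine Submodule.sum_mem _ fun t _ => Submodule.smul_mem _ _ ?_
      have e : (b t : V) = (c (b t : V))⁻¹ • X t := by
        simp only [X]
        rw [smul_smul, inv_mul_cancel₀ (hc0 _), one_smul]
      rw [e]
      exact Submodule.smul_mem _ _ (Submodule.subset_span ⟨t, rfl⟩)
  refine ⟨_, X, hX, ?_, fun t => hcP _⟩
  rw [hspan]
  exact hW'.symm

section Scale

variable {F S : Type*} [Field F] [Ring S] {σ : RingAut S} {φ : F →+* S} {m : ℕ}

/-- Uniform scaling of finitely many skew Laurent series by a central Laurent monomial. -/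
theorem exists_stretch_scale (h : StretchData φ σ m) {ι : Type*} [Finite ι] (x : ι → SL S σ)
    (N : ℤ) : ∃ c : Lau F, c ≠ 0 ∧ ∀ y, (stretch h c * x y).LB N := by
  choose a ha using fun y => (x y).exists_LB
  obtain ⟨a0, ha0⟩ := (Set.finite_range a).bddBelow
  have ha0' : ∀ y, a0 ≤ a y := fun y => ha0 ⟨y, rfl⟩
  set k : ℤ := |N - a0| with hk
  have hm : (1 : ℤ) ≤ (m : ℤ) := by exact_mod_cast h.pos
  have hk0 : 0 ≤ k := abs_nonneg _
  have hk1 : N - a0 ≤ k := le_abs_self _
  refine ⟨mon 1 k, ?_, fun y => ?_⟩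
  · intro h0
    have := congrArg (fun f : Lau F => f.coeff k) h0
    simp at this
  · have h1 : (stretch h (mon 1 k : Lau F)).LB ((m : ℤ) * k) := lB_stretch h (lB_mon _ _)
    have h2 := h1.mul ((ha y).mono (ha0' y))
    refine h2.mono ?_
    nlinarith

end Scale

section Tangent

variable {F S : Type*} [Field F] [Ring S] [Algebra F S] {σ : RingAut S} {m : ℕ}

/-- Abstract level data: a basis of a complement to `W`, with all coordinates of valuation `≥ 1`. -/
theorem exists_tangent_basis [Module.Finite F S] (h : StretchData (algebraMap F S) σ m)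
    [Algebra (Lau F) (SL S σ)] (hA : ∀ c : Lau F, algebraMap (Lau F) (SL S σ) c = stretch h c)
    {Y : Type*} [Fintype Y] (W : Submodule (Lau F) (Y → SL S σ)) :
    ∃ (n : ℕ) (X : Fin n → Y → SL S σ), LinearIndependent (Lau F) X ∧
      IsCompl (Submodule.span (Lau F) (Set.range X)) W ∧ ∀ t y, (X t y).LB 1 := by
  have : Module.Finite (Lau F) (SL S σ) := GrMeas.finite_SL h hA
  refine exists_scaled_complement W (fun x => ∀ y, (x y).LB 1) fun v => ?_
  obtain ⟨c, hc, hc'⟩ := exists_stretch_scale h v 1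
  refine ⟨c, hc, fun y => ?_⟩
  rw [Pi.smul_apply, Algebra.smul_def, hA]
  exact hc' y

end Tangent

section Base

open RatExt

variable {Z : Type*} [Field Z] {Y : Type*} {m : ℕ}

theorem T_ne_zero (r : ZMod m) (y : Y) : T Z Y m r y ≠ 0 := by
  intro h
  have : (MvPolynomial.X (r, y) : Pol Z Y m) = 0 := by
    apply IsFractionRing.injective (Pol Z Y m) (L0 Z Y m)
    rw [map_zero]
    exact h
  exact MvPolynomial.X_ne_zero _ this

theorem zmod_one_ne_zero (hm : 1 < m) : (1 : ZMod m) ≠ 0 := by
  have : Fact (1 < m) := ⟨hm⟩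
  exact one_ne_zero

/-- Clock ratio: `T 0 y` is not fixed by the shift. -/
theorem T_not_mem_Z0 (hm : 1 < m) (r : ZMod m) (y : Y) : T Z Y m r y ∉ Z0 Z Y m := by
  intro h
  rw [mem_Z0, s_T] at h
  have := (T_injective Z Y m h).1
  apply zmod_one_ne_zero hm
  have h2 : r + 1 - r = r - r := by rw [this]
  simpa using h2

/-- Generic ratio: `T 0 y' / T 0 y` is not fixed by the shift, for `y ≠ y'`. -/
theorem ratio_not_mem_Z0 [DecidableEq Y] (hm : 1 < m) {y y' : Y} (hy : y ≠ y') :
    T Z Y m 0 y' * (T Z Y m 0 y)⁻¹ ∉ Z0 Z Y m := by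
  classical
  intro h
  rw [mem_Z0, map_mul, map_inv₀, s_T, s_T] at h
  have h0 := T_ne_zero (Z := Z) (Y := Y) (m := m) (0 + 1) y
  have h1 := T_ne_zero (Z := Z) (Y := Y) (m := m) 0 y
  field_simp at h
  -- polynomial identity
  have hone := zmod_one_ne_zero hm
  have hp : (MvPolynomial.X ((0 : ZMod m) + 1, y') * MvPolynomial.X ((0 : ZMod m), y) : Pol Z Y m) =
      MvPolynomial.X ((0 : ZMod m), y') * MvPolynomial.X ((0 : ZMod m) + 1, y) := by
    apply IsFractionRing.injective (Pol Z Y m) (L0 Z Y m)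
    rw [map_mul, map_mul]
    first
      | exact h
      | (simpa [T, mul_comm] using h)
  let t : ZMod m × Y → Z := fun x => if x = (0, y) ∨ x = ((0 : ZMod m) + 1, y') then 1 else 0
  have hev := congrArg (MvPolynomial.eval t) hp
  simp only [map_mul, MvPolynomial.eval_X] at hev
  have e1 : ¬ (((0 : ZMod m), y') = (0, y) ∨ ((0 : ZMod m), y') = ((0 : ZMod m) + 1, y')) := by
    rintro (h | h)
    · exact hy (Prod.ext_iff.1 h).2.symm
    · apply hone
      have := (Prod.ext_iff.1 h).1
      simpa using this.symm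
  have e2 : ¬ (((0 : ZMod m) + 1, y) = (0, y) ∨ ((0 : ZMod m) + 1, y) = ((0 : ZMod m) + 1, y')) := by
    rintro (h | h)
    · apply hone
      have := (Prod.ext_iff.1 h).1
      simpa using this
    · exact hy (Prod.ext_iff.1 h).2
  have a1 : t ((0 : ZMod m) + 1, y') = 1 := if_pos (Or.inr rfl)
  have a2 : t ((0 : ZMod m), y) = 1 := if_pos (Or.inl rfl)
  have a3 : t ((0 : ZMod m), y') = 0 := if_neg e1
  have a4 : t ((0 : ZMod m) + 1, y) = 0 := if_neg e2
  rw [a1, a2, a3, a4] at hev
  simp at hev

/-- The generic base has a non-central ratio. -/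
theorem exists_ratio_generic [Fintype Y] (hm : 1 < m) (hY : 2 ≤ Fintype.card Y) :
    ∃ y y' : Y, T Z Y m 0 y' * (T Z Y m 0 y)⁻¹ ∉ Z0 Z Y m := by
  classical
  obtain ⟨y, y', hy⟩ := Fintype.exists_pair_of_one_lt_card (α := Y) (by omega)
  exact ⟨y, y', ratio_not_mem_Z0 hm hy⟩

/-- The clock base has a non-central ratio. -/
theorem exists_ratio_clock [Fintype Y] [DecidableEq Y] (hm : 1 < m) (hY : 2 ≤ Fintype.card Y)
    (z : Y) :
    ∃ y y' : Y, (if y' = z then 1 else T Z Y m 0 y') * (if y = z then 1 else T Z Y m 0 y)⁻¹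
      ∉ Z0 Z Y m := by
  obtain ⟨y', hy'⟩ := Fintype.exists_ne_of_one_lt_card (α := Y) (by omega) z
  refine ⟨z, y', ?_⟩
  rw [if_neg hy', if_pos rfl, inv_one, mul_one]
  exact T_not_mem_Z0 hm 0 y'

end Base

end Crest.Agent.Lib.Kurosh.LevelDataExists
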