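import Crest.Agent.Lib.Kurosh.SkewLaurentHat
import Crest.Agent.Lib.Kurosh.NCSubst

/-!
# The valuation filtration on the ring `O` of `SL S σ`

`filtO : Filt (O : Subring (SL S σ))`, `I n = {val ≥ n}`.  Separated and complete.
-/

set_option autoImplicit false

namespace Crest.Agent.Lib.Kurosh

namespace SL

variable {S : Type*} [Ring S] {σ : RingAut S}

/-- The additive subgroup `val ≥ n` of `O`. -/
def idealO (n : ℕ) : AddSubgroup (O : Subring (SL S σ)) where
  carrier := {f | f.1.LB n}
  zero_mem' := lB_zero _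
  add_mem' {f g} hf hg := LB.add hf hg
  neg_mem' {f} hf := LB.neg hf

lemma mem_idealO {n : ℕ} {f : (O : Subring (SL S σ))} : f ∈ idealO n ↔ f.1.LB n := Iff.rfl

/-- Limit of a Cauchy sequence in `O`. -/
noncomputable def limO (s : ℕ → (O : Subring (SL S σ))) : SL S σ :=
  ⟨fun i => if i < 0 then 0 else (s (i.toNat + 1)).1.coeff i, 0, fun i hi => if_pos hi⟩

lemma limO_coeff_of_le {s : ℕ → (O : Subring (SL S σ))}
    (hs : ∀ n, s (n + 1) - s n ∈ idealO n) {i : ℤ} (hi : 0 ≤ i) {N : ℕ} (hN : i.toNat + 1 ≤ N) :
    (s N).1.coeff i = (limO s).coeff i := by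
  show _ = if i < 0 then 0 else (s (i.toNat + 1)).1.coeff i
  rw [if_neg (not_lt.mpr hi)]
  induction N, hN using Nat.le_induction with
  | base => rfl
  | succ N hN ih =>
    rw [← ih]
    have h := hs N
    have h1 : (s (N + 1) - s N).1.LB N := h
    have h2 := h1 i (by omega)
    have h3 : ((s (N + 1)).1 - (s N).1).coeff i = 0 := h2
    rw [coeff_sub] at h3
    exact sub_eq_zero.mp h3

/-- The valuation filtration of `O`. -/
noncomputable def filtO : Filt (O : Subring (SL S σ)) where
  I := idealO
  I_zero := by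
    ext f
    simp only [AddSubgroup.mem_top, iff_true]
    exact f.2
  mono n := by
    intro f hf
    exact LB.mono hf (by push_cast; omega)
  mul_mem := by
    intro a b x y hx hy
    have := LB.mul hx hy
    show (x.1 * y.1).LB _
    push_cast
    exact this
  sep := by
    intro x hx
    apply Subtype.ext
    apply SL.ext
    funext i
    exact hx (i.toNat + 1) i (by push_cast; omega)
  complete := by
    intro s hs
    refine ⟨⟨limO s, fun i hi => if_pos hi⟩, fun n => ?_⟩
    intro i hi
    by_cases h0 : i < 0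
    · show (limO s - (s n).1).coeff i = 0
      rw [coeff_sub, (s n).2 i h0]
      show (if i < 0 then 0 else _) - 0 = 0
      rw [if_pos h0, sub_zero]
    · show (limO s - (s n).1).coeff i = 0
      have hi' : i < (n : ℤ) := hi
      rw [coeff_sub, ← limO_coeff_of_le hs (not_lt.mp h0) (N := n) (by omega), sub_self]

lemma mem_filtO_I {n : ℕ} {f : (O : Subring (SL S σ))} : f ∈ (filtO (S := S) (σ := σ)).I n ↔ f.1.LB n :=
  Iff.rfl

end SL

end Crest.Agent.Lib.Kurosh
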