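import Mathlib
import Crest.Agent.Lib.Kurosh.NCSeries
import Crest.Agent.Lib.Kurosh.NCSubst
import Crest.Agent.Lib.Kurosh.NCComm
import Crest.Agent.Lib.Kurosh.SkewLaurent
import Crest.Agent.Lib.Kurosh.SkewLaurentHat
import Crest.Agent.Lib.Kurosh.SkewLaurentFilt
import Crest.Agent.Lib.Kurosh.RatExt

/-!
# `Tilde R = SL (L0 ⊗ R) (s ⊗ 1)` (S0270, blueprint section 1)

`L0, shift, Z0Sub, Z0, CC, Zp, RL, sR, Tilde, Cmap, Rmap`; the `Zp`-algebra structures (stretch);
`Tmap`, `TLinZ`, `trC`, `TrL`; the division ring, central and finite dimensional structures.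
-/

set_option autoImplicit false

namespace Crest.Agent.Lib.Kurosh

open TensorProduct SL NCSeries

/-- Primes are nonzero, as an instance (for the `Zp`-algebra structures). -/
instance instNeZeroOfFactPrime {m : ℕ} [Fact m.Prime] : NeZero m := ⟨(Fact.out : m.Prime).ne_zero⟩

section
variable (Z : Type) [Field Z] (Y : Type) (m : ℕ)

noncomputable abbrev L0 : Type := RatExt.L0 Z Y m

noncomputable def shift : RingAut (L0 Z Y m) := (RatExt.s Z Y m).toRingEquiv

/-- Fixed field `Z0` of the shift. -/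
noncomputable abbrev Z0Sub : Subfield (L0 Z Y m) := RatExt.Z0 Z Y m
noncomputable abbrev Z0 : Type := Z0Sub Z Y m

noncomputable abbrev CC : Type := SL (L0 Z Y m) (shift Z Y m)
noncomputable abbrev Zp : Type := Lau (Z0 Z Y m)

variable (R : Type) [Ring R] [Algebra Z R]

noncomputable abbrev RL : Type := L0 Z Y m ⊗[Z] R

noncomputable def sR : RingAut (RL Z Y m R) := RatExt.sR Z Y m R

noncomputable abbrev Tilde : Type := SL (RL Z Y m R) (sR Z Y m R)

lemma shift_apply (x : L0 Z Y m) : shift Z Y m x = RatExt.s Z Y m x := rfl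

lemma sR_algebraMap (x : L0 Z Y m) :
    sR Z Y m R (algebraMap (L0 Z Y m) (RL Z Y m R) x) =
      algebraMap (L0 Z Y m) (RL Z Y m R) (shift Z Y m x) := by
  show RatExt.sR Z Y m R (RatExt.iotaL Z Y m R x) = RatExt.iotaL Z Y m R (RatExt.s Z Y m x)
  simp

noncomputable def Cmap : CC Z Y m →+* Tilde Z Y m R :=
  SL.map (algebraMap (L0 Z Y m) (RL Z Y m R)) (fun x => (sR_algebraMap Z Y m R x).symm)

noncomputable def Rmap : R →+* Tilde Z Y m R :=
  (SL.C).comp ((RatExt.iota Z Y m R : R →ₐ[Z] RL Z Y m R) : R →+* RL Z Y m R)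

end

/-! ### General facts on `zpow` of automorphisms -/

section Zpow

variable {A B : Type*} [Ring A] [Ring B] {σ : RingAut A} {σ' : RingAut B}

/-- Any function intertwining two automorphisms intertwines their integer powers. -/
lemma zpow_intertwine (F : A → B) (h : ∀ x, F (σ x) = σ' (F x)) (i : ℤ) (x : A) :
    F ((σ ^ i) x) = (σ' ^ i) (F x) := by
  have hinv : ∀ x, F (σ⁻¹ x) = σ'⁻¹ (F x) := by
    intro x
    have h1 := h (σ⁻¹ x)
    have e1 : σ (σ⁻¹ x) = x := by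
      show (σ * σ⁻¹) x = x
      rw [mul_inv_cancel]; rfl
    rw [e1] at h1
    have e2 : σ'⁻¹ (σ' (F (σ⁻¹ x))) = F (σ⁻¹ x) := by
      show (σ'⁻¹ * σ') _ = _
      rw [inv_mul_cancel]; rfl
    rw [← e2, ← h1]
  induction i using Int.induction_on generalizing x with
  | zero => simp
  | succ k ih =>
    rw [zpow_add_one, RingAut.mul_apply, ih, h, zpow_add_one, RingAut.mul_apply]
  | pred k ih =>
    rw [zpow_sub_one, RingAut.mul_apply, ih, hinv, zpow_sub_one, RingAut.mul_apply]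

end Zpow

section Basics

variable {Z : Type} [Field Z] {Y : Type} {m : ℕ} {R : Type} [Ring R] [Algebra Z R]

lemma sR_pow_eq (k : ℕ) (x : RL Z Y m R) : (sR Z Y m R ^ k) x = (RatExt.sR Z Y m R ^ k) x := rfl

lemma shift_pow_eq (k : ℕ) (x : L0 Z Y m) : (shift Z Y m ^ k) x = (RatExt.s Z Y m ^ k) x := by
  induction k generalizing x with
  | zero => rfl
  | succ k ih =>
    rw [pow_succ', pow_succ']
    show shift Z Y m ((shift Z Y m ^ k) x) = RatExt.s Z Y m ((RatExt.s Z Y m ^ k) x)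
    rw [ih]
    rfl

end Basics

/-! ### The `Zp`-algebra structures -/

section Stretch

variable (Z : Type) [Field Z] (Y : Type) (m : ℕ) [NeZero m]

/-- The stretch data for `CC`. -/
theorem stretchDataCC : StretchData (algebraMap (Z0 Z Y m) (L0 Z Y m)) (shift Z Y m) m where
  pos := NeZero.pos m
  pow := by
    apply RingEquiv.ext
    intro x
    rw [shift_pow_eq, RatExt.s_pow_m]
    rfl
  fixed c := (RatExt.mem_Z0 Z Y m).1 c.2
  central _ _ := mul_comm _ _

variable (R : Type) [Ring R] [Algebra Z R]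

/-- The stretch data for `Tilde R`. -/
theorem stretchDataT : StretchData (algebraMap (Z0 Z Y m) (RL Z Y m R)) (sR Z Y m R) m where
  pos := NeZero.pos m
  pow := RatExt.sR_pow_m Z Y m R
  fixed c := by
    have e : algebraMap (Z0 Z Y m) (RL Z Y m R) c = RatExt.iotaL Z Y m R (c : L0 Z Y m) := by
      rw [RatExt.iotaL_eq_algebraMap]
      rfl
    rw [e]
    show RatExt.sR Z Y m R _ = _
    rw [RatExt.sR_iotaL, (RatExt.mem_Z0 Z Y m).1 c.2]
  central c x := Algebra.commutes c x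

noncomputable instance instAlgebraZpTilde : Algebra (Zp Z Y m) (Tilde Z Y m R) :=
  stretchAlgebra (stretchDataT Z Y m R)

noncomputable instance instAlgebraZpCC : Algebra (Zp Z Y m) (CC Z Y m) :=
  stretchAlgebra (stretchDataCC Z Y m)

lemma algebraMap_Tilde (z : Zp Z Y m) :
    algebraMap (Zp Z Y m) (Tilde Z Y m R) z = stretch (stretchDataT Z Y m R) z := rfl

lemma algebraMap_CC (z : Zp Z Y m) :
    algebraMap (Zp Z Y m) (CC Z Y m) z = stretch (stretchDataCC Z Y m) z := rfl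

lemma Cmap_algebraMap (z : Zp Z Y m) :
    Cmap Z Y m R (algebraMap (Zp Z Y m) (CC Z Y m) z) = algebraMap (Zp Z Y m) (Tilde Z Y m R) z := by
  apply SL.ext
  funext i
  rw [algebraMap_CC, algebraMap_Tilde]
  show algebraMap (L0 Z Y m) (RL Z Y m R) ((stretch (stretchDataCC Z Y m) z).coeff i) = _
  by_cases hi : (m : ℤ) ∣ i
  · obtain ⟨k, rfl⟩ := hi
    rw [coeff_stretch_mul, coeff_stretch_mul]
    rfl
  · rw [coeff_stretch_of_not_dvd _ _ hi, coeff_stretch_of_not_dvd _ _ hi, map_zero]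

end Stretch

/-! ### Functoriality -/

section Tmap

variable (Z : Type) [Field Z] (Y : Type) (m : ℕ)

/-- The ring-hom version of `Tmap`. -/
noncomputable def TmapHom {R R' : Type} [Ring R] [Algebra Z R] [Ring R'] [Algebra Z R']
    (φ : R →ₐ[Z] R') : Tilde Z Y m R →+* Tilde Z Y m R' :=
  SL.map ((RatExt.mapRL Z Y m φ : RL Z Y m R →ₐ[Z] RL Z Y m R') : RL Z Y m R →+* RL Z Y m R')
    (fun x => RatExt.mapRL_sR Z Y m φ x)

variable [NeZero m]

/-- `Tmap`: functoriality in `R`. -/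
noncomputable def Tmap {R R' : Type} [Ring R] [Algebra Z R] [Ring R'] [Algebra Z R'] (φ : R →ₐ[Z] R') :
    Tilde Z Y m R →ₐ[Zp Z Y m] Tilde Z Y m R' :=
  { TmapHom Z Y m φ with
    commutes' := fun z => by
      rw [algebraMap_Tilde, algebraMap_Tilde]
      apply SL.ext
      funext i
      show RatExt.mapRL Z Y m φ ((stretch (stretchDataT Z Y m R) z).coeff i) = _
      by_cases hi : (m : ℤ) ∣ i
      · obtain ⟨k, rfl⟩ := hi
        rw [coeff_stretch_mul, coeff_stretch_mul]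
        show RatExt.mapRL Z Y m φ (RatExt.iotaL Z Y m R _) = RatExt.iotaL Z Y m R' _
        rw [RatExt.mapRL_iotaL]
      · rw [coeff_stretch_of_not_dvd _ _ hi, coeff_stretch_of_not_dvd _ _ hi, map_zero] }

lemma Tmap_coeff {R R' : Type} [Ring R] [Algebra Z R] [Ring R'] [Algebra Z R'] (φ : R →ₐ[Z] R')
    (g : Tilde Z Y m R) (i : ℤ) :
    (Tmap Z Y m φ g).coeff i = RatExt.mapRL Z Y m φ (g.coeff i) := rfl

lemma Tmap_Rmap {R R' : Type} [Ring R] [Algebra Z R] [Ring R'] [Algebra Z R'] (φ : R →ₐ[Z] R') (r : R) :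
    Tmap Z Y m φ (Rmap Z Y m R r) = Rmap Z Y m R' (φ r) := by
  apply SL.ext
  funext i
  rw [Tmap_coeff]
  show RatExt.mapRL Z Y m φ ((SL.C (RatExt.iota Z Y m R r)).coeff i) =
    (SL.C (RatExt.iota Z Y m R' (φ r))).coeff i
  rw [SL.C_apply, SL.C_apply, SL.coeff_mon, SL.coeff_mon]
  split_ifs
  · exact RatExt.mapRL_iota Z Y m φ r
  · exact map_zero _

lemma Tmap_Cmap {R R' : Type} [Ring R] [Algebra Z R] [Ring R'] [Algebra Z R'] (φ : R →ₐ[Z] R') (c : CC Z Y m) :
    Tmap Z Y m φ (Cmap Z Y m R c) = Cmap Z Y m R' c := by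
  apply SL.ext
  funext i
  rw [Tmap_coeff]
  exact RatExt.mapRL_iotaL Z Y m φ (c.coeff i)

lemma Tmap_injective {R R' : Type} [Ring R] [Algebra Z R] [Ring R'] [Algebra Z R'] (φ : R →ₐ[Z] R')
    (hφ : Function.Injective φ) : Function.Injective (Tmap Z Y m φ) :=
  SL.map_injective _ (fun x => RatExt.mapRL_sR Z Y m φ x) (RatExt.mapRL_injective Z Y m φ hφ)

end Tmap

/-! ### Coefficientwise linear maps -/

section TLin

variable (Z : Type) [Field Z] (Y : Type) (m : ℕ)

/-- Coefficientwise image of a `Z`-linear map to `Z`. -/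
noncomputable def TLinZ {R : Type} [Ring R] [Algebra Z R] (lam : R →ₗ[Z] Z) :
    Tilde Z Y m R →+ CC Z Y m where
  toFun g := ⟨fun i => RatExt.lam Z Y m lam (g.coeff i), by
    obtain ⟨a, ha⟩ := g.exists_LB
    exact ⟨a, fun i hi => by rw [ha i hi, map_zero]⟩⟩
  map_zero' := SL.ext (funext fun i => map_zero _)
  map_add' g g' := SL.ext (funext fun i => map_add _ _ _)

lemma TLinZ_coeff {R : Type} [Ring R] [Algebra Z R] (lam : R →ₗ[Z] Z)
    (g : Tilde Z Y m R) (i : ℤ) :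
    (TLinZ Z Y m lam g).coeff i = RatExt.lam Z Y m lam (g.coeff i) := rfl

lemma TLinZ_Rmap {R : Type} [Ring R] [Algebra Z R] (lam : R →ₗ[Z] Z) (r : R) :
    TLinZ Z Y m lam (Rmap Z Y m R r) = SL.C (algebraMap Z (L0 Z Y m) (lam r)) := by
  apply SL.ext
  funext i
  rw [TLinZ_coeff]
  show RatExt.lam Z Y m lam ((SL.C (RatExt.iota Z Y m R r)).coeff i) = _
  rw [SL.C_apply, SL.C_apply, SL.coeff_mon, SL.coeff_mon]
  split_ifs
  · show RatExt.lam Z Y m lam ((1 : L0 Z Y m) ⊗ₜ[Z] r) = _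
    rw [RatExt.lam_tmul, Algebra.smul_def, mul_one]
  · exact map_zero _

lemma lam_zpow {R : Type} [Ring R] [Algebra Z R] (lam : R →ₗ[Z] Z) (i : ℤ) (x : RL Z Y m R) :
    RatExt.lam Z Y m lam ((sR Z Y m R ^ i) x) = (shift Z Y m ^ i) (RatExt.lam Z Y m lam x) :=
  zpow_intertwine (RatExt.lam Z Y m lam) (fun x => RatExt.lam_sR Z Y m lam x) i x

lemma TLinZ_Cmap_mul {R : Type} [Ring R] [Algebra Z R] (lam : R →ₗ[Z] Z) (c : CC Z Y m)
    (g : Tilde Z Y m R) :
    TLinZ Z Y m lam (Cmap Z Y m R c * g) = c * TLinZ Z Y m lam g := by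
  obtain ⟨a, ha⟩ := c.exists_LB
  obtain ⟨b, hb⟩ := g.exists_LB
  have ha' : (Cmap Z Y m R c).LB a := fun i hi => by
    show algebraMap _ _ (c.coeff i) = 0
    rw [ha i hi, map_zero]
  have hb' : (TLinZ Z Y m lam g).LB b := fun i hi => by
    rw [TLinZ_coeff, hb i hi, map_zero]
  apply SL.ext
  funext n
  rw [TLinZ_coeff, SL.coeff_mul ha' hb, SL.coeff_mul ha hb', map_sum]
  refine Finset.sum_congr rfl fun i _ => ?_
  show RatExt.lam Z Y m lam (RatExt.iotaL Z Y m R (c.coeff i) * _) = _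
  rw [RatExt.lam_iotaL_mul, lam_zpow, TLinZ_coeff]

lemma TLinZ_mul_Cmap {R : Type} [Ring R] [Algebra Z R] (lam : R →ₗ[Z] Z) (c : CC Z Y m)
    (g : Tilde Z Y m R) :
    TLinZ Z Y m lam (g * Cmap Z Y m R c) = TLinZ Z Y m lam g * c := by
  obtain ⟨a, ha⟩ := c.exists_LB
  obtain ⟨b, hb⟩ := g.exists_LB
  have ha' : (Cmap Z Y m R c).LB a := fun i hi => by
    show algebraMap _ _ (c.coeff i) = 0
    rw [ha i hi, map_zero]
  have hb' : (TLinZ Z Y m lam g).LB b := fun i hi => by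
    rw [TLinZ_coeff, hb i hi, map_zero]
  apply SL.ext
  funext n
  rw [TLinZ_coeff, SL.coeff_mul hb ha', SL.coeff_mul hb' ha, map_sum]
  refine Finset.sum_congr rfl fun i _ => ?_
  have e : (sR Z Y m R ^ i) ((Cmap Z Y m R c).coeff (n - i)) =
      RatExt.iotaL Z Y m R ((shift Z Y m ^ i) (c.coeff (n - i))) :=
    (zpow_intertwine (σ := shift Z Y m) (σ' := sR Z Y m R)
      (RatExt.iotaL Z Y m R) (fun x => (sR_algebraMap Z Y m R x).symm) i _).symm
  rw [e, RatExt.lam_mul_iotaL, TLinZ_coeff, mul_comm]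

end TLin


/-! ### The trace -/

section SumMul

lemma sum_Icc_mul {A : Type*} [AddCommMonoid A] {m : ℤ} (hm : 0 < m) (T : ℤ → A)
    (hT : ∀ i, ¬ m ∣ i → T i = 0) (a c : ℤ) :
    ∑ i ∈ Finset.Icc (m * a) (m * c), T i = ∑ k ∈ Finset.Icc a c, T (m * k) := by
  classical
  have hinj : Set.InjOn (fun k : ℤ => m * k) (Finset.Icc a c : Set ℤ) := fun x _ y _ h =>
    mul_left_cancel₀ hm.ne' h
  rw [← Finset.sum_image (f := T) hinj]
  symm
  refine Finset.sum_subset ?_ ?_
  · intro i hi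
    obtain ⟨k, hk, rfl⟩ := Finset.mem_image.1 hi
    rw [Finset.mem_Icc] at hk ⊢
    exact ⟨mul_le_mul_of_nonneg_left hk.1 hm.le, mul_le_mul_of_nonneg_left hk.2 hm.le⟩
  · intro i hi hni
    apply hT
    rintro ⟨k, rfl⟩
    apply hni
    rw [Finset.mem_Icc] at hi
    refine Finset.mem_image.2 ⟨k, Finset.mem_Icc.2 ⟨?_, ?_⟩, rfl⟩
    · exact le_of_mul_le_mul_left hi.1 hm
    · exact le_of_mul_le_mul_left hi.2 hm

variable {F : Type*} [Field F] {S : Type*} [Ring S] {σ : RingAut S} {φ : F →+* S} {m : ℕ}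

/-- The coefficient of `stretch z * f` at a multiple of `m`. -/
lemma coeff_stretch_mul_at (h : StretchData φ σ m) (z : Lau F) (f : SL S σ) {a b : ℤ} (ha : z.LB a)
    (hb : f.LB ((m : ℤ) * b)) (q : ℤ) :
    (stretch h z * f).coeff ((m : ℤ) * q) =
      ∑ k ∈ Finset.Icc a (q - b), φ (z.coeff k) * f.coeff ((m : ℤ) * (q - k)) := by
  have hm : (0 : ℤ) < m := by exact_mod_cast h.pos
  rw [SL.coeff_mul (lB_stretch h ha) hb]
  have e : (m : ℤ) * q - (m : ℤ) * b = (m : ℤ) * (q - b) := by ring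
  rw [e, sum_Icc_mul hm]
  · refine Finset.sum_congr rfl fun k _ => ?_
    rw [coeff_stretch_mul, h.zpow_of_dvd (dvd_mul_right _ _)]
    congr 2
    ring
  · intro i hi
    rw [coeff_stretch_of_not_dvd h z hi, zero_mul]

lemma function_zpow_fixed {A : Type*} (t : S → A) (h : ∀ x, t (σ x) = t x) (j : ℤ) (x : S) :
    t ((σ ^ j) x) = t x := by
  have hinv : ∀ x, t (σ⁻¹ x) = t x := by
    intro x
    have h1 := h (σ⁻¹ x)
    have e1 : σ (σ⁻¹ x) = x := by
      show (σ * σ⁻¹) x = x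
      rw [mul_inv_cancel]; rfl
    rw [e1] at h1
    exact h1.symm
  induction j using Int.induction_on generalizing x with
  | zero => simp
  | succ k ih => rw [zpow_add_one, RingAut.mul_apply, ih, h]
  | pred k ih => rw [zpow_sub_one, RingAut.mul_apply, ih, hinv]

/-- A cyclic `σ`-invariant additive functional on coefficients at multiples of `m`. -/
lemma coeff_mul_comm_of_cyc {A : Type*} [AddCommMonoid A] {M : ℤ} (hσ : ∀ x, (σ ^ M) x = x) (t : S →+ A)
    (h1 : ∀ x, t (σ x) = t x) (h2 : ∀ x y, t (x * y) = t (y * x)) (x y : SL S σ) :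
    t ((x * y).coeff M) = t ((y * x).coeff M) := by
  obtain ⟨a, ha⟩ := x.exists_LB
  obtain ⟨b, hb⟩ := y.exists_LB
  rw [SL.coeff_mul ha hb, SL.coeff_mul hb ha, map_sum, map_sum]
  refine Finset.sum_nbij' (fun i => M - i) (fun i => M - i) ?_ ?_ ?_ ?_ ?_
  · intro i hi
    simp only [Finset.mem_Icc] at hi ⊢
    omega
  · intro i hi
    simp only [Finset.mem_Icc] at hi ⊢
    omega
  · intro i _
    ring
  · intro i _
    ring
  · intro i _
    rw [sub_sub_cancel, h2]
    have h3 := function_zpow_fixed t h1 (M - i)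
      (((σ ^ i) (y.coeff (M - i))) * x.coeff i)
    rw [← h3, map_mul, ← RingAut.mul_apply, ← zpow_add]
    have e : M - i + i = M := by ring
    rw [e, hσ]

end SumMul

section Tr

variable (Z : Type) [Field Z] (Y : Type) (m : ℕ)

lemma tr_shift [NeZero m] (x : L0 Z Y m) :
    RatExt.tr Z Y m (shift Z Y m x) = RatExt.tr Z Y m x := by
  have h : RatExt.tr Z Y m (RatExt.s Z Y m x) = RatExt.s Z Y m (RatExt.tr Z Y m x) := by
    unfold RatExt.tr
    rw [map_sum]
    refine Finset.sum_congr rfl fun r _ => ?_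
    rw [← AlgEquiv.mul_apply, ← AlgEquiv.mul_apply, ← pow_succ, ← pow_succ']
  show RatExt.tr Z Y m (RatExt.s Z Y m x) = _
  rw [h, RatExt.s_tr]

lemma shift_zpow_mul [NeZero m] (k : ℤ) (x : L0 Z Y m) : (shift Z Y m ^ ((m : ℤ) * k)) x = x :=
  (stretchDataCC Z Y m).zpow_of_dvd (dvd_mul_right _ _) x

/-- The additive functional `tr`. -/
noncomputable def trHom : L0 Z Y m →+ L0 Z Y m where
  toFun := RatExt.tr Z Y m
  map_zero' := by simp [RatExt.tr]
  map_add' := RatExt.tr_add Z Y m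

variable [NeZero m]

lemma exists_LB_mul (f : SL (L0 Z Y m) (shift Z Y m)) : ∃ b : ℤ, f.LB ((m : ℤ) * b) := by
  obtain ⟨a, ha⟩ := f.exists_LB
  have hm : (0 : ℤ) < m := by exact_mod_cast NeZero.pos m
  refine ⟨a / m, ha.mono ?_⟩
  exact Int.mul_ediv_self_le hm.ne'

/-- `trC (Σ c_i ϖ^i) = Σ_{m | i} tr (c_i) ϖ^i`, as a series in `ϖ^m` over `Z0`. -/
noncomputable def trC : CC Z Y m →ₗ[Zp Z Y m] Zp Z Y m where
  toFun f := ⟨fun q => RatExt.trLin Z Y m (f.coeff ((m : ℤ) * q)), by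
    obtain ⟨b, hb⟩ := exists_LB_mul Z Y m f
    have hm : (0 : ℤ) < m := by exact_mod_cast NeZero.pos m
    refine ⟨b, fun q hq => ?_⟩
    rw [hb _ (mul_lt_mul_of_pos_left hq hm), map_zero]⟩
  map_add' f g := SL.ext (funext fun q => map_add _ _ _)
  map_smul' z f := by
    obtain ⟨a, ha⟩ := z.exists_LB
    obtain ⟨b, hb⟩ := exists_LB_mul Z Y m f
    have hm : (0 : ℤ) < m := by exact_mod_cast NeZero.pos m
    have hb' : (⟨fun q => RatExt.trLin Z Y m (f.coeff ((m : ℤ) * q)), by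
        refine ⟨b, fun q hq => ?_⟩
        rw [hb _ (mul_lt_mul_of_pos_left hq hm), map_zero]⟩ : Zp Z Y m).LB b := fun q hq => by
      show RatExt.trLin Z Y m (f.coeff ((m : ℤ) * q)) = 0
      rw [hb _ (mul_lt_mul_of_pos_left hq hm), map_zero]
    apply SL.ext
    funext q
    rw [RingHom.id_apply, smul_eq_mul, SL.coeff_mul ha hb']
    show RatExt.trLin Z Y m ((z • f).coeff ((m : ℤ) * q)) = _
    rw [Algebra.smul_def, algebraMap_CC, coeff_stretch_mul_at _ z f ha hb, map_sum]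
    refine Finset.sum_congr rfl fun k _ => ?_
    have e1 : (1 : RingAut (Z0 Z Y m)) ^ k = 1 := one_zpow k
    rw [e1]
    show RatExt.trLin Z Y m ((z.coeff k) • (f.coeff ((m : ℤ) * (q - k)))) = _
    rw [map_smul]
    rfl

lemma trC_coeff (f : CC Z Y m) (q : ℤ) :
    (trC Z Y m f).coeff q = RatExt.trLin Z Y m (f.coeff ((m : ℤ) * q)) := rfl

lemma trC_coeff_coe (f : CC Z Y m) (q : ℤ) :
    (((trC Z Y m f).coeff q : Z0 Z Y m) : L0 Z Y m) = RatExt.tr Z Y m (f.coeff ((m : ℤ) * q)) := rfl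

lemma trC_LB {f : CC Z Y m} {a : ℤ} (h : f.LB ((m : ℤ) * a)) : (trC Z Y m f).LB a := by
  intro q hq
  have hm : (0 : ℤ) < m := by exact_mod_cast NeZero.pos m
  rw [trC_coeff, h _ (mul_lt_mul_of_pos_left hq hm), map_zero]

/-- `trC` is cyclic. -/
theorem trC_mul_comm (x y : CC Z Y m) : trC Z Y m (x * y) = trC Z Y m (y * x) := by
  apply SL.ext
  funext q
  apply Subtype.ext
  rw [trC_coeff_coe, trC_coeff_coe]
  exact coeff_mul_comm_of_cyc (M := (m : ℤ) * q) (shift_zpow_mul Z Y m q) (trHom Z Y m)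
    (tr_shift Z Y m) (fun a b => by rw [mul_comm]) x y

variable {Z Y m}

/-- `TLinZ` is `Zp`-linear. -/
noncomputable def TLinZL {R : Type} [Ring R] [Algebra Z R] (lam : R →ₗ[Z] Z) :
    Tilde Z Y m R →ₗ[Zp Z Y m] CC Z Y m where
  toFun := TLinZ Z Y m lam
  map_add' := map_add _
  map_smul' z g := by
    rw [RingHom.id_apply, Algebra.smul_def, Algebra.smul_def, ← Cmap_algebraMap, TLinZ_Cmap_mul]

variable (Z Y m)

/-- `Tr_λ := trC ∘ TLinZ λ`. -/
noncomputable def TrL {R : Type} [Ring R] [Algebra Z R] (lam : R →ₗ[Z] Z) :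
    Tilde Z Y m R →ₗ[Zp Z Y m] Zp Z Y m :=
  (trC Z Y m) ∘ₗ TLinZL lam

lemma TrL_apply {R : Type} [Ring R] [Algebra Z R] (lam : R →ₗ[Z] Z) (g : Tilde Z Y m R) :
    TrL Z Y m lam g = trC Z Y m (TLinZ Z Y m lam g) := rfl

lemma TrL_coeff_coe {R : Type} [Ring R] [Algebra Z R] (lam : R →ₗ[Z] Z) (g : Tilde Z Y m R) (q : ℤ) :
    (((TrL Z Y m lam g).coeff q : Z0 Z Y m) : L0 Z Y m) =
      RatExt.tr Z Y m (RatExt.lam Z Y m lam (g.coeff ((m : ℤ) * q))) := rfl

lemma TrL_LB {R : Type} [Ring R] [Algebra Z R] (lam : R →ₗ[Z] Z) {g : Tilde Z Y m R} {a : ℤ}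
    (h : g.LB ((m : ℤ) * a)) : (TrL Z Y m lam g).LB a := by
  refine trC_LB Z Y m fun i hi => ?_
  show (TLinZ Z Y m lam g).coeff i = 0
  rw [TLinZ_coeff, h i hi, map_zero]

/-- A cyclic `λ` extends to a cyclic functional on `R_L`. -/
lemma lam_mul_comm {R : Type} [Ring R] [Algebra Z R] (lam : R →ₗ[Z] Z)
    (hlam : ∀ x y, lam (x * y) = lam (y * x)) (x y : RL Z Y m R) :
    RatExt.lam Z Y m lam (x * y) = RatExt.lam Z Y m lam (y * x) := by
  induction x using TensorProduct.induction_on with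
  | zero => simp
  | add a b ha hb => simp only [add_mul, mul_add, map_add, ha, hb]
  | tmul c r =>
    induction y using TensorProduct.induction_on with
    | zero => simp
    | add a b ha hb => simp only [add_mul, mul_add, map_add, ha, hb]
    | tmul d s =>
      simp only [Algebra.TensorProduct.tmul_mul_tmul, RatExt.lam_tmul]
      rw [hlam, mul_comm c d]

/-- `Tr_λ` is cyclic for cyclic `λ`. -/
theorem TrL_mul_comm {R : Type} [Ring R] [Algebra Z R] (lam : R →ₗ[Z] Z)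
    (hlam : ∀ x y, lam (x * y) = lam (y * x)) (x y : Tilde Z Y m R) :
    TrL Z Y m lam (x * y) = TrL Z Y m lam (y * x) := by
  apply SL.ext
  funext q
  apply Subtype.ext
  rw [TrL_coeff_coe, TrL_coeff_coe]
  have h := (stretchDataT Z Y m R).zpow_of_dvd (i := (m : ℤ) * q) (dvd_mul_right _ _)
  exact coeff_mul_comm_of_cyc (M := (m : ℤ) * q) h
    ((trHom Z Y m).comp (RatExt.lam Z Y m lam).toAddMonoidHom)
    (fun a => by
      show RatExt.tr Z Y m (RatExt.lam Z Y m lam (RatExt.sR Z Y m R a)) = _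
      rw [RatExt.lam_sR]
      exact tr_shift Z Y m _)
    (fun a b => by
      show RatExt.tr Z Y m (RatExt.lam Z Y m lam (a * b)) = RatExt.tr Z Y m (RatExt.lam Z Y m lam (b * a))
      rw [lam_mul_comm Z Y m lam hlam]) x y

/-- The image of `Z` in `Z0`. -/
noncomputable def zInZ0 : Z →+* Z0 Z Y m :=
  (algebraMap Z (L0 Z Y m)).codRestrict (Z0Sub Z Y m).toSubring (fun z =>
    (RatExt.mem_Z0 Z Y m).2 ((RatExt.s Z Y m).commutes z))

@[simp] lemma zInZ0_coe (z : Z) : ((zInZ0 Z Y m z : Z0 Z Y m) : L0 Z Y m) = algebraMap Z (L0 Z Y m) z :=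
  rfl

/-- `Tr_λ 1 = m λ(1)`. -/
theorem TrL_one {R : Type} [Ring R] [Algebra Z R] (lam : R →ₗ[Z] Z) :
    TrL Z Y m lam (1 : Tilde Z Y m R) = (m : Zp Z Y m) * SL.C (zInZ0 Z Y m (lam 1)) := by
  have h1 : (1 : Tilde Z Y m R) = Rmap Z Y m R 1 := (map_one _).symm
  have hm : ((m : Zp Z Y m)) = SL.C (m : Z0 Z Y m) := by simp
  rw [hm, ← map_mul]
  apply SL.ext
  funext q
  apply Subtype.ext
  rw [TrL_coeff_coe, h1]
  show RatExt.tr Z Y m (RatExt.lam Z Y m lam ((SL.C (RatExt.iota Z Y m R 1)).coeff _)) = _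
  rw [SL.C_apply, SL.C_apply, SL.coeff_mon, SL.coeff_mon]
  have hm0 : (m : ℤ) ≠ 0 := by exact_mod_cast NeZero.ne m
  by_cases hq : q = 0
  · subst hq
    rw [mul_zero, if_pos rfl, if_pos rfl]
    show RatExt.tr Z Y m (RatExt.lam Z Y m lam ((1 : L0 Z Y m) ⊗ₜ[Z] (1 : R))) = _
    rw [RatExt.lam_tmul, Algebra.smul_def, mul_one, RatExt.tr_of_mem]
    · simp
    · exact (zInZ0 Z Y m (lam 1)).2
  · rw [if_neg (mul_ne_zero hm0 hq), if_neg hq, map_zero]
    simp [RatExt.tr]

end Tr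

/-! ### Fields, division rings -/

section Structure

variable (Z : Type) [Field Z] (Y : Type) (m : ℕ)

instance instCharZeroZ0 [CharZero Z] : CharZero (Z0 Z Y m) :=
  charZero_of_injective_ringHom (f := zInZ0 Z Y m) (RingHom.injective _)

instance instCharZeroZp [CharZero Z] : CharZero (Zp Z Y m) :=
  charZero_of_injective_ringHom (f := (SL.C : Z0 Z Y m →+* Zp Z Y m)) SL.C_injective

/-- `Tilde R` is a division ring for `R` f.d. division. -/
noncomputable instance instDivTilde [Infinite Z] (R : Type) [DivisionRing R] [Algebra Z R]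
    [FiniteDimensional Z R] : DivisionRing (Tilde Z Y m R) :=
  SL.instDivisionRing

section Finite

variable [NeZero m]

instance instFiniteZ0 : FiniteDimensional (Z0 Z Y m) (L0 Z Y m) := RatExt.finiteDimensional_Z0 Z Y m

variable (R : Type) [Ring R] [Algebra Z R] [Module.Finite Z R]

theorem instFiniteZ0RL : Module.Finite (Z0 Z Y m) (RL Z Y m R) :=
  Module.Finite.trans (L0 Z Y m) _

instance instFiniteZ0RL' :
    @Module.Finite (Z0 Z Y m) (RL Z Y m R) _ _ (Algebra.toModule) :=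
  instFiniteZ0RL Z Y m R

instance instFDTilde : FiniteDimensional (Zp Z Y m) (Tilde Z Y m R) :=
  finite_stretch (stretchDataT Z Y m R)

instance instFDCC : FiniteDimensional (Zp Z Y m) (CC Z Y m) :=
  finite_stretch (stretchDataCC Z Y m)

theorem finrank_CCR [Nonempty Y] : Module.finrank (Zp Z Y m) (CC Z Y m) = m ^ 2 := by
  have h := finrank_stretch (stretchDataCC Z Y m)
  rw [RatExt.finrank_Z0] at h
  rw [sq]
  exact h

theorem finrank_TildeR [Nonempty Y] :
    Module.finrank (Zp Z Y m) (Tilde Z Y m R) = m ^ 2 * Module.finrank Z R := by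
  have h2 : Module.finrank (Z0 Z Y m) (RL Z Y m R) = m * Module.finrank Z R := by
    rw [← Module.finrank_mul_finrank (Z0 Z Y m) (L0 Z Y m) (RL Z Y m R), RatExt.finrank_Z0,
      Module.finrank_baseChange]
  have h3 : Module.finrank (Zp Z Y m) (Tilde Z Y m R) =
      Module.finrank (Z0 Z Y m) (RL Z Y m R) * m := finrank_stretch (stretchDataT Z Y m R)
  rw [h3, h2, sq]
  ring

end Finite

section Central

variable [Infinite Z] (R : Type) [DivisionRing R] [Algebra Z R] [FiniteDimensional Z R]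

/-- `x` central in `R_L` for `R` central: `x ∈ L0 ⊗ 1`. -/
lemma central_RL [Algebra.IsCentral Z R] (x : RL Z Y m R) (hx : ∀ y, x * y = y * x) :
    ∃ l : L0 Z Y m, x = RatExt.iotaL Z Y m R l := by
  have h1 : x ∈ Subalgebra.centralizer Z
      (((Algebra.TensorProduct.includeRight : R →ₐ[Z] RL Z Y m R).range : Subalgebra Z (RL Z Y m R)) :
        Set (RL Z Y m R)) := by
    rw [Subalgebra.mem_centralizer_iff]
    intro g _
    exact (hx g).symm
  rw [Subalgebra.centralizer_range_includeRight_eq_center_tensorProduct] at h1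
  obtain ⟨w, rfl⟩ := h1
  have hbot : Subalgebra.center Z R = ⊥ := Algebra.IsCentral.center_eq_bot Z R
  clear hx
  induction w using TensorProduct.induction_on with
  | zero => exact ⟨0, by simp⟩
  | add a b ha hb =>
    obtain ⟨la, hla⟩ := ha
    obtain ⟨lb, hlb⟩ := hb
    exact ⟨la + lb, by rw [map_add, hla, hlb, map_add]⟩
  | tmul c r =>
    obtain ⟨r, hr⟩ := r
    have hr' : r ∈ (⊥ : Subalgebra Z R) := hbot ▸ hr
    obtain ⟨z, rfl⟩ := Algebra.mem_bot.1 hr'
    refine ⟨z • c, ?_⟩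
    show (c ⊗ₜ[Z] (algebraMap Z R z) : RL Z Y m R) = (z • c) ⊗ₜ[Z] (1 : R)
    rw [Algebra.algebraMap_eq_smul_one, TensorProduct.smul_tmul]

/-- `x` central and fixed in `R_L` for `R` central: `x` comes from `Z0`. -/
lemma central_fixed_RL [Algebra.IsCentral Z R] (x : RL Z Y m R) (hx : ∀ y, x * y = y * x)
    (hf : sR Z Y m R x = x) : x ∈ (algebraMap (Z0 Z Y m) (RL Z Y m R)).range := by
  obtain ⟨l, rfl⟩ := central_RL Z Y m R x hx
  have h1 : RatExt.iotaL Z Y m R (RatExt.s Z Y m l) = RatExt.iotaL Z Y m R l := by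
    rw [← RatExt.sR_iotaL]
    exact hf
  have h2 := RatExt.iotaL_injective Z Y m R h1
  exact ⟨⟨l, (RatExt.mem_Z0 Z Y m).2 h2⟩, rfl⟩

/-- The separation hypothesis of `central_iff_range`. -/
lemma exists_central_not_fixed [Fact m.Prime] [Nonempty Y] (i : ℤ) (hi : ¬ (m : ℤ) ∣ i) :
    ∃ a : RL Z Y m R, (∀ x, a * x = x * a) ∧ (sR Z Y m R ^ i) a ≠ a := by
  classical
  obtain ⟨y0⟩ := (inferInstance : Nonempty Y)
  refine ⟨RatExt.iotaL Z Y m R (RatExt.T Z Y m 0 y0), fun x => Algebra.commutes _ x, fun h => ?_⟩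
  have hm0 : (0 : ℤ) < m := by exact_mod_cast (Fact.out : m.Prime).pos
  have e : (sR Z Y m R ^ i) (RatExt.iotaL Z Y m R (RatExt.T Z Y m 0 y0)) =
      RatExt.iotaL Z Y m R ((shift Z Y m ^ i) (RatExt.T Z Y m 0 y0)) :=
    (zpow_intertwine (σ := shift Z Y m) (σ' := sR Z Y m R)
      (RatExt.iotaL Z Y m R) (fun x => (sR_algebraMap Z Y m R x).symm) i _).symm
  rw [e] at h
  have h1 := RatExt.iotaL_injective Z Y m R h
  -- reduce the exponent mod `m`
  have hdiv : i = (m : ℤ) * (i / m) + (i % m) := (Int.mul_ediv_add_emod i m).symm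
  have h2 : (shift Z Y m ^ i) (RatExt.T Z Y m 0 y0) =
      (shift Z Y m ^ (i % m)) (RatExt.T Z Y m 0 y0) := by
    conv_lhs => rw [hdiv, zpow_add, RingAut.mul_apply]
    have h3 := (stretchDataCC Z Y m).zpow_of_dvd (i := (m : ℤ) * (i / m)) (dvd_mul_right _ _)
    rw [h3]
  have hnn : 0 ≤ i % m := Int.emod_nonneg _ hm0.ne'
  obtain ⟨r, hr⟩ := Int.eq_ofNat_of_zero_le hnn
  rw [h2, hr, zpow_natCast, shift_pow_eq, RatExt.s_pow_T] at h1
  obtain ⟨h3, -⟩ := RatExt.T_injective Z Y m h1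
  have h4 : (r : ZMod m) = 0 := by simpa using h3
  have h5 : (m : ℤ) ∣ (r : ℤ) := by
    exact_mod_cast (ZMod.natCast_eq_zero_iff r m).1 h4
  apply hi
  rw [hdiv, hr]
  exact dvd_add (dvd_mul_right _ _) h5

/-- `Tilde R` is central over `Zp` for `R` central. -/
instance instCentralTilde [Fact m.Prime] [Nonempty Y] [Algebra.IsCentral Z R] :
    Algebra.IsCentral (Zp Z Y m) (Tilde Z Y m R) := by
  constructor
  intro x hx
  rw [Subalgebra.mem_center_iff] at hx
  have h := (central_iff_range (stretchDataT Z Y m R)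
    (exists_central_not_fixed Z Y m R) (fun x h1 h2 => central_fixed_RL Z Y m R x h1 h2) x).1
    (fun g => (hx g).symm)
  obtain ⟨z, rfl⟩ := h
  exact Algebra.mem_bot.2 ⟨z, rfl⟩

end Central

end Structure

end Crest.Agent.Lib.Kurosh
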