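import Mathlib
import Crest.Agent.Lib.Kurosh.TildeStub
import Crest.Agent.Lib.Kurosh.PsiCore

/-!
# The level-up move (S0270, blueprint section 1)

Specialisation of `PsiCore` to `Tilde R`: `τ_y = b_y ϖ ∈ CC`, `ψ : NCS R Y →+* NCS (Tilde R) (Fin n)`.
-/

set_option autoImplicit false

namespace Crest.Agent.Lib.Kurosh

open TensorProduct SL NCSeries

section Basic

variable {Z : Type} [Field Z] {Y : Type} {m : ℕ} {R : Type} [Ring R] [Algebra Z R]

lemma Cmap_coeff (c : CC Z Y m) (i : ℤ) :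
    (Cmap Z Y m R c).coeff i = algebraMap (L0 Z Y m) (RL Z Y m R) (c.coeff i) := rfl

lemma Cmap_LB {c : CC Z Y m} {a : ℤ} (h : c.LB a) : (Cmap Z Y m R c).LB a := by
  intro i hi
  rw [Cmap_coeff, h i hi, map_zero]

lemma Cmap_mon (a : L0 Z Y m) (i : ℤ) :
    Cmap Z Y m R (SL.mon a i) = SL.mon (algebraMap (L0 Z Y m) (RL Z Y m R) a) i :=
  SL.map_mon _ _ _ _

lemma Rmap_apply (r : R) : Rmap Z Y m R r = SL.C (RatExt.iota Z Y m R r) := rfl

lemma Rmap_LB (r : R) : (Rmap Z Y m R r).LB 0 := SL.lB_mon _ _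

lemma sR_iota (r : R) : sR Z Y m R (RatExt.iota Z Y m R r) = RatExt.iota Z Y m R r :=
  RatExt.sR_iota Z Y m R r

lemma sR_zpow_iota (k : ℤ) (r : R) :
    (sR Z Y m R ^ k) (RatExt.iota Z Y m R r) = RatExt.iota Z Y m R r := by
  have h1 : ∀ n : ℕ, (sR Z Y m R ^ n) (RatExt.iota Z Y m R r) = RatExt.iota Z Y m R r := by
    intro n
    induction n with
    | zero => rfl
    | succ n ih =>
      rw [pow_succ']
      show sR Z Y m R ((sR Z Y m R ^ n) (RatExt.iota Z Y m R r)) = _
      rw [ih, sR_iota]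
  have h2 : ∀ n : ℕ, ((sR Z Y m R)⁻¹ ^ n) (RatExt.iota Z Y m R r) = RatExt.iota Z Y m R r := by
    intro n
    induction n with
    | zero => rfl
    | succ n ih =>
      rw [pow_succ']
      show (sR Z Y m R)⁻¹ (((sR Z Y m R)⁻¹ ^ n) (RatExt.iota Z Y m R r)) = _
      rw [ih]
      apply (sR Z Y m R).injective
      show sR Z Y m R ((sR Z Y m R).symm (RatExt.iota Z Y m R r)) = _
      rw [RingEquiv.apply_symm_apply, sR_iota]
  obtain ⟨n, rfl | rfl⟩ := k.eq_nat_or_neg
  · simpa using h1 n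
  · simpa using h2 n

/-- The images of `R` and of `CC` commute. -/
lemma Rmap_comm_Cmap (r : R) (c : CC Z Y m) :
    Rmap Z Y m R r * Cmap Z Y m R c = Cmap Z Y m R c * Rmap Z Y m R r := by
  apply SL.ext
  funext i
  rw [Rmap_apply, SL.coeff_C_mul, SL.coeff_mul_C, sR_zpow_iota, Cmap_coeff]
  exact (RatExt.iota_commute Z Y m R (c.coeff i) r).symm

end Basic

section Level

variable (Z : Type) [Field Z] (Y : Type) [Fintype Y] [DecidableEq Y] (m : ℕ)

/-- The generic letters `T_{0,y}` of `L0`. -/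
noncomputable def T0 (y : Y) : L0 Z Y m := RatExt.T Z Y m 0 y

/-- The generic base. -/
noncomputable def genericBase : Y → L0 Z Y m := T0 Z Y m

/-- The clock base. -/
noncomputable def clockBase (z : Y) : Y → L0 Z Y m := fun y => if y = z then 1 else T0 Z Y m y

variable {Z Y m}

/-- `τ_y = b_y ϖ`. -/
noncomputable def tauOf (b : Y → L0 Z Y m) (y : Y) : CC Z Y m := SL.mon (b y) 1

lemma tauOf_LB (b : Y → L0 Z Y m) (y : Y) : (tauOf b y).LB 1 := SL.lB_mon _ _

section Inn

variable [NeZero m]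

/-- Inner directions: `Inn b c = ([τ_y, c])_y`. -/
noncomputable def Inn (b : Y → L0 Z Y m) : CC Z Y m →ₗ[Zp Z Y m] (Y → CC Z Y m) where
  toFun c y := tauOf b y * c - c * tauOf b y
  map_add' c c' := by
    funext y
    simp only [mul_add, add_mul, Pi.add_apply]
    abel
  map_smul' z c := by
    funext y
    simp only [Algebra.smul_def, RingHom.id_apply, Pi.smul_apply, mul_sub]
    rw [← mul_assoc, ← Algebra.commutes, mul_assoc, mul_assoc]

lemma Inn_apply (b : Y → L0 Z Y m) (c : CC Z Y m) (y : Y) :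
    Inn b c y = tauOf b y * c - c * tauOf b y := rfl

variable (Z Y m)

/-- Level-up data. `τ_y = b_y ϖ`; tangents `X t : Y → CC` of val `≥ 1` form a basis of a complement of
the inner directions. -/
structure LevelData where
  b : Y → L0 Z Y m
  hb : ∀ y, b y ≠ 0
  hgen : ∃ y y', b y' * (b y)⁻¹ ∉ Z0Sub Z Y m
  n : ℕ
  X : Fin n → Y → CC Z Y m
  hval : ∀ t y, (X t y).LB 1
  hindep : LinearIndependent (Zp Z Y m) X
  hcompl : IsCompl (Submodule.span (Zp Z Y m) (Set.range X)) (LinearMap.range (Inn b))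

end Inn

variable (R : Type) [Ring R] [Algebra Z R]

omit [Fintype Y] [DecidableEq Y] in
lemma shift_zpow_algebraMap (k : ℤ) (r : Z) :
    (shift Z Y m ^ k) (algebraMap Z (L0 Z Y m) r) = algebraMap Z (L0 Z Y m) r := by
  have h0 : shift Z Y m (algebraMap Z (L0 Z Y m) r) = algebraMap Z (L0 Z Y m) r :=
    (RatExt.s Z Y m).commutes r
  have h1 : ∀ n : ℕ, (shift Z Y m ^ n) (algebraMap Z (L0 Z Y m) r) = algebraMap Z (L0 Z Y m) r := by
    intro n
    induction n with
    | zero => rfl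
    | succ n ih =>
      rw [pow_succ']
      show shift Z Y m ((shift Z Y m ^ n) (algebraMap Z (L0 Z Y m) r)) = _
      rw [ih, h0]
  have h2 : ∀ n : ℕ, ((shift Z Y m)⁻¹ ^ n) (algebraMap Z (L0 Z Y m) r) =
      algebraMap Z (L0 Z Y m) r := by
    intro n
    induction n with
    | zero => rfl
    | succ n ih =>
      rw [pow_succ']
      show (shift Z Y m)⁻¹ (((shift Z Y m)⁻¹ ^ n) (algebraMap Z (L0 Z Y m) r)) = _
      rw [ih]
      apply (shift Z Y m).injective
      show shift Z Y m ((shift Z Y m).symm (algebraMap Z (L0 Z Y m) r)) = _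
      rw [RingEquiv.apply_symm_apply, h0]
  obtain ⟨n, rfl | rfl⟩ := k.eq_nat_or_neg
  · simpa using h1 n
  · simpa using h2 n

/-- The abstract base of the level-up over `Tilde R`. -/
noncomputable def baseOf (b : Y → L0 Z Y m) : PsiCore.Base R (RL Z Y m R) (sR Z Y m R) Y where
  ρ := Rmap Z Y m R
  hρ := Rmap_LB
  τ y := Cmap Z Y m R (tauOf b y)
  hτ y := Cmap_LB (tauOf_LB b y)
  commτ r y := Rmap_comm_Cmap r _

/-- The abstract base of the level-up over `CC`, for coefficients in `Z`. -/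
noncomputable def baseC (b : Y → L0 Z Y m) : PsiCore.Base Z (L0 Z Y m) (shift Z Y m) Y where
  ρ := (SL.C).comp (algebraMap Z (L0 Z Y m))
  hρ r := SL.lB_mon _ _
  τ y := tauOf b y
  hτ y := tauOf_LB b y
  commτ r y := by
    apply SL.ext
    funext i
    rw [RingHom.comp_apply, SL.coeff_C_mul, SL.coeff_mul_C, shift_zpow_algebraMap, mul_comm]

/-! ### Value and directions at a base -/

/-- `f(τ)`. -/
noncomputable def valueB (b : Y → L0 Z Y m) (f : NCS R Y) : Tilde Z Y m R :=
  (baseOf R b).value f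

/-- `Df(τ)[x]`. -/
noncomputable def dirB (b : Y → L0 Z Y m) (x : Y → CC Z Y m) (f : NCS R Y) : Tilde Z Y m R :=
  (baseOf R b).dir (fun y => Cmap Z Y m R (x y)) f

/-- `D²f(τ)[x,x']`, with `x` at the earlier position. -/
noncomputable def dir2B (b : Y → L0 Z Y m) (x x' : Y → CC Z Y m) (f : NCS R Y) : Tilde Z Y m R :=
  (baseOf R b).dir2 (fun y => Cmap Z Y m R (x y)) (fun y => Cmap Z Y m R (x' y)) f

variable {R}

section Dir

variable (b : Y → L0 Z Y m)

lemma comm_dir (x : Y → CC Z Y m) :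
    ∀ r y, (baseOf R b).ρ r * Cmap Z Y m R (x y) = Cmap Z Y m R (x y) * (baseOf R b).ρ r :=
  fun r y => Rmap_comm_Cmap r _

@[simp] lemma valueB_add (f g : NCS R Y) : valueB R b (f + g) = valueB R b f + valueB R b g :=
  PsiCore.Base.value_add _ _ _

@[simp] lemma valueB_sub (f g : NCS R Y) : valueB R b (f - g) = valueB R b f - valueB R b g :=
  PsiCore.Base.value_sub _ _ _

@[simp] lemma valueB_mul (f g : NCS R Y) : valueB R b (f * g) = valueB R b f * valueB R b g :=
  PsiCore.Base.value_mul _ _ _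

@[simp] lemma valueB_C (r : R) : valueB R b (C r : NCS R Y) = Rmap Z Y m R r :=
  PsiCore.Base.value_C _ _

@[simp] lemma valueB_X (y : Y) : valueB R b (X y : NCS R Y) = Cmap Z Y m R (tauOf b y) :=
  PsiCore.Base.value_X _ _

@[simp] lemma valueB_one : valueB R b (1 : NCS R Y) = 1 := PsiCore.Base.value_one _

lemma valueB_LB (f : NCS R Y) : (valueB R b f).LB 0 := PsiCore.Base.value_LB _ f

lemma valueB_LB_order {N : ℕ} {f : NCS R Y} (hf : f ∈ ordGE Y R N) : (valueB R b f).LB N :=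
  PsiCore.Base.value_LB_order _ hf

lemma dirB_add (x x' : Y → CC Z Y m) (f : NCS R Y) :
    dirB R b (x + x') f = dirB R b x f + dirB R b x' f := by
  have := (baseOf R b).dir_add (fun y => Cmap Z Y m R (x y)) (fun y => Cmap Z Y m R (x' y)) f
  simpa only [dirB, Pi.add_apply, map_add] using this

lemma dirB_mul (x : Y → CC Z Y m) (f g : NCS R Y) :
    dirB R b x (f * g) = valueB R b f * dirB R b x g + dirB R b x f * valueB R b g :=
  (baseOf R b).dir_mul _ (comm_dir b x) f g

/-- Derivation identity: `Df(τ)[[τ,c]] = [f(τ), c]`. -/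
theorem dirB_inn (c : CC Z Y m) (f : NCS R Y) :
    dirB R b (fun y => tauOf b y * c - c * tauOf b y) f =
      valueB R b f * Cmap Z Y m R c - Cmap Z Y m R c * valueB R b f := by
  have := (baseOf R b).dir_inn (Cmap Z Y m R c) (fun r => Rmap_comm_Cmap r c) f
  simp only [dirB, valueB, map_sub, map_mul]
  exact this

/-- Second-order derivation identity. -/
theorem dir2B_inn (x : Y → CC Z Y m) (c : CC Z Y m) (f : NCS R Y) :
    dir2B R b (fun y => tauOf b y * c - c * tauOf b y) x f +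
        dir2B R b x (fun y => tauOf b y * c - c * tauOf b y) f +
        dirB R b (fun y => x y * c - c * x y) f =
      dirB R b x f * Cmap Z Y m R c - Cmap Z Y m R c * dirB R b x f := by
  have := (baseOf R b).dir2_inn (fun y => Cmap Z Y m R (x y)) (Cmap Z Y m R c) f
    (fun r => Rmap_comm_Cmap r c)
  simp only [dirB, dir2B, map_sub, map_mul]
  exact this

/-- Euler's identity. -/
theorem dirB_tau (f : NCS R Y) : dirB R b (tauOf b) f = valueB R b (PsiCore.Base.eu f) :=
  (baseOf R b).dir_tau f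

lemma dirB_LB_uniform {a : ℤ} {x : Y → CC Z Y m} (hx : ∀ y, (x y).LB a) (f : NCS R Y) :
    (dirB R b x f).LB a := by
  have := (baseOf R b).dirW_LB_uniform (a := a) [fun y => Cmap Z Y m R (x y)]
    (by
      intro x' hx' y
      simp only [List.mem_singleton] at hx'
      subst hx'
      exact Cmap_LB (hx y)) f
  simpa [dirB] using this

/-- `f ∈ ordGE (N+1)`, directions of val `≥ a`: `Df(τ)[x]` has val `≥ a + N`. -/
lemma dirB_LB_order {a : ℤ} {x : Y → CC Z Y m} (hx : ∀ y, (x y).LB a) {N : ℕ} {f : NCS R Y}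
    (hf : f ∈ ordGE Y R (N + 1)) : (dirB R b x f).LB (a + N) := by
  have := (baseOf R b).dirW_LB_order (a := a) [fun y => Cmap Z Y m R (x y)]
    (by
      intro x' hx' y
      simp only [List.mem_singleton] at hx'
      subst hx'
      exact Cmap_LB (hx y)) hf
  simpa [dirB] using this

/-! ### Explicit formulas -/

lemma iotaL_zpow (k : ℤ) (a : L0 Z Y m) :
    algebraMap (L0 Z Y m) (RL Z Y m R) ((shift Z Y m ^ k) a) =
      (sR Z Y m R ^ k) (algebraMap (L0 Z Y m) (RL Z Y m R) a) :=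
  SL.equivariant_zpow _ (fun x => by
    show RatExt.iotaL Z Y m R (RatExt.s Z Y m x) = RatExt.sR Z Y m R (RatExt.iotaL Z Y m R x)
    simp) k a

lemma lw_map (b : Y → L0 Z Y m) (w : List Y) :
    PsiCore.lw (sR Z Y m R) (fun y => algebraMap (L0 Z Y m) (RL Z Y m R) (b y)) w =
      algebraMap (L0 Z Y m) (RL Z Y m R) (PsiCore.lw (shift Z Y m) b w) := by
  induction w with
  | nil => exact (map_one _).symm
  | cons y w ih =>
    simp only [PsiCore.lw, ih, map_mul]
    rfl

lemma dw_map (b xx : Y → L0 Z Y m) (j : ℤ) (w : List Y) :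
    PsiCore.dw (sR Z Y m R) (fun y => algebraMap (L0 Z Y m) (RL Z Y m R) (b y))
        (fun y => algebraMap (L0 Z Y m) (RL Z Y m R) (xx y)) j w =
      algebraMap (L0 Z Y m) (RL Z Y m R) (PsiCore.dw (shift Z Y m) b xx j w) := by
  induction w with
  | nil => simp [PsiCore.dw]
  | cons y w ih =>
    simp only [PsiCore.dw, ih, map_mul, map_add, lw_map, iotaL_zpow]
    rfl

lemma dw2_map (b xx xx' : Y → L0 Z Y m) (j j' : ℤ) (w : List Y) :
    PsiCore.dw2 (sR Z Y m R) (fun y => algebraMap (L0 Z Y m) (RL Z Y m R) (b y))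
        (fun y => algebraMap (L0 Z Y m) (RL Z Y m R) (xx y))
        (fun y => algebraMap (L0 Z Y m) (RL Z Y m R) (xx' y)) j j' w =
      algebraMap (L0 Z Y m) (RL Z Y m R) (PsiCore.dw2 (shift Z Y m) b xx xx' j j' w) := by
  induction w with
  | nil => simp [PsiCore.dw2]
  | cons y w ih =>
    simp only [PsiCore.dw2, ih, map_mul, map_add, dw_map, iotaL_zpow]
    rfl

lemma isMonBase : PsiCore.IsMonBase (baseOf R b)
    (fun y => algebraMap (L0 Z Y m) (RL Z Y m R) (b y))
    ((RatExt.iota Z Y m R : R →ₐ[Z] RL Z Y m R) : R →+* RL Z Y m R) where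
  τ y := Cmap_mon _ _
  ρ r := rfl
  fix r := sR_iota r

/-- `(f(τ))_D = Σ_{|w|=D} l(w) ⊗ f_w`. -/
theorem coeff_valueB (D : ℕ) (f : NCS R Y) :
    (valueB R b f).coeff D =
      ∑ w ∈ PsiCore.wordsLen D, (PsiCore.lw (shift Z Y m) b w) ⊗ₜ[Z] (coeff w f) := by
  rw [valueB, (isMonBase b).coeff_value]
  refine Finset.sum_congr rfl fun w _ => ?_
  rw [lw_map]
  show (PsiCore.lw (shift Z Y m) b w ⊗ₜ[Z] (1 : R)) * ((1 : L0 Z Y m) ⊗ₜ[Z] (coeff w f)) = _
  simp

/-- For `x = xx ϖ^j`: `(Df(τ)[x])_{j+n} = Σ_{|w|=n+1} Σ_{w=uyv} l(u) s^{|u|}(xx_y) s^{|u|+j}(l v) ⊗ f_w`. -/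
theorem coeff_dirB (xx : Y → L0 Z Y m) (j : ℤ) (n : ℕ) (f : NCS R Y) :
    (dirB R b (fun y => SL.mon (xx y) j) f).coeff (j + n) =
      ∑ w ∈ PsiCore.wordsLen (n + 1), (PsiCore.dw (shift Z Y m) b xx j w) ⊗ₜ[Z] (coeff w f) := by
  have h1 : (fun y => Cmap Z Y m R (SL.mon (xx y) j)) =
      fun y => SL.mon (algebraMap (L0 Z Y m) (RL Z Y m R) (xx y)) j := by
    funext y
    exact Cmap_mon _ _
  rw [dirB, h1, (isMonBase b).coeff_dir]
  refine Finset.sum_congr rfl fun w _ => ?_
  rw [dw_map]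
  show (PsiCore.dw (shift Z Y m) b xx j w ⊗ₜ[Z] (1 : R)) * ((1 : L0 Z Y m) ⊗ₜ[Z] (coeff w f)) = _
  simp

/-- The second-order coefficient formula. -/
theorem coeff_dir2B (xx xx' : Y → L0 Z Y m) (j j' : ℤ) (n : ℕ) (f : NCS R Y) :
    (dir2B R b (fun y => SL.mon (xx y) j) (fun y => SL.mon (xx' y) j') f).coeff (j + j' + n) =
      ∑ w ∈ PsiCore.wordsLen (n + 2),
        (PsiCore.dw2 (shift Z Y m) b xx xx' j j' w) ⊗ₜ[Z] (coeff w f) := by
  have h1 : ∀ xx : Y → L0 Z Y m, (fun y => Cmap Z Y m R (SL.mon (xx y) j)) =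
      fun y => SL.mon (algebraMap (L0 Z Y m) (RL Z Y m R) (xx y)) j := fun xx => by
    funext y
    exact Cmap_mon _ _
  have h2 : ∀ xx : Y → L0 Z Y m, (fun y => Cmap Z Y m R (SL.mon (xx y) j')) =
      fun y => SL.mon (algebraMap (L0 Z Y m) (RL Z Y m R) (xx y)) j' := fun xx => by
    funext y
    exact Cmap_mon _ _
  rw [dir2B, h1, h2, (isMonBase b).coeff_dir2]
  refine Finset.sum_congr rfl fun w _ => ?_
  rw [dw2_map]
  show (PsiCore.dw2 (shift Z Y m) b xx xx' j j' w ⊗ₜ[Z] (1 : R)) *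
    ((1 : L0 Z Y m) ⊗ₜ[Z] (coeff w f)) = _
  simp

end Dir

end Level

section Psi

variable {Z : Type} [Field Z] {Y : Type} [Fintype Y] [DecidableEq Y] {m : ℕ} [NeZero m]
variable (d : LevelData Z Y m) (R : Type) [Ring R] [Algebra Z R]

lemma isDirs : (baseOf R d.b).IsDirs (fun t y => Cmap Z Y m R (d.X t y)) :=
  ⟨fun t y => Cmap_LB ((d.hval t y).mono (by norm_num)), fun r _ _ => Rmap_comm_Cmap r _⟩

/-- The level-up substitution. -/
noncomputable def psi : NCS R Y →+* NCS (Tilde Z Y m R) (Fin d.n) :=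
  PsiCore.Base.psi (isDirs d R)

theorem psi_C (r : R) : psi d R (NCSeries.C r) = NCSeries.C (Rmap Z Y m R r) :=
  PsiCore.Base.psi_C _ r

theorem psi_X (y : Y) : psi d R (NCSeries.X y) =
    NCSeries.C (Cmap Z Y m R (tauOf d.b y)) + ∑ t, NCSeries.C (Cmap Z Y m R (d.X t y)) * NCSeries.X t :=
  PsiCore.Base.psi_X _ y

/-- The value at the base point. -/
noncomputable def value (f : NCS R Y) : Tilde Z Y m R := coeff [] (psi d R f)

theorem value_eq (f : NCS R Y) : value d R f = valueB R d.b f := PsiCore.Base.coeff_nil_psi _ f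

/-- The directional derivative at the base point. -/
noncomputable abbrev dir (x : Y → CC Z Y m) (f : NCS R Y) : Tilde Z Y m R := dirB R d.b x f

/-- The ordered second derivative at the base point. -/
noncomputable abbrev dir2 (x x' : Y → CC Z Y m) (f : NCS R Y) : Tilde Z Y m R := dir2B R d.b x x' f

theorem coeff_single_psi (t : Fin d.n) (f : NCS R Y) :
    coeff [t] (psi d R f) = dir d R (d.X t) f :=
  PsiCore.Base.coeff_single_psi _ t f

theorem coeff_pair_psi (t t' : Fin d.n) (f : NCS R Y) :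
    coeff [t, t'] (psi d R f) = dir2 d R (d.X t) (d.X t') f :=
  PsiCore.Base.coeff_pair_psi _ t t' f

/-- The val estimate: `f ∈ ordGE N ⇒ val (coeff w (ψ f)) ≥ N - |w|`. -/
theorem coeff_psi_LB (w : List (Fin d.n)) {N : ℕ} {f : NCS R Y} (hf : f ∈ ordGE Y R N) :
    (coeff w (psi d R f)).LB ((N : ℤ) - w.length) :=
  (PsiCore.Base.coeff_psi_LB_order (isDirs d R) w hf).mono (by omega)

/-- The val estimate for val-`≥ 1` tangents: `val (coeff w (ψ f)) ≥ max N |w|`. -/
theorem coeff_psi_LB' (w : List (Fin d.n)) {N : ℕ} {f : NCS R Y} (hf : f ∈ ordGE Y R N) :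
    (coeff w (psi d R f)).LB (w.length + ((N - w.length : ℕ) : ℤ)) := by
  have := PsiCore.Base.coeff_psi_LB_order' (isDirs d R) (a := 1)
    (fun t y => Cmap_LB (d.hval t y)) w hf
  simpa [psi] using this

/-- `ψ` is multiplicative on values. -/
@[simp] lemma value_mul (f g : NCS R Y) : value d R (f * g) = value d R f * value d R g := by
  simp only [value, map_mul, coeff_mul_nil]

@[simp] lemma value_add (f g : NCS R Y) : value d R (f + g) = value d R f + value d R g := by
  simp only [value, map_add, NCSeries.coeff_add]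

@[simp] lemma value_C (r : R) : value d R (NCSeries.C r) = Rmap Z Y m R r := by
  rw [value_eq]; exact valueB_C _ r

@[simp] lemma value_X (y : Y) : value d R (NCSeries.X y) = Cmap Z Y m R (tauOf d.b y) := by
  rw [value_eq]; exact valueB_X _ y

/-- `Df(τ)[z • x] = z • Df(τ)[x]` for `z ∈ Z'`. -/
theorem dirB_smul (b : Y → L0 Z Y m) (z : Zp Z Y m) (x : Y → CC Z Y m) (f : NCS R Y) :
    dirB R b (z • x) f = z • dirB R b x f := by
  have hz : ∀ g : Tilde Z Y m R, algebraMap (Zp Z Y m) (Tilde Z Y m R) z * g =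
      g * algebraMap (Zp Z Y m) (Tilde Z Y m R) z := fun g => Algebra.commutes _ _
  have := (baseOf R b).dir_mul_left (algebraMap (Zp Z Y m) (Tilde Z Y m R) z) hz
    (fun y => Cmap Z Y m R (x y)) f
  rw [Algebra.smul_def z (dirB R b x f)]
  refine Eq.trans ?_ this
  rw [dirB]
  congr 2
  funext y
  rw [Pi.smul_apply, Algebra.smul_def, map_mul, Cmap_algebraMap]

/-- `Inn c` in the direction formula. -/
theorem dirB_Inn (b : Y → L0 Z Y m) (c : CC Z Y m) (f : NCS R Y) :
    dirB R b (Inn b c) f = valueB R b f * Cmap Z Y m R c - Cmap Z Y m R c * valueB R b f :=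
  dirB_inn b c f

/-- Functoriality: `map (Tmap φ) (ψ f) = ψ (map φ f)`. -/
theorem psi_map {R R' : Type} [Ring R] [Algebra Z R] [Ring R'] [Algebra Z R'] (φ : R →ₐ[Z] R')
    (f : NCS R Y) :
    NCSeries.map (Tmap Z Y m φ : Tilde Z Y m R →+* Tilde Z Y m R') (psi d R f) =
      psi d R' (NCSeries.map (φ : R →+* R') f) := by
  refine PsiCore.map_psi (φ : R →+* R') (Tmap Z Y m φ : Tilde Z Y m R →+* Tilde Z Y m R') ?_ ?_ ?_
    (isDirs d R) (isDirs d R') ?_ f
  · intro g a hg i hi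
    show (Tmap Z Y m φ g).coeff i = 0
    rw [Tmap_coeff, hg i hi, map_zero]
  · intro r
    exact Tmap_Rmap Z Y m φ r
  · intro y
    exact Tmap_Cmap Z Y m φ _
  · intro t y
    exact Tmap_Cmap Z Y m φ _

end Psi

/-! ### The `CC`-valued substitution and the coefficientwise functionals -/

section PsiC

variable {Z : Type} [Field Z] {Y : Type} [Fintype Y] [DecidableEq Y] {m : ℕ} [NeZero m]
variable (d : LevelData Z Y m)

lemma isDirsC : (baseC d.b).IsDirs (fun t y => d.X t y) := by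
  refine ⟨fun t y => (d.hval t y).mono (by norm_num), fun r t y => ?_⟩
  apply SL.ext
  funext i
  show (SL.C (algebraMap Z (L0 Z Y m) r) * d.X t y).coeff i =
    (d.X t y * SL.C (algebraMap Z (L0 Z Y m) r)).coeff i
  rw [SL.coeff_C_mul, SL.coeff_mul_C, shift_zpow_algebraMap, mul_comm]

/-- The level-up substitution with coefficients in `CC`. -/
noncomputable def psiC : NCS Z Y →+* NCS (CC Z Y m) (Fin d.n) :=
  PsiCore.Base.psi (isDirsC d)

/-- A `Z`-linear functional `R → Z`, applied coefficientwise, is a transport from `Tilde R` to `CC`. -/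
lemma isTransport_TLinZ {R : Type} [Ring R] [Algebra Z R] (b : Y → L0 Z Y m) (lam : R →ₗ[Z] Z) :
    PsiCore.IsTransport (baseOf R b) (baseC b) (TLinZ Z Y m lam) lam where
  lb g a hg i hi := by
    rw [TLinZ_coeff, hg i hi, map_zero]
  ρ r := TLinZ_Rmap Z Y m lam r
  τ y g := TLinZ_Cmap_mul Z Y m lam _ g

/-- `TLinZ λ (coeff w (ψ f)) = coeff w (ψ_C (λ ∘ f))`. -/
theorem TLinZ_coeff_psi {R : Type} [Ring R] [Algebra Z R] (lam : R →ₗ[Z] Z) (w : List (Fin d.n))
    (f : NCS R Y) :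
    TLinZ Z Y m lam (coeff w (psi d R f)) = coeff w (psiC d (PsiCore.tmap lam f)) :=
  (isTransport_TLinZ d.b lam).coeff_psi (isDirs d R) (isDirsC d)
    (fun t y g => TLinZ_Cmap_mul Z Y m lam _ g) w f

end PsiC

end Crest.Agent.Lib.Kurosh
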