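import Mathlib
import Crest.Agent.Lib.Kurosh.LevelUp
import Crest.Agent.Lib.Kurosh.LevelDataExists
import Crest.Agent.Lib.Kurosh.InnKer

/-!
# Existence of level data and the letter count (S0270, helper75)

Everything here is conditional only on `hA`: the `Zp`-algebra structure of `CC` is the stretch.
-/

set_option autoImplicit false

namespace Crest.Agent.Lib.Kurosh.LevelDataInst

open SL Module

variable (Z : Type) [Field Z] (Y : Type) [Fintype Y] [DecidableEq Y] (m : ℕ)

/-- The stretch data of `CC`. -/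
theorem stretchData_CC [NeZero m] :
    StretchData (algebraMap (Z0 Z Y m) (L0 Z Y m)) (shift Z Y m) m where
  pos := NeZero.pos m
  pow := by
    apply RingEquiv.ext
    intro x
    have h : ∀ (k : ℕ) (x : L0 Z Y m), (shift Z Y m ^ k) x = (RatExt.s Z Y m ^ k) x := by
      intro k
      induction k with
      | zero => intro x; rfl
      | succ k ih =>
        intro x
        rw [pow_succ', pow_succ']
        show shift Z Y m ((shift Z Y m ^ k) x) = (RatExt.s Z Y m) ((RatExt.s Z Y m ^ k) x)
        rw [ih]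
        rfl
    rw [h, RatExt.s_pow_m]
    rfl
  fixed c := (RatExt.mem_Z0 Z Y m).1 c.2
  central _ _ := mul_comm _ _

variable {Z Y m}

/-- Abstract existence: any base with a non-fixed ratio extends to level data. -/
theorem exists_levelData_of_hA [NeZero m] [Nonempty Y]
    (hA : ∀ c : Zp Z Y m, algebraMap (Zp Z Y m) (CC Z Y m) c = stretch (stretchData_CC Z Y m) c)
    (b : Y → L0 Z Y m) (hb : ∀ y, b y ≠ 0) (hgen : ∃ y y', b y' * (b y)⁻¹ ∉ Z0Sub Z Y m) :
    ∃ d : LevelData Z Y m, d.b = b := by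
  have : Module.Finite (Z0 Z Y m) (L0 Z Y m) := RatExt.finiteDimensional_Z0 Z Y m
  obtain ⟨n, X, hX, hc, hv⟩ := LevelDataExists.exists_tangent_basis (stretchData_CC Z Y m) hA
    (LinearMap.range (Inn b))
  exact ⟨⟨b, hb, hgen, n, X, hv, hX, hc⟩, rfl⟩

theorem nonempty_of_two (hY : 2 ≤ Fintype.card Y) : Nonempty Y :=
  Fintype.card_pos_iff.1 (by omega)

/-- Generic level data. -/
theorem exists_levelData_generic_of_hA [NeZero m] (hm : 1 < m) (hY : 2 ≤ Fintype.card Y)
    (hA : ∀ c : Zp Z Y m, algebraMap (Zp Z Y m) (CC Z Y m) c = stretch (stretchData_CC Z Y m) c) :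
    ∃ d : LevelData Z Y m, d.b = genericBase Z Y m := by
  have := nonempty_of_two hY
  refine exists_levelData_of_hA hA _ (fun y => LevelDataExists.T_ne_zero _ y) ?_
  exact LevelDataExists.exists_ratio_generic hm hY

/-- Clock level data. -/
theorem exists_levelData_clock_of_hA [NeZero m] (hm : 1 < m) (hY : 2 ≤ Fintype.card Y) (z : Y)
    (hA : ∀ c : Zp Z Y m, algebraMap (Zp Z Y m) (CC Z Y m) c = stretch (stretchData_CC Z Y m) c) :
    ∃ d : LevelData Z Y m, d.b = clockBase Z Y m z := by
  have := nonempty_of_two hY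
  refine exists_levelData_of_hA hA _ (fun y => ?_) ?_
  · show (if y = z then 1 else T0 Z Y m y) ≠ 0
    split_ifs
    · exact one_ne_zero
    · exact LevelDataExists.T_ne_zero _ y
  · exact LevelDataExists.exists_ratio_clock hm hY z

/-- The letter count. -/
theorem n_eq_of_hA [Fact m.Prime] [NeZero m] [Nonempty Y]
    (hA : ∀ c : Zp Z Y m, algebraMap (Zp Z Y m) (CC Z Y m) c = stretch (stretchData_CC Z Y m) c)
    (d : LevelData Z Y m) : d.n + m ^ 2 = Fintype.card Y * m ^ 2 + 1 := by
  have : Module.Finite (Z0 Z Y m) (L0 Z Y m) := RatExt.finiteDimensional_Z0 Z Y m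
  obtain ⟨y, y', hy⟩ := d.hgen
  refine InnKer.n_eq_abstract (stretchData_CC Z Y m) hA (Fact.out) (RatExt.finrank_Z0 Z Y m) ?_ d.b
    d.hb (y := y) (y' := y') (fun h => hy ((RatExt.mem_Z0 Z Y m).2 h)) (Inn d.b) ?_ d.X d.hindep
    d.hcompl
  · intro x hx
    exact ⟨⟨x, (RatExt.mem_Z0 Z Y m).2 hx⟩, rfl⟩
  · intro c
    constructor
    · intro h y
      have := congrFun h y
      rw [Inn_apply] at this
      exact (sub_eq_zero.1 this).symm ▸ rfl
    · intro h
      funext y
      rw [Inn_apply, Pi.zero_apply]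
      exact sub_eq_zero.2 (h y)

end Crest.Agent.Lib.Kurosh.LevelDataInst
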