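import Mathlib
import Crest.Agent.Lib.Kurosh.GenPrime
import Crest.Agent.Lib.Kurosh.LevelUp
import Crest.Agent.Lib.Kurosh.MeasInst

/-!
# GEN' on the concrete level-up (S0270, helper33)

The field `gen` of `Stage.levelUp`: the constant terms of `psi d E (Φ i)` generate `Tilde E` over `Zp`.
It is the instantiation of `GenPrime.genAlg_eq_top` at `S = L0 ⊗ E`, `F = Z0`, `L = L0`.
-/

set_option autoImplicit false
set_option linter.unusedSectionVars false

namespace Crest.Agent.Lib.Kurosh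

open NCSeries Module SL TensorProduct MeasInst

section Aux

variable {Z E Y : Type*} [Field Z] [CharZero Z] [DivisionRing E] [Algebra Z E]
  [FiniteDimensional Z E] [Algebra.IsCentral Z E] [Fintype Y] [DecidableEq Y]
variable {F S : Type*} [Field F] [DivisionRing S] [Algebra F S]
  {σ : RingAut S} {m : ℕ}
variable (h : StretchData (algebraMap F S) σ m) [Algebra (Lau F) (SL S σ)]
  (hA : ∀ c : Lau F, algebraMap (Lau F) (SL S σ) c = stretch h c)
variable (B : PsiCore.Base E S σ Y)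

include h hA in
/-- `GenPrime.genAlg_eq_top`, with the finiteness hypothesis explicit. -/
theorem genAlg_eq_top' (hfd : FiniteDimensional F S) (Φ : Fin 2 → NCS E Y)
    (gen : Algebra.adjoin Z (Set.range fun i => coeff [] (Φ i)) = ⊤)
    (ind : ∀ (α : Y → Z) (u : E), (∀ i, ∑ y, algebraMap Z E (α y) * coeff [y] (Φ i) =
      coeff [] (Φ i) * u - u * coeff [] (Φ i)) → α = 0)
    (hZ : ∀ z : Z, B.ρ (algebraMap Z E z) ∈ GenPrime.genAlg (F := F) B Φ)
    {L : Type*} [Field L] [Algebra F L] [FiniteDimensional F L] (hp : (finrank F L).Prime)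
    (i : L →ₐ[F] S) (b : Y → L) (hb : ∀ y, b y ≠ 0) (hτ : ∀ y, (B.τ y).coeff 1 = i (b y))
    (hgen : ∃ y y', b y' * (b y)⁻¹ ∉ (algebraMap F L).range)
    (hspan : ∀ R : Subalgebra F S, (∀ l, i l ∈ R) → (∀ e, (B.ρ e).coeff 0 ∈ R) → R = ⊤) :
    GenPrime.genAlg (F := F) B Φ = ⊤ := by
  have := hfd
  exact GenPrime.genAlg_eq_top h hA B Φ gen ind hZ hp i b hb hτ hgen hspan

end Aux

section

variable {Z : Type} [Field Z] [CharZero Z] {Y : Type} [Fintype Y] [DecidableEq Y] {m : ℕ}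
  [Fact m.Prime] [Nonempty Y] [Infinite Z]
  {E : Type} [DivisionRing E] [Algebra Z E] [FiniteDimensional Z E] [Algebra.IsCentral Z E]

lemma algebraMap_Z0_RL (c : Z0 Z Y m) :
    algebraMap (Z0 Z Y m) (RL Z Y m E) c = RatExt.iotaL Z Y m E (c : L0 Z Y m) := by
  rw [RatExt.iotaL_eq_algebraMap]
  rfl

variable (Z Y m E) in
/-- `iotaL` as a homomorphism of `Z0`-algebras. -/
noncomputable def iotaLZ0 : L0 Z Y m →ₐ[Z0 Z Y m] RL Z Y m E :=
  { (RatExt.iotaL Z Y m E : L0 Z Y m →+* RL Z Y m E) with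
    commutes' := fun c => by
      rw [algebraMap_Z0_RL]
      rfl }

lemma iotaLZ0_apply (l : L0 Z Y m) : iotaLZ0 Z Y m E l = RatExt.iotaL Z Y m E l := rfl

lemma iotaL_mul_iota (l : L0 Z Y m) (e : E) :
    RatExt.iotaL Z Y m E l * RatExt.iota Z Y m E e = l ⊗ₜ[Z] e := by
  show (l ⊗ₜ[Z] (1 : E)) * ((1 : L0 Z Y m) ⊗ₜ[Z] e) = l ⊗ₜ[Z] e
  rw [Algebra.TensorProduct.tmul_mul_tmul, mul_one, one_mul]

theorem subalgebra_RL_eq_top (R' : Subalgebra (Z0 Z Y m) (RL Z Y m E))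
    (h1 : ∀ l, RatExt.iotaL Z Y m E l ∈ R') (h2 : ∀ e, RatExt.iota Z Y m E e ∈ R') : R' = ⊤ := by
  rw [eq_top_iff]
  intro x _
  induction x using TensorProduct.induction_on with
  | zero => exact R'.zero_mem
  | tmul l e =>
    rw [← iotaL_mul_iota]
    exact R'.mul_mem (h1 l) (h2 e)
  | add x y hx hy => exact R'.add_mem (hx trivial) (hy trivial)

/-- Constants of `Z` are fixed by the shift. -/
lemma algebraMap_mem_Z0 (z : Z) : algebraMap Z (L0 Z Y m) z ∈ Z0Sub Z Y m :=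
  (RatExt.mem_Z0 Z Y m).2 ((RatExt.s Z Y m).commutes z)

lemma iota_algebraMap (z : Z) :
    RatExt.iota Z Y m E (algebraMap Z E z) =
      algebraMap (Z0 Z Y m) (RL Z Y m E) ⟨algebraMap Z (L0 Z Y m) z, algebraMap_mem_Z0 z⟩ := by
  rw [algebraMap_Z0_RL]
  rw [(RatExt.iota Z Y m E).commutes z, ← (RatExt.iotaL Z Y m E).commutes z]

variable [Algebra (Lau (Z0 Z Y m)) (SL (RL Z Y m E) (sR Z Y m E))]
  (hA : ∀ c : Lau (Z0 Z Y m), algebraMap (Lau (Z0 Z Y m)) (SL (RL Z Y m E) (sR Z Y m E)) c =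
    stretch (stretchData_RL Z Y m) c)

/-- The stretch of a constant is a constant. -/
lemma stretch_C (c : Z0 Z Y m) :
    stretch (stretchData_RL Z Y m (A' := E)) (SL.C c) = SL.C (algebraMap (Z0 Z Y m) (RL Z Y m E) c) := by
  have hm : (m : ℤ) ≠ 0 := by exact_mod_cast (Fact.out : m.Prime).ne_zero
  apply SL.ext
  funext n
  by_cases hn : (m : ℤ) ∣ n
  · obtain ⟨k, rfl⟩ := hn
    rw [coeff_stretch_mul]
    by_cases hk : k = 0
    · subst hk
      simp [SL.C]
    · have h0 : (m : ℤ) * k ≠ 0 := mul_ne_zero hm hk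
      simp [SL.C, coeff_mon, hk, h0]
  · rw [coeff_stretch_of_not_dvd _ _ hn]
    have h0 : n ≠ 0 := by
      rintro rfl
      exact hn (dvd_zero _)
    simp [SL.C, coeff_mon, h0]

include hA in
/-- **GEN' on the level-up**: the values of `Φ` generate `Tilde E` over `Zp`. -/
theorem levelUp_gen_core (d : LevelData Z Y m) (Φ : Fin 2 → NCS E Y)
    (gen : Algebra.adjoin Z (Set.range fun i => coeff [] (Φ i)) = ⊤)
    (ind : ∀ (α : Y → Z) (u : E), (∀ i, ∑ y, algebraMap Z E (α y) * coeff [y] (Φ i) =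
      coeff [] (Φ i) * u - u * coeff [] (Φ i)) → α = 0) :
    Algebra.adjoin (Lau (Z0 Z Y m)) (Set.range fun i => valueB E d.b (Φ i)) = ⊤ := by
  classical
  have hfd0 : FiniteDimensional (Z0 Z Y m) (RL Z Y m E) := Module.Finite.trans (L0 Z Y m) (RL Z Y m E)
  have hZ : ∀ z : Z, (baseOf E d.b).ρ (algebraMap Z E z) ∈
      GenPrime.genAlg (F := Z0 Z Y m) (baseOf E d.b) Φ := by
    intro z
    have e : (baseOf E d.b).ρ (algebraMap Z E z) =
        algebraMap (Lau (Z0 Z Y m)) (SL (RL Z Y m E) (sR Z Y m E))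
          (SL.C ⟨algebraMap Z (L0 Z Y m) z, algebraMap_mem_Z0 z⟩) := by
      rw [hA, stretch_C, ← iota_algebraMap]
      rfl
    rw [e]
    exact Subalgebra.algebraMap_mem _ _
  have hp : (finrank (Z0 Z Y m) (L0 Z Y m)).Prime := by
    rw [RatExt.finrank_Z0]
    exact Fact.out
  have hτ : ∀ y, ((baseOf E d.b).τ y).coeff 1 = iotaLZ0 Z Y m E (d.b y) := by
    intro y
    show (Cmap Z Y m E (tauOf d.b y)).coeff 1 = _
    rw [Cmap_coeff]
    show algebraMap (L0 Z Y m) (RL Z Y m E) ((SL.mon (d.b y) 1 : CC Z Y m).coeff 1) = _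
    rw [coeff_mon_self, iotaLZ0_apply, RatExt.iotaL_eq_algebraMap]
  have hgen : ∃ y y', d.b y' * (d.b y)⁻¹ ∉ (algebraMap (Z0 Z Y m) (L0 Z Y m)).range := by
    obtain ⟨y, y', h⟩ := d.hgen
    refine ⟨y, y', fun hmem => h ?_⟩
    obtain ⟨c, hc⟩ := hmem
    rw [← hc]
    exact c.2
  have hspan : ∀ R' : Subalgebra (Z0 Z Y m) (RL Z Y m E), (∀ l, iotaLZ0 Z Y m E l ∈ R') →
      (∀ e, ((baseOf E d.b).ρ e).coeff 0 ∈ R') → R' = ⊤ := by
    intro R' h1 h2
    refine subalgebra_RL_eq_top R' h1 fun e => ?_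
    have := h2 e
    rwa [show ((baseOf E d.b).ρ e).coeff 0 = RatExt.iota Z Y m E e from by
      show (Rmap Z Y m E e).coeff 0 = _
      rw [Rmap_apply]
      simp [SL.C]] at this
  exact genAlg_eq_top' (stretchData_RL Z Y m) hA (baseOf E d.b) hfd0 Φ gen ind hZ hp
    (iotaLZ0 Z Y m E) d.b d.hb hτ hgen hspan

include hA in
/-- The form with the `psi` of the level-up. -/
theorem levelUp_gen (d : LevelData Z Y m) (Φ : Fin 2 → NCS E Y)
    (gen : Algebra.adjoin Z (Set.range fun i => coeff [] (Φ i)) = ⊤)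
    (ind : ∀ (α : Y → Z) (u : E), (∀ i, ∑ y, algebraMap Z E (α y) * coeff [y] (Φ i) =
      coeff [] (Φ i) * u - u * coeff [] (Φ i)) → α = 0) :
    Algebra.adjoin (Lau (Z0 Z Y m)) (Set.range fun i => coeff [] (psi d E (Φ i))) = ⊤ := by
  have := levelUp_gen_core hA d Φ gen ind
  simp only [← value_eq] at this
  exact this

end

end Crest.Agent.Lib.Kurosh
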