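import Mathlib
import Crest.Agent.Lib.Kurosh.LevelStub
import Crest.Agent.Lib.Kurosh.IndCore

/-!
# Lemma IND′ for the level-up (blueprint section 2), against `LevelUp` / `Tilde` names

If `Φ : J → NCS E Y` satisfies GEN (constant terms generate `E` over `Z`, `E` central over `Z`) and IND,
then the level-up family `ψ Φ` satisfies IND over `Zp`.
-/

set_option autoImplicit false
set_option linter.unusedSectionVars false

namespace Crest.Agent.Lib.Kurosh.LevelInd

open NCSeries SL

variable {Z : Type} [Field Z] {Y : Type} [Fintype Y] [DecidableEq Y] {m : ℕ} [NeZero m]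
variable {R : Type} [Ring R] [Algebra Z R]

/-- `dirB` at the zero direction. -/
lemma dirB_zero (b : Y → L0 Z Y m) (f : NCS R Y) : dirB R b 0 f = 0 := by
  have := dirB_smul (R := R) b (0 : Zp Z Y m) (0 : Y → CC Z Y m) f
  simpa using this

/-- `dirB` of a finite sum of directions. -/
lemma dirB_sum {ι : Type*} (b : Y → L0 Z Y m) (s : Finset ι) (x : ι → Y → CC Z Y m) (f : NCS R Y) :
    dirB R b (∑ t ∈ s, x t) f = ∑ t ∈ s, dirB R b (x t) f := by
  classical
  induction s using Finset.induction_on with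
  | empty => simpa using dirB_zero b f
  | insert a s ha ih => rw [Finset.sum_insert ha, Finset.sum_insert ha, dirB_add, ih]

/-- `dirB` of a difference of directions. -/
lemma dirB_sub (b : Y → L0 Z Y m) (x x' : Y → CC Z Y m) (f : NCS R Y) :
    dirB R b (x - x') f = dirB R b x f - dirB R b x' f := by
  have h := dirB_add (R := R) b (x - x') x' f
  rw [sub_add_cancel] at h
  rw [h, add_sub_cancel_right]

end Crest.Agent.Lib.Kurosh.LevelInd

namespace Crest.Agent.Lib.Kurosh.LevelInd

open NCSeries SL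

variable {Z : Type} [Field Z] {Y : Type} [Fintype Y] [DecidableEq Y] {m : ℕ} [NeZero m]

/-- Injectivity of `Cmap`. -/
lemma Cmap_injective {E : Type} [Ring E] [Nontrivial E] [Algebra Z E] :
    Function.Injective (Cmap Z Y m E) := by
  intro c c' h
  apply SL.ext
  funext i
  have h' := congrArg (fun g : Tilde Z Y m E => g.coeff i) h
  simp only [Cmap_coeff] at h'
  exact RatExt.iotaL_injective Z Y m E h'

/-- The centraliser of the constant terms is `Z`, from GEN and centrality. -/
theorem hcent_of_gen {J : Type*} {E : Type*} [Ring E] [Algebra Z E] [Algebra.IsCentral Z E]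
    (Φ : J → NCS E Y)
    (gen : Algebra.adjoin Z (Set.range fun i => coeff [] (Φ i)) = ⊤)
    (e : E) (he : ∀ j, coeff [] (Φ j) * e = e * coeff [] (Φ j)) : ∃ z : Z, e = algebraMap Z E z := by
  have hall : ∀ x ∈ Algebra.adjoin Z (Set.range fun i => coeff [] (Φ i)), x * e = e * x := by
    intro x hx
    induction hx using Algebra.adjoin_induction with
    | mem x hx =>
      obtain ⟨j, rfl⟩ := hx
      exact he j
    | algebraMap r => exact Algebra.commutes r e
    | add x y _ _ h1 h2 => rw [add_mul, mul_add, h1, h2]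
    | mul x y _ _ h1 h2 => rw [mul_assoc, h2, ← mul_assoc, h1, mul_assoc]
  have hc : e ∈ Subalgebra.center Z E := by
    rw [Subalgebra.mem_center_iff]
    intro x
    exact hall x (by rw [gen]; trivial)
  rw [Algebra.IsCentral.center_eq_bot] at hc
  obtain ⟨z, rfl⟩ := Algebra.mem_bot.mp hc
  exact ⟨z, rfl⟩

/-- A functional `ρ : E → Z` with `ρ 1 = 1`. -/
theorem exists_functional (E : Type*) [Ring E] [Nontrivial E] [Algebra Z E] :
    ∃ ρ : E →ₗ[Z] Z, ρ 1 = 1 := by
  obtain ⟨f, hf⟩ := Module.Projective.exists_dual_eq_one Z (one_ne_zero (α := E))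
  exact ⟨f, hf⟩

/-- **IND′**: the tangents of the new letters are independent modulo inner derivations at `q' = ψΦ(0)`. -/
theorem levelUp_ind {E : Type} [Ring E] [Nontrivial E] [Algebra Z E] [Algebra.IsCentral Z E]
    {J : Type*}
    (Φ : J → NCS E Y)
    (gen : Algebra.adjoin Z (Set.range fun i => coeff [] (Φ i)) = ⊤)
    (ind : ∀ (α : Y → Z) (u : E), (∀ i, ∑ y, algebraMap Z E (α y) * coeff [y] (Φ i) =
      coeff [] (Φ i) * u - u * coeff [] (Φ i)) → α = 0)
    (d : LevelData Z Y m)
    (α : Fin d.n → Zp Z Y m) (u : Tilde Z Y m E)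
    (hα : ∀ i, ∑ t, algebraMap (Zp Z Y m) (Tilde Z Y m E) (α t) * coeff [t] (psi d E (Φ i)) =
      coeff [] (psi d E (Φ i)) * u - u * coeff [] (psi d E (Φ i))) : α = 0 := by
  obtain ⟨ρ, hρ⟩ := exists_functional (Z := Z) E
  set c : CC Z Y m := TLinZ Z Y m ρ u with hc
  set X' : Y → CC Z Y m := ∑ t, α t • d.X t with hX'
  -- the direction identity
  have hdir : ∀ i, dirB E d.b (X' - Inn d.b c) (Φ i) =
      valueB E d.b (Φ i) * (u - Cmap Z Y m E c) - (u - Cmap Z Y m E c) * valueB E d.b (Φ i) := by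
    intro i
    have h1 := hα i
    have h2 : coeff [] (psi d E (Φ i)) = valueB E d.b (Φ i) := value_eq d E (Φ i)
    rw [h2] at h1
    rw [dirB_sub, dirB_Inn, hX', dirB_sum, mul_sub, sub_mul, ← sub_eq_zero]
    have h3 : ∑ t, dirB E d.b (α t • d.X t) (Φ i) =
        ∑ t, algebraMap (Zp Z Y m) (Tilde Z Y m E) (α t) * coeff [t] (psi d E (Φ i)) := by
      refine Finset.sum_congr rfl fun t _ => ?_
      rw [dirB_smul, coeff_single_psi, Algebra.smul_def]
    rw [h3, h1]
    abel
  -- the functional vanishes on `u - Cmap c`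
  have hρu : ∀ i, RatExt.lam Z Y m ρ ((u - Cmap Z Y m E c).coeff i) = 0 := by
    intro i
    rw [SL.coeff_sub, map_sub, Cmap_coeff, ← RatExt.iotaL_eq_algebraMap]
    have : RatExt.lam Z Y m ρ (RatExt.iotaL Z Y m E (c.coeff i)) = c.coeff i := by
      show RatExt.lam Z Y m ρ (TensorProduct.tmul _ (c.coeff i) 1) = _
      rw [RatExt.lam_tmul, hρ, one_smul]
    rw [this, hc, TLinZ_coeff, sub_self]
  have hind : ∀ (a : Y → Z) (e : E),
      (∀ j, ∑ y, a y • coeff [y] (Φ j) = coeff [] (Φ j) * e - e * coeff [] (Φ j)) → ∀ y, a y = 0 := by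
    intro a e h y
    have := ind a e (fun j => by
      rw [← h j]
      refine Finset.sum_congr rfl fun y _ => ?_
      rw [Algebra.smul_def])
    exact congrFun this y
  obtain ⟨h1, -⟩ := IndCore.ind_base (isMonBase (R := E) d.b) Φ (hcent_of_gen Φ gen) hind ρ hρ
    (fun y => Cmap Z Y m E ((X' - Inn d.b c) y)) (fun y i => ((X' - Inn d.b c) y).coeff i)
    (fun y i => rfl) (u - Cmap Z Y m E c) hρu hdir
  have h2 : X' - Inn d.b c = 0 := by
    funext y
    exact Cmap_injective ((h1 y).trans (map_zero (Cmap Z Y m E)).symm)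
  have h3 : X' = Inn d.b c := sub_eq_zero.mp h2
  have h4 : X' ∈ Submodule.span (Zp Z Y m) (Set.range d.X) :=
    Submodule.sum_mem _ fun t _ => Submodule.smul_mem _ _ (Submodule.subset_span ⟨t, rfl⟩)
  have h5 : X' ∈ LinearMap.range (Inn d.b) := ⟨c, h3.symm⟩
  have h6 : X' = 0 := by
    have := d.hcompl.disjoint.le_bot ⟨h4, h5⟩
    simpa using this
  funext t
  exact (Fintype.linearIndependent_iff.mp d.hindep α h6) t

end Crest.Agent.Lib.Kurosh.LevelInd
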