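import Mathlib
import Crest.Agent.Lib.Kurosh.LevelGen

/-!
# The level-up move (S0270, helper33)

The data `ιZ`, `ι_alg`, `red`, `dim_le` of `Stage.levelMove`, and `levelUp_dim`, against the names of
`LevelUp`; hypothesis `hA`: the `Zp`-algebra structure on `Tilde E` is the stretch.
-/

set_option autoImplicit false
set_option linter.unusedSectionVars false

namespace Crest.Agent.Lib.Kurosh

open NCSeries Module SL TensorProduct MeasInst

lemma coeff_SLC_zero {S : Type*} [Ring S] {σ : RingAut S} (a : S) : (SL.C a : SL S σ).coeff 0 = a := by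
  simp [SL.C]

section Aux

variable {F S : Type*} [Field F] [DivisionRing S] [Algebra F S] {σ : RingAut S} {m : ℕ}
variable (h : StretchData (algebraMap F S) σ m) [Algebra (Lau F) (SL S σ)]
  (hA : ∀ c : Lau F, algebraMap (Lau F) (SL S σ) c = stretch h c)

include h hA in
/-- `GrMeas.finrank_SL_eq` with the finiteness explicit. -/
theorem finrank_SL_eq' (hfd : FiniteDimensional F S) :
    finrank (Lau F) (SL S σ) = finrank F S * m :=
  GrMeas.finrank_SL_eq h hA

end Aux

section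

variable (Z : Type) [Field Z] (Y : Type) (m : ℕ)

/-- Constants of `Z` in `Z0`. -/
noncomputable def ιZ0 : Z →+* Z0 Z Y m :=
  (algebraMap Z (L0 Z Y m)).codRestrict (Z0Sub Z Y m).toSubring fun z =>
    (RatExt.mem_Z0 Z Y m).2 ((RatExt.s Z Y m).commutes z)

/-- The map `Z → Zp` of the level-up. -/
noncomputable def ιZp : Z →+* Zp Z Y m := (SL.C).comp (ιZ0 Z Y m)

lemma ιZ0_coe (z : Z) : ((ιZ0 Z Y m z : Z0 Z Y m) : L0 Z Y m) = algebraMap Z (L0 Z Y m) z := rfl

end

section

variable {Z : Type} [Field Z] [CharZero Z] {Y : Type} [Fintype Y] [DecidableEq Y] {m : ℕ}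
  [Fact m.Prime] [Nonempty Y] [Infinite Z]
  {E : Type} [DivisionRing E] [Algebra Z E] [FiniteDimensional Z E] [Algebra.IsCentral Z E]

variable [Algebra (Lau (Z0 Z Y m)) (SL (RL Z Y m E) (sR Z Y m E))]
  (hA : ∀ c : Lau (Z0 Z Y m), algebraMap (Lau (Z0 Z Y m)) (SL (RL Z Y m E) (sR Z Y m E)) c =
    stretch (stretchData_RL Z Y m) c)

include hA in
/-- `ι_alg` of the level move. -/
theorem Rmap_algebraMap (z : Z) :
    Rmap Z Y m E (algebraMap Z E z) =
      algebraMap (Lau (Z0 Z Y m)) (SL (RL Z Y m E) (sR Z Y m E)) (ιZp Z Y m z) := by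
  rw [hA]
  show _ = stretch (stretchData_RL Z Y m) (SL.C (ιZ0 Z Y m z))
  rw [stretch_C, Rmap_apply, iota_algebraMap]
  rfl

include hA in
/-- `levelUp_dim`. -/
theorem finrank_Tilde :
    finrank (Lau (Z0 Z Y m)) (SL (RL Z Y m E) (sR Z Y m E)) = m ^ 2 * finrank Z E := by
  have hfd0 : FiniteDimensional (Z0 Z Y m) (RL Z Y m E) := Module.Finite.trans (L0 Z Y m) (RL Z Y m E)
  have h1 : finrank (Lau (Z0 Z Y m)) (SL (RL Z Y m E) (sR Z Y m E)) =
      finrank (Z0 Z Y m) (RL Z Y m E) * m :=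
    finrank_SL_eq' (stretchData_RL Z Y m) hA hfd0
  have h2 : finrank (Z0 Z Y m) (RL Z Y m E) = m * finrank Z E := by
    rw [← Module.finrank_mul_finrank (Z0 Z Y m) (L0 Z Y m) (RL Z Y m E), RatExt.finrank_Z0,
      RatExt.finrank_RL]
  rw [h1, h2]
  ring

include hA in
/-- `dim_le`. -/
theorem finrank_le_Tilde :
    finrank Z E ≤ finrank (Lau (Z0 Z Y m)) (SL (RL Z Y m E) (sR Z Y m E)) := by
  rw [finrank_Tilde hA]
  exact Nat.le_mul_of_pos_left _ (pow_pos (Fact.out : m.Prime).pos 2)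

variable {κ : Type}

include hA in
/-- The heart of `red`: the word in the level-up stage has valuation `≥ 0` and its residue is the
image of the word in the old stage. -/
theorem word_residue (d : LevelData Z Y m) (Φ : Fin 2 → NCS E Y) (z : κ → Z)
    (a : FreeAlgebra ℤ (Fin 2 ⊕ κ)) :
    (FreeAlgebra.lift ℤ (Sum.elim (fun i => coeff [] (psi d E (Φ i)))
        (fun k => algebraMap (Lau (Z0 Z Y m)) (SL (RL Z Y m E) (sR Z Y m E)) (ιZp Z Y m (z k)))) a).LB 0 ∧
    (FreeAlgebra.lift ℤ (Sum.elim (fun i => coeff [] (psi d E (Φ i)))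
        (fun k => algebraMap (Lau (Z0 Z Y m)) (SL (RL Z Y m E) (sR Z Y m E)) (ιZp Z Y m (z k)))) a).coeff 0 =
      RatExt.iota Z Y m E (FreeAlgebra.lift ℤ (Sum.elim (fun i => coeff [] (Φ i))
        (fun k => algebraMap Z E (z k))) a) := by
  induction a using FreeAlgebra.induction with
  | grade0 r =>
    rw [AlgHom.commutes, AlgHom.commutes]
    have e1 : algebraMap ℤ (SL (RL Z Y m E) (sR Z Y m E)) r = Rmap Z Y m E (algebraMap ℤ E r) := by
      simp only [algebraMap_int_eq, eq_intCast, map_intCast]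
    rw [e1]
    refine ⟨Rmap_LB _, ?_⟩
    rw [Rmap_apply]
    exact coeff_SLC_zero _
  | grade1 x =>
    rw [FreeAlgebra.lift_ι_apply, FreeAlgebra.lift_ι_apply]
    rcases x with i | k
    · simp only [Sum.elim_inl]
      show (value d E (Φ i)).LB 0 ∧ (value d E (Φ i)).coeff 0 = _
      rw [value_eq]
      refine ⟨(baseOf E d.b).value_LB _, ?_⟩
      show ((baseOf E d.b).value (Φ i)).coeff 0 = _
      rw [GenPrime.value_coeff_zero]
      show (Rmap Z Y m E (coeff [] (Φ i))).coeff 0 = _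
      rw [Rmap_apply]
      simp [SL.C]
    · simp only [Sum.elim_inr]
      rw [← Rmap_algebraMap hA]
      refine ⟨Rmap_LB _, ?_⟩
      rw [Rmap_apply]
      simp [SL.C]
  | mul x y hx hy =>
    rw [map_mul, map_mul, map_mul]
    refine ⟨by simpa using hx.1.mul hy.1, ?_⟩
    have := coeff_mul_add hx.1 hy.1
    rw [add_zero, zpow_zero] at this
    rw [this, hx.2, hy.2]
    rfl
  | add x y hx hy =>
    rw [map_add, map_add, map_add]
    exact ⟨hx.1.add hy.1, by rw [SL.coeff_add, hx.2, hy.2]⟩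

include hA in
/-- `red` of the level move. -/
theorem levelUp_red (d : LevelData Z Y m) (Φ : Fin 2 → NCS E Y) (z : κ → Z)
    (a : FreeAlgebra ℤ (Fin 2 ⊕ κ))
    (h : FreeAlgebra.lift ℤ (Sum.elim (fun i => coeff [] (psi d E (Φ i)))
        (fun k => algebraMap (Lau (Z0 Z Y m)) (SL (RL Z Y m E) (sR Z Y m E)) (ιZp Z Y m (z k)))) a = 0) :
    FreeAlgebra.lift ℤ (Sum.elim (fun i => coeff [] (Φ i)) (fun k => algebraMap Z E (z k))) a = 0 := by
  have h2 := (word_residue hA d Φ z a).2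
  rw [h] at h2
  apply RatExt.iota_injective Z Y m E
  rw [← h2, map_zero]
  rfl

/-- `two` of the level-up, from `LevelData.n_eq`. -/
theorem levelUp_two (d : LevelData Z Y m) (hn : d.n + m ^ 2 = Fintype.card Y * m ^ 2 + 1)
    (h2 : 2 ≤ Fintype.card Y) : 2 ≤ Fintype.card (Fin d.n) := by
  rw [Fintype.card_fin]
  have hm : 0 < m ^ 2 := pow_pos (Fact.out : m.Prime).pos 2
  have : 2 * m ^ 2 ≤ Fintype.card Y * m ^ 2 := Nat.mul_le_mul_right _ h2
  omega

end

end Crest.Agent.Lib.Kurosh
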