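import Mathlib

/-!
# S0270: centre of a centraliser, as a subring of the ambient ring.
-/

set_option autoImplicit false

namespace Crest.Agent.Lib.Kurosh.NonComm

section CenterMap

variable {R R' : Type*} [DivisionRing R] [Ring R'] [Nontrivial R'] (jp : R →+* R') (ξ : R)
  (hrange : ∀ x : R', (∃ y, jp y = x) ↔ x * jp ξ = jp ξ * x)

include hrange

/-- `ξ` is central in the centraliser `R`. -/
lemma central_of_range (y : R) : ξ * y = y * ξ := by
  have h1 := (hrange (jp y)).mp ⟨y, rfl⟩
  apply jp.injective
  rw [map_mul, map_mul, h1]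

/-- A central element of the ambient ring comes from a central element of `R`. -/
lemma mem_map_center_of_central {t : R'} (ht : ∀ g, t * g = g * t) :
    t ∈ (Subring.center R).map jp := by
  obtain ⟨x, rfl⟩ := (hrange t).mpr (ht _)
  rw [Subring.mem_map]
  refine ⟨x, Subring.mem_center_iff.mpr fun y => ?_, rfl⟩
  apply jp.injective
  rw [map_mul, map_mul, ht]

lemma mem_map_center_self : jp ξ ∈ (Subring.center R).map jp := by
  rw [Subring.mem_map]
  exact ⟨ξ, Subring.mem_center_iff.mpr fun y => (central_of_range jp ξ hrange y).symm, rfl⟩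

omit hrange in
/-- Right inverses of elements of the centre stay in the centre. -/
lemma inv_mem_map_center {x x' : R'} (hx : x ∈ (Subring.center R).map jp) (hxx' : x * x' = 1) :
    x' ∈ (Subring.center R).map jp := by
  rw [Subring.mem_map] at hx ⊢
  obtain ⟨y, hy, rfl⟩ := hx
  have hy0 : y ≠ 0 := by
    rintro rfl
    rw [map_zero, zero_mul] at hxx'
    exact zero_ne_one hxx'
  refine ⟨y⁻¹, Subring.mem_center_iff.mpr fun g => ?_, ?_⟩
  · have := Subring.mem_center_iff.mp hy g
    exact (Commute.inv_right₀ (show Commute g y from this))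
  · have h1 : jp y * jp y⁻¹ = 1 := by rw [← map_mul, mul_inv_cancel₀ hy0, map_one]
    have h2 : jp y⁻¹ * jp y = 1 := by rw [← map_mul, inv_mul_cancel₀ hy0, map_one]
    calc jp y⁻¹ = jp y⁻¹ * (jp y * x') := by rw [hxx', mul_one]
      _ = x' := by rw [← mul_assoc, h2, one_mul]

omit hrange in
lemma exists_central_of_mem {c : R'} (hc : c ∈ (Subring.center R).map jp) :
    ∃ x : R, (∀ y, x * y = y * x) ∧ jp x = c := by
  rw [Subring.mem_map] at hc
  obtain ⟨x, hx, rfl⟩ := hc
  exact ⟨x, fun y => (Subring.mem_center_iff.mp hx y).symm, rfl⟩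

end CenterMap

end Crest.Agent.Lib.Kurosh.NonComm
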