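import Crest.Agent.Lib.Kurosh.NonCommL

/-!
# S0270, Step 2: the subring `K0` of fixed central elements of `L0 ⊗ A`, and the functional test

`K0Sub` : fixed central elements of `R_L`.  A central element of `R_L` is killed by `lam φ` for all
`φ` vanishing on the centre of `A`.
-/

set_option autoImplicit false
set_option linter.unusedSectionVars false

open scoped TensorProduct

namespace Crest.Agent.Lib.Kurosh.NonComm

open RatExt Finset

section Central

variable (Z : Type*) [Field Z] (Y : Type*) (m : ℕ)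
variable {A : Type*} [Ring A] [Algebra Z A]

/-- `ψ ⊗ id : L0 ⊗ A → A` for a `Z`-linear functional `ψ` on `L0`. -/
noncomputable def lamL (ψ : L0 Z Y m →ₗ[Z] Z) : RL Z Y m A →ₗ[Z] A :=
  (TensorProduct.lid Z A).toLinearMap ∘ₗ TensorProduct.map ψ LinearMap.id

@[simp] lemma lamL_tmul (ψ : L0 Z Y m →ₗ[Z] Z) (c : L0 Z Y m) (a : A) :
    lamL Z Y m ψ (c ⊗ₜ a) = ψ c • a := by
  simp [lamL]

lemma lamL_mul_iota (ψ : L0 Z Y m →ₗ[Z] Z) (x : RL Z Y m A) (a : A) :
    lamL Z Y m ψ (x * iota Z Y m A a) = lamL Z Y m ψ x * a := by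
  induction x using TensorProduct.induction_on with
  | zero => simp
  | add x y hx hy => simp only [add_mul, map_add, hx, hy]
  | tmul c b =>
    simp [iota, Algebra.TensorProduct.tmul_mul_tmul]

lemma lamL_iota_mul (ψ : L0 Z Y m →ₗ[Z] Z) (x : RL Z Y m A) (a : A) :
    lamL Z Y m ψ (iota Z Y m A a * x) = a * lamL Z Y m ψ x := by
  induction x using TensorProduct.induction_on with
  | zero => simp
  | add x y hx hy => simp only [mul_add, map_add, hx, hy]
  | tmul c b =>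
    simp [iota, Algebra.TensorProduct.tmul_mul_tmul]

lemma apply_lam (ψ : L0 Z Y m →ₗ[Z] Z) (φ : A →ₗ[Z] Z) (x : RL Z Y m A) :
    ψ (lam Z Y m φ x) = φ (lamL Z Y m ψ x) := by
  induction x using TensorProduct.induction_on with
  | zero => simp
  | add x y hx hy => simp only [map_add, hx, hy]
  | tmul c b =>
    simp only [lam_tmul, lamL_tmul, map_smul, smul_eq_mul]
    ring

/-- A central element of `R_L` is killed by `lam φ` when `φ` vanishes on the centre of `A`. -/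
theorem lam_eq_zero_of_central {φ : A →ₗ[Z] Z} (hφ : ∀ k : A, (∀ a, k * a = a * k) → φ k = 0)
    {x : RL Z Y m A} (hx : ∀ y, x * y = y * x) : lam Z Y m φ x = 0 := by
  by_contra hne
  have hne' : lam Z Y m φ x ∉ (⊥ : Submodule Z (L0 Z Y m)) := by simpa using hne
  obtain ⟨ψ, -, hψ⟩ := exists_functional Z hne'
  apply hψ
  rw [apply_lam]
  apply hφ
  intro a
  rw [← lamL_mul_iota, ← lamL_iota_mul, hx]

/-- The submodule of central elements. -/
def centerSub (Z A : Type*) [Field Z] [Ring A] [Algebra Z A] : Submodule Z A where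
  carrier := {k | ∀ a, k * a = a * k}
  add_mem' {a b} ha hb x := by rw [add_mul, mul_add, ha, hb]
  zero_mem' x := by simp
  smul_mem' c k hk x := by
    rw [smul_mul_assoc, mul_smul_comm, hk]

lemma mem_centerSub {k : A} : k ∈ centerSub Z A ↔ ∀ a, k * a = a * k := Iff.rfl

/-- The subring `K0` of `s`-fixed central elements of `R_L`. -/
def K0Sub (Z Y : Type*) [Field Z] (m : ℕ) (A : Type*) [Ring A] [Algebra Z A] : Subring (RL Z Y m A) where
  carrier := {r | sR Z Y m A r = r ∧ ∀ x, r * x = x * r}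
  mul_mem' {a b} ha hb := ⟨by rw [map_mul, ha.1, hb.1], fun x => by
    rw [mul_assoc, hb.2, ← mul_assoc, ha.2, mul_assoc]⟩
  one_mem' := ⟨map_one _, by simp⟩
  add_mem' {a b} ha hb := ⟨by rw [map_add, ha.1, hb.1], fun x => by
    rw [add_mul, mul_add, ha.2, hb.2]⟩
  zero_mem' := ⟨map_zero _, by simp⟩
  neg_mem' {a} ha := ⟨by rw [map_neg, ha.1], fun x => by
    have h1 : (-a) * x = -(a * x) := by
      apply eq_neg_of_add_eq_zero_left
      rw [← add_mul, neg_add_cancel, zero_mul]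
    have h2 : x * (-a) = -(x * a) := by
      apply eq_neg_of_add_eq_zero_left
      rw [← mul_add, neg_add_cancel, mul_zero]
    rw [h1, h2, ha.2]⟩

lemma mem_K0Sub {r : RL Z Y m A} :
    r ∈ K0Sub Z Y m A ↔ sR Z Y m A r = r ∧ ∀ x, r * x = x * r := Iff.rfl

/-- If some functional vanishing on the centre does not kill `r`, then `r ∉ K0`. -/
theorem not_mem_K0Sub {r : RL Z Y m A} {φ : A →ₗ[Z] Z}
    (hφ : ∀ k : A, (∀ a, k * a = a * k) → φ k = 0) (hr : lam Z Y m φ r ≠ 0) :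
    r ∉ K0Sub Z Y m A := fun h => hr (lam_eq_zero_of_central Z Y m hφ h.2)

end Central

section N1bis

variable (Z : Type*) [Field Z] [Infinite Z] (Y : Type*) [Fintype Y] (m : ℕ)
variable (A : Type*) [DivisionRing A] [Algebra Z A] [FiniteDimensional Z A]

/-- (N1) at the level of `K0`: `x^k` not central makes the norm not fixed-central. -/
theorem normProd_not_mem_K0 [DecidableEq Y] (f : Y → A) (y0 : Y) (k : ℕ)
    (hx : ∃ a, (f y0) ^ k * a ≠ a * (f y0) ^ k) :
    normProd (sR Z Y m A) (genElt Z Y m A f 0) k ∉ K0Sub Z Y m A := by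
  intro hmem
  have hx' : (f y0) ^ k ∉ centerSub Z A := by
    obtain ⟨a, ha⟩ := hx
    exact fun h => ha (h a)
  have h1 : normProd (sR Z Y m A) (genElt Z Y m A f 0) k ∉ (centerSub Z A).baseChange (L0 Z Y m) :=
    normProd_not_mem Z Y m A f y0 k hx'
  -- direct functional argument
  obtain ⟨φ, hφ, hne⟩ := exists_functional Z hx'
  have h2 := lam_eq_zero_of_central Z Y m (φ := φ) (fun k hk => hφ k hk) hmem.2
  rw [← iotaPol_normPol, lam_iotaPol] at h2
  have h3 : lamPol Z Y m A φ (normPol Z Y m A f k) = 0 :=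
    (map_eq_zero_iff _ (IsFractionRing.injective (Pol Z Y m) (L0 Z Y m))).mp h2
  have h4 := eval_lamPol Z Y m A φ (fun p => if p.2 = y0 then 1 else 0) (normPol Z Y m A f k)
  rw [h3, evalPol_normPol, map_zero] at h4
  exact hne h4.symm

omit [Infinite Z] [Fintype Y] [FiniteDimensional Z A] in
/-- (N1) prime choice: for `x` not central, all large primes have `x^p` not central. -/
theorem exists_bound_pow_not_central {x : A} (hx : ∃ a, x * a ≠ a * x) :
    ∃ M, ∀ p : ℕ, p.Prime → M ≤ p → ∃ a, x ^ p * a ≠ a * x ^ p := by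
  classical
  by_cases hex : ∃ q : ℕ, q.Prime ∧ ∀ a, x ^ q * a = a * x ^ q
  · obtain ⟨q, hq, hqc⟩ := hex
    refine ⟨q + 1, fun p hp hpq => ?_⟩
    by_contra hcon
    push Not at hcon
    apply (show ¬ ∀ a, x * a = a * x from by push Not; exact hx)
    intro a
    have hx0 : x ≠ 0 := by
      rintro rfl
      obtain ⟨b, hb⟩ := hx
      simp at hb
    have hcop : Nat.Coprime q p := (Nat.coprime_primes hq hp).mpr (by omega)
    have hb := Nat.gcd_eq_gcd_ab q p
    rw [hcop] at hb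
    have hz : ∀ (y : A) (n : ℤ), (∀ a, y * a = a * y) → ∀ a, y ^ n * a = a * y ^ n := by
      intro y n hy a
      exact (Commute.zpow_left₀ (show Commute y a from hy a) n)
    have e : x = (x ^ q) ^ (Nat.gcdA q p) * (x ^ p) ^ (Nat.gcdB q p) := by
      rw [← zpow_natCast x q, ← zpow_natCast x p, ← zpow_mul, ← zpow_mul, ← zpow_add₀ hx0, ← hb]
      simp
    rw [e, mul_assoc, hz _ _ hcon a, ← mul_assoc, hz _ _ hqc a, mul_assoc]
  · push Not at hex
    exact ⟨0, fun p hp _ => hex p hp⟩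

end N1bis

section N2bK

variable (Z : Type*) [Field Z] [CharZero Z] {Y : Type*} [DecidableEq Y] (m : ℕ) [NeZero m]
variable {A : Type*} [DivisionRing A] [Algebra Z A] [FiniteDimensional Z A]

/-- The trace of `l` is not fixed-central as soon as some `η_w` is not central. -/
theorem sum_sR_pow_clockL_not_mem_K0 (z : Y) (S : Finset (List Y)) (D : ℕ)
    (hS : ∀ w ∈ S, w.length = D ∧ NormalW z w) (hm : 2 * D < m) (η : List Y → A)
    {w0 : List Y} (hw0 : w0 ∈ S) (hη : ∃ a, η w0 * a ≠ a * η w0) :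
    ∑ r ∈ range m, (sR Z Y m A ^ r) (clockL Z m z S η) ∉ K0Sub Z Y m A := by
  intro hmem
  have hη' : η w0 ∉ centerSub Z A := by
    obtain ⟨a, ha⟩ := hη
    exact fun h => ha (h a)
  obtain ⟨φ, hφ, hne⟩ := exists_functional Z hη'
  have h1 := lam_eq_zero_of_central Z Y m (φ := φ) (fun k hk => hφ k hk) hmem.2
  rw [sum_sR_pow_clockL, map_sum] at h1
  simp only [lam_tmul] at h1
  exact hne (tr_cw_indep Z m z S D hS hm (fun w => φ (η w)) h1 w0 hw0)

/-- **(N2b)** in terms of `K0Sub`. `ξ = ξ_K + l ϖ^D + E₀`, `l = ∑_w l(w) ⊗ η_w` over normal words of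
length `D`, some `η_{w0}` not central, `ξ_K` conjugate by a principal unit `u` to `θ = ϖ + ...` with
coefficients in `K0Sub`. If a subring `𝒵` contains `ξ, ξ⁻¹, ϖ^m, C K0`, then it has an element of
order `≥ 0` with residue outside `K0Sub`. -/
theorem N2b_K0 [Infinite Z]
    {θ ξK E₀ u : SL (RL Z Y m A) (sR Z Y m A)}
    (hθ : ∀ i, θ.coeff i ∈ K0Sub Z Y m A) (hθLB : θ.LB 1) (hθ1 : θ.coeff 1 = 1)
    (hu : u.LB 0) (hu0 : u.coeff 0 = 1) (hconj : u * ξK * u⁻¹ = θ)
    (z : Y) (S : Finset (List Y)) {D : ℕ} (hD : 2 ≤ D)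
    (hS : ∀ w ∈ S, w.length = D ∧ NormalW z w) (hm : 2 * D < m) (η : List Y → A)
    {w0 : List Y} (hw0 : w0 ∈ S) (hη : ∃ a, η w0 * a ≠ a * η w0)
    (hE₀ : E₀.LB ((D : ℤ) + 1))
    {𝒵 : Subring (SL (RL Z Y m A) (sR Z Y m A))}
    (hC : ∀ k ∈ K0Sub Z Y m A, SL.C k ∈ 𝒵)
    (hξ : ξK + SL.mon (clockL Z m z S η) (D : ℤ) + E₀ ∈ 𝒵)
    (hinv : (ξK + SL.mon (clockL Z m z S η) (D : ℤ) + E₀)⁻¹ ∈ 𝒵)
    (hϖ : (SL.ϖz (m : ℤ) : SL (RL Z Y m A) (sR Z Y m A)) ∈ 𝒵) :
    ∃ c ∈ 𝒵, c.LB 0 ∧ c.coeff 0 ∉ K0Sub Z Y m A := by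
  classical
  set σ := sR Z Y m A with hσ
  set l := clockL Z m z S η with hl
  have hmpos : 0 < m := Nat.pos_of_ne_zero (NeZero.ne m)
  have hmne : ((m : ℕ) : RL Z Y m A) ≠ 0 := by
    have h1 : ((m : ℕ) : RL Z Y m A) = algebraMap Z (RL Z Y m A) ((m : ℕ) : Z) :=
      (map_natCast _ _).symm
    rw [h1]
    intro h0
    have h2 := (map_eq_zero_iff _ (algebraMap Z (RL Z Y m A)).injective).mp h0
    exact hmpos.ne' (by exact_mod_cast h2)
  set t := ∑ r ∈ range m, (σ ^ r) l with ht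
  obtain ⟨b, hb⟩ := exists_delta_inv' (σ := σ) m hmne l
  set a := ((m : ℕ) : RL Z Y m A)⁻¹ * t with ha
  have hσt : σ t = t := by
    rw [ht, map_sum]
    have h1 : ∀ r, σ ((σ ^ r) l) = (σ ^ (r + 1)) l := by
      intro r
      rw [pow_succ']
      rfl
    simp only [h1]
    have h2 := Finset.sum_range_succ' (fun r => (σ ^ r) l) m
    have h3 := Finset.sum_range_succ (fun r => (σ ^ r) l) m
    rw [h3] at h2
    have h4 : (σ ^ m) l = (σ ^ 0) l := by
      rw [hσ, sR_pow_m, pow_zero]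
    rw [h4] at h2
    exact (add_right_cancel h2).symm
  have hσa : σ a = a := by
    rw [ha, map_mul, map_inv₀, map_natCast, hσt]
  obtain ⟨w, E', hw, hw0', hE', hconj'⟩ :=
    conj_form hθLB hθ1 hu hu0 hconj (by exact_mod_cast hD : (2 : ℤ) ≤ (D : ℤ)) hE₀ hb
  have hma : ((m : ℕ) : RL Z Y m A) * a = t := by
    rw [ha, ← mul_assoc, mul_inv_cancel₀ hmne, one_mul]
  refine exists_residue_not_mem (K0 := K0Sub Z Y m A) (fun k hk => hk.1) (fun k hk => hk.2)
    hθ hθLB hθ1 hσa hD hE' hC hw hw0' hξ hinv hconj' hmpos hϖ (ϖz_central Z m) ?_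
  rw [hma]
  exact sum_sR_pow_clockL_not_mem_K0 Z m z S D hS hm η hw0 hη

end N2bK

end Crest.Agent.Lib.Kurosh.NonComm
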