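import Crest.Agent.Lib.Kurosh.StageDefs
import Crest.Agent.Lib.Kurosh.NonCommC
import Crest.Agent.Lib.Kurosh.NonCommG

/-!
# S0270: Skeleton targets `n1` and `n2b` (helper91)
-/

set_option autoImplicit false

namespace Crest.Agent.Lib.Kurosh.NonComm

open NCSeries Module

variable {Y : Type} [Fintype Y] [DecidableEq Y]
variable {Z : Type} [Field Z] [CharZero Z] {m : ℕ} [Fact m.Prime]

omit [Fintype Y] [DecidableEq Y] [CharZero Z] in
/-- `ϖ^(-m)` is central. -/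
lemma ϖz_neg_central (A : Type) [Ring A] [Algebra Z A] (x : Tilde Z Y m A) :
    (SL.ϖz (-(m : ℤ)) : Tilde Z Y m A) * x = x * SL.ϖz (-(m : ℤ)) := by
  have : NeZero m := ⟨(Fact.out : m.Prime).ne_zero⟩
  have h : (sR Z Y m A) ^ (-(m : ℤ)) = 1 := by
    rw [zpow_neg, zpow_natCast]
    have : (sR Z Y m A) ^ m = 1 := RatExt.sR_pow_m Z Y m A
    rw [this, inv_one]
  apply SL.ext
  funext n
  rw [SL.coeff_ϖz_mul, SL.coeff_mul_ϖz, h]
  rfl

/-- (N1), Skeleton's form. -/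
theorem n1_skel (c : AConf Z Y) (y0 : Y) (hx : ∃ a : c.A, coeff [y0] c.f * a ≠ a * coeff [y0] c.f) :
    ∃ M, ∀ (m : ℕ) [Fact m.Prime], M ≤ m → ∀ d : LevelData Z Y m, d.b = genericBase Z Y m →
      ∀ {c' : AConf (Zp Z Y m) (Fin d.n)} (st : AStep d c c'),
        ∃ x : c'.A, (∀ y : c'.A, x * y = y * x) ∧ (st.jp x).LB 0 ∧
          ¬ IsK0 c.A Y m ((st.jp x).coeff 0) := by
  obtain ⟨M, hM⟩ := exists_bound_pow_not_central c.A hx
  refine ⟨M, ?_⟩
  intro m _ hMm d hd c' st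
  have : NeZero m := ⟨(Fact.out : m.Prime).ne_zero⟩
  have hmp : m.Prime := Fact.out
  have hB : PsiCore.IsMonBase (baseOf c.A (genericBase Z Y m)) (genericB Z m c.A)
      ((RatExt.iota Z Y m c.A : c.A →ₐ[Z] RL Z Y m c.A) : c.A →+* RL Z Y m c.A) :=
    isMonBase (genericBase Z Y m)
  obtain ⟨h1, h2⟩ := n1_core Z m (baseOf c.A (genericBase Z Y m)) hB c.f c.f0 y0 (hM m hmp hMm)
  have hval : st.jp st.ξ = (baseOf c.A (genericBase Z Y m)).value c.f := by
    rw [st.hξ, value_eq, hd]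
    rfl
  set jp : c'.A →+* Tilde Z Y m c.A := (st.jp : c'.A →+* Tilde Z Y m c.A) with hjp
  have hrange : ∀ x : Tilde Z Y m c.A, (∃ y, jp y = x) ↔ x * jp st.ξ = jp st.ξ * x := by
    intro x
    have h := st.jp_range x
    rw [AlgHom.mem_range] at h
    exact h
  have hξ𝒵 := mem_map_center_self jp st.ξ hrange
  have ht𝒵 := mem_map_center_of_central jp st.ξ hrange (ϖz_neg_central (Z := Z) (Y := Y) (m := m) c.A)
  have hc𝒵 := Subring.mul_mem _ (Subring.pow_mem _ hξ𝒵 m) ht𝒵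
  obtain ⟨x, hx1, hx2⟩ := exists_central_of_mem jp hc𝒵
  have hjx : st.jp x = (baseOf c.A (genericBase Z Y m)).value c.f ^ m * SL.ϖz (-(m : ℤ)) := by
    change jp x = _
    rw [hx2]
    change (st.jp st.ξ) ^ m * _ = _
    rw [hval]
  refine ⟨x, hx1, ?_, ?_⟩
  · rw [hjx]
    exact h1
  · rw [hjx]
    exact h2

/-- (N2b), Skeleton's form. -/
theorem n2b_skel (c : AConf Z Y) (z : Y) (hz : ∀ l, coeff [l] c.f = if l = z then 1 else 0)
    (hNF : ∀ x, ¬ NormalForm.Pure z x → coeff (x ++ [z]) c.f = 0)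
    (hdata : ∃ (w : List Y) (a : c.A), coeff w c.f * a ≠ a * coeff w c.f) :
    ∃ M, ∀ (m : ℕ) [Fact m.Prime], M ≤ m → ∀ d : LevelData Z Y m, d.b = clockBase Z Y m z →
      ∀ {c' : AConf (Zp Z Y m) (Fin d.n)} (st : AStep d c c'),
        ∃ x : c'.A, (∀ y : c'.A, x * y = y * x) ∧ (st.jp x).LB 0 ∧
          ¬ IsK0 c.A Y m ((st.jp x).coeff 0) := by
  classical
  have hex : ∃ D, ∃ w : List Y, w.length = D ∧ ∃ a : c.A, coeff w c.f * a ≠ a * coeff w c.f := by
    obtain ⟨w, a, h⟩ := hdata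
    exact ⟨w.length, w, rfl, a, h⟩
  set D := Nat.find hex with hD
  obtain ⟨w0, hw0, hw0a⟩ := Nat.find_spec hex
  have hD1 : ∀ w : List Y, w.length < D → ∀ a, coeff w c.f * a = a * coeff w c.f := by
    intro w hw a
    by_contra hne
    exact Nat.find_min hex hw ⟨w, rfl, a, hne⟩
  refine ⟨2 * D + 1, ?_⟩
  intro m _ hMm d hd c' st
  have : NeZero m := ⟨(Fact.out : m.Prime).ne_zero⟩
  have hB : PsiCore.IsMonBase (baseOf c.A (clockBase Z Y m z)) (clockB Z m c.A z)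
      ((RatExt.iota Z Y m c.A : c.A →ₐ[Z] RL Z Y m c.A) : c.A →+* RL Z Y m c.A) :=
    isMonBase (clockBase Z Y m z)
  have hval : st.jp st.ξ = (baseOf c.A (clockBase Z Y m z)).value c.f := by
    rw [st.hξ, value_eq, hd]
    rfl
  set jp : c'.A →+* Tilde Z Y m c.A := (st.jp : c'.A →+* Tilde Z Y m c.A) with hjp
  have hrange : ∀ x : Tilde Z Y m c.A, (∃ y, jp y = x) ↔ x * jp st.ξ = jp st.ξ * x := by
    intro x
    have h := st.jp_range x
    rw [AlgHom.mem_range] at h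
    exact h
  have hξ𝒵 : (baseOf c.A (clockBase Z Y m z)).value c.f ∈ (Subring.center c'.A).map jp := by
    rw [← hval]
    exact mem_map_center_self jp st.ξ hrange
  have hNF' : ∀ w, w.getLast? = some z → (∃ p ∈ w, p ≠ z) → coeff w c.f = 0 := by
    intro w hw ⟨p, hp, hpz⟩
    obtain ⟨x, rfl⟩ := List.getLast?_eq_some_iff.mp hw
    apply hNF
    intro hpure
    rw [List.mem_append] at hp
    rcases hp with hp | hp
    · exact hpz (hpure p hp)
    · exact hpz (by simpa using hp)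
  obtain ⟨r, hr, hr0, hr1⟩ := n2b_core Z m (baseOf c.A (clockBase Z Y m z)) z hB c.f c.f0 1 1 (one_mul 1)
    (fun a => by simp) (by simpa using hz z) (fun p hp => by simpa [hp] using hz p) hNF' D hD1 hw0 hw0a
    (by omega) (𝒵 := (Subring.center c'.A).map jp)
    (fun t ht => mem_map_center_of_central jp st.ξ hrange ht)
    (fun x hx => by
      by_cases hx0 : x = 0
      · rw [hx0, inv_zero (G₀ := SL (RatExt.RL Z Y m c.A) (RatExt.sR Z Y m c.A))]
        exact Subring.zero_mem _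
      · exact inv_mem_map_center jp hx
          (mul_inv_cancel₀ (G₀ := SL (RatExt.RL Z Y m c.A) (RatExt.sR Z Y m c.A)) hx0))
    hξ𝒵
  obtain ⟨x, hx1, hx2⟩ := exists_central_of_mem jp hr
  have hjx : st.jp x = r := hx2
  refine ⟨x, hx1, ?_, ?_⟩
  · rw [hjx]
    exact hr0
  · rw [hjx]
    exact hr1

end Crest.Agent.Lib.Kurosh.NonComm
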