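import Crest.Agent.Lib.Kurosh.ClockPr

/-!
# S0270, blueprint 6.2: approximation of all data by `R`

On `RL K = L0 ⊗ K` with the clock base.  If `R` is a subfield of the model field containing the
constants of `Z0` and all ratios of `π^b (Dg[x])`, then all data of `g` of bounded degree (so, if
they generate `K`, all of `K`, and then all `s`-fixed constants) are approximable by `R`.
-/

set_option autoImplicit false

open scoped TensorProduct

namespace Crest.Agent.Lib.Kurosh.TheoremB

open RatExt NonComm PsiCore CanonU NCSeries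

variable {Z : Type*} [Field Z] [CharZero Z] {Y : Type*} [Fintype Y] [DecidableEq Y] {m : ℕ} [NeZero m]
variable {K : Type*} [Field K] [Algebra Z K] [FiniteDimensional Z K]

/-! ### Constants -/

lemma algebraMap_mem_Z0 (c : Z) : algebraMap Z (L0 Z Y m) c ∈ Z0 Z Y m := by
  rw [mem_Z0]
  exact (s Z Y m).commutes c

lemma iota_algebraMap (c : Z) :
    iota Z Y m K (algebraMap Z K c) = iotaL Z Y m K (algebraMap Z (L0 Z Y m) c) := by
  rw [AlgHom.commutes, AlgHom.commutes]

omit [DecidableEq Y] [NeZero m] [CharZero Z] [Fintype Y] in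
lemma iota_fixed (k : K) : sR Z Y m K (iota Z Y m K k) = iota Z Y m K k := sR_iota Z Y m K k

/-- Fixed elements of `L0 ⊗ A` mapped to `L0 ⊗ K` lie in any subfield containing `Z0` and `f A`. -/
lemma mapRL_fixed_mem {A : Type*} [Field A] [Algebra Z A] [FiniteDimensional Z A] (f : A →ₐ[Z] K)
    (E : Subfield (RL Z Y m K)) (hZ0 : ∀ c ∈ Z0 Z Y m, iotaL Z Y m K c ∈ E)
    (hf : ∀ a, iota Z Y m K (f a) ∈ E) (y : RL Z Y m A) (hy : sR Z Y m A y = y) :
    mapRL Z Y m f y ∈ E := by
  classical
  let b := Module.finBasis Z A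
  have h1 := (sR_fixed_iff Z Y m A b y).mp hy
  have h2 : y = ∑ i, ((basisRL Z Y m A b).repr y i) • basisRL Z Y m A b i :=
    ((basisRL Z Y m A b).sum_repr y).symm
  rw [h2, map_sum]
  refine E.sum_mem fun i _ => ?_
  rw [mapRL_smul, basisRL_apply, mapRL_iota, Algebra.smul_def, ← iotaL_eq_algebraMap]
  exact E.mul_mem (hZ0 _ (h1 i)) (hf _)

/-! ### The subfields attached to intermediate fields -/

/-- `F ⊗ L0` inside `K ⊗ L0`. -/
noncomputable def FLsub (Y : Type*) [Fintype Y] [DecidableEq Y] (m : ℕ) [NeZero m] (F : IntermediateField Z K) :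
    Subfield (RL Z Y m K) :=
  ((mapRL Z Y m F.val : RL Z Y m F →ₐ[Z] RL Z Y m K) : RL Z Y m F →+* RL Z Y m K).fieldRange

lemma mem_FLsub {F : IntermediateField Z K} {x : RL Z Y m K} :
    x ∈ FLsub Y m F ↔ ∃ y : RL Z Y m F, mapRL Z Y m F.val y = x := Iff.rfl

lemma stable_FLsub (F : IntermediateField Z K) : Stable (FLsub Y m F) (sR Z Y m K) where
  fwd x hx := by
    obtain ⟨y, rfl⟩ := mem_FLsub.mp hx
    exact mem_FLsub.mpr ⟨sR Z Y m F y, mapRL_sR Z Y m F.val y⟩
  bwd x hx := by
    obtain ⟨y, rfl⟩ := mem_FLsub.mp hx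
    refine mem_FLsub.mpr ⟨(sR Z Y m F)⁻¹ y, ?_⟩
    apply (sR Z Y m K).injective
    rw [← mapRL_sR]
    have e1 : ∀ (A : Type _) [Ring A] [Algebra Z A] (w : RL Z Y m A),
        sR Z Y m A ((sR Z Y m A)⁻¹ w) = w := by
      intro A _ _ w
      show (sR Z Y m A * (sR Z Y m A)⁻¹) w = w
      rw [mul_inv_cancel]; rfl
    rw [e1, e1]

lemma stable_inf_fixF {F : Subfield (RL Z Y m K)} (hF : Stable F (sR Z Y m K)) :
    Stable (F ⊓ fixF (sR Z Y m K)) (sR Z Y m K) where
  fwd x hx := ⟨hF.fwd x hx.1, stable_fixF.fwd x hx.2⟩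
  bwd x hx := ⟨hF.bwd x hx.1, stable_fixF.bwd x hx.2⟩

/-! ### The clock base -/

lemma clockB_self (z : Y) : clockB Z m K z z = 1 := by
  simp [clockB]

lemma clockB_mem (z y : Y) (F : IntermediateField Z K) : clockB Z m K z y ∈ FLsub Y m F :=
  mem_FLsub.mpr ⟨iotaL Z Y m F (if y = z then 1 else T Z Y m 0 y), mapRL_iotaL Z Y m F.val _⟩

lemma iotaL_mem (c : L0 Z Y m) (F : IntermediateField Z K) : iotaL Z Y m K c ∈ FLsub Y m F :=
  mem_FLsub.mpr ⟨iotaL Z Y m F c, mapRL_iotaL Z Y m F.val _⟩

lemma iota_mem {F : IntermediateField Z K} {k : K} (hk : k ∈ F) : iota Z Y m K k ∈ FLsub Y m F :=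
  mem_FLsub.mpr ⟨iota Z Y m F ⟨k, hk⟩, mapRL_iota Z Y m F.val _⟩

/-! ### Truncation -/

/-- Truncation below degree `D`. -/
def trunc (D : ℕ) (g : NCS K Y) : NCS K Y := fun w => if w.length < D then coeff w g else 0

omit [Fintype Y] [DecidableEq Y] [CharZero Z] [Algebra Z K] [FiniteDimensional Z K] in
lemma coeff_trunc (D : ℕ) (g : NCS K Y) (w : List Y) :
    coeff w (trunc D g) = if w.length < D then coeff w g else 0 := rfl

omit [Fintype Y] [DecidableEq Y] [CharZero Z] [Algebra Z K] [FiniteDimensional Z K] in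
lemma sub_trunc_mem (D : ℕ) (g : NCS K Y) : g - trunc D g ∈ ordGE Y K D := by
  rw [mem_ordGE]
  intro w hw
  rw [coeff_sub, coeff_trunc, if_pos hw, sub_self]

omit [Fintype Y] [DecidableEq Y] [CharZero Z] [Algebra Z K] [FiniteDimensional Z K] in
lemma NF_trunc {g : NCS K Y} {z : Y} (hg : NF g z) {D : ℕ} (hD : 2 ≤ D) : NF (trunc D g) z where
  nil := by rw [coeff_trunc, if_pos (by simp; omega)]; exact hg.nil
  zz := by rw [coeff_trunc, if_pos (by simp; omega)]; exact hg.zz
  pp p hp := by rw [coeff_trunc, if_pos (by simp; omega)]; exact hg.pp p hp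

/-! ### Newton for data -/

/-- `Z` as constants of the model field. -/
noncomputable def iotaZ : Z →+* fixF (sR Z Y m K) :=
  ((algebraMap Z (RL Z Y m K)).codRestrict (fixF (sR Z Y m K)).toSubring fun c => by
    show sR Z Y m K (algebraMap Z (RL Z Y m K) c) = _
    have e : algebraMap Z (RL Z Y m K) c = iota Z Y m K (algebraMap Z K c) := by
      rw [AlgHom.commutes]
    rw [e, sR_iota])

lemma iotaZ_coe (c : Z) : ((iotaZ (Y := Y) (m := m) (K := K) c : fixF (sR Z Y m K)) : RL Z Y m K) =
    iotaL Z Y m K (algebraMap Z (L0 Z Y m) c) := by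
  show algebraMap Z (RL Z Y m K) c = _
  rw [AlgHom.commutes]

/-- The hypothesis "the `Z0` constants are in `R`". -/
def HasZ0 (R : Subfield (FxSub (sR Z Y m K))) : Prop :=
  ∀ (a : fixF (sR Z Y m K)), (∃ c ∈ Z0 Z Y m, (a : RL Z Y m K) = iotaL Z Y m K c) → cstF a ∈ R

lemma iotaL_mem_apx {R : Subfield (FxSub (sR Z Y m K))} (hR : HasZ0 R) {c : L0 Z Y m}
    (hc : c ∈ Z0 Z Y m) : iotaL Z Y m K c ∈ apx R := by
  have hfix : iotaL Z Y m K c ∈ fixF (sR Z Y m K) := by
    rw [mem_fixF, sR_iotaL, (mem_Z0 Z Y m).mp hc]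
  exact approx_of_mem (a := ⟨_, hfix⟩) (hR _ ⟨c, hc, rfl⟩)

lemma apx_of_close {R : Subfield (FxSub (sR Z Y m K))} (hR : HasZ0 R) (k : K)
    {r : FxSub (sR Z Y m K)} (hr : r ∈ R) (h0 : (r.1 - SL.C (iota Z Y m K k)).LB 1) :
    iota Z Y m K k ∈ apx R := by
  have hZ : ∀ c : Z, cstF (iotaZ (Y := Y) (m := m) (K := K) c) ∈ R := fun c =>
    hR _ ⟨_, algebraMap_mem_Z0 c, iotaZ_coe c⟩
  let a : fixF (sR Z Y m K) := ⟨iota Z Y m K k, iota_fixed k⟩
  have hint : IsIntegral Z k := Algebra.IsIntegral.isIntegral k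
  let P := minpoly Z k
  have hcoe : ∀ Q : Polynomial Z, ((Q.eval₂ (iotaZ (Y := Y) (m := m) (K := K)) a : fixF (sR Z Y m K)) : RL Z Y m K) =
      iota Z Y m K (Polynomial.aeval k Q) := by
    intro Q
    have h1 := Polynomial.hom_eval₂ Q (iotaZ (Y := Y) (m := m) (K := K)) (fixF (sR Z Y m K)).subtype a
    have h2 : ((fixF (sR Z Y m K)).subtype (Q.eval₂ (iotaZ (Y := Y) (m := m) (K := K)) a)) =
        ((Q.eval₂ (iotaZ (Y := Y) (m := m) (K := K)) a : fixF (sR Z Y m K)) : RL Z Y m K) := rfl
    rw [← h2, h1]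
    have h3 : Polynomial.aeval k Q = Q.eval₂ (algebraMap Z K) k := rfl
    rw [h3]
    have h4 := Polynomial.hom_eval₂ Q (algebraMap Z K) ((iota Z Y m K : K →ₐ[Z] RL Z Y m K) : K →+* RL Z Y m K) k
    have h5 : ((iota Z Y m K : K →ₐ[Z] RL Z Y m K) : K →+* RL Z Y m K) (Polynomial.eval₂ (algebraMap Z K) k Q) =
        iota Z Y m K (Polynomial.eval₂ (algebraMap Z K) k Q) := rfl
    rw [← h5, h4]
    congr 1
    ext c
    show algebraMap Z (RL Z Y m K) c = iota Z Y m K (algebraMap Z K c)
    rw [AlgHom.commutes]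
  have ha : P.eval₂ (iotaZ (Y := Y) (m := m) (K := K)) a = 0 := by
    apply Subtype.ext
    rw [hcoe, minpoly.aeval, map_zero]
    rfl
  have hsep : P.derivative.eval₂ (iotaZ (Y := Y) (m := m) (K := K)) a ≠ 0 := by
    intro h
    have h1 : ((P.derivative.eval₂ (iotaZ (Y := Y) (m := m) (K := K)) a : fixF (sR Z Y m K)) : RL Z Y m K) = 0 := by
      rw [h]
      rfl
    rw [hcoe] at h1
    have h2 : Polynomial.aeval k P.derivative = 0 :=
      (iota_injective Z Y m K) (by rw [h1, map_zero])
    have hirr : Irreducible P := minpoly.irreducible hint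
    have hs : P.Separable := hirr.separable
    exact hs.aeval_derivative_ne_zero (minpoly.aeval Z k) h2
  exact approx_of_root (iotaZ (Y := Y) (m := m) (K := K)) R hZ P ha hsep hr h0

/-! ### The induction -/

section Main

variable {B : Base K (RL Z Y m K) (sR Z Y m K) Y} {z : Y}

/-- The bound on `m`. -/
noncomputable def mBound (Y : Type*) [Fintype Y] [DecidableEq Y] (Dmax : ℕ) : ℕ :=
  ∑ D ∈ Finset.range (Dmax + 1), (Pairs Y D).card * (2 * D)

lemma le_mBound {Dmax D : ℕ} (hD : D ≤ Dmax) :
    (Pairs Y D).card * (2 * D) ≤ mBound Y Dmax := by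
  unfold mBound
  exact Finset.single_le_sum (f := fun D => (Pairs Y D).card * (2 * D)) (fun _ _ => Nat.zero_le _)
    (Finset.mem_range.mpr (by omega))

/-- The intermediate field generated by the data of degree `< D`. -/
def dataField (Z : Type*) [Field Z] {K : Type*} [Field K] [Algebra Z K] (g : NCS K Y) (D : ℕ) :
    IntermediateField Z K :=
  IntermediateField.adjoin Z {k | ∃ w : List Y, w.length < D ∧ k = coeff w g}

/-- Subfields of `K` whose image lies in `apx R`. -/
noncomputable def apxField {R : Subfield (FxSub (sR Z Y m K))} (hR : HasZ0 R) : IntermediateField Z K :=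
  { ((apx R).comap ((iota Z Y m K : K →ₐ[Z] RL Z Y m K) : K →+* RL Z Y m K)) with
    algebraMap_mem' := fun c => by
      show iota Z Y m K (algebraMap Z K c) ∈ apx R
      rw [iota_algebraMap]
      exact iotaL_mem_apx hR (algebraMap_mem_Z0 c) }

lemma mem_apxField {R : Subfield (FxSub (sR Z Y m K))} (hR : HasZ0 R) {k : K} :
    k ∈ apxField hR ↔ iota Z Y m K k ∈ apx R := Iff.rfl

/-- **Main induction of Theorem B.** -/
theorem iota_coeff_mem_apx (hB : IsMonBase B (clockB Z m K z) ((iota Z Y m K : K →ₐ[Z] RL Z Y m K) : K →+* RL Z Y m K))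
    {g : NCS K Y} (hg : NF g z)
    (hlast : ∀ w, w ≠ [z] → w.getLast? = some z → coeff w g = 0)
    {Dmax : ℕ} (hm : mBound Y Dmax ≤ m) {R : Subfield (FxSub (sR Z Y m K))} (hR : HasZ0 R)
    (hratio : ∀ (xx xx' : Y → L0 Z Y m) (j j' : ℤ),
      Vb (cyc_sR (Z := Z) (Y := Y) (m := m) (K := K)) B g
          (fun y => SL.mon (iotaL Z Y m K (xx y)) j) /
        Vb (cyc_sR (Z := Z) (Y := Y) (m := m) (K := K)) B g
          (fun y => SL.mon (iotaL Z Y m K (xx' y)) j') ∈ R) :
    ∀ w : List Y, w.length ≤ Dmax → iota Z Y m K (coeff w g) ∈ apx R := by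
  classical
  have key : ∀ D : ℕ, D ≤ Dmax → ∀ w : List Y, w.length = D → iota Z Y m K (coeff w g) ∈ apx R := by
    intro D
    induction D using Nat.strong_induction_on with
    | _ D IH =>
      intro hDmax w hw
      -- low degrees and vanishing coefficients
      have h0mem : iota Z Y m K (0 : K) ∈ apx R := by
        rw [map_zero]; exact (apx R).zero_mem
      have h1mem : iota Z Y m K (1 : K) ∈ apx R := by
        rw [map_one]; exact (apx R).one_mem
      by_cases hD0 : D = 0
      · subst hD0
        have : w = [] := List.length_eq_zero_iff.mp hw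
        subst this
        rw [hg.nil]; exact h0mem
      by_cases hD1 : D = 1
      · subst hD1
        obtain ⟨y, rfl⟩ := List.length_eq_one_iff.mp hw
        by_cases hy : y = z
        · subst hy
          rw [hg.zz]; exact h1mem
        · rw [hg.pp y hy]; exact h0mem
      have hD2 : 2 ≤ D := by omega
      have hwne : w ≠ [] := by
        rintro rfl
        simp at hw
        omega
      -- the last letter
      obtain ⟨u0, p, rfl⟩ : ∃ u0 p, w = u0 ++ [p] := ⟨w.dropLast, w.getLast hwne,
        (List.dropLast_append_getLast hwne).symm⟩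
      by_cases hp : p = z
      · subst hp
        rw [hlast _ (by
          intro h
          rw [h] at hw
          simp at hw
          omega) (by simp)]
        exact h0mem
      have hlen0 : u0.length + ([] : List Y).length + 1 = D := by
        simp at hw ⊢
        omega
      -- the dual element
      have hcardm : (Pairs Y D).card * (2 * D) ≤ m := (le_mBound hDmax).trans hm
      obtain ⟨x, hx⟩ := pr_clock_dual (Z := Z) (K := K) z p (by omega : 1 ≤ D) hcardm hlen0 (Or.inl rfl)
      -- the truncation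
      set g' := trunc D g with hg'
      have hg'NF : NF g' z := NF_trunc hg hD2
      set F : IntermediateField Z K := dataField Z g D with hF
      have hFapx : F ≤ apxField hR := by
        rw [hF, dataField, IntermediateField.adjoin_le_iff]
        rintro k ⟨v, hv, rfl⟩
        exact IH v.length (by omega) (by omega) v rfl
      have hFmem : ∀ v : List Y, v.length < D → coeff v g ∈ F := fun v hv =>
        IntermediateField.subset_adjoin Z _ ⟨v, hv, rfl⟩
      set FL := FLsub Y m F with hFL
      have hFLs : Stable FL (sR Z Y m K) := stable_FLsub F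
      set F0 := FL ⊓ fixF (sR Z Y m K) with hF0
      have hF0s : Stable F0 (sR Z Y m K) := stable_inf_fixF hFLs
      have hcyc := cyc_sR (Z := Z) (Y := Y) (m := m) (K := K)
      have hFLF0 : ∀ a ∈ FL, pr (sR Z Y m K) m a ∈ F0 := fun a ha =>
        ⟨hFLs.pr ha, s_pr hcyc a⟩
      have hF0R : F0 ≤ apx R := by
        intro a ha
        obtain ⟨y, rfl⟩ := mem_FLsub.mp ha.1
        have hy : sR Z Y m F y = y := by
          apply mapRL_injective Z Y m F.val F.val.injective
          rw [mapRL_sR]
          exact ha.2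
        refine mapRL_fixed_mem F.val (apx R) (fun c hc => iotaL_mem_apx hR hc) ?_ y hy
        intro f
        exact hFapx f.2
      have hb : ∀ y, clockB Z m K z y ∈ FL := fun y => clockB_mem z y F
      have hι : ∀ v, ((iota Z Y m K : K →ₐ[Z] RL Z Y m K) : K →+* RL Z Y m K) (coeff v g') ∈ FL := by
        intro v
        show iota Z Y m K (coeff v g') ∈ FL
        rw [hg', coeff_trunc]
        split_ifs with hv
        · exact iota_mem (hFmem v hv)
        · rw [map_zero]; exact FL.zero_mem
      -- the direction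
      set xx : Y → RL Z Y m K := fun y => if y = p then iotaL Z Y m K x else 0 with hxx
      have hxxz : xx z = 0 := by
        simp only [hxx]
        rw [if_neg (Ne.symm hp)]
      have hxxF : ∀ y, xx y ∈ FL := by
        intro y
        simp only [hxx]
        split_ifs
        · exact iotaL_mem x F
        · exact FL.zero_mem
      have hez : ∀ i : ℤ, (fun y => SL.mon (ez z y : RL Z Y m K) i : Y → SL (RL Z Y m K) (sR Z Y m K)) =
          fun y => SL.mon (iotaL Z Y m K (if y = z then 1 else 0)) i := by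
        intro i
        funext y
        congr 1
        unfold ez
        split_ifs <;> simp
      have hxe : ∀ i : ℤ, (fun y => SL.mon (xx y) i : Y → SL (RL Z Y m K) (sR Z Y m K)) =
          fun y => SL.mon (iotaL Z Y m K (if y = p then x else 0)) i := by
        intro i
        funext y
        congr 1
        simp only [hxx]
        split_ifs <;> simp
      obtain ⟨r, hr, hclose⟩ := step_abs (B := B) hcyc hB (by exact clockB_self z) hg hg'NF hD2
        (sub_trunc_mem D g) hFLs hF0s hFLF0 hb hι hxxz hxxF 0 hF0R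
        (by rw [hez, hez]; exact hratio _ _ _ _) (by rw [hez, hxe]; exact hratio _ _ _ _)
      -- evaluation of the leading coefficient
      have hC := hx (fun v => iota Z Y m K (coeff v (g - g')))
        (fun v => iota_fixed _) (by
          intro u v hv hl
          have hvan : coeff (u ++ p :: v) (g - g') = 0 := by
            have e1 : coeff (u ++ p :: v) g = 0 := by
              refine hlast _ ?_ ?_
              · intro h
                have := congrArg List.length h
                simp only [List.length_append, List.length_cons, List.length_nil] at this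
                have hv' : 0 < v.length := List.length_pos_iff.mpr hv
                omega
              · have e3 : (u ++ p :: v) = (u ++ [p]) ++ v := by simp
                rw [e3, List.getLast?_append_of_ne_nil _ hv, hl]
            rw [coeff_sub, e1, hg', coeff_trunc]
            split_ifs <;> simp [e1]
          rw [hvan, map_zero])
      have hfinal : iota Z Y m K (coeff (u0 ++ [p]) (g - g')) = iota Z Y m K (coeff (u0 ++ [p]) g) := by
        congr 1
        rw [coeff_sub, hg', coeff_trunc, if_neg (by simp at hw ⊢; omega), sub_zero]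
      rw [hfinal] at hC
      have hcoe : ((0 : ℕ) : ℤ) = (0 : ℤ) := rfl
      rw [hcoe] at hclose
      have hclose' : (r.1 - SL.C (iota Z Y m K (coeff (u0 ++ [p]) g))).LB 1 := by
        rw [← hC]
        exact hclose
      exact apx_of_close hR _ hr hclose'
  intro w hw
  exact key w.length hw w rfl

/-- If the data generate `K`, all `s`-fixed constants are approximable. -/
theorem fixF_le_apx (hB : IsMonBase B (clockB Z m K z) ((iota Z Y m K : K →ₐ[Z] RL Z Y m K) : K →+* RL Z Y m K))
    {g : NCS K Y} (hg : NF g z)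
    (hlast : ∀ w, w ≠ [z] → w.getLast? = some z → coeff w g = 0)
    {Dmax : ℕ} (hgen : dataField Z g (Dmax + 1) = ⊤)
    (hm : mBound Y Dmax ≤ m) {R : Subfield (FxSub (sR Z Y m K))} (hR : HasZ0 R)
    (hratio : ∀ (xx xx' : Y → L0 Z Y m) (j j' : ℤ),
      Vb (cyc_sR (Z := Z) (Y := Y) (m := m) (K := K)) B g
          (fun y => SL.mon (iotaL Z Y m K (xx y)) j) /
        Vb (cyc_sR (Z := Z) (Y := Y) (m := m) (K := K)) B g
          (fun y => SL.mon (iotaL Z Y m K (xx' y)) j') ∈ R) :
    fixF (sR Z Y m K) ≤ apx R := by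
  have h1 : (⊤ : IntermediateField Z K) ≤ apxField hR := by
    rw [← hgen, dataField, IntermediateField.adjoin_le_iff]
    rintro k ⟨v, hv, rfl⟩
    exact iota_coeff_mem_apx hB hg hlast hm hR hratio v (by omega)
  intro a ha
  have h2 := mapRL_fixed_mem (AlgHom.id Z K) (apx R) (fun c hc => iotaL_mem_apx hR hc)
    (fun k => h1 (IntermediateField.mem_top (x := k))) a ha
  have h3 : mapRL Z Y m (AlgHom.id Z K) a = a := by
    simp [mapRL]
  rwa [h3] at h2

end Main

end Crest.Agent.Lib.Kurosh.TheoremB
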