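import Mathlib

/-!
# S0270, blueprint 6.2 (last step): from "ratios generate" to a single primitive ratio
-/

set_option autoImplicit false

namespace Crest.Agent.Lib.Kurosh.PrimRatio

open IntermediateField

/-- If the ratios of a subspace `W ≠ 0` generate a finite extension in characteristic zero, then
a single ratio does. -/
theorem exists_primRatio {F E : Type*} [Field F] [Field E] [Algebra F E] [CharZero F]
    [FiniteDimensional F E] (W : Submodule F E) (hW : W ≠ ⊥)
    (hgen : IntermediateField.adjoin F {x : E | ∃ w ∈ W, ∃ w' ∈ W, x = w / w'} = ⊤) :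
    ∃ w0 ∈ W, ∃ w1 ∈ W, w0 ≠ 0 ∧ IntermediateField.adjoin F {w1 / w0} = ⊤ := by
  classical
  haveI : Algebra.IsSeparable F E := inferInstance
  obtain ⟨α, hα⟩ := Field.exists_primitive_element F E
  haveI : Finite (IntermediateField F E) :=
    Field.finite_intermediateField_of_exists_primitive_element F E ⟨α, hα⟩
  obtain ⟨w0, hw0, hw0ne⟩ := (Submodule.ne_bot_iff W).mp hW
  refine ⟨w0, hw0, ?_⟩
  by_contra hcon
  push Not at hcon
  have hcon' : ∀ w1 ∈ W, IntermediateField.adjoin F {w1 / w0} ≠ ⊤ := fun w1 hw1 => hcon w1 hw1 hw0ne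
  -- the family of proper intermediate fields, restricted to `W`
  let ι := {E' : IntermediateField F E // E' ≠ ⊤}
  let p : ι → Subspace F W := fun E' =>
    (Submodule.comap (LinearMap.mulRight F w0⁻¹ ∘ₗ W.subtype) E'.1.toSubalgebra.toSubmodule)
  have hcov : (⋃ i, (p i : Set W)) = Set.univ := by
    apply Set.eq_univ_of_forall
    intro x
    refine Set.mem_iUnion.mpr ⟨⟨IntermediateField.adjoin F {(x : E) / w0}, hcon' x x.2⟩, ?_⟩
    show (x : E) * w0⁻¹ ∈ IntermediateField.adjoin F {(x : E) / w0}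
    rw [← div_eq_mul_inv]
    exact IntermediateField.mem_adjoin_simple_self F _
  obtain ⟨⟨E', hE'⟩, htop⟩ := Subspace.exists_eq_top_of_iUnion_eq_univ hcov
  have hmem : ∀ w ∈ W, w / w0 ∈ E' := by
    intro w hw
    have h1 : (⟨w, hw⟩ : W) ∈ p ⟨E', hE'⟩ := by
      rw [htop]; trivial
    have h2 : w * w0⁻¹ ∈ E' := h1
    rwa [← div_eq_mul_inv] at h2
  apply hE'
  rw [eq_top_iff, ← hgen, IntermediateField.adjoin_le_iff]
  rintro x ⟨w, hw, w', hw', rfl⟩
  have e : w / w' = (w / w0) / (w' / w0) := by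
    by_cases hw'0 : w' = 0
    · subst hw'0
      simp
    · field_simp
  rw [e]
  exact E'.div_mem (hmem w hw) (hmem w' hw')

end Crest.Agent.Lib.Kurosh.PrimRatio
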