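import Crest.Agent.Lib.Kurosh.TheoremBAbs
import Crest.Agent.Lib.Kurosh.PrimRatio
import Crest.Agent.Lib.Kurosh.GrMeas
import Crest.Agent.Lib.Kurosh.RelDir

/-!
# S0270, blueprint 6.2: the abstract end of Theorem B

`L` is a field with an automorphism `s`, `s ^ m = 1`, `F` a subfield of fixed elements; `Lau F` acts on
`SL L s` by the stretch.  `K'` is a field over `Lau F`, `Θ : K' → SL L s` an embedding with fixed
coefficients.

* `eq_top_of_apx`: a subfield `R'` of `K'`, whose image approximates all fixed constants, and which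
  contains an element of norm one, is all of `K'` (Lemma Gr).
* `primRatio_abs`: the end of Theorem B: the linear coefficients of the Hensel conjugate
  have a primitive ratio.
-/

set_option autoImplicit false

namespace Crest.Agent.Lib.Kurosh.TheoremB

open SL NCSeries CanonU GrMeas

variable {F L : Type*} [Field F] [Field L] [Algebra F L] {s : RingAut L} {m : ℕ}
variable (h : StretchData (algebraMap F L) s m) [Algebra (Lau F) (SL L s)]
  (hA : ∀ c : Lau F, algebraMap (Lau F) (SL L s) c = stretch h c)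

include hA in
lemma isFix_algebraMap (c : Lau F) : IsFix (algebraMap (Lau F) (SL L s) c) := by
  intro i
  rw [hA]
  have := stretch_coeff_fixed h c 1 i
  simpa using this

omit [Algebra F L] in
lemma conj_algebraMap {u : SL L s} (hu : u ≠ 0) (c : Lau F) :
    conj u (algebraMap (Lau F) (SL L s) c) = algebraMap (Lau F) (SL L s) c := by
  unfold conj
  rw [← Algebra.commutes, mul_assoc, mul_inv_cancel₀ hu, mul_one]

omit [Algebra F L] [Algebra (Lau F) (SL L s)] in
lemma conj_mul' {u : SL L s} (hu : u ≠ 0) (x y : SL L s) : conj u (x * y) = conj u x * conj u y := by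
  simp only [conj]
  have : u⁻¹ * u = 1 := inv_mul_cancel₀ hu
  calc u * (x * y) * u⁻¹ = u * x * (u⁻¹ * u) * y * u⁻¹ := by rw [this]; noncomm_ring
    _ = _ := by noncomm_ring

omit [Algebra F L] [Algebra (Lau F) (SL L s)] in
lemma conj_add' (u x y : SL L s) : conj u (x + y) = conj u x + conj u y := by
  simp only [conj]
  noncomm_ring

variable {K' : Type*} [Field K'] [Algebra (Lau F) K']

omit [Algebra F L] in
/-- The conjugate of an embedding. -/
noncomputable def conjHom {u : SL L s} (hu : u ≠ 0) (jp : K' →ₐ[Lau F] SL L s) : K' →ₐ[Lau F] SL L s where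
  toFun x := conj u (jp x)
  map_one' := by
    simp only [map_one, conj, mul_one]
    exact mul_inv_cancel₀ hu
  map_mul' x y := by rw [map_mul, conj_mul' hu]
  map_zero' := by simp [conj]
  map_add' x y := by rw [map_add, conj_add']
  commutes' c := by
    show conj u (jp (algebraMap (Lau F) K' c)) = _
    rw [AlgHom.commutes, conj_algebraMap hu]

omit [Algebra F L] in
@[simp] lemma conjHom_apply {u : SL L s} (hu : u ≠ 0) (jp : K' →ₐ[Lau F] SL L s) (x : K') :
    conjHom hu jp x = conj u (jp x) := rfl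

variable (Θ : K' →ₐ[Lau F] SL L s) (hΘ : ∀ x, IsFix (Θ x))

omit [Algebra F L] in
/-- `Θ` as a map to the model field. -/
noncomputable def ThetaFx : K' →+* FxSub s :=
  (Θ : K' →+* SL L s).codRestrict (FxSub s) hΘ

omit [Algebra F L] in
@[simp] lemma thetaFx_val (x : K') : (ThetaFx Θ hΘ x).1 = Θ x := rfl

omit [Algebra F L] in
/-- The image of an intermediate field in the model field. -/
noncomputable def imgR (R' : IntermediateField (Lau F) K') : Subfield (FxSub s) :=
  R'.toSubfield.map (ThetaFx Θ hΘ)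

omit [Algebra F L] in
lemma mem_imgR {R' : IntermediateField (Lau F) K'} {r : FxSub s} :
    r ∈ imgR Θ hΘ R' ↔ ∃ y ∈ R', (Θ y) = r.1 := by
  constructor
  · rintro ⟨y, hy, rfl⟩
    exact ⟨y, hy, rfl⟩
  · rintro ⟨y, hy, e⟩
    exact ⟨y, hy, Subtype.ext e⟩

include hA in
/-- **The Gr argument.** -/
theorem eq_top_of_apx [Module.Finite F L] (R' : IntermediateField (Lau F) K') {ρ : K'} (hρ : ρ ∈ R')
    (hρ1 : Norm1 (Θ ρ)) (hfix : fixF s ≤ apx (imgR Θ hΘ R')) : R' = ⊤ := by
  classical
  haveI hfin : Module.Finite (Lau F) (SL L s) := finite_SL h hA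
  set V : Submodule (Lau F) (SL L s) := R'.toSubalgebra.toSubmodule.map Θ.toLinearMap with hV
  set V' : Submodule (Lau F) (SL L s) := LinearMap.range Θ.toLinearMap with hV'
  have hVV' : V ≤ V' := by
    rintro _ ⟨y, -, rfl⟩
    exact ⟨y, rfl⟩
  have hGr : ∀ c : Fin m, Gr h hA V' (((c : ℕ) : ℤ)) ≤ Gr h hA V (((c : ℕ) : ℤ)) := by
    intro c t ht
    obtain ⟨x, ⟨y, rfl⟩, -, rfl⟩ := (mem_Gr h hA).mp ht
    -- the coefficient is fixed
    have hfx : (Θ y).coeff ((c : ℕ) : ℤ) ∈ fixF s := hΘ y _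
    obtain ⟨r, hr, hclose⟩ := hfix hfx 1
    obtain ⟨y', hy', e⟩ := (mem_imgR Θ hΘ).mp hr
    refine (mem_Gr h hA).mpr ⟨Θ (y' * ρ ^ (c : ℕ)), ⟨y' * ρ ^ (c : ℕ), ?_, rfl⟩, ?_, ?_⟩
    · exact R'.mul_mem hy' (pow_mem hρ _)
    · rw [map_mul, map_pow]
      have h1 : (Θ y').LB 0 := by
        rw [e]
        exact LB0_of_close (by norm_num) hclose
      have h2 := hρ1.pow_LB (c : ℕ)
      simpa using LB.mul h1 h2
    · rw [map_mul, map_pow]
      have h1 : (Θ y').LB 0 := by
        rw [e]
        exact LB0_of_close (by norm_num) hclose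
      have h0 : (Θ y').coeff 0 = (Θ y).coeff ((c : ℕ) : ℤ) := by
        rw [e]
        exact coeff0_of_close (by norm_num) hclose
      have h2 := hρ1.pow_LB (c : ℕ)
      have h3 := hρ1.pow_lead (c : ℕ)
      have h4 := coeff_mul_add h1 h2
      rw [zero_add, zpow_zero, h3] at h4
      rw [h4, h0]
      simp
  have hle : Module.finrank (Lau F) V' ≤ Module.finrank (Lau F) V := by
    rw [finrank_eq_sum_Gr h hA V', finrank_eq_sum_Gr h hA V]
    exact Finset.sum_le_sum fun c _ => Submodule.finrank_mono (hGr c)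
  have heq : V = V' := Submodule.eq_of_le_of_finrank_le hVV' hle
  rw [eq_top_iff]
  intro x _
  have hx : Θ x ∈ V := by
    rw [heq]
    exact ⟨x, rfl⟩
  obtain ⟨y, hy, e⟩ := hx
  have : y = x := Θ.toRingHom.injective e
  rw [← this]
  exact hy

omit [Algebra (Lau F) (SL L s)] in
lemma stretch_C (a : F) : stretch h (C a : Lau F) = (C (algebraMap F L a) : SL L s) := by
  apply SL.ext
  funext n
  by_cases hn : (m : ℤ) ∣ n
  · obtain ⟨k, rfl⟩ := hn
    rw [coeff_stretch_mul, C_apply, C_apply, coeff_mon, coeff_mon]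
    have hm : (m : ℤ) ≠ 0 := by
      have := h.pos
      omega
    by_cases hk : k = 0
    · subst hk
      simp
    · rw [if_neg hk, if_neg (mul_ne_zero hm hk), map_zero]
  · rw [coeff_stretch_of_not_dvd h _ hn, C_apply, coeff_mon, if_neg]
    rintro rfl
    exact hn (dvd_zero _)

section Abs

variable [CharZero (Lau F)] {n : ℕ} [FiniteDimensional (Lau F) K']

include h hA in
/-- **The abstract end of Theorem B.** -/
theorem primRatio_abs (hfin : Module.Finite F L) (hc : Cyc s m) (jp : K' →ₐ[Lau F] SL L s) (ξ' : K') (hξ1 : Norm1 (jp ξ'))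
    (g' : NCS K' (Fin n)) (g'0 : coeff [] g' = 0)
    (hh U U' : NCS (SL L s) (Fin n)) (hU1 : coeff [] U = 1) (hU'U : U' * U = 1)
    (hconj : U * hh * U' = NCSeries.C (jp ξ') + NCSeries.map (jp : K' →+* SL L s) g')
    {T M : Type*} [AddCommGroup T] [Module (Lau F) T] [AddCommGroup M] [Module (Lau F) M]
    (D : T →ₗ[Lau F] SL L s) (X : Fin n → T) (Inn : M →ₗ[Lau F] T)
    (hcompl : Submodule.span (Lau F) (Set.range X) ⊔ LinearMap.range Inn = ⊤)
    (hDX : ∀ t, D (X t) = coeff [t] hh)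
    (hDI : ∀ c, ∃ a, D (Inn c) = jp ξ' * a - a * jp ξ')
    (e0 e1 : T)
    (he0 : (proj s m (conj (canonU m (jp ξ')) (D e0))).LB 0 ∧
      (proj s m (conj (canonU m (jp ξ')) (D e0))).coeff 0 = 1)
    (he1 : (proj s m (conj (canonU m (jp ξ')) (D e1))).LB 1 ∧
      (proj s m (conj (canonU m (jp ξ')) (D e1))).coeff 1 = 1)
    (hfix : ∀ R : Subfield (FxSub s),
      (∀ a : fixF s, (∃ c : F, (a : L) = algebraMap F L c) → cstF a ∈ R) →
      (∀ x x' : T, (⟨proj s m (conj (canonU m (jp ξ')) (D x)), isFix_proj hc _⟩ : FxSub s) /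
        ⟨proj s m (conj (canonU m (jp ξ')) (D x')), isFix_proj hc _⟩ ∈ R) → fixF s ≤ apx R) :
    ∃ w0 ∈ Submodule.span (Lau F) (Set.range fun t => coeff [t] g'),
      ∃ w1 ∈ Submodule.span (Lau F) (Set.range fun t => coeff [t] g'),
        w0 ≠ 0 ∧ IntermediateField.adjoin (Lau F) {w1 / w0} = ⊤ := by
  classical
  set ξ := jp ξ' with hξ
  set u := canonU m ξ with hu
  have huO : OneP u := canonU_oneP ξ
  have hu0 : u ≠ 0 := huO.ne_zero
  have hζ1 : Norm1 (conj u ξ) := canonU_conj_norm1 hc hξ1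
  have hζfix : IsFix (conj u ξ) := canonU_conj_isFix hc hξ1
  set Θ := conjHom hu0 jp with hΘdef
  have hΘ : ∀ x, IsFix (Θ x) := fun x =>
    isFix_of_comm hc hζ1 hζfix (by
      show conj u ξ * conj u (jp x) = conj u (jp x) * conj u ξ
      rw [← conj_mul' hu0, ← conj_mul' hu0, hξ, ← map_mul, ← map_mul, mul_comm])
  set W' := Submodule.span (Lau F) (Set.range fun t => coeff [t] g') with hW'
  -- the linear map
  let Pi : T →ₗ[Lau F] SL L s :=
    { toFun := fun x => proj s m (conj u (D x))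
      map_add' := fun x y => by rw [map_add, conj_add', proj_add]
      map_smul' := fun r x => by
        rw [map_smul, RingHom.id_apply, Algebra.smul_def, Algebra.smul_def, conj_mul' hu0,
          conj_algebraMap hu0, proj_mul_left hc (isFix_algebraMap h hA r)] }
  have hPi : ∀ x, Pi x = proj s m (conj u (D x)) := fun _ => rfl
  have hPX : ∀ t, Pi (X t) = Θ (coeff [t] g') := by
    intro t
    have h1 := (RelDir.conj_coeff hU1 hU'U (G := NCSeries.map (jp : K' →+* SL L s) g')
      (by rw [NCSeries.coeff_map, g'0]; simp) hconj).2 t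
    rw [NCSeries.coeff_map] at h1
    rw [hPi, hDX]
    symm
    refine proj_conj_of_split hc huO hζ1 hζfix ?_ (a := coeff [t] U) ?_
    · rw [hξ]
      show jp ξ' * jp (coeff [t] g') = jp (coeff [t] g') * jp ξ'
      rw [← map_mul, ← map_mul, mul_comm]
    · rw [h1]
      have e : (jp : K' →+* SL L s) (coeff [t] g') = jp (coeff [t] g') := rfl
      rw [e]
      abel
  have hPI : ∀ c, Pi (Inn c) = 0 := by
    intro c
    obtain ⟨a, ha⟩ := hDI c
    rw [hPi, ha]
    have e : conj u (ξ * a - a * ξ) = conj u ξ * conj u a - conj u a * conj u ξ := by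
      rw [conj_sub, conj_mul' hu0, conj_mul' hu0]
    rw [e, proj_comm hc hζfix]
  -- all values of `Pi` are images of `W'`
  have hVb : ∀ x : T, ∃ w ∈ W', Θ w = Pi x := by
    have hle : (⊤ : Submodule (Lau F) T) ≤ (W'.map Θ.toLinearMap).comap Pi := by
      rw [← hcompl, sup_le_iff]
      constructor
      · rw [Submodule.span_le]
        rintro _ ⟨t, rfl⟩
        refine ⟨coeff [t] g', Submodule.subset_span ⟨t, rfl⟩, ?_⟩
        exact (hPX t).symm
      · rintro _ ⟨c, rfl⟩
        rw [Submodule.mem_comap, hPI]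
        exact Submodule.zero_mem _
    intro x
    obtain ⟨w, hw, e⟩ := hle (Submodule.mem_top (x := x))
    exact ⟨w, hw, e⟩
  -- the field of ratios
  set R' : IntermediateField (Lau F) K' :=
    IntermediateField.adjoin (Lau F) {x | ∃ w ∈ W', ∃ w' ∈ W', x = w / w'} with hR'
  have hrat : ∀ {w w' : K'}, w ∈ W' → w' ∈ W' → w / w' ∈ R' := fun hw hw' =>
    IntermediateField.subset_adjoin _ _ ⟨_, hw, _, hw', rfl⟩
  have hratio : ∀ x x' : T, (⟨proj s m (conj (canonU m ξ) (D x)), isFix_proj hc _⟩ : FxSub s) /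
        ⟨proj s m (conj (canonU m ξ) (D x')), isFix_proj hc _⟩ ∈ imgR Θ hΘ R' := by
    intro x x'
    obtain ⟨w, hw, e⟩ := hVb x
    obtain ⟨w', hw', e'⟩ := hVb x'
    refine (mem_imgR Θ hΘ).mpr ⟨w / w', hrat hw hw', ?_⟩
    rw [map_div₀, e, e', div_eq_mul_inv (Pi x)]
    rfl
  have hZ0 : ∀ a : fixF s, (∃ c : F, (a : L) = algebraMap F L c) → cstF a ∈ imgR Θ hΘ R' := by
    rintro a ⟨c, hc'⟩
    refine (mem_imgR Θ hΘ).mpr ⟨algebraMap (Lau F) K' (C c), IntermediateField.algebraMap_mem _ _, ?_⟩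
    rw [AlgHom.commutes, hA, stretch_C, cstF_val, hc']
  -- the two vectors
  obtain ⟨w0, hw0, e0'⟩ := hVb e0
  obtain ⟨w1, hw1, e1'⟩ := hVb e1
  have hw0ne : w0 ≠ 0 := by
    rintro rfl
    have h1 := he0.2
    have h2 : proj s m (conj (canonU m ξ) (D e0)) = 0 := by
      rw [← hPi, ← e0', map_zero]
    rw [h2, SL.coeff_zero] at h1
    exact zero_ne_one h1
  have hOne : OneP (Θ w0) := by
    intro i hi
    rw [e0', hPi, SL.coeff_sub, SL.coeff_one]
    by_cases h0 : i = 0
    · rw [if_pos h0, h0, he0.2, sub_self]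
    · rw [if_neg h0, he0.1 i (by omega), sub_zero]
  have hρ1 : Norm1 (Θ (w1 / w0)) := by
    rw [map_div₀, div_eq_mul_inv, e1', hPi]
    constructor
    · have := LB.mul he1.1 hOne.inv_LB0
      simpa using this
    · have h1 := coeff_mul_add he1.1 hOne.inv_LB0
      rw [add_zero, he1.2, hOne.inv.coeff0, map_one, mul_one] at h1
      exact h1
  have htop : R' = ⊤ := eq_top_of_apx h hA Θ hΘ R' (hrat hw1 hw0) hρ1 (hfix _ hZ0 hratio)
  have hWne : W' ≠ ⊥ := by
    intro hbot
    rw [hbot] at hw0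
    exact hw0ne ((Submodule.mem_bot _).mp hw0)
  exact PrimRatio.exists_primRatio W' hWne htop

end Abs

end Crest.Agent.Lib.Kurosh.TheoremB
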