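import Crest.Agent.Lib.Kurosh.LevelUp
import Crest.Agent.Lib.Kurosh.TheoremBConc
import Crest.Agent.Lib.Kurosh.TheoremBTop
import Crest.Agent.Lib.Kurosh.MeasInst

/-!
# S0270, blueprint 6.2: Theorem B

Instantiation of `primRatio_abs` and `fixF_le_apx` at the level-up of a normal form at the clock base.
-/

set_option autoImplicit false

namespace Crest.Agent.Lib.Kurosh.TheoremB

open NCSeries CanonU

variable {Z : Type} [Field Z] [CharZero Z] {Y : Type} [Fintype Y] [DecidableEq Y]
variable {K : Type} [Field K] [Algebra Z K] [FiniteDimensional Z K]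

/-- Finitely many coefficients generate `K`. -/
theorem exists_dmax (g : NCS K Y)
    (hgen : IntermediateField.adjoin Z (Set.range fun w => coeff w g) = ⊤) :
    ∃ Dmax, dataField Z g (Dmax + 1) = ⊤ := by
  let f : ℕ →o Submodule Z K :=
    { toFun := fun D => (dataField Z g D).toSubalgebra.toSubmodule
      monotone' := by
        intro a b hab x hx
        refine (IntermediateField.adjoin.mono Z _ _ ?_) hx
        rintro k ⟨w, hw, rfl⟩
        exact ⟨w, by omega, rfl⟩ }
  obtain ⟨n, hn⟩ := monotone_stabilizes_iff_noetherian.mpr (inferInstance : IsNoetherian Z K) f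
  refine ⟨n, ?_⟩
  rw [eq_top_iff, ← hgen, IntermediateField.adjoin_le_iff]
  rintro _ ⟨w, rfl⟩
  have h1 : coeff w g ∈ f (max (n + 1) (w.length + 1)) :=
    IntermediateField.subset_adjoin Z _ ⟨w, by
      have := le_max_right (n + 1) (w.length + 1)
      omega, rfl⟩
  have h2 := hn (max (n + 1) (w.length + 1)) (by
    have := le_max_left (n + 1) (w.length + 1)
    omega)
  rw [← h2] at h1
  have h3 : f n ≤ f (n + 1) := f.monotone (by omega)
  exact h3 h1

variable {m : ℕ} [Fact m.Prime] [Nonempty Y]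

/-- **Theorem B**, unbundled. -/
theorem primRatio_of_step
    (hA : ∀ c : Zp Z Y m, algebraMap (Zp Z Y m) (Tilde Z Y m K) c =
      SL.stretch (MeasInst.stretchData_RL Z Y m) c)
    (g : NCS K Y) (z : Y) (hnil : coeff [] g = 0) (hzz : coeff [z] g = 1)
    (hpp : ∀ p, p ≠ z → coeff [p] g = 0)
    (hlast : ∀ w, w ≠ [z] → w.getLast? = some z → coeff w g = 0)
    {Dmax : ℕ} (hgen : dataField Z g (Dmax + 1) = ⊤) (hm : mBound Y Dmax ≤ m)
    (d : LevelData Z Y m) (hd : d.b = clockBase Z Y m z)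
    {K' : Type} [Field K'] [Algebra (Zp Z Y m) K'] [FiniteDimensional (Zp Z Y m) K']
    (g' : NCS K' (Fin d.n)) (g'0 : coeff [] g' = 0)
    (jp : K' →ₐ[Zp Z Y m] Tilde Z Y m K) (ξ' : K') (hξ : jp ξ' = value d K g)
    (U U' : NCS (Tilde Z Y m K) (Fin d.n)) (hU'U : U' * U = 1) (hU1 : coeff [] U = 1)
    (hconj : U * psi d K g * U' = NCSeries.C (jp ξ') + NCSeries.map (jp : K' →+* Tilde Z Y m K) g') :
    ∃ w0 ∈ Submodule.span (Zp Z Y m) (Set.range fun t => coeff [t] g'),
      ∃ w1 ∈ Submodule.span (Zp Z Y m) (Set.range fun t => coeff [t] g'),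
        w0 ≠ 0 ∧ IntermediateField.adjoin (Zp Z Y m) {w1 / w0} = ⊤ := by
  classical
  have hg : NF g z := ⟨hnil, hzz, hpp⟩
  have hB : PsiCore.IsMonBase (baseOf K d.b) (NonComm.clockB Z m K z)
      ((RatExt.iota Z Y m K : K →ₐ[Z] RL Z Y m K) : K →+* RL Z Y m K) := by
    have := isMonBase (R := K) d.b
    rw [hd] at this ⊢
    exact this
  have hfinL : Module.Finite (Z0 Z Y m) (RL Z Y m K) :=
    Module.Finite.trans (L0 Z Y m) (RL Z Y m K)
  have hval : jp ξ' = (baseOf K d.b).value g := by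
    rw [hξ, value_eq]
    rfl
  have hξ1 : Norm1 (jp ξ') := by
    rw [hval]
    exact value_norm1 hB (clockB_self z) hg
  let D : (Y → CC Z Y m) →ₗ[Zp Z Y m] Tilde Z Y m K :=
    { toFun := fun x => dirB K d.b x g
      map_add' := fun x x' => dirB_add d.b x x' g
      map_smul' := fun a x => dirB_smul K d.b a x g }
  have hDm : ∀ (xx : Y → L0 Z Y m) (j : ℤ), D (fun y => SL.mon (xx y) j) =
      (baseOf K d.b).dir (fun y => SL.mon (RatExt.iotaL Z Y m K (xx y)) j) g := by
    intro xx j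
    show (baseOf K d.b).dir (fun y => Cmap Z Y m K (SL.mon (xx y) j)) g = _
    congr 1
    funext y
    exact Cmap_mon _ _
  have hcyc : Cyc (sR Z Y m K) m := cyc_sR
  have hlead : ∀ (xx : Y → L0 Z Y m) (j : ℤ), xx z = 1 →
      (proj (sR Z Y m K) m (conj (canonU m (jp ξ')) (D (fun y => SL.mon (xx y) j)))).LB j ∧
      (proj (sR Z Y m K) m (conj (canonU m (jp ξ')) (D (fun y => SL.mon (xx y) j)))).coeff j = 1 := by
    intro xx j hxz
    rw [hDm]
    have h1 := proj_conj_coeff_lead (m := m) (canonU_oneP (m := m) (jp ξ'))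
      (hB.dir_LB (xx := fun y => RatExt.iotaL Z Y m K (xx y)) (j := j) g)
    refine ⟨h1.1, ?_⟩
    rw [h1.2, dir_coeff_lead hB hg, hxz, map_one, pr_one hcyc]
  refine primRatio_abs (MeasInst.stretchData_RL Z Y m) hA hfinL hcyc jp ξ' hξ1 g' g'0 (psi d K g) U U' hU1
    hU'U hconj D d.X (Inn d.b) d.hcompl.sup_eq_top ?_ ?_ (fun y => SL.mon (if y = z then 1 else 0) 0)
    (fun y => SL.mon (if y = z then 1 else 0) 1) (hlead _ _ (by simp)) (hlead _ _ (by simp)) ?_
  · intro t
    exact (coeff_single_psi d K t g).symm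
  · intro c
    refine ⟨Cmap Z Y m K c, ?_⟩
    rw [hξ, value_eq]
    exact dirB_Inn K d.b c g
  · intro R hZ hr
    refine fixF_le_apx hB hg hlast hgen hm (R := R) ?_ ?_
    · rintro a ⟨c, hc, e⟩
      exact hZ a ⟨⟨c, hc⟩, e⟩
    · intro xx xx' j j'
      have e : ∀ (xx : Y → L0 Z Y m) (j : ℤ),
          Vb (cyc_sR (Z := Z) (Y := Y) (m := m) (K := K)) (baseOf K d.b) g
            (fun y => SL.mon (RatExt.iotaL Z Y m K (xx y)) j) =
          ⟨proj (sR Z Y m K) m (conj (canonU m (jp ξ')) (D (fun y => SL.mon (xx y) j))),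
            isFix_proj hcyc _⟩ := by
        intro xx j
        apply Subtype.ext
        show proj _ m (conj (canonU m ((baseOf K d.b).value g)) _) = proj _ m (conj (canonU m (jp ξ')) _)
        rw [hval, hDm]
        rfl
      rw [e, e]
      exact hr _ _

end Crest.Agent.Lib.Kurosh.TheoremB
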