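import Mathlib
import Crest.Agent.Lib.Kurosh.LevelUp
import Crest.Agent.Lib.Kurosh.Mono

/-!
# S0270: valuations of `value` (helper2)

* `PsiVal.lw_generic`: `l(w)` for the generic base is helper10's `Mono.lw`.
* `PsiVal.value_val_clock_core`, `PsiVal.value_val_clock'`: at the clock base with linear part exactly `z`
  the value has valuation `1` and coefficient `1`.
-/

set_option autoImplicit false

namespace Crest.Agent.Lib.Kurosh

open TensorProduct SL NCSeries

namespace PsiVal

variable {Z : Type} [Field Z] {Y : Type} [Fintype Y] [DecidableEq Y] {m : ℕ}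

/-- `l(w)` for the generic base. -/
theorem lw_generic (w : List Y) :
    PsiCore.lw (shift Z Y m) (genericBase Z Y m) w = Mono.lw Z Y m w := by
  induction w with
  | nil =>
    show (1 : L0 Z Y m) = algebraMap _ _ (1 : RatExt.Pol Z Y m)
    exact (map_one _).symm
  | cons y w ih =>
    show genericBase Z Y m y * shift Z Y m (PsiCore.lw (shift Z Y m) (genericBase Z Y m) w) = _
    rw [ih]
    show RatExt.T Z Y m 0 y * RatExt.s Z Y m (Mono.lw Z Y m w) = Mono.lw Z Y m (y :: w)
    have h := Mono.s_pow_lw Z Y m 1 w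
    rw [pow_one] at h
    rw [h]
    unfold Mono.lw
    rw [Mono.pw_cons, map_mul]
    simp [RatExt.T]

variable {A : Type} [Ring A] [Algebra Z A]

/-- At a base with `b z = 1`, with `f(0) = 0` and linear part exactly `z`, the value is `ϖ + ...`. -/
theorem value_val_clock_core (b : Y → L0 Z Y m) (z : Y) (hb : ∀ y, y = z → b y = 1) (f : NCS A Y)
    (hf0 : coeff [] f = 0) (hz : ∀ l, coeff [l] f = if l = z then 1 else 0) :
    (valueB A b f).LB 1 ∧ (valueB A b f).coeff 1 = 1 := by
  constructor
  · have hord : f ∈ ordGE Y A 1 := by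
      intro w hw
      have : w = [] := by
        cases w with
        | nil => rfl
        | cons a w => simp at hw
      rw [this]
      exact hf0
    exact_mod_cast valueB_LB_order b hord
  · have h := coeff_valueB (R := A) b 1 f
    have e1 : ((1 : ℕ) : ℤ) = 1 := rfl
    rw [e1] at h
    rw [h, PsiCore.sum_wordsLen_succ, Finset.sum_eq_single z]
    · rw [PsiCore.sum_wordsLen_zero, hz, if_pos rfl]
      show (b z * shift Z Y m 1) ⊗ₜ[Z] (1 : A) = 1
      rw [map_one, mul_one, hb z rfl]
      rfl
    · intro y _ hy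
      rw [PsiCore.sum_wordsLen_zero, hz, if_neg hy, TensorProduct.tmul_zero]
    · intro h
      exact absurd (Finset.mem_univ z) h

/-- The clock-base value. -/
theorem value_val_clock' [Nontrivial A] (b : Y → L0 Z Y m) (z : Y) (hb : ∀ y, y = z → b y = 1)
    (f : NCS A Y) (hf0 : coeff [] f = 0) (hz : ∀ l, coeff [l] f = if l = z then 1 else 0)
    (hm : 2 ≤ m) :
    valueB A b f ≠ 0 ∧ ¬ ((m : ℤ) ∣ SL.val (valueB A b f)) := by
  obtain ⟨h1, h2⟩ := value_val_clock_core (Z := Z) (Y := Y) (m := m) b z hb f hf0 hz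
  have hone : (1 : RL Z Y m A) ≠ 0 := by
    intro h
    have h3 : RatExt.iota Z Y m A (1 : A) = RatExt.iota Z Y m A (0 : A) := by
      rw [map_one, map_zero]
      exact h
    exact one_ne_zero (RatExt.iota_injective Z Y m A h3)
  have hc : (valueB A b f).coeff 1 ≠ 0 := by
    rw [h2]
    exact hone
  have hne : valueB A b f ≠ 0 := by
    intro h
    rw [h] at hc
    exact hc rfl
  refine ⟨hne, ?_⟩
  rw [SL.val_eq_of hc h1]
  intro hdvd
  have h4 := Int.le_of_dvd (by norm_num) hdvd
  omega

end PsiVal

end Crest.Agent.Lib.Kurosh
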