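import Crest.Agent.Lib.Kurosh.StageDefs
import Crest.Agent.Lib.Kurosh.TheoremBFinal
import Crest.Agent.Lib.Kurosh.ValueVal

/-!
# S0270, blueprint 6.2: Theorem B on the configurations of the skeleton

`levelStep_primRatio`: every level step of a normal form generated by its data, at the clock base and
at a large prime, has a primitive ratio.  `value_clock_of_NF`: the value has valuation coprime to `m`,
so that `exists_levelStep` applies.

The algebra structure of `Zp` on `Tilde` enters only through the hypothesis `hA` (that it is the stretch).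
-/

set_option autoImplicit false

namespace Crest.Agent.Lib.Kurosh.TheoremB

open NCSeries

variable {Y : Type} [Fintype Y] [DecidableEq Y] {Z : Type} [Field Z] [CharZero Z]

/-- The value at the clock base is of valuation one (so `exists_levelStep` applies). -/
theorem value_clock_of_NF {m : ℕ} [Fact m.Prime] (c : KConf Z Y) (z : Y) (hNF : c.IsNF z)
    (d : LevelData Z Y m) (hd : d.b = clockBase Z Y m z) :
    value d c.K c.g ≠ 0 ∧ ¬ ((m : ℤ) ∣ SL.val (value d c.K c.g)) := by
  rw [value_eq]
  refine PsiVal.value_val_clock' d.b z (fun y hy => by rw [hd, hy]; simp [clockBase]) c.g c.g0 ?_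
    (Fact.out : m.Prime).two_le
  intro l
  split_ifs with hl
  · rw [hl]
    exact hNF.1
  · exact hNF.2.1 l hl

/-- **Theorem B.** -/
theorem levelStep_primRatio (c : KConf Z Y) (z : Y) (hNF : c.IsNF z)
    (hgen : IntermediateField.adjoin Z (Set.range fun w => coeff w c.g) = ⊤) :
    ∃ M, ∀ (m : ℕ) [Fact m.Prime], M ≤ m → ∀ d : LevelData Z Y m, d.b = clockBase Z Y m z →
      ∀ (_ : Nonempty Y),
      (∀ a : Zp Z Y m, algebraMap (Zp Z Y m) (Tilde Z Y m c.K) a =
        SL.stretch (MeasInst.stretchData_RL Z Y m) a) →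
      ∀ {c' : KConf (Zp Z Y m) (Fin d.n)} (_ : LevelStep d c c'), c'.PrimRatio := by
  obtain ⟨Dmax, hD⟩ := exists_dmax c.g hgen
  refine ⟨mBound Y Dmax, fun m _ hm d hd _ hA c' st => ?_⟩
  exact primRatio_of_step hA c.g z c.g0 hNF.1 hNF.2.1 hNF.2.2 hD hm d hd c'.g c'.g0 st.jp st.ξ st.hξ
    st.U st.U' st.U'U st.U1 st.conj

end Crest.Agent.Lib.Kurosh.TheoremB
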