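import Crest.Agent.Lib.Kurosh.StageDefs
import Crest.Agent.Lib.Kurosh.TransportSeries
import Crest.Agent.Lib.Kurosh.TildeFacts

/-!
# S0270, blueprint 5.0: the concrete Transport Lemma (helper21)

On `LevelStep`. `φ' r = Transport.phiLim (Rmap ∘ φ) (Tmap j (jp ξ)) r`. Unconditional form: `transport_main`.
-/

set_option autoImplicit false

namespace Crest.Agent.Lib.Kurosh

open NCSeries Module

variable {Y : Type} [Fintype Y] [DecidableEq Y]
variable {Z : Type} [Field Z] [CharZero Z] {m : ℕ} [Fact m.Prime]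

/-- The element `φ' r` of the Transport Lemma. -/
noncomputable def transportCoeff {d : LevelData Z Y m} {c : KConf Z Y} {c' : KConf (Zp Z Y m) (Fin d.n)}
    (st : LevelStep d c c') {R : Type} [Ring R] [Algebra Z R] (j : c.K →ₐ[Z] R) (φ : ℕ → R) (r : ℕ) :
    Tilde Z Y m R :=
  Transport.phiLim (fun n => Rmap Z Y m R (φ n)) (Tmap Z Y m j (st.jp st.ξ)) r

/-- Transport Lemma (blueprint 5.0). -/
theorem transport_main {d : LevelData Z Y m} {c : KConf Z Y} {c' : KConf (Zp Z Y m) (Fin d.n)}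
    (st : LevelStep d c c') {R : Type} [Ring R] [Algebra Z R] (j : c.K →ₐ[Z] R) (φ : ℕ → R)
    (hφ : ∀ n k, φ n * j k = j k * φ n) :
      (∀ r k, transportCoeff st j φ r * (Tmap Z Y m j) (st.jp k) = (Tmap Z Y m j) (st.jp k) * transportCoeff st j φ r) ∧
      (∀ r x, (∀ n, Rmap Z Y m R (φ n) * x = x * Rmap Z Y m R (φ n)) →
          x * (Tmap Z Y m j) (st.jp st.ξ) = (Tmap Z Y m j) (st.jp st.ξ) * x → transportCoeff st j φ r * x = x * transportCoeff st j φ r) ∧
      map (Tmap Z Y m j : Tilde Z Y m c.K →+* Tilde Z Y m R) st.U *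
          psi d R (compo φ (map (j : c.K →+* R) c.g)) *
          map (Tmap Z Y m j : Tilde Z Y m c.K →+* Tilde Z Y m R) st.U' =
        compo (transportCoeff st j φ) (map ((Tmap Z Y m j : Tilde Z Y m c.K →+* Tilde Z Y m R).comp
          (st.jp : c'.K →+* Tilde Z Y m c.K)) c'.g) := by
  have hval : ∀ (N : ℕ) (f : NCS R Y), f ∈ ordGE Y R N →
      ∀ w' : List (Fin d.n), (coeff w' (psi d R f)).LB ((N : ℤ) - w'.length) :=
    fun N f hf w' => coeff_psi_LB d R w' hf
  set T : Tilde Z Y m c.K →+* Tilde Z Y m R := (Tmap Z Y m j : Tilde Z Y m c.K →+* Tilde Z Y m R) with hT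
  have hTa : ∀ x, T x = Tmap Z Y m j x := fun _ => rfl
  set G₀ : NCS R Y := map (j : c.K →+* R) c.g with hG₀def
  have hG₀ : coeff [] G₀ = 0 := by
    rw [hG₀def, coeff_map, c.g0, map_zero]
  set ξ : Tilde Z Y m R := Tmap Z Y m j (st.jp st.ξ) with hξdef
  have hψ : psi d R G₀ = map T (psi d c.K c.g) := (psi_map d j c.g).symm
  have hξval : ξ = coeff [] (psi d R G₀) := by
    rw [hψ, coeff_map, hξdef, st.hξ]
    rfl
  have hξLB : ξ.LB 1 := by
    rw [hξval]
    have := hval 1 G₀ (SeriesComp.mem_ordGE_one hG₀) []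
    simpa using this
  have hρ0' : ∀ n, (Rmap Z Y m R (φ n)).LB 0 := fun n => Rmap_LB (φ n)
  have hcomm' : ∀ n x, Rmap Z Y m R (φ n) * T x = T x * Rmap Z Y m R (φ n) :=
    fun n x => TildeFacts.Rmap_comm_Tmap' j (φ n) (hφ n) x
  have hfield : ∀ k, T (st.jp k) * ξ = ξ * T (st.jp k) := by
    intro k
    have h0 : st.jp k * st.jp st.ξ = st.jp st.ξ * st.jp k := by
      rw [← map_mul, ← map_mul, mul_comm]
    rw [hξdef, ← hTa, ← map_mul, h0, map_mul]
  refine ⟨fun r k => ?_, fun r x h1 h2 => ?_, ?_⟩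
  · exact (Transport.phiLim_comm hρ0' hξLB (T (st.jp k)) (fun n => (hcomm' n _).symm) (hfield k) r).symm
  · exact (Transport.phiLim_comm hρ0' hξLB x (fun n => (h1 n).symm) h2 r).symm
  · set G : NCS (Tilde Z Y m R) (Fin d.n) := map (T.comp (st.jp : c'.K →+* Tilde Z Y m c.K)) c'.g with hGdef
    have hG0 : coeff [] G = 0 := by rw [hGdef, coeff_map, c'.g0, map_zero]
    have hser : SeriesComp.IsSeriesIn φ G₀ (compo φ G₀) := SeriesComp.isSeriesIn_sumPow hG₀ φ
    have huv : map T st.U * map T st.U' = 1 := by rw [← map_mul, st.UU', map_one]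
    have hvu : map T st.U' * map T st.U = 1 := by rw [← map_mul, st.U'U, map_one]
    have hφU : ∀ n : ℕ, (C (Rmap Z Y m R (φ n)) : NCS (Tilde Z Y m R) (Fin d.n)) * map T st.U =
        map T st.U * C (Rmap Z Y m R (φ n)) := by
      intro n
      ext w
      rw [C_mul_coeff, coeff_mul_C, coeff_map, hcomm']
    have hξG : ∀ w, ξ * coeff w G = coeff w G * ξ := by
      intro w
      rw [hGdef, coeff_map]
      exact (hfield _).symm
    have hconj : map T st.U * psi d R G₀ * map T st.U' = C ξ + G := by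
      rw [hψ, ← map_mul, ← map_mul, st.conj, map_add]
      have hmapC : map T (C (st.jp st.ξ) : NCS (Tilde Z Y m c.K) (Fin d.n)) = C ξ := by
        ext w
        rw [coeff_map]
        cases w with
        | nil => rfl
        | cons a w => simp
      rw [hmapC]
      rfl
    have key := Transport.transport_isSeriesIn (psi d R) (Rmap Z Y m R) (psi_C d R) (fun r => Rmap_LB r)
      hval hser hξLB huv hvu hφU hG0 hξG hconj
    exact SeriesComp.eq_sumPow_of_isSeriesIn hG0 key

end Crest.Agent.Lib.Kurosh
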