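import Mathlib
import Crest.Agent.Lib.Kurosh.StageDefs
import Crest.Agent.Lib.Kurosh.Steps
import Crest.Agent.Lib.Kurosh.NonCommSk
import Crest.Agent.Lib.Kurosh.TransportLevel
import Crest.Agent.Lib.Kurosh.AStepLevel
import Crest.Agent.Lib.Kurosh.ValueVal
import Crest.Agent.Lib.Kurosh.TildeFacts
import Crest.Agent.Lib.Kurosh.LevelInd
import Crest.Agent.Lib.Kurosh.LevelMove
import Crest.Agent.Lib.Kurosh.LevelDataInst
import Crest.Agent.Lib.Kurosh.MeasFinal
import Crest.Agent.Lib.Kurosh.TheoremRC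
import Crest.Agent.Lib.Kurosh.TheoremBSkel
import Crest.Agent.Lib.Kurosh.FormsConcrete

/-!
# S0270: the pipeline skeleton (helper59)

Everything marked `sorry` is a module target (see BLUEPRINT.md and findings row 180).
Prove a target in your own file importing `StageDefs` only; then post it and the `sorry` here is replaced.
-/

set_option autoImplicit false

namespace Crest.Agent.Lib.Kurosh

open NCSeries Module

variable {Y Y' Y'' : Type} [Fintype Y] [DecidableEq Y] [Fintype Y'] [DecidableEq Y']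
  [Fintype Y''] [DecidableEq Y'']

/-- Letter count after a level-up. -/
theorem LevelData.n_eq {Z : Type} [Field Z] {m : ℕ} [Fact m.Prime] (d : LevelData Z Y m) :
    d.n + m ^ 2 = Fintype.card Y * m ^ 2 + 1 := by
  have : Nonempty Y := by
    obtain ⟨y, _, _⟩ := d.hgen
    exact ⟨y⟩
  exact LevelDataInst.n_eq_of_hA (fun _ => rfl) d

/-! ## Moves: level-up and sections -/

section LevelUp

variable {m : ℕ} [Fact m.Prime]

/-- The level-up stage (helper98: GEN', IND', sec 2 of the blueprint). -/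
noncomputable def Stage.levelUp (S : Stage Y) (d : LevelData S.Z Y m) : Stage (Fin d.n) :=
  { Z := Zp S.Z Y m
    E := Tilde S.Z Y m S.E
    cZ := inferInstance
    dE := inferInstance
    aE := inferInstance
    cE := by
      haveI : Nonempty Y := Fintype.card_pos_iff.1 (by have := S.two; omega)
      infer_instance
    fE := inferInstance
    Φ := fun i => psi d S.E (S.Φ i)
    two := by
      have : Nonempty Y := Fintype.card_pos_iff.1 (by have := S.two; omega)
      exact levelUp_two d (LevelData.n_eq d) S.two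
    gen := by
      have : Nonempty Y := Fintype.card_pos_iff.1 (by have := S.two; omega)
      exact levelUp_gen (fun _ => rfl) d S.Φ S.gen S.ind
    ind := fun α u h => LevelInd.levelUp_ind S.Φ S.gen S.ind d α u h }

/-- The level-up move. -/
noncomputable def Stage.levelMove (S : Stage Y) (d : LevelData S.Z Y m) : Move S (S.levelUp d) :=
  { ιZ := ιZp S.Z Y m
    ι := Rmap S.Z Y m S.E
    ι_alg := fun z => by
      have : Nonempty Y := Fintype.card_pos_iff.1 (by have := S.two; omega)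
      exact Rmap_algebraMap (fun _ => rfl) z
    Ψ := psi d S.E
    Ψ_C := psi_C d S.E
    Ψ_Φ := fun _ => rfl
    red := fun a z h => by
      have : Nonempty Y := Fintype.card_pos_iff.1 (by have := S.two; omega)
      exact levelUp_red (fun _ => rfl) d S.Φ z a h
    dim_le := by
      have : Nonempty Y := Fintype.card_pos_iff.1 (by have := S.two; omega)
      exact finrank_le_Tilde (fun _ => rfl) }

theorem Stage.levelUp_dim (S : Stage Y) (d : LevelData S.Z Y m) :
    finrank (S.levelUp d).Z (S.levelUp d).E = m ^ 2 * finrank S.Z S.E := by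
  have : Nonempty Y := Fintype.card_pos_iff.1 (by have := S.two; omega)
  exact finrank_Tilde (fun _ => rfl)

end LevelUp

/-- Existence of level data for any prime `m` and a suitable base (helper2). -/
theorem exists_levelData_generic (Z : Type) [Field Z] (Y : Type) [Fintype Y] [DecidableEq Y]
    (m : ℕ) [Fact m.Prime] (hY : 2 ≤ Fintype.card Y) :
    ∃ d : LevelData Z Y m, d.b = genericBase Z Y m :=
  LevelDataInst.exists_levelData_generic_of_hA (Fact.out : m.Prime).one_lt hY (fun _ => rfl)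

theorem exists_levelData_clock (Z : Type) [Field Z] (Y : Type) [Fintype Y] [DecidableEq Y]
    (m : ℕ) [Fact m.Prime] (hY : 2 ≤ Fintype.card Y) (z : Y) :
    ∃ d : LevelData Z Y m, d.b = clockBase Z Y m z :=
  LevelDataInst.exists_levelData_clock_of_hA (Fact.out : m.Prime).one_lt hY z (fun _ => rfl)

/-! ## Small Tilde lemmas (helper29) -/

section TildeFacts
variable {Z : Type} [Field Z] {m : ℕ} [NeZero m]

/-- If `β` commutes with `j R` then `Rmap β` commutes with `Tmap j`. -/
theorem Rmap_comm_Tmap {R R' : Type} [Ring R] [Algebra Z R] [Ring R'] [Algebra Z R'] (j : R →ₐ[Z] R') (β : R')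
    (hβ : ∀ a, β * j a = j a * β) (x : Tilde Z Y m R) :
    Rmap Z Y m R' β * Tmap Z Y m j x = Tmap Z Y m j x * Rmap Z Y m R' β := TildeFacts.Rmap_comm_Tmap' j β hβ x

/-- A central element of `R` is central in `Tilde R`. -/
theorem Rmap_central {R : Type} [Ring R] [Algebra Z R] (κ : R) (hκ : ∀ a, κ * a = a * κ) (x : Tilde Z Y m R) :
    Rmap Z Y m R κ * x = x * Rmap Z Y m R κ := TildeFacts.Rmap_central' κ hκ x

end TildeFacts

section KLevel

variable {Z : Type} [Field Z] [CharZero Z] {m : ℕ} [Fact m.Prime]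

/-- Existence of a level step when `val ξ` is coprime to `m` (helper: KPrime + Hensel). -/
theorem exists_levelStep (d : LevelData Z Y m) (c : KConf Z Y)
    (hξ : ¬ ((m : ℤ) ∣ SL.val (value d c.K c.g))) (hξ0 : value d c.K c.g ≠ 0) :
    ∃ c', Nonempty (LevelStep d c c') := Steps.exists_levelStep d c hξ hξ0

/-- Transport Lemma (blueprint 5.0). -/
theorem transport {d : LevelData Z Y m} {c : KConf Z Y} {c' : KConf (Zp Z Y m) (Fin d.n)}
    (st : LevelStep d c c') {R : Type} [Ring R] [Algebra Z R] (j : c.K →ₐ[Z] R) (φ : ℕ → R)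
    (hφ : ∀ n k, φ n * j k = j k * φ n) :
    ∃ φ' : ℕ → Tilde Z Y m R,
      (∀ r k, φ' r * (Tmap Z Y m j) (st.jp k) = (Tmap Z Y m j) (st.jp k) * φ' r) ∧
      map (Tmap Z Y m j : Tilde Z Y m c.K →+* Tilde Z Y m R) st.U *
          psi d R (compo φ (map (j : c.K →+* R) c.g)) *
          map (Tmap Z Y m j : Tilde Z Y m c.K →+* Tilde Z Y m R) st.U' =
        compo φ' (map ((Tmap Z Y m j : Tilde Z Y m c.K →+* Tilde Z Y m R).comp
          (st.jp : c'.K →+* Tilde Z Y m c.K)) c'.g) :=
  ⟨transportCoeff st j φ, (transport_main st j φ hφ).1, (transport_main st j φ hφ).2.2⟩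

theorem theoremB (c : KConf Z Y) (z : Y) (hNF : c.IsNF z)
    (hgen : IntermediateField.adjoin Z (Set.range fun w => coeff w c.g) = ⊤) (h2 : 2 ≤ Fintype.card Y) :
    ∃ M, ∀ (m : ℕ) [Fact m.Prime], M ≤ m → ∀ d : LevelData Z Y m, d.b = clockBase Z Y m z →
      ∃ (c' : KConf (Zp Z Y m) (Fin d.n)) (_ : LevelStep d c c'), c'.PrimRatio := by
  obtain ⟨M, hM⟩ := TheoremB.levelStep_primRatio c z hNF hgen
  refine ⟨M, fun m _ hm d hd => ?_⟩
  obtain ⟨h0, h1⟩ := TheoremB.value_clock_of_NF c z hNF d hd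
  obtain ⟨c', ⟨st⟩⟩ := exists_levelStep d c h1 h0
  exact ⟨c', st, hM m hm d hd ⟨z⟩ (fun _ => rfl) st⟩

/-- Theorem R (blueprint 5(c)): primitive ratio ⇒ at every large prime level the next configuration is rich. -/
theorem theoremR (c : KConf Z Y) (hP : c.PrimRatio) (h2 : 2 ≤ Fintype.card Y) :
    ∃ M, ∀ (m : ℕ) [Fact m.Prime], M ≤ m → ∀ d : LevelData Z Y m, d.b = genericBase Z Y m →
      ∃ (c' : KConf (Zp Z Y m) (Fin d.n)) (_ : LevelStep d c c'), c'.Rich :=
  TheoremRC.theoremR_core c hP h2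

/-- Blueprint 5(d): rich ⇒ after one more generic level-up, there is a section to two letters killing everything. -/
theorem finish (c : KConf Z Y) (hE : c.Rich) (h2 : 2 ≤ Fintype.card Y) :
    ∃ M, ∀ (m : ℕ) [Fact m.Prime], M ≤ m → ∀ d : LevelData Z Y m, d.b = genericBase Z Y m →
      ∃ (c' : KConf (Zp Z Y m) (Fin d.n)) (_ : LevelStep d c c') (θ : Fin d.n → NCS (Zp Z Y m) (Fin 2))
        (hθ : SectionOK θ), c'.comp θ hθ.zero = 0 :=
  FinishTop.finish_of c hE h2 (fun _ _ _ _ st h1 h2 => FormsConcrete.finrank_le_K st h1 h2)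
    (fun _ _ d => LevelData.n_eq d) (FormsConcrete.rank_input' c hE)

end KLevel

section ALevel

variable {Z : Type} [Field Z] [CharZero Z] {m : ℕ} [Fact m.Prime]

/-- Abstract Hensel for a f.d. division algebra: conjugate `h` into the centralizer of its constant term. -/
theorem exists_hensel {Y' : Type} [Fintype Y'] [DecidableEq Y'] {Z₁ E : Type} [Field Z₁] [CharZero Z₁] [DivisionRing E]
    [Algebra Z₁ E] [FiniteDimensional Z₁ E] (h : NCS E Y') :
    ∃ (c' : AConf Z₁ Y') (jp : c'.A →ₐ[Z₁] E) (U U' : NCS E Y'), U * U' = 1 ∧ U' * U = 1 ∧ coeff [] U = 1 ∧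
      (∀ x : E, x ∈ jp.range ↔ x * coeff [] h = coeff [] h * x) ∧
      U * h * U' = C (coeff [] h) + map (jp : c'.A →+* E) c'.f := Steps.exists_hensel h

/-- Existence of an `A`-step (Split + Hensel). -/
theorem exists_aStep (d : LevelData Z Y m) (c : AConf Z Y) : ∃ c', Nonempty (AStep d c c') := Steps.exists_aStep d c

/-- Step 1: `W' ≠ 0` when `f ≠ 0`, `m >` the order of `f` and the base is generic. -/
theorem aStep_W_ne (d : LevelData Z Y m) (hd : d.b = genericBase Z Y m) (c : AConf Z Y)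
    (hf : c.f ≠ 0) (hm : c.f ∉ ordGE Y c.A m)
    {c' : AConf (Zp Z Y m) (Fin d.n)} (st : AStep d c c') : c'.W ≠ ⊥ := AStepLevel.aStep_W_ne' d hd c hm st

/-- Value of `ξ` at generic base: coprime to `m`. -/
theorem value_val_generic (d : LevelData Z Y m) (hd : d.b = genericBase Z Y m) (c : AConf Z Y)
    (hf : c.f ≠ 0) (hm : c.f ∉ ordGE Y c.A m) :
    value d c.A c.f ≠ 0 ∧ ¬ ((m : ℤ) ∣ SL.val (value d c.A c.f)) := AStepLevel.value_val_generic' d hd c.f c.f0 hm

/-- Lemma Meas. -/
theorem meas {d : LevelData Z Y m} {c : AConf Z Y} {c' : AConf (Zp Z Y m) (Fin d.n)} (st : AStep d c c')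
    (hξ : st.jp st.ξ ≠ 0) (hval : ¬ ((m : ℤ) ∣ SL.val (st.jp st.ξ))) :
    finrank (Zp Z Y m) c'.A ≤ m * finrank Z c.A ∧ c'.deg ≤ c.deg ∧
    ((∃ x : c'.A, (∀ y : c'.A, x * y = y * x) ∧ (st.jp x).LB 0 ∧ ¬ IsK0 c.A Y m ((st.jp x).coeff 0)) →
      2 * c'.deg ≤ c.deg) := MeasFinal.meas_final st hξ hval

/-- (N1): `W ⊄ K`, generic level-up. All but at most one prime `m ≥ 3` work; we take a bound. -/
theorem n1 (c : AConf Z Y) (y0 : Y) (hx : ∃ a : c.A, coeff [y0] c.f * a ≠ a * coeff [y0] c.f) :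
    ∃ M, ∀ (m : ℕ) [Fact m.Prime], M ≤ m → ∀ d : LevelData Z Y m, d.b = genericBase Z Y m →
      ∀ {c' : AConf (Zp Z Y m) (Fin d.n)} (st : AStep d c c'),
        ∃ x : c'.A, (∀ y : c'.A, x * y = y * x) ∧ (st.jp x).LB 0 ∧ ¬ IsK0 c.A Y m ((st.jp x).coeff 0) := NonComm.n1_skel c y0 hx

/-- (N2b): normal form with a non-central datum: clock level-up makes the residue field grow.
Normal form: linear part exactly `z`, words ending in `z` that are not powers of `z` vanish. -/
theorem n2b (c : AConf Z Y) (z : Y) (hz : ∀ l, coeff [l] c.f = if l = z then 1 else 0)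
    (hNF : ∀ x, ¬ NormalForm.Pure z x → coeff (x ++ [z]) c.f = 0)
    (hdata : ∃ (w : List Y) (a : c.A), coeff w c.f * a ≠ a * coeff w c.f) :
    ∃ M, ∀ (m : ℕ) [Fact m.Prime], M ≤ m → ∀ d : LevelData Z Y m, d.b = clockBase Z Y m z →
      ∀ {c' : AConf (Zp Z Y m) (Fin d.n)} (st : AStep d c c'),
        ∃ x : c'.A, (∀ y : c'.A, x * y = y * x) ∧ (st.jp x).LB 0 ∧ ¬ IsK0 c.A Y m ((st.jp x).coeff 0) := NonComm.n2b_skel c z hz hNF hdata

/-- Value at the clock base when the linear part is `z`. -/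
theorem value_val_clock (d : LevelData Z Y m) (z : Y) (hd : d.b = clockBase Z Y m z) (c : AConf Z Y)
    (hz : ∀ l, coeff [l] c.f = if l = z then 1 else 0) (hm : 2 ≤ m) :
    value d c.A c.f ≠ 0 ∧ ¬ ((m : ℤ) ∣ SL.val (value d c.A c.f)) := by
  rw [value_eq]
  exact PsiVal.value_val_clock' d.b z (fun y hy => by rw [hd, hy]; simp [clockBase]) c.f c.f0 hz hm

end ALevel

end Crest.Agent.Lib.Kurosh
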