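import Mathlib
import Crest.Agent.Lib.Kurosh.Skeleton

/-!
# S0270: the recursion (helper59)

Given the module targets of `Skeleton.lean`, every `b` is frozen. Blueprint sec 0, 3, 5.
-/

set_option autoImplicit false

namespace Crest.Agent.Lib.Kurosh

open NCSeries Module

variable {Y Y' : Type} [Fintype Y] [DecidableEq Y] [Fintype Y'] [DecidableEq Y']

/-! ### Small lemmas (targets for helper89: StageSection.lean) -/

section Small

theorem substZ_map {Z R R' : Type} [Field Z] [Ring R] [Ring R'] [Algebra Z R] [Algebra Z R'] (θ : Y → NCS Z Y')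
    (hθ : ∀ y, coeff [] (θ y) = 0) (j : R →ₐ[Z] R') (f : NCS R Y) :
    substZ θ hθ R' (map (j : R →+* R') f) = map (j : R →+* R') (substZ θ hθ R f) :=
  (sec_map θ hθ j f).symm

theorem substZ_compo {Z R : Type} [Field Z] [Ring R] [Algebra Z R] (θ : Y → NCS Z Y')
    (hθ : ∀ y, coeff [] (θ y) = 0) (φ : ℕ → R) (f : NCS R Y) (hf : coeff [] f = 0) :
    substZ θ hθ R (compo φ f) = compo φ (substZ θ hθ R f) :=
  StageSection.sec_sumPow θ hθ φ f hf

theorem compo_zero {R : Type} [Ring R] (φ : ℕ → R) : compo φ (0 : NCS R Y) = C (φ 0) :=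
  StageSection.sumPow_zero' φ

/-- The two-letter projection section. -/
theorem exists_section_two {Z : Type} [Field Z] (h2 : 2 ≤ Fintype.card Y) :
    ∃ θ : Y → NCS Z (Fin 2), SectionOK θ := by
  obtain ⟨θ, h0, hli⟩ := StageSection.exists_section_two Z h2
  exact ⟨θ, ⟨h0, hli⟩⟩

end Small

/-! ### Frozen constants and sections -/

section Glue

theorem exists_prime_fact (M : ℕ) : ∃ m : ℕ, M ≤ m ∧ m.Prime := Nat.exists_infinite_primes M

/-- Conjugation does not matter. -/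
theorem Frozen.of_conj {S : Stage Y} {b : NCS S.E Y} (U U' : NCS S.E Y) (h1 : U * U' = 1) (h2 : U' * U = 1)
    (h : Frozen S (U * b * U')) : Frozen S b := by
  obtain ⟨S', μ, hd, V, V', c, hV1, hV2, hc⟩ := h
  refine ⟨S', μ, hd, V * μ.Ψ U, μ.Ψ U' * V', c, ?_, ?_, ?_⟩
  · calc V * μ.Ψ U * (μ.Ψ U' * V') = V * (μ.Ψ (U * U')) * V' := by rw [map_mul]; noncomm_ring
      _ = 1 := by rw [h1, map_one, mul_one, hV1]
  · calc μ.Ψ U' * V' * (V * μ.Ψ U) = μ.Ψ U' * (V' * V) * μ.Ψ U := by noncomm_ring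
      _ = 1 := by rw [hV2, mul_one, ← map_mul, h2, map_one]
  · rw [← hc, map_mul, map_mul]
    noncomm_ring

/-- A constant series is frozen. -/
theorem Frozen.of_const (S : Stage Y) (c : S.E) : Frozen S (C c) := by
  have : Fact (Nat.Prime 2) := ⟨Nat.prime_two⟩
  obtain ⟨d, -⟩ := exists_levelData_generic S.Z Y 2 S.two
  let S1 := S.levelUp d
  obtain ⟨θ, hθ⟩ := exists_section_two (Z := S1.Z) S1.two
  let S2 := S1.section θ hθ (by simp)
  let μ1 : Move S S1 := S.levelMove d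
  let μ2 : Move S1 S2 := S1.sectionMove θ hθ (by simp)
  refine ⟨S2, μ1.comp μ2, ?_, 1, 1, μ2.ι (μ1.ι c), by simp, by simp, ?_⟩
  · have : finrank S1.Z S1.E = 2 ^ 2 * finrank S.Z S.E := S.levelUp_dim d
    have h : finrank S2.Z S2.E = finrank S1.Z S1.E := rfl
    rw [h, this]
    nlinarith [Nat.zero_le (finrank S.Z S.E)]
  · have : (μ1.comp μ2).Ψ (C c) = μ2.Ψ (μ1.Ψ (C c)) := rfl
    rw [one_mul, mul_one, this, μ1.Ψ_C, μ2.Ψ_C]

/-- A section killing `G` freezes the passive `b`. -/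
theorem frozen_of_section {S : Stage Y} (c : KConf S.Z Y) (j : c.K →ₐ[S.Z] S.E) (φ : ℕ → S.E)
    (θ : Y → NCS S.Z (Fin 2)) (hθ : SectionOK θ) (hz : c.comp θ hθ.zero = 0) :
    Frozen S (compo φ (map (j : c.K →+* S.E) c.g)) := by
  let S2 := S.section θ hθ (by simp)
  have hb : (S.sectionMove θ hθ (by simp)).Ψ (compo φ (map (j : c.K →+* S.E) c.g)) = C (φ 0) := by
    show substZ θ hθ.zero S.E _ = _
    rw [substZ_compo _ _ _ _ (by simp [coeff_map, c.g0]), substZ_map]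
    have : substZ θ hθ.zero c.K c.g = 0 := hz
    rw [this, map_zero, compo_zero]
  refine Frozen.of_move (S.sectionMove θ hθ (by simp)) 1 1 (by simp) (by simp) ?_
  rw [hb, one_mul, mul_one]
  exact Frozen.of_const S2 (φ 0)

/-- One `K`-level step with passive `b`. -/
theorem frozen_of_levelStep {S : Stage Y} {m : ℕ} [Fact m.Prime] {d : LevelData S.Z Y m} {c : KConf S.Z Y}
    {c' : KConf (Zp S.Z Y m) (Fin d.n)} (st : LevelStep d c c') (j : c.K →ₐ[S.Z] S.E) (φ : ℕ → S.E)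
    (hφ : ∀ n k, φ n * j k = j k * φ n)
    (IH : ∀ (j' : c'.K →ₐ[Zp S.Z Y m] Tilde S.Z Y m S.E) (φ' : ℕ → Tilde S.Z Y m S.E),
      (∀ n k, φ' n * j' k = j' k * φ' n) →
      Frozen (S.levelUp d) (compo φ' (map (j' : c'.K →+* Tilde S.Z Y m S.E) c'.g))) :
    Frozen S (compo φ (map (j : c.K →+* S.E) c.g)) := by
  obtain ⟨φ', h1, h2⟩ := transport st j φ hφ
  let jt : Tilde S.Z Y m c.K →ₐ[Zp S.Z Y m] Tilde S.Z Y m S.E := Tmap S.Z Y m j
  let j' : c'.K →ₐ[Zp S.Z Y m] Tilde S.Z Y m S.E := jt.comp st.jp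
  have hU1 : map (jt : Tilde S.Z Y m c.K →+* Tilde S.Z Y m S.E) st.U *
      map (jt : Tilde S.Z Y m c.K →+* Tilde S.Z Y m S.E) st.U' = 1 := by
    rw [← map_mul, st.UU', map_one]
  have hU2 : map (jt : Tilde S.Z Y m c.K →+* Tilde S.Z Y m S.E) st.U' *
      map (jt : Tilde S.Z Y m c.K →+* Tilde S.Z Y m S.E) st.U = 1 := by
    rw [← map_mul, st.U'U, map_one]
  refine Frozen.of_move (S.levelMove d) (map (jt : Tilde S.Z Y m c.K →+* Tilde S.Z Y m S.E) st.U)
    (map (jt : Tilde S.Z Y m c.K →+* Tilde S.Z Y m S.E) st.U') hU1 hU2 ?_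
  · have := IH j' φ' h1
    show Frozen (S.levelUp d) (map (jt : Tilde S.Z Y m c.K →+* Tilde S.Z Y m S.E) st.U *
      psi d S.E (compo φ (map (j : c.K →+* S.E) c.g)) * map (jt : Tilde S.Z Y m c.K →+* Tilde S.Z Y m S.E) st.U')
    rw [show (map (jt : Tilde S.Z Y m c.K →+* Tilde S.Z Y m S.E) st.U *
      psi d S.E (compo φ (map (j : c.K →+* S.E) c.g)) * map (jt : Tilde S.Z Y m c.K →+* Tilde S.Z Y m S.E) st.U') = _ from h2]
    exact this

/-- Rich ⇒ frozen (5(d)). -/
theorem frozen_of_rich {S : Stage Y} (c : KConf S.Z Y) (hE : c.Rich) (j : c.K →ₐ[S.Z] S.E) (φ : ℕ → S.E)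
    (hφ : ∀ n k, φ n * j k = j k * φ n) : Frozen S (compo φ (map (j : c.K →+* S.E) c.g)) := by
  obtain ⟨M, hM⟩ := finish c hE S.two
  obtain ⟨m, hm, hp⟩ := exists_prime_fact M
  have : Fact m.Prime := ⟨hp⟩
  obtain ⟨d, hd⟩ := exists_levelData_generic S.Z Y m S.two
  obtain ⟨c', st, θ, hθ, hz⟩ := hM m hm d hd
  refine frozen_of_levelStep st j φ hφ (fun j' φ' _ => ?_)
  exact frozen_of_section (S := S.levelUp d) c' j' φ' θ hθ hz

/-- Primitive ratio ⇒ frozen (5(c)). -/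
theorem frozen_of_primRatio {S : Stage Y} (c : KConf S.Z Y) (hP : c.PrimRatio) (j : c.K →ₐ[S.Z] S.E) (φ : ℕ → S.E)
    (hφ : ∀ n k, φ n * j k = j k * φ n) : Frozen S (compo φ (map (j : c.K →+* S.E) c.g)) := by
  obtain ⟨M, hM⟩ := theoremR c hP S.two
  obtain ⟨m, hm, hp⟩ := exists_prime_fact M
  have : Fact m.Prime := ⟨hp⟩
  obtain ⟨d, hd⟩ := exists_levelData_generic S.Z Y m S.two
  obtain ⟨c', st, hR⟩ := hM m hm d hd
  refine frozen_of_levelStep st j φ hφ (fun j' φ' hφ' => ?_)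
  exact frozen_of_rich (S := S.levelUp d) c' hR j' φ' hφ'

/-- Normal form with `K` generated by the data ⇒ frozen (5(b)). -/
theorem frozen_of_NF_gen {S : Stage Y} (c : KConf S.Z Y) (z : Y) (hNF : c.IsNF z)
    (hgen : IntermediateField.adjoin S.Z (Set.range fun w => coeff w c.g) = ⊤)
    (j : c.K →ₐ[S.Z] S.E) (φ : ℕ → S.E)
    (hφ : ∀ n k, φ n * j k = j k * φ n) : Frozen S (compo φ (map (j : c.K →+* S.E) c.g)) := by
  obtain ⟨M, hM⟩ := theoremB c z hNF hgen S.two
  obtain ⟨m, hm, hp⟩ := exists_prime_fact M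
  have : Fact m.Prime := ⟨hp⟩
  obtain ⟨d, hd⟩ := exists_levelData_clock S.Z Y m S.two z
  obtain ⟨c', st, hR⟩ := hM m hm d hd
  refine frozen_of_levelStep st j φ hφ (fun j' φ' hφ' => ?_)
  exact frozen_of_primRatio (S := S.levelUp d) c' hR j' φ' hφ'

/-- Shrink `K` to the field generated by the data. -/
theorem frozen_of_NF {S : Stage Y} (c : KConf S.Z Y) (z : Y) (hNF : c.IsNF z)
    (j : c.K →ₐ[S.Z] S.E) (φ : ℕ → S.E)
    (hφ : ∀ n k, φ n * j k = j k * φ n) : Frozen S (compo φ (map (j : c.K →+* S.E) c.g)) := by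
  classical
  let F := IntermediateField.adjoin S.Z (Set.range fun w => coeff w c.g)
  have hmem : ∀ w, coeff w c.g ∈ F := fun w => IntermediateField.subset_adjoin _ _ ⟨w, rfl⟩
  let gF : NCS F Y := fun w => ⟨coeff w c.g, hmem w⟩
  have hgF : map (F.val : F →+* c.K) gF = c.g := by
    ext w
    rfl
  let cF : KConf S.Z Y := { K := F, g := gF, g0 := Subtype.ext c.g0 }
  have hNF' : cF.IsNF z := by
    refine ⟨Subtype.ext hNF.1, fun p hp => Subtype.ext (hNF.2.1 p hp), fun w h1 h2 => Subtype.ext (hNF.2.2 w h1 h2)⟩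
  have hgen' : IntermediateField.adjoin S.Z (Set.range fun w => coeff w cF.g) = ⊤ := by
    have himg : (F.val : F → c.K) '' (Set.range fun w => coeff w gF) = Set.range fun w => coeff w c.g := by
      ext x
      constructor
      · rintro ⟨_, ⟨w, rfl⟩, rfl⟩
        exact ⟨w, rfl⟩
      · rintro ⟨w, rfl⟩
        exact ⟨_, ⟨w, rfl⟩, rfl⟩
    have hmap : (IntermediateField.adjoin S.Z (Set.range fun w => coeff w gF)).map F.val = F := by
      rw [IntermediateField.adjoin_map, himg]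
    have htop : (⊤ : IntermediateField S.Z F).map F.val = F := by
      rw [← AlgHom.fieldRange_eq_map]
      exact IntermediateField.fieldRange_val F
    exact IntermediateField.map_injective F.val (hmap.trans htop.symm)
  have := frozen_of_NF_gen cF z hNF' hgen' (j.comp F.val) φ (fun n k => hφ n k)
  have e : map ((j.comp F.val : F →ₐ[S.Z] S.E) : F →+* S.E) gF = map (j : c.K →+* S.E) c.g := by
    rw [← hgF]
    ext w
    rfl
  have e2 : (map ((j.comp F.val : cF.K →ₐ[S.Z] S.E) : cF.K →+* S.E) cF.g) = map (j : c.K →+* S.E) c.g := e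
  rwa [e2] at this

end Glue

/-! ### A-level steps -/

section ALevelGlue

theorem C_comm_of_coeff {R : Type} [Ring R] (x : R) (V : NCS R Y) (h : ∀ w, x * coeff w V = coeff w V * x) :
    (C x : NCS R Y) * V = V * C x := by
  ext w
  rw [C_mul_coeff, coeff_mul_C, h]

/-- One `A`-level step with a central scalar. -/
theorem frozen_after_step {S : Stage Y} {m : ℕ} [Fact m.Prime] (d : LevelData S.Z Y m) (c : AConf S.Z Y)
    (j : c.A →ₐ[S.Z] S.E) (β : S.E) (hβ : ∀ a, β * j a = j a * β) (κ : c.A) (hκ : ∀ a, κ * a = a * κ)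
    {c' : AConf (Zp S.Z Y m) (Fin d.n)} (st : AStep d c c') (κ' : c'.A)
    (hκ' : st.jp κ' = Rmap S.Z Y m c.A κ)
    (IH : ∀ (β' : Tilde S.Z Y m S.E) (j' : c'.A →ₐ[Zp S.Z Y m] Tilde S.Z Y m S.E), (∀ a, β' * j' a = j' a * β') →
      Frozen (S.levelUp d) (C β' + map (j' : c'.A →+* Tilde S.Z Y m S.E) (C κ' * c'.f))) :
    Frozen S (C β + C (j κ) * map (j : c.A →+* S.E) c.f) := by
  let jt : Tilde S.Z Y m c.A →ₐ[Zp S.Z Y m] Tilde S.Z Y m S.E := Tmap S.Z Y m j
  let j' : c'.A →ₐ[Zp S.Z Y m] Tilde S.Z Y m S.E := jt.comp st.jp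
  have hU1 : map (jt : Tilde S.Z Y m c.A →+* Tilde S.Z Y m S.E) st.U *
      map (jt : Tilde S.Z Y m c.A →+* Tilde S.Z Y m S.E) st.U' = 1 := by
    rw [← map_mul, st.UU', map_one]
  have hU2 : map (jt : Tilde S.Z Y m c.A →+* Tilde S.Z Y m S.E) st.U' *
      map (jt : Tilde S.Z Y m c.A →+* Tilde S.Z Y m S.E) st.U = 1 := by
    rw [← map_mul, st.U'U, map_one]
  refine Frozen.of_move (S.levelMove d) (map (jt : Tilde S.Z Y m c.A →+* Tilde S.Z Y m S.E) st.U)
    (map (jt : Tilde S.Z Y m c.A →+* Tilde S.Z Y m S.E) st.U') hU1 hU2 ?_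
  -- abbreviations
  set V := map (jt : Tilde S.Z Y m c.A →+* Tilde S.Z Y m S.E) st.U with hV
  set V' := map (jt : Tilde S.Z Y m c.A →+* Tilde S.Z Y m S.E) st.U' with hV'
  let βt : Tilde S.Z Y m S.E := Rmap S.Z Y m S.E β
  let κt : Tilde S.Z Y m S.E := Rmap S.Z Y m S.E (j κ)
  have hκt : κt = j' κ' := by
    show _ = jt (st.jp κ')
    rw [hκ']
    exact (Tmap_Rmap S.Z Y m j κ).symm
  have hβt : ∀ x, βt * jt x = jt x * βt := fun x => Rmap_comm_Tmap j β hβ x
  have hκtc : ∀ x, κt * jt x = jt x * κt := fun x => by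
    have : κt = jt (Rmap S.Z Y m c.A κ) := (Tmap_Rmap S.Z Y m j κ).symm
    rw [this, ← map_mul, ← map_mul, Rmap_central κ hκ x]
  have hcβ : (C βt : NCS (Tilde S.Z Y m S.E) (Fin d.n)) * V = V * C βt :=
    C_comm_of_coeff _ _ (fun w => hβt _)
  have hcκ : (C κt : NCS (Tilde S.Z Y m S.E) (Fin d.n)) * V = V * C κt :=
    C_comm_of_coeff _ _ (fun w => hκtc _)
  have hmain : V * map (jt : Tilde S.Z Y m c.A →+* Tilde S.Z Y m S.E) (psi d c.A c.f) * V' =
      C (j' st.ξ) + map (j' : c'.A →+* Tilde S.Z Y m S.E) c'.f := by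
    rw [hV, hV', ← map_mul, ← map_mul, st.conj, map_add]
    congr 1
    ext w
    cases w <;> simp [coeff_map, coeff_C_nil, coeff_C_cons] <;> rfl
  have hpsi : (psi d S.E (C β + C (j κ) * map (j : c.A →+* S.E) c.f) : NCS (Tilde S.Z Y m S.E) (Fin d.n)) =
      C βt + C κt * map (jt : Tilde S.Z Y m c.A →+* Tilde S.Z Y m S.E) (psi d c.A c.f) := by
    rw [map_add, map_mul, psi_C, psi_C, psi_map]
  have hfinal : V * psi d S.E (C β + C (j κ) * map (j : c.A →+* S.E) c.f) * V' =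
      C (βt + κt * j' st.ξ) + map (j' : c'.A →+* Tilde S.Z Y m S.E) (C κ' * c'.f) := by
    rw [hpsi]
    have e1 : V * (C βt + C κt * map (jt : Tilde S.Z Y m c.A →+* Tilde S.Z Y m S.E) (psi d c.A c.f)) * V' =
        C βt * (V * V') + C κt * (V * map (jt : Tilde S.Z Y m c.A →+* Tilde S.Z Y m S.E) (psi d c.A c.f) * V') := by
      calc V * (C βt + C κt * map (jt : Tilde S.Z Y m c.A →+* Tilde S.Z Y m S.E) (psi d c.A c.f)) * V'
          = (V * C βt) * V' + (V * C κt) * map (jt : Tilde S.Z Y m c.A →+* Tilde S.Z Y m S.E) (psi d c.A c.f) * V' := by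
            noncomm_ring
        _ = _ := by
            rw [← hcβ, ← hcκ]
            noncomm_ring
    have e2 : map (j' : c'.A →+* Tilde S.Z Y m S.E) (C κ' * c'.f) =
        C κt * map (j' : c'.A →+* Tilde S.Z Y m S.E) c'.f := by
      rw [map_mul, hκt]
      congr 1
      ext w
      cases w <;> simp [coeff_map, coeff_C_nil, coeff_C_cons]
    rw [e1, hU1, hmain, mul_one, mul_add, C_add, C_mul, add_assoc, e2]
  show Frozen (S.levelUp d) (V * psi d S.E (C β + C (j κ) * map (j : c.A →+* S.E) c.f) * V')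
  rw [hfinal]
  refine IH _ j' (fun a => ?_)
  have h1 : βt * j' a = j' a * βt := hβt _
  have h2 : j' st.ξ * j' a = j' a * j' st.ξ := by
    show jt (st.jp st.ξ) * jt (st.jp a) = jt (st.jp a) * jt (st.jp st.ξ)
    have : st.jp a * st.jp st.ξ = st.jp st.ξ * st.jp a := (st.jp_range _).1 ⟨a, rfl⟩
    rw [← map_mul jt, ← map_mul jt, this]
  have h3 : κt * j' a = j' a * κt := hκtc _
  rw [add_mul, mul_add, h1, mul_assoc, h2, ← mul_assoc, h3, mul_assoc]

/-- The center of a f.d. algebra as a `KConf`-ready field. -/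
noncomputable def algebraCenter (Z A : Type) [Field Z] [DivisionRing A] [Algebra Z A] : Algebra Z (Subring.center A) :=
  ((algebraMap Z A).codRestrict (Subring.center A) (fun z => Subring.mem_center_iff.2 fun a =>
    (Algebra.commutes z a).symm)).toAlgebra

theorem finite_center (Z A : Type) [Field Z] [DivisionRing A] [Algebra Z A] [FiniteDimensional Z A] :
    letI := algebraCenter Z A
    FiniteDimensional Z (Subring.center A) := by
  letI := algebraCenter Z A
  let φ : Subring.center A →ₗ[Z] A :=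
    { toFun := Subtype.val, map_add' := fun _ _ => rfl,
      map_smul' := fun z x => by
        show (algebraMap Z A z) * x.1 = z • x.1
        rw [Algebra.smul_def] }
  exact FiniteDimensional.of_injective φ Subtype.val_injective

/-- N2a: all data central ⇒ frozen. -/
theorem frozen_N2a {S : Stage Y} (c : AConf S.Z Y) (z : Y)
    (hz : ∀ l, coeff [l] c.f = if l = z then 1 else 0)
    (hNF : ∀ x, ¬ NormalForm.Pure z x → coeff (x ++ [z]) c.f = 0)
    (hcen : ∀ w a, coeff w c.f * a = a * coeff w c.f) (j : c.A →ₐ[S.Z] S.E) (β : S.E)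
    (hβ : ∀ a, β * j a = j a * β) (κ : c.A) (hκ : ∀ a, κ * a = a * κ) :
    Frozen S (C β + C (j κ) * map (j : c.A →+* S.E) c.f) := by
  classical
  letI := algebraCenter S.Z c.A
  haveI := finite_center S.Z c.A
  let K := Subring.center c.A
  let jK : K →ₐ[S.Z] c.A :=
    { toRingHom := (Subring.center c.A).subtype
      commutes' := fun _ => rfl }
  let j1 : K →ₐ[S.Z] S.E := j.comp jK
  obtain ⟨gK, hgK⟩ := KillNF.exists_lift (jK : K →+* c.A) c.f (fun w =>
    ⟨⟨coeff w c.f, Subring.mem_center_iff.2 fun a => (hcen w a).symm⟩, rfl⟩)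
  have hgK' : ∀ w, (coeff w gK).1 = coeff w c.f := fun w => by rw [← hgK]; rfl
  have h0 : coeff [] gK = 0 := Subtype.ext ((hgK' []).trans c.f0)
  have h1 : coeff [z] gK = 1 := Subtype.ext ((hgK' [z]).trans (by rw [hz]; simp))
  let κK : K := ⟨κ, Subring.mem_center_iff.2 fun a => (hκ a).symm⟩
  obtain ⟨H, hH0, hH1, hHp, hH⟩ := KillNF.n2a (j1 : K →+* S.E) z gK h0 h1 β κK
  have hmapc : map (j1 : K →+* S.E) gK = map (j : c.A →+* S.E) c.f := by
    rw [← hgK]
    ext w
    rfl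
  have hmain : (C β + C (j κ) * map (j : c.A →+* S.E) c.f : NCS S.E Y) =
      SeriesComp.sumPow (fun r => if r = 0 then β else j1 (κK * coeff (List.replicate r z) gK))
        (map (j1 : K →+* S.E) H) := by
    rw [← hmapc]
    exact hH
  rw [hmain]
  -- conjugate `H` into normal form
  have hHl : ∀ l, coeff [l] H = if l = z then 1 else 0 := fun l => by
    rw [hH1]
    split_ifs with h
    · subst h; exact h1
    · exact Subtype.ext ((hgK' [l]).trans (by rw [hz, if_neg h]; rfl))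
  obtain ⟨U, U', f, hUU, hU'U, hU1, hf, -, hUp, hf0, hfl, hfp, hfn⟩ :=
    NormalForm.exists_normalForm z H hH0 hHl
  set φ : ℕ → S.E := fun r => if r = 0 then β else j1 (κK * coeff (List.replicate r z) gK) with hφdef
  have hφ : ∀ n k, φ n * j1 k = j1 k * φ n := by
    intro n k
    by_cases hn : n = 0
    · simp only [hφdef, hn, if_true]; exact hβ _
    · simp only [hφdef, hn, if_false]
      rw [← map_mul, ← map_mul, mul_comm]
  have hUc : ∀ n w, φ n * coeff w (map (j1 : K →+* S.E) U) = coeff w (map (j1 : K →+* S.E) U) * φ n :=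
    fun n w => hφ n _
  have hU'c : ∀ n w, φ n * coeff w (map (j1 : K →+* S.E) U') = coeff w (map (j1 : K →+* S.E) U') * φ n :=
    fun n w => hφ n _
  have hconj := SeriesComp.conj_sumPow (G := map (j1 : K →+* S.E) H) (by simp [coeff_map, hH0]) φ
    (U := map (j1 : K →+* S.E) U) (U' := map (j1 : K →+* S.E) U')
    (by rw [← map_mul, hUU, map_one]) (by rw [← map_mul, hU'U, map_one]) hUc
  refine Frozen.of_conj (map (j1 : K →+* S.E) U) (map (j1 : K →+* S.E) U')
    (by rw [← map_mul, hUU, map_one]) (by rw [← map_mul, hU'U, map_one]) ?_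
  rw [hconj.2]
  let cf : KConf S.Z Y := { K := K, g := f, g0 := hf0 }
  have hIsNF : cf.IsNF z := by
    refine ⟨by simpa using hfl z, fun p hp => by rw [show coeff [p] cf.g = coeff [p] f from rfl, hfl, if_neg hp], fun w hw hl => ?_⟩
    obtain ⟨x, rfl⟩ : ∃ x, w = x ++ [z] := by
      obtain ⟨x, a, hxa⟩ : ∃ x a, w = x ++ [a] := by
        rcases List.eq_nil_or_concat w with h | ⟨x, a, h⟩
        · subst h; simp at hl
        · exact ⟨x, a, by simpa using h⟩
      subst hxa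
      simp at hl
      exact ⟨x, by rw [hl]⟩
    by_cases hx : NormalForm.Pure z x
    · have hfpure : coeff (x ++ [z]) f = coeff (x ++ [z]) H :=
        hfp _ (fun a ha => by
          rcases List.mem_append.1 ha with h | h
          · exact hx a h
          · simpa using h)
      show coeff (x ++ [z]) f = 0
      rw [hfpure]
      have hrep : x ++ [z] = List.replicate (x.length + 1) z := by
        rw [List.replicate_succ']
        congr 1
        exact List.eq_replicate_iff.2 ⟨rfl, fun a ha => hx a ha⟩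
      rw [hrep, hHp, if_neg]
      intro h
      have hxnil : x = [] := by
        apply List.length_eq_zero_iff.1
        omega
      subst hxnil
      exact hw rfl
    · exact hfn x hx
  have hmapf : map (j1 : K →+* S.E) (U * H * U') = map (j1 : K →+* S.E) f := by
    rw [hf]
  have := frozen_of_NF cf z hIsNF j1 φ hφ
  have e : map (j1 : K →+* S.E) U * map (j1 : K →+* S.E) H * map (j1 : K →+* S.E) U' = map ((j1 : cf.K →ₐ[S.Z] S.E) : cf.K →+* S.E) cf.g := by
    rw [← map_mul, ← map_mul, ← hf]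
  rw [e]
  exact this

/-- Degree is positive. -/
theorem AConf.deg_pos {Z : Type} [Field Z] (c : AConf Z Y) : 0 < c.deg := by
  letI := algebraCenter Z c.A
  haveI := finite_center Z c.A
  have : FiniteDimensional (Subring.center c.A) c.A := by
    haveI : IsScalarTower Z (Subring.center c.A) c.A := .of_algebraMap_eq fun _ => rfl
    exact FiniteDimensional.right Z (Subring.center c.A) c.A
  exact Module.finrank_pos

/-- The induction hypothesis of the recursion. -/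
def FreezeIH (D : ℕ) : Prop := ∀ D' < D, ∀ (Y : Type) [Fintype Y] [DecidableEq Y] (S : Stage Y) (c : AConf S.Z Y)
    (j : c.A →ₐ[S.Z] S.E) (β : S.E), (∀ a, β * j a = j a * β) → c.deg ≤ D' →
    Frozen S (C β + map (j : c.A →+* S.E) c.f)

/-- A level step halving the degree. -/
theorem halve {D : ℕ} (IH : FreezeIH D) {Y₁ : Type} [Fintype Y₁] [DecidableEq Y₁] (S₁ : Stage Y₁) (c₁ : AConf S₁.Z Y₁)
    (j₁ : c₁.A →ₐ[S₁.Z] S₁.E) (β₁ : S₁.E) (hβ₁ : ∀ a, β₁ * j₁ a = j₁ a * β₁) (hD₁ : c₁.deg ≤ D) (κ₁ : c₁.A)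
    (hκ₁ : ∀ a, κ₁ * a = a * κ₁) {m : ℕ} [Fact m.Prime] (d : LevelData S₁.Z Y₁ m) {c' : AConf (Zp S₁.Z Y₁ m) (Fin d.n)}
    (st : AStep d c₁ c') (hhalf : 2 * c'.deg ≤ c₁.deg) :
    Frozen S₁ (C β₁ + C (j₁ κ₁) * map (j₁ : c₁.A →+* S₁.E) c₁.f) := by
  have hκmem : Rmap S₁.Z Y₁ m c₁.A κ₁ ∈ st.jp.range :=
    (st.jp_range _).2 (Rmap_central κ₁ hκ₁ _)
  obtain ⟨κ', hκ'⟩ := hκmem
  refine frozen_after_step d c₁ j₁ β₁ hβ₁ κ₁ hκ₁ st κ' hκ' (fun β' j' hβ' => ?_)
  have hlt : c'.deg < D := by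
    have := c₁.deg_pos
    have h' := c'.deg_pos
    omega
  let c'' : AConf (Zp S₁.Z Y₁ m) (Fin d.n) :=
    { A := c'.A, f := C κ' * c'.f, f0 := by
        rw [coeff_mul_nil, c'.f0, mul_zero] }
  exact IH c'.deg hlt (Fin d.n) (S₁.levelUp d) c'' j' β' hβ' le_rfl

/-- STEP 2 of blueprint sec 3. -/
theorem step2 {D : ℕ} (IH : FreezeIH D) {Y₁ : Type} [Fintype Y₁] [DecidableEq Y₁] (S1 : Stage Y₁) (c' : AConf S1.Z Y₁)
    (j₁ : c'.A →ₐ[S1.Z] S1.E) (β₁ : S1.E) (hβ₁ : ∀ a, β₁ * j₁ a = j₁ a * β₁) (hD1 : c'.deg ≤ D)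
    (hW' : c'.W ≠ ⊥)
    (hbudget : finrank S1.Z (Submodule.span S1.Z (Set.range fun y => coeff [y] c'.f)) + 1 ≤ Fintype.card Y₁) :
    Frozen S1 (C β₁ + map (j₁ : c'.A →+* S1.E) c'.f) := by
  have one_mul' : ∀ {T : Type} {V : Type} [Ring T] (x : NCS T V), (C (1 : T) : NCS T V) * x = x := by
    intro T V _ x
    rw [show (C (1 : T) : NCS T V) = 1 from rfl, one_mul]
  by_cases hcen : ∀ y a, coeff [y] c'.f * a = a * coeff [y] c'.f
  · -- (N2): the linear part is central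
    obtain ⟨y₁, hy₁⟩ : ∃ y, coeff [y] c'.f ≠ 0 := by
      by_contra h
      push_neg at h
      apply hW'
      rw [AConf.W, Submodule.span_eq_bot]
      rintro _ ⟨y, rfl⟩
      exact h y
    let κ := coeff [y₁] c'.f
    have hκc : ∀ a, κ * a = a * κ := hcen y₁
    have hκW : κ ∈ Submodule.span S1.Z (Set.range fun y => coeff [y] c'.f) :=
      Submodule.subset_span ⟨y₁, rfl⟩
    obtain ⟨n, v, U, U', g, hcard, hv, hUU, hU'U, hU1, hsec, hg0, hgl, hgp, hgn⟩ :=
      KillNF.exists_kill_normalForm c'.f c'.f0 κ κ⁻¹ (mul_inv_cancel₀ hy₁) (inv_mul_cancel₀ hy₁) hκc hκW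
    have hn : 1 ≤ n := by omega
    have hθ : SectionOK (lin v) := ⟨coeff_lin_nil v, by
      have : (fun y' y => coeff [y'] (lin v y)) = v := by
        funext y' y
        exact coeff_lin_single v y y'
      rw [this]
      exact hv⟩
    have h2' : 2 ≤ Fintype.card (Option (Fin n)) := by simp; omega
    let S2 := S1.section (lin v) hθ h2'
    have hsecb : (S1.sectionMove (lin v) hθ h2').Ψ (C β₁ + map (j₁ : c'.A →+* S1.E) c'.f) =
        C β₁ + map (j₁ : c'.A →+* S1.E) (sec (lin v) (coeff_lin_nil v) c'.f) := by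
      show substZ (lin v) hθ.zero S1.E _ = _
      rw [map_add, substZ_C, substZ_map]
      rfl
    refine Frozen.of_move (S1.sectionMove (lin v) hθ h2') 1 1 (by simp) (by simp) ?_
    rw [hsecb, one_mul, mul_one]
    -- conjugate into normal form
    have hV1 : map (j₁ : c'.A →+* S1.E) U * map (j₁ : c'.A →+* S1.E) U' = 1 := by
      rw [← map_mul, hUU, map_one]
    have hV2 : map (j₁ : c'.A →+* S1.E) U' * map (j₁ : c'.A →+* S1.E) U = 1 := by
      rw [← map_mul, hU'U, map_one]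
    refine Frozen.of_conj (S := S2) (map (j₁ : c'.A →+* S1.E) U) (map (j₁ : c'.A →+* S1.E) U') hV1 hV2 ?_
    have hcomm : (C β₁ : NCS S1.E (Option (Fin n))) * map (j₁ : c'.A →+* S1.E) U =
        map (j₁ : c'.A →+* S1.E) U * C β₁ := C_comm_of_coeff _ _ (fun w => hβ₁ _)
    have hconj : map (j₁ : c'.A →+* S1.E) U * (C β₁ + map (j₁ : c'.A →+* S1.E) (sec (lin v) (coeff_lin_nil v) c'.f)) *
        map (j₁ : c'.A →+* S1.E) U' = C β₁ + C (j₁ κ) * map (j₁ : c'.A →+* S1.E) g := by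
      have e1 : map (j₁ : c'.A →+* S1.E) U * map (j₁ : c'.A →+* S1.E) (sec (lin v) (coeff_lin_nil v) c'.f) *
          map (j₁ : c'.A →+* S1.E) U' = C (j₁ κ) * map (j₁ : c'.A →+* S1.E) g := by
        rw [← map_mul, ← map_mul, hsec, map_mul]
        congr 1
        ext w
        cases w <;> simp [coeff_map, coeff_C_nil, coeff_C_cons]
      calc _ = (map (j₁ : c'.A →+* S1.E) U * C β₁) * map (j₁ : c'.A →+* S1.E) U' +
            map (j₁ : c'.A →+* S1.E) U * map (j₁ : c'.A →+* S1.E) (sec (lin v) (coeff_lin_nil v) c'.f) *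
            map (j₁ : c'.A →+* S1.E) U' := by noncomm_ring
        _ = _ := by
          rw [← hcomm, mul_assoc, hV1, mul_one, e1]
    suffices hX : Frozen S2 (C β₁ + C (j₁ κ) * map (j₁ : c'.A →+* S1.E) g : NCS S1.E (Option (Fin n))) by
      have e := hconj.symm
      exact e ▸ hX
    let cg : AConf S2.Z (Option (Fin n)) := @AConf.mk S2.Z _ _ c'.A c'.dA c'.aA c'.fA g hg0
    by_cases hdat : ∀ w a, coeff w g * a = a * coeff w g
    · exact frozen_N2a (S := S2) cg none hgl hgn hdat j₁ β₁ hβ₁ κ hκc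
    · push_neg at hdat
      obtain ⟨w, a, hwa⟩ := hdat
      obtain ⟨M, hM⟩ := n2b cg none hgl hgn ⟨w, a, hwa⟩
      obtain ⟨m₃, hm₃, hp₃⟩ := exists_prime_fact (M + 2)
      have : Fact m₃.Prime := ⟨hp₃⟩
      obtain ⟨d₃, hd₃⟩ := exists_levelData_clock S2.Z (Option (Fin n)) m₃ S2.two none
      obtain ⟨c₃, ⟨st₃⟩⟩ := exists_aStep d₃ cg
      obtain ⟨x, hx⟩ := hM m₃ (by omega) d₃ hd₃ st₃
      obtain ⟨hv0, hv1⟩ := value_val_clock d₃ none hd₃ cg hgl (by omega)
      obtain ⟨-, -, hhalf⟩ := meas st₃ (by rw [st₃.hξ]; exact hv0) (by rw [st₃.hξ]; exact hv1)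
      exact halve IH S2 cg j₁ β₁ hβ₁ hD1 κ hκc d₃ st₃ (hhalf ⟨x, hx⟩)
  · -- (N1): the linear part is not central
    push_neg at hcen
    obtain ⟨y₀, a, hya⟩ := hcen
    have hfy0 : coeff [y₀] c'.f ≠ 0 := by
      intro h
      apply hya
      rw [h, zero_mul, mul_zero]
    have hf' : c'.f ≠ 0 := fun h => hfy0 (by rw [h]; rfl)
    obtain ⟨M, hM⟩ := n1 c' y₀ ⟨a, hya⟩
    obtain ⟨m₂, hm₂, hp₂⟩ := exists_prime_fact (M + 2)
    have : Fact m₂.Prime := ⟨hp₂⟩
    obtain ⟨d₂, hd₂⟩ := exists_levelData_generic S1.Z Y₁ m₂ S1.two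
    obtain ⟨c₂, ⟨st₂⟩⟩ := exists_aStep d₂ c'
    obtain ⟨x, hx⟩ := hM m₂ (by omega) d₂ hd₂ st₂
    have hnot₂ : c'.f ∉ ordGE Y₁ c'.A m₂ := fun h => hfy0 (mem_ordGE.1 h _ (by simp; omega))
    obtain ⟨hv0, hv1⟩ := value_val_generic d₂ hd₂ c' hf' hnot₂
    obtain ⟨-, -, hhalf⟩ := meas st₂ (by rw [st₂.hξ]; exact hv0) (by rw [st₂.hξ]; exact hv1)
    have := halve IH S1 c' j₁ β₁ hβ₁ hD1 1 (fun a => by simp) d₂ st₂ (hhalf ⟨x, hx⟩)
    rwa [map_one, one_mul'] at this

/-- The recursion (blueprint sec 3). -/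
theorem freeze_A (D : ℕ) : ∀ (Y : Type) [Fintype Y] [DecidableEq Y] (S : Stage Y) (c : AConf S.Z Y)
    (j : c.A →ₐ[S.Z] S.E) (β : S.E), (∀ a, β * j a = j a * β) → c.deg ≤ D →
    Frozen S (C β + map (j : c.A →+* S.E) c.f) := by
  induction D using Nat.strong_induction_on with
  | _ D IH =>
  intro Y _ _ S c j β hβ hD
  by_cases hf : c.f = 0
  · rw [hf, map_zero, add_zero]
    exact Frozen.of_const S β
  -- STEP 1
  obtain ⟨w₀, hw₀⟩ : ∃ w, coeff w c.f ≠ 0 := by
    by_contra h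
    push_neg at h
    exact hf (by ext w; exact h w)
  obtain ⟨m, hm, hp⟩ := exists_prime_fact (w₀.length + finrank S.Z c.A + 3)
  have : Fact m.Prime := ⟨hp⟩
  obtain ⟨d, hd⟩ := exists_levelData_generic S.Z Y m S.two
  obtain ⟨c', ⟨st⟩⟩ := exists_aStep d c
  have hnot : c.f ∉ ordGE Y c.A m := fun h => hw₀ (mem_ordGE.1 h _ (by omega))
  obtain ⟨hv0, hv1⟩ := value_val_generic d hd c hf hnot
  have hξ0 : st.jp st.ξ ≠ 0 := by rw [st.hξ]; exact hv0
  have hξ1 : ¬ ((m : ℤ) ∣ SL.val (st.jp st.ξ)) := by rw [st.hξ]; exact hv1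
  obtain ⟨hbound, hle, -⟩ := meas st hξ0 hξ1
  have hW' : c'.W ≠ ⊥ := aStep_W_ne d hd c hf hnot st
  have h1inv : st.jp 1 = Rmap S.Z Y m c.A 1 := by rw [map_one, map_one]
  have hstep1 : Frozen S (C β + C (j 1) * map (j : c.A →+* S.E) c.f) := by
    refine frozen_after_step d c j β hβ 1 (fun a => by simp) st 1 h1inv (fun β₁ j₁ hβ₁ => ?_)
    rw [show (C (1 : c'.A) : NCS c'.A (Fin d.n)) = 1 from rfl, one_mul]
    -- STEP 2 at the new stage
    have hbudget : finrank (Zp S.Z Y m) (Submodule.span (Zp S.Z Y m) (Set.range fun y => coeff [y] c'.f)) + 1 ≤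
        Fintype.card (Fin d.n) := by
      have h1 := Submodule.finrank_le (Submodule.span (Zp S.Z Y m) (Set.range fun y => coeff [y] c'.f))
      have h2 := d.n_eq
      have h3 : 2 ≤ Fintype.card Y := S.two
      have h4 : m * finrank S.Z c.A ≤ m * m := Nat.mul_le_mul_left _ (by omega)
      rw [Fintype.card_fin]
      nlinarith
    exact step2 (D := D) IH (S.levelUp d) c' j₁ β₁ hβ₁ (hle.trans hD) hW' hbudget
  rwa [map_one, show (C (1 : S.E) : NCS S.E Y) = 1 from rfl, one_mul] at hstep1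

/-- FREEZE. -/
theorem freeze (S : Stage Y) (b : NCS S.E Y) : Frozen S b := by
  obtain ⟨c', jp, U, U', h1, h2, -, hr, he⟩ := exists_hensel (Z₁ := S.Z) b
  refine Frozen.of_conj U U' h1 h2 ?_
  rw [he]
  refine freeze_A _ Y S c' jp _ (fun a => ?_) le_rfl
  exact ((hr _).1 ⟨a, rfl⟩).symm

end ALevelGlue

end Crest.Agent.Lib.Kurosh
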