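import Crest.Agent.Lib.Kurosh.SkewLaurent
import Crest.Agent.Lib.Kurosh.Mono

/-!
# Blueprint Section 3, Step 1 (core of Lemma `W' ≠ 0`)

`S` a division ring, `SL S σ` the skew Laurent series.  Let `Tr` be an additive cyclic functional
which sends elements of positive valuation into a subgroup `P`, and `d • Tr 1 ∉ P`.
Then `d • ξ + η`, with `val η > val ξ`, is not a commutator `[ξ, x]`.
-/

set_option autoImplicit false

namespace Crest.Agent.Lib.Kurosh.Step1

open SL

variable {S : Type*} [DivisionRing S] {σ : RingAut S} {M : Type*} [AddCommGroup M]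

theorem lB_inv {ξ : SL S σ} (hξ : ξ ≠ 0) : (ξ⁻¹).LB (-val ξ) := by
  have h1 : ξ * ξ⁻¹ = 1 := mul_inv_cancel₀ hξ
  have hne : ξ⁻¹ ≠ 0 := inv_ne_zero hξ
  have h2 := val_mul hξ hne
  rw [h1] at h2
  have h3 : val (1 : SL S σ) = 0 := by
    apply val_eq_of
    · rw [coeff_one, if_pos rfl]; exact one_ne_zero
    · exact lB_one
  have : val ξ⁻¹ = - val ξ := by omega
  rw [← this]
  exact lB_val _

theorem not_comm_of_lead (Tr : SL S σ →+ M) (P : AddSubgroup M)
    (hcyc : ∀ x y, Tr (x * y) = Tr (y * x)) (hpos : ∀ x : SL S σ, x.LB 1 → Tr x ∈ P)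
    (d : ℕ) (h1 : d • Tr 1 ∉ P) {ξ η x : SL S σ} (hξ : ξ ≠ 0) (hη : η.LB (val ξ + 1))
    (heq : d • ξ + η = ξ * x - x * ξ) : False := by
  apply h1
  have hy : (ξ⁻¹ * η).LB 1 := by
    have := (lB_inv hξ).mul hη
    simpa using this
  have hmul : d • (1 : SL S σ) + ξ⁻¹ * η = x - ξ⁻¹ * (x * ξ) := by
    have := congrArg (fun t => ξ⁻¹ * t) heq
    simp only [mul_add, mul_sub, mul_smul_comm] at this
    rw [inv_mul_cancel₀ hξ] at this
    simp only [← mul_assoc, inv_mul_cancel₀ hξ, one_mul] at this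
    simpa [mul_assoc] using this
  have hTr := congrArg Tr hmul
  rw [map_add, map_nsmul, map_sub] at hTr
  have hc : Tr (ξ⁻¹ * (x * ξ)) = Tr x := by
    rw [hcyc, mul_assoc, mul_inv_cancel₀ hξ, mul_one]
  rw [hc, sub_self] at hTr
  have : d • Tr 1 = - Tr (ξ⁻¹ * η) := eq_neg_of_add_eq_zero_left hTr
  rw [this]
  exact P.neg_mem (hpos _ hy)


/-! ### The leading term: monomials of words of length `≤ m` are `Z`-independent -/

section Lead

open RatExt Mono
open scoped TensorProduct

variable (Z : Type*) [Field Z] (Y : Type*) (m : ℕ) [NeZero m]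

open Classical in
/-- The specialization point of a word. -/
noncomputable def pt (u : List Y) : ZMod m × Y → Z := fun p =>
  if ∃ (i : ℕ) (hi : i < u.length), p.1 = (i : ZMod m) ∧ u[i] = p.2 then 1 else 0

theorem eval_pt_self (u : List Y) :
    MvPolynomial.eval (pt Z Y m u) (pw Z Y m 0 u) = 1 := by
  apply eval_pw_eq_one
  intro i hi
  simp only [pt]
  rw [if_pos]
  exact ⟨i, hi, by simp, rfl⟩

theorem eval_pt_ne {u v : List Y} (hlen : v.length = u.length) (hm : u.length ≤ m) (hne : v ≠ u) :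
    MvPolynomial.eval (pt Z Y m u) (pw Z Y m 0 v) = 0 := by
  have : ∃ (i : ℕ) (hi : i < v.length), ∀ (hi' : i < u.length), v[i] ≠ u[i] := by
    by_contra hcon
    push Not at hcon
    apply hne
    apply List.ext_getElem hlen
    intro i h1 h2
    obtain ⟨h, hh⟩ := hcon i h1
    exact hh
  obtain ⟨i, hi, hne'⟩ := this
  apply eval_pw_eq_zero Z Y m _ v 0 i hi
  simp only [pt]
  rw [if_neg]
  rintro ⟨j, hj, hij, hju⟩
  rw [zero_add] at hij
  have h1 := (ZMod.natCast_eq_natCast_iff' _ _ m).1 hij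
  rw [Nat.mod_eq_of_lt (by omega), Nat.mod_eq_of_lt (by omega)] at h1
  subst h1
  exact hne' hj hju.symm

/-- Monomials of words of a fixed length `d ≤ m` are `Z`-independent. -/
theorem lw_linearIndependent (d : ℕ) (hd : d ≤ m) :
    LinearIndependent Z (fun v : {v : List Y // v.length = d} => lw Z Y m (v : List Y)) := by
  classical
  rw [linearIndependent_iff']
  intro s c hsum u hu
  have h1 : algebraMap (Pol Z Y m) (L0 Z Y m) (∑ v ∈ s, c v • pw Z Y m 0 (v : List Y)) = 0 := by
    rw [map_sum, ← hsum]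
    refine Finset.sum_congr rfl fun v _ => ?_
    rw [lw]
    exact (map_smul (IsScalarTower.toAlgHom Z (Pol Z Y m) (L0 Z Y m)) _ _)
  have h2 : (∑ v ∈ s, c v • pw Z Y m 0 (v : List Y)) = 0 :=
    IsFractionRing.injective (Pol Z Y m) (L0 Z Y m) (by rw [h1, map_zero])
  have h3 := congrArg (MvPolynomial.eval (pt Z Y m (u : List Y))) h2
  rw [map_sum, map_zero, Finset.sum_eq_single u] at h3
  · rw [MvPolynomial.smul_eval, eval_pt_self, mul_one] at h3
    exact h3
  · intro v _ hne
    rw [MvPolynomial.smul_eval, eval_pt_ne Z Y m (by rw [v.2, u.2]) (by rw [u.2]; exact hd)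
      (fun h => hne (Subtype.ext h)), mul_zero]
  · intro h; exact absurd hu h

/-- The leading coefficient of `f(τ)`: if `∑_w l(w) ⊗ f_w = 0` over words of length `d ≤ m` then
all `f_w` vanish.  -/
theorem eq_zero_of_sum_lw_tmul {A : Type*} [AddCommGroup A] [Module Z A] (d : ℕ) (hd : d ≤ m)
    (S : Finset {v : List Y // v.length = d}) (f : {v : List Y // v.length = d} → A)
    (h : ∑ v ∈ S, (lw Z Y m (v : List Y)) ⊗ₜ[Z] f v = 0) : ∀ v ∈ S, f v = 0 := by
  classical
  have hind := lw_linearIndependent Z Y m d hd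
  intro u hu
  -- the coordinate functional
  let φ₀ : Submodule.span Z (Set.range (fun v : {v : List Y // v.length = d} => lw Z Y m (v : List Y))) →ₗ[Z] Z :=
    (Finsupp.lapply u) ∘ₗ hind.repr
  obtain ⟨φ, hφ⟩ := LinearMap.exists_extend φ₀
  have hval : ∀ v : {v : List Y // v.length = d}, φ (lw Z Y m (v : List Y)) = if v = u then 1 else 0 := by
    intro v
    have hm : lw Z Y m (v : List Y) ∈ Submodule.span Z (Set.range (fun v : {v : List Y // v.length = d} => lw Z Y m (v : List Y))) :=
      Submodule.subset_span ⟨v, rfl⟩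
    have := LinearMap.congr_fun hφ ⟨_, hm⟩
    simp only [LinearMap.comp_apply, Submodule.subtype_apply] at this
    rw [this]
    show (hind.repr ⟨_, hm⟩) u = _
    have hr : hind.repr ⟨_, hm⟩ = Finsupp.single v 1 := hind.repr_eq_single v _ rfl
    rw [hr, Finsupp.single_apply]
  have h2 := congrArg (TensorProduct.lid Z A ∘ TensorProduct.map φ LinearMap.id) h
  simp only [Function.comp_apply, map_sum, TensorProduct.map_tmul, TensorProduct.lid_tmul,
    LinearMap.id_apply, hval, map_zero, ite_smul, one_smul, zero_smul] at h2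
  rw [Finset.sum_ite_eq' S u, if_pos hu] at h2
  exact h2

end Lead

end Crest.Agent.Lib.Kurosh.Step1
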