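import Mathlib
import Crest.Agent.Lib.Kurosh.AssemblyAbs
import Crest.Agent.Lib.Kurosh.StageDefs

/-!
# S0270: top wiring (helper63)

From the Freezing theorem `∀ (S : Stage (Fin 2)) b, Frozen S b` to the statement of S0270, through
helper75's `AssemblyAbs`.
-/

set_option autoImplicit false

namespace Crest.Agent.Lib.Kurosh.Top

open NCSeries Module

section Center

variable {Z E : Type} [Field Z] [DivisionRing E] [Algebra Z E] [Algebra.IsCentral Z E]

theorem mem_center_iff' (x : E) : x ∈ Subring.center E ↔ x ∈ Set.range (algebraMap Z E) := by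
  constructor
  · intro hx
    have : x ∈ Subalgebra.center Z E := by
      rw [Subalgebra.mem_center_iff]
      intro y
      exact (Subring.mem_center_iff.mp hx y)
    have h2 := (Algebra.IsCentral.out : Subalgebra.center Z E ≤ ⊥) this
    rwa [Algebra.mem_bot] at h2
  · rintro ⟨z, rfl⟩
    rw [Subring.mem_center_iff]
    intro y
    exact (Algebra.commutes z y).symm

/-- The ring iso `Z ≃ center E`. -/
noncomputable def toCenter : Z →+* Subring.center E :=
  (algebraMap Z E).codRestrict (Subring.center E) fun z =>
    (mem_center_iff' (Z := Z) _).2 ⟨z, rfl⟩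

theorem toCenter_bij : Function.Bijective (toCenter (Z := Z) (E := E)) := by
  constructor
  · intro a b h
    have : algebraMap Z E a = algebraMap Z E b := congrArg Subtype.val h
    exact (algebraMap Z E).injective this
  · rintro ⟨x, hx⟩
    obtain ⟨z, rfl⟩ := (mem_center_iff' (Z := Z) x).1 hx
    exact ⟨z, rfl⟩

theorem rank_center : Module.rank (Subring.center E) E = Module.rank Z E := by
  refine (rank_eq_of_equiv_equiv (toCenter (Z := Z) (E := E)) (AddEquiv.refl E) toCenter_bij ?_).symm
  intro r m
  simp only [AddEquiv.refl_apply, Algebra.smul_def]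
  rfl

theorem finrank_center : finrank (Subring.center E) E = finrank Z E := by
  simp only [finrank, rank_center (Z := Z)]

theorem finite_center [FiniteDimensional Z E] : FiniteDimensional (Subring.center E) E := by
  have h : Module.rank (Subring.center E) E < Cardinal.aleph0 := by
    rw [rank_center (Z := Z)]
    exact Module.rank_lt_aleph0 Z E
  exact Module.rank_lt_aleph0_iff.mp h

omit [Algebra.IsCentral Z E] in
theorem charZero_E [CharZero Z] : CharZero E :=
  charZero_of_injective_algebraMap (algebraMap Z E).injective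

end Center

/-- The abstract system of stages with two letters. -/
noncomputable def sys : AssemblyAbs.StageSystem.{1} where
  Stage := Stage (Fin 2)
  E S := S.E
  divE S := inferInstance
  charE S := charZero_E (Z := S.Z)
  fdE S := finite_center (Z := S.Z)
  G S := NCS S.E (Fin 2)
  ringG S := inferInstance
  C S := CHom
  ct S := constHom
  ct_C S e := rfl
  C_central S z hz g := by
    ext w
    rw [CHom_apply, C_mul_coeff, coeff_mul_C]
    exact Subring.mem_center_iff.mp hz _ |>.symm
  Φ S := S.Φ
  gen S := by
    rw [eq_top_iff]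
    rintro x -
    have hx : x ∈ Algebra.adjoin S.Z (Set.range fun i => coeff [] (S.Φ i)) := by
      rw [S.gen]; trivial
    induction hx using Algebra.adjoin_induction with
    | mem y hy => exact Algebra.subset_adjoin hy
    | algebraMap z =>
      exact Subalgebra.algebraMap_mem _
        (⟨algebraMap S.Z S.E z, (mem_center_iff' (Z := S.Z) _).2 ⟨z, rfl⟩⟩ : Subring.center S.E)
    | add a b _ _ ha hb => exact Subalgebra.add_mem _ ha hb
    | mul a b _ _ ha hb => exact Subalgebra.mul_mem _ ha hb

theorem ι_center_aux {S S' : Stage (Fin 2)} (μ : Move S S') (z : S.E)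
    (hz : z ∈ Subring.center S.E) : μ.ι z ∈ Subring.center S'.E := by
  obtain ⟨w, rfl⟩ := (mem_center_iff' (Z := S.Z) z).1 hz
  rw [μ.ι_alg]
  exact (mem_center_iff' (Z := S'.Z) _).2 ⟨_, rfl⟩

theorem red_aux {S S' : Stage (Fin 2)} (μ : Move S S')
    (v : AssemblyAbs.Names → Subring.center S.E) (v' : AssemblyAbs.Names → Subring.center S'.E)
    (hv : ∀ n, (v' n : S'.E) = μ.ι (v n)) (a : AssemblyAbs.T)
    (h : evT S'.q (fun k => (v' k : S'.E)) a = 0) : evT S.q (fun k => (v k : S.E)) a = 0 := by
  have hz : ∀ n, ∃ z : S.Z, algebraMap S.Z S.E z = (v n : S.E) := fun n =>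
    (mem_center_iff' (Z := S.Z) _).1 (v n).2
  choose z hz using hz
  have h1 : evT S'.q (fun k => algebraMap S'.Z S'.E (μ.ιZ (z k))) a = 0 := by
    have e : (fun k => algebraMap S'.Z S'.E (μ.ιZ (z k))) = fun k => (v' k : S'.E) := by
      funext k
      rw [← μ.ι_alg, hz k]
      exact (hv k).symm
    rw [e]
    exact h
  have h2 := μ.red a z h1
  have e : (fun k => algebraMap S.Z S.E (z k)) = fun k => (v k : S.E) := by
    funext k
    exact hz k
  rw [e] at h2
  exact h2

/-- A move of the skeleton gives a move of the abstract system. -/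
noncomputable def toMove {S S' : Stage (Fin 2)} (μ : Move S S') : AssemblyAbs.Move sys S S' where
  ι := μ.ι
  Ψ := μ.Ψ
  Ψ_C e := μ.Ψ_C e
  Ψ_Φ i := μ.Ψ_Φ i
  ι_center z hz := ι_center_aux μ z hz
  reduction v v' hv a h := red_aux μ v v' hv a h

/-- Frozen implies the abstract freeze. -/
theorem freezes_of (freeze : ∀ (S : Stage (Fin 2)) (b : NCS S.E (Fin 2)), Frozen S b) :
    AssemblyAbs.Freezes sys := by
  intro S b
  obtain ⟨S', μ, hd, U, U', c, h1, h2, h3⟩ := freeze S b
  refine ⟨S', toMove μ, ?_, U, U', c, h1, h2, h3⟩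
  show finrank (Subring.center S.E) S.E < finrank (Subring.center S'.E) S'.E
  rw [finrank_center (Z := S.Z), finrank_center (Z := S'.Z)]
  have : 0 < finrank S.Z S.E := Module.finrank_pos
  omega

/-- The initial stage: `E = ℚ`, letters `p₁, p₂`. -/
noncomputable def S0 : Stage (Fin 2) where
  Z := ℚ
  E := ℚ
  Φ i := X i
  two := by simp
  gen := by
    rw [eq_top_iff]
    rintro x -
    exact Subalgebra.algebraMap_mem _ x
  ind := by
    intro α u h
    funext i
    have := h i
    simp only [coeff_X_nil, zero_mul, mul_zero, sub_self] at this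
    rw [Finset.sum_eq_single i] at this
    · simpa using this
    · intro y _ hy
      have : coeff [y] (X i : NCS ℚ (Fin 2)) = 0 := by
        rw [coeff_X, if_neg]
        simp [hy]
      rw [this, mul_zero]
    · simp

/-- **Top wiring.** -/
theorem top (freeze : ∀ (S : Stage (Fin 2)) (b : NCS S.E (Fin 2)), Frozen S b) :
    ∃ (D : Type) (_ : DivisionRing D), Countable D ∧ CharZero D ∧
      Algebra.IsAlgebraic (Subring.center D) D ∧
      (∃ x y : D, Algebra.adjoin (Subring.center D) ({x, y} : Set D) = ⊤) ∧
      ¬ FiniteDimensional (Subring.center D) D :=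
  AssemblyAbs.assembly (freezes_of freeze) S0

end Crest.Agent.Lib.Kurosh.Top
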